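/-
R68/Defs: generic definitions for row 68 (non-uniqueness for the hard-sphere Boltzmann equation).
Author: helper76.  FROZEN (ask helper76 for changes).  Densities take values in `ℝ≥0∞`.
-/
import Mathlib
import Crest.Prelude.Def_VecCalc3
import Crest.Prelude.Def_HardSphereBoltzmann

set_option autoImplicit false

noncomputable section

namespace Crest.Agent.R68

open MeasureTheory Set Filter Topology
open scoped ENNReal NNReal
open Crest.AnalysisR.VecCalc3 Crest.AnalysisR.PDE.Boltzmann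

/-! ### The collision operator -/

/-- The collision weight `|⟪v - v⁎, ω⟫|`. -/
def cw (v vs w : R3) : ℝ≥0∞ := ENNReal.ofReal |inner ℝ (v - vs) w|

/-- The bilinear gain term. -/
def gn (f g : R3 → ℝ≥0∞) (v : R3) : ℝ≥0∞ :=
  ∫⁻ vs, ∫⁻ w, cw v vs w * (f (postVel v vs w) * g (postVelStar v vs w)) ∂sphereMeasure

/-- The collision frequency. -/
def ls (g : R3 → ℝ≥0∞) (v : R3) : ℝ≥0∞ := ∫⁻ vs, ∫⁻ w, cw v vs w * g vs ∂sphereMeasure

/-- `∫ |ω₀| dω` (`= 2π`, only `0 < cL` is used). -/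
def cL : ℝ := ∫ w, |w 0| ∂sphereMeasure

/-- The unit vector in the direction of `z`. -/
def dir (z : R3) : R3 := ‖z‖⁻¹ • z

/-- For a unit vector `n`: the integral of `g` over the plane through `v` orthogonal to `n`. -/
def pl (g : R3 → ℝ≥0∞) (v n : R3) : ℝ≥0∞ :=
  ∫⁻ z in {z : R3 | inner ℝ z n ∈ Icc (0 : ℝ) 1}, g (v + (z - inner ℝ z n • n))

/-- The measure on collision triples `(v, v⁎, ω)`. -/
def colM : Measure (R3 × R3 × R3) := (volume : Measure R3).prod ((volume : Measure R3).prod sphereMeasure)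

/-- Gaussians. -/
def ga (β : ℝ) (v : R3) : ℝ≥0∞ := ENNReal.ofReal (Real.exp (-β * ‖v‖ ^ 2))

/-- The Maxwellian. -/
def Mx (v : R3) : ℝ≥0∞ := ENNReal.ofReal (maxwellian v)

/-- The weight `1 + ‖v‖`. -/
def br (v : R3) : ℝ≥0∞ := ENNReal.ofReal (1 + ‖v‖)

/-- Grad-type majorant kernel. -/
def kk (z : R3) : ℝ≥0∞ := (1 + ‖z‖ₑ⁻¹) * ga (1 / 16) z

/-- A singular bump at the velocity `U`, regularised at the scale `ϑ`. -/
def sg (U : R3) (ϑ : ℝ) (v : R3) : ℝ≥0∞ :=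
  if ‖v - U‖ ≤ 1 ∧ ‖v‖ ≤ 4 then ENNReal.ofReal ((‖v - U‖ + ϑ) ^ (-(5 / 4) : ℝ)) else 0

/-- Admissible velocity weights: one plus singular bumps of total strength at most `N`. -/
def AdmW (N : ℝ≥0) (w : R3 → ℝ≥0∞) : Prop :=
  ∃ (ι : Type) (s : Finset ι) (c : ι → ℝ≥0) (U : ι → R3) (ϑ : ι → ℝ),
    (∀ i, 0 ≤ ϑ i) ∧ ∑ i ∈ s, c i ≤ N ∧ ∀ v, w v = 1 + ∑ i ∈ s, (c i : ℝ≥0∞) * sg (U i) (ϑ i) v

/-! ### Duhamel formulas -/

/-- `exp (-y)`. -/
def ex (y : ℝ≥0∞) : ℝ≥0∞ := EReal.exp (-(y : EReal))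

/-- The solution of `u' = -a u + q`, `u r = u₀`. -/
def duh (u₀ : ℝ≥0∞) (a q : ℝ → ℝ≥0∞) (r t : ℝ) : ℝ≥0∞ :=
  u₀ * ex (∫⁻ s in Ioc r t, a s) + ∫⁻ s in Ioc r t, ex (∫⁻ s' in Ioc s t, a s') * q s

/-- Functions of `(t, x, v)`. -/
abbrev Fn : Type := ℝ → R3 → R3 → ℝ≥0∞

/-- Joint measurability. -/
def Meas (F : Fn) : Prop := Measurable fun p : ℝ × R3 × R3 => F p.1 p.2.1 p.2.2

/-- The translation group `ℝ × ℤ × ℤ`. -/
def Gam : Set R3 := {a | (∃ k : ℤ, a 1 = k) ∧ ∃ k : ℤ, a 2 = k}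

/-- Invariance under `Gam`. -/
def InvF (F : Fn) : Prop := ∀ t x v, ∀ a ∈ Gam, F t (x + a) v = F t x v

/-- `F ≤ G` for the times in `[r, T]`. -/
def LeOn (r T : ℝ) (F G : Fn) : Prop := ∀ t ∈ Icc r T, ∀ x v, F t x v ≤ G t x v

/-- The values on the characteristic that ends at `(t, x, v)`. -/
def pa (f : Fn) (t : ℝ) (x v : R3) (s : ℝ) : ℝ≥0∞ := f s (x - (t - s) • v) v

def GN (f g : Fn) : Fn := fun t x v => gn (f t x) (g t x) v

def LS (g : Fn) : Fn := fun t x v => ls (g t x) v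

/-- Integral along the characteristic. -/
def PI (f : Fn) (r : ℝ) : Fn := fun t x v => ∫⁻ s in Ioc r t, pa f t x v s

/-- Attenuated integral along the characteristic. -/
def AI (a f : Fn) (r : ℝ) : Fn := fun t x v =>
  ∫⁻ s in Ioc r t, ex (∫⁻ s' in Ioc s t, pa a t x v s') * pa f t x v s

/-- The mild solution of `(∂ₜ + v·∇) u = -a u + q`, `u r = u₀`. -/
def DU (u₀ : R3 → R3 → ℝ≥0∞) (a q : Fn) (r : ℝ) : Fn := fun t x v =>
  duh (u₀ (x - (t - r) • v) v) (pa a t x v) (pa q t x v) r t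

/-- A function of time as a function of `(t, x, v)`. -/
def tm (j : ℝ → ℝ) : Fn := fun t _ _ => ENNReal.ofReal (j t)

/-- A function of the velocity as a function of `(t, x, v)`. -/
def vl (g : R3 → ℝ≥0∞) : Fn := fun _ _ v => g v

/-- The real density. -/
def re (F : Fn) : ℝ → R3 → R3 → ℝ := fun t x v => (F t x v).toReal

/-- The slab `0 ≤ x₀ ≤ 1`. -/
def slab : Set R3 := {x | x 0 ∈ Icc (0 : ℝ) 1}

/-! ### Solutions along characteristics -/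

/-- Integrability data of a density on `[0, T]`. -/
structure Env (F : Fn) (T : ℝ) where
  ρ : ℝ → R3 → ℝ≥0∞
  B : ℝ → R3 → ℝ≥0∞
  p : ℕ
  mρ : Measurable fun q : ℝ × R3 => ρ q.1 q.2
  mB : Measurable fun q : ℝ × R3 => B q.1 q.2
  one_ρ : ∀ t x, 1 ≤ ρ t x
  one_B : ∀ t x, 1 ≤ B t x
  mom : ∀ k : ℕ, ∃ C : ℝ≥0, ∀ t ∈ Icc 0 T, ∀ x, ∫⁻ v, br v ^ k * F t x v ≤ C * ρ t x
  sup : ∀ t ∈ Icc 0 T, ∀ x v, F t x v ≤ B t x ^ p
  int₁ : ∫⁻ t in Ioc 0 T, ∫⁻ x in cell, ρ t x ^ (5 / 2 : ℝ) ≠ ⊤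
  int₂ : ∃ C : ℝ≥0, ∀ t ∈ Icc 0 T, ∫⁻ x in cell, (ρ t x ^ (3 / 2 : ℝ) + B t x) ≤ C

/-- A solution of the Boltzmann equation on `[0, T]`, in integrated form on every characteristic. -/
structure Plain (F : Fn) (T : ℝ) : Prop where
  meas : Meas F
  per : ∀ t v, IsPeriodic3 fun x => F t x v
  fin : ∀ t ∈ Icc 0 T, ∀ x v, F t x v ≠ ⊤
  eq : ∀ t ∈ Icc 0 T, ∀ x v,
    F t x v + PI (F * LS F) 0 t x v = F 0 (x - t • v) v + PI (GN F F) 0 t x v
  env : Nonempty (Env F T)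

/-- A "positive linear functional" on measurable functions. -/
structure IsLin {X : Type} [MeasurableSpace X] (Λ : (X → ℝ≥0∞) → ℝ≥0∞) : Prop where
  add : ∀ f g, Measurable f → Measurable g → Λ (f + g) = Λ f + Λ g
  smul : ∀ (c : ℝ≥0∞) f, Measurable f → Λ (fun x => c * f x) = c * Λ f
  sup : ∀ f : ℕ → X → ℝ≥0∞, (∀ n, Measurable (f n)) → Monotone f →
    Λ (fun x => ⨆ n, f n x) = ⨆ n, Λ (f n)

end Crest.Agent.R68
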