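/-
R68/ADefs: the abstract interfaces of the initial layer (`P1`) and of the global part (`P2`).
Author: helper76.  FROZEN (ask helper76 for changes).
-/
import Crest.Agent.R68.Defs

set_option autoImplicit false

noncomputable section

namespace Crest.Agent.R68

open MeasureTheory Set Filter Topology
open scoped ENNReal NNReal
open Crest.AnalysisR.VecCalc3 Crest.AnalysisR.PDE.Boltzmann

/-- `F ≤ G` for the times in `(r, T]`. -/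
def LeOc (r T : ℝ) (F G : Fn) : Prop := ∀ t ∈ Ioc r T, ∀ x v, F t x v ≤ G t x v

/-- Measurable, invariant and finite. -/
structure Reg (F : Fn) : Prop where
  meas : Meas F
  inv : InvF F
  fin : ∀ t x v, F t x v ≠ ⊤

/-- A function of `(t, x, v)` from a function on the product. -/
def cur (f : ℝ × R3 × R3 → ℝ≥0∞) : Fn := fun t x v => f (t, x, v)

/-- The value at time `t` as a function on the product. -/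
def unc (F : Fn) (t : ℝ) : R3 × R3 → ℝ≥0∞ := fun p => F t p.1 p.2

/-- `t ^ a`. -/
def pw (a : ℕ) : Fn := tm fun t => t ^ a

/-! ### The initial layer `[0, t₁]` -/

/-- `E0`: the freely transported cold gas; `E1`: its self-collision products; `H`: envelope of the
ambient gas; `W`: weight of the hot particles; `F0`: the datum. -/
structure P1 where
  (E0 E1 H W : Fn)
  F0 : R3 → R3 → ℝ≥0∞
  t₁ : ℝ
  (b₀ Cw K e η x₀ : ℝ≥0)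
  n₂ : ℕ

namespace P1

variable (D : P1)

def Ec : Fn := D.E0 + D.E1
def b₁ : ℝ≥0 := 2 * D.Cw * D.b₀
/-- the part above the cold and ambient envelopes -/
def hot (F : Fn) : Fn := F - (D.Ec + D.H)
/-- truncation -/
def tr (F : Fn) : Fn := F ⊓ (D.Ec + D.H + (D.x₀ : ℝ≥0∞) • D.W)
/-- the truncated gain term -/
def gain (F : Fn) : Fn :=
  GN (D.tr F) (D.tr F) + (2 * (1 - D.e : ℝ≥0∞)) • GN D.E0 (F - D.tr F)
/-- the attenuation rate that is always available -/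
def att : Fn := (2⁻¹ : ℝ≥0∞) • LS D.E0
def env (M : ℝ≥0∞) (a : ℕ) : Fn := D.Ec + D.H + M • (pw a * D.W)
/-- the weight of the contraction arguments -/
def Z (ε : ℝ≥0) (Λ : ℝ) (a : ℕ) : Fn :=
  tm (fun t => Real.exp (Λ * t)) * ((ε : ℝ≥0∞) • D.Ec + D.H + pw a * D.W)

structure OK : Prop where
  rE0 : Reg D.E0
  rE1 : Reg D.E1
  rH : Reg D.H
  rW : Reg D.W
  mF0 : Measurable fun p : R3 × R3 => D.F0 p.1 p.2
  iF0 : ∀ x v, ∀ c ∈ Gam, D.F0 (x + c) v = D.F0 x v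
  t₁_pos : 0 < D.t₁
  t₁_le : D.t₁ ≤ 1
  one_Cw : 1 ≤ D.Cw
  one_K : 1 ≤ D.K
  x₀_le : D.x₀ ≤ 1
  e_small : 100 * D.e * D.Cw * (2 + D.b₁) ^ 2 ≤ 1
  η_small : 100 * D.η * (2 + D.b₁) ^ 2 ≤ 1
  n₂_ge : 20 * D.b₁ + 2 ≤ D.n₂
  depl : (1 + 8 * D.K : ℝ) * D.t₁ ≤ D.e
  E0_pa : ∀ t x v s, pa D.E0 t x v s = D.E0 t x v
  E0_le : ∀ x v, D.E0 0 x v ≤ D.F0 x v
  F0_le : ∀ t ∈ Icc 0 D.t₁, ∀ x v, D.F0 (x - t • v) v ≤ D.E0 t x v + 4⁻¹ * D.H t x v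
  F0_path : ∀ t ∈ Icc 0 D.t₁, ∀ x v, D.F0 (x - t • v) v ≠ 0 → PI (LS D.E0) 0 t x v ≠ ⊤
  E1_pa : ∀ t x v s, s ≤ t → pa D.E1 t x v s ≤ D.E1 t x v
  W_pa : ∀ t ∈ Icc 0 D.t₁, ∀ x v, ∀ s ∈ Ioc 0 t, pa D.W t x v s ≤ D.Cw * ga (t - s) v * D.W t x v
  H_pa : ∀ t ∈ Icc 0 D.t₁, ∀ x v, ∀ s ∈ Ioc 0 t, pa D.H t x v s ≤ D.Cw * ga (t - s) v * D.H t x v
  EE : LeOn 0 D.t₁ (PI (GN D.Ec D.Ec) 0) ((D.η : ℝ≥0∞) • (D.E1 + D.H))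
  EH : LeOn 0 D.t₁ (PI (GN D.Ec D.H) 0) ((D.η : ℝ≥0∞) • D.H)
  HH : LeOn 0 D.t₁ (PI (GN D.H D.H) 0) ((D.η : ℝ≥0∞) • D.H)
  E0W : LeOc 0 D.t₁ (GN D.E0 D.W) (tm (fun t => D.b₀ / t) * D.W)
  E1W : LeOc 0 D.t₁ (GN D.E1 D.W) D.W
  HW : LeOc 0 D.t₁ (GN D.H D.W) ((D.K : ℝ≥0∞) • (vl br * D.W))
  WW : LeOc 0 D.t₁ (GN D.W D.W) ((D.K : ℝ≥0∞) • (vl br * D.W))
  /-- the non-singular gains are small on `[0, t₁]` -/
  RW : ∀ (v : R3) (t : ℝ), t ≤ D.t₁ →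
    (6 * D.K * D.Cw : ℝ≥0∞) * ∫⁻ s in Ioc 0 t, br v * ga (t - s) v ≤ D.η
  LE0 : LeOc 0 D.t₁ (LS D.E0) (tm (fun t => D.b₀ / t) * vl br)
  LE1 : LeOc 0 D.t₁ (LS D.E1) (vl br)
  LH : LeOc 0 D.t₁ (LS D.H) ((D.K : ℝ≥0∞) • vl br)
  LW : LeOc 0 D.t₁ (LS D.W) ((D.K : ℝ≥0∞) • vl br)
  self : ∀ t ∈ Icc 0 D.t₁, ∀ x v, D.Ec t x v ≠ 0 →
    ‖v‖ ≤ 3 ∧ ∀ s ∈ Ioc 0 t, pa (LS D.Ec) t x v s ≤ 1

/-- Admissible sources. -/
structure Src (g : Fn) : Prop where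
  meas : Meas g
  inv : InvF g
  bd : ∃ M : ℝ≥0, LeOn 0 D.t₁ (PI g 0) ((M : ℝ≥0∞) • (pw D.n₂ * D.W))

/-- The Picard map of the truncated problem with the source `σ g`. -/
def Phi (σ : ℝ≥0) (g F : Fn) : Fn := DU D.F0 (LS (D.tr F)) (D.gain F + (σ : ℝ≥0∞) • g) 0

/-- Solutions of the truncated problem with the source `σ g`, with hot part `O(t ^ a)`. -/
structure TS (a : ℕ) (σ : ℝ≥0) (g F : Fn) : Prop where
  reg : Reg F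
  eq : ∀ t ∈ Icc 0 D.t₁, ∀ x v, F t x v = D.Phi σ g F t x v
  bd : ∃ M : ℝ≥0, LeOn 0 D.t₁ F (D.env M a)

/-- The class in which the Picard map acts. -/
structure Cl (M : ℝ≥0) (a : ℕ) (F : Fn) : Prop where
  meas : Meas F
  lo : LeOn 0 D.t₁ ((1 - D.e : ℝ≥0∞) • D.E0) F
  up : LeOn 0 D.t₁ F (D.env M a)

/-- an envelope of `|F - E0|` -/
def env' (M : ℝ≥0∞) (a : ℕ) : Fn := (D.e : ℝ≥0∞) • D.E0 + D.E1 + D.H + M • (pw a * D.W)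
/-- majorant of the derivative of the Picard map -/
def opT (M : ℝ≥0) (a : ℕ) (Δ : Fn) : Fn :=
  AI D.att ((4 : ℝ≥0∞) • GN (D.env M a) Δ + D.env M a * LS Δ) 0
/-- the singular linear part -/
def opS (f : Fn) : Fn := AI (LS D.E0) ((2 : ℝ≥0∞) • GN D.E0 f) 0
/-- majorant of the remainder -/
def opR (M : ℝ≥0) (a : ℕ) (Δ : Fn) : Fn :=
  AI (LS D.E0) ((2 : ℝ≥0∞) • GN (D.env' M a) Δ + D.env M a * LS Δ + LS (D.env' M a) * Δ) 0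
/-- the constant for which the truncation is never active -/
def Mx₀ : ℝ≥0 := D.x₀ / D.t₁.toNNReal ^ 2

/-- Solutions of the Boltzmann equation on the initial layer. -/
structure Good (F : Fn) : Prop where
  ts : D.TS 2 0 0 F
  le : LeOn 0 D.t₁ F (D.env D.Mx₀ 2)

end P1

/-! ### The global part `[t₁, ∞)` -/

/-- the constant of `ls_Mx_ge` is passed as `ν`; `Sg`: singular envelope; `om`: velocity weight -/
structure P2 where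
  (Sg Ps om F₁ : Fn)
  ρ : ℝ → ℝ≥0
  t₁ : ℝ
  (ν N Cw K ε₂ : ℝ≥0)

namespace P2

variable (D : P2)

/-- the weight `m ω` -/
def mw : Fn := vl (ga (1 / 4)) * D.om
def att : Fn := ((D.ν : ℝ≥0∞) / 2) • vl br
/-- `|F - M|` -/
def dv (F : Fn) : Fn := (F - vl Mx) ⊔ (vl Mx - F)
/-- the regular part of the deviation -/
def hd (F : Fn) : Fn := dv F - D.Sg
def tr (x₂ : ℝ≥0) (F : Fn) : Fn :=
  (F ⊓ (vl Mx + D.Sg + (x₂ : ℝ≥0∞) • D.mw)) ⊔ (vl Mx - (D.Sg + (x₂ : ℝ≥0∞) • D.mw))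

structure OK : Prop where
  rSg : Reg D.Sg
  rom : Reg D.om
  mPs : Meas D.Ps
  rF : Reg D.F₁
  mρ : Measurable D.ρ
  t₁_pos : 0 < D.t₁
  ν_pos : 0 < D.ν
  ν_le : ∀ v, D.ν * br v ≤ ls Mx v
  one_Cw : 1 ≤ D.Cw
  adm : ∀ t x, AdmW D.N (D.om t x)
  om_pa : ∀ t x v s, D.t₁ ≤ s → s ≤ t →
    pa D.om t x v s ≤ D.Cw * ENNReal.ofReal (Real.exp (D.ν / 4 * (t - s))) * D.om t x v
  Sg_pa : ∀ t x v s, D.t₁ ≤ s → s ≤ t →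
    pa D.Sg t x v s ≤ ENNReal.ofReal (Real.exp (D.ν / 4 * (t - s))) * D.Sg t x v
  Sg_br : ∀ t x v, br v * D.Sg t x v ≤ 4 * D.Sg t x v + D.K * ga (1 / 4) v
  init₁ : ∀ x v, D.F₁ D.t₁ x v ≤ Mx v + D.Sg D.t₁ x v + D.ε₂ * D.mw D.t₁ x v
  init₂ : ∀ x v, Mx v ≤ D.F₁ D.t₁ x v + D.Sg D.t₁ x v + D.ε₂ * D.mw D.t₁ x v
  LSg : ∀ t, D.t₁ ≤ t → ∀ x v, LS D.Sg t x v ≤ (D.ν : ℝ≥0∞) / 8 * br v
  MS : ∀ t, D.t₁ ≤ t → ∀ x v,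
    2 * GN (vl Mx) D.Sg t x v + Mx v * LS D.Sg t x v ≤ D.ρ t * D.mw t x v
  SS : ∀ t, D.t₁ ≤ t → ∀ x v, GN D.Sg D.Sg t x v ≤ D.Ps t x v + D.ρ t * D.mw t x v
  Sm : ∀ t, D.t₁ ≤ t → ∀ x v, 2 * GN D.Sg D.mw t x v ≤ D.ρ t * D.mw t x v
  Ps_le : ∀ t, D.t₁ ≤ t → ∀ x v, DU (D.Sg D.t₁) D.att ((16 : ℝ≥0∞) • D.Ps) D.t₁ t x v ≤ D.Sg t x v
  ρ_le : ∀ t, D.ρ t ≤ D.K
  ρ_int : ∫⁻ t in Ioi D.t₁, D.ρ t ≤ D.ε₂
  plain : ∀ t ∈ Icc 0 D.t₁, ∀ x v, D.F₁ t x v + PI (D.F₁ * LS D.F₁) 0 t x v =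
    D.F₁ 0 (x - t • v) v + PI (GN D.F₁ D.F₁) 0 t x v
  env : ∀ (T : ℝ) (F : Fn), Meas F → (∀ t ∈ Icc 0 D.t₁, F t = D.F₁ t) →
    LeOn D.t₁ T F (D.Sg + (2 : ℝ≥0∞) • D.mw) → Nonempty (Env F T)

/-- The Picard map of the truncated problem. -/
def Phi (x₂ : ℝ≥0) (F : Fn) : Fn :=
  DU (D.F₁ D.t₁) (LS (D.tr x₂ F)) (GN (D.tr x₂ F) (D.tr x₂ F)) D.t₁

/-- Solutions of the truncated problem. -/
structure TS (x₂ : ℝ≥0) (F : Fn) : Prop where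
  reg : Reg F
  init : ∀ t, t ≤ D.t₁ → F t = D.F₁ t
  eq : ∀ t, D.t₁ ≤ t → ∀ x v, F t x v = D.Phi x₂ F t x v

/-- the regular deviation of the truncation, divided by the Gaussian `m` -/
def hq (x₂ : ℝ≥0) (F : Fn) : Fn := fun t x v =>
  min (D.hd F t x v) (x₂ * D.mw t x v) / ga (1 / 4) v

/-- Grad's operator along the characteristics -/
def opK (f : Fn) : Fn := AI D.att (fun s y v => ∫⁻ u, kk (v - u) * f s y u) D.t₁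

end P2

end Crest.Agent.R68
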