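/-
R68/Geo1: the sphere measure, elastic collisions, elementary properties of gn and ls
Skeleton by helper76 (row 68); keep the statements unchanged, add any helper lemmas you like.
-/
import Crest.Agent.R68.Defs

set_option autoImplicit false
set_option linter.unusedVariables false
set_option linter.unusedSectionVars false

noncomputable section

namespace Crest.Agent.R68

open MeasureTheory Set Filter Topology
open scoped ENNReal NNReal
open Crest.AnalysisR.VecCalc3 Crest.AnalysisR.PDE.Boltzmann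

instance : IsFiniteMeasure sphereMeasure := by
  unfold sphereMeasure
  infer_instance

theorem ae_norm_sphere : ∀ᵐ w ∂sphereMeasure, ‖w‖ = 1 := by
  rw [sphereMeasure, ae_map_iff measurable_subtype_coe.aemeasurable
    (isClosed_eq (by fun_prop) continuous_const).measurableSet]
  exact ae_of_all _ fun s => by simp

open scoped Pointwise in
theorem Geo1_sphere_apply {A : Set R3} (hA : MeasurableSet A) :
    sphereMeasure A = 3 * volume (Ioo (0 : ℝ) 1 • (A ∩ Metric.sphere (0 : R3) 1)) := by
  rw [sphereMeasure, Measure.map_apply measurable_subtype_coe hA,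
    Measure.toSphere_apply' _ (measurable_subtype_coe hA), Subtype.image_preimage_coe, inter_comm]
  simp

open scoped Pointwise in
/-- `Measure.toSphere_apply'` and invariance of `volume` under linear isometries. -/
theorem measurePreserving_sphere (A : R3 ≃ₗᵢ[ℝ] R3) :
    MeasurePreserving A sphereMeasure sphereMeasure := by
  refine ⟨A.continuous.measurable, Measure.ext fun s hs => ?_⟩
  rw [Measure.map_apply A.continuous.measurable hs, Geo1_sphere_apply hs,
    Geo1_sphere_apply (A.continuous.measurable hs)]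
  congr 1
  have h1 : Ioo (0 : ℝ) 1 • (A ⁻¹' s ∩ Metric.sphere (0 : R3) 1) =
      A ⁻¹' (Ioo (0 : ℝ) 1 • (s ∩ Metric.sphere (0 : R3) 1)) := by
    ext x
    constructor
    · rintro ⟨t, ht, y, hy, rfl⟩
      exact ⟨t, ht, A y, ⟨hy.1, by simpa using hy.2⟩, by simp⟩
    · rintro ⟨t, ht, y, hy, hx⟩
      refine ⟨t, ht, A.symm y, ⟨by simpa using hy.1, by simpa using hy.2⟩, ?_⟩
      apply A.injective
      simpa using hx
  rw [h1]
  exact MeasurePreserving.measure_preimage_equiv (f := A.toHomeomorph.toMeasurableEquiv)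
    A.measurePreserving _

/-- `3 * volume (ball 0 1) ≤ 3 * 2 ^ 3` (the ball lies in the cube). -/
theorem sphere_univ_le : sphereMeasure univ ≤ 24 := by
  rw [sphereMeasure, Measure.map_apply measurable_subtype_coe MeasurableSet.univ, preimage_univ,
    Measure.toSphere_apply_univ, EuclideanSpace.volume_ball_fin_three]
  have h1 : ENNReal.ofReal (Real.pi * 4 / 3) ≤ 8 := by
    rw [show (8 : ℝ≥0∞) = ENNReal.ofReal 8 by simp]
    exact ENNReal.ofReal_le_ofReal (by linarith [Real.pi_le_four])
  simp only [finrank_euclideanSpace, Fintype.card_fin, ENNReal.ofReal_one, one_pow, one_mul]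
  calc ((3 : ℕ) : ℝ≥0∞) * ENNReal.ofReal (Real.pi * 4 / 3) ≤ 3 * 8 := by
        push_cast
        gcongr
    _ = 24 := by norm_num

theorem Geo1_abs_le (w : R3) : |w 0| ≤ ‖w‖ := by
  simpa using PiLp.norm_apply_le w 0

theorem Geo1_integrable : Integrable (fun w : R3 => |w 0|) sphereMeasure := by
  refine Integrable.of_bound (by fun_prop) 1 ?_
  filter_upwards [ae_norm_sphere] with w hw
  rw [Real.norm_eq_abs, abs_abs, ← hw]
  exact Geo1_abs_le w

/-- `toSphere` is positive on open sets. -/
theorem cL_pos : 0 < cL := by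
  unfold cL
  rw [integral_pos_iff_support_of_nonneg (fun w => abs_nonneg _) Geo1_integrable]
  have ho : IsOpen (Function.support fun w : R3 => |w 0|) :=
    Continuous.isOpen_support (by fun_prop)
  rw [sphereMeasure, Measure.map_apply measurable_subtype_coe ho.measurableSet]
  refine (ho.preimage continuous_subtype_val).measure_pos _ ⟨⟨EuclideanSpace.single 0 1, by simp⟩, ?_⟩
  simp

theorem cL_le : cL ≤ 24 := by
  unfold cL
  have h1 : ∫ w : R3, |w 0| ∂sphereMeasure ≤ ∫ _w : R3, (1 : ℝ) ∂sphereMeasure := by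
    refine integral_mono_ae Geo1_integrable (integrable_const _) ?_
    filter_upwards [ae_norm_sphere] with w hw
    rw [← hw]
    exact Geo1_abs_le w
  refine h1.trans ?_
  rw [integral_const, smul_eq_mul, mul_one, measureReal_def]
  have := ENNReal.toReal_mono (by norm_num) sphere_univ_le
  simpa using this

/-- Rotate `u` to a multiple of `e₀` (reflection, `LinearIsometryEquiv`). -/
theorem lintegral_abs_inner (u : R3) :
    ∫⁻ w, ENNReal.ofReal |inner ℝ u w| ∂sphereMeasure = ENNReal.ofReal cL * ‖u‖ₑ := by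
  set e : R3 := ‖u‖ • EuclideanSpace.single 0 1 with he
  have hn : ‖e‖ = ‖u‖ := by simp [he, norm_smul]
  set A : R3 ≃ₗᵢ[ℝ] R3 := Submodule.reflection (ℝ ∙ (e - u))ᗮ with hA
  have hAe : A e = u := Submodule.reflection_sub hn
  have hm : Measurable fun w : R3 => ENNReal.ofReal |inner ℝ u w| := by fun_prop
  rw [← (measurePreserving_sphere A).lintegral_comp hm]
  have h1 : ∀ w : R3, ENNReal.ofReal |inner ℝ u (A w)| = ENNReal.ofReal |w 0| * ‖u‖ₑ := by
    intro w
    rw [← hAe, A.inner_map_map, hAe, he, real_inner_smul_left, EuclideanSpace.inner_single_left,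
      abs_mul, ← ofReal_norm, ← ENNReal.ofReal_mul (abs_nonneg _)]
    simp [mul_comm]
  simp only [h1]
  rw [lintegral_mul_const _ (by fun_prop), cL,
    ofReal_integral_eq_lintegral_ofReal Geo1_integrable (ae_of_all _ fun w => abs_nonneg _)]

theorem lintegral_cw (v vs : R3) :
    ∫⁻ w, cw v vs w ∂sphereMeasure = ENNReal.ofReal cL * ‖v - vs‖ₑ := lintegral_abs_inner _

theorem norm_dir {z : R3} (h : z ≠ 0) : ‖dir z‖ = 1 := by
  rw [dir, norm_smul, norm_inv, norm_norm, inv_mul_cancel₀ (norm_ne_zero_iff.2 h)]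

theorem post_add (v vs w : R3) : postVel v vs w + postVelStar v vs w = v + vs := by
  unfold postVel postVelStar
  abel

theorem postVel_swap (v vs w : R3) : postVel vs v w = postVelStar v vs w := by
  unfold postVel postVelStar
  rw [← neg_sub v vs, inner_neg_left, neg_smul, sub_neg_eq_add]

theorem postVelStar_swap (v vs w : R3) : postVelStar vs v w = postVel v vs w := by
  unfold postVel postVelStar
  rw [← neg_sub v vs, inner_neg_left, neg_smul, ← sub_eq_add_neg]

theorem cw_swap (v vs w : R3) : cw vs v w = cw v vs w := by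
  unfold cw
  rw [← neg_sub v vs, inner_neg_left, abs_neg]

/-- Conservation of energy in every frame. -/
theorem post_energy {w : R3} (hw : ‖w‖ = 1) (v vs U : R3) :
    ‖postVel v vs w - U‖ ^ 2 + ‖postVelStar v vs w - U‖ ^ 2 = ‖v - U‖ ^ 2 + ‖vs - U‖ ^ 2 := by
  have h1 : postVel v vs w - U = (v - U) - (inner ℝ (v - vs) w) • w := by
    unfold postVel; abel
  have h2 : postVelStar v vs w - U = (vs - U) + (inner ℝ (v - vs) w) • w := by
    unfold postVelStar; abel
  have h3 : inner ℝ (v - vs) w = inner ℝ (v - U) w - inner ℝ (vs - U) w := by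
    rw [← inner_sub_left]; congr 1; abel
  rw [h1, h2, norm_sub_sq_real, norm_add_sq_real, norm_smul, hw, real_inner_smul_right,
    real_inner_smul_right, mul_one, Real.norm_eq_abs, sq_abs, h3]
  ring

theorem post_energy' {w : R3} (hw : ‖w‖ = 1) (v vs : R3) :
    ‖postVel v vs w‖ ^ 2 + ‖postVelStar v vs w‖ ^ 2 = ‖v‖ ^ 2 + ‖vs‖ ^ 2 := by
  simpa using post_energy hw v vs 0

theorem Geo1_inner_post {w : R3} (hw : ‖w‖ = 1) (v vs : R3) :
    inner ℝ (postVel v vs w - postVelStar v vs w) w = -inner ℝ (v - vs) w := by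
  have h1 : postVel v vs w - postVelStar v vs w = (v - vs) - (2 * inner ℝ (v - vs) w) • w := by
    unfold postVel postVelStar
    rw [mul_smul, two_smul]
    abel
  rw [h1, inner_sub_left, real_inner_smul_left, real_inner_self_eq_norm_sq, hw]
  ring

theorem postVel_post {w : R3} (hw : ‖w‖ = 1) (v vs : R3) :
    postVel (postVel v vs w) (postVelStar v vs w) w = v := by
  rw [postVel, Geo1_inner_post hw, postVel, neg_smul]
  abel

theorem postVelStar_post {w : R3} (hw : ‖w‖ = 1) (v vs : R3) :
    postVelStar (postVel v vs w) (postVelStar v vs w) w = vs := by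
  rw [postVelStar, Geo1_inner_post hw, postVelStar, neg_smul]
  abel

theorem cw_post {w : R3} (hw : ‖w‖ = 1) (v vs : R3) :
    cw (postVel v vs w) (postVelStar v vs w) w = cw v vs w := by
  rw [cw, Geo1_inner_post hw, abs_neg, cw]

theorem cw_le {w : R3} (hw : ‖w‖ = 1) (v vs : R3) : cw v vs w ≤ ‖v - vs‖ₑ := by
  rw [cw, ← ofReal_norm]
  refine ENNReal.ofReal_le_ofReal ((abs_real_inner_le_norm _ _).trans ?_)
  rw [hw, mul_one]

theorem norm_postVel_sub_left {w : R3} (hw : ‖w‖ = 1) (v vs : R3) :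
    ‖postVel v vs w - v‖ ≤ ‖v - vs‖ := by
  have h1 : postVel v vs w - v = -(inner ℝ (v - vs) w) • w := by
    unfold postVel
    rw [neg_smul]
    abel
  rw [h1, norm_smul, hw, mul_one, norm_neg, Real.norm_eq_abs]
  refine (abs_real_inner_le_norm _ _).trans ?_
  rw [hw, mul_one]

theorem norm_postVel_sub_right {w : R3} (hw : ‖w‖ = 1) (v vs : R3) :
    ‖postVel v vs w - vs‖ ≤ ‖v - vs‖ := by
  have h := post_energy hw v vs vs
  rw [sub_self, norm_zero] at h
  refine le_of_sq_le_sq ?_ (norm_nonneg _)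
  nlinarith [sq_nonneg ‖postVelStar v vs w - vs‖]

theorem norm_postVel_le {w : R3} (hw : ‖w‖ = 1) (v vs : R3) : ‖postVel v vs w‖ ≤ ‖v‖ + ‖vs‖ := by
  have h := post_energy' hw v vs
  refine le_of_sq_le_sq ?_ (by positivity)
  nlinarith [sq_nonneg ‖postVelStar v vs w‖, mul_nonneg (norm_nonneg v) (norm_nonneg vs)]

theorem norm_postVelStar_le {w : R3} (hw : ‖w‖ = 1) (v vs : R3) :
    ‖postVelStar v vs w‖ ≤ ‖v‖ + ‖vs‖ := by
  have h := post_energy' hw v vs
  refine le_of_sq_le_sq ?_ (by positivity)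
  nlinarith [sq_nonneg ‖postVel v vs w‖, mul_nonneg (norm_nonneg v) (norm_nonneg vs)]

theorem continuous_postVel : Continuous fun p : R3 × R3 × R3 => postVel p.1 p.2.1 p.2.2 := by
  unfold postVel
  fun_prop

theorem continuous_postVelStar :
    Continuous fun p : R3 × R3 × R3 => postVelStar p.1 p.2.1 p.2.2 := by
  unfold postVelStar
  fun_prop

theorem measurable_cw : Measurable fun p : R3 × R3 × R3 => cw p.1 p.2.1 p.2.2 := by
  have : Continuous fun p : R3 × R3 × R3 => |inner ℝ (p.1 - p.2.1) p.2.2| := by fun_prop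
  exact this.measurable.ennreal_ofReal

theorem measurable_ga (β : ℝ) : Measurable (ga β) := by
  unfold ga
  fun_prop

theorem measurable_Mx : Measurable Mx := by
  unfold Mx maxwellian
  fun_prop

theorem measurable_br : Measurable br := by
  unfold br
  fun_prop

theorem measurable_kk : Measurable kk := by
  have := measurable_ga (1 / 16)
  unfold kk
  fun_prop

theorem measurable_sg : Measurable fun p : R3 × ℝ × R3 => sg p.1 p.2.1 p.2.2 := by
  unfold sg
  refine Measurable.ite ?_ (by fun_prop) measurable_const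
  have h1 : Measurable fun p : R3 × ℝ × R3 => ‖p.2.2 - p.1‖ := by fun_prop
  have h2 : Measurable fun p : R3 × ℝ × R3 => ‖p.2.2‖ := by fun_prop
  exact (measurableSet_le h1 measurable_const).inter (measurableSet_le h2 measurable_const)

theorem AdmW.measurable {N : ℝ≥0} {w : R3 → ℝ≥0∞} (h : AdmW N w) : Measurable w := by
  obtain ⟨ι, s, c, U, ϑ, -, -, h⟩ := h
  rw [funext h]
  have h1 : ∀ i, Measurable fun v : R3 => (c i : ℝ≥0∞) * sg (U i) (ϑ i) v := fun i =>
    (measurable_sg.comp (f := fun v : R3 => (U i, ϑ i, v)) (by fun_prop)).const_mul _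
  exact measurable_const.add (Finset.measurable_sum _ fun i _ => h1 i)

theorem AdmW.one_le {N : ℝ≥0} {w : R3 → ℝ≥0∞} (h : AdmW N w) (v : R3) : 1 ≤ w v := by
  obtain ⟨ι, s, c, U, ϑ, -, -, h⟩ := h
  rw [h]
  exact le_self_add

theorem AdmW.ne_top {N : ℝ≥0} {w : R3 → ℝ≥0∞} (h : AdmW N w) (v : R3) : w v ≠ ⊤ := by
  obtain ⟨ι, s, c, U, ϑ, -, -, h⟩ := h
  rw [h]
  refine ENNReal.add_ne_top.2 ⟨ENNReal.one_ne_top, ENNReal.sum_ne_top.2 fun i _ =>
    ENNReal.mul_ne_top ENNReal.coe_ne_top ?_⟩
  unfold sg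
  split_ifs <;> simp

theorem AdmW.eq_one {N : ℝ≥0} {w : R3 → ℝ≥0∞} (h : AdmW N w) {v : R3} (hv : 4 < ‖v‖) :
    w v = 1 := by
  obtain ⟨ι, s, c, U, ϑ, -, -, h⟩ := h
  rw [h, Finset.sum_eq_zero, add_zero]
  intro i _
  rw [sg, if_neg (fun h' => absurd h'.2 (not_le.2 hv)), mul_zero]

section gnls
variable {f f' g g' : R3 → ℝ≥0∞} {v : R3}

theorem gn_mono (h : f ≤ f') (h' : g ≤ g') (v : R3) : gn f g v ≤ gn f' g' v := by
  exact lintegral_mono fun vs => lintegral_mono fun w =>
    mul_le_mul' le_rfl (mul_le_mul' (h _) (h' _))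

theorem ls_mono (h : g ≤ g') (v : R3) : ls g v ≤ ls g' v := by
  exact lintegral_mono fun vs => lintegral_mono fun w => mul_le_mul' le_rfl (h _)

theorem Geo1_meas (hf : Measurable f) (hg : Measurable g) (v : R3) :
    Measurable fun p : R3 × R3 =>
      cw v p.1 p.2 * (f (postVel v p.1 p.2) * g (postVelStar v p.1 p.2)) := by
  have h0 : Measurable fun p : R3 × R3 => ((v, p) : R3 × R3 × R3) := by fun_prop
  exact (measurable_cw.comp h0).mul ((hf.comp (continuous_postVel.measurable.comp h0)).mul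
    (hg.comp (continuous_postVelStar.measurable.comp h0)))

theorem Geo1_gn_eq (hf : Measurable f) (hg : Measurable g) (v : R3) :
    gn f g v = ∫⁻ p : R3 × R3, cw v p.1 p.2 * (f (postVel v p.1 p.2) * g (postVelStar v p.1 p.2))
      ∂(volume : Measure R3).prod sphereMeasure :=
  (lintegral_prod _ (Geo1_meas hf hg v).aemeasurable).symm

theorem gn_add_left (hf : Measurable f) (hf' : Measurable f') (hg : Measurable g) (v : R3) :
    gn (f + f') g v = gn f g v + gn f' g v := by
  rw [Geo1_gn_eq (hf.add hf') hg, Geo1_gn_eq hf hg, Geo1_gn_eq hf' hg,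
    ← lintegral_add_left (Geo1_meas hf hg v)]
  refine lintegral_congr fun p => ?_
  simp only [Pi.add_apply]
  ring

theorem gn_add_right (hf : Measurable f) (hg : Measurable g) (hg' : Measurable g') (v : R3) :
    gn f (g + g') v = gn f g v + gn f g' v := by
  rw [Geo1_gn_eq hf (hg.add hg'), Geo1_gn_eq hf hg, Geo1_gn_eq hf hg',
    ← lintegral_add_left (Geo1_meas hf hg v)]
  refine lintegral_congr fun p => ?_
  simp only [Pi.add_apply]
  ring

theorem gn_mul_left (c : ℝ≥0∞) (hf : Measurable f) (hg : Measurable g) (v : R3) :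
    gn (fun u => c * f u) g v = c * gn f g v := by
  rw [Geo1_gn_eq (hf.const_mul c) hg, Geo1_gn_eq hf hg, ← lintegral_const_mul c (Geo1_meas hf hg v)]
  refine lintegral_congr fun p => ?_
  ring

theorem gn_mul_right (c : ℝ≥0∞) (hf : Measurable f) (hg : Measurable g) (v : R3) :
    gn f (fun u => c * g u) v = c * gn f g v := by
  rw [Geo1_gn_eq hf (hg.const_mul c), Geo1_gn_eq hf hg, ← lintegral_const_mul c (Geo1_meas hf hg v)]
  refine lintegral_congr fun p => ?_
  ring

theorem gn_tsum_left {ι : Type} [Countable ι] {F : ι → R3 → ℝ≥0∞} (hF : ∀ i, Measurable (F i))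
    (hg : Measurable g) (v : R3) : gn (fun u => ∑' i, F i u) g v = ∑' i, gn (F i) g v := by
  rw [Geo1_gn_eq (Measurable.tsum hF) hg]
  simp only [fun i => Geo1_gn_eq (hF i) hg v]
  rw [← lintegral_tsum fun i => (Geo1_meas (hF i) hg v).aemeasurable]
  refine lintegral_congr fun p => ?_
  rw [ENNReal.tsum_mul_left, ENNReal.tsum_mul_right]

theorem gn_tsum_right {ι : Type} [Countable ι] {G : ι → R3 → ℝ≥0∞} (hf : Measurable f)
    (hG : ∀ i, Measurable (G i)) (v : R3) :
    gn f (fun u => ∑' i, G i u) v = ∑' i, gn f (G i) v := by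
  rw [Geo1_gn_eq hf (Measurable.tsum hG)]
  simp only [fun i => Geo1_gn_eq hf (hG i) v]
  rw [← lintegral_tsum fun i => (Geo1_meas hf (hG i) v).aemeasurable]
  refine lintegral_congr fun p => ?_
  rw [ENNReal.tsum_mul_left, ENNReal.tsum_mul_left]

theorem gn_iSup_right {G : ℕ → R3 → ℝ≥0∞} (hf : Measurable f) (hG : ∀ i, Measurable (G i))
    (hm : Monotone G) (v : R3) : gn f (fun u => ⨆ i, G i u) v = ⨆ i, gn f (G i) v := by
  rw [Geo1_gn_eq hf (Measurable.iSup hG)]
  simp only [fun i => Geo1_gn_eq hf (hG i) v]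
  rw [← lintegral_iSup (fun i => Geo1_meas hf (hG i) v)
    fun i j hij p => mul_le_mul' le_rfl (mul_le_mul' le_rfl (hm hij _))]
  refine lintegral_congr fun p => ?_
  rw [ENNReal.mul_iSup, ENNReal.mul_iSup]

theorem gn_zero_left (g : R3 → ℝ≥0∞) (v : R3) : gn 0 g v = 0 := by
  simp [gn]

theorem gn_zero_right (f : R3 → ℝ≥0∞) (v : R3) : gn f 0 v = 0 := by
  simp [gn]

theorem ls_eq (hg : Measurable g) (v : R3) :
    ls g v = ENNReal.ofReal cL * ∫⁻ u, ‖v - u‖ₑ * g u := by
  have h0 : Measurable fun u : R3 => ‖v - u‖ₑ * g u := by fun_prop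
  rw [ls, ← lintegral_const_mul _ h0]
  refine lintegral_congr fun u => ?_
  have h1 : Measurable fun w : R3 => cw v u w :=
    measurable_cw.comp (f := fun w : R3 => (v, u, w)) (by fun_prop)
  rw [lintegral_mul_const _ h1, lintegral_cw, mul_assoc]

theorem ls_add (hg : Measurable g) (hg' : Measurable g') (v : R3) :
    ls (g + g') v = ls g v + ls g' v := by
  have h0 : Measurable fun u : R3 => ‖v - u‖ₑ * g u := by fun_prop
  rw [ls_eq (hg.add hg'), ls_eq hg, ls_eq hg', ← mul_add, ← lintegral_add_left h0]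
  simp only [Pi.add_apply, mul_add]

theorem ls_mul (c : ℝ≥0∞) (hg : Measurable g) (v : R3) : ls (fun u => c * g u) v = c * ls g v := by
  have h0 : Measurable fun u : R3 => ‖v - u‖ₑ * g u := by fun_prop
  rw [ls_eq (hg.const_mul c), ls_eq hg, mul_left_comm, ← lintegral_const_mul c h0]
  simp only [mul_left_comm c]

theorem ls_tsum {ι : Type} [Countable ι] {G : ι → R3 → ℝ≥0∞} (hG : ∀ i, Measurable (G i)) (v : R3) :
    ls (fun u => ∑' i, G i u) v = ∑' i, ls (G i) v := by
  have h0 : ∀ i, Measurable fun u : R3 => ‖v - u‖ₑ * G i u := fun i => by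
    have := hG i
    fun_prop
  rw [ls_eq (Measurable.tsum hG)]
  simp only [fun i => ls_eq (hG i) v]
  rw [ENNReal.tsum_mul_left, ← lintegral_tsum fun i => (h0 i).aemeasurable]
  simp only [ENNReal.tsum_mul_left]

theorem ls_le_br (hg : Measurable g) (v : R3) : ls g v ≤ 24 * br v * ∫⁻ u, br u * g u := by
  have h0 : Measurable fun u => br u * g u := measurable_br.mul hg
  rw [ls_eq hg, mul_assoc, ← lintegral_const_mul _ h0]
  refine mul_le_mul' ?_ (lintegral_mono fun u => ?_)
  · rw [show (24 : ℝ≥0∞) = ENNReal.ofReal 24 by simp]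
    exact ENNReal.ofReal_le_ofReal cL_le
  · rw [← mul_assoc]
    refine mul_le_mul' ?_ le_rfl
    rw [br, br, ← ENNReal.ofReal_mul (by positivity), ← ofReal_norm]
    refine ENNReal.ofReal_le_ofReal ((norm_sub_le _ _).trans ?_)
    nlinarith [mul_nonneg (norm_nonneg v) (norm_nonneg u)]

/-- Two-point bounds pass to the gain term. -/
theorem gn_le_of_two_point {c : ℝ≥0∞} (hf' : Measurable f') (hg' : Measurable g')
    (h : ∀ vs w : R3, ‖w‖ = 1 → f (postVel v vs w) * g (postVelStar v vs w) ≤
      c * (f' (postVel v vs w) * g' (postVelStar v vs w))) : gn f g v ≤ c * gn f' g' v := by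
  rw [← gn_mul_left c hf' hg']
  refine lintegral_mono fun vs => lintegral_mono_ae ?_
  filter_upwards [ae_norm_sphere] with w hw
  refine mul_le_mul' le_rfl ((h vs w hw).trans_eq ?_)
  rw [mul_assoc]

end gnls

theorem measurable_gn {α : Type} [MeasurableSpace α] {f g : α → R3 → ℝ≥0∞} {v : α → R3}
    (hf : Measurable fun p : α × R3 => f p.1 p.2) (hg : Measurable fun p : α × R3 => g p.1 p.2)
    (hv : Measurable v) : Measurable fun a => gn (f a) (g a) (v a) := by
  unfold gn
  have h0 : Measurable fun q : (α × R3) × R3 => ((v q.1.1, q.1.2, q.2) : R3 × R3 × R3) := by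
    fun_prop
  have h1 : Measurable fun q : (α × R3) × R3 => cw (v q.1.1) q.1.2 q.2 *
      (f q.1.1 (postVel (v q.1.1) q.1.2 q.2) * g q.1.1 (postVelStar (v q.1.1) q.1.2 q.2)) :=
    (measurable_cw.comp h0).mul
      ((hf.comp (measurable_fst.fst.prodMk (continuous_postVel.measurable.comp h0))).mul
        (hg.comp (measurable_fst.fst.prodMk (continuous_postVelStar.measurable.comp h0))))
  exact (h1.lintegral_prod_right' (ν := sphereMeasure)).lintegral_prod_right'

theorem measurable_ls {α : Type} [MeasurableSpace α] {g : α → R3 → ℝ≥0∞} {v : α → R3}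
    (hg : Measurable fun p : α × R3 => g p.1 p.2) (hv : Measurable v) :
    Measurable fun a => ls (g a) (v a) := by
  unfold ls
  have h0 : Measurable fun q : (α × R3) × R3 => ((v q.1.1, q.1.2, q.2) : R3 × R3 × R3) := by
    fun_prop
  have h1 : Measurable fun q : (α × R3) × R3 => cw (v q.1.1) q.1.2 q.2 * g q.1.1 q.1.2 :=
    (measurable_cw.comp h0).mul (hg.comp measurable_fst)
  exact (h1.lintegral_prod_right' (ν := sphereMeasure)).lintegral_prod_right'

end Crest.Agent.R68
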