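/-
R68/Geo2: the collision involution and the weak form of the collision operator
Skeleton by helper76 (row 68); keep the statements unchanged, add any helper lemmas you like.
-/
import Crest.Agent.R68.Geo1

set_option autoImplicit false
set_option linter.unusedVariables false
set_option linter.unusedSectionVars false

noncomputable section

namespace Crest.Agent.R68

open MeasureTheory Set Filter Topology
open scoped ENNReal NNReal
open Crest.AnalysisR.VecCalc3 Crest.AnalysisR.PDE.Boltzmann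

instance : SFinite colM := by
  have h : SFinite ((volume : Measure R3).prod sphereMeasure) := inferInstance
  exact Measure.prod.instSFinite

theorem lintegral_colM {Φ : R3 × R3 × R3 → ℝ≥0∞} (h : Measurable Φ) :
    ∫⁻ p, Φ p ∂colM = ∫⁻ v, ∫⁻ vs, ∫⁻ w, Φ (v, vs, w) ∂sphereMeasure := by
  unfold colM
  rw [lintegral_prod _ h.aemeasurable]
  refine lintegral_congr fun v => ?_
  exact lintegral_prod _ (h.comp measurable_prodMk_left).aemeasurable

theorem ae_colM : ∀ᵐ p ∂colM, ‖p.2.2‖ = 1 := by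
  unfold colM
  exact (Measure.quasiMeasurePreserving_snd.comp Measure.quasiMeasurePreserving_snd).ae ae_norm_sphere

theorem geo2_lintegral_colM' {Φ : R3 × R3 × R3 → ℝ≥0∞} (h : Measurable Φ) :
    ∫⁻ p, Φ p ∂colM = ∫⁻ w, ∫⁻ q : R3 × R3, Φ (q.1, q.2, w) ∂((volume : Measure R3).prod volume)
      ∂sphereMeasure := by
  unfold colM
  have h1 := (measurePreserving_prodAssoc (volume : Measure R3) (volume : Measure R3)
    sphereMeasure).lintegral_comp h
  rw [← h1]
  exact lintegral_prod_symm _ (h.comp MeasurableEquiv.prodAssoc.measurable).aemeasurable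

/-- The collision with a fixed impact direction as a linear map. -/
def geo2_lin (w : R3) : (R3 × R3) →ₗ[ℝ] (R3 × R3) where
  toFun q := (postVel q.1 q.2 w, postVelStar q.1 q.2 w)
  map_add' a b := by
    have e : inner ℝ (a.1 + b.1 - (a.2 + b.2)) w = inner ℝ (a.1 - a.2) w + inner ℝ (b.1 - b.2) w := by
      rw [← inner_add_left]
      congr 1
      abel
    simp only [postVel, postVelStar, Prod.fst_add, Prod.snd_add, Prod.mk_add_mk, e, add_smul]
    congr 1 <;> abel
  map_smul' c a := by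
    have e : inner ℝ (c • a.1 - c • a.2) w = c * inner ℝ (a.1 - a.2) w := by
      rw [← smul_sub, real_inner_smul_left]
    simp only [postVel, postVelStar, Prod.smul_fst, Prod.smul_snd, Prod.smul_mk, e, RingHom.id_apply,
      smul_sub, smul_add, mul_smul]

theorem geo2_mp_lin {w : R3} (hw : ‖w‖ = 1) :
    MeasurePreserving (geo2_lin w) ((volume : Measure R3).prod volume)
      ((volume : Measure R3).prod volume) := by
  have hinv : geo2_lin w ∘ₗ geo2_lin w = LinearMap.id := by
    refine LinearMap.ext fun q => ?_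
    exact Prod.ext (postVel_post hw q.1 q.2) (postVelStar_post hw q.1 q.2)
  have hdet : LinearMap.det (geo2_lin w) * LinearMap.det (geo2_lin w) = 1 := by
    rw [← LinearMap.det_comp, hinv, LinearMap.det_id]
  have hne : LinearMap.det (geo2_lin w) ≠ 0 := by
    intro h
    rw [h, mul_zero] at hdet
    exact zero_ne_one hdet
  have habs : |(LinearMap.det (geo2_lin w))⁻¹| = 1 := by
    rw [abs_inv, inv_eq_one]
    rcases mul_self_eq_one_iff.1 hdet with h | h <;> rw [h] <;> simp
  refine ⟨(geo2_lin w).continuous_of_finiteDimensional.measurable, ?_⟩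
  rw [Measure.map_linearMap_addHaar_eq_smul_addHaar _ hne, habs, ENNReal.ofReal_one, one_smul]

theorem geo2_meas_post : Measurable
    (fun p : R3 × R3 × R3 => (postVel p.1 p.2.1 p.2.2, postVelStar p.1 p.2.1 p.2.2, p.2.2)) :=
  continuous_postVel.measurable.prodMk
    (continuous_postVelStar.measurable.prodMk measurable_snd.snd)

/-- For fixed unit `w` the map `(v, v⁎) ↦ (v', v⁎')` is a linear involution of `R3 × R3` (so its
determinant has modulus one, `Measure.map_linearMap_addHaar_eq_smul_addHaar`; or a composition of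
shears and a reflection).  Then Fubini (`MeasurePreserving.skew_product` after a swap). -/
theorem measurePreserving_post : MeasurePreserving
    (fun p : R3 × R3 × R3 => (postVel p.1 p.2.1 p.2.2, postVelStar p.1 p.2.1 p.2.2, p.2.2))
    colM colM := by
  refine ⟨geo2_meas_post, Measure.ext_of_lintegral _ fun Φ hΦ => ?_⟩
  rw [lintegral_map hΦ geo2_meas_post, geo2_lintegral_colM' hΦ]
  refine (geo2_lintegral_colM' (hΦ.comp geo2_meas_post)).trans ?_
  refine lintegral_congr_ae ?_
  filter_upwards [ae_norm_sphere] with w hw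
  have hm : Measurable fun q : R3 × R3 => Φ (q.1, q.2, w) :=
    hΦ.comp (measurable_fst.prodMk (measurable_snd.prodMk measurable_const))
  exact (geo2_mp_lin hw).lintegral_comp hm

theorem measurePreserving_exch :
    MeasurePreserving (fun p : R3 × R3 × R3 => (p.2.1, p.1, p.2.2)) colM colM := by
  have hm0 : Measurable (fun p : R3 × R3 × R3 => (p.2.1, p.1, p.2.2)) :=
    measurable_snd.fst.prodMk (measurable_fst.prodMk measurable_snd.snd)
  refine ⟨hm0, Measure.ext_of_lintegral _ fun Φ hΦ => ?_⟩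
  rw [lintegral_map hΦ hm0, geo2_lintegral_colM' hΦ]
  refine (geo2_lintegral_colM' (hΦ.comp hm0)).trans ?_
  refine lintegral_congr fun w => ?_
  have hm : Measurable fun q : R3 × R3 => Φ (q.1, q.2, w) :=
    hΦ.comp (measurable_fst.prodMk (measurable_snd.prodMk measurable_const))
  exact (Measure.measurePreserving_swap (μ := (volume : Measure R3))
    (ν := (volume : Measure R3))).lintegral_comp hm

theorem geo2_meas_comp {Φ : R3 → R3 → R3 → R3 → ℝ≥0∞}
    (h : Measurable fun p : R3 × R3 × R3 × R3 => Φ p.1 p.2.1 p.2.2.1 p.2.2.2)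
    {a b c d : R3 × R3 × R3 → R3} (ha : Measurable a) (hb : Measurable b) (hc : Measurable c)
    (hd : Measurable d) :
    Measurable fun p : R3 × R3 × R3 => cw p.1 p.2.1 p.2.2 * Φ (a p) (b p) (c p) (d p) :=
  measurable_cw.mul (h.comp (ha.prodMk (hb.prodMk (hc.prodMk hd))))

/-- Pre-post change of variables. -/
theorem lintegral_post {Φ : R3 → R3 → R3 → R3 → ℝ≥0∞}
    (h : Measurable fun p : R3 × R3 × R3 × R3 => Φ p.1 p.2.1 p.2.2.1 p.2.2.2) :
    ∫⁻ v, ∫⁻ vs, ∫⁻ w, cw v vs w * Φ v vs (postVel v vs w) (postVelStar v vs w) ∂sphereMeasure =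
    ∫⁻ v, ∫⁻ vs, ∫⁻ w, cw v vs w * Φ (postVel v vs w) (postVelStar v vs w) v vs ∂sphereMeasure := by
  have h1 := geo2_meas_comp h measurable_fst measurable_snd.fst continuous_postVel.measurable
    continuous_postVelStar.measurable
  have h2 := geo2_meas_comp h continuous_postVel.measurable continuous_postVelStar.measurable
    measurable_fst measurable_snd.fst
  refine (lintegral_colM h1).symm.trans (Eq.trans ?_ (lintegral_colM h2))
  rw [← measurePreserving_post.lintegral_comp h1]
  refine lintegral_congr_ae ?_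
  filter_upwards [ae_colM] with p hp
  simp only [postVel_post hp, postVelStar_post hp, cw_post hp]

/-- Exchange of the two particles. -/
theorem lintegral_exch {Φ : R3 → R3 → R3 → R3 → ℝ≥0∞}
    (h : Measurable fun p : R3 × R3 × R3 × R3 => Φ p.1 p.2.1 p.2.2.1 p.2.2.2) :
    ∫⁻ v, ∫⁻ vs, ∫⁻ w, cw v vs w * Φ v vs (postVel v vs w) (postVelStar v vs w) ∂sphereMeasure =
    ∫⁻ v, ∫⁻ vs, ∫⁻ w, cw v vs w * Φ vs v (postVelStar v vs w) (postVel v vs w) ∂sphereMeasure := by
  have h1 := geo2_meas_comp h measurable_fst measurable_snd.fst continuous_postVel.measurable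
    continuous_postVelStar.measurable
  have h2 := geo2_meas_comp h measurable_snd.fst measurable_fst continuous_postVelStar.measurable
    continuous_postVel.measurable
  refine (lintegral_colM h1).symm.trans (Eq.trans ?_ (lintegral_colM h2))
  rw [← measurePreserving_exch.lintegral_comp h1]
  refine lintegral_congr fun p => ?_
  simp only [postVel_swap p.1 p.2.1, postVelStar_swap p.1 p.2.1, cw_swap p.1 p.2.1]

variable {f g φ : R3 → ℝ≥0∞}

/-- Constants move inside the double integral. -/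
theorem geo2_mul_inside {G : R3 × R3 × R3 → ℝ≥0∞} (hG : Measurable G) (v : R3) (a b : ℝ≥0∞) :
    a * (∫⁻ vs, ∫⁻ w, G (v, vs, w) ∂sphereMeasure) * b =
      ∫⁻ vs, ∫⁻ w, a * G (v, vs, w) * b ∂sphereMeasure := by
  have h1 : Measurable fun q : R3 × R3 => G (v, q.1, q.2) := hG.comp measurable_prodMk_left
  have h2 : Measurable fun vs : R3 => ∫⁻ w, G (v, vs, w) ∂sphereMeasure := h1.lintegral_prod_right'
  rw [← lintegral_const_mul a h2, ← lintegral_mul_const b (h2.const_mul a)]
  refine lintegral_congr fun vs => ?_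
  have h3 : Measurable fun w : R3 => G (v, vs, w) := h1.comp measurable_prodMk_left
  rw [← lintegral_const_mul a h3, ← lintegral_mul_const b (h3.const_mul a)]

theorem geo2_meas_gain (hf : Measurable f) (hg : Measurable g) :
    Measurable fun p : R3 × R3 × R3 => cw p.1 p.2.1 p.2.2 *
      (f (postVel p.1 p.2.1 p.2.2) * g (postVelStar p.1 p.2.1 p.2.2)) :=
  measurable_cw.mul ((hf.comp continuous_postVel.measurable).mul
    (hg.comp continuous_postVelStar.measurable))

theorem geo2_meas_loss (hg : Measurable g) :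
    Measurable fun p : R3 × R3 × R3 => cw p.1 p.2.1 p.2.2 * g p.2.1 :=
  measurable_cw.mul (hg.comp measurable_snd.fst)

/-- Weak form of the gain term. -/
theorem lintegral_gn_mul (hf : Measurable f) (hg : Measurable g) (hφ : Measurable φ) :
    ∫⁻ v, gn f g v * φ v =
      ∫⁻ v, ∫⁻ vs, ∫⁻ w, cw v vs w * (f v * g vs * φ (postVel v vs w)) ∂sphereMeasure := by
  have hΦ : Measurable fun p : R3 × R3 × R3 × R3 => f p.2.2.1 * g p.2.2.2 * φ p.1 :=
    ((hf.comp measurable_snd.snd.fst).mul (hg.comp measurable_snd.snd.snd)).mul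
      (hφ.comp measurable_fst)
  refine Eq.trans ?_ (lintegral_post (Φ := fun a _ c d => f c * g d * φ a) hΦ)
  refine lintegral_congr fun v => ?_
  have h := geo2_mul_inside (geo2_meas_gain hf hg) v 1 (φ v)
  simp only [one_mul] at h
  unfold gn
  rw [h]
  simp only [mul_assoc]

/-- The same with the roles of the particles exchanged. -/
theorem lintegral_gn_mul' (hf : Measurable f) (hg : Measurable g) (hφ : Measurable φ) :
    ∫⁻ v, gn g f v * φ v =
      ∫⁻ v, ∫⁻ vs, ∫⁻ w, cw v vs w * (f v * g vs * φ (postVelStar v vs w)) ∂sphereMeasure := by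
  have hΦ : Measurable fun p : R3 × R3 × R3 × R3 => g p.1 * f p.2.1 * φ p.2.2.1 :=
    ((hg.comp measurable_fst).mul (hf.comp measurable_snd.fst)).mul
      (hφ.comp measurable_snd.snd.fst)
  rw [lintegral_gn_mul hg hf hφ, lintegral_exch (Φ := fun a b c _ => g a * f b * φ c) hΦ]
  refine lintegral_congr fun v => lintegral_congr fun vs => lintegral_congr fun w => ?_
  rw [mul_comm (g vs) (f v)]

theorem lintegral_mul_ls (hf : Measurable f) (hg : Measurable g) (hφ : Measurable φ) :
    ∫⁻ v, f v * ls g v * φ v =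
      ∫⁻ v, ∫⁻ vs, ∫⁻ w, cw v vs w * (f v * g vs * φ v) ∂sphereMeasure := by
  refine lintegral_congr fun v => ?_
  have h := geo2_mul_inside (geo2_meas_loss hg) v (f v) (φ v)
  unfold ls
  rw [h]
  refine lintegral_congr fun vs => lintegral_congr fun w => ?_
  ring

theorem geo2_br_le {u v vs : R3} (h : ‖u‖ ≤ ‖v‖ + ‖vs‖) : br u ≤ br v * br vs := by
  unfold br
  rw [← ENNReal.ofReal_mul (by positivity)]
  refine ENNReal.ofReal_le_ofReal ?_
  nlinarith [norm_nonneg v, norm_nonneg vs, mul_nonneg (norm_nonneg v) (norm_nonneg vs)]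

theorem geo2_cw_le {w : R3} (hw : ‖w‖ = 1) (v vs : R3) : cw v vs w ≤ br v * br vs := by
  refine (cw_le hw v vs).trans (le_trans ?_ (geo2_br_le (norm_sub_le v vs)))
  unfold br
  rw [← ofReal_norm]
  exact ENNReal.ofReal_le_ofReal (by linarith)

theorem geo2_triple_le (hf : Measurable f) (hg : Measurable g) (k : ℕ) {x : R3 → R3 → R3 → R3}
    (hx : ∀ v vs w, ‖w‖ = 1 → ‖x v vs w‖ ≤ ‖v‖ + ‖vs‖) :
    ∫⁻ v, ∫⁻ vs, ∫⁻ w, cw v vs w * (f v * g vs * br (x v vs w) ^ k) ∂sphereMeasure ≤
      24 * ((∫⁻ v, br v ^ (k + 1) * f v) * ∫⁻ v, br v ^ (k + 1) * g v) := by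
  have hF : Measurable fun v => br v ^ (k + 1) * f v := (measurable_br.pow_const _).mul hf
  have hG : Measurable fun v => br v ^ (k + 1) * g v := (measurable_br.pow_const _).mul hg
  calc ∫⁻ v, ∫⁻ vs, ∫⁻ w, cw v vs w * (f v * g vs * br (x v vs w) ^ k) ∂sphereMeasure
      ≤ ∫⁻ v, ∫⁻ vs, 24 * (br v ^ (k + 1) * f v) * (br vs ^ (k + 1) * g vs) := by
        refine lintegral_mono fun v => lintegral_mono fun vs => ?_
        calc ∫⁻ w, cw v vs w * (f v * g vs * br (x v vs w) ^ k) ∂sphereMeasure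
            ≤ ∫⁻ _w, (br v ^ (k + 1) * f v) * (br vs ^ (k + 1) * g vs) ∂sphereMeasure := by
              refine lintegral_mono_ae ?_
              filter_upwards [ae_norm_sphere] with w hw
              calc cw v vs w * (f v * g vs * br (x v vs w) ^ k)
                  ≤ (br v * br vs) * (f v * g vs * (br v * br vs) ^ k) := by
                    gcongr
                    · exact geo2_cw_le hw v vs
                    · exact geo2_br_le (hx v vs w hw)
                _ = (br v ^ (k + 1) * f v) * (br vs ^ (k + 1) * g vs) := by ring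
          _ = (br v ^ (k + 1) * f v) * (br vs ^ (k + 1) * g vs) * sphereMeasure univ :=
              lintegral_const _
          _ ≤ (br v ^ (k + 1) * f v) * (br vs ^ (k + 1) * g vs) * 24 := by
              gcongr
              exact sphere_univ_le
          _ = 24 * (br v ^ (k + 1) * f v) * (br vs ^ (k + 1) * g vs) := by ring
    _ = ∫⁻ v, 24 * (br v ^ (k + 1) * f v) * ∫⁻ vs, br vs ^ (k + 1) * g vs :=
        lintegral_congr fun v => lintegral_const_mul _ hG
    _ = 24 * ((∫⁻ v, br v ^ (k + 1) * f v) * ∫⁻ v, br v ^ (k + 1) * g v) := by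
        rw [lintegral_mul_const _ (hF.const_mul 24), lintegral_const_mul _ hF, mul_assoc]

theorem lintegral_gn_br_le (hf : Measurable f) (hg : Measurable g) (k : ℕ) :
    ∫⁻ v, gn f g v * br v ^ k ≤ 24 * ((∫⁻ v, br v ^ (k + 1) * f v) * ∫⁻ v, br v ^ (k + 1) * g v) := by
  rw [lintegral_gn_mul hf hg (measurable_br.pow_const k)]
  exact geo2_triple_le hf hg k (x := postVel) fun v vs w hw => norm_postVel_le hw v vs

theorem lintegral_ls_br_le (hf : Measurable f) (hg : Measurable g) (k : ℕ) :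
    ∫⁻ v, f v * ls g v * br v ^ k ≤
      24 * ((∫⁻ v, br v ^ (k + 1) * f v) * ∫⁻ v, br v ^ (k + 1) * g v) := by
  rw [lintegral_mul_ls hf hg (measurable_br.pow_const k)]
  exact geo2_triple_le hf hg k (x := fun v _ _ => v) fun v vs w hw =>
    le_add_of_nonneg_right (norm_nonneg _)

theorem geo2_cw_ne_top (v vs w : R3) : cw v vs w ≠ ⊤ := ENNReal.ofReal_ne_top

/-- Integrability of the loss-type integrands. -/
theorem geo2_intA (hf : Measurable f) (hfin : ∀ v, f v ≠ ⊤) {k : ℕ}
    (hm : ∫⁻ v, br v ^ (k + 1) * f v ≠ ⊤) {ψ : R3 → ℝ} (hψ : Measurable ψ) {C : ℝ}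
    (hC : ∀ v, |ψ v| ≤ C * (1 + ‖v‖) ^ k) {x : R3 × R3 × R3 → R3} (hxm : Measurable x)
    (hx : ∀ p : R3 × R3 × R3, ‖p.2.2‖ = 1 → ‖x p‖ ≤ ‖p.1‖ + ‖p.2.1‖) :
    Integrable (fun p : R3 × R3 × R3 =>
      (cw p.1 p.2.1 p.2.2).toReal * ((f p.1).toReal * (f p.2.1).toReal) * ψ (x p)) colM := by
  have hC0 : 0 ≤ C := by
    have h := (abs_nonneg _).trans (hC 0)
    simpa using h
  have hF : Measurable fun v => br v ^ (k + 1) * f v := (measurable_br.pow_const _).mul hf
  have h1 : Integrable fun v : R3 => (1 + ‖v‖) ^ (k + 1) * (f v).toReal := by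
    refine (integrable_toReal_of_lintegral_ne_top hF.aemeasurable hm).congr
      (Eventually.of_forall fun v => ?_)
    simp only [br]
    rw [ENNReal.toReal_mul, ENNReal.toReal_pow, ENNReal.toReal_ofReal (by positivity)]
  have h2 : Integrable (fun p : R3 × R3 × R3 => ((1 + ‖p.1‖) ^ (k + 1) * (f p.1).toReal) *
      (((1 + ‖p.2.1‖) ^ (k + 1) * (f p.2.1).toReal) * C)) colM :=
    h1.mul_prod (h1.mul_prod (integrable_const (μ := sphereMeasure) C))
  refine h2.mono' ?_ ?_
  · exact ((measurable_cw.ennreal_toReal.mul ((hf.comp measurable_fst).ennreal_toReal.mul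
      (hf.comp measurable_snd.fst).ennreal_toReal)).mul (hψ.comp hxm)).aestronglyMeasurable
  · filter_upwards [ae_colM] with p hp
    have a1 : (cw p.1 p.2.1 p.2.2).toReal ≤ (1 + ‖p.1‖) * (1 + ‖p.2.1‖) := by
      have h := geo2_cw_le hp p.1 p.2.1
      unfold br at h
      rw [← ENNReal.ofReal_mul (by positivity)] at h
      exact ENNReal.toReal_le_of_le_ofReal (by positivity) h
    have a2 : |ψ (x p)| ≤ C * ((1 + ‖p.1‖) * (1 + ‖p.2.1‖)) ^ k := by
      refine (hC _).trans ?_
      have h := hx p hp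
      have : 1 + ‖x p‖ ≤ (1 + ‖p.1‖) * (1 + ‖p.2.1‖) := by
        nlinarith [mul_nonneg (norm_nonneg p.1) (norm_nonneg p.2.1)]
      gcongr
    rw [Real.norm_eq_abs, abs_mul, abs_of_nonneg (by positivity)]
    calc (cw p.1 p.2.1 p.2.2).toReal * ((f p.1).toReal * (f p.2.1).toReal) * |ψ (x p)|
        ≤ ((1 + ‖p.1‖) * (1 + ‖p.2.1‖)) * ((f p.1).toReal * (f p.2.1).toReal) *
          (C * ((1 + ‖p.1‖) * (1 + ‖p.2.1‖)) ^ k) := by gcongr
      _ = _ := by rw [mul_pow]; ring

/-- Marginals on the first velocity. -/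
theorem geo2_marg {G : R3 × R3 × R3 → ℝ≥0∞} (hG : Measurable G) (hfin : ∀ p, G p ≠ ⊤)
    {ψ : R3 → ℝ} (hi : Integrable (fun p : R3 × R3 × R3 => (G p).toReal * ψ p.1) colM) :
    (Integrable fun v => (∫⁻ vs, ∫⁻ w, G (v, vs, w) ∂sphereMeasure).toReal * ψ v) ∧
    ∫ v, (∫⁻ vs, ∫⁻ w, G (v, vs, w) ∂sphereMeasure).toReal * ψ v =
      ∫ p, (G p).toReal * ψ p.1 ∂colM := by
  have e : (fun v => (∫⁻ vs, ∫⁻ w, G (v, vs, w) ∂sphereMeasure).toReal * ψ v) =
      fun v => ∫ q, (G (v, q)).toReal * ψ v ∂((volume : Measure R3).prod sphereMeasure) := by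
    funext v
    have h1 : Measurable fun q : R3 × R3 => G (v, q) := hG.comp measurable_prodMk_left
    rw [integral_mul_const, integral_toReal h1.aemeasurable
      (Eventually.of_forall fun q => (hfin _).lt_top), lintegral_prod _ h1.aemeasurable]
  rw [e]
  unfold colM at hi ⊢
  exact ⟨hi.integral_prod_left, (integral_prod _ hi).symm⟩

/-- Symmetrised real weak form: for a finite density with enough moments and a real test function
of polynomial growth, `∫ (Q⁺ - Q⁻) ψ = -¼ ∫ |a| (f' f⁎' - f f⁎) (ψ' + ψ⁎' - ψ - ψ⁎)`, with an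
integrable integrand on the right. -/
theorem integral_coll_sym (hf : Measurable f) (hfin : ∀ v, f v ≠ ⊤) {k : ℕ}
    (hm : ∫⁻ v, br v ^ (k + 1) * f v ≠ ⊤) {ψ : R3 → ℝ} (hψ : Measurable ψ) {C : ℝ}
    (hC : ∀ v, |ψ v| ≤ C * (1 + ‖v‖) ^ k) :
    (Integrable fun v => (gn f f v).toReal * ψ v) ∧
    (Integrable fun v => (f v * ls f v).toReal * ψ v) ∧
    Integrable (fun p : R3 × R3 × R3 => (cw p.1 p.2.1 p.2.2).toReal *
      (((f (postVel p.1 p.2.1 p.2.2)).toReal * (f (postVelStar p.1 p.2.1 p.2.2)).toReal -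
          (f p.1).toReal * (f p.2.1).toReal) *
        (ψ (postVel p.1 p.2.1 p.2.2) + ψ (postVelStar p.1 p.2.1 p.2.2) - ψ p.1 - ψ p.2.1))) colM ∧
    ∫ v, ((gn f f v).toReal - (f v * ls f v).toReal) * ψ v =
      -(1 / 4) * ∫ p : R3 × R3 × R3, (cw p.1 p.2.1 p.2.2).toReal *
      (((f (postVel p.1 p.2.1 p.2.2)).toReal * (f (postVelStar p.1 p.2.1 p.2.2)).toReal -
          (f p.1).toReal * (f p.2.1).toReal) *
        (ψ (postVel p.1 p.2.1 p.2.2) + ψ (postVelStar p.1 p.2.1 p.2.2) - ψ p.1 - ψ p.2.1)) ∂colM := by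
  -- the four loss-type integrands
  have hv : Measurable fun p : R3 × R3 × R3 => postVel p.1 p.2.1 p.2.2 := continuous_postVel.measurable
  have hs : Measurable fun p : R3 × R3 × R3 => postVelStar p.1 p.2.1 p.2.2 :=
    continuous_postVelStar.measurable
  have A1 := geo2_intA hf hfin hm hψ hC (x := fun p => p.1) measurable_fst fun p _ =>
    le_add_of_nonneg_right (norm_nonneg _)
  have A2 := geo2_intA hf hfin hm hψ hC (x := fun p => p.2.1) measurable_snd.fst fun p _ =>
    le_add_of_nonneg_left (norm_nonneg _)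
  have A3 := geo2_intA hf hfin hm hψ hC (x := fun p => postVel p.1 p.2.1 p.2.2) hv fun p hp =>
    norm_postVel_le hp _ _
  have A4 := geo2_intA hf hfin hm hψ hC (x := fun p => postVelStar p.1 p.2.1 p.2.2) hs fun p hp =>
    norm_postVelStar_le hp _ _
  -- transfer along a measure preserving map
  have tr : ∀ {T : R3 × R3 × R3 → R3 × R3 × R3} (hT : MeasurePreserving T colM colM)
      {a b : R3 × R3 × R3 → ℝ} (ha : Integrable a colM) (hab : ∀ p, ‖p.2.2‖ = 1 → a (T p) = b p),
      Integrable b colM ∧ ∫ p, b p ∂colM = ∫ p, a p ∂colM := by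
    intro T hT a b ha hab
    have hae : (fun p => a (T p)) =ᵐ[colM] b := by
      filter_upwards [ae_colM] with p hp using hab p hp
    refine ⟨(hT.integrable_comp_of_integrable ha).congr hae, ?_⟩
    rw [← integral_congr_ae hae]
    have := integral_map (μ := colM) hT.measurable.aemeasurable (f := a)
      (by rw [hT.map_eq]; exact ha.aestronglyMeasurable)
    rw [hT.map_eq] at this
    exact this.symm
  have E21 := (tr measurePreserving_exch A1 (b := fun p =>
      (cw p.1 p.2.1 p.2.2).toReal * ((f p.1).toReal * (f p.2.1).toReal) * ψ p.2.1) fun p _ => by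
    simp only [cw_swap p.1 p.2.1]
    ring).2
  have E43 := (tr measurePreserving_exch A3 (b := fun p =>
      (cw p.1 p.2.1 p.2.2).toReal * ((f p.1).toReal * (f p.2.1).toReal) *
        ψ (postVelStar p.1 p.2.1 p.2.2)) fun p _ => by
    simp only [cw_swap p.1 p.2.1, postVel_swap p.1 p.2.1]
    ring).2
  obtain ⟨B1, F1⟩ := tr measurePreserving_post A3 (b := fun p => (cw p.1 p.2.1 p.2.2).toReal *
      ((f (postVel p.1 p.2.1 p.2.2)).toReal * (f (postVelStar p.1 p.2.1 p.2.2)).toReal) * ψ p.1)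
    fun p hp => by simp only [cw_post hp, postVel_post hp]
  obtain ⟨B2, F2⟩ := tr measurePreserving_post A4 (b := fun p => (cw p.1 p.2.1 p.2.2).toReal *
      ((f (postVel p.1 p.2.1 p.2.2)).toReal * (f (postVelStar p.1 p.2.1 p.2.2)).toReal) * ψ p.2.1)
    fun p hp => by simp only [cw_post hp, postVelStar_post hp]
  obtain ⟨B3, F3⟩ := tr measurePreserving_post A1 (b := fun p => (cw p.1 p.2.1 p.2.2).toReal *
      ((f (postVel p.1 p.2.1 p.2.2)).toReal * (f (postVelStar p.1 p.2.1 p.2.2)).toReal) *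
        ψ (postVel p.1 p.2.1 p.2.2))
    fun p hp => by simp only [cw_post hp]
  obtain ⟨B4, F4⟩ := tr measurePreserving_post A2 (b := fun p => (cw p.1 p.2.1 p.2.2).toReal *
      ((f (postVel p.1 p.2.1 p.2.2)).toReal * (f (postVelStar p.1 p.2.1 p.2.2)).toReal) *
        ψ (postVelStar p.1 p.2.1 p.2.2))
    fun p hp => by simp only [cw_post hp]
  -- the marginals
  have hG1 := geo2_meas_gain hf hf
  have hG2 : Measurable fun p : R3 × R3 × R3 => f p.1 * (cw p.1 p.2.1 p.2.2 * f p.2.1) :=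
    (hf.comp measurable_fst).mul (geo2_meas_loss hf)
  have eG1 : (fun p : R3 × R3 × R3 => (cw p.1 p.2.1 p.2.2 *
      (f (postVel p.1 p.2.1 p.2.2) * f (postVelStar p.1 p.2.1 p.2.2))).toReal * ψ p.1) =
      fun p => (cw p.1 p.2.1 p.2.2).toReal *
      ((f (postVel p.1 p.2.1 p.2.2)).toReal * (f (postVelStar p.1 p.2.1 p.2.2)).toReal) * ψ p.1 := by
    funext p
    simp only [ENNReal.toReal_mul]
  have eG2 : (fun p : R3 × R3 × R3 => (f p.1 * (cw p.1 p.2.1 p.2.2 * f p.2.1)).toReal * ψ p.1) =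
      fun p => (cw p.1 p.2.1 p.2.2).toReal * ((f p.1).toReal * (f p.2.1).toReal) * ψ p.1 := by
    funext p
    simp only [ENNReal.toReal_mul]
    ring
  obtain ⟨M1, N1⟩ := geo2_marg hG1 (fun p => ENNReal.mul_ne_top (geo2_cw_ne_top _ _ _)
    (ENNReal.mul_ne_top (hfin _) (hfin _))) (ψ := ψ) (by rw [eG1]; exact B1)
  obtain ⟨M2, N2⟩ := geo2_marg hG2 (fun p => ENNReal.mul_ne_top (hfin _)
    (ENNReal.mul_ne_top (geo2_cw_ne_top _ _ _) (hfin _))) (ψ := ψ) (by rw [eG2]; exact A1)
  rw [eG1] at N1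
  rw [eG2] at N2
  have eL : ∀ v, (∫⁻ vs, ∫⁻ w, f v * (cw v vs w * f vs) ∂sphereMeasure) = f v * ls f v := by
    intro v
    have h := geo2_mul_inside (geo2_meas_loss hf) v (f v) 1
    simp only [mul_one] at h
    exact h.symm
  simp only [eL] at M2 N2
  have M1' : Integrable fun v => (gn f f v).toReal * ψ v := M1
  have N1' : ∫ v, (gn f f v).toReal * ψ v = _ := N1
  have I1 := ((B3.add B4).sub (B1.add B2)).sub ((A3.add A4).sub (A1.add A2))
  have eI : (fun p : R3 × R3 × R3 => (cw p.1 p.2.1 p.2.2).toReal *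
      (((f (postVel p.1 p.2.1 p.2.2)).toReal * (f (postVelStar p.1 p.2.1 p.2.2)).toReal -
          (f p.1).toReal * (f p.2.1).toReal) *
        (ψ (postVel p.1 p.2.1 p.2.2) + ψ (postVelStar p.1 p.2.1 p.2.2) - ψ p.1 - ψ p.2.1))) =
      fun p : R3 × R3 × R3 =>
      (((cw p.1 p.2.1 p.2.2).toReal *
        ((f (postVel p.1 p.2.1 p.2.2)).toReal * (f (postVelStar p.1 p.2.1 p.2.2)).toReal) *
          ψ (postVel p.1 p.2.1 p.2.2) + (cw p.1 p.2.1 p.2.2).toReal *
        ((f (postVel p.1 p.2.1 p.2.2)).toReal * (f (postVelStar p.1 p.2.1 p.2.2)).toReal) *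
          ψ (postVelStar p.1 p.2.1 p.2.2)) -
       ((cw p.1 p.2.1 p.2.2).toReal *
        ((f (postVel p.1 p.2.1 p.2.2)).toReal * (f (postVelStar p.1 p.2.1 p.2.2)).toReal) * ψ p.1 +
        (cw p.1 p.2.1 p.2.2).toReal *
        ((f (postVel p.1 p.2.1 p.2.2)).toReal * (f (postVelStar p.1 p.2.1 p.2.2)).toReal) *
          ψ p.2.1)) -
      (((cw p.1 p.2.1 p.2.2).toReal * ((f p.1).toReal * (f p.2.1).toReal) *
          ψ (postVel p.1 p.2.1 p.2.2) +
        (cw p.1 p.2.1 p.2.2).toReal * ((f p.1).toReal * (f p.2.1).toReal) *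
          ψ (postVelStar p.1 p.2.1 p.2.2)) -
       ((cw p.1 p.2.1 p.2.2).toReal * ((f p.1).toReal * (f p.2.1).toReal) * ψ p.1 +
        (cw p.1 p.2.1 p.2.2).toReal * ((f p.1).toReal * (f p.2.1).toReal) * ψ p.2.1)) := by
    funext p
    ring
  refine ⟨M1', M2, ?_, ?_⟩
  · rw [eI]
    exact I1
  · rw [eI, integral_sub ((B3.fun_add B4).sub' (B1.fun_add B2))
        ((A3.fun_add A4).sub' (A1.fun_add A2)),
      integral_sub (B3.fun_add B4) (B1.fun_add B2), integral_sub (A3.fun_add A4) (A1.fun_add A2),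
      integral_add B3 B4, integral_add B1 B2, integral_add A3 A4, integral_add A1 A2]
    simp only [sub_mul]
    rw [integral_sub M1' M2, N1', N2, F1, F2, F3, F4, E21, E43]
    ring

/-- Collision invariants. -/
theorem integral_coll_inv (hf : Measurable f) (hfin : ∀ v, f v ≠ ⊤)
    (hm : ∫⁻ v, br v ^ 3 * f v ≠ ⊤) {ψ : R3 → ℝ}
    (hψ : ψ = (fun _ => 1) ∨ (∃ i : Fin 3, ψ = fun v => v i) ∨ ψ = fun v => ‖v‖ ^ 2 / 2) :
    ∫ v, ((gn f f v).toReal - (f v * ls f v).toReal) * ψ v = 0 := by
  have key : Measurable ψ ∧ (∀ v, |ψ v| ≤ 1 * (1 + ‖v‖) ^ 2) ∧ ∀ v vs w : R3, ‖w‖ = 1 →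
      ψ (postVel v vs w) + ψ (postVelStar v vs w) - ψ v - ψ vs = 0 := by
    rcases hψ with rfl | ⟨i, rfl⟩ | rfl
    · refine ⟨measurable_const, fun v => ?_, fun v vs w _ => by ring⟩
      rw [abs_one]
      nlinarith [norm_nonneg v]
    · refine ⟨by fun_prop, fun v => ?_, fun v vs w _ => ?_⟩
      · have h : |v i| ≤ ‖v‖ := by
          have := EuclideanSpace.norm_sq_eq v
          exact (Real.norm_eq_abs _).symm.trans_le (PiLp.norm_apply_le v i)
        nlinarith [norm_nonneg v]
      · have h := congrArg (fun u : R3 => u i) (post_add v vs w)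
        simp only [PiLp.add_apply] at h
        linarith
    · refine ⟨by fun_prop, fun v => ?_, fun v vs w hw => ?_⟩
      · rw [abs_of_nonneg (by positivity)]
        nlinarith [norm_nonneg v]
      · have h := post_energy' hw v vs
        linarith
  obtain ⟨h1, h2, h3⟩ := key
  rw [(integral_coll_sym hf hfin (k := 2) hm h1 h2).2.2.2, integral_eq_zero_of_ae, mul_zero]
  filter_upwards [ae_colM] with p hp
  simp only [h3 _ _ _ hp, mul_zero, Pi.zero_apply]

theorem geo2_gn_eq (hg : Measurable g)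
    (h : ∀ v vs w : R3, ‖w‖ = 1 → g (postVel v vs w) * g (postVelStar v vs w) = g v * g vs) (v : R3) :
    gn g g v = g v * ls g v := by
  have h1 := geo2_mul_inside (geo2_meas_loss hg) v (g v) 1
  simp only [mul_one] at h1
  unfold gn ls
  rw [h1]
  refine lintegral_congr fun vs => lintegral_congr_ae ?_
  filter_upwards [ae_norm_sphere] with w hw
  rw [h v vs w hw]
  ring

theorem gn_ga (β : ℝ) (v : R3) : gn (ga β) (ga β) v = ga β v * ls (ga β) v := by
  refine geo2_gn_eq (measurable_ga β) (fun v vs w hw => ?_) v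
  unfold ga
  rw [← ENNReal.ofReal_mul (Real.exp_pos _).le, ← ENNReal.ofReal_mul (Real.exp_pos _).le,
    ← Real.exp_add, ← Real.exp_add, ← mul_add, ← mul_add, post_energy' hw]

theorem gn_Mx (v : R3) : gn Mx Mx v = Mx v * ls Mx v := by
  refine geo2_gn_eq measurable_Mx (fun v vs w hw => ?_) v
  have h0 : ∀ u, 0 ≤ maxwellian u := fun u => by
    unfold maxwellian
    have := Real.pi_pos
    positivity
  unfold Mx
  rw [← ENNReal.ofReal_mul (h0 _), ← ENNReal.ofReal_mul (h0 _)]
  congr 1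
  unfold maxwellian
  have e := post_energy' hw v vs
  rw [mul_mul_mul_comm, mul_mul_mul_comm _ (Real.exp _), ← Real.exp_add, ← Real.exp_add]
  congr 2
  linarith

end Crest.Agent.R68
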