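/-
R68/Geo3: plane integrals and Carleman's representation
Skeleton by helper76 (row 68); keep the statements unchanged, add any helper lemmas you like.
-/
import Crest.Agent.R68.Geo1

set_option autoImplicit false
set_option linter.unusedVariables false
set_option linter.unusedSectionVars false

noncomputable section

namespace Crest.Agent.R68

open MeasureTheory Set Filter Topology
open scoped ENNReal NNReal
open Crest.AnalysisR.VecCalc3 Crest.AnalysisR.PDE.Boltzmann

variable {f g : R3 → ℝ≥0∞} {v n : R3}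

theorem Geo3_inner {α : Type} [MeasurableSpace α] {x y : α → R3} (hx : Measurable x)
    (hy : Measurable y) : Measurable fun a => inner ℝ (x a) (y a) :=
  hx.inner hy

theorem Geo3_pj {α : Type} [MeasurableSpace α] {x y : α → R3} (hx : Measurable x)
    (hy : Measurable y) : Measurable fun a => x a - inner ℝ (x a) (y a) • y a :=
  hx.sub ((Geo3_inner hx hy).smul hy)

theorem Geo3_slab (n : R3) : MeasurableSet {z : R3 | inner ℝ z n ∈ Icc (0 : ℝ) 1} :=
  measurableSet_Icc.preimage (Geo3_inner measurable_id' measurable_const)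

theorem Geo3_proj (v n : R3) : Measurable fun z : R3 => v + (z - inner ℝ z n • n) :=
  measurable_const.add (Geo3_pj measurable_id' measurable_const)

theorem Geo3_measurable_dir : Measurable dir :=
  measurable_norm.inv.smul measurable_id

theorem measurable_pl {α : Type} [MeasurableSpace α] {g : α → R3 → ℝ≥0∞} {v n : α → R3}
    (hg : Measurable fun p : α × R3 => g p.1 p.2) (hv : Measurable v) (hn : Measurable n) :
    Measurable fun a => pl (g a) (v a) (n a) := by
  have hn' : Measurable fun p : α × R3 => n p.1 := hn.comp measurable_fst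
  have hv' : Measurable fun p : α × R3 => v p.1 := hv.comp measurable_fst
  have hS : MeasurableSet {p : α × R3 | inner ℝ p.2 (n p.1) ∈ Icc (0 : ℝ) 1} :=
    measurableSet_Icc.preimage (Geo3_inner measurable_snd hn')
  have hz : Measurable fun p : α × R3 =>
      (p.1, v p.1 + (p.2 - inner ℝ p.2 (n p.1) • n p.1)) :=
    measurable_fst.prodMk (hv'.add (Geo3_pj measurable_snd hn'))
  have hm : Measurable fun p : α × R3 => g p.1 (v p.1 + (p.2 - inner ℝ p.2 (n p.1) • n p.1)) :=
    hg.comp hz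
  have h := (hm.indicator hS).lintegral_prod_right' (ν := (volume : Measure R3))
  convert h using 2 with a
  rw [pl, ← lintegral_indicator (Geo3_slab _)]
  rfl

theorem pl_mono {g' : R3 → ℝ≥0∞} (h : ∀ z : R3, inner ℝ z n = 0 → g (v + z) ≤ g' (v + z))
    (hn : ‖n‖ = 1) : pl g v n ≤ pl g' v n := by
  refine lintegral_mono fun z => h _ ?_
  rw [inner_sub_left, real_inner_smul_left, real_inner_self_eq_norm_sq, hn]
  ring

theorem pl_add {g' : R3 → ℝ≥0∞} (hg : Measurable g) (v n : R3) :
    pl (g + g') v n = pl g v n + pl g' v n := by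
  exact lintegral_add_left (hg.comp (Geo3_proj v n)) _

theorem pl_mul (c : ℝ≥0∞) (hg : Measurable g) (v n : R3) :
    pl (fun u => c * g u) v n = c * pl g v n := by
  exact lintegral_const_mul c (hg.comp (Geo3_proj v n))

theorem pl_sum {ι : Type} (s : Finset ι) {G : ι → R3 → ℝ≥0∞} (hG : ∀ i, Measurable (G i))
    (v n : R3) : pl (fun u => ∑ i ∈ s, G i u) v n = ∑ i ∈ s, pl (G i) v n := by
  exact lintegral_finsetSum s fun i _ => (hG i).comp (Geo3_proj v n)

theorem Geo3_perp (x y : R3) : ∃ b : R3, ‖b‖ = 1 ∧ inner ℝ b x = 0 ∧ inner ℝ b y = 0 := by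
  let L : R3 →ₗ[ℝ] ℝ × ℝ := (innerₛₗ ℝ x).prod (innerₛₗ ℝ y)
  have h : LinearMap.ker L ≠ ⊥ := LinearMap.ker_ne_bot_of_finrank_lt (by simp)
  obtain ⟨z, hz, hz0⟩ := Submodule.exists_mem_ne_zero_of_ne_bot h
  have h1 : inner ℝ x z = 0 := congrArg Prod.fst (LinearMap.mem_ker.1 hz)
  have h2 : inner ℝ y z = 0 := congrArg Prod.snd (LinearMap.mem_ker.1 hz)
  refine ⟨dir z, norm_dir hz0, ?_, ?_⟩
  · rw [dir, real_inner_smul_left, real_inner_comm, h1, mul_zero]
  · rw [dir, real_inner_smul_left, real_inner_comm, h2, mul_zero]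

/-- An orthonormal frame with first vector `n` and (optionally) second vector along the part of
`e` orthogonal to `n` (`Orthonormal.exists_orthonormalBasis_extension_of_card_eq`). -/
theorem exists_frame (hn : ‖n‖ = 1) (e : R3) : ∃ a b : R3, ‖a‖ = 1 ∧ ‖b‖ = 1 ∧ inner ℝ a b = 0 ∧
    inner ℝ a n = 0 ∧ inner ℝ b n = 0 ∧ inner ℝ b e = 0 := by
  obtain ⟨b, hb, hbn, hbe⟩ := Geo3_perp n e
  obtain ⟨a, ha, han, hab⟩ := Geo3_perp n b
  exact ⟨a, b, ha, hb, hab, han, hbn, hbe⟩

theorem Geo3_frame {a b : R3} (hn : ‖n‖ = 1) (ha : ‖a‖ = 1) (hb : ‖b‖ = 1)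
    (hab : inner ℝ a b = 0) (han : inner ℝ a n = 0) (hbn : inner ℝ b n = 0) :
    MeasurePreserving (fun q : ℝ × ℝ × ℝ => q.1 • n + (q.2.1 • a + q.2.2 • b)) volume volume := by
  have hba : inner ℝ b a = 0 := by rw [real_inner_comm, hab]
  have hna : inner ℝ n a = 0 := by rw [real_inner_comm, han]
  have hnb : inner ℝ n b = 0 := by rw [real_inner_comm, hbn]
  have ho : Orthonormal ℝ ![n, a, b] := by
    refine ⟨fun i => ?_, fun i j hij => ?_⟩
    · fin_cases i <;> simpa
    · fin_cases i <;> fin_cases j <;> first | exact absurd rfl hij | simpa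
  have hc : Fintype.card (Fin 3) = Module.finrank ℝ R3 := by simp
  let B : OrthonormalBasis (Fin 3) ℝ R3 :=
    (basisOfOrthonormalOfCardEqFinrank ho hc).toOrthonormalBasis (by simpa using ho)
  have hB : (B : Fin 3 → R3) = ![n, a, b] := by simp [B]
  have h1 := B.measurePreserving_repr_symm
  have h2 := PiLp.volume_preserving_toLp (Fin 3)
  have h3 := (volume_preserving_piFinSuccAbove (fun _ : Fin 3 => ℝ) 0).symm
  have h4 : MeasurePreserving (Prod.map (id : ℝ → ℝ) (@MeasurableEquiv.finTwoArrow ℝ _).symm)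
      volume volume :=
    (MeasurePreserving.id volume).prod (volume_preserving_finTwoArrow ℝ).symm
  convert ((h1.comp h2).comp h3).comp h4 using 1
  funext q
  simp only [Function.comp]
  rw [← B.sum_repr_symm, Fin.sum_univ_three, hB]
  simp [add_assoc, MeasurableEquiv.piFinSuccAbove, MeasurableEquiv.finTwoArrow]

/-- Lebesgue measure in an orthonormal frame. -/
theorem lintegral_frame {a b : R3} (hn : ‖n‖ = 1) (ha : ‖a‖ = 1) (hb : ‖b‖ = 1)
    (hab : inner ℝ a b = 0) (han : inner ℝ a n = 0) (hbn : inner ℝ b n = 0) (hg : Measurable g) :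
    ∫⁻ z, g z = ∫⁻ r : ℝ, ∫⁻ p : ℝ × ℝ, g (r • n + (p.1 • a + p.2 • b)) := by
  have h := Geo3_frame hn ha hb hab han hbn
  have hm : Measurable fun q : ℝ × ℝ × ℝ => g (q.1 • n + (q.2.1 • a + q.2.2 • b)) :=
    hg.comp h.measurable
  rw [← h.lintegral_comp hg, Measure.volume_eq_prod, lintegral_prod _ hm.aemeasurable]

theorem Geo3_split {a b : R3} (hn : ‖n‖ = 1) (ha : ‖a‖ = 1) (hb : ‖b‖ = 1)
    (hab : inner ℝ a b = 0) (han : inner ℝ a n = 0) (hbn : inner ℝ b n = 0) {Φ : ℝ → R3 → ℝ≥0∞}
    (h : Measurable fun p : ℝ × R3 => Φ p.1 p.2) :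
    ∫⁻ z, Φ (inner ℝ z n) (z - inner ℝ z n • n) =
      ∫⁻ r : ℝ, ∫⁻ p : ℝ × ℝ, Φ r (p.1 • a + p.2 • b) := by
  have hz : Measurable fun z : R3 => (inner ℝ z n, z - inner ℝ z n • n) :=
    (Geo3_inner measurable_id' measurable_const).prodMk (Geo3_pj measurable_id' measurable_const)
  have hm : Measurable fun z : R3 => Φ (inner ℝ z n) (z - inner ℝ z n • n) := h.comp hz
  rw [lintegral_frame hn ha hb hab han hbn hm]
  refine lintegral_congr fun r => lintegral_congr fun p => ?_
  have h1 : inner ℝ (r • n + (p.1 • a + p.2 • b)) n = r := by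
    rw [inner_add_left, inner_add_left, real_inner_smul_left, real_inner_smul_left,
      real_inner_smul_left, han, hbn, real_inner_self_eq_norm_sq, hn]
    ring
  rw [h1, add_sub_cancel_left]

theorem pl_eq {a b : R3} (hn : ‖n‖ = 1) (ha : ‖a‖ = 1) (hb : ‖b‖ = 1) (hab : inner ℝ a b = 0)
    (han : inner ℝ a n = 0) (hbn : inner ℝ b n = 0) (hg : Measurable g) (v : R3) :
    pl g v n = ∫⁻ p : ℝ × ℝ, g (v + (p.1 • a + p.2 • b)) := by
  have hm : Measurable fun p : ℝ × R3 =>
      (Icc (0 : ℝ) 1).indicator (1 : ℝ → ℝ≥0∞) p.1 * g (v + p.2) :=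
    ((measurable_one.indicator measurableSet_Icc).comp measurable_fst).mul
      (hg.comp (measurable_const.add measurable_snd))
  have h := Geo3_split hn ha hb hab han hbn
    (Φ := fun r z => (Icc (0 : ℝ) 1).indicator (1 : ℝ → ℝ≥0∞) r * g (v + z)) hm
  have hg' : Measurable fun p : ℝ × ℝ => g (v + (p.1 • a + p.2 • b)) := hg.comp (by fun_prop)
  simp only [lintegral_const_mul _ hg'] at h
  rw [lintegral_mul_const _ (measurable_one.indicator measurableSet_Icc),
    lintegral_indicator_one measurableSet_Icc, Real.volume_Icc, sub_zero, ENNReal.ofReal_one,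
    one_mul] at h
  rw [← h, pl, ← lintegral_indicator (Geo3_slab _)]
  refine lintegral_congr fun z => ?_
  by_cases hz : inner ℝ z n ∈ Icc (0 : ℝ) 1
  · have hz' : z ∈ {z : R3 | inner ℝ z n ∈ Icc (0 : ℝ) 1} := hz
    rw [indicator_of_mem hz, indicator_of_mem hz', Pi.one_apply, one_mul]
  · have hz' : z ∉ {z : R3 | inner ℝ z n ∈ Icc (0 : ℝ) 1} := hz
    rw [indicator_of_notMem hz, indicator_of_notMem hz', zero_mul]

theorem pl_neg (hn : ‖n‖ = 1) (hg : Measurable g) (v : R3) : pl g v (-n) = pl g v n := by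
  obtain ⟨a, b, ha, hb, hab, han, hbn, -⟩ := exists_frame hn 0
  rw [pl_eq hn ha hb hab han hbn hg, pl_eq (by rw [norm_neg, hn]) ha hb hab
    (by rw [inner_neg_right, han, neg_zero]) (by rw [inner_neg_right, hbn, neg_zero]) hg]

/-- The plane integral does not depend on the base point. -/
theorem pl_base (hn : ‖n‖ = 1) (hg : Measurable g) {z : R3} (hz : inner ℝ z n = 0) (v : R3) :
    pl g (v + z) n = pl g v n := by
  rw [pl, pl, ← lintegral_indicator (Geo3_slab _), ← lintegral_indicator (Geo3_slab _)]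
  refine Eq.trans (lintegral_congr fun y => ?_) (lintegral_add_left_eq_self _ z)
  have h1 : inner ℝ (z + y) n = inner ℝ y n := by rw [inner_add_left, hz, zero_add]
  simp only [indicator, mem_ofPred_eq, h1]
  congr 2
  abel

/-- Fubini along `n` and across `n`. -/
theorem lintegral_split (hn : ‖n‖ = 1) {Φ : ℝ → R3 → ℝ≥0∞}
    (h : Measurable fun p : ℝ × R3 => Φ p.1 p.2) :
    ∫⁻ z, Φ (inner ℝ z n) (z - inner ℝ z n • n) = ∫⁻ r : ℝ, pl (Φ r) 0 n := by
  obtain ⟨a, b, ha, hb, hab, han, hbn, -⟩ := exists_frame hn 0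
  rw [Geo3_split hn ha hb hab han hbn h]
  refine lintegral_congr fun r => ?_
  have hr : Measurable (Φ r) := h.comp (measurable_const.prodMk measurable_id)
  rw [pl_eq hn ha hb hab han hbn hr]
  simp only [zero_add]

/-- Polar coordinates (`measurePreserving_homeomorphUnitSphereProd`). -/
theorem lintegral_polar (hg : Measurable g) :
    ∫⁻ z, g z = ∫⁻ w, (∫⁻ r in Ioi (0 : ℝ), ENNReal.ofReal (r ^ 2) * g (r • w)) ∂sphereMeasure := by
  have h := (volume : Measure R3).measurePreserving_homeomorphUnitSphereProd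
  have hd : Module.finrank ℝ R3 - 1 = 2 := by simp
  rw [hd] at h
  have hm : Measurable fun q : Metric.sphere (0 : R3) 1 × Ioi (0 : ℝ) => g (q.2.1 • q.1.1) :=
    hg.comp (by fun_prop)
  have hm' : Measurable fun q : R3 × ℝ => ENNReal.ofReal (q.2 ^ 2) * g (q.2 • q.1) :=
    (by fun_prop : Measurable fun q : R3 × ℝ => ENNReal.ofReal (q.2 ^ 2)).mul
      (hg.comp (by fun_prop))
  calc ∫⁻ z, g z = ∫⁻ z : ({0}ᶜ : Set R3), g z ∂((volume : Measure R3).comap (↑)) := by
        rw [lintegral_subtype_comap (measurableSet_singleton _).compl, restrict_compl_singleton]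
    _ = ∫⁻ q : Metric.sphere (0 : R3) 1 × Ioi (0 : ℝ), g (q.2.1 • q.1.1)
          ∂((volume : Measure R3).toSphere.prod (Measure.volumeIoiPow 2)) := by
        rw [← h.lintegral_comp hm]
        refine lintegral_congr fun z => ?_
        rw [← homeomorphUnitSphereProd_symm_apply_coe, Homeomorph.symm_apply_apply]
    _ = ∫⁻ w : Metric.sphere (0 : R3) 1, (∫⁻ r in Ioi (0 : ℝ),
          ENNReal.ofReal (r ^ 2) * g (r • (w : R3))) ∂(volume : Measure R3).toSphere := by
        rw [lintegral_prod _ hm.aemeasurable]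
        refine lintegral_congr fun w => ?_
        have h1 : Measurable fun r : Ioi (0 : ℝ) => ENNReal.ofReal (r.1 ^ 2) := by fun_prop
        have h2 : Measurable fun r : Ioi (0 : ℝ) => g (r.1 • (w : R3)) := hg.comp (by fun_prop)
        rw [Measure.volumeIoiPow, lintegral_withDensity_eq_lintegral_mul _ h1 h2,
          ← lintegral_subtype_comap measurableSet_Ioi]
        rfl
    _ = _ := by
        rw [sphereMeasure, lintegral_map (hm'.lintegral_prod_right') measurable_subtype_coe]

/-- the integral over `v⁎` for a fixed direction -/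
theorem Geo3_fix {Φ : R3 → R3 → ℝ≥0∞} (h : Measurable fun p : R3 × R3 => Φ p.1 p.2) (v : R3)
    {w : R3} (hw : ‖w‖ = 1) :
    ∫⁻ vs, cw v vs w * Φ (postVel v vs w) (postVelStar v vs w) =
      ∫⁻ r : ℝ, ENNReal.ofReal |r| * pl (Φ (v + r • w)) v w := by
  have h1 : Measurable fun p : ℝ × R3 => (v + p.1 • w, v + p.2) := by fun_prop
  have h2 : Measurable fun p : ℝ × R3 => ENNReal.ofReal |p.1| * Φ (v + p.1 • w) (v + p.2) :=
    (by fun_prop : Measurable fun p : ℝ × R3 => ENNReal.ofReal |p.1|).mul (h.comp h1)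
  have h3 := lintegral_split hw
    (Φ := fun r z => ENNReal.ofReal |r| * Φ (v + r • w) (v + z)) h2
  rw [← lintegral_add_left_eq_self _ v]
  refine Eq.trans (lintegral_congr fun y => ?_) (h3.trans (lintegral_congr fun r => ?_))
  · have e : inner ℝ (v - (v + y)) w = -inner ℝ y w := by
      rw [sub_add_cancel_left, inner_neg_left]
    rw [cw, postVel, postVelStar, e, abs_neg, neg_smul, sub_neg_eq_add, add_assoc,
      ← sub_eq_add_neg]
  · have h4 : Measurable fun z => Φ (v + r • w) (v + z) :=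
      h.comp (measurable_const.prodMk (measurable_const.add measurable_id))
    rw [pl_mul _ h4]
    simp only [pl, zero_add]

/-- folding the negative half line onto the positive one -/
theorem Geo3_fold {Φ : R3 → R3 → ℝ≥0∞} (h : Measurable fun p : R3 × R3 => Φ p.1 p.2) (v : R3)
    {w : R3} (hw : ‖w‖ = 1) :
    ∫⁻ r : ℝ, ENNReal.ofReal |r| * pl (Φ (v + r • w)) v w =
      (∫⁻ r in Ioi (0 : ℝ), ENNReal.ofReal |r| * pl (Φ (v + r • w)) v w) +
        ∫⁻ r in Ioi (0 : ℝ), ENNReal.ofReal |r| * pl (Φ (v + r • (-w))) v (-w) := by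
  have hΦ : ∀ u, Measurable (Φ u) := fun u => h.comp (measurable_const.prodMk measurable_id)
  rw [← lintegral_add_compl _ (measurableSet_Ioi (a := (0 : ℝ))), compl_Ioi]
  congr 1
  rw [setLIntegral_congr Iio_ae_eq_Iic.symm, ← lintegral_indicator measurableSet_Iio,
    ← lintegral_indicator measurableSet_Ioi, ← lintegral_neg_eq_self]
  refine lintegral_congr fun r => ?_
  simp only [indicator, mem_Iio, mem_Ioi, Left.neg_neg_iff, abs_neg, neg_smul, smul_neg,
    pl_neg hw (hΦ _)]

/-- Carleman's representation for a function of both outgoing velocities.  For fixed `w` write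
`v - v⁎ = a w - z` with `z ⊥ w`, so `v' = v - a w`, `v⁎' = v + z` (`lintegral_split`); fold `a < 0`
onto `a > 0` with `w ↦ -w`, then polar coordinates. -/
theorem carleman {Φ : R3 → R3 → ℝ≥0∞} (h : Measurable fun p : R3 × R3 => Φ p.1 p.2) (v : R3) :
    ∫⁻ vs, ∫⁻ w, cw v vs w * Φ (postVel v vs w) (postVelStar v vs w) ∂sphereMeasure =
      2 * ∫⁻ u, ‖v - u‖ₑ⁻¹ * pl (Φ u) v (dir (v - u)) := by
  have hH : Measurable fun q : R3 × ℝ =>
      ENNReal.ofReal |q.2| * pl (Φ (v + q.2 • q.1)) v q.1 := by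
    refine (by fun_prop : Measurable fun q : R3 × ℝ => ENNReal.ofReal |q.2|).mul ?_
    have h1 : Measurable fun p : (R3 × ℝ) × R3 => (v + p.1.2 • p.1.1, p.2) := by fun_prop
    exact measurable_pl (g := fun q : R3 × ℝ => Φ (v + q.2 • q.1)) (h.comp h1) measurable_const
      measurable_fst
  have hΦ : ∀ u, Measurable (Φ u) := fun u => h.comp (measurable_const.prodMk measurable_id)
  set K : R3 → ℝ≥0∞ := fun w =>
    ∫⁻ r in Ioi (0 : ℝ), ENNReal.ofReal |r| * pl (Φ (v + r • w)) v w with hK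
  have hKm : Measurable K := hH.lintegral_prod_right'
  have hL : ∫⁻ vs, ∫⁻ w, cw v vs w * Φ (postVel v vs w) (postVelStar v vs w) ∂sphereMeasure
      = ∫⁻ w, (K w + K (-w)) ∂sphereMeasure := by
    have h0 : Measurable fun p : R3 × R3 => (v, p.1, p.2) := measurable_const.prodMk measurable_id
    have h1 : Measurable fun p : R3 × R3 => (postVel v p.1 p.2, postVelStar v p.1 p.2) :=
      (continuous_postVel.measurable.comp h0).prodMk (continuous_postVelStar.measurable.comp h0)
    have h2 : Measurable fun p : R3 × R3 =>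
        cw v p.1 p.2 * Φ (postVel v p.1 p.2) (postVelStar v p.1 p.2) :=
      (measurable_cw.comp h0).mul (h.comp h1)
    rw [lintegral_lintegral_swap h2.aemeasurable]
    refine lintegral_congr_ae (ae_norm_sphere.mono fun w hw => ?_)
    exact (Geo3_fix h v hw).trans (Geo3_fold h v hw)
  have hR : ∫⁻ u, ‖v - u‖ₑ⁻¹ * pl (Φ u) v (dir (v - u)) = ∫⁻ w, K w ∂sphereMeasure := by
    have h1 : Measurable fun u : R3 => ‖v - u‖ₑ⁻¹ * pl (Φ u) v (dir (v - u)) :=
      (by fun_prop : Measurable fun u : R3 => ‖v - u‖ₑ⁻¹).mul (measurable_pl h measurable_const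
        (Geo3_measurable_dir.comp (measurable_const.sub measurable_id)))
    have h2 : Measurable fun z : R3 =>
        ‖v - (v + z)‖ₑ⁻¹ * pl (Φ (v + z)) v (dir (v - (v + z))) :=
      h1.comp (measurable_const.add measurable_id)
    rw [← lintegral_add_left_eq_self _ v, lintegral_polar h2]
    refine lintegral_congr_ae (ae_norm_sphere.mono fun w hw => ?_)
    refine setLIntegral_congr_fun measurableSet_Ioi fun r hr => ?_
    have hr0 : 0 < r := hr
    have e1 : v - (v + r • w) = -(r • w) := by abel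
    have e2 : ‖-(r • w)‖ = r := by
      rw [norm_neg, norm_smul, hw, mul_one, Real.norm_eq_abs, abs_of_pos hr0]
    have e3 : dir (-(r • w)) = -w := by
      rw [dir, e2, smul_neg, smul_smul, inv_mul_cancel₀ hr0.ne', one_smul]
    show ENNReal.ofReal (r ^ 2) * (‖v - (v + r • w)‖ₑ⁻¹ * pl _ v (dir (v - (v + r • w)))) = _
    rw [e1, e3, pl_neg hw (hΦ _), ← ofReal_norm, e2, ← mul_assoc,
      ← ENNReal.ofReal_inv_of_pos hr0, ← ENNReal.ofReal_mul (by positivity), abs_of_pos hr0]
    congr 2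
    field_simp
  have hneg : ∫⁻ w, K (-w) ∂sphereMeasure = ∫⁻ w, K w ∂sphereMeasure :=
    (measurePreserving_sphere (LinearIsometryEquiv.neg ℝ)).lintegral_comp hKm
  rw [hL, hR, lintegral_add_left hKm, hneg, two_mul]

theorem gn_carleman (hf : Measurable f) (hg : Measurable g) (v : R3) :
    gn f g v = 2 * ∫⁻ u, f u * ‖v - u‖ₑ⁻¹ * pl g v (dir (v - u)) := by
  have h : Measurable fun p : R3 × R3 => f p.1 * g p.2 :=
    (hf.comp measurable_fst).mul (hg.comp measurable_snd)
  rw [gn, carleman (Φ := fun u u' => f u * g u') h v]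
  congr 1
  refine lintegral_congr fun u => ?_
  rw [pl_mul _ hg, ← mul_assoc, mul_comm (f u)]

theorem gn_le_carleman (hf : Measurable f) (hg : Measurable g) {B : R3 → ℝ≥0∞}
    (h : ∀ u, u ≠ v → f u ≠ 0 → pl g v (dir (v - u)) ≤ B u) :
    gn f g v ≤ 2 * ∫⁻ u, f u * ‖v - u‖ₑ⁻¹ * B u := by
  rw [gn_carleman hf hg]
  refine mul_le_mul_right (lintegral_mono_ae ?_) _
  filter_upwards [Measure.ae_ne volume v] with u hu
  by_cases h0 : f u = 0
  · simp only [h0, zero_mul, le_refl]
  · exact mul_le_mul_right (h u hu h0) _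

theorem gn_eq_zero_of_ae (hf : Measurable f) (hg : Measurable g) (h : f =ᵐ[volume] 0) (v : R3) :
    gn f g v = 0 := by
  rw [gn_carleman hf hg, lintegral_congr_ae (g := fun _ => 0), lintegral_zero, mul_zero]
  filter_upwards [h] with u hu
  rw [hu, Pi.zero_apply, zero_mul, zero_mul]

end Crest.Agent.R68
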