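/-
R68/Geo4: the gain term is symmetric
Skeleton by helper76 (row 68); keep the statements unchanged, add any helper lemmas you like.
-/
import Crest.Agent.R68.Geo3

set_option autoImplicit false
set_option linter.unusedVariables false
set_option linter.unusedSectionVars false

noncomputable section

namespace Crest.Agent.R68

open MeasureTheory Set Filter Topology
open scoped ENNReal NNReal
open Crest.AnalysisR.VecCalc3 Crest.AnalysisR.PDE.Boltzmann

/-- The vector `(x, p₁, p₂)`. -/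
def geo4_mk (x : ℝ) (p : ℝ × ℝ) : R3 := !₂[x, p.1, p.2]

@[simp] theorem geo4_mk_zero (x : ℝ) (p : ℝ × ℝ) : geo4_mk x p 0 = x := rfl
@[simp] theorem geo4_mk_one (x : ℝ) (p : ℝ × ℝ) : geo4_mk x p 1 = p.1 := rfl
@[simp] theorem geo4_mk_two (x : ℝ) (p : ℝ × ℝ) : geo4_mk x p 2 = p.2 := rfl

theorem geo4_mk_eq (x : ℝ) (p : ℝ × ℝ) :
    geo4_mk x p = x • (EuclideanSpace.single 0 1 : R3) +
      (p.1 • (EuclideanSpace.single 1 1 : R3) + p.2 • (EuclideanSpace.single 2 1 : R3)) := by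
  ext i
  fin_cases i <;> simp [geo4_mk]

theorem geo4_continuous_mk : Continuous fun q : ℝ × (ℝ × ℝ) => geo4_mk q.1 q.2 := by
  simp only [geo4_mk_eq]
  fun_prop

theorem geo4_measurable_mk {α : Type} [MeasurableSpace α] {x : α → ℝ} {p : α → ℝ × ℝ}
    (hx : Measurable x) (hp : Measurable p) : Measurable fun a => geo4_mk (x a) (p a) :=
  geo4_continuous_mk.measurable.comp (hx.prodMk hp)

theorem geo4_lintegral {g : R3 → ℝ≥0∞} (hg : Measurable g) :
    ∫⁻ z, g z = ∫⁻ x : ℝ, ∫⁻ p : ℝ × ℝ, g (geo4_mk x p) := by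
  simp only [geo4_mk_eq]
  refine lintegral_frame ?_ ?_ ?_ ?_ ?_ ?_ hg <;>
    simp [EuclideanSpace.inner_single_left]

theorem geo4_inner (a b : R3) : inner ℝ a b = a 0 * b 0 + a 1 * b 1 + a 2 * b 2 := by
  simp [PiLp.inner_apply, Fin.sum_univ_three, mul_comm]

theorem geo4_norm_sq (a : R3) : ‖a‖ ^ 2 = a 0 ^ 2 + a 1 ^ 2 + a 2 ^ 2 := by
  rw [← real_inner_self_eq_norm_sq, geo4_inner]; ring

/-- The plane integral in graph coordinates. -/
theorem geo4_pl {u : R3} (hu : u 0 ≠ 0) {g : R3 → ℝ≥0∞} (hg : Measurable g) :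
    ‖u‖ₑ⁻¹ * pl g 0 (dir u) =
      ‖u 0‖ₑ⁻¹ * ∫⁻ p : ℝ × ℝ, g (geo4_mk (-(u 1 * p.1 + u 2 * p.2) / u 0) p) := by
  have hu0 : u ≠ 0 := by
    rintro rfl
    exact hu rfl
  have hN : ‖u‖ ≠ 0 := norm_ne_zero_iff.2 hu0
  have hsq := geo4_norm_sq u
  set n := dir u with hn
  have hn0 : n 0 = ‖u‖⁻¹ * u 0 := by simp [hn, dir]
  have hn1 : n 1 = ‖u‖⁻¹ * u 1 := by simp [hn, dir]
  have hn2 : n 2 = ‖u‖⁻¹ * u 2 := by simp [hn, dir]
  let A : Matrix (Fin 3) (Fin 3) ℝ := !![n 0, -u 1 / u 0, -u 2 / u 0; n 1, 1, 0; n 2, 0, 1]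
  let L : R3 →ₗ[ℝ] R3 := Matrix.toEuclideanLin A
  have hdet : LinearMap.det L = ‖u‖ / u 0 := by
    have : LinearMap.det L = A.det := LinearMap.det_toLpLin 2 A
    rw [this, Matrix.det_fin_three]
    simp only [A, Matrix.of_apply, Matrix.cons_val', Matrix.cons_val_zero, Matrix.cons_val_one,
      Matrix.cons_val_two, Matrix.cons_val_fin_one, Matrix.head_cons, Matrix.tail_cons,
      Matrix.empty_val', Matrix.head_fin_const]
    rw [hn0, hn1, hn2]
    field_simp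
    linear_combination -hsq
  have hdet0 : LinearMap.det L ≠ 0 := by rw [hdet]; exact div_ne_zero hN hu
  have hL : ∀ (x : ℝ) (p : ℝ × ℝ), L (geo4_mk x p) =
      x • n + geo4_mk (-(u 1 * p.1 + u 2 * p.2) / u 0) p := by
    intro x p
    ext i
    fin_cases i <;> simp [L, A, geo4_mk] <;> ring
  have hin : ∀ (x : ℝ) (p : ℝ × ℝ), inner ℝ (L (geo4_mk x p)) n = x := by
    intro x p
    rw [hL, geo4_inner]
    simp only [PiLp.add_apply, PiLp.smul_apply, smul_eq_mul, geo4_mk_zero, geo4_mk_one,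
      geo4_mk_two]
    rw [hn0, hn1, hn2]
    field_simp
    linear_combination -x * hsq
  have hLm : Measurable L := L.continuous_of_finiteDimensional.measurable
  have hS : MeasurableSet {z : R3 | inner ℝ z n ∈ Icc (0 : ℝ) 1} :=
    (measurable_id.inner measurable_const) measurableSet_Icc
  let G : R3 → ℝ≥0∞ := {z : R3 | inner ℝ z n ∈ Icc (0 : ℝ) 1}.indicator
    fun z => g (0 + (z - inner ℝ z n • n))
  have hG : Measurable G := by
    refine Measurable.indicator (hg.comp ?_) hS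
    fun_prop
  have h1 : pl g 0 n = ∫⁻ z, G z := by
    rw [pl, lintegral_indicator hS]
  have h2 : ∫⁻ z, G (L z) = ENNReal.ofReal |(LinearMap.det L)⁻¹| * ∫⁻ z, G z := by
    rw [← lintegral_map hG hLm, Measure.map_linearMap_addHaar_eq_smul_addHaar _ hdet0,
      lintegral_smul_measure, smul_eq_mul]
  have h3 : ∫⁻ z, G (L z) = ∫⁻ p : ℝ × ℝ, g (geo4_mk (-(u 1 * p.1 + u 2 * p.2) / u 0) p) := by
    rw [geo4_lintegral (g := fun z => G (L z)) (hG.comp hLm)]
    have : ∀ x : ℝ, ∫⁻ p : ℝ × ℝ, G (L (geo4_mk x p)) = (Icc (0 : ℝ) 1).indicator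
        (fun _ => ∫⁻ p : ℝ × ℝ, g (geo4_mk (-(u 1 * p.1 + u 2 * p.2) / u 0) p)) x := by
      intro x
      by_cases hx : x ∈ Icc (0 : ℝ) 1
      · rw [indicator_of_mem hx]
        refine lintegral_congr fun p => ?_
        have hm : L (geo4_mk x p) ∈ {z : R3 | inner ℝ z n ∈ Icc (0 : ℝ) 1} := by
          change inner ℝ (L (geo4_mk x p)) n ∈ Icc (0 : ℝ) 1
          rw [hin]; exact hx
        simp only [G]
        rw [indicator_of_mem hm, hin, hL]
        congr 1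
        abel
      · rw [indicator_of_notMem hx]
        have : ∀ p : ℝ × ℝ, G (L (geo4_mk x p)) = 0 := by
          intro p
          have hm : L (geo4_mk x p) ∉ {z : R3 | inner ℝ z n ∈ Icc (0 : ℝ) 1} := by
            change ¬ inner ℝ (L (geo4_mk x p)) n ∈ Icc (0 : ℝ) 1
            rw [hin]; exact hx
          simp only [G]
          rw [indicator_of_notMem hm]
        simp [this]
    simp only [this]
    rw [lintegral_indicator measurableSet_Icc]
    simp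
  rw [← h3, h2, h1, ← mul_assoc]
  congr 1
  have hp : 0 < ‖u‖ := norm_pos_iff.2 hu0
  have hq : 0 < |u 0| := abs_pos.2 hu
  rw [hdet, ← ofReal_norm, ← ofReal_norm, Real.norm_eq_abs,
    ← ENNReal.ofReal_inv_of_pos hp, ← ENNReal.ofReal_inv_of_pos hq,
    ← ENNReal.ofReal_mul (by positivity)]
  congr 1
  rw [inv_div, abs_div, abs_of_pos hp]
  field_simp

/-- The measure `dx / |x|` is invariant under `x ↦ -c / x`. -/
theorem geo4_inv {c : ℝ} (hc : c ≠ 0) (Ψ : ℝ → ℝ → ℝ≥0∞) :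
    ∫⁻ x : ℝ, ‖x‖ₑ⁻¹ * Ψ x (-c / x) = ∫⁻ x : ℝ, ‖x‖ₑ⁻¹ * Ψ (-c / x) x := by
  have hs : MeasurableSet ({0}ᶜ : Set ℝ) := (measurableSet_singleton 0).compl
  have hd : ∀ x ∈ ({0}ᶜ : Set ℝ), HasDerivWithinAt (fun x : ℝ => -c / x) (c / x ^ 2) {0}ᶜ x := by
    intro x hx
    have hx : x ≠ 0 := hx
    have := (hasDerivAt_inv hx).const_mul (-c)
    refine HasDerivAt.hasDerivWithinAt ?_
    have e : c / x ^ 2 = -c * -(x ^ 2)⁻¹ := by field_simp
    rw [e]
    simpa only [div_eq_mul_inv] using this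
  have hinj : InjOn (fun x : ℝ => -c / x) {0}ᶜ := by
    intro x hx y hy hxy
    have hx : x ≠ 0 := hx
    have hy : y ≠ 0 := hy
    have hxy : -c / x = -c / y := hxy
    field_simp at hxy
    linarith
  have him : (fun x : ℝ => -c / x) '' {0}ᶜ = {0}ᶜ := by
    ext y
    constructor
    · rintro ⟨x, hx, rfl⟩
      exact div_ne_zero (neg_ne_zero.2 hc) hx
    · intro hy
      have hy : y ≠ 0 := hy
      exact ⟨-c / y, div_ne_zero (neg_ne_zero.2 hc) hy, by field_simp⟩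
  have key := lintegral_image_eq_lintegral_abs_deriv_mul hs hd hinj
    (fun y => ‖y‖ₑ⁻¹ * Ψ y (-c / y))
  rw [him] at key
  have hr : (volume : Measure ℝ).restrict {0}ᶜ = volume := by
    rw [Measure.restrict_eq_self_of_ae_mem]
    exact compl_mem_ae_iff.2 (measure_singleton 0)
  calc ∫⁻ x : ℝ, ‖x‖ₑ⁻¹ * Ψ x (-c / x) = ∫⁻ x in ({0}ᶜ : Set ℝ), ‖x‖ₑ⁻¹ * Ψ x (-c / x) := by
        rw [hr]
    _ = ∫⁻ x in ({0}ᶜ : Set ℝ), ‖x‖ₑ⁻¹ * Ψ (-c / x) x := by
        rw [key]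
        refine setLIntegral_congr_fun hs fun x hx => ?_
        have hx : x ≠ 0 := hx
        have e : -c / (-c / x) = x := by field_simp
        have hp : 0 < |x| := abs_pos.2 hx
        have hq : 0 < |-c / x| := abs_pos.2 (div_ne_zero (neg_ne_zero.2 hc) hx)
        have hc' : 0 < |c| := abs_pos.2 hc
        simp only [e]
        rw [← mul_assoc]
        congr 1
        rw [← ofReal_norm, ← ofReal_norm, Real.norm_eq_abs, Real.norm_eq_abs,
          ← ENNReal.ofReal_inv_of_pos hp, ← ENNReal.ofReal_inv_of_pos hq,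
          ← ENNReal.ofReal_mul (abs_nonneg _)]
        congr 1
        rw [abs_div, abs_div, abs_neg, abs_pow]
        field_simp
    _ = _ := by rw [hr]

theorem geo4_ae_ne : ∀ᵐ q : ℝ × ℝ, ∀ᵐ p : ℝ × ℝ, q.1 * p.1 + q.2 * p.2 ≠ 0 := by
  have h0 : ∀ᵐ q : ℝ × ℝ, q ≠ 0 := compl_mem_ae_iff.2 (measure_singleton 0)
  filter_upwards [h0] with q hq
  let l : ℝ × ℝ →ₗ[ℝ] ℝ := q.1 • LinearMap.fst ℝ ℝ ℝ + q.2 • LinearMap.snd ℝ ℝ ℝ
  have hl : LinearMap.ker l ≠ ⊤ := by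
    intro h
    have h1 : q ∈ LinearMap.ker l := h ▸ Submodule.mem_top
    have h2 : q.1 * q.1 + q.2 * q.2 = 0 := by simpa [l] using h1
    apply hq
    ext
    · simp only [Prod.fst_zero]; nlinarith [mul_self_nonneg q.1, mul_self_nonneg q.2]
    · simp only [Prod.snd_zero]; nlinarith [mul_self_nonneg q.1, mul_self_nonneg q.2]
  have := Measure.addHaar_submodule (volume : Measure (ℝ × ℝ)) (LinearMap.ker l) hl
  rw [ae_iff]
  convert this using 2
  ext p
  simp [l]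

/-- Both sides of `pl_swap` in coordinates. -/
theorem geo4_coord {Φ : R3 → R3 → ℝ≥0∞} (h : Measurable fun p : R3 × R3 => Φ p.1 p.2) :
    ∫⁻ u, ‖u‖ₑ⁻¹ * pl (Φ u) 0 (dir u) = ∫⁻ q : ℝ × ℝ, ∫⁻ p : ℝ × ℝ, ∫⁻ x : ℝ,
      ‖x‖ₑ⁻¹ * Φ (geo4_mk x q) (geo4_mk (-(q.1 * p.1 + q.2 * p.2) / x) p) := by
  have hdir : Measurable dir := by
    unfold dir
    fun_prop
  have hm : Measurable fun u : R3 => ‖u‖ₑ⁻¹ * pl (Φ u) 0 (dir u) :=
    measurable_enorm.inv.mul (measurable_pl h measurable_const hdir)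
  have hK : Measurable fun t : (ℝ × (ℝ × ℝ)) × (ℝ × ℝ) => ‖t.1.1‖ₑ⁻¹ *
      Φ (geo4_mk t.1.1 t.1.2) (geo4_mk (-(t.1.2.1 * t.2.1 + t.1.2.2 * t.2.2) / t.1.1) t.2) := by
    refine Measurable.mul (by fun_prop) ?_
    exact h.comp ((geo4_measurable_mk (by fun_prop) (by fun_prop)).prodMk
      (geo4_measurable_mk (by fun_prop) (by fun_prop)))
  rw [geo4_lintegral hm]
  have h0 : ∀ᵐ x : ℝ, x ≠ 0 := compl_mem_ae_iff.2 (measure_singleton 0)
  calc ∫⁻ x : ℝ, ∫⁻ q : ℝ × ℝ, ‖geo4_mk x q‖ₑ⁻¹ * pl (Φ (geo4_mk x q)) 0 (dir (geo4_mk x q))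
      = ∫⁻ x : ℝ, ∫⁻ q : ℝ × ℝ, ∫⁻ p : ℝ × ℝ,
        ‖x‖ₑ⁻¹ * Φ (geo4_mk x q) (geo4_mk (-(q.1 * p.1 + q.2 * p.2) / x) p) := by
        refine lintegral_congr_ae ?_
        filter_upwards [h0] with x hx
        refine lintegral_congr fun q => ?_
        have hΦ : Measurable (Φ (geo4_mk x q)) := h.comp measurable_prodMk_left
        rw [geo4_pl (by simpa using hx) hΦ, lintegral_const_mul]
        · simp
        · exact hΦ.comp (geo4_measurable_mk (by fun_prop) measurable_id)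
    _ = ∫⁻ q : ℝ × ℝ, ∫⁻ x : ℝ, ∫⁻ p : ℝ × ℝ,
        ‖x‖ₑ⁻¹ * Φ (geo4_mk x q) (geo4_mk (-(q.1 * p.1 + q.2 * p.2) / x) p) :=
        lintegral_lintegral_swap (hK.lintegral_prod_right').aemeasurable
    _ = _ := by
        refine lintegral_congr fun q => lintegral_lintegral_swap ?_
        exact (hK.comp (f := fun t : ℝ × (ℝ × ℝ) => ((t.1, q), t.2)) (by fun_prop)).aemeasurable

/-- The measure `|u|⁻¹ du dz` on orthogonal pairs `(u, z)` is symmetric.

Recipe A.  Let `μ` be the finite measure on `R3 × R3` with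
`∫ Φ dμ = ∫ ‖u‖⁻¹ pl (fun z => Φ (u, z) * exp (-‖u‖² - ‖z‖²)) 0 (dir u) du` (define it as the `map` of a
`withDensity` measure on `R3 × R3`).  For bounded continuous `Φ ≥ 0`,
`A ε Φ = (2ε)⁻¹ ∫∫ 1{|⟪u,z⟫| ≤ ε} Φ (u,z) exp (-‖u‖² - ‖z‖²)` tends to `∫ Φ dμ` as `ε → 0`
(`lintegral_split` for fixed `u ≠ 0`, substitute `r = ε s / ‖u‖`, dominated convergence, bound
`C ‖u‖⁻¹ exp (-‖u‖²)`), and `A ε` is symmetric under the swap.  So `μ.map Prod.swap = μ`
(`ext_of_forall_lintegral_eq_of_IsFiniteMeasure`); divide by the symmetric Gaussian.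

Recipe B.  Prove for fixed `u` that `∫ |⟪u,w⟫| Φ (⟪u,w⟫ w) (u - ⟪u,w⟫ w) dσ(w)` is symmetric in the two
slots: rotate `u` to `e₀`, write the sphere integral as a ball integral, use cylindrical
coordinates and the substitution `θ ↦ π/2 - θ`. -/
theorem pl_swap {Φ : R3 → R3 → ℝ≥0∞} (h : Measurable fun p : R3 × R3 => Φ p.1 p.2) :
    ∫⁻ u, ‖u‖ₑ⁻¹ * pl (Φ u) 0 (dir u) = ∫⁻ u, ‖u‖ₑ⁻¹ * pl (fun z => Φ z u) 0 (dir u) := by
  have h' : Measurable fun p : R3 × R3 => (fun a b => Φ b a) p.1 p.2 := h.comp measurable_swap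
  rw [geo4_coord h, geo4_coord (Φ := fun a b => Φ b a) h']
  have hK : Measurable fun t : ((ℝ × ℝ) × (ℝ × ℝ)) × ℝ => ‖t.2‖ₑ⁻¹ *
      Φ (geo4_mk (-(t.1.1.1 * t.1.2.1 + t.1.1.2 * t.1.2.2) / t.2) t.1.2) (geo4_mk t.2 t.1.1) := by
    refine Measurable.mul (by fun_prop) ?_
    exact h.comp ((geo4_measurable_mk (by fun_prop) (by fun_prop)).prodMk
      (geo4_measurable_mk (by fun_prop) (by fun_prop)))
  rw [lintegral_lintegral_swap (f := fun (q p : ℝ × ℝ) => ∫⁻ x : ℝ, ‖x‖ₑ⁻¹ *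
    Φ (geo4_mk (-(q.1 * p.1 + q.2 * p.2) / x) p) (geo4_mk x q))
    (hK.lintegral_prod_right').aemeasurable]
  refine lintegral_congr_ae ?_
  filter_upwards [geo4_ae_ne] with q hq
  refine lintegral_congr_ae ?_
  filter_upwards [hq] with p hp
  rw [geo4_inv hp (fun x y => Φ (geo4_mk x q) (geo4_mk y p))]
  simp only [mul_comm q.1, mul_comm q.2]

theorem lintegral_swap_post {Φ : R3 → R3 → ℝ≥0∞} (h : Measurable fun p : R3 × R3 => Φ p.1 p.2)
    (v : R3) :
    ∫⁻ vs, ∫⁻ w, cw v vs w * Φ (postVel v vs w) (postVelStar v vs w) ∂sphereMeasure =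
      ∫⁻ vs, ∫⁻ w, cw v vs w * Φ (postVelStar v vs w) (postVel v vs w) ∂sphereMeasure := by
  have h' : Measurable fun p : R3 × R3 => (fun a b => Φ b a) p.1 p.2 := h.comp measurable_swap
  have tr : ∀ {Ψ : R3 → R3 → ℝ≥0∞}, (Measurable fun p : R3 × R3 => Ψ p.1 p.2) →
      ∫⁻ u, ‖v - u‖ₑ⁻¹ * pl (Ψ u) v (dir (v - u)) =
        ∫⁻ u, ‖u‖ₑ⁻¹ * pl (fun z => Ψ (v + u) (v + z)) 0 (dir u) := by
    intro Ψ hΨ
    rw [← lintegral_add_left_eq_self _ v]
    refine lintegral_congr fun u => ?_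
    have e1 : v - (v + u) = -u := by abel
    have e2 : dir (-u) = -dir u := by simp [dir]
    have e3 : pl (Ψ (v + u)) v (-dir u) = pl (Ψ (v + u)) v (dir u) := by
      by_cases hu : u = 0
      · simp [hu, dir]
      · exact pl_neg (norm_dir hu) (hΨ.comp measurable_prodMk_left) v
    rw [e1, e2, e3, enorm_neg]
    simp only [pl, zero_add]
  rw [carleman h v, carleman (Φ := fun a b => Φ b a) h' v, tr h, tr (Ψ := fun a b => Φ b a) h']
  congr 1
  exact pl_swap (Φ := fun a b => Φ (v + a) (v + b)) (h.comp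
    (f := fun p : R3 × R3 => (v + p.1, v + p.2)) (by fun_prop))

theorem gn_comm {f g : R3 → ℝ≥0∞} (hf : Measurable f) (hg : Measurable g) (v : R3) :
    gn f g v = gn g f v := by
  have := lintegral_swap_post (Φ := fun a b => f a * g b)
    ((hf.comp measurable_fst).mul (hg.comp measurable_snd)) v
  simpa only [gn, mul_comm (f _) (g _)] using this

theorem gn_eq_zero_of_ae' {f g : R3 → ℝ≥0∞} (hf : Measurable f) (hg : Measurable g)
    (h : g =ᵐ[volume] 0) (v : R3) : gn f g v = 0 := by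
  rw [gn_comm hf hg]
  exact gn_eq_zero_of_ae hg hf h v

theorem gn_add_add {f g : R3 → ℝ≥0∞} (hf : Measurable f) (hg : Measurable g) (v : R3) :
    gn (f + g) (f + g) v = gn f f v + 2 * gn f g v + gn g g v := by
  rw [gn_add_left hf hg (hf.add hg), gn_add_right hf hf hg, gn_add_right hg hf hg,
    gn_comm hg hf v]
  ring

end Crest.Agent.R68
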