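/-
R68/Geo5: elementary plane and volume integrals
Skeleton by helper76 (row 68); keep the statements unchanged, add any helper lemmas you like.
-/
import Crest.Agent.R68.Geo3

set_option autoImplicit false
set_option linter.unusedVariables false
set_option linter.unusedSectionVars false

noncomputable section

namespace Crest.Agent.R68

open MeasureTheory Set Filter Topology
open scoped ENNReal NNReal
open Crest.AnalysisR.VecCalc3 Crest.AnalysisR.PDE.Boltzmann

variable {v n : R3}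

theorem Geo5_gauss1 {β : ℝ} (hβ : 0 < β) :
    ∫⁻ s : ℝ, ENNReal.ofReal (Real.exp (-β * s ^ 2)) = ENNReal.ofReal √(Real.pi / β) := by
  rw [← ofReal_integral_eq_lintegral_ofReal (integrable_exp_neg_mul_sq hβ)
    (Eventually.of_forall fun x => (Real.exp_pos _).le), integral_gaussian]

theorem Geo5_gauss3 {β : ℝ} (hβ : 0 < β) :
    ∫⁻ u, ga β u = ENNReal.ofReal ((Real.pi / β) ^ (3 / 2 : ℝ)) := by
  have h := GaussianFourier.integral_rexp_neg_mul_sq_norm (V := R3) hβ
  have h3 : ((Module.finrank ℝ R3 : ℕ) : ℝ) = 3 := by simp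
  rw [h3] at h
  have hpos : 0 < (Real.pi / β) ^ (3 / 2 : ℝ) := Real.rpow_pos_of_pos (div_pos Real.pi_pos hβ) _
  unfold ga
  rw [← ofReal_integral_eq_lintegral_ofReal (Integrable.of_integral_ne_zero (by rw [h]; exact hpos.ne'))
    (Eventually.of_forall fun x => (Real.exp_pos _).le), h]

theorem Geo5_norm_sq {a b : R3} (hn : ‖n‖ = 1) (ha : ‖a‖ = 1) (hb : ‖b‖ = 1)
    (hab : inner ℝ a b = 0) (han : inner ℝ a n = 0) (hbn : inner ℝ b n = 0) (c s t : ℝ) :
    ‖c • n + (s • a + t • b)‖ ^ 2 = c ^ 2 + (s ^ 2 + t ^ 2) := by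
  have hna : inner ℝ n a = 0 := by rw [real_inner_comm, han]
  have hnb : inner ℝ n b = 0 := by rw [real_inner_comm, hbn]
  rw [norm_add_sq_real, norm_add_sq_real]
  simp only [norm_smul, ha, hb, hn, inner_add_right, real_inner_smul_left, real_inner_smul_right, hab,
    hna, hnb, Real.norm_eq_abs, mul_one, sq_abs]
  ring

theorem Geo5_pl_center {g : R3 → ℝ≥0∞} {a b : R3} (hn : ‖n‖ = 1) (ha : ‖a‖ = 1) (hb : ‖b‖ = 1)
    (hab : inner ℝ a b = 0) (han : inner ℝ a n = 0) (hbn : inner ℝ b n = 0) (hg : Measurable g)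
    (v U : R3) :
    pl g v n = ∫⁻ p : ℝ × ℝ, g (U + (inner ℝ (v - U) n • n + (p.1 • a + p.2 • b))) := by
  have hz : inner ℝ (v - U - inner ℝ (v - U) n • n) n = 0 := by
    rw [inner_sub_left, real_inner_smul_left, real_inner_self_eq_norm_sq, hn]
    ring
  have h := pl_base hn hg hz (U + inner ℝ (v - U) n • n)
  rw [show U + inner ℝ (v - U) n • n + (v - U - inner ℝ (v - U) n • n) = v by abel] at h
  rw [h, pl_eq hn ha hb hab han hbn hg]
  simp only [add_assoc]

theorem Geo5_norm_pair {a b : R3} (hn : ‖n‖ = 1) (ha : ‖a‖ = 1) (hb : ‖b‖ = 1)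
    (hab : inner ℝ a b = 0) (han : inner ℝ a n = 0) (hbn : inner ℝ b n = 0) (c : ℝ) (p : ℝ × ℝ) :
    ‖p‖ ≤ ‖c • n + (p.1 • a + p.2 • b)‖ := by
  have h := Geo5_norm_sq hn ha hb hab han hbn c p.1 p.2
  rw [Prod.norm_def, Real.norm_eq_abs, Real.norm_eq_abs]
  refine max_le (abs_le_of_sq_le_sq ?_ (norm_nonneg _)) (abs_le_of_sq_le_sq ?_ (norm_nonneg _))
  · nlinarith [sq_nonneg c, sq_nonneg p.2]
  · nlinarith [sq_nonneg c, sq_nonneg p.1]

theorem Geo5_anti {x y : ℝ≥0∞} (h : x ≤ y) {q : ℝ} (hq : 0 ≤ q) : y ^ (-q) ≤ x ^ (-q) := by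
  rw [ENNReal.rpow_neg, ENNReal.rpow_neg]
  exact ENNReal.inv_le_inv.2 (ENNReal.rpow_le_rpow h hq)

theorem Geo5_ofReal_le {E : Type} [NormedAddCommGroup E] (x : E) {q : ℝ} (hq : 0 < q) :
    ENNReal.ofReal (‖x‖ ^ (-q)) ≤ ‖x‖ₑ ^ (-q) := by
  rcases eq_or_ne x 0 with rfl | hx
  · rw [enorm_zero, ENNReal.zero_rpow_of_neg (by linarith)]
    exact le_top
  · rw [← ENNReal.ofReal_rpow_of_pos (norm_pos_iff.2 hx), ofReal_norm]

theorem Geo5_ball {E : Type} [NormedAddCommGroup E] [NormedSpace ℝ E] [MeasurableSpace E] [BorelSpace E]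
    [FiniteDimensional ℝ E] (μ : Measure E) [μ.IsAddHaarMeasure] (hd : 1 ≤ Module.finrank ℝ E)
    {p : ℝ} (hp : p < Module.finrank ℝ E) : ∃ K : ℝ≥0, ∀ r : ℝ, 0 ≤ r →
      ∫⁻ u in Metric.closedBall 0 r, ‖u‖ₑ ^ (-p) ∂μ ≤
        K * ENNReal.ofReal (r ^ ((Module.finrank ℝ E : ℝ) - p)) := by
  have : Nontrivial E := Module.nontrivial_of_finrank_pos (R := ℝ) (by omega)
  have hfin : ∫⁻ u in Metric.closedBall 0 1, ‖u‖ₑ ^ (-p) ∂μ ≠ ⊤ := by
    have h := integrableOn_ball_of_norm_le_rpow (μ := μ) hd (f := fun x : E => ‖x‖ ^ (-p)) (C := 1)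
      (r := 2) hp (Eventually.of_forall fun x => by
        rw [one_mul, Real.norm_eq_abs, abs_of_nonneg (Real.rpow_nonneg (norm_nonneg _) _)])
      (Measurable.aestronglyMeasurable (by fun_prop))
    refine ne_top_of_le_ne_top h.2.ne ?_
    refine (lintegral_mono_set (Metric.closedBall_subset_ball (by norm_num))).trans (lintegral_mono_ae ?_)
    refine ae_restrict_of_ae ?_
    filter_upwards [Measure.ae_ne μ 0] with x hx
    rw [Real.enorm_of_nonneg (Real.rpow_nonneg (norm_nonneg _) _),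
      ← ENNReal.ofReal_rpow_of_pos (norm_pos_iff.2 hx), ofReal_norm]
  refine ⟨(∫⁻ u in Metric.closedBall 0 1, ‖u‖ₑ ^ (-p) ∂μ).toNNReal, fun r hr => ?_⟩
  rcases hr.eq_or_lt with rfl | hr
  · rw [Metric.closedBall_zero, setLIntegral_measure_zero _ _ (measure_singleton _)]
    exact zero_le
  rw [ENNReal.coe_toNNReal hfin]
  have hm : Measurable ((Metric.closedBall (0 : E) r).indicator fun u => ‖u‖ₑ ^ (-p)) :=
    Measurable.indicator (by fun_prop) measurableSet_closedBall
  have h1 := lintegral_map (μ := μ) hm (measurable_const_smul r)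
  rw [Measure.map_addHaar_smul μ hr.ne', lintegral_smul_measure,
    lintegral_indicator measurableSet_closedBall] at h1
  have h2 : ∀ a : E, (Metric.closedBall (0 : E) r).indicator (fun u => ‖u‖ₑ ^ (-p)) (r • a) =
      (Metric.closedBall (0 : E) 1).indicator (fun u => ENNReal.ofReal (r ^ (-p)) * ‖u‖ₑ ^ (-p)) a := by
    intro a
    have h3 : r • a ∈ Metric.closedBall (0 : E) r ↔ a ∈ Metric.closedBall (0 : E) 1 := by
      simp only [mem_closedBall_zero_iff, norm_smul, Real.norm_eq_abs, abs_of_pos hr]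
      exact mul_le_iff_le_one_right hr
    by_cases ha : a ∈ Metric.closedBall (0 : E) 1
    · rw [indicator_of_mem ha, indicator_of_mem (h3.2 ha), enorm_smul,
        ENNReal.mul_rpow_of_ne_top enorm_ne_top enorm_ne_top, Real.enorm_of_nonneg hr.le,
        ENNReal.ofReal_rpow_of_pos hr]
    · rw [indicator_of_notMem ha, indicator_of_notMem (mt h3.1 ha)]
  simp only [h2] at h1
  rw [lintegral_indicator measurableSet_closedBall, lintegral_const_mul _ (by fun_prop), smul_eq_mul] at h1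
  have hrd : 0 < r ^ Module.finrank ℝ E := pow_pos hr _
  refine le_of_eq ?_
  calc ∫⁻ u in Metric.closedBall 0 r, ‖u‖ₑ ^ (-p) ∂μ
      = ENNReal.ofReal (r ^ Module.finrank ℝ E) * (ENNReal.ofReal |(r ^ Module.finrank ℝ E)⁻¹| *
          ∫⁻ u in Metric.closedBall 0 r, ‖u‖ₑ ^ (-p) ∂μ) := by
        rw [← mul_assoc, ← ENNReal.ofReal_mul hrd.le, abs_of_pos (inv_pos.2 hrd), mul_inv_cancel₀ hrd.ne',
          ENNReal.ofReal_one, one_mul]
    _ = _ := by
        rw [h1, ← mul_assoc, ← ENNReal.ofReal_mul hrd.le, mul_comm, sub_eq_add_neg, Real.rpow_add hr,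
          Real.rpow_natCast]

theorem Geo5_frame_zero {a b w : R3} (hn : ‖n‖ = 1) (ha : ‖a‖ = 1) (hb : ‖b‖ = 1)
    (hab : inner ℝ a b = 0) (han : inner ℝ a n = 0) (hbn : inner ℝ b n = 0)
    (hwn : inner ℝ n w = 0) (hwa : inner ℝ a w = 0) (hwb : inner ℝ b w = 0) : w = 0 := by
  by_contra hw
  have hna : inner ℝ n a = 0 := by rw [real_inner_comm, han]
  have hnb : inner ℝ n b = 0 := by rw [real_inner_comm, hbn]
  have hba : inner ℝ b a = 0 := by rw [real_inner_comm, hab]
  have h1 : inner ℝ w n = 0 := by rw [real_inner_comm, hwn]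
  have h2 : inner ℝ w a = 0 := by rw [real_inner_comm, hwa]
  have h3 : inner ℝ w b = 0 := by rw [real_inner_comm, hwb]
  have hn0 : n ≠ 0 := by rintro rfl; simp at hn
  have ha0 : a ≠ 0 := by rintro rfl; simp at ha
  have hb0 : b ≠ 0 := by rintro rfl; simp at hb
  have li := linearIndependent_of_ne_zero_of_inner_eq_zero (𝕜 := ℝ) (v := ![n, a, b, w])
    (fun i => by fin_cases i <;> simpa) (fun i j hij => by
      fin_cases i <;> fin_cases j <;> first | exact absurd rfl hij | simpa)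
  have := li.fintype_card_le_finrank
  simp at this

theorem pl_ga {β : ℝ} (hβ : 0 < β) (hn : ‖n‖ = 1) (v : R3) :
    pl (ga β) v n = ENNReal.ofReal (Real.pi / β * Real.exp (-β * inner ℝ v n ^ 2)) := by
  obtain ⟨a, b, ha, hb, hab, han, hbn, -⟩ := exists_frame hn 0
  rw [Geo5_pl_center hn ha hb hab han hbn (measurable_ga β) v 0]
  have h : ∀ p : ℝ × ℝ, ga β (0 + (inner ℝ (v - 0) n • n + (p.1 • a + p.2 • b))) =
      ENNReal.ofReal (Real.exp (-β * inner ℝ v n ^ 2)) *
        (ENNReal.ofReal (Real.exp (-β * p.1 ^ 2)) * ENNReal.ofReal (Real.exp (-β * p.2 ^ 2))) := by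
    intro p
    unfold ga
    rw [zero_add, sub_zero, Geo5_norm_sq hn ha hb hab han hbn, ← ENNReal.ofReal_mul (Real.exp_pos _).le,
      ← ENNReal.ofReal_mul (Real.exp_pos _).le, ← Real.exp_add, ← Real.exp_add]
    congr 2
    ring
  simp only [h]
  rw [lintegral_const_mul _ (by fun_prop), Measure.volume_eq_prod,
    lintegral_prod_mul (f := fun s : ℝ => ENNReal.ofReal (Real.exp (-β * s ^ 2)))
      (g := fun s : ℝ => ENNReal.ofReal (Real.exp (-β * s ^ 2))) (by fun_prop) (by fun_prop),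
    Geo5_gauss1 hβ, ← ENNReal.ofReal_mul (Real.sqrt_nonneg _),
    Real.mul_self_sqrt (div_pos Real.pi_pos hβ).le, ← ENNReal.ofReal_mul (Real.exp_pos _).le, mul_comm]

theorem pl_ga_sub {β : ℝ} (hβ : 0 < β) (hn : ‖n‖ = 1) (v : R3) :
    pl (fun u => ga β (u - v)) v n = ENNReal.ofReal (Real.pi / β) := by
  have h := pl_ga hβ hn 0
  simp only [inner_zero_left, ne_eq, OfNat.ofNat_ne_zero, not_false_eq_true, zero_pow, mul_zero,
    Real.exp_zero, mul_one] at h
  rw [← h]
  unfold pl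
  simp only [add_sub_cancel_left, zero_add]

theorem pl_ball (hn : ‖n‖ = 1) (v U : R3) {r : ℝ} (hr : 0 ≤ r) :
    pl ((Metric.closedBall U r).indicator 1) v n ≤ ENNReal.ofReal (4 * r ^ 2) := by
  obtain ⟨a, b, ha, hb, hab, han, hbn, -⟩ := exists_frame hn 0
  rw [Geo5_pl_center hn ha hb hab han hbn (measurable_one.indicator measurableSet_closedBall) v U]
  calc _ ≤ ∫⁻ p : ℝ × ℝ, (Metric.closedBall (0 : ℝ × ℝ) r).indicator 1 p := by
        refine lintegral_mono fun p => ?_
        by_cases h : U + (inner ℝ (v - U) n • n + (p.1 • a + p.2 • b)) ∈ Metric.closedBall U r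
        · rw [indicator_of_mem h]
          rw [mem_closedBall_iff_norm, add_sub_cancel_left] at h
          rw [indicator_of_mem
            (mem_closedBall_zero_iff.2 ((Geo5_norm_pair hn ha hb hab han hbn _ p).trans h))]
          exact le_rfl
        · rw [indicator_of_notMem h]
          exact zero_le
    _ = _ := by
        rw [lintegral_indicator_one measurableSet_closedBall, ← closedBall_prod_same,
          Measure.volume_eq_prod, Measure.prod_prod, Real.volume_closedBall, Real.volume_closedBall,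
          ← ENNReal.ofReal_mul (by positivity)]
        congr 1
        ring

/-- In the plane `‖u - U‖ ≥ |p - p₀| ≥ (|s - s₀| |t - t₀|)^(1/2)`, and `∫ |s|^(-5/8)` is explicit. -/
theorem pl_sing : ∃ K : ℝ≥0, ∀ v n U : R3, ‖n‖ = 1 → ∀ r : ℝ, 0 ≤ r →
    pl ((Metric.closedBall U r).indicator fun u => ENNReal.ofReal (‖u - U‖ ^ (-(5 / 4) : ℝ))) v n ≤
      K * ENNReal.ofReal (r ^ (3 / 4 : ℝ)) := by
  have h2 : Module.finrank ℝ (ℝ × ℝ) = 2 := by simp
  obtain ⟨K, hK⟩ := Geo5_ball (volume : Measure (ℝ × ℝ)) (p := 5 / 4) (by omega) (by rw [h2]; norm_num)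
  refine ⟨K, fun v n U hn r hr => ?_⟩
  obtain ⟨a, b, ha, hb, hab, han, hbn, -⟩ := exists_frame hn 0
  rw [Geo5_pl_center hn ha hb hab han hbn
    (Measurable.indicator (by fun_prop) measurableSet_closedBall) v U]
  have h := hK r hr
  rw [h2, show ((2 : ℕ) : ℝ) - 5 / 4 = 3 / 4 by norm_num, ← lintegral_indicator measurableSet_closedBall] at h
  refine le_trans (lintegral_mono fun p => ?_) h
  by_cases hp : U + (inner ℝ (v - U) n • n + (p.1 • a + p.2 • b)) ∈ Metric.closedBall U r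
  · have h1 := Geo5_norm_pair hn ha hb hab han hbn (inner ℝ (v - U) n) p
    rw [indicator_of_mem hp, add_sub_cancel_left]
    rw [mem_closedBall_iff_norm, add_sub_cancel_left] at hp
    rw [indicator_of_mem (mem_closedBall_zero_iff.2 (h1.trans hp))]
    refine (Geo5_ofReal_le _ (by norm_num)).trans (Geo5_anti ?_ (by norm_num))
    rw [← ofReal_norm, ← ofReal_norm]
    exact ENNReal.ofReal_le_ofReal h1
  · rw [indicator_of_notMem hp]
    exact zero_le

/-- A strip in the plane. -/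
theorem pl_strip {β : ℝ} (hβ : 0 < β) (hn : ‖n‖ = 1) (v e : R3) {s κ s₀ : ℝ} (hκ : 0 ≤ κ)
    (hs₀ : 0 < s₀) (he : s₀ ≤ ‖e - inner ℝ e n • n‖) :
    pl ({u | |inner ℝ u e - s| ≤ κ}.indicator fun u => ga β (u - v)) v n ≤
      ENNReal.ofReal (2 * κ / s₀ * √(Real.pi / β)) := by
  obtain ⟨a, b, ha, hb, hab, han, hbn, hbe⟩ := exists_frame hn e
  have hna : inner ℝ n a = 0 := by rw [real_inner_comm, han]
  have hba : inner ℝ b a = 0 := by rw [real_inner_comm, hab]
  have hw : e - inner ℝ e n • n - inner ℝ a e • a = 0 := by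
    refine Geo5_frame_zero hn ha hb hab han hbn ?_ ?_ ?_
    · rw [inner_sub_right, inner_sub_right, real_inner_smul_right, real_inner_smul_right, hna,
        real_inner_self_eq_norm_sq, hn, real_inner_comm]
      ring
    · rw [inner_sub_right, inner_sub_right, real_inner_smul_right, real_inner_smul_right, han,
        real_inner_self_eq_norm_sq, ha]
      ring
    · rw [inner_sub_right, inner_sub_right, real_inner_smul_right, real_inner_smul_right, hbn, hba, hbe]
      ring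
  rw [sub_eq_zero.1 hw, norm_smul, ha, mul_one, Real.norm_eq_abs] at he
  have hγ : inner ℝ a e ≠ 0 := by
    intro h
    rw [h, abs_zero] at he
    linarith
  have hms : MeasurableSet {u : R3 | |inner ℝ u e - s| ≤ κ} :=
    measurableSet_le (by fun_prop) measurable_const
  rw [pl_eq hn ha hb hab han hbn (Measurable.indicator
    (f := fun u => ga β (u - v)) ((measurable_ga β).comp (by fun_prop)) hms)]
  calc _ ≤ ∫⁻ p : ℝ × ℝ, (Metric.closedBall ((s - inner ℝ v e) / inner ℝ a e) (κ / s₀)).indicator 1 p.1 *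
        ENNReal.ofReal (Real.exp (-β * p.2 ^ 2)) := by
        refine lintegral_mono fun p => ?_
        by_cases hp : v + (p.1 • a + p.2 • b) ∈ {u : R3 | |inner ℝ u e - s| ≤ κ}
        · have h1 : |inner ℝ (v + (p.1 • a + p.2 • b)) e - s| ≤ κ := hp
          rw [inner_add_left, inner_add_left, real_inner_smul_left, real_inner_smul_left, hbe] at h1
          have h2 : p.1 ∈ Metric.closedBall ((s - inner ℝ v e) / inner ℝ a e) (κ / s₀) := by
            rw [Metric.mem_closedBall, Real.dist_eq, le_div_iff₀ hs₀]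
            refine le_trans (mul_le_mul_of_nonneg_left he (abs_nonneg _)) ?_
            rw [← abs_mul, sub_mul, div_mul_cancel₀ _ hγ]
            refine le_of_eq_of_le ?_ h1
            congr 1
            ring
          rw [indicator_of_mem hp, indicator_of_mem h2, Pi.one_apply, one_mul, add_sub_cancel_left]
          unfold ga
          have h3 := Geo5_norm_sq hn ha hb hab han hbn 0 p.1 p.2
          rw [zero_smul, zero_add] at h3
          rw [h3]
          refine ENNReal.ofReal_le_ofReal (Real.exp_le_exp.2 ?_)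
          nlinarith [mul_nonneg hβ.le (sq_nonneg p.1)]
        · rw [indicator_of_notMem hp]
          exact zero_le
    _ = _ := by
        rw [Measure.volume_eq_prod, lintegral_prod_mul
          (f := (Metric.closedBall ((s - inner ℝ v e) / inner ℝ a e) (κ / s₀)).indicator 1)
          (g := fun s : ℝ => ENNReal.ofReal (Real.exp (-β * s ^ 2)))
          (measurable_one.indicator measurableSet_closedBall).aemeasurable (by fun_prop),
          lintegral_indicator_one measurableSet_closedBall, Real.volume_closedBall, Geo5_gauss1 hβ,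
          ← ENNReal.ofReal_mul (by positivity), mul_div_assoc]

theorem lintegral_ball_rpow {p : ℝ} (hp : 0 ≤ p) (hp3 : p < 3) : ∃ K : ℝ≥0, ∀ (U : R3) (r : ℝ),
    0 ≤ r → ∫⁻ u in Metric.closedBall U r, ‖u - U‖ₑ ^ (-p) ≤ K * ENNReal.ofReal (r ^ (3 - p)) := by
  have h3 : Module.finrank ℝ R3 = 3 := by simp
  obtain ⟨K, hK⟩ := Geo5_ball (volume : Measure R3) (p := p) (by omega) (by rw [h3]; exact_mod_cast hp3)
  refine ⟨K, fun U r hr => ?_⟩
  have h := hK r hr
  rw [h3, ← lintegral_indicator measurableSet_closedBall, ← lintegral_sub_right_eq_self _ U] at h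
  rw [← lintegral_indicator measurableSet_closedBall]
  refine le_of_eq_of_le (lintegral_congr fun u => ?_) (by exact_mod_cast h)
  have h1 : u - U ∈ Metric.closedBall (0 : R3) r ↔ u ∈ Metric.closedBall U r := by
    rw [mem_closedBall_zero_iff, mem_closedBall_iff_norm]
  by_cases hu : u ∈ Metric.closedBall U r
  · rw [indicator_of_mem hu, indicator_of_mem (h1.2 hu)]
  · rw [indicator_of_notMem hu, indicator_of_notMem (mt h1.1 hu)]

/-- Split into `‖u - U‖ ≤ ‖v - u‖` and the complement. -/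
theorem lintegral_two_sing : ∃ K : ℝ≥0, ∀ (v U : R3) (r : ℝ), 0 ≤ r →
    ∫⁻ u in Metric.closedBall U r, ENNReal.ofReal (‖u - U‖ ^ (-(5 / 4) : ℝ)) * ‖v - u‖ₑ⁻¹ ≤
      K * ENNReal.ofReal (r ^ (3 / 4 : ℝ)) := by
  obtain ⟨K, hK⟩ := lintegral_ball_rpow (p := 9 / 4) (by norm_num) (by norm_num)
  refine ⟨2 * K, fun v U r hr => ?_⟩
  have key : ∀ x : ℝ≥0∞, x ≠ ⊤ → x ^ (-(5 / 4) : ℝ) * x⁻¹ ≤ x ^ (-(9 / 4) : ℝ) := by
    intro x hx
    rcases eq_or_ne x 0 with rfl | h0
    · rw [ENNReal.zero_rpow_of_neg (y := -(9 / 4)) (by norm_num)]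
      exact le_top
    · rw [← ENNReal.rpow_neg_one, ← ENNReal.rpow_add _ _ h0 hx]
      norm_num
  have h1 := hK U r hr
  have h2 := hK v r hr
  rw [show (3 : ℝ) - 9 / 4 = 3 / 4 by norm_num] at h1 h2
  calc _ ≤ ∫⁻ u in Metric.closedBall U r, (‖u - U‖ₑ ^ (-(9 / 4) : ℝ) +
        (Metric.closedBall v r).indicator (fun u => ‖u - v‖ₑ ^ (-(9 / 4) : ℝ)) u) := by
        refine setLIntegral_mono' measurableSet_closedBall fun u hu => ?_
        refine (mul_le_mul_left (Geo5_ofReal_le (u - U) (by norm_num)) _).trans ?_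
        rw [← enorm_neg (v - u), neg_sub]
        rcases le_total ‖u - U‖ₑ ‖u - v‖ₑ with h | h
        · exact le_add_right ((mul_le_mul_right (ENNReal.inv_le_inv.2 h) _).trans (key _ enorm_ne_top))
        · have h3 : u ∈ Metric.closedBall v r := by
            rw [mem_closedBall_iff_norm] at hu ⊢
            refine le_trans ?_ hu
            rw [← ofReal_norm, ← ofReal_norm] at h
            exact (ENNReal.ofReal_le_ofReal_iff (norm_nonneg _)).1 h
          rw [indicator_of_mem h3]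
          exact le_add_left ((mul_le_mul_left (Geo5_anti h (by norm_num)) _).trans (key _ enorm_ne_top))
    _ ≤ K * ENNReal.ofReal (r ^ (3 / 4 : ℝ)) + K * ENNReal.ofReal (r ^ (3 / 4 : ℝ)) := by
        rw [lintegral_add_left (by fun_prop)]
        refine add_le_add h1 ((setLIntegral_le_lintegral _ _).trans ?_)
        rw [lintegral_indicator measurableSet_closedBall]
        exact h2
    _ = _ := by
        push_cast
        ring

theorem lintegral_br_ga {β : ℝ} (hβ : 0 < β) (k : ℕ) : ∫⁻ u, br u ^ k * ga β u ≠ ⊤ := by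
  have h : ∀ u : R3, br u ^ k * ga β u ≤ ENNReal.ofReal (Real.exp (k ^ 2 / (2 * β))) * ga (β / 2) u := by
    intro u
    unfold br ga
    rw [← ENNReal.ofReal_pow (by positivity), ← ENNReal.ofReal_mul (by positivity),
      ← ENNReal.ofReal_mul (Real.exp_pos _).le]
    refine ENNReal.ofReal_le_ofReal ?_
    have h1 : (1 + ‖u‖) ^ k ≤ Real.exp (k * ‖u‖) := by
      rw [Real.exp_nat_mul]
      exact pow_le_pow_left₀ (by positivity) (by linarith [Real.add_one_le_exp ‖u‖]) k
    refine (mul_le_mul_of_nonneg_right h1 (Real.exp_pos _).le).trans ?_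
    rw [← Real.exp_add, ← Real.exp_add]
    refine Real.exp_le_exp.2 ?_
    have h2 : (k : ℝ) ^ 2 / (2 * β) - (k * ‖u‖ - β / 2 * ‖u‖ ^ 2) = (k - β * ‖u‖) ^ 2 / (2 * β) := by
      field_simp
      ring
    have h3 : 0 ≤ (k - β * ‖u‖) ^ 2 / (2 * β) := by positivity
    linarith
  refine ne_top_of_le_ne_top ?_ (lintegral_mono h)
  rw [lintegral_const_mul _ (measurable_ga _), Geo5_gauss3 (by positivity)]
  exact ENNReal.mul_ne_top ENNReal.ofReal_ne_top ENNReal.ofReal_ne_top

theorem Geo5_Mx_eq (v : R3) :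
    Mx v = ENNReal.ofReal ((2 * Real.pi) ^ (-(3 / 2 : ℝ))) * ga (1 / 2) v := by
  unfold Mx ga maxwellian
  rw [← ENNReal.ofReal_mul (by positivity)]
  congr 3
  ring

theorem lintegral_Mx : ∫⁻ v, Mx v = 1 := by
  simp only [Geo5_Mx_eq]
  rw [lintegral_const_mul _ (measurable_ga _), Geo5_gauss3 (by norm_num),
    ← ENNReal.ofReal_mul (by positivity), show Real.pi / (1 / 2) = 2 * Real.pi by ring,
    ← Real.rpow_add (by positivity)]
  simp

theorem Mx_le (v : R3) : Mx v ≤ ga (1 / 2) v := by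
  rw [Geo5_Mx_eq]
  refine mul_le_of_le_one_left' (ENNReal.ofReal_le_one.2 ?_)
  exact Real.rpow_le_one_of_one_le_of_nonpos (by linarith [Real.pi_gt_three]) (by norm_num)

theorem Mx_pos (v : R3) : 0 < maxwellian v := by
  unfold maxwellian
  positivity

theorem Geo5_ga_le_one {β : ℝ} (hβ : 0 ≤ β) (u : R3) : ga β u ≤ 1 := by
  unfold ga
  refine ENNReal.ofReal_le_one.2 (Real.exp_le_one_iff.2 ?_)
  nlinarith [mul_nonneg hβ (sq_nonneg ‖u‖)]

theorem lintegral_kk : ∫⁻ z, kk z ≠ ⊤ := by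
  obtain ⟨K, hK⟩ := lintegral_ball_rpow (p := 1) (by norm_num) (by norm_num)
  have h : ∀ z : R3, kk z ≤ 2 * ga (1 / 16) z +
      (Metric.closedBall (0 : R3) 1).indicator (fun u => ‖u - 0‖ₑ ^ (-1 : ℝ)) z := by
    intro z
    unfold kk
    rw [add_mul, one_mul, two_mul, add_assoc]
    refine add_le_add le_rfl ?_
    by_cases hz : z ∈ Metric.closedBall (0 : R3) 1
    · rw [indicator_of_mem hz, sub_zero, ENNReal.rpow_neg_one]
      exact le_add_left (mul_le_of_le_one_right' (Geo5_ga_le_one (by norm_num) z))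
    · refine le_add_right (mul_le_of_le_one_left' (ENNReal.inv_le_one.2 ?_))
      rw [mem_closedBall_zero_iff, not_le] at hz
      rw [← ofReal_norm]
      exact ENNReal.one_le_ofReal.2 hz.le
  refine ne_top_of_le_ne_top ?_ (lintegral_mono h)
  rw [lintegral_add_left ((measurable_ga _).const_mul _), lintegral_const_mul _ (measurable_ga _),
    Geo5_gauss3 (by norm_num), lintegral_indicator measurableSet_closedBall]
  refine ENNReal.add_ne_top.2 ⟨ENNReal.mul_ne_top (by simp) ENNReal.ofReal_ne_top, ?_⟩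
  exact ne_top_of_le_ne_top (ENNReal.mul_ne_top ENNReal.coe_ne_top ENNReal.ofReal_ne_top) (hK 0 1 zero_le_one)

/-- `‖v - u‖ ≥ ‖v‖/2`-type lower bounds on a set of positive Maxwellian mass. -/
theorem ls_Mx_ge : ∃ ν : ℝ≥0, 0 < ν ∧ ∀ v, ν * br v ≤ ls Mx v := by
  have hM := measurable_Mx
  have hme : Measurable fun u : R3 => ‖u‖ₑ * Mx u := by fun_prop
  have hm : 0 < ∫⁻ u : R3, ‖u‖ₑ * Mx u := by
    rw [pos_iff_ne_zero]
    intro h0
    rw [lintegral_eq_zero_iff hme] at h0
    have h1 : ∀ᵐ u : R3, False := by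
      filter_upwards [h0, Measure.ae_ne volume (0 : R3)] with u h hu
      rcases mul_eq_zero.1 h with h | h
      · exact hu (enorm_eq_zero.1 h)
      · exact absurd (ENNReal.ofReal_eq_zero.1 h) (not_le.2 (Mx_pos u))
    exact h1.exists.elim fun _ h => h
  obtain ⟨m, hm0, hm1⟩ := ENNReal.lt_iff_exists_nnreal_btwn.1 (lt_min hm zero_lt_one)
  have hm2 := (lt_min_iff.1 hm1).1.le
  have hm3 := (lt_min_iff.1 hm1).2.le
  have hm0' : 0 < m := by exact_mod_cast hm0
  refine ⟨cL.toNNReal * (m / 2), mul_pos (Real.toNNReal_pos.2 cL_pos) (by positivity), fun v => ?_⟩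
  have hneg : ∀ u : R3, Mx (-u) = Mx u := fun u => by simp only [Mx, maxwellian, norm_neg]
  have h1 : ∫⁻ u, ‖v + u‖ₑ * Mx u = ∫⁻ u, ‖v - u‖ₑ * Mx u := by
    rw [← lintegral_neg_eq_self]
    simp only [hneg, sub_eq_add_neg]
  have h2 : (m : ℝ≥0∞) * br v ≤ 2 * ∫⁻ u, ‖v - u‖ₑ * Mx u := by
    calc (m : ℝ≥0∞) * br v = m + m * ‖v‖ₑ := by
          unfold br
          rw [ENNReal.ofReal_add zero_le_one (norm_nonneg _), ENNReal.ofReal_one, ofReal_norm, mul_add,
            mul_one]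
      _ ≤ (∫⁻ u : R3, ‖u‖ₑ * Mx u) + ‖v‖ₑ * ∫⁻ u, Mx u := by
          rw [lintegral_Mx, mul_one]
          exact add_le_add hm2 (mul_le_of_le_one_left' hm3)
      _ = ∫⁻ u : R3, (‖u‖ₑ * Mx u + ‖v‖ₑ * Mx u) := by
          rw [lintegral_add_left hme, lintegral_const_mul _ measurable_Mx]
      _ ≤ ∫⁻ u : R3, (‖v + u‖ₑ * Mx u + ‖v - u‖ₑ * Mx u) := by
          refine lintegral_mono fun u => ?_
          rw [← add_mul, ← add_mul]
          refine mul_le_mul_left ?_ _
          simp only [← ofReal_norm]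
          rw [← ENNReal.ofReal_add (norm_nonneg _) (norm_nonneg _),
            ← ENNReal.ofReal_add (norm_nonneg _) (norm_nonneg _)]
          refine ENNReal.ofReal_le_ofReal ?_
          have e1 := norm_add_le (v + u) (v - u)
          have e2 := norm_sub_le (v + u) (v - u)
          rw [show v + u + (v - u) = (2 : ℝ) • v by module, norm_smul, Real.norm_two] at e1
          rw [show v + u - (v - u) = (2 : ℝ) • u by module, norm_smul, Real.norm_two] at e2
          linarith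
      _ = _ := by
          rw [lintegral_add_left (by fun_prop), h1, two_mul]
  rw [ls_eq measurable_Mx, ENNReal.coe_mul, mul_assoc]
  refine mul_le_mul_right ?_ _
  rw [ENNReal.coe_div (by norm_num), div_eq_mul_inv, mul_right_comm]
  refine (mul_le_mul_left h2 _).trans (le_of_eq ?_)
  rw [mul_right_comm, ENNReal.coe_ofNat, ENNReal.mul_inv_cancel (by norm_num) (by norm_num), one_mul]

/-- `1 / ‖v - u‖ ≤ 1 / κ` off the ball, polar singularity on the ball. -/
theorem lintegral_inv_ga_small {β : ℝ} (hβ : 0 < β) {η : ℝ≥0} (hη : 0 < η) : ∃ κ : ℝ, 0 < κ ∧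
    ∀ v : R3, ∫⁻ u in Metric.closedBall v κ, ‖v - u‖ₑ⁻¹ * ga β u ≤ η := by
  obtain ⟨K, hK⟩ := lintegral_ball_rpow (p := 1) (by norm_num) (by norm_num)
  have hη' : (0 : ℝ) < η := hη
  have hK0 : (0 : ℝ) ≤ K := K.2
  have hκ : 0 < min 1 ((η : ℝ) / (K + 1)) := lt_min zero_lt_one (by positivity)
  refine ⟨min 1 ((η : ℝ) / (K + 1)), hκ, fun v => ?_⟩
  refine le_trans (lintegral_mono fun u => ?_) ((hK v _ hκ.le).trans ?_)
  · rw [ENNReal.rpow_neg_one, ← enorm_neg (v - u), neg_sub]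
    exact mul_le_of_le_one_right' (Geo5_ga_le_one hβ.le u)
  · rw [← ENNReal.ofReal_coe_nnreal, ← ENNReal.ofReal_coe_nnreal (p := η), ← ENNReal.ofReal_mul hK0]
    refine ENNReal.ofReal_le_ofReal ?_
    rw [show (3 : ℝ) - 1 = (2 : ℕ) by norm_num, Real.rpow_natCast]
    have h1 := min_le_left 1 ((η : ℝ) / (K + 1))
    have h2 := (le_div_iff₀ (by positivity)).1 (min_le_right 1 ((η : ℝ) / (K + 1)))
    generalize min 1 ((η : ℝ) / (K + 1)) = κ at *
    nlinarith [mul_nonneg hK0 (mul_nonneg hκ.le (sub_nonneg.2 h1))]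

theorem Geo5_decay {η : ℝ≥0} (hη : 0 < η) : ∃ Λ₀ : ℝ, 0 < Λ₀ ∧ ∀ Λ, Λ₀ ≤ Λ →
    ∀ (v : R3) (r t : ℝ), ∫⁻ s in Ioc r t,
      ENNReal.ofReal (Real.exp (Λ * s)) * (br v * ga (t - s) v) ≤
        η * ENNReal.ofReal (Real.exp (Λ * t)) := by
  have hη' : (0 : ℝ) < η := hη
  refine ⟨(1 + 1 / (4 * η)) / η, by positivity, fun Λ hΛ v r t => ?_⟩
  have hΛ0 : 0 < Λ := lt_of_lt_of_le (by positivity) hΛ
  have hc : 0 < Λ + ‖v‖ ^ 2 := by positivity
  have h : ∀ s, ENNReal.ofReal (Real.exp (Λ * s)) * (br v * ga (t - s) v) =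
      ENNReal.ofReal ((1 + ‖v‖) * Real.exp (-(t * ‖v‖ ^ 2))) *
        ENNReal.ofReal (Real.exp ((Λ + ‖v‖ ^ 2) * s)) := by
    intro s
    unfold br ga
    rw [← ENNReal.ofReal_mul (by positivity), ← ENNReal.ofReal_mul (by positivity),
      ← ENNReal.ofReal_mul (by positivity), mul_left_comm, mul_assoc, ← Real.exp_add, ← Real.exp_add]
    congr 3
    ring
  simp only [h]
  rw [lintegral_const_mul _ (by fun_prop)]
  have h1 : ∫⁻ s in Ioc r t, ENNReal.ofReal (Real.exp ((Λ + ‖v‖ ^ 2) * s)) ≤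
      ENNReal.ofReal (Real.exp ((Λ + ‖v‖ ^ 2) * t) / (Λ + ‖v‖ ^ 2)) := by
    refine (lintegral_mono_set Ioc_subset_Iic_self).trans (le_of_eq ?_)
    rw [← ofReal_integral_eq_lintegral_ofReal (integrableOn_exp_mul_Iic hc t)
      (Eventually.of_forall fun x => (Real.exp_pos _).le), integral_exp_mul_Iic hc]
  refine (mul_le_mul_right h1 _).trans ?_
  rw [← ENNReal.ofReal_mul (by positivity), ← ENNReal.ofReal_coe_nnreal, ← ENNReal.ofReal_mul hη'.le]
  refine ENNReal.ofReal_le_ofReal ?_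
  rw [← mul_div_assoc, mul_assoc, ← Real.exp_add, show -(t * ‖v‖ ^ 2) + (Λ + ‖v‖ ^ 2) * t = Λ * t by ring,
    div_le_iff₀ hc, mul_right_comm]
  refine mul_le_mul_of_nonneg_right ?_ (Real.exp_pos _).le
  rw [div_le_iff₀ hη'] at hΛ
  have h2 : (η : ℝ) * ‖v‖ ^ 2 + 1 / (4 * η) - ‖v‖ = (2 * η * ‖v‖ - 1) ^ 2 / (4 * η) := by
    field_simp
    ring
  have h3 : 0 ≤ (2 * η * ‖v‖ - 1) ^ 2 / (4 * (η : ℝ)) := by positivity
  nlinarith

/-- Time integrals with a Gaussian gain. -/
theorem lintegral_br_decay {η : ℝ≥0} (hη : 0 < η) : ∃ τ : ℝ, 0 < τ ∧ ∀ (v : R3) (r t : ℝ),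
    t - r ≤ τ → ∫⁻ s in Ioc r t, br v * ga (t - s) v ≤ η := by
  obtain ⟨Λ, hΛ, h⟩ := Geo5_decay (η := η / 2) (by positivity)
  refine ⟨Real.log 2 / Λ, div_pos (Real.log_pos (by norm_num)) hΛ, fun v r t hτ => ?_⟩
  calc _ ≤ ∫⁻ s in Ioc r t, ENNReal.ofReal (Real.exp (-(Λ * r))) *
        (ENNReal.ofReal (Real.exp (Λ * s)) * (br v * ga (t - s) v)) := by
        refine setLIntegral_mono' measurableSet_Ioc fun s hs => ?_
        rw [← mul_assoc (ENNReal.ofReal _), ← ENNReal.ofReal_mul (Real.exp_pos _).le, ← Real.exp_add]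
        refine le_mul_of_one_le_left' (ENNReal.one_le_ofReal.2 (Real.one_le_exp ?_))
        nlinarith [mul_nonneg hΛ.le (sub_nonneg.2 hs.1.le)]
    _ ≤ ENNReal.ofReal (Real.exp (-(Λ * r))) * ((η / 2 : ℝ≥0) * ENNReal.ofReal (Real.exp (Λ * t))) := by
        rw [lintegral_const_mul' _ _ ENNReal.ofReal_ne_top]
        exact mul_le_mul_right (h Λ le_rfl v r t) _
    _ ≤ _ := by
        rw [mul_left_comm, ← ENNReal.ofReal_mul (Real.exp_pos _).le, ← Real.exp_add,
          ← ENNReal.ofReal_coe_nnreal, ← ENNReal.ofReal_coe_nnreal (p := η),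
          ← ENNReal.ofReal_mul (NNReal.coe_nonneg _)]
        refine ENNReal.ofReal_le_ofReal ?_
        have h1 : Real.exp (-(Λ * r) + Λ * t) ≤ 2 := by
          rw [le_div_iff₀ hΛ] at hτ
          calc _ ≤ Real.exp (Real.log 2) := Real.exp_le_exp.2 (by linarith)
            _ = 2 := Real.exp_log (by norm_num)
        have h2 : (0 : ℝ) ≤ η := η.2
        push_cast
        nlinarith

theorem lintegral_br_decay' {η : ℝ≥0} (hη : 0 < η) : ∃ Λ₀ : ℝ, 0 < Λ₀ ∧ ∀ Λ, Λ₀ ≤ Λ →
    ∀ (v : R3) (r t : ℝ), ∫⁻ s in Ioc r t,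
      ENNReal.ofReal (Real.exp (Λ * s)) * (br v * ga (t - s) v) ≤
        η * ENNReal.ofReal (Real.exp (Λ * t)) := by
  exact Geo5_decay hη

end Crest.Agent.R68
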