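/-
R68/AdmAux: auxiliary lemmas for R68/Adm (helper18).
-/
import Crest.Agent.R68.Geo2
import Crest.Agent.R68.Geo4
import Crest.Agent.R68.Geo5

set_option autoImplicit false
set_option linter.unusedVariables false
set_option linter.unusedSectionVars false

noncomputable section

namespace Crest.Agent.R68

open MeasureTheory Set Filter Topology
open scoped ENNReal NNReal
open Crest.AnalysisR.VecCalc3 Crest.AnalysisR.PDE.Boltzmann

/-- the truncated singularity -/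
def AdmS (U : R3) (r : ℝ) : R3 → ℝ≥0∞ :=
  (Metric.closedBall U r).indicator fun u => ENNReal.ofReal (‖u - U‖ ^ (-(5 / 4) : ℝ))

/-- the indicator of a point -/
def AdmP (U : R3) : R3 → ℝ≥0∞ := (Metric.closedBall U 0).indicator 1

theorem Adm_meas_S (U : R3) (r : ℝ) : Measurable (AdmS U r) := by
  unfold AdmS
  refine Measurable.indicator ?_ Metric.isClosed_closedBall.measurableSet
  exact ENNReal.measurable_ofReal.comp
    ((measurable_id.sub_const U).norm.pow_const _)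

theorem Adm_meas_P (U : R3) : Measurable (AdmP U) :=
  measurable_one.indicator Metric.isClosed_closedBall.measurableSet

theorem Adm_meas_sg (U : R3) (ϑ : ℝ) : Measurable (sg U ϑ) :=
  measurable_sg.comp (f := fun u : R3 => (U, ϑ, u))
    (measurable_const.prodMk (measurable_const.prodMk measurable_id))

theorem Adm_ex_le {a b c d : ℝ} (h : a + b ≤ c + d) :
    ENNReal.ofReal (Real.exp a) * ENNReal.ofReal (Real.exp b) ≤
      ENNReal.ofReal (Real.exp c) * ENNReal.ofReal (Real.exp d) := by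
  rw [← ENNReal.ofReal_mul (Real.exp_pos _).le, ← ENNReal.ofReal_mul (Real.exp_pos _).le,
    ← Real.exp_add, ← Real.exp_add]
  exact ENNReal.ofReal_le_ofReal (Real.exp_le_exp.2 h)

theorem Adm_ex_le₁ {a b c : ℝ} (h : a ≤ b + c) :
    ENNReal.ofReal (Real.exp a) ≤ ENNReal.ofReal (Real.exp b) * ENNReal.ofReal (Real.exp c) := by
  rw [← ENNReal.ofReal_mul (Real.exp_pos _).le, ← Real.exp_add]
  exact ENNReal.ofReal_le_ofReal (Real.exp_le_exp.2 h)

theorem Adm_ex_le₂ {a b c : ℝ} (h : a + b ≤ c) :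
    ENNReal.ofReal (Real.exp a) * ENNReal.ofReal (Real.exp b) ≤ ENNReal.ofReal (Real.exp c) := by
  rw [← ENNReal.ofReal_mul (Real.exp_pos _).le, ← Real.exp_add]
  exact ENNReal.ofReal_le_ofReal (Real.exp_le_exp.2 h)

theorem Adm_ga_le_one {β : ℝ} (hβ : 0 ≤ β) (v : R3) : ga β v ≤ 1 := by
  unfold ga
  rw [← ENNReal.ofReal_one]
  refine ENNReal.ofReal_le_ofReal (Real.exp_le_one_iff.2 ?_)
  nlinarith [sq_nonneg ‖v‖, mul_nonneg hβ (sq_nonneg ‖v‖)]

theorem Adm_ga_anti {β β' : ℝ} (h : β ≤ β') (v : R3) : ga β' v ≤ ga β v := by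
  unfold ga
  refine ENNReal.ofReal_le_ofReal (Real.exp_le_exp.2 ?_)
  nlinarith [sq_nonneg ‖v‖, mul_nonneg (sub_nonneg.2 h) (sq_nonneg ‖v‖)]

theorem Adm_one_le_br (v : R3) : 1 ≤ br v := by
  unfold br
  rw [← ENNReal.ofReal_one]
  exact ENNReal.ofReal_le_ofReal (by linarith [norm_nonneg v])

theorem Adm_meas_ga_sub (β : ℝ) (v : R3) : Measurable fun u : R3 => ga β (u - v) :=
  (measurable_ga β).comp (measurable_id.sub_const v)

theorem Adm_meas_inv (v : R3) : Measurable fun u : R3 => ‖v - u‖ₑ⁻¹ :=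
  ((measurable_const.sub measurable_id).enorm).inv

theorem Adm_meas_kk (v : R3) : Measurable fun u : R3 => kk (v - u) :=
  measurable_kk.comp (measurable_const.sub measurable_id)

theorem Adm_kk_le (z : R3) : kk z ≤ 1 + ‖z‖ₑ⁻¹ := by
  unfold kk
  exact mul_le_of_le_one_right' (Adm_ga_le_one (by norm_num) z)

theorem Adm_sg_le₁ {ϑ : ℝ} (hϑ : 0 ≤ ϑ) (U u : R3) : sg U ϑ u ≤ AdmS U 1 u + ⊤ * AdmP U u := by
  by_cases hu : u = U
  · subst hu
    have : AdmP u u = 1 := by simp [AdmP]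
    rw [this]; simp
  · have hpos : 0 < ‖u - U‖ := norm_pos_iff.2 (sub_ne_zero.2 hu)
    refine le_trans ?_ le_self_add
    unfold sg AdmS
    split_ifs with h
    · rw [indicator_of_mem (by simpa [dist_eq_norm] using h.1)]
      exact ENNReal.ofReal_le_ofReal
        (Real.rpow_le_rpow_of_nonpos hpos (by linarith) (by norm_num))
    · exact zero_le

theorem Adm_sg_le₂ {ϑ δ : ℝ} (hϑ : 0 ≤ ϑ) (hδ : 0 < δ) (U u : R3) :
    sg U ϑ u ≤ ENNReal.ofReal (δ ^ (-(5 / 4) : ℝ)) + (AdmS U δ u + ⊤ * AdmP U u) := by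
  by_cases hu : u = U
  · subst hu
    have : AdmP u u = 1 := by simp [AdmP]
    rw [this]; simp
  · have hpos : 0 < ‖u - U‖ := norm_pos_iff.2 (sub_ne_zero.2 hu)
    by_cases hd : ‖u - U‖ ≤ δ
    · refine le_trans ?_ (le_self_add.trans le_add_self)
      unfold sg AdmS
      split_ifs with h
      · rw [indicator_of_mem (by simpa [dist_eq_norm] using hd)]
        exact ENNReal.ofReal_le_ofReal
          (Real.rpow_le_rpow_of_nonpos hpos (by linarith) (by norm_num))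
      · exact zero_le
    · refine le_trans ?_ le_self_add
      unfold sg
      split_ifs with h
      · exact ENNReal.ofReal_le_ofReal
          (Real.rpow_le_rpow_of_nonpos hδ (by linarith [not_le.1 hd]) (by norm_num))
      · exact zero_le

theorem Adm_pl_P (U v n : R3) (hn : ‖n‖ = 1) : pl (fun u => ⊤ * AdmP U u) v n = 0 := by
  rw [pl_mul _ (Adm_meas_P U)]
  have := pl_ball hn v U (r := 0) le_rfl
  simp only [ne_eq, OfNat.ofNat_ne_zero, not_false_eq_true, zero_pow, mul_zero,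
    ENNReal.ofReal_zero, nonpos_iff_eq_zero] at this
  unfold AdmP
  rw [this, mul_zero]

theorem Adm_lint_P (U : R3) : ∫⁻ u, ⊤ * AdmP U u = 0 := by
  rw [lintegral_const_mul _ (Adm_meas_P U)]
  unfold AdmP
  rw [lintegral_indicator_one Metric.isClosed_closedBall.measurableSet, Metric.closedBall_zero,
    measure_singleton, mul_zero]

/-- the singular part of an admissible weight -/
theorem Adm_split {N : ℝ≥0} {w : R3 → ℝ≥0∞} (hw : AdmW N w) : ∃ σ : R3 → ℝ≥0∞, Measurable σ ∧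
    (∀ u, w u = 1 + σ u) ∧
    (∀ (φ : R3 → ℝ≥0∞) (B : ℝ≥0∞), Measurable φ →
      (∀ U ϑ, 0 ≤ ϑ → ∫⁻ u, φ u * sg U ϑ u ≤ B) → ∫⁻ u, φ u * σ u ≤ N * B) ∧
    (∀ (φ : R3 → ℝ≥0∞) (B : ℝ≥0∞) (v n : R3), Measurable φ →
      (∀ U ϑ, 0 ≤ ϑ → pl (fun u => φ u * sg U ϑ u) v n ≤ B) →
        pl (fun u => φ u * σ u) v n ≤ N * B) := by
  obtain ⟨ι, s, c, U, ϑ, hϑ, hN, hw⟩ := hw
  have hN' : ∑ i ∈ s, (c i : ℝ≥0∞) ≤ N := by exact_mod_cast hN
  have hre : ∀ (φ : R3 → ℝ≥0∞), (fun u => φ u * ∑ i ∈ s, (c i : ℝ≥0∞) * sg (U i) (ϑ i) u) =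
      fun u => ∑ i ∈ s, (c i : ℝ≥0∞) * (φ u * sg (U i) (ϑ i) u) := by
    intro φ
    funext u
    rw [Finset.mul_sum]
    exact Finset.sum_congr rfl fun i _ => by ring
  refine ⟨fun u => ∑ i ∈ s, (c i : ℝ≥0∞) * sg (U i) (ϑ i) u,
    Finset.measurable_sum _ fun i _ => (Adm_meas_sg _ _).const_mul _, hw, ?_, ?_⟩
  · intro φ B hφ hB
    rw [hre φ, lintegral_finsetSum _ fun i _ => (hφ.fun_mul (Adm_meas_sg _ _)).const_mul _]
    calc ∑ i ∈ s, ∫⁻ u, (c i : ℝ≥0∞) * (φ u * sg (U i) (ϑ i) u)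
        ≤ ∑ i ∈ s, (c i : ℝ≥0∞) * B := by
          refine Finset.sum_le_sum fun i _ => ?_
          rw [lintegral_const_mul _ (hφ.fun_mul (Adm_meas_sg _ _))]
          gcongr
          exact hB _ _ (hϑ i)
      _ ≤ N * B := by rw [← Finset.sum_mul]; gcongr
  · intro φ B v n hφ hB
    rw [hre φ, pl_sum s (G := fun i u => (c i : ℝ≥0∞) * (φ u * sg (U i) (ϑ i) u))
      fun i => (hφ.mul (Adm_meas_sg _ _)).const_mul _]
    calc ∑ i ∈ s, pl (fun u => (c i : ℝ≥0∞) * (φ u * sg (U i) (ϑ i) u)) v n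
        ≤ ∑ i ∈ s, (c i : ℝ≥0∞) * B := by
          refine Finset.sum_le_sum fun i _ => ?_
          rw [pl_mul _ (g := fun u => φ u * sg (U i) (ϑ i) u) (hφ.mul (Adm_meas_sg _ _))]
          gcongr
          exact hB _ _ (hϑ i)
      _ ≤ N * B := by rw [← Finset.sum_mul]; gcongr

theorem Adm_pl_bound {N : ℝ≥0} {w : R3 → ℝ≥0∞} (hw : AdmW N w) {φ : R3 → ℝ≥0∞} (hφ : Measurable φ)
    {A B : ℝ≥0∞} {v n : R3} (hA : pl φ v n ≤ A)
    (hB : ∀ U ϑ, 0 ≤ ϑ → pl (fun u => φ u * sg U ϑ u) v n ≤ B) :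
    pl (fun u => φ u * w u) v n ≤ A + N * B := by
  obtain ⟨σ, hσ, hwσ, -, h2⟩ := Adm_split hw
  have : (fun u => φ u * w u) = φ + fun u => φ u * σ u := by
    funext u
    rw [hwσ, mul_add, mul_one]; rfl
  rw [this, pl_add hφ]
  exact add_le_add hA (h2 φ B v n hφ hB)

theorem Adm_lint_bound {N : ℝ≥0} {w : R3 → ℝ≥0∞} (hw : AdmW N w) {φ : R3 → ℝ≥0∞}
    (hφ : Measurable φ) {A B : ℝ≥0∞} (hA : ∫⁻ u, φ u ≤ A)
    (hB : ∀ U ϑ, 0 ≤ ϑ → ∫⁻ u, φ u * sg U ϑ u ≤ B) :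
    ∫⁻ u, φ u * w u ≤ A + N * B := by
  obtain ⟨σ, hσ, hwσ, h1, -⟩ := Adm_split hw
  have : (fun u => φ u * w u) = fun u => φ u + φ u * σ u := by
    funext u
    rw [hwσ, mul_add, mul_one]
  rw [this, lintegral_add_left hφ]
  exact add_le_add hA (h1 φ B hφ hB)

/-- plane integrals of a bump against a function bounded on the plane -/
theorem Adm_pl_sg : ∃ K : ℝ≥0, ∀ (φ : R3 → ℝ≥0∞) (c : ℝ≥0∞) (v n U : R3) (ϑ : ℝ), ‖n‖ = 1 → 0 ≤ ϑ →
    (∀ z : R3, inner ℝ z n = 0 → φ (v + z) ≤ c) →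
    pl (fun u => φ u * sg U ϑ u) v n ≤ K * c := by
  obtain ⟨K, hK⟩ := pl_sing
  refine ⟨K, fun φ c v n U ϑ hn hϑ hφ => ?_⟩
  calc pl (fun u => φ u * sg U ϑ u) v n
      ≤ pl (fun u => c * (AdmS U 1 + fun u => ⊤ * AdmP U u) u) v n := by
        refine pl_mono (fun z hz => ?_) hn
        exact mul_le_mul' (hφ z hz) (Adm_sg_le₁ hϑ U _)
    _ = c * (pl (AdmS U 1) v n + 0) := by
        rw [pl_mul _ ((Adm_meas_S U 1).add ((Adm_meas_P U).const_mul _)), pl_add (Adm_meas_S U 1),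
          Adm_pl_P U v n hn]
    _ ≤ K * c := by
        rw [add_zero, mul_comm]
        gcongr
        have := hK v n U hn 1 zero_le_one
        simpa [AdmS] using this

theorem Adm_small (C : ℝ≥0∞) (hC : C ≠ ⊤) {p : ℝ} (hp : 0 < p) {η : ℝ≥0∞} (hη : 0 < η) :
    ∃ r : ℝ, 0 < r ∧ r ≤ 1 ∧ C * ENNReal.ofReal (r ^ p) ≤ η := by
  have h1 : Tendsto (fun r : ℝ => r ^ p) (𝓝 0) (𝓝 0) := by
    have := (Real.continuousAt_rpow_const 0 p (Or.inr hp.le)).tendsto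
    rwa [Real.zero_rpow hp.ne'] at this
  have h2 : Tendsto (fun r : ℝ => C * ENNReal.ofReal (r ^ p)) (𝓝 0) (𝓝 0) := by
    have := ENNReal.Tendsto.const_mul (a := C) (ENNReal.tendsto_ofReal h1) (Or.inr hC)
    simpa using this
  have h3 : ∀ᶠ r : ℝ in 𝓝[>] 0, C * ENNReal.ofReal (r ^ p) ≤ η :=
    nhdsWithin_le_nhds (h2.eventually (ge_mem_nhds hη))
  have h4 : ∀ᶠ r : ℝ in 𝓝[>] 0, r ≤ 1 :=
    nhdsWithin_le_nhds (ge_mem_nhds one_pos)
  obtain ⟨r, hr1, hr2, hr3⟩ := (h3.and (h4.and self_mem_nhdsWithin)).exists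
  exact ⟨r, hr3, hr2, hr1⟩

/-- the abstract choice of the two small parameters -/
theorem Adm_choice (N K : ℝ≥0) {η : ℝ≥0} (hη : 0 < η) : ∃ δ a : ℝ, 0 < δ ∧ δ ≤ 1 ∧ 0 < a ∧
    ENNReal.ofReal a + N * (ENNReal.ofReal (δ ^ (-(5 / 4) : ℝ)) * ENNReal.ofReal a +
      K * ENNReal.ofReal (δ ^ (3 / 4 : ℝ))) ≤ η := by
  have hη2 : (0 : ℝ≥0∞) < η / 2 := ENNReal.div_pos (by exact_mod_cast hη.ne') (by norm_num)
  obtain ⟨δ, hδ, hδ1, h1⟩ := Adm_small ((N : ℝ≥0∞) * K) (by finiteness) (p := 3 / 4) (by norm_num) hη2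
  obtain ⟨a, ha, -, h2⟩ := Adm_small (1 + (N : ℝ≥0∞) * ENNReal.ofReal (δ ^ (-(5 / 4) : ℝ)))
    (by finiteness) (p := 1) one_pos hη2
  rw [Real.rpow_one] at h2
  refine ⟨δ, a, hδ, hδ1, ha, ?_⟩
  calc _ = (1 + (N : ℝ≥0∞) * ENNReal.ofReal (δ ^ (-(5 / 4) : ℝ))) * ENNReal.ofReal a +
        (N : ℝ≥0∞) * K * ENNReal.ofReal (δ ^ (3 / 4 : ℝ)) := by ring
    _ ≤ η / 2 + η / 2 := add_le_add h2 h1
    _ = η := ENNReal.add_halves _

/-- uniform integrability on planes -/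
theorem Adm_pl_ui (N : ℝ≥0) {η : ℝ≥0} (hη : 0 < η) : ∃ a : ℝ, 0 < a ∧ ∀ w, AdmW N w →
    ∀ (φ : R3 → ℝ≥0∞) (v n : R3), Measurable φ → (∀ u, φ u ≤ 1) → ‖n‖ = 1 →
      pl φ v n ≤ ENNReal.ofReal a → pl (fun u => φ u * w u) v n ≤ η := by
  obtain ⟨K, hK⟩ := pl_sing
  obtain ⟨δ, a, hδ, hδ1, ha, h⟩ := Adm_choice N K hη
  refine ⟨a, ha, fun w hw φ v n hφ hφ1 hn hA => le_trans (Adm_pl_bound hw hφ hA ?_) h⟩
  intro U ϑ hϑ
  calc pl (fun u => φ u * sg U ϑ u) v n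
      ≤ pl ((fun u => ENNReal.ofReal (δ ^ (-(5 / 4) : ℝ)) * φ u) +
          (AdmS U δ + fun u => ⊤ * AdmP U u)) v n := by
        refine pl_mono (fun z hz => ?_) hn
        refine (mul_le_mul' le_rfl (Adm_sg_le₂ hϑ hδ U _)).trans ?_
        rw [mul_add, mul_comm]
        exact add_le_add le_rfl (mul_le_of_le_one_left' (hφ1 _))
    _ = ENNReal.ofReal (δ ^ (-(5 / 4) : ℝ)) * pl φ v n + (pl (AdmS U δ) v n + 0) := by
        rw [pl_add (hφ.const_mul _), pl_add (Adm_meas_S U δ), Adm_pl_P U v n hn, pl_mul _ hφ]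
    _ ≤ _ := by
        rw [add_zero]
        exact add_le_add (by gcongr) (hK v n U hn δ hδ.le)

/-- volume integrals of the truncated singularity -/
theorem Adm_two : ∃ K : ℝ≥0, ∀ (v U : R3) (δ : ℝ), 0 ≤ δ → δ ≤ 1 →
    ∫⁻ u, (1 + ‖v - u‖ₑ⁻¹) * (AdmS U δ u + ⊤ * AdmP U u) ≤ K * ENNReal.ofReal (δ ^ (3 / 4 : ℝ)) := by
  obtain ⟨K, hK⟩ := lintegral_two_sing
  have key : ∀ (v U : R3) (δ : ℝ), 0 ≤ δ →
      ∫⁻ u, AdmS U δ u * ‖v - u‖ₑ⁻¹ ≤ K * ENNReal.ofReal (δ ^ (3 / 4 : ℝ)) := by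
    intro v U δ hδ
    refine le_trans (le_of_eq ?_) (hK v U δ hδ)
    rw [← lintegral_indicator Metric.isClosed_closedBall.measurableSet]
    refine lintegral_congr fun u => ?_
    unfold AdmS
    by_cases hu : u ∈ Metric.closedBall U δ
    · rw [indicator_of_mem hu, indicator_of_mem hu]
    · rw [indicator_of_notMem hu, indicator_of_notMem hu, zero_mul]
  refine ⟨2 * K, fun v U δ hδ hδ1 => ?_⟩
  calc ∫⁻ u, (1 + ‖v - u‖ₑ⁻¹) * (AdmS U δ u + ⊤ * AdmP U u)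
      ≤ ∫⁻ u, AdmS U δ u * ‖U - u‖ₑ⁻¹ + (AdmS U δ u * ‖v - u‖ₑ⁻¹ + ⊤ * AdmP U u) := by
        refine lintegral_mono fun u => ?_
        by_cases hu : u = U
        · subst hu
          have : AdmP u u = 1 := by simp [AdmP]
          rw [this]; simp
        · have h0 : AdmP U u = 0 := by simp [AdmP, hu]
          rw [h0, mul_zero, add_zero, add_zero, add_mul, one_mul, mul_comm _ (AdmS U δ u)]
          gcongr
          by_cases hb : u ∈ Metric.closedBall U δ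
          · refine le_mul_of_one_le_right' ?_
            rw [ENNReal.one_le_inv, ← ofReal_norm, ← ENNReal.ofReal_one]
            refine ENNReal.ofReal_le_ofReal ?_
            rw [norm_sub_rev]
            exact le_trans (by simpa [dist_eq_norm] using hb) hδ1
          · unfold AdmS
            rw [indicator_of_notMem hb]
            exact zero_le
    _ = (∫⁻ u, AdmS U δ u * ‖U - u‖ₑ⁻¹) + ((∫⁻ u, AdmS U δ u * ‖v - u‖ₑ⁻¹) + 0) := by
        rw [lintegral_add_left ((Adm_meas_S U δ).fun_mul (Adm_meas_inv U)),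
          lintegral_add_left ((Adm_meas_S U δ).fun_mul (Adm_meas_inv v)), Adm_lint_P]
    _ ≤ K * ENNReal.ofReal (δ ^ (3 / 4 : ℝ)) + (K * ENNReal.ofReal (δ ^ (3 / 4 : ℝ)) + 0) := by
        gcongr
        · exact key U U δ hδ
        · exact key v U δ hδ
    _ = _ := by push_cast; ring

theorem Adm_lint_sg : ∃ K : ℝ≥0, ∀ (v U : R3) (ϑ : ℝ), 0 ≤ ϑ →
    ∫⁻ u, (1 + ‖v - u‖ₑ⁻¹) * sg U ϑ u ≤ K := by
  obtain ⟨K, hK⟩ := Adm_two
  refine ⟨K, fun v U ϑ hϑ => ?_⟩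
  have := hK v U 1 zero_le_one le_rfl
  rw [Real.one_rpow, ENNReal.ofReal_one, mul_one] at this
  exact le_trans (lintegral_mono fun u => mul_le_mul' le_rfl (Adm_sg_le₁ hϑ U u)) this

theorem Adm_norm_sq (v u : R3) :
    ‖u‖ ^ 2 = ‖v‖ ^ 2 - 2 * (‖v - u‖ * inner ℝ v (dir (v - u))) + ‖v - u‖ ^ 2 := by
  have h1 : ‖v - u‖ * inner ℝ v (dir (v - u)) = inner ℝ v (v - u) := by
    unfold dir
    rw [real_inner_smul_right]
    by_cases h : v - u = 0
    · rw [h]; simp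
    · rw [← mul_assoc, mul_inv_cancel₀ (norm_ne_zero_iff.2 h), one_mul]
  rw [h1, ← norm_sub_sq_real]
  congr 2
  abel

theorem Adm_ga_carl {β : ℝ} (hβ : 0 ≤ β) (v u : R3) :
    ga β u * ENNReal.ofReal (Real.exp (-β * inner ℝ v (dir (v - u)) ^ 2)) ≤ ga β v := by
  unfold ga
  refine Adm_ex_le₂ ?_
  rw [Adm_norm_sq v u]
  nlinarith [mul_nonneg hβ (sq_nonneg (‖v - u‖ - inner ℝ v (dir (v - u))))]

theorem Adm_inner_sq_le {n : R3} (hn : ‖n‖ = 1) (x : R3) : inner ℝ x n ^ 2 ≤ ‖x‖ ^ 2 := by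
  have := abs_real_inner_le_norm x n
  rw [hn, mul_one] at this
  exact sq_le_sq' (abs_le.1 this).1 (abs_le.1 this).2

theorem Adm_kk_tail {a : ℝ} (ha : 0 < a) : ∃ κ R : ℝ, 0 < κ ∧ 1 ≤ R ∧
    ∫⁻ z, {z : R3 | ‖z‖ < κ ∨ R < ‖z‖}.indicator kk z ≤ ENNReal.ofReal a := by
  have hm : ∀ κ R : ℝ, MeasurableSet {z : R3 | ‖z‖ < κ ∨ R < ‖z‖} := fun κ R =>
    (measurableSet_lt measurable_norm measurable_const).union
      (measurableSet_lt measurable_const measurable_norm)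
  have h := tendsto_lintegral_of_dominated_convergence (μ := (volume : Measure R3))
    (F := fun (k : ℕ) z => {z : R3 | ‖z‖ < 1 / ((k : ℝ) + 1) ∨ (k : ℝ) + 1 < ‖z‖}.indicator kk z)
    (f := fun _ => 0) kk (fun k => measurable_kk.indicator (hm _ _))
    (fun k => Eventually.of_forall fun z => indicator_le_self _ _ z) lintegral_kk ?_
  · rw [lintegral_zero] at h
    obtain ⟨k, hk⟩ := (h.eventually (ge_mem_nhds (ENNReal.ofReal_pos.2 ha))).exists
    exact ⟨_, _, by positivity, by linarith [Nat.cast_nonneg (α := ℝ) k], hk⟩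
  · have h0 : ∀ᵐ z : R3, z ≠ 0 := by
      rw [ae_iff]
      simp
    filter_upwards [h0] with z hz
    refine tendsto_const_nhds.congr' ?_
    have hz' : 0 < ‖z‖ := norm_pos_iff.2 hz
    have h1 : ∀ᶠ k : ℕ in atTop, 1 / ((k : ℝ) + 1) < ‖z‖ :=
      tendsto_one_div_add_atTop_nhds_zero_nat.eventually (gt_mem_nhds hz')
    have h2 : ∀ᶠ k : ℕ in atTop, ‖z‖ ≤ (k : ℝ) :=
      tendsto_natCast_atTop_atTop.eventually (eventually_ge_atTop _)
    filter_upwards [h1, h2] with k hk1 hk2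
    rw [indicator_of_notMem]
    simp only [mem_ofPred_eq, not_or, not_lt]
    exact ⟨hk1.le, by linarith⟩

end Crest.Agent.R68
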