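/-
R68/Adm: integrals of admissible weights
Skeleton by helper76 (row 68); keep the statements unchanged, add any helper lemmas you like.
-/
import Crest.Agent.R68.Geo2
import Crest.Agent.R68.Geo4
import Crest.Agent.R68.Geo5
import Crest.Agent.R68.AdmAux

set_option autoImplicit false
set_option linter.unusedVariables false
set_option linter.unusedSectionVars false

noncomputable section

namespace Crest.Agent.R68

open MeasureTheory Set Filter Topology
open scoped ENNReal NNReal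
open Crest.AnalysisR.VecCalc3 Crest.AnalysisR.PDE.Boltzmann

variable (N : ℝ≥0)

/-- `sg U ϑ ≤ 1_{B(U,1)} ‖· - U‖^(-5/4)` off the point `U` (a null set of the plane). -/
theorem adm_pl : ∃ K : ℝ≥0, ∀ w, AdmW N w → ∀ v n : R3, ‖n‖ = 1 →
    pl (fun u => ga (1 / 8) (u - v) * w u) v n ≤ K := by
  obtain ⟨K, hK⟩ := Adm_pl_sg
  refine ⟨(Real.pi / (1 / 8)).toNNReal + N * K, fun w hw v n hn => ?_⟩
  have h := Adm_pl_bound hw (Adm_meas_ga_sub (1 / 8) v) (pl_ga_sub (by norm_num) hn v).le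
    (B := K * 1) fun U ϑ hϑ =>
      hK _ 1 v n U ϑ hn hϑ fun z _ => Adm_ga_le_one (by norm_num) _
  rw [mul_one] at h
  exact h

theorem adm_pl_tail : ∃ K : ℝ≥0, ∀ w, AdmW N w → ∀ v n : R3, ‖n‖ = 1 → ∀ ρ : ℝ, 0 ≤ ρ →
    pl ({u | ρ ≤ ‖u - v‖}.indicator fun u => ga (1 / 4) (u - v) * w u) v n ≤
      K * ENNReal.ofReal (Real.exp (-ρ ^ 2 / 8)) := by
  obtain ⟨K, hK⟩ := adm_pl N
  refine ⟨K, fun w hw v n hn ρ hρ => ?_⟩
  calc _ ≤ pl (fun u => ENNReal.ofReal (Real.exp (-ρ ^ 2 / 8)) * (ga (1 / 8) (u - v) * w u)) v n := by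
        refine pl_mono (fun z hz => ?_) hn
        by_cases hz' : v + z ∈ {u | ρ ≤ ‖u - v‖}
        · rw [indicator_of_mem hz', ← mul_assoc]
          refine mul_le_mul' ?_ le_rfl
          unfold ga
          refine Adm_ex_le₁ ?_
          have h1 : ρ ≤ ‖v + z - v‖ := hz'
          have h2 : ρ ^ 2 ≤ ‖v + z - v‖ ^ 2 := pow_le_pow_left₀ hρ h1 2
          linarith
        · rw [indicator_of_notMem hz']
          exact zero_le
    _ = ENNReal.ofReal (Real.exp (-ρ ^ 2 / 8)) * pl (fun u => ga (1 / 8) (u - v) * w u) v n :=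
        pl_mul _ ((Adm_meas_ga_sub (1 / 8) v).fun_mul hw.measurable) v n
    _ ≤ _ := by
        rw [mul_comm]
        gcongr
        exact hK w hw v n hn

/-- `sg U ϑ ≤ r^(-5/4) + 1_{B(U,r)} ‖· - U‖^(-5/4)`. -/
theorem adm_pl_disc {η : ℝ≥0} (hη : 0 < η) : ∃ r : ℝ, 0 < r ∧ ∀ w, AdmW N w → ∀ v n : R3, ‖n‖ = 1 →
    pl ({u | ‖u - v‖ ≤ r}.indicator fun u => ga (1 / 4) (u - v) * w u) v n ≤ η := by
  obtain ⟨a, ha, h⟩ := Adm_pl_ui N hη
  refine ⟨√a / 2, by positivity, fun w hw v n hn => ?_⟩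
  have hm : MeasurableSet {u : R3 | ‖u - v‖ ≤ √a / 2} :=
    measurableSet_le (measurable_id.sub_const v).norm measurable_const
  have h1 := h w hw ({u : R3 | ‖u - v‖ ≤ √a / 2}.indicator fun u => ga (1 / 4) (u - v)) v n
    ((Adm_meas_ga_sub _ v).indicator hm)
    (fun u => (indicator_le_self _ _ u).trans (Adm_ga_le_one (by norm_num) _)) hn ?_
  · refine le_trans (le_of_eq ?_) h1
    congr 1
    funext u
    rw [indicator_mul_left]
  · refine le_trans (pl_mono (fun z hz => ?_) hn)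
      ((pl_ball hn v v (r := √a / 2) (by positivity)).trans (le_of_eq ?_))
    · by_cases hz' : v + z ∈ {u : R3 | ‖u - v‖ ≤ √a / 2}
      · rw [indicator_of_mem hz', indicator_of_mem (by simpa [dist_eq_norm] using hz')]
        exact Adm_ga_le_one (by norm_num) _
      · rw [indicator_of_notMem hz']
        exact zero_le
    · congr 1
      rw [div_pow, Real.sq_sqrt ha.le]; ring

/-- Let `n = dir (v - u)`, `d = ‖v - u‖ ≥ r`, `s = ‖e - ⟪e,n⟫ n‖`.  On the plane
`⟪v + z - u, e⟫ = d ⟪n,e⟫ + ⟪z, e - ⟪e,n⟫ n⟫`.  If `s ≥ s₀` use `pl_strip`; if `s < s₀ ≤ 1/2` then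
`|⟪n,e⟫| ≥ 1/2` and the strip lies in `‖z‖ ≥ r / (4 s₀)` for `κ ≤ r/4`: use `adm_pl_tail`. -/
theorem adm_pl_strip {η : ℝ≥0} (hη : 0 < η) {r : ℝ} (hr : 0 < r) : ∃ κ : ℝ, 0 < κ ∧ ∀ w, AdmW N w →
    ∀ v u e : R3, ‖e‖ = 1 → r ≤ ‖v - u‖ →
    pl ({u' | |inner ℝ (u' - u) e| ≤ κ}.indicator fun u' => ga (1 / 4) (u' - v) * w u') v
      (dir (v - u)) ≤ η := by
  obtain ⟨a, ha, h⟩ := Adm_pl_ui N hη
  obtain ⟨K, hK⟩ := adm_pl_tail N
  obtain ⟨ε, hε, hε1, hε2⟩ := Adm_small (K : ℝ≥0∞) ENNReal.coe_ne_top (p := 1) one_pos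
    (η := η) (by exact_mod_cast hη)
  rw [Real.rpow_one] at hε2
  obtain ⟨ρ, hρ, hρε⟩ : ∃ ρ : ℝ, 0 < ρ ∧ Real.exp (-ρ ^ 2 / 8) ≤ ε := by
    refine ⟨√(8 / ε), by positivity, ?_⟩
    rw [Real.sq_sqrt (by positivity)]
    have h1 : -(8 / ε) / 8 = -ε⁻¹ := by field_simp
    rw [h1, Real.exp_neg]
    have h2 := Real.add_one_le_exp ε⁻¹
    rw [inv_le_comm₀ (Real.exp_pos _) hε]
    linarith
  set s₀ : ℝ := min (1 / 2) (r / (4 * ρ)) with hs₀
  have hs₀pos : 0 < s₀ := lt_min (by norm_num) (by positivity)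
  have hq : 0 < √(Real.pi / (1 / 4)) := Real.sqrt_pos.2 (by positivity)
  set κ : ℝ := min (r / 4) (a * s₀ / (2 * √(Real.pi / (1 / 4)))) with hκ
  have hκpos : 0 < κ := lt_min (by positivity) (by positivity)
  refine ⟨κ, hκpos, fun w hw v u e he hru => ?_⟩
  have hvu : v - u ≠ 0 := by
    intro h0
    rw [h0, norm_zero] at hru
    linarith
  have hn : ‖dir (v - u)‖ = 1 := norm_dir hvu
  set n := dir (v - u) with hn_def
  by_cases hs : s₀ ≤ ‖e - inner ℝ e n • n‖
  · have hset : {u' : R3 | |inner ℝ (u' - u) e| ≤ κ} =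
        {u' : R3 | |inner ℝ u' e - inner ℝ u e| ≤ κ} := by
      ext u'
      simp only [mem_ofPred_eq, inner_sub_left]
    have hm : MeasurableSet {u' : R3 | |inner ℝ u' e - inner ℝ u e| ≤ κ} :=
      (isClosed_le (by fun_prop) continuous_const).measurableSet
    rw [hset]
    have h1 := h w hw ({u' : R3 | |inner ℝ u' e - inner ℝ u e| ≤ κ}.indicator
      fun u' => ga (1 / 4) (u' - v)) v n ((Adm_meas_ga_sub _ v).indicator hm)
      (fun u => (indicator_le_self _ _ u).trans (Adm_ga_le_one (by norm_num) _)) hn ?_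
    · refine le_trans (le_of_eq ?_) h1
      congr 1
      funext u
      rw [indicator_mul_left]
    · refine (pl_strip (by norm_num) hn v e hκpos.le hs₀pos hs).trans
        (ENNReal.ofReal_le_ofReal ?_)
      have h2 : κ ≤ a * s₀ / (2 * √(Real.pi / (1 / 4))) := min_le_right _ _
      rw [le_div_iff₀ (by positivity)] at h2
      rw [div_mul_eq_mul_div, div_le_iff₀ hs₀pos]
      linarith
  · push Not at hs
    refine le_trans (pl_mono (fun z hz => ?_) hn) ((hK w hw v n hn ρ hρ.le).trans ?_)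
    · by_cases hz' : v + z ∈ {u' : R3 | |inner ℝ (u' - u) e| ≤ κ}
      · have hmem : v + z ∈ {u' : R3 | ρ ≤ ‖u' - v‖} := by
          have h0 : |inner ℝ (v + z - u) e| ≤ κ := hz'
          have hd : v - u = ‖v - u‖ • n := by
            rw [hn_def]
            unfold dir
            rw [smul_smul, mul_inv_cancel₀ (norm_ne_zero_iff.2 hvu), one_smul]
          have h1 : inner ℝ (v + z - u) e =
              ‖v - u‖ * inner ℝ e n + inner ℝ z (e - inner ℝ e n • n) := by
            have : v + z - u = (v - u) + z := by abel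
            rw [this, inner_add_left, inner_sub_right, real_inner_smul_right, hz, mul_zero, sub_zero]
            congr 1
            conv_lhs => rw [hd]
            rw [real_inner_smul_left, real_inner_comm]
          have h2 : ‖e - inner ℝ e n • n‖ ^ 2 = 1 - inner ℝ e n ^ 2 := by
            rw [norm_sub_sq_real, real_inner_smul_right, norm_smul, hn, he, Real.norm_eq_abs, mul_one,
              sq_abs]
            ring
          have h3 : ‖e - inner ℝ e n • n‖ ≤ 1 / 2 := hs.le.trans (min_le_left _ _)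
          have h4 : 1 / 2 ≤ |inner ℝ e n| := by
            have h5 := pow_le_pow_left₀ (norm_nonneg _) h3 2
            rw [h2] at h5
            refine (abs_le_of_sq_le_sq' ?_ (abs_nonneg _)).2
            rw [sq_abs]
            linarith
          have h5 : |inner ℝ z (e - inner ℝ e n • n)| ≤ ‖z‖ * s₀ :=
            (abs_real_inner_le_norm _ _).trans (mul_le_mul_of_nonneg_left hs.le (norm_nonneg _))
          have h6 : ‖v - u‖ * |inner ℝ e n| ≤ κ + ‖z‖ * s₀ := by
            have h7 : ‖v - u‖ * inner ℝ e n =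
                inner ℝ (v + z - u) e - inner ℝ z (e - inner ℝ e n • n) := by rw [h1]; ring
            rw [← abs_of_nonneg (norm_nonneg (v - u)), ← abs_mul, h7]
            exact (abs_sub _ _).trans (add_le_add h0 h5)
          have h7 : κ ≤ r / 4 := min_le_left _ _
          have h8 : s₀ ≤ r / (4 * ρ) := min_le_right _ _
          have h9 : r * (1 / 2) ≤ ‖v - u‖ * |inner ℝ e n| :=
            mul_le_mul hru h4 (by norm_num) (norm_nonneg _)
          have h10 : r / 4 ≤ ‖z‖ * (r / (4 * ρ)) := by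
            have := mul_le_mul_of_nonneg_left h8 (norm_nonneg z)
            linarith
          have h11 : ‖z‖ * (r / (4 * ρ)) = r / 4 * (‖z‖ / ρ) := by field_simp
          rw [h11, le_mul_iff_one_le_right (by positivity), one_le_div hρ] at h10
          simpa using h10
        rw [indicator_of_mem hz', indicator_of_mem hmem]
      · rw [indicator_of_notMem hz']
        exact zero_le
    · refine le_trans ?_ hε2
      gcongr

/-- `pl (ga β * w) v n ≤ K exp (-β ⟪v,n⟫²)`. -/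
theorem adm_pl_ga : ∃ K : ℝ≥0, ∀ w, AdmW N w → ∀ β ∈ Icc (1 / 8 : ℝ) 4, ∀ v n : R3, ‖n‖ = 1 →
    pl (fun u => ga β u * w u) v n ≤ K * ENNReal.ofReal (Real.exp (-β * inner ℝ v n ^ 2)) := by
  obtain ⟨K, hK⟩ := Adm_pl_sg
  refine ⟨(Real.pi / (1 / 8)).toNNReal + N * K, fun w hw β hβ v n hn => ?_⟩
  have hβ0 : 0 < β := lt_of_lt_of_le (by norm_num) hβ.1
  have h := Adm_pl_bound hw (measurable_ga β) (pl_ga hβ0 hn v).le
    (B := K * ENNReal.ofReal (Real.exp (-β * inner ℝ v n ^ 2))) fun U ϑ hϑ =>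
      hK _ _ v n U ϑ hn hϑ fun z hz => by
        unfold ga
        refine ENNReal.ofReal_le_ofReal (Real.exp_le_exp.2 ?_)
        have h1 := Adm_inner_sq_le hn (v + z)
        rw [inner_add_left, hz, add_zero] at h1
        nlinarith
  refine h.trans ?_
  rw [ENNReal.ofReal_mul (by positivity)]
  push_cast
  rw [add_mul, mul_assoc]
  gcongr
  exact ENNReal.ofReal_le_ofReal (div_le_div_of_nonneg_left Real.pi_pos.le (by norm_num) hβ.1)

/-- Expand `w = 1 + σ`.  `gn (ga β) (ga β) = ga β * ls (ga β)`; in the other terms put a singular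
factor in the first slot (`gn_comm`) and use Carleman: with `u = v - a n`,
`ga β u * exp (-β ⟪v,n⟫²) ≤ ga β v`, and `lintegral_two_sing`. -/
theorem adm_gn : ∃ K : ℝ≥0, ∀ w, AdmW N w → ∀ β ∈ Icc (1 / 8 : ℝ) 4, ∀ v,
    gn (fun u => ga β u * w u) (fun u => ga β u * w u) v ≤ K * br v * ga β v := by
  obtain ⟨K₁, hK₁⟩ := adm_pl_ga N
  obtain ⟨K₂, hK₂⟩ := Adm_lint_sg
  have hfin := lintegral_br_ga (β := 1 / 8) (by norm_num) 1
  refine ⟨24 * (∫⁻ u, br u ^ 1 * ga (1 / 8) u).toNNReal + 2 * (2 * (K₁ * (N * K₂))),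
    fun w hw β hβ v => ?_⟩
  have hβ0 : 0 < β := lt_of_lt_of_le (by norm_num) hβ.1
  obtain ⟨σ, hσ, hwσ, h1, -⟩ := Adm_split hw
  have hg := measurable_ga β
  have hgσ : Measurable fun u => ga β u * σ u := hg.fun_mul hσ
  have hgw : Measurable fun u => ga β u * w u := hg.fun_mul hw.measurable
  have hsplit : (fun u => ga β u * w u) = ga β + fun u => ga β u * σ u := by
    funext u
    rw [hwσ, mul_add, mul_one]; rfl
  have hA : gn (ga β) (ga β) v ≤ 24 * (∫⁻ u, br u ^ 1 * ga (1 / 8) u) * br v * ga β v := by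
    rw [gn_ga, mul_comm]
    gcongr
    refine (ls_le_br hg v).trans ?_
    rw [mul_right_comm]
    refine mul_le_mul' (mul_le_mul' le_rfl (lintegral_mono fun u => ?_)) le_rfl
    rw [pow_one]
    exact mul_le_mul' le_rfl (Adm_ga_anti hβ.1 u)
  have hB : gn (fun u => ga β u * σ u) (fun u => ga β u * w u) v ≤
      2 * (K₁ * (N * K₂)) * ga β v := by
    refine (gn_le_carleman hgσ hgw
      (B := fun u => K₁ * ENNReal.ofReal (Real.exp (-β * inner ℝ v (dir (v - u)) ^ 2)))
      fun u hu _ => hK₁ w hw β hβ v _ (norm_dir (sub_ne_zero.2 hu.symm))).trans ?_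
    rw [mul_assoc]
    gcongr
    calc ∫⁻ u, ga β u * σ u * ‖v - u‖ₑ⁻¹ *
          (K₁ * ENNReal.ofReal (Real.exp (-β * inner ℝ v (dir (v - u)) ^ 2)))
        ≤ ∫⁻ u, (K₁ * ga β v) * ((1 + ‖v - u‖ₑ⁻¹) * σ u) := by
          refine lintegral_mono fun u => ?_
          calc _ = K₁ * (ga β u * ENNReal.ofReal (Real.exp (-β * inner ℝ v (dir (v - u)) ^ 2))) *
                (‖v - u‖ₑ⁻¹ * σ u) := by ring
            _ ≤ _ := by
                gcongr
                · exact Adm_ga_carl hβ0.le v u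
                · exact le_add_self
      _ = (K₁ * ga β v) * ∫⁻ u, (1 + ‖v - u‖ₑ⁻¹) * σ u :=
          lintegral_const_mul _ (((Adm_meas_inv v).const_add 1).fun_mul hσ)
      _ ≤ (K₁ * ga β v) * (N * K₂) := by
          gcongr
          exact h1 _ _ ((Adm_meas_inv v).const_add 1) fun U ϑ hϑ => hK₂ v U ϑ hϑ
      _ = _ := by ring
  have hC : gn (ga β) (fun u => ga β u * σ u) v ≤
      gn (fun u => ga β u * σ u) (fun u => ga β u * w u) v := by
    rw [gn_comm hg hgσ]
    exact gn_mono le_rfl (fun u => le_mul_of_one_le_right' (hw.one_le u)) v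
  calc gn (fun u => ga β u * w u) (fun u => ga β u * w u) v
      = gn (ga β + fun u => ga β u * σ u) (fun u => ga β u * w u) v := by rw [← hsplit]
    _ = gn (ga β) (ga β + fun u => ga β u * σ u) v +
          gn (fun u => ga β u * σ u) (fun u => ga β u * w u) v := by
        rw [gn_add_left hg hgσ hgw, ← hsplit]
    _ ≤ (24 * (∫⁻ u, br u ^ 1 * ga (1 / 8) u) * br v * ga β v + 2 * (K₁ * (N * K₂)) * ga β v) +
          2 * (K₁ * (N * K₂)) * ga β v := by
        rw [gn_add_right hg hg hgσ]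
        exact add_le_add (add_le_add hA (hC.trans hB)) hB
    _ = 24 * (∫⁻ u, br u ^ 1 * ga (1 / 8) u) * br v * ga β v +
          2 * (2 * (K₁ * (N * K₂))) * 1 * ga β v := by ring
    _ ≤ 24 * (∫⁻ u, br u ^ 1 * ga (1 / 8) u) * br v * ga β v +
          2 * (2 * (K₁ * (N * K₂))) * br v * ga β v := by
        gcongr
        exact Adm_one_le_br v
    _ = _ := by
        push_cast
        rw [ENNReal.coe_toNNReal hfin]
        ring

theorem adm_mom (k : ℕ) : ∃ K : ℝ≥0, ∀ w, AdmW N w → ∫⁻ u, br u ^ k * (ga (1 / 8) u * w u) ≤ K := by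
  obtain ⟨K, hK⟩ := Adm_lint_sg
  have hfin := lintegral_br_ga (β := 1 / 8) (by norm_num) k
  refine ⟨(∫⁻ u, br u ^ k * ga (1 / 8) u).toNNReal + N * (5 ^ k * K), fun w hw => ?_⟩
  have h := Adm_lint_bound hw ((measurable_br.pow_const k).fun_mul (measurable_ga (1 / 8))) le_rfl
    (B := 5 ^ k * K) fun U ϑ hϑ => by
      calc ∫⁻ u, br u ^ k * ga (1 / 8) u * sg U ϑ u
          ≤ ∫⁻ u, 5 ^ k * ((1 + ‖(0 : R3) - u‖ₑ⁻¹) * sg U ϑ u) := by
            refine lintegral_mono fun u => ?_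
            by_cases hu : ‖u‖ ≤ 4
            · rw [mul_assoc]
              gcongr
              · unfold br
                have : (5 : ℝ≥0∞) = ENNReal.ofReal 5 := by norm_num
                rw [this]
                exact ENNReal.ofReal_le_ofReal (by linarith)
              · exact (Adm_ga_le_one (by norm_num) u).trans le_self_add
            · have : sg U ϑ u = 0 := by
                unfold sg
                rw [if_neg fun h => hu h.2]
              rw [this, mul_zero]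
              exact zero_le
        _ = 5 ^ k * ∫⁻ u, (1 + ‖(0 : R3) - u‖ₑ⁻¹) * sg U ϑ u :=
            lintegral_const_mul _ (((Adm_meas_inv 0).const_add 1).fun_mul (Adm_meas_sg U ϑ))
        _ ≤ _ := by
            gcongr
            exact hK 0 U ϑ hϑ
  simp only [mul_assoc] at h
  refine h.trans (le_of_eq ?_)
  push_cast
  rw [ENNReal.coe_toNNReal hfin]

theorem adm_ls : ∃ K : ℝ≥0, ∀ w, AdmW N w → ∀ v, ls (fun u => ga (1 / 8) u * w u) v ≤ K * br v := by
  obtain ⟨K, hK⟩ := adm_mom N 1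
  refine ⟨24 * K, fun w hw v => ?_⟩
  refine (ls_le_br ((measurable_ga (1 / 8)).fun_mul hw.measurable) v).trans ?_
  have := hK w hw
  simp only [pow_one] at this
  push_cast
  rw [mul_right_comm]
  gcongr

theorem adm_kk : ∃ K : ℝ≥0, ∀ w, AdmW N w → ∀ v, ∫⁻ u, kk (v - u) * w u ≤ K := by
  obtain ⟨K, hK⟩ := Adm_lint_sg
  refine ⟨(∫⁻ z, kk z).toNNReal + N * K, fun w hw v => ?_⟩
  have h := Adm_lint_bound hw (Adm_meas_kk v) (lintegral_sub_left_eq_self kk v).le
    (B := K) fun U ϑ hϑ =>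
      le_trans (lintegral_mono fun u => mul_le_mul' (Adm_kk_le _) le_rfl) (hK v U ϑ hϑ)
  refine h.trans (le_of_eq ?_)
  push_cast
  rw [ENNReal.coe_toNNReal lintegral_kk]

theorem adm_kk_small {η : ℝ≥0} (hη : 0 < η) : ∃ κ R : ℝ, 0 < κ ∧ 1 ≤ R ∧ ∀ w, AdmW N w → ∀ v,
    ∫⁻ u in {u | ‖v - u‖ < κ ∨ R < ‖v - u‖}, kk (v - u) * w u ≤ η := by
  obtain ⟨K, hK⟩ := Adm_two
  obtain ⟨δ, a, hδ, hδ1, ha, h⟩ := Adm_choice N K hη
  obtain ⟨κ, R, hκ, hR, hA⟩ := Adm_kk_tail ha
  refine ⟨κ, R, hκ, hR, fun w hw v => ?_⟩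
  have hm : MeasurableSet {z : R3 | ‖z‖ < κ ∨ R < ‖z‖} :=
    (measurableSet_lt measurable_norm measurable_const).union
      (measurableSet_lt measurable_const measurable_norm)
  have hm' : MeasurableSet {u : R3 | ‖v - u‖ < κ ∨ R < ‖v - u‖} :=
    (measurable_const.sub measurable_id : Measurable fun u : R3 => v - u) hm
  have hφ : Measurable fun u : R3 => {z : R3 | ‖z‖ < κ ∨ R < ‖z‖}.indicator kk (v - u) :=
    (measurable_kk.indicator hm).comp (measurable_const.sub measurable_id)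
  have hA' : ∫⁻ u, {z : R3 | ‖z‖ < κ ∨ R < ‖z‖}.indicator kk (v - u) ≤ ENNReal.ofReal a :=
    (lintegral_sub_left_eq_self _ v).le.trans hA
  have h1 := Adm_lint_bound hw hφ hA'
    (B := ENNReal.ofReal (δ ^ (-(5 / 4) : ℝ)) * ENNReal.ofReal a +
      K * ENNReal.ofReal (δ ^ (3 / 4 : ℝ))) fun U ϑ hϑ => by
      calc ∫⁻ u, {z : R3 | ‖z‖ < κ ∨ R < ‖z‖}.indicator kk (v - u) * sg U ϑ u
          ≤ ∫⁻ u, ENNReal.ofReal (δ ^ (-(5 / 4) : ℝ)) *
              {z : R3 | ‖z‖ < κ ∨ R < ‖z‖}.indicator kk (v - u) +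
              (1 + ‖v - u‖ₑ⁻¹) * (AdmS U δ u + ⊤ * AdmP U u) := by
            refine lintegral_mono fun u => ?_
            refine (mul_le_mul' le_rfl (Adm_sg_le₂ hϑ hδ U u)).trans ?_
            rw [mul_add, mul_comm]
            exact add_le_add le_rfl
              (mul_le_mul' ((indicator_le_self _ _ _).trans (Adm_kk_le _)) le_rfl)
        _ ≤ _ := by
            rw [lintegral_add_left (hφ.const_mul _), lintegral_const_mul _ hφ]
            exact add_le_add (by gcongr) (hK v U δ hδ.le hδ1)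
  refine le_trans (le_of_eq ?_) (h1.trans h)
  rw [← lintegral_indicator hm']
  refine lintegral_congr fun u => ?_
  by_cases hu : ‖v - u‖ < κ ∨ R < ‖v - u‖
  · rw [indicator_of_mem (by exact hu), indicator_of_mem (by exact hu)]
  · rw [indicator_of_notMem (by exact hu), indicator_of_notMem (by exact hu), zero_mul]

/-- Grad's estimate.  Gain: Carleman with `m g` in the first slot and `pl_ga`; with `u = v - a n`,
`m u * exp (-⟪v,n⟫²/2) / m v = exp (-(⟪v,n⟫-a)²/4 - ⟪v,n⟫²/4) ≤ exp (-a²/8)`.  Loss: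
`M v ‖v-u‖ m u ≤ m v * (m v m u ‖v-u‖)`. -/
theorem grad_kernel : ∃ K : ℝ≥0, ∀ g : R3 → ℝ≥0∞, Measurable g → ∀ v,
    2 * gn Mx (fun u => ga (1 / 4) u * g u) v + Mx v * ls (fun u => ga (1 / 4) u * g u) v ≤
      K * ga (1 / 4) v * ∫⁻ u, kk (v - u) * g u := by
  refine ⟨2 * (2 * (Real.pi / (1 / 2)).toNNReal) + 24 * 4, fun g hg v => ?_⟩
  have hmg : Measurable fun u => ga (1 / 4) u * g u := (measurable_ga _).fun_mul hg
  have hI : Measurable fun u => kk (v - u) * g u := (Adm_meas_kk v).fun_mul hg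
  have hA : gn Mx (fun u => ga (1 / 4) u * g u) v ≤
      2 * ENNReal.ofReal (Real.pi / (1 / 2)) * ga (1 / 4) v * ∫⁻ u, kk (v - u) * g u := by
    rw [gn_comm measurable_Mx hmg]
    refine (gn_le_carleman hmg measurable_Mx
      (B := fun u => ENNReal.ofReal (Real.pi / (1 / 2)) *
        ENNReal.ofReal (Real.exp (-(1 / 2) * inner ℝ v (dir (v - u)) ^ 2)))
      fun u hu _ => ?_).trans ?_
    · have hn := norm_dir (sub_ne_zero.2 hu.symm)
      refine (pl_mono (fun z _ => Mx_le _) hn).trans (le_of_eq ?_)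
      rw [pl_ga (by norm_num) hn, ENNReal.ofReal_mul (by positivity)]
    · rw [mul_assoc, mul_assoc, ← mul_assoc _ (ga (1 / 4) v), ← lintegral_const_mul _ hI]
      refine mul_le_mul' le_rfl (lintegral_mono fun u => ?_)
      have h1 : ga (1 / 4) u * ENNReal.ofReal (Real.exp (-(1 / 2) * inner ℝ v (dir (v - u)) ^ 2)) ≤
          ga (1 / 4) v * ga (1 / 16) (v - u) := by
        unfold ga
        refine Adm_ex_le ?_
        rw [Adm_norm_sq v u]
        nlinarith [sq_nonneg (‖v - u‖ - 2 * inner ℝ v (dir (v - u))), sq_nonneg ‖v - u‖]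
      calc _ = ENNReal.ofReal (Real.pi / (1 / 2)) * (ga (1 / 4) u *
            ENNReal.ofReal (Real.exp (-(1 / 2) * inner ℝ v (dir (v - u)) ^ 2))) *
            (‖v - u‖ₑ⁻¹ * g u) := by ring
        _ ≤ ENNReal.ofReal (Real.pi / (1 / 2)) * (ga (1 / 4) v * ga (1 / 16) (v - u)) *
            ((1 + ‖v - u‖ₑ⁻¹) * g u) := by
            gcongr
            exact le_add_self
        _ = _ := by unfold kk; ring
  have hB : Mx v * ls (fun u => ga (1 / 4) u * g u) v ≤
      24 * 4 * ga (1 / 4) v * ∫⁻ u, kk (v - u) * g u := by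
    rw [ls_eq hmg]
    have h24 : ENNReal.ofReal cL ≤ 24 := by
      have : (24 : ℝ≥0∞) = ENNReal.ofReal 24 := by norm_num
      rw [this]
      exact ENNReal.ofReal_le_ofReal cL_le
    have hM : Mx v ≤ ga (1 / 4) v * ga (1 / 4) v := by
      refine (Mx_le v).trans ?_
      unfold ga
      exact Adm_ex_le₁ (by linarith)
    have hJ : Measurable fun u => ‖v - u‖ₑ * (ga (1 / 4) u * g u) :=
      ((measurable_const.sub measurable_id).enorm).fun_mul hmg
    calc Mx v * (ENNReal.ofReal cL * ∫⁻ u, ‖v - u‖ₑ * (ga (1 / 4) u * g u))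
        ≤ ga (1 / 4) v * ga (1 / 4) v * (24 * ∫⁻ u, ‖v - u‖ₑ * (ga (1 / 4) u * g u)) := by gcongr
      _ = 24 * ga (1 / 4) v * ∫⁻ u, ga (1 / 4) v * (‖v - u‖ₑ * (ga (1 / 4) u * g u)) := by
          rw [lintegral_const_mul _ hJ]; ring
      _ ≤ 24 * ga (1 / 4) v * ∫⁻ u, 4 * (kk (v - u) * g u) := by
          refine mul_le_mul' le_rfl (lintegral_mono fun u => ?_)
          have h1 : ga (1 / 4) v * ga (1 / 4) u ≤ ga (1 / 16) (v - u) * ga (1 / 16) (v - u) := by
            unfold ga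
            refine Adm_ex_le ?_
            have h2 := norm_sub_le v u
            have h3 : ‖v - u‖ ^ 2 ≤ (‖v‖ + ‖u‖) ^ 2 := pow_le_pow_left₀ (norm_nonneg _) h2 2
            nlinarith [sq_nonneg (‖v‖ - ‖u‖)]
          have h2 : ‖v - u‖ₑ * ga (1 / 16) (v - u) ≤ 4 := by
            unfold ga
            have : (4 : ℝ≥0∞) = ENNReal.ofReal 4 := by norm_num
            rw [this, ← ofReal_norm, ← ENNReal.ofReal_mul (norm_nonneg _)]
            refine ENNReal.ofReal_le_ofReal ?_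
            have h3 := Real.add_one_le_exp (1 / 16 * ‖v - u‖ ^ 2)
            rw [neg_mul, Real.exp_neg, ← div_eq_mul_inv, div_le_iff₀ (Real.exp_pos _)]
            nlinarith [sq_nonneg (‖v - u‖ - 2)]
          calc _ = (ga (1 / 4) v * ga (1 / 4) u) * ‖v - u‖ₑ * g u := by ring
            _ ≤ (ga (1 / 16) (v - u) * ga (1 / 16) (v - u)) * ‖v - u‖ₑ * g u := by gcongr
            _ = (‖v - u‖ₑ * ga (1 / 16) (v - u)) * (1 * ga (1 / 16) (v - u) * g u) := by ring
            _ ≤ 4 * ((1 + ‖v - u‖ₑ⁻¹) * ga (1 / 16) (v - u) * g u) := by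
                gcongr
                exact le_self_add
            _ = _ := rfl
      _ = _ := by rw [lintegral_const_mul _ hI]; ring
  refine (add_le_add (mul_le_mul' le_rfl hA) hB).trans (le_of_eq ?_)
  push_cast
  unfold ENNReal.ofReal
  ring

/-- Carleman with `M χ` in the first slot: with `u = v - a n`,
`M u * exp (-⟪v,n⟫²/4) ≤ m v * m u`. -/
theorem adm_gn_Mx : ∃ K : ℝ≥0, ∀ w, AdmW N w → ∀ χ : R3 → ℝ≥0∞, Measurable χ → ∀ v,
    gn (fun u => Mx u * χ u) (fun u => ga (1 / 4) u * w u) v ≤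
      K * ga (1 / 4) v * ∫⁻ u, ‖v - u‖ₑ⁻¹ * ga (1 / 4) u * χ u := by
  obtain ⟨K, hK⟩ := adm_pl_ga N
  refine ⟨2 * K, fun w hw χ hχ v => ?_⟩
  have hI : Measurable fun u => ‖v - u‖ₑ⁻¹ * ga (1 / 4) u * χ u :=
    ((Adm_meas_inv v).fun_mul (measurable_ga _)).fun_mul hχ
  refine (gn_le_carleman (measurable_Mx.fun_mul hχ) ((measurable_ga _).fun_mul hw.measurable)
    (B := fun u => K * ENNReal.ofReal (Real.exp (-(1 / 4) * inner ℝ v (dir (v - u)) ^ 2)))
    fun u hu _ => hK w hw (1 / 4) ⟨by norm_num, by norm_num⟩ v _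
      (norm_dir (sub_ne_zero.2 hu.symm))).trans ?_
  push_cast
  rw [mul_assoc, mul_assoc, ← mul_assoc _ (ga (1 / 4) v), ← lintegral_const_mul _ hI]
  refine mul_le_mul' le_rfl (lintegral_mono fun u => ?_)
  have hM : Mx u ≤ ga (1 / 4) u * ga (1 / 4) u := by
    refine (Mx_le u).trans ?_
    unfold ga
    exact Adm_ex_le₁ (by linarith)
  calc _ = K * (Mx u * ENNReal.ofReal (Real.exp (-(1 / 4) * inner ℝ v (dir (v - u)) ^ 2))) *
        (‖v - u‖ₑ⁻¹ * χ u) := by ring
    _ ≤ K * (ga (1 / 4) u * ga (1 / 4) u *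
        ENNReal.ofReal (Real.exp (-(1 / 4) * inner ℝ v (dir (v - u)) ^ 2))) *
        (‖v - u‖ₑ⁻¹ * χ u) := by gcongr
    _ = K * (ga (1 / 4) u * ENNReal.ofReal (Real.exp (-(1 / 4) * inner ℝ v (dir (v - u)) ^ 2))) *
        (‖v - u‖ₑ⁻¹ * ga (1 / 4) u * χ u) := by ring
    _ ≤ _ := by
        gcongr
        exact Adm_ga_carl (by norm_num) v u

end Crest.Agent.R68
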