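/-
R68/Geo6: small-ball estimate for a component of the outgoing velocities
Skeleton by helper76 (row 68); keep the statements unchanged, add any helper lemmas you like.
-/
import Crest.Agent.R68.Geo3

set_option autoImplicit false
set_option linter.unusedVariables false
set_option linter.unusedSectionVars false

noncomputable section

namespace Crest.Agent.R68

open MeasureTheory Set Filter Topology
open scoped ENNReal NNReal
open Crest.AnalysisR.VecCalc3 Crest.AnalysisR.PDE.Boltzmann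

theorem Geo6_sq (b k : ℝ) {δ : ℝ} (hδ : 0 ≤ δ) :
    volume {t : ℝ | |(t + b) ^ 2 - k| ≤ δ} ≤ ENNReal.ofReal (2 * √(2 * δ)) := by
  set m := √(k - δ) with hm
  set ρ := √(2 * δ) with hρ
  have hm0 : 0 ≤ m := Real.sqrt_nonneg _
  have hρ0 : 0 ≤ ρ := Real.sqrt_nonneg _
  have hρ2 : ρ ^ 2 = 2 * δ := Real.sq_sqrt (by linarith)
  have hm2 : k - δ ≤ m ^ 2 := by
    rcases le_total 0 (k - δ) with h | h
    · rw [Real.sq_sqrt h]
    · exact h.trans (sq_nonneg _)
  have hsub : {t : ℝ | |(t + b) ^ 2 - k| ≤ δ} ⊆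
      Icc (m - b) (m + ρ - b) ∪ Icc (-(m + ρ) - b) (-m - b) := by
    intro t ht
    obtain ⟨h1, h2⟩ := abs_le.1 (show |(t + b) ^ 2 - k| ≤ δ from ht)
    have h3 : m ≤ |t + b| := by
      rw [hm, ← Real.sqrt_sq_eq_abs]
      exact Real.sqrt_le_sqrt (by linarith)
    have h4 : |t + b| ≤ m + ρ := by
      refine abs_le_of_sq_le_sq' ?_ (by linarith) |> fun h => abs_le.2 h
      nlinarith [mul_nonneg hm0 hρ0]
    rcases le_total 0 (t + b) with h | h
    · rw [abs_of_nonneg h] at h3 h4
      exact Or.inl ⟨by linarith, by linarith⟩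
    · rw [abs_of_nonpos h] at h3 h4
      exact Or.inr ⟨by linarith, by linarith⟩
  refine (measure_mono hsub).trans ((measure_union_le _ _).trans ?_)
  rw [Real.volume_Icc, Real.volume_Icc, ← ENNReal.ofReal_add (by linarith) (by linarith)]
  exact ENNReal.ofReal_le_ofReal (by linarith)

theorem Geo6_line {μ η : ℝ} (β γ : ℝ) (hμ : 1 / 4 ≤ |μ|) (hη : 0 < η) :
    volume {t : ℝ | |μ * t ^ 2 + β * t + γ| ≤ η} ≤ ENNReal.ofReal (6 * √η) := by
  have hμ0 : μ ≠ 0 := by
    rintro rfl
    norm_num at hμ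
  have hsub : {t : ℝ | |μ * t ^ 2 + β * t + γ| ≤ η} ⊆
      {t : ℝ | |(t + β / (2 * μ)) ^ 2 - (β ^ 2 / (4 * μ ^ 2) - γ / μ)| ≤ 4 * η} := by
    intro t ht
    have h1 : |μ * t ^ 2 + β * t + γ| ≤ η := ht
    have h2 : μ * t ^ 2 + β * t + γ =
        μ * ((t + β / (2 * μ)) ^ 2 - (β ^ 2 / (4 * μ ^ 2) - γ / μ)) := by
      field_simp
      ring
    rw [h2, abs_mul] at h1
    show |(t + β / (2 * μ)) ^ 2 - (β ^ 2 / (4 * μ ^ 2) - γ / μ)| ≤ 4 * η
    nlinarith [abs_nonneg ((t + β / (2 * μ)) ^ 2 - (β ^ 2 / (4 * μ ^ 2) - γ / μ))]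
  refine (measure_mono hsub).trans ((Geo6_sq _ _ (by linarith)).trans
    (ENNReal.ofReal_le_ofReal ?_))
  have h3 : √(2 * (4 * η)) ≤ 3 * √η := by
    rw [Real.sqrt_le_left (by positivity), mul_pow, Real.sq_sqrt hη.le]
    linarith
  linarith

theorem Geo6_dir {n e : R3} (hn : ‖n‖ = 1) (he : ‖e‖ = 1) (s : ℝ) :
    ∃ a : R3, ‖a‖ = 1 ∧ 1 / 4 ≤ |inner ℝ n a * inner ℝ e a - s| := by
  have key : ∀ e : R3, ‖e‖ = 1 → 0 ≤ inner ℝ n e →
      ∃ a : R3, ‖a‖ = 1 ∧ 1 / 2 ≤ inner ℝ n a * inner ℝ e a := by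
    intro e he hc
    have h1 : ‖n + e‖ ^ 2 = 2 + 2 * inner ℝ n e := by
      rw [norm_add_sq_real, hn, he]; ring
    have h2 : 0 < ‖n + e‖ := by
      by_contra h
      have : ‖n + e‖ = 0 := le_antisymm (not_lt.1 h) (norm_nonneg _)
      rw [this] at h1
      nlinarith
    refine ⟨dir (n + e), norm_dir (norm_pos_iff.1 h2), ?_⟩
    have h3 : inner ℝ n (n + e) = 1 + inner ℝ n e := by
      rw [inner_add_right, real_inner_self_eq_norm_sq, hn]; ring
    have h4 : inner ℝ e (n + e) = 1 + inner ℝ n e := by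
      rw [inner_add_right, real_inner_self_eq_norm_sq, he, real_inner_comm]; ring
    rw [dir, real_inner_smul_right, real_inner_smul_right, h3, h4]
    have h5 : ‖n + e‖⁻¹ * (1 + inner ℝ n e) * (‖n + e‖⁻¹ * (1 + inner ℝ n e)) =
        (1 + inner ℝ n e) ^ 2 / ‖n + e‖ ^ 2 := by
      field_simp
    rw [h5, h1, le_div_iff₀ (by linarith)]
    nlinarith
  by_cases hs : 1 / 4 ≤ |s|
  · obtain ⟨a, b, -, hb, -, -, hbn, -⟩ := exists_frame hn e
    refine ⟨b, hb, ?_⟩
    rw [real_inner_comm b n, hbn, zero_mul, zero_sub, abs_neg]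
    exact hs
  · obtain ⟨hs1, hs2⟩ := abs_lt.1 (not_le.1 hs)
    rcases le_total 0 (inner ℝ n e) with hc | hc
    · obtain ⟨a, ha, h⟩ := key e he hc
      exact ⟨a, ha, le_abs.2 (Or.inl (by linarith))⟩
    · obtain ⟨a, ha, h⟩ := key (-e) (by rwa [norm_neg]) (by rw [inner_neg_right]; linarith)
      rw [inner_neg_left] at h
      exact ⟨a, ha, le_abs.2 (Or.inr (by linarith))⟩

theorem Geo6_meas (n e : R3) (s η : ℝ) :
    MeasurableSet {x : R3 | ‖x‖ ≤ 1 ∧ |inner ℝ n x * inner ℝ e x - s * ‖x‖ ^ 2| ≤ η} := by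
  have h1 : IsClosed {x : R3 | ‖x‖ ≤ 1} := isClosed_le (by fun_prop) (by fun_prop)
  have h2 : IsClosed {x : R3 | |inner ℝ n x * inner ℝ e x - s * ‖x‖ ^ 2| ≤ η} :=
    isClosed_le (by fun_prop) (by fun_prop)
  exact (h1.inter h2).measurableSet

theorem Geo6_ball {n e : R3} (hn : ‖n‖ = 1) (he : ‖e‖ = 1) (s : ℝ) {η : ℝ} (hη : 0 < η) :
    volume {x : R3 | ‖x‖ ≤ 1 ∧ |inner ℝ n x * inner ℝ e x - s * ‖x‖ ^ 2| ≤ η} ≤
      ENNReal.ofReal (24 * √η) := by
  obtain ⟨a, ha, hμ⟩ := Geo6_dir hn he s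
  obtain ⟨b, c, hb, hc, hbc, hba, hca, -⟩ := exists_frame ha e
  set B := {x : R3 | ‖x‖ ≤ 1 ∧ |inner ℝ n x * inner ℝ e x - s * ‖x‖ ^ 2| ≤ η} with hB
  have hBm : MeasurableSet B := Geo6_meas n e s η
  have hg : Measurable (B.indicator (1 : R3 → ℝ≥0∞)) := measurable_one.indicator hBm
  rw [← lintegral_indicator_one hBm, lintegral_frame ha hb hc hbc hba hca hg,
    lintegral_lintegral_swap (f := fun (r : ℝ) (p : ℝ × ℝ) =>
      B.indicator (1 : R3 → ℝ≥0∞) (r • a + (p.1 • b + p.2 • c)))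
      (hg.comp (by fun_prop : Measurable fun q : ℝ × ℝ × ℝ =>
        q.1 • a + (q.2.1 • b + q.2.2 • c))).aemeasurable]
  have hpt : ∀ p : ℝ × ℝ, ∫⁻ r : ℝ, B.indicator (1 : R3 → ℝ≥0∞) (r • a + (p.1 • b + p.2 • c)) ≤
      (Icc (-1 : ℝ) 1 ×ˢ Icc (-1 : ℝ) 1).indicator (fun _ => ENNReal.ofReal (6 * √η)) p := by
    intro p
    by_cases hp : p ∈ Icc (-1 : ℝ) 1 ×ˢ Icc (-1 : ℝ) 1
    · rw [indicator_of_mem hp]
      generalize p.1 • b + p.2 • c = y
      refine le_trans ?_ (Geo6_line (inner ℝ n a * inner ℝ e y + inner ℝ n y * inner ℝ e a -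
        2 * s * inner ℝ a y) (inner ℝ n y * inner ℝ e y - s * ‖y‖ ^ 2) hμ hη)
      refine le_trans (lintegral_mono fun r => ?_) (lintegral_indicator_one_le _)
      by_cases hr : r • a + y ∈ B
      · rw [indicator_of_mem hr, indicator_of_mem]
        · rfl
        · have h2 := hr.2
          rw [norm_add_sq_real, inner_add_right, inner_add_right, real_inner_smul_right,
            real_inner_smul_right, real_inner_smul_left, norm_smul, ha, mul_one, Real.norm_eq_abs,
            sq_abs] at h2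
          show |_| ≤ η
          convert h2 using 2
          ring
      · rw [indicator_of_notMem hr]
        exact zero_le
    · rw [indicator_of_notMem hp]
      refine le_of_eq ((lintegral_congr fun r => ?_).trans lintegral_zero)
      refine indicator_of_notMem (fun hr => hp ?_) _
      have h1 : ‖r • a + (p.1 • b + p.2 • c)‖ ≤ 1 := hr.1
      have h2 := abs_real_inner_le_norm b (r • a + (p.1 • b + p.2 • c))
      have h3 := abs_real_inner_le_norm c (r • a + (p.1 • b + p.2 • c))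
      have hcb : inner ℝ c b = 0 := by rw [real_inner_comm, hbc]
      simp only [inner_add_right, real_inner_smul_right, hba, hca, hbc, hcb,
        real_inner_self_eq_norm_sq, hb, hc, mul_zero, zero_add, add_zero, one_pow, mul_one,
        one_mul] at h2 h3
      exact ⟨abs_le.1 (h2.trans h1), abs_le.1 (h3.trans h1)⟩
  refine (lintegral_mono hpt).trans ?_
  rw [lintegral_indicator_const (measurableSet_Icc.prod measurableSet_Icc), Measure.volume_eq_prod,
    Measure.prod_prod, Real.volume_Icc, ← ENNReal.ofReal_mul (by norm_num),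
    ← ENNReal.ofReal_mul (by positivity)]
  exact ENNReal.ofReal_le_ofReal (le_of_eq (by ring))

/-- Extend to the ball: for `x = r w`, `0 < r ≤ 1`, the quadratic form
`Q x = ⟪n,x⟫ ⟪e,x⟫ - s ‖x‖²` has `|Q x| ≤ η`.  With `c = ⟪n,e⟫` the vectors `n + e`, `n - e` (or any unit
vector orthogonal to `n` when `e = ±n`) are eigenvectors of the form; the eigenvalues `(c+1)/2 - s`,
`(c-1)/2 - s`, `-s` contain one of modulus `≥ 1/2`.  Along a unit eigenvector `a`,
`Q (y + t a) = μ t² + Q y` for `y ⊥ a`, and `{t | |μ t² + c| ≤ η}` has measure `≤ 4 √(2η/|μ|)`;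
integrate over the plane (`lintegral_split`, `pl`-bound of the unit ball by `4`). -/
theorem small_ball : ∃ Cb : ℝ, 1 ≤ Cb ∧ ∀ n e : R3, ‖n‖ = 1 → ‖e‖ = 1 → ∀ s η : ℝ, 0 < η →
    sphereMeasure {w | |inner ℝ n w * inner ℝ e w - s| ≤ η} ≤ ENNReal.ofReal (Cb * √η) := by
  refine ⟨192, by norm_num, fun n e hn he s η hη => ?_⟩
  set A := {w : R3 | |inner ℝ n w * inner ℝ e w - s| ≤ η} with hA
  have hAm : MeasurableSet A := (isClosed_le (by fun_prop) (by fun_prop)).measurableSet
  have hball := Geo6_ball hn he s hη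
  set B := {x : R3 | ‖x‖ ≤ 1 ∧ |inner ℝ n x * inner ℝ e x - s * ‖x‖ ^ 2| ≤ η} with hB
  have hBm : MeasurableSet B := Geo6_meas n e s η
  have hg : Measurable (B.indicator (1 : R3 → ℝ≥0∞)) := measurable_one.indicator hBm
  rw [← lintegral_indicator_one hBm, lintegral_polar hg] at hball
  have h1 : ∫⁻ w, A.indicator (fun _ => ENNReal.ofReal (1 / 8)) w ∂sphereMeasure ≤
      ∫⁻ w, (∫⁻ r in Ioi (0 : ℝ), ENNReal.ofReal (r ^ 2) * B.indicator 1 (r • w))
        ∂sphereMeasure := by
    refine lintegral_mono_ae ?_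
    filter_upwards [ae_norm_sphere] with w hw
    by_cases hwA : w ∈ A
    · rw [indicator_of_mem hwA]
      have hwA' : |inner ℝ n w * inner ℝ e w - s| ≤ η := hwA
      calc ENNReal.ofReal (1 / 8) = ∫⁻ r in Ioc (1 / 2 : ℝ) 1, ENNReal.ofReal (1 / 4) := by
            rw [setLIntegral_const, Real.volume_Ioc, ← ENNReal.ofReal_mul (by norm_num)]
            norm_num
        _ ≤ ∫⁻ r in Ioc (1 / 2 : ℝ) 1, ENNReal.ofReal (r ^ 2) * B.indicator 1 (r • w) := by
            refine setLIntegral_mono' measurableSet_Ioc fun r hr => ?_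
            have hr0 : 0 < r := by linarith [hr.1]
            have hnr : ‖r • w‖ = r := by rw [norm_smul, hw, mul_one, Real.norm_of_nonneg hr0.le]
            have hmem : r • w ∈ B := by
              refine ⟨by rw [hnr]; exact hr.2, ?_⟩
              rw [hnr, real_inner_smul_right, real_inner_smul_right]
              have : r * inner ℝ n w * (r * inner ℝ e w) - s * r ^ 2 =
                  r ^ 2 * (inner ℝ n w * inner ℝ e w - s) := by ring
              rw [this, abs_mul, abs_of_nonneg (sq_nonneg r)]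
              have hr2 : r ^ 2 ≤ 1 := by nlinarith [hr.2]
              nlinarith [abs_nonneg (inner ℝ n w * inner ℝ e w - s), sq_nonneg r]
            rw [indicator_of_mem hmem, Pi.one_apply, mul_one]
            exact ENNReal.ofReal_le_ofReal (by nlinarith [hr.1])
        _ ≤ _ := lintegral_mono_set fun r hr => lt_trans (by norm_num) hr.1
    · rw [indicator_of_notMem hwA]
      exact zero_le
  rw [lintegral_indicator_const hAm] at h1
  have h2 := h1.trans hball
  calc sphereMeasure A = ENNReal.ofReal 8 * (ENNReal.ofReal (1 / 8) * sphereMeasure A) := by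
        rw [← mul_assoc, ← ENNReal.ofReal_mul (by norm_num)]
        norm_num
    _ ≤ ENNReal.ofReal 8 * ENNReal.ofReal (24 * √η) := by gcongr
    _ = _ := by
        rw [← ENNReal.ofReal_mul (by norm_num)]
        congr 1
        ring

/-- The constant of `small_ball`. -/
def Cb : ℝ := Classical.choose small_ball

theorem one_le_Cb : 1 ≤ Cb := (Classical.choose_spec small_ball).1

theorem small_post (v u e : R3) (he : ‖e‖ = 1) (s : ℝ) {η : ℝ} (hη : 0 < η) :
    ∫⁻ w, cw v u w * {w | |inner ℝ (postVel v u w) e - s| ≤ η}.indicator 1 w ∂sphereMeasure ≤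
      ENNReal.ofReal (Cb * √(η * ‖v - u‖)) := by
  by_cases hvu : v - u = 0
  · simp [cw, hvu]
  have hρ : 0 < ‖v - u‖ := norm_pos_iff.2 hvu
  set ρ := ‖v - u‖ with hρd
  have hn : ‖dir (v - u)‖ = 1 := norm_dir hvu
  have hs := (Classical.choose_spec small_ball).2 (dir (v - u)) e hn he ((inner ℝ v e - s) / ρ)
    (η / ρ) (div_pos hη hρ)
  set A := {w : R3 | |inner ℝ (dir (v - u)) w * inner ℝ e w - (inner ℝ v e - s) / ρ| ≤ η / ρ}
    with hA
  calc _ ≤ ∫⁻ w, ENNReal.ofReal ρ * A.indicator 1 w ∂sphereMeasure := by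
        refine lintegral_mono_ae ?_
        filter_upwards [ae_norm_sphere] with w hw
        by_cases hw' : w ∈ {w | |inner ℝ (postVel v u w) e - s| ≤ η}
        · have hwA : w ∈ A := by
            have h1 : |inner ℝ (postVel v u w) e - s| ≤ η := hw'
            show |inner ℝ (dir (v - u)) w * inner ℝ e w - (inner ℝ v e - s) / ρ| ≤ η / ρ
            rw [postVel, inner_sub_left, real_inner_smul_left] at h1
            have h2 : inner ℝ (dir (v - u)) w * inner ℝ e w - (inner ℝ v e - s) / ρ =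
                -(inner ℝ v e - inner ℝ (v - u) w * inner ℝ w e - s) / ρ := by
              rw [dir, real_inner_smul_left, ← hρd, real_inner_comm w e]
              field_simp
              ring
            rw [h2, abs_div, abs_neg, abs_of_pos hρ]
            exact div_le_div_of_nonneg_right h1 hρ.le
          rw [indicator_of_mem hw', indicator_of_mem hwA]
          gcongr
          exact (cw_le hw v u).trans (le_of_eq (ofReal_norm _).symm)
        · rw [indicator_of_notMem hw', mul_zero]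
          exact zero_le
    _ = ENNReal.ofReal ρ * ∫⁻ w, A.indicator 1 w ∂sphereMeasure :=
        lintegral_const_mul' _ _ ENNReal.ofReal_ne_top
    _ ≤ ENNReal.ofReal ρ * ENNReal.ofReal (Cb * √(η / ρ)) := by
        gcongr
        exact (lintegral_indicator_one_le _).trans hs
    _ = _ := by
        rw [← ENNReal.ofReal_mul hρ.le]
        congr 1
        have h2 : η * ρ = ρ ^ 2 * (η / ρ) := by field_simp
        rw [h2, Real.sqrt_mul (sq_nonneg ρ), Real.sqrt_sq hρ.le]
        ring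

theorem small_postStar (v u e : R3) (he : ‖e‖ = 1) (s : ℝ) {η : ℝ} (hη : 0 < η) :
    ∫⁻ w, cw v u w * {w | |inner ℝ (postVelStar v u w) e - s| ≤ η}.indicator 1 w ∂sphereMeasure ≤
      ENNReal.ofReal (Cb * √(η * ‖v - u‖)) := by
  have := small_post u v e he s hη
  rw [norm_sub_rev] at this
  simpa only [cw_swap v u, postVel_swap v u] using this

end Crest.Agent.R68
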