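/-
R68/CDefs: the concrete objects of row 68 (cold gas, envelopes, weights, test function).
Author: helper76.  FROZEN (ask helper76 for changes).

The cold gas lives near the lines `x ∈ ℝ e1 + lat k`.  At time `0` and position `x` (near the
central line) its velocity is `± e1 + (c2 x / T) e2 + (c3 x / (L |c2 x|)) e3` up to `|c2 x| ^ 24`,
the sign alternates in logarithmic stripes and the density is `≈ C / ry x`.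
-/
import Crest.Agent.R68.ADefs
import Crest.Agent.R68.Geo5
import Crest.Agent.R68.Geo6
import Crest.Agent.R68.Adm

set_option autoImplicit false

noncomputable section

namespace Crest.Agent.R68

open MeasureTheory Set Filter Topology
open scoped ENNReal NNReal
open Crest.AnalysisR.VecCalc3 Crest.AnalysisR.PDE.Boltzmann

/-! ### Frame and lattice -/

def e1 : R3 := EuclideanSpace.single 0 1
def e2 : R3 := !₂[0, 1 / √3, √2 / √3]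
def e3 : R3 := !₂[0, -(√2 / √3), 1 / √3]
def c2 (x : R3) : ℝ := inner ℝ x e2
def c3 (x : R3) : ℝ := inner ℝ x e3
/-- distance to the central line -/
def ry (x : R3) : ℝ := √(x 1 ^ 2 + x 2 ^ 2)
def lat (k : ℤ × ℤ) : R3 := !₂[0, (k.1 : ℝ), (k.2 : ℝ)]
/-- distance to the nearest line -/
def dd (x : R3) : ℝ := ⨅ k : ℤ × ℤ, ry (x - lat k)
/-- sum over the two signs and over all lines -/
def perz (f : Bool → Fn) : Fn := fun t x v => ∑' i : Bool × ℤ × ℤ, f i.1 t (x - lat i.2) v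
/-- invariance along the lines -/
def Inv1 (f : Fn) : Prop := ∀ t x v (c : ℝ), f t (x + EuclideanSpace.single 0 c) v = f t x v
def sgn (b : Bool) : ℝ := if b then 1 else -1
def tau (ζ : ℝ) : ℝ := Real.smoothTransition ((1 - ζ ^ 2) * 4 / 3)
def ff (s : ℝ) : ℝ := max (s - 1 / 2) 0

/-! ### Universal constants -/

def nuM : ℝ≥0 := min 1 (Classical.choose ls_Mx_ge)
def nu : ℝ := nuM / 4
def N0 : ℝ≥0 := 204800 / nuM ^ 2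
def kap : ℝ := (cL / (2048 * Cb)) ^ 2
def bet : ℝ := kap / 12400
def fbar : ℝ := (∫ z in (0 : ℝ)..(2 * Real.pi), ff (Real.sin z)) / (2 * Real.pi)
def Kpl : ℝ≥0 := Classical.choose (adm_pl N0)
def Kb : ℝ≥0 := 3 ^ 70 * (Kpl + 1)
def Kgl : ℝ≥0 := 2 * Classical.choose (adm_gn N0) + Classical.choose (adm_ls N0) + 1
def Lv (V : ℝ) : ℝ := 4 * V / bet
def Cv (V : ℝ) : ℝ := 6 * V * 155 * 64 / (cL * fbar)
def Cwv (V : ℝ) : ℝ≥0 := 2 * (1 + N0) * ((2 ^ 25 * Lv V) ^ (5 / 4 : ℝ)).toNNReal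
def b0v (V : ℝ) : ℝ≥0 := Kb * (Cv V * Lv V).toNNReal
def b1v (V : ℝ) : ℝ≥0 := 2 * Cwv V * b0v V

/-- mass plus a singular moment -/
def Cm (E : Fn) : Fn := fun t x v => ∫⁻ u, E t x u * (1 + ‖v - u‖ₑ ^ (-(9 / 8) : ℝ))

/-! ### Parameters -/

structure CP where
  (V α T t₁ R₀ r₁ : ℝ)
  (G nb n₂ : ℕ)
  (Λ K e η x₀ : ℝ≥0)

namespace CP

variable (P : CP)

def L : ℝ := Lv P.V
def C : ℝ := Cv P.V
def Cw : ℝ≥0 := Cwv P.V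
def b₀ : ℝ≥0 := b0v P.V
def K₀ : ℝ := 4 * Real.exp (3 * P.R₀ ^ 2)
def t₀ (r : ℝ) : ℝ := r / (2 * P.V)

structure OK : Prop where
  V_ge : 16 ≤ P.V
  α_pos : 0 < P.α
  α_le : P.α ≤ 1 / 40
  T_pos : 0 < P.T
  T_le : 200 * P.L * P.T ≤ 1
  t₁_pos : 0 < P.t₁
  t₁_le : P.t₁ ≤ 1 / 100
  R₀_ge : 3 ≤ P.R₀
  r₁_pos : 0 < P.r₁
  r₁_le : P.r₁ ≤ 1 / 4
  G_ge : P.nb + 51 ≤ P.G
  nb_ge : 1 ≤ P.nb
  Λ_ge : 16 ≤ P.Λ

/-! ### The cold gas (`r` is the radius of its initial support in the direction `e2`) -/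

def lt (t : ℝ) (x : R3) : ℝ := c2 x * P.T / (t + P.T)
def el (t : ℝ) (x : R3) : ℝ := |P.lt t x|
def th (t : ℝ) (x : R3) : ℝ := P.el t x ^ 24
def ze (t : ℝ) (x : R3) : ℝ := c3 x / (t + P.L * P.el t x)
/-- the velocity field of the cold gas -/
def U (b : Bool) (t : ℝ) (x : R3) : R3 := sgn b • e1 + (c2 x / (t + P.T)) • e2 + P.ze t x • e3
def osc (b : Bool) (l : ℝ) : ℝ := sgn b * Real.sin (Real.log l / P.α)

open Classical in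
def Fc (r : ℝ) (b : Bool) (x v : R3) : ℝ≥0∞ :=
  if 0 < |c2 x| ∧ |c2 x| ≤ r ∧ |v 0 - sgn b| ≤ |c2 x| ^ 24 ∧ |c2 v - c2 x / P.T| ≤ |c2 x| ^ 24 ∧
      |c3 v - c3 x / (P.L * |c2 x|)| ≤ |c2 x| ^ 24 then
    ENNReal.ofReal (P.C / (8 * |c2 x| ^ 73) * ff (P.osc b |c2 x|) * tau (c3 v) /
      √(1 + P.L ^ 2 * c3 v ^ 2))
  else 0

def E0c (r : ℝ) (b : Bool) : Fn := fun t x v => P.Fc r b (x - t • v) v
def E0 (r : ℝ) : Fn := perz (P.E0c r)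

/-- the support of generation `g` -/
structure Wg (r : ℝ) (g : ℕ) (b : Bool) (t : ℝ) (x v : R3) : Prop where
  pos : 0 < P.el t x
  le : P.el t x ≤ r * (1 + (g + 1) / (P.G + 1))
  osc : 1 / 2 - (g + 1) / (4 * (P.G + 1)) ≤ P.osc b (P.el t x)
  v3 : |c3 v| ≤ 1 + (g + 1) / (2 * (P.G + 1))
  cc : ‖v - P.U b t x‖ ≤ (32 * P.L) ^ (g + 1) * P.th t x

open Classical in
def amp (r : ℝ) (g : ℕ) (b : Bool) : Fn := fun t x v =>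
  if P.Wg r g b t x v then ENNReal.ofReal (P.C * P.el t x ^ (2 * g) / P.el t x ^ 73) else 0

/-- the envelope of generation `g` -/
def Eg (r : ℝ) : ℕ → Bool → Fn
  | 0 => P.E0c r
  | g + 1 => P.amp r (g + 1)

def Ehi (r : ℝ) (b : Bool) : Fn := ∑ g ∈ Finset.range P.G, P.amp r (g + 1) b
def Ecc (r : ℝ) (b : Bool) : Fn := P.E0c r b + P.Ehi r b
def Ecal (r : ℝ) : Fn := perz (P.Ecc r)
def Psic (r : ℝ) (b : Bool) : Fn :=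
  ∑ g₁ ∈ Finset.range P.G, ∑ g₂ ∈ Finset.range (P.G - g₁), GN (P.Eg r g₁ b) (P.Eg r g₂ b)
def Psi (r : ℝ) : Fn := perz (P.Psic r)
def del (t : ℝ) : ℝ := min 1 (Real.exp (-nu * (t - P.t₁)))
def E1 (r : ℝ) : Fn := (P.Λ : ℝ≥0∞) • PI (tm P.del * P.Psi r) 0
def Dump (r : ℝ) : Fn := GN (P.Ecal r) (P.Ecal r) - P.Psi r
def sgc (b : Bool) : Fn := fun t x v => sg (P.U b t x) (P.th t x) v
def om : Fn := fun t x v =>
  1 + if 0 < t then ENNReal.ofReal √(P.del t) * perz P.sgc t x v else 0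
/-- the profile of the density -/
def rho0 (t : ℝ) (x : R3) : ℝ :=
  P.C * (P.T / (t + P.T)) / √((t / P.L + P.el t x) ^ 2 + c3 x ^ 2)
def chi (b : Bool) (t : ℝ) (x : R3) : ℝ := tau (P.ze t x) * ff (P.osc b (P.el t x))

/-! ### Weights, the ambient gas, the datum -/

def mm (t : ℝ) (x v : R3) : ℝ := max ‖v‖ (dd x / t)
def eW : Fn := fun t x v => ga (2 - t) v * ENNReal.ofReal (Real.exp (-mm t x v ^ 2))
def W : Fn := eW * P.om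
def Zf (t : ℝ) (x v : R3) : ℝ := dd x + 2 * t * (P.nb + ‖v‖)
def Th (t : ℝ) (x v : R3) : ℝ := min 1 ((P.Zf t x v / P.r₁) ^ P.nb)
def eH : Fn := fun t x v => ENNReal.ofReal (P.K₀ * P.Th t x v) * ga (3 - t) v
def H : Fn := P.eH * P.om
def Fa (x v : R3) : ℝ≥0∞ := if ‖v‖ < P.R₀ ∧ P.r₁ ≤ dd x then Mx v else 0
def F0 (r : ℝ) (x v : R3) : ℝ≥0∞ := P.E0 r 0 x v + P.Fa x v
def hole : Fn := fun t x v => if dd (x - t • v) < P.r₁ then 1 else 0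
def Sg (r : ℝ) : Fn := tm P.del * (P.E0 r + P.E1 r + vl Mx * P.hole)
def Ps (r : ℝ) : Fn := tm (fun t => P.del t ^ 2) * P.Psi r
def mw : Fn := vl (ga (1 / 4)) * P.om

def D1 (r : ℝ) : P1 where
  E0 := P.E0 r
  E1 := P.E1 r
  H := P.H
  W := P.W
  F0 := P.F0 r
  t₁ := P.t₁
  b₀ := P.b₀
  Cw := P.Cw
  K := P.K
  e := P.e
  η := P.η
  x₀ := P.x₀
  n₂ := P.n₂

def D2 (r : ℝ) (F₁ : Fn) (ε₂ : ℝ≥0) : P2 where
  Sg := P.Sg r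
  Ps := P.Ps r
  om := P.om
  F₁ := F₁
  ρ := fun t => ε₂ * nuM / 8 * (√(P.del t)).toNNReal
  t₁ := P.t₁
  ν := nuM
  N := N0
  Cw := P.Cw
  K := 2 + ε₂
  ε₂ := ε₂

/-- The numerical conditions for the initial layer. -/
structure Num : Prop where
  ok : P.OK
  K_ge : P.K₀ * Kgl ≤ P.K
  x₀_le : P.x₀ ≤ 1
  e_small : 100 * P.e * P.Cw * (2 + b1v P.V) ^ 2 ≤ 1
  η_small : 100 * P.η * (2 + b1v P.V) ^ 2 ≤ 1
  η_pos : 0 < P.η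
  n₂_ge : 20 * b1v P.V + 2 ≤ P.n₂
  depl : (1 + 8 * P.K : ℝ) * P.t₁ ≤ P.e
  RW : ∀ (v : R3) (t : ℝ), t ≤ P.t₁ →
    (6 * P.K * P.Cw : ℝ≥0∞) * ∫⁻ s in Ioc 0 t, br v * ga (t - s) v ≤ P.η
  Λ_ge : 1 ≤ P.Λ * P.η
  nb_ge : P.b₀ * P.Cw ≤ P.η * P.nb
  T_le : (P.b₀ * P.Cw : ℝ) * P.T * P.nb ^ 2 ≤ P.η * P.r₁ ^ 2

/-- The numerical conditions for the global part. -/
structure Num2 (ε₂ : ℝ≥0) : Prop where
  pos : 0 < ε₂
  le : ε₂ ≤ 1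
  R₀_ge : Real.exp (-P.R₀ ^ 2 / 4) ≤ ε₂
  η_le : 8 * P.η * P.K₀ ≤ ε₂
  x₀_le : 2 * P.x₀ * (b1v P.V + 1) ≤ ε₂
  t₁_le : 2 * (1 + 2 * P.K) * (1 + P.R₀) * P.t₁ ≤ ε₂
  T_le : (P.b₀ * N0 : ℝ) * P.T ≤ ε₂ * nuM * P.t₁ ^ 2
  T_le' : (P.b₀ : ℝ) * P.T * P.R₀ ^ 2 ≤ ε₂ * P.r₁

/-! ### The test function -/

/-- the stripe whose velocity is opposite to `v` -/
def opp (v : R3) : Bool := decide (v 0 < 0)
def qf (b : Bool) (z : ℝ) : ℝ :=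
  cL / 64 * ff (-(sgn b * Real.sin z)) - cL / 32 * ff (sgn b * Real.sin z)
def Qt (b : Bool) (z : ℝ) : ℝ := ∫ z' in (0 : ℝ)..z, (qf b z' + cL * fbar / 64)
def Jv (t : ℝ) (x v : R3) : ℝ := c2 v * (t + P.T) - c2 x
def Bf (t : ℝ) (x v : R3) : ℝ :=
  P.α * P.rho0 t x * tau (P.ze t x) * P.lt t x * (t + P.T) ^ 2 / (P.Jv t x v * P.T)
def sg2 (v : R3) : ℝ := if 0 ≤ c2 v then 1 else -1
def pp (t : ℝ) (x v : R3) : ℝ :=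
  1 / 40 - P.Bf t x v * Qt (opp v) (Real.log (P.el t x) / P.α) +
    310 / kap * max 0 (min (bet - sg2 v * c2 x / t) (2 * bet))
def phi (t : ℝ) (x v : R3) : ℝ :=
  if kap ≤ |c2 v| ∧ ‖v‖ ≤ P.V ∧ ry x ≤ P.V * t then
    (1 - ‖v‖ ^ 2 / P.V ^ 2) * Real.exp (-P.pp t x v) else 0
/-- the weighted number of hot particles -/
def Nf (t : ℝ) (f : R3 × R3 → ℝ≥0∞) : ℝ≥0∞ :=
  ∫⁻ x in slab, ∫⁻ v, f (x, v) * ENNReal.ofReal (P.phi t x v)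
/-- the good and the bad collision rates -/
def rtG (t : ℝ) (x v : R3) : ℝ := P.rho0 t x * (cL / 32 * P.chi (opp v) t x)
def rtB (t : ℝ) (x v : R3) : ℝ := P.rho0 t x * (cL / 64 * P.chi (!opp v) t x)

end CP

/-- the source that ignites the chain reaction at time `s₀` -/
def src (s₀ : ℝ) : Fn := fun t x v =>
  if s₀ ≤ t ∧ t ≤ 2 * s₀ ∧ dd x ≤ s₀ ∧ ‖v - e2‖ ≤ 1 / 2 then 1 else 0

/-! ### The sets of the Harnack argument -/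

structure HQ where
  (A κ₁ εc ε₃ ζ₃ : ℝ)

structure HQ.OK (Q : HQ) : Prop where
  A_ge : 1 ≤ Q.A
  κ₁_pos : 0 < Q.κ₁
  κ₁_le : Q.κ₁ ≤ 1 / 2
  εc_pos : 0 < Q.εc
  ε₃_pos : 0 < Q.ε₃
  ζ₃_ge : 1 / 2 ≤ Q.ζ₃
  ζ₃_lt : Q.ζ₃ < 1

namespace CP

variable (P : CP) (Q : HQ)

/-- places with a substantial amount of cold gas -/
def GC (ε₃ ζ₃ t : ℝ) (x : R3) : Prop := ∃ b, |P.ze t x| ≤ ζ₃ ∧ ε₃ ≤ ff (P.osc b (P.el t x))
/-- good incoming velocities -/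
def gd (ρ : ℝ) (v : R3) : Set R3 := {z | ‖z‖ ≤ 2 * ρ * P.V ∧ Q.κ₁ ≤ |c2 z| ∧ Q.κ₁ ≤ ‖z - v‖}
/-- good collision times -/
def gt (ρ εc t : ℝ) (x v : R3) : Set ℝ :=
  {s | t / Q.A ≤ s ∧ s ≤ (1 - Q.κ₁) * t ∧ ry (x - (t - s) • v) ≤ 2 * ρ * P.V * s ∧
    P.GC Q.ε₃ Q.ζ₃ s (x - (t - s) • v) ∧ εc * s ≤ P.el s (x - (t - s) • v)}
def mainT (r ρ εc : ℝ) (h : Fn) : Fn := fun t x v =>
  ∫⁻ s in P.gt Q ρ εc t x v, 2 * gn (P.E0 r s (x - (t - s) • v))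
    ((P.gd Q ρ v).indicator (h s (x - (t - s) • v))) v
/-- the particles that are counted at the end -/
def setC (s : ℝ) : Set (R3 × R3) :=
  {p | ry p.1 ≤ P.V * s / 2 ∧ P.GC Q.ε₃ Q.ζ₃ s p.1 ∧ ‖p.2‖ ≤ P.V / 2 ∧ Q.κ₁ ≤ |c2 p.2|}
def massC (F : Fn) (t : ℝ) : ℝ≥0∞ :=
  ∫⁻ s in Icc (t / Q.A ^ 2) t, ∫⁻ y in slab, ∫⁻ w, (P.setC Q s).indicator (unc F s) (y, w)
def setG (κ₄ ζ₄ t : ℝ) : Set (R3 × R3) :=
  {p | ry p.1 ≤ 3 * P.V * t / 4 ∧ ‖p.2‖ ≤ 3 * P.V / 4 ∧ κ₄ ≤ |c2 p.2| ∧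
    |c3 p.2| ≤ ζ₄ + |c2 p.2| / kap}
def massG (κ₄ ζ₄ : ℝ) (F : Fn) (t : ℝ) : ℝ≥0∞ :=
  ∫⁻ y in slab, ∫⁻ w, (P.setG κ₄ ζ₄ t).indicator (unc F t) (y, w)

end CP

end Crest.Agent.R68
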