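/-
R68/Duh1: the exponential ex and the scalar Duhamel formula
Skeleton by helper76 (row 68); keep the statements unchanged, add any helper lemmas you like.
-/
import Crest.Agent.R68.Defs

set_option autoImplicit false
set_option linter.unusedVariables false
set_option linter.unusedSectionVars false

noncomputable section

namespace Crest.Agent.R68

open MeasureTheory Set Filter Topology
open scoped ENNReal NNReal
open Crest.AnalysisR.VecCalc3 Crest.AnalysisR.PDE.Boltzmann

theorem ex_zero : ex 0 = 1 := by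
  simp [ex]

theorem ex_top : ex ⊤ = 0 := by
  simp [ex]

theorem ex_add (a b : ℝ≥0∞) : ex (a + b) = ex a * ex b := by
  unfold ex
  rw [← EReal.exp_add, EReal.coe_ennreal_add, EReal.neg_add (by simp) (by simp), sub_eq_add_neg]

theorem ex_anti : Antitone ex := by
  intro a b h
  unfold ex
  exact EReal.exp_monotone (EReal.neg_le_neg_iff.2 (EReal.coe_ennreal_le_coe_ennreal_iff.2 h))

theorem ex_le_one (a : ℝ≥0∞) : ex a ≤ 1 := by
  rw [← ex_zero]; exact ex_anti bot_le

theorem measurable_ex : Measurable ex := by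
  exact ex_anti.measurable

theorem continuous_ex : Continuous ex := by
  exact ENNReal.continuous_exp.comp (continuous_neg.comp continuous_coe_ennreal_ereal)

theorem ex_ofReal {a : ℝ} (h : 0 ≤ a) : ex (ENNReal.ofReal a) = ENNReal.ofReal (Real.exp (-a)) := by
  unfold ex
  rw [EReal.coe_ennreal_ofReal, max_eq_left h, ← EReal.coe_neg, EReal.exp_coe]

theorem ex_eq {a : ℝ≥0∞} (h : a ≠ ⊤) : ex a = ENNReal.ofReal (Real.exp (-a.toReal)) := by
  conv_lhs => rw [← ENNReal.ofReal_toReal h]
  exact ex_ofReal ENNReal.toReal_nonneg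

theorem one_le_ex_add (a : ℝ≥0∞) : 1 ≤ ex a + a := by
  by_cases h : a = ⊤
  · simp [h]
  · rw [ex_eq h]
    conv_rhs => arg 2; rw [← ENNReal.ofReal_toReal h]
    rw [← ENNReal.ofReal_add (Real.exp_pos _).le ENNReal.toReal_nonneg, ← ENNReal.ofReal_one]
    apply ENNReal.ofReal_le_ofReal
    have := Real.add_one_le_exp (-a.toReal)
    linarith

variable {a b q q' : ℝ → ℝ≥0∞} {u₀ u₀' : ℝ≥0∞} {r s t : ℝ}

theorem measurable_lintegral_Ioc_left (ha : Measurable a) (t : ℝ) :
    Measurable fun s => ∫⁻ s' in Ioc s t, a s' := by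
  refine Antitone.measurable fun s₁ s₂ h => ?_
  exact lintegral_mono_set (Ioc_subset_Ioc_left h)

theorem measurable_lintegral_Ioc_right (ha : Measurable a) (r : ℝ) :
    Measurable fun s => ∫⁻ s' in Ioc r s, a s' := by
  refine Monotone.measurable fun s₁ s₂ h => ?_
  exact lintegral_mono_set (Ioc_subset_Ioc_right h)

theorem Duh1_meas2 (ha : Measurable a) :
    Measurable fun p : ℝ × ℝ => ∫⁻ s' in Ioc p.1 p.2, a s' := by
  have h1 : Measurable fun z : (ℝ × ℝ) × ℝ =>
      {z : (ℝ × ℝ) × ℝ | z.1.1 < z.2 ∧ z.2 ≤ z.1.2}.indicator (fun z => a z.2) z := by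
    refine Measurable.indicator (ha.comp measurable_snd) ?_
    exact (measurableSet_lt (measurable_fst.comp measurable_fst) measurable_snd).inter
      (measurableSet_le measurable_snd (measurable_snd.comp measurable_fst))
  have h2 := h1.lintegral_prod_right' (ν := volume)
  convert h2 using 2 with p
  rw [← lintegral_indicator measurableSet_Ioc]
  rfl

theorem measurable_duh (ha : Measurable a) (hq : Measurable q) (u₀ : ℝ≥0∞) (r : ℝ) :
    Measurable fun t => duh u₀ a q r t := by
  unfold duh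
  refine ((measurable_ex.comp (measurable_lintegral_Ioc_right ha r)).const_mul u₀).add ?_
  have h1 : Measurable fun p : ℝ × ℝ =>
      {p : ℝ × ℝ | r < p.2 ∧ p.2 ≤ p.1}.indicator
        (fun p => ex (∫⁻ s' in Ioc p.2 p.1, a s') * q p.2) p := by
    refine Measurable.indicator ?_ ?_
    · exact (measurable_ex.comp ((Duh1_meas2 ha).comp measurable_swap)).mul
        (hq.comp measurable_snd)
    · exact (measurableSet_lt measurable_const measurable_snd).inter
        (measurableSet_le measurable_snd measurable_fst)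
  have h2 := h1.lintegral_prod_right' (ν := volume)
  convert h2 using 2 with t
  rw [← lintegral_indicator measurableSet_Ioc]
  rfl

theorem Duh1_ac_comp {G Φ : ℝ → ℝ} {r t : ℝ} {S : Set ℝ} {K : ℝ≥0}
    (hG : AbsolutelyContinuousOnInterval G r t) (hΦ : LipschitzOnWith K Φ S)
    (hS : ∀ x ∈ uIcc r t, G x ∈ S) : AbsolutelyContinuousOnInterval (fun x => Φ (G x)) r t := by
  unfold AbsolutelyContinuousOnInterval at hG ⊢
  apply squeeze_zero' ?_ ?_ (by simpa using hG.const_mul (K : ℝ))
  · exact Filter.Eventually.of_forall fun _ => Finset.sum_nonneg fun i hi => dist_nonneg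
  rw [eventually_inf_principal]
  filter_upwards with E hE
  rw [Finset.mul_sum]
  refine Finset.sum_le_sum fun i hi => ?_
  exact hΦ.dist_le_mul _ (hS _ (hE.1 i hi).1) _ (hS _ (hE.1 i hi).2)

theorem Duh1_chain {f Φ Φ' : ℝ → ℝ} {r t : ℝ} (hf : IntervalIntegrable f volume r t)
    (hΦ : ∀ y, HasDerivAt Φ (Φ' y) y) (hΦ1 : ContDiff ℝ 1 Φ) :
    ∫ s in r..t, Φ' (∫ x in r..s, f x) * f s = Φ (∫ x in r..t, f x) - Φ 0 := by
  have hG := hf.absolutelyContinuousOnInterval_intervalIntegral (c := r) (by simp)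
  obtain ⟨C, hC⟩ := hG.exists_bound
  obtain ⟨K, hK⟩ := (hΦ1.contDiffOn (s := Icc (-C) C)).exists_lipschitzOnWith (by decide)
    (convex_Icc _ _) isCompact_Icc
  have hac := Duh1_ac_comp hG hK fun x hx => by
    have := hC x hx
    rw [Real.norm_eq_abs] at this
    exact abs_le.1 this
  have h := hac.integral_deriv_eq_sub
  simp only [intervalIntegral.integral_same] at h
  rw [← h]
  apply intervalIntegral.integral_congr_ae
  filter_upwards [hf.ae_hasDerivAt_integral] with x hx hx'
  have h1 := (hΦ _).comp x (hx (uIoc_subset_uIcc hx') r (by simp))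
  exact h1.deriv.symm

theorem Duh1_split (a : ℝ → ℝ≥0∞) (hrs : r ≤ s) (hst : s ≤ t) :
    ∫⁻ x in Ioc r t, a x = (∫⁻ x in Ioc r s, a x) + ∫⁻ x in Ioc s t, a x := by
  rw [← Ioc_union_Ioc_eq_Ioc hrs hst, lintegral_union measurableSet_Ioc]
  exact Ioc_disjoint_Ioc_of_le le_rfl

theorem Duh1_toReal (ha : Measurable a) (h : ∫⁻ s in Ioc r t, a s ≠ ⊤) (hrt : r ≤ t) :
    ∫ x in r..t, (a x).toReal = (∫⁻ x in Ioc r t, a x).toReal := by
  rw [intervalIntegral.integral_of_le hrt]
  exact integral_toReal ha.aemeasurable (ae_lt_top ha h)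

theorem Duh1_ii (ha : Measurable a) (h : ∫⁻ s in Ioc r t, a s ≠ ⊤) (hrt : r ≤ t) :
    IntervalIntegrable (fun x => (a x).toReal) volume r t := by
  rw [intervalIntegrable_iff_integrableOn_Ioc_of_le hrt]
  exact integrable_toReal_of_lintegral_ne_top ha.aemeasurable h

/-- Common core of the two exponential identities. -/
theorem Duh1_core (ha : Measurable a) (h : ∫⁻ s in Ioc r t, a s ≠ ⊤) (hrt : r ≤ t)
    {Φ Φ' : ℝ → ℝ} (hΦ : ∀ y, HasDerivAt Φ (Φ' y) y) (hΦ1 : ContDiff ℝ 1 Φ)
    (hΦ' : Continuous Φ') (hpos : ∀ y, 0 ≤ Φ' y) {e : ℝ → ℝ≥0∞}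
    (he : ∀ s ∈ Ioc r t, e s = ENNReal.ofReal (Φ' (∫⁻ x in Ioc r s, a x).toReal)) :
    ∫⁻ s in Ioc r t, e s * a s =
      ENNReal.ofReal (Φ (∫⁻ x in Ioc r t, a x).toReal - Φ 0) := by
  have hii := Duh1_ii ha h hrt
  have hc := Duh1_chain hii hΦ hΦ1
  rw [Duh1_toReal ha h hrt] at hc
  have hG := (hii.absolutelyContinuousOnInterval_intervalIntegral (c := r) (by simp)).continuousOn
  have hi2 : IntervalIntegrable
      (fun s => Φ' (∫ x in r..s, (a x).toReal) * (a s).toReal) volume r t :=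
    hii.continuousOn_mul (hΦ'.comp_continuousOn hG)
  rw [intervalIntegrable_iff_integrableOn_Ioc_of_le hrt] at hi2
  rw [← hc, intervalIntegral.integral_of_le hrt, ofReal_integral_eq_lintegral_ofReal hi2
    (Eventually.of_forall fun s => mul_nonneg (hpos _) ENNReal.toReal_nonneg)]
  apply lintegral_congr_ae
  filter_upwards [ae_lt_top ha h, ae_restrict_mem measurableSet_Ioc] with s hs hs'
  have h' : ∫⁻ x in Ioc r s, a x ≠ ⊤ :=
    ne_top_of_le_ne_top h (lintegral_mono_set (Ioc_subset_Ioc_right hs'.2))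
  rw [he s hs', ENNReal.ofReal_mul (hpos _), ENNReal.ofReal_toReal hs.ne,
    Duh1_toReal ha h' hs'.1.le]

theorem Duh1_fin {M : ℝ≥0∞} (h : M ≠ ⊤) :
    ENNReal.ofReal (1 - Real.exp (-M.toReal)) + ex M = 1 := by
  rw [ex_eq h, ← ENNReal.ofReal_add _ (Real.exp_pos _).le]
  · simp
  · have : Real.exp (-M.toReal) ≤ 1 := Real.exp_le_one_iff.2 (by simp)
    linarith

/-- Layer cake: `ex y = ∫_y^∞ e^{-λ} dλ`, and for the continuous monotone primitive `A` the mass
of `{s | A s ≤ λ}` for the measure `a ds` is `min λ (A t)`.  (Or use the chain rule of `Duh2`,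
proved independently.) -/
theorem lintegral_mul_ex_fwd (ha : Measurable a) (h : ∫⁻ s in Ioc r t, a s ≠ ⊤) :
    (∫⁻ s in Ioc r t, a s * ex (∫⁻ s' in Ioc r s, a s')) + ex (∫⁻ s in Ioc r t, a s) = 1 := by
  rcases le_or_gt r t with hrt | hrt
  swap
  · simp [Ioc_eq_empty_of_le hrt.le, ex_zero]
  have hc := Duh1_core ha h hrt (Φ := fun y => -Real.exp (-y)) (Φ' := fun y => Real.exp (-y))
    (fun y => by
      have := ((hasDerivAt_neg y).exp).fun_neg
      simpa using this)
    (by fun_prop) (by fun_prop) (fun y => (Real.exp_pos _).le)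
    (e := fun s => ex (∫⁻ s' in Ioc r s, a s')) (fun s hs =>
      ex_eq (ne_top_of_le_ne_top h (lintegral_mono_set (Ioc_subset_Ioc_right hs.2))))
  simp_rw [mul_comm (a _)]
  rw [hc, ← Duh1_fin h]
  congr 2
  simp only [neg_zero, Real.exp_zero]
  ring

theorem lintegral_mul_ex_bwd (ha : Measurable a) (h : ∫⁻ s in Ioc r t, a s ≠ ⊤) :
    (∫⁻ s in Ioc r t, ex (∫⁻ s' in Ioc s t, a s') * a s) + ex (∫⁻ s in Ioc r t, a s) = 1 := by
  rcases le_or_gt r t with hrt | hrt
  swap
  · simp [Ioc_eq_empty_of_le hrt.le, ex_zero]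
  set M := (∫⁻ s in Ioc r t, a s).toReal with hM
  have hc := Duh1_core ha h hrt (Φ := fun y => Real.exp (y - M)) (Φ' := fun y => Real.exp (y - M))
    (fun y => by
      have := ((hasDerivAt_id y).sub_const M).exp
      simpa using this)
    (by fun_prop) (by fun_prop) (fun y => (Real.exp_pos _).le)
    (e := fun s => ex (∫⁻ s' in Ioc s t, a s')) (fun s hs => by
      have h1 : ∫⁻ x in Ioc r s, a x ≠ ⊤ :=
        ne_top_of_le_ne_top h (lintegral_mono_set (Ioc_subset_Ioc_right hs.2))
      have h2 : ∫⁻ x in Ioc s t, a x ≠ ⊤ :=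
        ne_top_of_le_ne_top h (lintegral_mono_set (Ioc_subset_Ioc_left hs.1.le))
      rw [ex_eq h2, hM, Duh1_split a hs.1.le hs.2, ENNReal.toReal_add h1 h2]
      congr 2
      ring)
  rw [hc, ← Duh1_fin h, ← hM]
  congr 2
  simp

/-- No finiteness is needed here (truncate `a`, Fatou / monotone convergence). -/
theorem lintegral_ex_mul_le_one (ha : Measurable a) (r t : ℝ) :
    ∫⁻ s in Ioc r t, ex (∫⁻ s' in Ioc s t, a s') * a s ≤ 1 := by
  have hmn : ∀ n : ℕ, Measurable fun s => min (a s) n := fun n => ha.min measurable_const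
  have hb : ∀ n : ℕ, ∫⁻ s in Ioc r t, ex (∫⁻ s' in Ioc s t, a s') * min (a s) n ≤ 1 := by
    intro n
    have hfin : ∫⁻ s in Ioc r t, min (a s) n ≠ ⊤ := by
      refine ne_top_of_le_ne_top ?_ (lintegral_mono fun s => min_le_right (a s) n)
      rw [setLIntegral_const, Real.volume_Ioc]
      exact ENNReal.mul_ne_top (ENNReal.natCast_ne_top n) ENNReal.ofReal_ne_top
    rw [← lintegral_mul_ex_bwd (hmn n) hfin]
    refine le_trans (lintegral_mono fun s => ?_) le_self_add
    exact mul_le_mul_left (ex_anti (lintegral_mono fun s' => min_le_left _ _)) _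
  have hsup : ∀ s, ex (∫⁻ s' in Ioc s t, a s') * a s =
      ⨆ n : ℕ, ex (∫⁻ s' in Ioc s t, a s') * min (a s) n := by
    intro s
    rw [← ENNReal.mul_iSup]
    congr 1
    rw [← inf_iSup_eq, ENNReal.iSup_natCast]
    simp
  simp_rw [hsup]
  rw [lintegral_iSup]
  · exact iSup_le hb
  · exact fun n => (measurable_ex.comp (measurable_lintegral_Ioc_left ha t)).mul (hmn n)
  · intro m n hmn' s
    exact mul_le_mul_right (min_le_min_left _ (Nat.cast_le.2 hmn')) _

theorem duh_self (u₀ : ℝ≥0∞) (a q : ℝ → ℝ≥0∞) (r : ℝ) : duh u₀ a q r r = u₀ := by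
  simp [duh, ex_zero]

theorem duh_le (u₀ : ℝ≥0∞) (a q : ℝ → ℝ≥0∞) (r t : ℝ) :
    duh u₀ a q r t ≤ u₀ + ∫⁻ s in Ioc r t, q s := by
  unfold duh
  refine add_le_add ?_ (lintegral_mono fun s => ?_)
  · exact mul_le_of_le_one_right' (ex_le_one _)
  · exact mul_le_of_le_one_left' (ex_le_one _)

theorem duh_mono (h₀ : u₀ ≤ u₀') (ha : ∀ s ∈ Ioc r t, b s ≤ a s) (hq : ∀ s ∈ Ioc r t, q s ≤ q' s) :
    duh u₀ a q r t ≤ duh u₀' b q' r t := by
  unfold duh
  refine add_le_add (mul_le_mul' h₀ (ex_anti (setLIntegral_mono' measurableSet_Ioc ha))) ?_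
  refine setLIntegral_mono' measurableSet_Ioc fun s hs => mul_le_mul' (ex_anti ?_) (hq s hs)
  exact setLIntegral_mono' measurableSet_Ioc fun x hx => ha x ⟨hs.1.trans hx.1, hx.2⟩

theorem duh_congr (ha : ∀ s ∈ Ioc r t, a s = b s) (hq : ∀ s ∈ Ioc r t, q s = q' s) :
    duh u₀ a q r t = duh u₀ b q' r t := by
  exact le_antisymm (duh_mono le_rfl (fun s hs => (ha s hs).ge) fun s hs => (hq s hs).le)
    (duh_mono le_rfl (fun s hs => (ha s hs).le) fun s hs => (hq s hs).ge)

theorem duh_trans (ha : Measurable a) (hq : Measurable q) (hrs : r ≤ s) (hst : s ≤ t) :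
    duh u₀ a q r t = duh (duh u₀ a q r s) a q s t := by
  unfold duh
  rw [Duh1_split a hrs hst, Duh1_split (fun x => ex (∫⁻ s' in Ioc x t, a s') * q x) hrs hst,
    ex_add, add_mul, mul_assoc, add_assoc, ← lintegral_mul_const]
  · congr 2
    refine setLIntegral_congr_fun measurableSet_Ioc fun x hx => ?_
    rw [Duh1_split a hx.2 hst, ex_add]
    ring
  · exact (measurable_ex.comp (measurable_lintegral_Ioc_left ha s)).mul hq

/-- The integrated form of the equation (Tonelli and `lintegral_mul_ex_fwd`). -/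
theorem duh_plain (ha : Measurable a) (hq : Measurable q) (hrt : r ≤ t)
    (hloc : ∀ s ∈ Ioc r t, ∫⁻ s' in Ioc s t, a s' ≠ ⊤)
    (h0 : (∫⁻ s in Ioc r t, a s ≠ ⊤) ∨ u₀ = 0) :
    duh u₀ a q r t + ∫⁻ s in Ioc r t, duh u₀ a q r s * a s = u₀ + ∫⁻ s in Ioc r t, q s := by
  have hm1 : Measurable fun s => ex (∫⁻ s' in Ioc r s, a s') :=
    measurable_ex.comp (measurable_lintegral_Ioc_right ha r)
  have hm2 : Measurable fun s => ex (∫⁻ s' in Ioc s t, a s') :=
    measurable_ex.comp (measurable_lintegral_Ioc_left ha t)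
  have hm3 : Measurable fun s => a s * ex (∫⁻ s' in Ioc r s, a s') := ha.mul hm1
  have hm4 : Measurable fun s => ex (∫⁻ s' in Ioc s t, a s') * q s := hm2.mul hq
  -- the kernel of the double integral
  let F : ℝ → ℝ → ℝ≥0∞ := fun s x =>
    {p : ℝ × ℝ | p.2 ≤ p.1}.indicator
      (fun p => q p.2 * (a p.1 * ex (∫⁻ s' in Ioc p.2 p.1, a s'))) (s, x)
  have hF : Measurable (Function.uncurry F) := by
    refine Measurable.indicator ?_ (measurableSet_le measurable_snd measurable_fst)
    exact (hq.comp measurable_snd).mul ((ha.comp measurable_fst).mul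
      (measurable_ex.comp ((Duh1_meas2 ha).comp measurable_swap)))
  have h1 : ∀ s ∈ Ioc r t, duh u₀ a q r s * a s =
      u₀ * (a s * ex (∫⁻ s' in Ioc r s, a s')) + ∫⁻ x in Ioc r t, F s x := by
    intro s hs
    unfold duh
    have hm : Measurable fun x => ex (∫⁻ s' in Ioc x s, a s') * q x :=
      (measurable_ex.comp (measurable_lintegral_Ioc_left ha s)).mul hq
    rw [add_mul, ← lintegral_mul_const _ hm]
    congr 1
    · ring
    · have : ∀ x, F s x =
          (Iic s).indicator (fun x => ex (∫⁻ s' in Ioc x s, a s') * q x * a s) x := by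
        intro x
        by_cases hx : x ≤ s
        · simp only [F, indicator, mem_ofPred_eq, mem_Iic, hx, if_true]; ring
        · simp only [F, indicator, mem_ofPred_eq, mem_Iic, hx, if_false]
      simp_rw [this]
      rw [lintegral_indicator measurableSet_Iic, Measure.restrict_restrict measurableSet_Iic]
      congr 2
      ext x
      simp only [mem_Ioc, mem_inter_iff, mem_Iic]
      exact ⟨fun h => ⟨h.2, h.1, h.2.trans hs.2⟩, fun h => ⟨h.2.1, h.1⟩⟩
  have h2 : ∀ x ∈ Ioc r t,
      ex (∫⁻ s' in Ioc x t, a s') * q x + ∫⁻ s in Ioc r t, F s x = q x := by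
    intro x hx
    have : ∀ s, F s x =
        (Ici x).indicator (fun s => q x * (a s * ex (∫⁻ s' in Ioc x s, a s'))) s := by
      intro s
      by_cases hs : x ≤ s
      · simp only [F, indicator, mem_ofPred_eq, mem_Ici, hs, if_true]
      · simp only [F, indicator, mem_ofPred_eq, mem_Ici, hs, if_false]
    simp_rw [this]
    have hset : Ici x ∩ Ioc r t = Icc x t := by
      ext s
      simp only [mem_Ioc, mem_inter_iff, mem_Ici, mem_Icc]
      exact ⟨fun h => ⟨h.1, h.2.2⟩, fun h => ⟨h.1, hx.1.trans_le h.1, h.2⟩⟩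
    have hm : Measurable fun s => a s * ex (∫⁻ s' in Ioc x s, a s') :=
      ha.mul (measurable_ex.comp (measurable_lintegral_Ioc_right ha x))
    rw [lintegral_indicator measurableSet_Ici, Measure.restrict_restrict measurableSet_Ici, hset,
      ← Measure.restrict_congr_set Ioc_ae_eq_Icc, lintegral_const_mul _ hm,
      mul_comm _ (q x), ← mul_add, add_comm, lintegral_mul_ex_fwd ha (hloc x hx), mul_one]
  have h3 : u₀ * ex (∫⁻ s in Ioc r t, a s) +
      ∫⁻ s in Ioc r t, u₀ * (a s * ex (∫⁻ s' in Ioc r s, a s')) = u₀ := by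
    rcases h0 with h0 | h0
    · rw [lintegral_const_mul _ hm3, ← mul_add, add_comm, lintegral_mul_ex_fwd ha h0,
        mul_one]
    · simp [h0]
  rw [setLIntegral_congr_fun measurableSet_Ioc h1,
    lintegral_add_left (hm3.const_mul u₀), lintegral_lintegral_swap hF.aemeasurable,
    ← setLIntegral_congr_fun measurableSet_Ioc h2, lintegral_add_left hm4]
  conv_rhs => rw [← h3]
  unfold duh
  ring

theorem duh_const (ha : Measurable a) (h : ∫⁻ s in Ioc r t, a s ≠ ⊤) (hrt : r ≤ t) (c : ℝ≥0∞) :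
    duh c a (fun s => c * a s) r t = c := by
  unfold duh
  have : ∀ s, ex (∫⁻ s' in Ioc s t, a s') * (c * a s) = c * (ex (∫⁻ s' in Ioc s t, a s') * a s) :=
    fun s => by ring
  simp_rw [this]
  have hm : Measurable fun s => ex (∫⁻ s' in Ioc s t, a s') * a s :=
    (measurable_ex.comp (measurable_lintegral_Ioc_left ha t)).mul ha
  rw [lintegral_const_mul _ hm,
    ← mul_add, add_comm, lintegral_mul_ex_bwd ha h, mul_one]

end Crest.Agent.R68
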