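/-
R68/Duh2: calculus for indefinite integrals; the comparison lemma
Skeleton by helper76 (row 68); keep the statements unchanged, add any helper lemmas you like.
-/
import Crest.Agent.R68.Duh1

set_option autoImplicit false
set_option linter.unusedVariables false
set_option linter.unusedSectionVars false

noncomputable section

namespace Crest.Agent.R68

open MeasureTheory Set Filter Topology
open scoped ENNReal NNReal
open Crest.AnalysisR.VecCalc3 Crest.AnalysisR.PDE.Boltzmann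

section real
variable {g g' e e' : ℝ → ℝ} {r T : ℝ}

theorem duh2_trivial (hT : T < r) (f f' : ℝ → ℝ) :
    IntegrableOn f' (Ioc r T) ∧ ∀ t ∈ Icc r T, f t = f r + ∫ s in Ioc r t, f' s := by
  rw [Ioc_eq_empty (not_lt.2 hT.le), Icc_eq_empty (not_le.2 hT)]
  exact ⟨integrableOn_empty, fun t ht => absurd ht (notMem_empty t)⟩

theorem duh2_ac_lip {K : ℝ≥0} {a b : ℝ} {G : ℝ → ℝ}
    (hG : AbsolutelyContinuousOnInterval G a b)
    (h : ∀ x ∈ uIcc a b, ∀ y ∈ uIcc a b, dist (g x) (g y) ≤ K * dist (G x) (G y)) :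
    AbsolutelyContinuousOnInterval g a b := by
  unfold AbsolutelyContinuousOnInterval at hG ⊢
  refine squeeze_zero' ?_ ?_ (by simpa using hG.const_mul (K : ℝ))
  · exact Filter.Eventually.of_forall fun _ => Finset.sum_nonneg fun i hi => dist_nonneg
  rw [eventually_inf_principal]
  filter_upwards with E hE
  rw [Finset.mul_sum]
  exact Finset.sum_le_sum fun i hi => h _ (hE.1 i hi).1 _ (hE.1 i hi).2

theorem duh2_ac (hT : r ≤ T) (hg' : IntegrableOn g' (Ioc r T))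
    (hg : ∀ t ∈ Icc r T, g t = g r + ∫ s in Ioc r t, g' s) :
    AbsolutelyContinuousOnInterval g r T ∧ ∀ᵐ x, x ∈ Ioo r T → HasDerivAt g (g' x) x := by
  have hi : IntervalIntegrable g' volume r T :=
    (intervalIntegrable_iff_integrableOn_Ioc_of_le hT).2 hg'
  have hg2 : ∀ t ∈ Icc r T, g t = g r + ∫ s in r..t, g' s := fun t ht => by
    rw [intervalIntegral.integral_of_le ht.1]; exact hg t ht
  constructor
  · refine duh2_ac_lip (K := 1)
      (hi.absolutelyContinuousOnInterval_intervalIntegral (c := r) left_mem_uIcc) ?_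
    intro x hx y hy
    rw [uIcc_of_le hT] at hx hy
    rw [hg2 x hx, hg2 y hy]
    simp
  · filter_upwards [hi.ae_hasDerivAt_integral] with x hx hxm
    have h1 := (hx (by rw [uIcc_of_le hT]; exact Ioo_subset_Icc_self hxm) r left_mem_uIcc).const_add
      (g r)
    refine h1.congr_of_eventuallyEq ?_
    filter_upwards [Ioo_mem_nhds hxm.1 hxm.2] with y hy using hg2 y (Ioo_subset_Icc_self hy)

theorem duh2_of_ac {f f' : ℝ → ℝ} (hT : r ≤ T) (hf : AbsolutelyContinuousOnInterval f r T)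
    (hd : ∀ᵐ x, x ∈ Ioo r T → HasDerivAt f (f' x) x) :
    IntegrableOn f' (Ioc r T) ∧ ∀ t ∈ Icc r T, f t = f r + ∫ s in Ioc r t, f' s := by
  have hT' : ∀ᵐ x : ℝ, x ≠ T := by simp [ae_iff, measure_singleton]
  have hae : ∀ᵐ x, x ∈ Ioc r T → deriv f x = f' x := by
    filter_upwards [hd, hT'] with x hx hx' hm using (hx ⟨hm.1, lt_of_le_of_ne hm.2 hx'⟩).deriv
  constructor
  · have h1 := (intervalIntegrable_iff_integrableOn_Ioc_of_le hT).1 hf.intervalIntegrable_deriv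
    exact h1.congr_fun_ae ((ae_restrict_iff' measurableSet_Ioc).2 hae)
  · intro t ht
    have h1 := (hf.mono (c := r) (d := t) (by
      rw [uIcc_of_le ht.1, uIcc_of_le hT]; exact Icc_subset_Icc le_rfl ht.2)).integral_deriv_eq_sub
    rw [intervalIntegral.integral_of_le ht.1] at h1
    have h2 : ∫ s in Ioc r t, deriv f s = ∫ s in Ioc r t, f' s := by
      refine setIntegral_congr_ae measurableSet_Ioc ?_
      filter_upwards [hae] with x hx hm using hx ⟨hm.1, hm.2.trans ht.2⟩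
    linarith

theorem duh2_cont (hT : r ≤ T) (hg' : IntegrableOn g' (Ioc r T))
    (hg : ∀ t ∈ Icc r T, g t = g r + ∫ s in Ioc r t, g' s) : ContinuousOn g (Icc r T) := by
  have := (duh2_ac hT hg' hg).1.continuousOn
  rwa [uIcc_of_le hT] at this

theorem duh2_mul_int (hc : ContinuousOn e (Icc r T)) (hg' : IntegrableOn g' (Ioc r T)) :
    IntegrableOn (fun s => g' s * e s) (Ioc r T) :=
  hg'.mul_continuousOn_of_subset hc measurableSet_Ioc isCompact_Icc Ioc_subset_Icc_self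

/-- Product rule (Fubini on the square `[r,t]²`, cut along the diagonal). -/
theorem prod_rule (hg' : IntegrableOn g' (Ioc r T)) (he' : IntegrableOn e' (Ioc r T))
    (hg : ∀ t ∈ Icc r T, g t = g r + ∫ s in Ioc r t, g' s)
    (he : ∀ t ∈ Icc r T, e t = e r + ∫ s in Ioc r t, e' s) :
    IntegrableOn (fun s => g' s * e s + g s * e' s) (Ioc r T) ∧
      ∀ t ∈ Icc r T, g t * e t = g r * e r + ∫ s in Ioc r t, (g' s * e s + g s * e' s) := by
  rcases lt_or_ge T r with hT | hT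
  · exact duh2_trivial hT _ _
  obtain ⟨h1, h2⟩ := duh2_ac hT hg' hg
  obtain ⟨h3, h4⟩ := duh2_ac hT he' he
  refine duh2_of_ac (f := fun s => g s * e s) hT (h1.fun_mul h3) ?_
  filter_upwards [h2, h4] with x hx hy hz using (hx hz).fun_mul (hy hz)

/-- Chain rule (approximate `g'` in `L¹` by continuous functions, or `Φ'` uniformly by polynomials
on the compact range of `g` and use `prod_rule`). -/
theorem chain_rule {Φ Φ' : ℝ → ℝ} (hΦ : ∀ y, HasDerivAt Φ (Φ' y) y) (hΦ' : Continuous Φ')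
    (hg' : IntegrableOn g' (Ioc r T)) (hg : ∀ t ∈ Icc r T, g t = g r + ∫ s in Ioc r t, g' s) :
    IntegrableOn (fun s => Φ' (g s) * g' s) (Ioc r T) ∧
      ∀ t ∈ Icc r T, Φ (g t) = Φ (g r) + ∫ s in Ioc r t, Φ' (g s) * g' s := by
  rcases lt_or_ge T r with hT | hT
  · exact duh2_trivial hT (fun s => Φ (g s)) _
  obtain ⟨h1, h2⟩ := duh2_ac hT hg' hg
  refine duh2_of_ac (f := fun s => Φ (g s)) hT ?_ ?_
  · obtain ⟨C, hC⟩ := h1.exists_bound
    have hcd : ContDiff ℝ 1 Φ := by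
      rw [contDiff_one_iff_deriv]
      refine ⟨fun y => (hΦ y).differentiableAt, ?_⟩
      have : deriv Φ = Φ' := funext fun y => (hΦ y).deriv
      rwa [this]
    obtain ⟨K, hK⟩ := (hcd.contDiffOn (s := Icc (-C) C)).exists_lipschitzOnWith (by decide)
      (convex_Icc _ _) isCompact_Icc
    refine duh2_ac_lip (K := K) h1 fun x hx y hy => ?_
    exact hK.dist_le_mul _ (abs_le.1 (hC x hx)) _ (abs_le.1 (hC y hy))
  · filter_upwards [h2] with x hx hz using (hΦ (g x)).comp x (hx hz)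

theorem duh2_disj {a b c : ℝ} : Disjoint (Ioc a b) (Ioc b c) :=
  Set.disjoint_left.2 fun _ h1 h2 => absurd h1.2 (not_le.2 h2.1)

/-- Variation of constants. -/
theorem var_const {b ρ : ℝ → ℝ} (hb : IntegrableOn b (Ioc r T)) (hρ : IntegrableOn ρ (Ioc r T))
    (hbg : IntegrableOn (fun s => b s * g s) (Ioc r T))
    (hg : ∀ t ∈ Icc r T, g t = g r + ∫ s in Ioc r t, (ρ s - b s * g s)) :
    ∀ t ∈ Icc r T, g t = Real.exp (-∫ s in Ioc r t, b s) * g r +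
      ∫ s in Ioc r t, Real.exp (-∫ s' in Ioc s t, b s') * ρ s := by
  intro t ht
  have hT : r ≤ T := ht.1.trans ht.2
  set B : ℝ → ℝ := fun t => ∫ s in Ioc r t, b s with hB
  have hB0 : B r = 0 := by simp [hB]
  have hBp : ∀ t ∈ Icc r T, B t = B r + ∫ s in Ioc r t, b s := fun t _ => by rw [hB0, zero_add]
  obtain ⟨h1, h2⟩ := chain_rule Real.hasDerivAt_exp Real.continuous_exp hb hBp
  obtain ⟨-, h4⟩ := prod_rule (g := g) (e := fun s => Real.exp (B s)) (hρ.sub hbg) h1 hg h2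
  have h5 := h4 t ht
  rw [hB0, Real.exp_zero, mul_one] at h5
  have h6 : ∫ s in Ioc r t, Real.exp (-∫ s' in Ioc s t, b s') * ρ s =
      Real.exp (-B t) * ∫ s in Ioc r t, ((ρ - fun s => b s * g s) s * Real.exp (B s) +
        g s * (Real.exp (B s) * b s)) := by
    rw [← integral_const_mul]
    refine setIntegral_congr_fun measurableSet_Ioc fun s hs => ?_
    have h7 : B t = B s + ∫ s' in Ioc s t, b s' := by
      simp only [hB]
      rw [← setIntegral_union duh2_disj measurableSet_Ioc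
        (hb.mono_set (Ioc_subset_Ioc le_rfl (hs.2.trans ht.2)))
        (hb.mono_set (Ioc_subset_Ioc hs.1.le ht.2)), Ioc_union_Ioc_eq_Ioc hs.1.le hs.2]
    have h8 : Real.exp (-∫ s' in Ioc s t, b s') = Real.exp (-B t) * Real.exp (B s) := by
      rw [← Real.exp_add]; congr 1; linarith
    simp only [h8, Pi.sub_apply]
    ring
  have h9 : ∀ I, g t * Real.exp (B t) = g r + I →
      g t = Real.exp (-B t) * g r + Real.exp (-B t) * I := fun I hI => by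
    rw [← mul_add, ← hI, mul_comm (g t), ← mul_assoc, ← Real.exp_add]
    simp
  rw [h6]
  exact h9 _ h5

/-- Fundamental theorem of calculus off a countable set. -/
theorem ftc_off_countable {S : Set ℝ} (hS : S.Countable) (hc : ContinuousOn e (Icc r T))
    (hd : ∀ s ∈ Ioo r T, s ∉ S → HasDerivAt e (e' s) s) (he' : IntegrableOn e' (Ioc r T)) :
    ∀ t ∈ Icc r T, e t = e r + ∫ s in Ioc r t, e' s := by
  intro t ht
  have h := integral_eq_of_hasDerivAt_off_countable_of_le e e' ht.1 hS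
    (hc.mono (Icc_subset_Icc le_rfl ht.2))
    (fun x hx => hd x ⟨hx.1.1, hx.1.2.trans_le ht.2⟩ hx.2)
    ((intervalIntegrable_iff_integrableOn_Ioc_of_le ht.1).2
      (he'.mono_set (Ioc_subset_Ioc le_rfl ht.2)))
  rw [intervalIntegral.integral_of_le ht.1] at h
  linarith

end real

theorem duh2_lint {μ : Measure ℝ} {f : ℝ → ℝ≥0∞} {φ : ℝ → ℝ} (hφ : Integrable φ μ)
    (h0 : ∀ᵐ x ∂μ, 0 ≤ φ x) (hf : ∀ᵐ x ∂μ, f x = ENNReal.ofReal (φ x)) :
    ∫⁻ x, f x ∂μ = ENNReal.ofReal (∫ x, φ x ∂μ) := by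
  rw [ofReal_integral_eq_lintegral_ofReal hφ h0]
  exact lintegral_congr_ae hf

/-- The weighted identity. -/
theorem duh2_weight {u₀ : ℝ≥0∞} {a q : ℝ → ℝ≥0∞} {e e' : ℝ → ℝ} {r t : ℝ} (ha : Measurable a)
    (hq : Measurable q) (hrt : r ≤ t) (hu₀ : u₀ ≠ ⊤) (hfa : ∫⁻ s in Ioc r t, a s ≠ ⊤)
    (hfq : ∫⁻ s in Ioc r t, q s ≠ ⊤)
    (he' : IntegrableOn e' (Ioc r t)) (he : ∀ s ∈ Icc r t, e s = e r + ∫ s' in Ioc r s, e' s')
    (hpos : ∀ s ∈ Icc r t, 0 ≤ e s) :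
    (∫⁻ s in Ioc r t, duh u₀ a q r s * a s * ENNReal.ofReal (e s)) ≠ ⊤ ∧
    (∫⁻ s in Ioc r t, duh u₀ a q r s * ENNReal.ofReal (-e' s)) ≠ ⊤ ∧
    duh u₀ a q r t * ENNReal.ofReal (e t) +
        (∫⁻ s in Ioc r t, duh u₀ a q r s * a s * ENNReal.ofReal (e s)) +
        ∫⁻ s in Ioc r t, duh u₀ a q r s * ENNReal.ofReal (-e' s) =
      u₀ * ENNReal.ofReal (e r) + (∫⁻ s in Ioc r t, q s * ENNReal.ofReal (e s)) +
        ∫⁻ s in Ioc r t, duh u₀ a q r s * ENNReal.ofReal (e' s) := by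
  set U : ℝ → ℝ≥0∞ := fun s => duh u₀ a q r s with hU
  have hUm : Measurable U := measurable_duh ha hq u₀ r
  have hsub : ∀ {f : ℝ → ℝ≥0∞} {x y : ℝ}, ∫⁻ s in Ioc r t, f s ≠ ⊤ → r ≤ x → y ≤ t →
      ∫⁻ s in Ioc x y, f s ≠ ⊤ := fun hf hx hy =>
    ne_top_of_le_ne_top hf (lintegral_mono_set (Ioc_subset_Ioc hx hy))
  have hUf : ∀ s ∈ Icc r t, U s ≠ ⊤ := fun s hs =>
    ne_top_of_le_ne_top (ENNReal.add_ne_top.2 ⟨hu₀, hsub hfq le_rfl hs.2⟩) (duh_le _ _ _ _ _)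
  have hpl : ∀ s ∈ Icc r t, U s + ∫⁻ s' in Ioc r s, U s' * a s' = u₀ + ∫⁻ s' in Ioc r s, q s' :=
    fun s hs => duh_plain ha hq hs.1 (fun s' hs' => hsub hfa hs'.1.le hs.2)
      (Or.inl (hsub hfa le_rfl hs.2))
  have hUa : ∫⁻ s' in Ioc r t, U s' * a s' ≠ ⊤ := by
    refine ne_top_of_le_ne_top (ENNReal.add_ne_top.2 ⟨hu₀, hfq⟩) ?_
    rw [← hpl t ⟨hrt, le_rfl⟩]
    exact le_add_self
  have hUam : Measurable fun s => U s * a s := hUm.mul ha
  have iq : IntegrableOn (fun s => (q s).toReal) (Ioc r t) :=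
    integrable_toReal_of_lintegral_ne_top hq.aemeasurable hfq
  have iUa : IntegrableOn (fun s => (U s * a s).toReal) (Ioc r t) :=
    integrable_toReal_of_lintegral_ne_top hUam.aemeasurable hUa
  have hUr : U r = u₀ := duh_self _ _ _ _
  have hg : ∀ s ∈ Icc r t, (U s).toReal = (U r).toReal +
      ∫ s' in Ioc r s, ((q s').toReal - (U s' * a s').toReal) := by
    intro s hs
    have h1 := congrArg ENNReal.toReal (hpl s hs)
    rw [ENNReal.toReal_add (hUf s hs) (hsub hUa le_rfl hs.2),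
      ENNReal.toReal_add hu₀ (hsub hfq le_rfl hs.2),
      ← integral_toReal hUam.aemeasurable (ae_lt_top hUam (hsub hUa le_rfl hs.2)),
      ← integral_toReal hq.aemeasurable (ae_lt_top hq (hsub hfq le_rfl hs.2))] at h1
    rw [integral_sub (iq.mono_set (Ioc_subset_Ioc le_rfl hs.2))
      (iUa.mono_set (Ioc_subset_Ioc le_rfl hs.2)), hUr]
    linarith
  have ig' : IntegrableOn (fun s' => (q s').toReal - (U s' * a s').toReal) (Ioc r t) := iq.sub iUa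
  have hgc : ContinuousOn (fun s => (U s).toReal) (Icc r t) := duh2_cont hrt ig' hg
  have hec : ContinuousOn e (Icc r t) := duh2_cont hrt he' he
  have hpr := (prod_rule (g := fun s => (U s).toReal) ig' he' hg he).2 t ⟨hrt, le_rfl⟩
  have i1 : IntegrableOn (fun s => (q s).toReal * e s) (Ioc r t) := duh2_mul_int hec iq
  have i2 : IntegrableOn (fun s => (U s * a s).toReal * e s) (Ioc r t) := duh2_mul_int hec iUa
  have i3 : IntegrableOn (fun s => max (e' s) 0 * (U s).toReal) (Ioc r t) :=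
    duh2_mul_int hgc (Integrable.pos_part he')
  have i4 : IntegrableOn (fun s => max (-e' s) 0 * (U s).toReal) (Ioc r t) :=
    duh2_mul_int hgc (Integrable.neg_part he')
  have hmem : ∀ᵐ s ∂(volume.restrict (Ioc r t)), s ∈ Icc r t :=
    (ae_restrict_mem measurableSet_Ioc).mono fun s hs => Ioc_subset_Icc_self hs
  have p1 : ∀ᵐ s ∂(volume.restrict (Ioc r t)), 0 ≤ (q s).toReal * e s :=
    hmem.mono fun s hs => mul_nonneg ENNReal.toReal_nonneg (hpos s hs)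
  have p2 : ∀ᵐ s ∂(volume.restrict (Ioc r t)), 0 ≤ (U s * a s).toReal * e s :=
    hmem.mono fun s hs => mul_nonneg ENNReal.toReal_nonneg (hpos s hs)
  have p3 : ∀ᵐ s ∂(volume.restrict (Ioc r t)), 0 ≤ max (e' s) 0 * (U s).toReal :=
    Eventually.of_forall fun s => mul_nonneg (le_max_right _ _) ENNReal.toReal_nonneg
  have p4 : ∀ᵐ s ∂(volume.restrict (Ioc r t)), 0 ≤ max (-e' s) 0 * (U s).toReal :=
    Eventually.of_forall fun s => mul_nonneg (le_max_right _ _) ENNReal.toReal_nonneg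
  have hmax : ∀ x : ℝ, ENNReal.ofReal (max x 0) = ENNReal.ofReal x := fun x => by
    rcases le_total x 0 with h | h
    · rw [max_eq_right h, ENNReal.ofReal_zero, ENNReal.ofReal_of_nonpos h]
    · rw [max_eq_left h]
  have e1 : ∫⁻ s in Ioc r t, q s * ENNReal.ofReal (e s) =
      ENNReal.ofReal (∫ s in Ioc r t, (q s).toReal * e s) := by
    refine duh2_lint i1 p1 ?_
    filter_upwards [ae_lt_top hq hfq] with s hs
    rw [ENNReal.ofReal_mul ENNReal.toReal_nonneg, ENNReal.ofReal_toReal hs.ne]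
  have e2 : ∫⁻ s in Ioc r t, U s * a s * ENNReal.ofReal (e s) =
      ENNReal.ofReal (∫ s in Ioc r t, (U s * a s).toReal * e s) := by
    refine duh2_lint i2 p2 ?_
    filter_upwards [ae_lt_top hUam hUa] with s hs
    rw [ENNReal.ofReal_mul ENNReal.toReal_nonneg, ENNReal.ofReal_toReal hs.ne]
  have e3 : ∫⁻ s in Ioc r t, U s * ENNReal.ofReal (e' s) =
      ENNReal.ofReal (∫ s in Ioc r t, max (e' s) 0 * (U s).toReal) := by
    refine duh2_lint i3 p3 ?_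
    filter_upwards [hmem] with s hs
    rw [ENNReal.ofReal_mul (le_max_right _ _), ENNReal.ofReal_toReal (hUf s hs), hmax, mul_comm]
  have e4 : ∫⁻ s in Ioc r t, U s * ENNReal.ofReal (-e' s) =
      ENNReal.ofReal (∫ s in Ioc r t, max (-e' s) 0 * (U s).toReal) := by
    refine duh2_lint i4 p4 ?_
    filter_upwards [hmem] with s hs
    rw [ENNReal.ofReal_mul (le_max_right _ _), ENNReal.ofReal_toReal (hUf s hs), hmax, mul_comm]
  have e5 : U t * ENNReal.ofReal (e t) = ENNReal.ofReal ((U t).toReal * e t) := by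
    rw [ENNReal.ofReal_mul ENNReal.toReal_nonneg, ENNReal.ofReal_toReal (hUf t ⟨hrt, le_rfl⟩)]
  have e6 : u₀ * ENNReal.ofReal (e r) = ENNReal.ofReal (u₀.toReal * e r) := by
    rw [ENNReal.ofReal_mul ENNReal.toReal_nonneg, ENNReal.ofReal_toReal hu₀]
  have e7 : ∫ s in Ioc r t, (((q s).toReal - (U s * a s).toReal) * e s + (U s).toReal * e' s) =
      (∫ s in Ioc r t, (q s).toReal * e s) - (∫ s in Ioc r t, (U s * a s).toReal * e s) +
      ((∫ s in Ioc r t, max (e' s) 0 * (U s).toReal) -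
        ∫ s in Ioc r t, max (-e' s) 0 * (U s).toReal) := by
    have i5 : IntegrableOn (fun s => (q s).toReal * e s - (U s * a s).toReal * e s) (Ioc r t) :=
      i1.sub i2
    have i6 : IntegrableOn (fun s => max (e' s) 0 * (U s).toReal - max (-e' s) 0 * (U s).toReal)
      (Ioc r t) := i3.sub i4
    rw [← integral_sub i1 i2, ← integral_sub i3 i4, ← integral_add i5 i6]
    refine integral_congr_ae (Eventually.of_forall fun s => ?_)
    have : e' s = max (e' s) 0 - max (-e' s) 0 := by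
      rcases le_total (e' s) 0 with h | h
      · rw [max_eq_right h, max_eq_left (by linarith)]; ring
      · rw [max_eq_left h, max_eq_right (by linarith)]; ring
    simp only
    linear_combination (U s).toReal * this
  refine ⟨by rw [e2]; exact ENNReal.ofReal_ne_top, by rw [e4]; exact ENNReal.ofReal_ne_top, ?_⟩
  have n1 := integral_nonneg_of_ae p1
  have n2 := integral_nonneg_of_ae p2
  have n3 := integral_nonneg_of_ae p3
  have n4 := integral_nonneg_of_ae p4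
  have n5 : 0 ≤ (U t).toReal * e t := mul_nonneg ENNReal.toReal_nonneg (hpos t ⟨hrt, le_rfl⟩)
  have n6 : 0 ≤ u₀.toReal * e r := mul_nonneg ENNReal.toReal_nonneg (hpos r ⟨le_rfl, hrt⟩)
  change U t * _ + _ + _ = _
  rw [e1, e2, e3, e4, e5, e6, ← ENNReal.ofReal_add n5 n2, ← ENNReal.ofReal_add (add_nonneg n5 n2) n4,
    ← ENNReal.ofReal_add n6 n1, ← ENNReal.ofReal_add (add_nonneg n6 n1) n3]
  congr 1
  rw [e7, hUr] at hpr
  linarith

/-- The weighted identity for an exponential weight. -/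
theorem duh2_weight_ex {u₀ : ℝ≥0∞} {a q b : ℝ → ℝ≥0∞} {r t : ℝ} (ha : Measurable a)
    (hq : Measurable q) (hb : Measurable b) (hrt : r ≤ t) (hu₀ : u₀ ≠ ⊤)
    (hfa : ∫⁻ s in Ioc r t, a s ≠ ⊤) (hfq : ∫⁻ s in Ioc r t, q s ≠ ⊤)
    (hfb : ∫⁻ s in Ioc r t, b s ≠ ⊤) :
    (∫⁻ s in Ioc r t, ex (∫⁻ s' in Ioc s t, b s') * (a s * duh u₀ a q r s)) ≠ ⊤ ∧
    duh u₀ a q r t + ∫⁻ s in Ioc r t, ex (∫⁻ s' in Ioc s t, b s') * (a s * duh u₀ a q r s) =
      u₀ * ex (∫⁻ s in Ioc r t, b s) + (∫⁻ s in Ioc r t, ex (∫⁻ s' in Ioc s t, b s') * q s) +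
        ∫⁻ s in Ioc r t, ex (∫⁻ s' in Ioc s t, b s') * (b s * duh u₀ a q r s) := by
  have hsub : ∀ {x y : ℝ}, r ≤ x → y ≤ t → ∫⁻ s in Ioc x y, b s ≠ ⊤ := fun hx hy =>
    ne_top_of_le_ne_top hfb (lintegral_mono_set (Ioc_subset_Ioc hx hy))
  have ib : IntegrableOn (fun s => (b s).toReal) (Ioc r t) :=
    integrable_toReal_of_lintegral_ne_top hb.aemeasurable hfb
  set B : ℝ → ℝ := fun t => ∫ s in Ioc r t, (b s).toReal with hB
  have hB0 : B r = 0 := by simp [hB]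
  have hBp : ∀ s ∈ Icc r t, B s = B r + ∫ s in Ioc r s, (b s).toReal := fun t _ => by
    rw [hB0, zero_add]
  obtain ⟨h1, h2⟩ := chain_rule (Φ := fun y => Real.exp (y - B t)) (Φ' := fun y => Real.exp (y - B t))
    (fun y => by simpa using ((hasDerivAt_id y).sub_const (B t)).exp) (by fun_prop) ib hBp
  have hE : ∀ s ∈ Icc r t, ENNReal.ofReal (Real.exp (B s - B t)) = ex (∫⁻ s' in Ioc s t, b s') := by
    intro s hs
    rw [ex_eq (hsub hs.1 le_rfl),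
      ← integral_toReal hb.aemeasurable (ae_lt_top hb (hsub hs.1 le_rfl))]
    have h7 : B t = B s + ∫ s' in Ioc s t, (b s').toReal := by
      simp only [hB]
      rw [← setIntegral_union duh2_disj measurableSet_Ioc
        (ib.mono_set (Ioc_subset_Ioc le_rfl hs.2))
        (ib.mono_set (Ioc_subset_Ioc hs.1 le_rfl)), Ioc_union_Ioc_eq_Ioc hs.1 hs.2]
    congr 2
    linarith
  obtain ⟨k1, -, k3⟩ := duh2_weight (e := fun s => Real.exp (B s - B t))
    (e' := fun s => Real.exp (B s - B t) * (b s).toReal) ha hq hrt hu₀ hfa hfq h1 h2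
    (fun s _ => (Real.exp_pos _).le)
  have c1 : ∫⁻ s in Ioc r t, duh u₀ a q r s * a s * ENNReal.ofReal (Real.exp (B s - B t)) =
      ∫⁻ s in Ioc r t, ex (∫⁻ s' in Ioc s t, b s') * (a s * duh u₀ a q r s) :=
    setLIntegral_congr_fun measurableSet_Ioc fun s hs => by
      simp only [hE s (Ioc_subset_Icc_self hs)]; ring
  have c2 : ∫⁻ s in Ioc r t, q s * ENNReal.ofReal (Real.exp (B s - B t)) =
      ∫⁻ s in Ioc r t, ex (∫⁻ s' in Ioc s t, b s') * q s :=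
    setLIntegral_congr_fun measurableSet_Ioc fun s hs => by
      simp only [hE s (Ioc_subset_Icc_self hs)]; ring
  have c3 : ∫⁻ s in Ioc r t, duh u₀ a q r s *
      ENNReal.ofReal (Real.exp (B s - B t) * (b s).toReal) =
      ∫⁻ s in Ioc r t, ex (∫⁻ s' in Ioc s t, b s') * (b s * duh u₀ a q r s) := by
    refine lintegral_congr_ae ?_
    filter_upwards [ae_restrict_mem measurableSet_Ioc, ae_lt_top hb hfb] with s hs hs'
    rw [ENNReal.ofReal_mul (Real.exp_pos _).le, hE s (Ioc_subset_Icc_self hs),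
      ENNReal.ofReal_toReal hs'.ne]
    ring
  have c4 : ∫⁻ s in Ioc r t, duh u₀ a q r s *
      ENNReal.ofReal (-(Real.exp (B s - B t) * (b s).toReal)) = 0 := by
    have : ∀ s, duh u₀ a q r s * ENNReal.ofReal (-(Real.exp (B s - B t) * (b s).toReal)) = 0 :=
      fun s => by
        rw [ENNReal.ofReal_of_nonpos (neg_nonpos.2 (mul_nonneg (Real.exp_pos _).le
          ENNReal.toReal_nonneg)), mul_zero]
    simp only [this, lintegral_zero]
  rw [c1] at k1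
  refine ⟨k1, ?_⟩
  rw [c1, c2, c3, c4, hE r ⟨le_rfl, hrt⟩, sub_self, Real.exp_zero, ENNReal.ofReal_one, mul_one,
    add_zero] at k3
  exact k3

theorem duh2_cmp {u₁ u₂ d₀ : ℝ≥0∞} {a₁ a₂ b q₁ q₂ k₁ k₂ ρ : ℝ → ℝ≥0∞} {r t : ℝ}
    (ha₁ : Measurable a₁) (ha₂ : Measurable a₂) (hb : Measurable b) (hq₁ : Measurable q₁)
    (hq₂ : Measurable q₂) (hk₁ : Measurable k₁) (hk₂ : Measurable k₂) (hρ : Measurable ρ)
    (hrt : r ≤ t)
    (h0 : ∫⁻ s in Ioc r t, (a₁ s + a₂ s + b s) ≠ ⊤) (hu₁ : u₁ ≠ ⊤) (hu₂ : u₂ ≠ ⊤)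
    (hfin : ∫⁻ s in Ioc r t, (q₁ s + q₂ s + k₁ s + k₂ s) ≠ ⊤) (hd : u₁ ≤ u₂ + d₀)
    (h : ∀ s ∈ Ioc r t, q₁ s + a₂ s * duh u₂ a₂ q₂ r s + b s * duh u₁ a₁ q₁ r s + k₂ s ≤
      q₂ s + a₁ s * duh u₁ a₁ q₁ r s + b s * duh u₂ a₂ q₂ r s + k₁ s + ρ s) :
    duh u₁ a₁ q₁ r t + ∫⁻ s in Ioc r t, ex (∫⁻ s' in Ioc s t, b s') * k₂ s ≤
      duh u₂ a₂ q₂ r t + (∫⁻ s in Ioc r t, ex (∫⁻ s' in Ioc s t, b s') * k₁ s) +
        d₀ * ex (∫⁻ s in Ioc r t, b s) + ∫⁻ s in Ioc r t, ex (∫⁻ s' in Ioc s t, b s') * ρ s := by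
  have f1 : ∫⁻ s in Ioc r t, a₁ s ≠ ⊤ :=
    ne_top_of_le_ne_top h0 (lintegral_mono fun x => le_self_add.trans le_self_add)
  have f2 : ∫⁻ s in Ioc r t, a₂ s ≠ ⊤ :=
    ne_top_of_le_ne_top h0 (lintegral_mono fun x => le_add_self.trans le_self_add)
  have f3 : ∫⁻ s in Ioc r t, b s ≠ ⊤ :=
    ne_top_of_le_ne_top h0 (lintegral_mono fun x => le_add_self)
  have f4 : ∫⁻ s in Ioc r t, q₁ s ≠ ⊤ :=
    ne_top_of_le_ne_top hfin (lintegral_mono fun x =>
      le_self_add.trans (le_self_add.trans le_self_add))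
  have f5 : ∫⁻ s in Ioc r t, q₂ s ≠ ⊤ :=
    ne_top_of_le_ne_top hfin (lintegral_mono fun x =>
      le_add_self.trans (le_self_add.trans le_self_add))
  obtain ⟨A1, E1⟩ := duh2_weight_ex ha₁ hq₁ hb hrt hu₁ f1 f4 f3
  obtain ⟨A2, E2⟩ := duh2_weight_ex ha₂ hq₂ hb hrt hu₂ f2 f5 f3
  set w : ℝ → ℝ≥0∞ := fun s => ex (∫⁻ s' in Ioc s t, b s') with hw
  have wm : Measurable w := measurable_ex.comp (measurable_lintegral_Ioc_left hb t)
  have m1 : Measurable fun s => duh u₁ a₁ q₁ r s := measurable_duh ha₁ hq₁ u₁ r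
  have m2 : Measurable fun s => duh u₂ a₂ q₂ r s := measurable_duh ha₂ hq₂ u₂ r
  have I : (∫⁻ s in Ioc r t, w s * q₁ s) + (∫⁻ s in Ioc r t, w s * (a₂ s * duh u₂ a₂ q₂ r s)) +
      (∫⁻ s in Ioc r t, w s * (b s * duh u₁ a₁ q₁ r s)) + ∫⁻ s in Ioc r t, w s * k₂ s ≤
      (∫⁻ s in Ioc r t, w s * q₂ s) + (∫⁻ s in Ioc r t, w s * (a₁ s * duh u₁ a₁ q₁ r s)) +
      (∫⁻ s in Ioc r t, w s * (b s * duh u₂ a₂ q₂ r s)) + (∫⁻ s in Ioc r t, w s * k₁ s) +
        ∫⁻ s in Ioc r t, w s * ρ s := by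
    rw [← lintegral_add_left (by fun_prop), ← lintegral_add_left (by fun_prop),
      ← lintegral_add_left (by fun_prop), ← lintegral_add_left (by fun_prop),
      ← lintegral_add_left (by fun_prop), ← lintegral_add_left (by fun_prop),
      ← lintegral_add_left (by fun_prop)]
    refine setLIntegral_mono' measurableSet_Ioc fun s hs => ?_
    simp only [← mul_add]
    exact mul_le_mul_right (h s hs) _
  change _ + ∫⁻ s in Ioc r t, w s * k₂ s ≤ _ + (∫⁻ s in Ioc r t, w s * k₁ s) + _ +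
    ∫⁻ s in Ioc r t, w s * ρ s
  change _ + ∫⁻ s in Ioc r t, w s * _ = _ + (∫⁻ s in Ioc r t, w s * _) +
    ∫⁻ s in Ioc r t, w s * _ at E1 E2
  change ∫⁻ s in Ioc r t, w s * _ ≠ ⊤ at A1 A2
  generalize ∫⁻ s in Ioc r t, w s * q₁ s = Q1 at *
  generalize ∫⁻ s in Ioc r t, w s * q₂ s = Q2 at *
  generalize ∫⁻ s in Ioc r t, w s * k₁ s = K1 at *
  generalize ∫⁻ s in Ioc r t, w s * k₂ s = K2 at *
  generalize ∫⁻ s in Ioc r t, w s * ρ s = R at *
  generalize ∫⁻ s in Ioc r t, w s * (a₁ s * duh u₁ a₁ q₁ r s) = A₁ at *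
  generalize ∫⁻ s in Ioc r t, w s * (a₂ s * duh u₂ a₂ q₂ r s) = A₂ at *
  generalize ∫⁻ s in Ioc r t, w s * (b s * duh u₁ a₁ q₁ r s) = B₁ at *
  generalize ∫⁻ s in Ioc r t, w s * (b s * duh u₂ a₂ q₂ r s) = B₂ at *
  generalize ex (∫⁻ s in Ioc r t, b s) = W at *
  refine (ENNReal.add_le_add_iff_right (ENNReal.add_ne_top.2 ⟨A1, A2⟩)).1 ?_
  calc duh u₁ a₁ q₁ r t + K2 + (A₁ + A₂) = (duh u₁ a₁ q₁ r t + A₁) + (K2 + A₂) := by ring
    _ = u₁ * W + (Q1 + A₂ + B₁ + K2) := by rw [E1]; ring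
    _ ≤ (u₂ + d₀) * W + (Q2 + A₁ + B₂ + K1 + R) := add_le_add (mul_le_mul_left hd _) I
    _ = (u₂ * W + Q2 + B₂) + (d₀ * W + A₁ + K1 + R) := by ring
    _ = _ := by rw [← E2]; ring

/-- The comparison lemma: `D = u₁ - u₂` satisfies `D' ≤ -b D + k₁ - k₂ + ρ`.  If all integrals of
`a₁, a₂, b` are finite use `duh_plain` and `var_const` (the `u_i` are bounded by
`u_i(r) + ∫ q_i`; wlog `∫ ρ < ∞`... more precisely replace `ρ` by the real function
`q₁ + a₂ u₂ + b u₁ + k₂ - (q₂ + a₁ u₁ + b u₂ + k₁)`, which is integrable and `≤ ρ` a.e.).  If `u₁ = 0`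
apply this on `(s, t]` (`duh_trans`) with `d₀ = ∫_r^s q₁ → 0` and let `s ↓ r`. -/
theorem duh_cmp {u₁ u₂ d₀ : ℝ≥0∞} {a₁ a₂ b q₁ q₂ k₁ k₂ ρ : ℝ → ℝ≥0∞} {r t : ℝ}
    (ha₁ : Measurable a₁) (ha₂ : Measurable a₂) (hb : Measurable b) (hq₁ : Measurable q₁)
    (hq₂ : Measurable q₂) (hk₁ : Measurable k₁) (hk₂ : Measurable k₂) (hρ : Measurable ρ)
    (hrt : r ≤ t) (hloc : ∀ s ∈ Ioc r t, ∫⁻ s' in Ioc s t, (a₁ s' + a₂ s' + b s') ≠ ⊤)
    (h0 : (∫⁻ s in Ioc r t, (a₁ s + a₂ s + b s) ≠ ⊤) ∨ u₁ = 0) (hu₁ : u₁ ≠ ⊤) (hu₂ : u₂ ≠ ⊤)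
    (hfin : ∫⁻ s in Ioc r t, (q₁ s + q₂ s + k₁ s + k₂ s) ≠ ⊤) (hd : u₁ ≤ u₂ + d₀)
    (h : ∀ s ∈ Ioc r t, q₁ s + a₂ s * duh u₂ a₂ q₂ r s + b s * duh u₁ a₁ q₁ r s + k₂ s ≤
      q₂ s + a₁ s * duh u₁ a₁ q₁ r s + b s * duh u₂ a₂ q₂ r s + k₁ s + ρ s) :
    duh u₁ a₁ q₁ r t + ∫⁻ s in Ioc r t, ex (∫⁻ s' in Ioc s t, b s') * k₂ s ≤
      duh u₂ a₂ q₂ r t + (∫⁻ s in Ioc r t, ex (∫⁻ s' in Ioc s t, b s') * k₁ s) +
        d₀ * ex (∫⁻ s in Ioc r t, b s) + ∫⁻ s in Ioc r t, ex (∫⁻ s' in Ioc s t, b s') * ρ s := by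
  have hfin' : ∀ s, r ≤ s → ∫⁻ s in Ioc s t, (q₁ s + q₂ s + k₁ s + k₂ s) ≠ ⊤ := fun s hs =>
    ne_top_of_le_ne_top hfin (lintegral_mono_set (Ioc_subset_Ioc hs le_rfl))
  rcases h0 with h0 | h0
  · exact duh2_cmp ha₁ ha₂ hb hq₁ hq₂ hk₁ hk₂ hρ hrt h0 hu₁ hu₂ hfin hd h
  rcases hrt.eq_or_lt with hrt' | hrt'
  · refine duh2_cmp ha₁ ha₂ hb hq₁ hq₂ hk₁ hk₂ hρ hrt ?_ hu₁ hu₂ hfin hd h
    subst hrt'; simp
  refine ENNReal.le_of_forall_pos_le_add fun ε hε _ => ?_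
  obtain ⟨δ, hδ, hδ'⟩ := exists_pos_setLIntegral_lt_of_measure_lt hfin
    (ε := (ε : ℝ≥0∞)) (by exact_mod_cast hε.ne')
  obtain ⟨d, hd0, hd1, hd2⟩ := ENNReal.lt_iff_exists_real_btwn.1 hδ
  have hdpos : 0 < d := ENNReal.ofReal_pos.1 hd1
  set s : ℝ := min t (r + d) with hs
  have hrs : r < s := lt_min hrt' (by linarith)
  have hst : s ≤ t := min_le_left _ _
  have hsm : ∫⁻ s in Ioc r s, (q₁ s + q₂ s + k₁ s + k₂ s) < ε := by
    have h1 := hδ' (Ioc r s) (by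
      refine lt_of_le_of_lt (Measure.restrict_apply_le _ _) (lt_of_le_of_lt ?_ hd2)
      rw [Real.volume_Ioc]
      exact ENNReal.ofReal_le_ofReal (by linarith [min_le_right t (r + d)]))
    rwa [Measure.restrict_restrict measurableSet_Ioc,
      inter_eq_left.2 (Ioc_subset_Ioc le_rfl hst)] at h1
  have hq1s : ∫⁻ s in Ioc r s, q₁ s ≠ ⊤ := by
    refine ne_top_of_le_ne_top (hsm.trans ENNReal.coe_lt_top).ne (lintegral_mono fun x => ?_)
    exact le_self_add.trans (le_self_add.trans le_self_add)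
  have hq2s : ∫⁻ s in Ioc r s, q₂ s ≠ ⊤ := by
    refine ne_top_of_le_ne_top (hsm.trans ENNReal.coe_lt_top).ne (lintegral_mono fun x => ?_)
    exact le_add_self.trans (le_self_add.trans le_self_add)
  have key := duh2_cmp (u₁ := duh u₁ a₁ q₁ r s) (u₂ := duh u₂ a₂ q₂ r s)
    (d₀ := ∫⁻ s in Ioc r s, q₁ s) ha₁ ha₂ hb hq₁ hq₂ hk₁ hk₂ hρ hst (hloc s ⟨hrs, hst⟩)
    (ne_top_of_le_ne_top (ENNReal.add_ne_top.2 ⟨hu₁, hq1s⟩) (duh_le _ _ _ _ _))
    (ne_top_of_le_ne_top (ENNReal.add_ne_top.2 ⟨hu₂, hq2s⟩) (duh_le _ _ _ _ _))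
    (hfin' s hrs.le)
    ((duh_le _ _ _ _ _).trans (by rw [h0, zero_add]; exact le_add_self))
    (fun s' hs' => by
      rw [← duh_trans ha₁ hq₁ hrs.le hs'.1.le, ← duh_trans ha₂ hq₂ hrs.le hs'.1.le]
      exact h s' ⟨hrs.trans hs'.1, hs'.2⟩)
  rw [← duh_trans ha₁ hq₁ hrs.le hst, ← duh_trans ha₂ hq₂ hrs.le hst] at key
  have e1 : ∫⁻ s in Ioc r t, ex (∫⁻ s' in Ioc s t, b s') * k₂ s ≤
      (∫⁻ s in Ioc s t, ex (∫⁻ s' in Ioc s t, b s') * k₂ s) + ∫⁻ s in Ioc r s, k₂ s := by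
    rw [← Ioc_union_Ioc_eq_Ioc hrs.le hst, add_comm]
    refine (lintegral_union_le _ _ _).trans (add_le_add (lintegral_mono fun x => ?_) le_rfl)
    exact mul_le_of_le_one_left' (ex_le_one _)
  have e2 : ∀ f : ℝ → ℝ≥0∞, ∫⁻ s in Ioc s t, f s ≤ ∫⁻ s in Ioc r t, f s := fun f =>
    lintegral_mono_set (Ioc_subset_Ioc hrs.le le_rfl)
  have e3 : (∫⁻ s in Ioc r s, q₁ s) + ∫⁻ s in Ioc r s, k₂ s ≤ ε := by
    rw [← lintegral_add_left hq₁]
    refine le_trans (lintegral_mono fun x => ?_) hsm.le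
    exact add_le_add (le_self_add.trans le_self_add) le_rfl
  have e4 : (∫⁻ s in Ioc r s, q₁ s) * ex (∫⁻ s in Ioc s t, b s) ≤ ∫⁻ s in Ioc r s, q₁ s :=
    mul_le_of_le_one_right' (ex_le_one _)
  calc _ ≤ duh u₁ a₁ q₁ r t + ((∫⁻ s in Ioc s t, ex (∫⁻ s' in Ioc s t, b s') * k₂ s) +
        ∫⁻ s in Ioc r s, k₂ s) := add_le_add le_rfl e1
    _ = (duh u₁ a₁ q₁ r t + ∫⁻ s in Ioc s t, ex (∫⁻ s' in Ioc s t, b s') * k₂ s) +
        ∫⁻ s in Ioc r s, k₂ s := by rw [add_assoc]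
    _ ≤ (duh u₂ a₂ q₂ r t + (∫⁻ s in Ioc r t, ex (∫⁻ s' in Ioc s t, b s') * k₁ s) +
        (∫⁻ s in Ioc r s, q₁ s) + ∫⁻ s in Ioc r t, ex (∫⁻ s' in Ioc s t, b s') * ρ s) +
        ∫⁻ s in Ioc r s, k₂ s :=
      add_le_add (key.trans (add_le_add (add_le_add (add_le_add le_rfl (e2 _)) e4) (e2 _))) le_rfl
    _ = (duh u₂ a₂ q₂ r t + (∫⁻ s in Ioc r t, ex (∫⁻ s' in Ioc s t, b s') * k₁ s) + 0 +
        ∫⁻ s in Ioc r t, ex (∫⁻ s' in Ioc s t, b s') * ρ s) +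
        ((∫⁻ s in Ioc r s, q₁ s) + ∫⁻ s in Ioc r s, k₂ s) := by ring
    _ ≤ _ := add_le_add (add_le_add (add_le_add le_rfl zero_le) le_rfl) e3

/-- Testing a Duhamel solution with a non-negative weight `e` whose derivative is `e'`:
`u e` at `t` plus the losses is the value at `r` plus the gains (`hkl` says `k - l ≤ e'`;
`duh_plain`, `prod_rule`; trivial if the last integral is infinite). -/
theorem duh_test {u₀ : ℝ≥0∞} {a q : ℝ → ℝ≥0∞} {e e' : ℝ → ℝ} {r t : ℝ} (ha : Measurable a)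
    (hq : Measurable q) (hrt : r ≤ t) (hu₀ : u₀ ≠ ⊤) (hfin : ∫⁻ s in Ioc r t, (a s + q s) ≠ ⊤)
    (he' : IntegrableOn e' (Ioc r t)) (he : ∀ s ∈ Icc r t, e s = e r + ∫ s' in Ioc r s, e' s')
    (hpos : ∀ s ∈ Icc r t, 0 ≤ e s) {k l : ℝ → ℝ≥0∞} (hk : Measurable k) (hl : Measurable l)
    (hkl : ∀ᵐ s, s ∈ Ioc r t → k s + ENNReal.ofReal (-e' s) ≤ l s + ENNReal.ofReal (e' s)) :
    u₀ * ENNReal.ofReal (e r) + (∫⁻ s in Ioc r t, q s * ENNReal.ofReal (e s)) +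
        ∫⁻ s in Ioc r t, duh u₀ a q r s * k s ≤
      duh u₀ a q r t * ENNReal.ofReal (e t) +
        (∫⁻ s in Ioc r t, duh u₀ a q r s * a s * ENNReal.ofReal (e s)) +
        ∫⁻ s in Ioc r t, duh u₀ a q r s * l s := by
  have f1 : ∫⁻ s in Ioc r t, a s ≠ ⊤ :=
    ne_top_of_le_ne_top hfin (lintegral_mono fun x => le_self_add)
  have f2 : ∫⁻ s in Ioc r t, q s ≠ ⊤ :=
    ne_top_of_le_ne_top hfin (lintegral_mono fun x => le_add_self)
  obtain ⟨-, N, E⟩ := duh2_weight ha hq hrt hu₀ f1 f2 he' he hpos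
  have m1 : Measurable fun s => duh u₀ a q r s := measurable_duh ha hq u₀ r
  have I : (∫⁻ s in Ioc r t, duh u₀ a q r s * k s) +
      ∫⁻ s in Ioc r t, duh u₀ a q r s * ENNReal.ofReal (-e' s) ≤
      (∫⁻ s in Ioc r t, duh u₀ a q r s * l s) +
      ∫⁻ s in Ioc r t, duh u₀ a q r s * ENNReal.ofReal (e' s) := by
    rw [← lintegral_add_left (by fun_prop), ← lintegral_add_left (by fun_prop)]
    refine lintegral_mono_ae ?_
    filter_upwards [(ae_restrict_iff' measurableSet_Ioc).2 hkl] with s hs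
    simp only [← mul_add]
    exact mul_le_mul_right hs _
  refine (ENNReal.add_le_add_iff_right N).1 ?_
  calc _ = u₀ * ENNReal.ofReal (e r) + (∫⁻ s in Ioc r t, q s * ENNReal.ofReal (e s)) +
        ((∫⁻ s in Ioc r t, duh u₀ a q r s * k s) +
          ∫⁻ s in Ioc r t, duh u₀ a q r s * ENNReal.ofReal (-e' s)) := by ring
    _ ≤ u₀ * ENNReal.ofReal (e r) + (∫⁻ s in Ioc r t, q s * ENNReal.ofReal (e s)) +
        ((∫⁻ s in Ioc r t, duh u₀ a q r s * l s) +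
          ∫⁻ s in Ioc r t, duh u₀ a q r s * ENNReal.ofReal (e' s)) := add_le_add le_rfl I
    _ = (u₀ * ENNReal.ofReal (e r) + (∫⁻ s in Ioc r t, q s * ENNReal.ofReal (e s)) +
          ∫⁻ s in Ioc r t, duh u₀ a q r s * ENNReal.ofReal (e' s)) +
        ∫⁻ s in Ioc r t, duh u₀ a q r s * l s := by ring
    _ = _ := by rw [← E]; ring

end Crest.Agent.R68
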