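/-
R68/Path: measurability, invariance and algebra of the space-time operators; transport of integrals
Skeleton by helper76 (row 68); keep the statements unchanged, add any helper lemmas you like.
-/
import Crest.Agent.R68.Geo1
import Crest.Agent.R68.Duh2

set_option autoImplicit false
set_option linter.unusedVariables false
set_option linter.unusedSectionVars false

noncomputable section

namespace Crest.Agent.R68

open MeasureTheory Set Filter Topology
open scoped ENNReal NNReal
open Crest.AnalysisR.VecCalc3 Crest.AnalysisR.PDE.Boltzmann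

variable {f g a b q q' F G : Fn} {r s t T : ℝ} {x v : R3}

theorem path_meas_comp {α : Type} [MeasurableSpace α] (h : Meas f) {τ : α → ℝ} {y u : α → R3}
    (hτ : Measurable τ) (hy : Measurable y) (hu : Measurable u) :
    Measurable fun p => f (τ p) (y p) (u p) :=
  Measurable.comp (g := fun p : ℝ × R3 × R3 => f p.1 p.2.1 p.2.2)
    (f := fun p => (τ p, y p, u p)) h (hτ.prodMk (hy.prodMk hu))

theorem path_meas_pa {α : Type} [MeasurableSpace α] (h : Meas f) {τ σ : α → ℝ} {y u : α → R3}
    (hτ : Measurable τ) (hy : Measurable y) (hu : Measurable u) (hσ : Measurable σ) :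
    Measurable fun p => pa f (τ p) (y p) (u p) (σ p) :=
  path_meas_comp h hσ (hy.sub ((hτ.sub hσ).smul hu)) hu

theorem path_meas_Ioc {α : Type} [MeasurableSpace α] {l u : α → ℝ} {Φ : α → ℝ → ℝ≥0∞}
    (hl : Measurable l) (hu : Measurable u) (hΦ : Measurable fun p : α × ℝ => Φ p.1 p.2) :
    Measurable fun p => ∫⁻ s in Ioc (l p) (u p), Φ p s := by
  have hS : MeasurableSet {p : α × ℝ | l p.1 < p.2 ∧ p.2 ≤ u p.1} :=
    (measurableSet_lt (hl.comp measurable_fst) measurable_snd).inter
      (measurableSet_le measurable_snd (hu.comp measurable_fst))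
  have e : (fun p => ∫⁻ s in Ioc (l p) (u p), Φ p s) = fun p => ∫⁻ s,
      {p : α × ℝ | l p.1 < p.2 ∧ p.2 ≤ u p.1}.indicator (fun p => Φ p.1 p.2) (p, s) := by
    funext p
    rw [← lintegral_indicator measurableSet_Ioc]
    refine lintegral_congr fun s => ?_
    by_cases hs : s ∈ Ioc (l p) (u p)
    · rw [indicator_of_mem hs, indicator_of_mem (show (p, s) ∈ {p : α × ℝ | l p.1 < p.2 ∧
        p.2 ≤ u p.1} from hs)]
    · rw [indicator_of_notMem hs, indicator_of_notMem (show (p, s) ∉ {p : α × ℝ | l p.1 < p.2 ∧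
        p.2 ≤ u p.1} from hs)]
  rw [e]
  exact (hΦ.indicator hS).lintegral_prod_right'

theorem Meas.slice (h : Meas f) (t : ℝ) (x : R3) : Measurable (f t x) := by
  exact path_meas_comp h measurable_const measurable_const measurable_id

theorem Meas.time (h : Meas f) (t : ℝ) : Measurable fun p : R3 × R3 => f t p.1 p.2 := by
  exact path_meas_comp h measurable_const measurable_fst measurable_snd

theorem Meas.pa (h : Meas f) (t : ℝ) (x v : R3) : Measurable (pa f t x v) := by
  exact path_meas_pa h measurable_const measurable_const measurable_const measurable_id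

theorem Meas.add (h : Meas f) (h' : Meas g) : Meas (f + g) := by
  exact Measurable.add h h'

theorem Meas.mul (h : Meas f) (h' : Meas g) : Meas (f * g) := by
  exact Measurable.mul h h'

theorem Meas.sub (h : Meas f) (h' : Meas g) : Meas (f - g) := by
  exact Measurable.sub h h'

theorem Meas.inf (h : Meas f) (h' : Meas g) : Meas (f ⊓ g) := by
  exact Measurable.inf h h'

theorem Meas.sup (h : Meas f) (h' : Meas g) : Meas (f ⊔ g) := by
  exact Measurable.sup h h'

theorem Meas.smul (h : Meas f) (c : ℝ≥0∞) : Meas (c • f) := by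
  exact Measurable.const_mul h c

theorem meas_tm {j : ℝ → ℝ} (h : Measurable j) : Meas (tm j) := by
  exact ENNReal.measurable_ofReal.comp (h.comp measurable_fst)

theorem meas_vl {w : R3 → ℝ≥0∞} (h : Measurable w) : Meas (vl w) := by
  exact h.comp (measurable_snd.comp measurable_snd)

theorem Meas.GN (h : Meas f) (h' : Meas g) : Meas (GN f g) := by
  exact measurable_gn (α := ℝ × R3 × R3) (f := fun p => f p.1 p.2.1) (g := fun p => g p.1 p.2.1)
    (v := fun p => p.2.2)
    (path_meas_comp h measurable_fst.fst measurable_fst.snd.fst measurable_snd)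
    (path_meas_comp h' measurable_fst.fst measurable_fst.snd.fst measurable_snd)
    measurable_snd.snd

theorem Meas.LS (h : Meas f) : Meas (LS f) := by
  exact measurable_ls (α := ℝ × R3 × R3) (g := fun p => f p.1 p.2.1) (v := fun p => p.2.2)
    (path_meas_comp h measurable_fst.fst measurable_fst.snd.fst measurable_snd)
    measurable_snd.snd

theorem Meas.PI (h : Meas f) (r : ℝ) : Meas (PI f r) := by
  exact path_meas_Ioc (α := ℝ × R3 × R3) (l := fun _ => r) (u := fun p => p.1)
    (Φ := fun p s => R68.pa f p.1 p.2.1 p.2.2 s) measurable_const measurable_fst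
    (path_meas_pa h measurable_fst.fst measurable_fst.snd.fst measurable_fst.snd.snd measurable_snd)

theorem Meas.AI (ha : Meas a) (h : Meas f) (r : ℝ) : Meas (AI a f r) := by
  have h1 : Measurable fun p : (ℝ × R3 × R3) × ℝ =>
      ∫⁻ s' in Ioc p.2 p.1.1, R68.pa a p.1.1 p.1.2.1 p.1.2.2 s' :=
    path_meas_Ioc (α := (ℝ × R3 × R3) × ℝ) (l := fun p => p.2) (u := fun p => p.1.1)
      (Φ := fun p s => R68.pa a p.1.1 p.1.2.1 p.1.2.2 s) measurable_snd measurable_fst.fst
      (path_meas_pa ha measurable_fst.fst.fst measurable_fst.fst.snd.fst measurable_fst.fst.snd.snd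
        measurable_snd)
  exact path_meas_Ioc (α := ℝ × R3 × R3) (l := fun _ => r) (u := fun p => p.1)
    (Φ := fun p s => ex (∫⁻ s' in Ioc s p.1, R68.pa a p.1 p.2.1 p.2.2 s') *
      R68.pa f p.1 p.2.1 p.2.2 s) measurable_const measurable_fst
    ((measurable_ex.comp h1).mul (path_meas_pa h measurable_fst.fst measurable_fst.snd.fst
      measurable_fst.snd.snd measurable_snd))

theorem Meas.DU {u₀ : R3 → R3 → ℝ≥0∞} (hu : Measurable fun p : R3 × R3 => u₀ p.1 p.2) (ha : Meas a)
    (hq : Meas q) (r : ℝ) : Meas (DU u₀ a q r) := by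
  have h1 : Measurable fun p : ℝ × R3 × R3 => u₀ (p.2.1 - (p.1 - r) • p.2.2) p.2.2 :=
    Measurable.comp (g := fun p : R3 × R3 => u₀ p.1 p.2)
      (f := fun p : ℝ × R3 × R3 => (p.2.1 - (p.1 - r) • p.2.2, p.2.2)) hu
      ((measurable_snd.fst.sub ((measurable_fst.sub_const r).smul measurable_snd.snd)).prodMk
        measurable_snd.snd)
  exact (h1.mul (measurable_ex.comp (ha.PI r))).add (ha.AI hq r)

theorem path_single_mem_Gam (i : Fin 3) : (EuclideanSpace.single i (1 : ℝ) : R3) ∈ Gam := by
  refine ⟨?_, ?_⟩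
  · by_cases h : i = 1
    · exact ⟨1, by simp [h]⟩
    · exact ⟨0, by simp [Ne.symm h]⟩
  · by_cases h : i = 2
    · exact ⟨1, by simp [h]⟩
    · exact ⟨0, by simp [Ne.symm h]⟩

theorem path_inv_slice (h : InvF f) (t : ℝ) (x : R3) {c : R3} (hc : c ∈ Gam) :
    f t (x + c) = f t x := funext fun v => h t x v c hc

theorem path_inv_pa (h : InvF f) (t : ℝ) (x v : R3) {c : R3} (hc : c ∈ Gam) :
    pa f t (x + c) v = pa f t x v := by
  funext s
  unfold pa
  rw [add_sub_right_comm]
  exact h s _ v c hc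

theorem InvF.per (h : InvF f) (t : ℝ) (v : R3) : IsPeriodic3 fun x => f t x v := by
  exact fun x i => h t x v _ (path_single_mem_Gam i)

theorem InvF.add (h : InvF f) (h' : InvF g) : InvF (f + g) := by
  intro t x v c hc
  simp only [Pi.add_apply, h t x v c hc, h' t x v c hc]

theorem InvF.mul (h : InvF f) (h' : InvF g) : InvF (f * g) := by
  intro t x v c hc
  simp only [Pi.mul_apply, h t x v c hc, h' t x v c hc]

theorem InvF.sub (h : InvF f) (h' : InvF g) : InvF (f - g) := by
  intro t x v c hc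
  simp only [Pi.sub_apply, h t x v c hc, h' t x v c hc]

theorem InvF.inf (h : InvF f) (h' : InvF g) : InvF (f ⊓ g) := by
  intro t x v c hc
  simp only [Pi.inf_apply, h t x v c hc, h' t x v c hc]

theorem InvF.sup (h : InvF f) (h' : InvF g) : InvF (f ⊔ g) := by
  intro t x v c hc
  simp only [Pi.sup_apply, h t x v c hc, h' t x v c hc]

theorem InvF.smul (h : InvF f) (c : ℝ≥0∞) : InvF (c • f) := by
  intro t x v d hd
  simp only [Pi.smul_apply, h t x v d hd]

theorem invF_tm (j : ℝ → ℝ) : InvF (tm j) := by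
  exact fun _ _ _ _ _ => rfl

theorem invF_vl (w : R3 → ℝ≥0∞) : InvF (vl w) := by
  exact fun _ _ _ _ _ => rfl

theorem InvF.GN (h : InvF f) (h' : InvF g) : InvF (GN f g) := by
  intro t x v c hc
  show gn (f t (x + c)) (g t (x + c)) v = gn (f t x) (g t x) v
  rw [path_inv_slice h t x hc, path_inv_slice h' t x hc]

theorem InvF.LS (h : InvF f) : InvF (LS f) := by
  intro t x v c hc
  show ls (f t (x + c)) v = ls (f t x) v
  rw [path_inv_slice h t x hc]

theorem InvF.PI (h : InvF f) (r : ℝ) : InvF (PI f r) := by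
  intro t x v c hc
  simp only [R68.PI, path_inv_pa h t x v hc]

theorem InvF.AI (ha : InvF a) (h : InvF f) (r : ℝ) : InvF (AI a f r) := by
  intro t x v c hc
  simp only [R68.AI, path_inv_pa h t x v hc, path_inv_pa ha t x v hc]

theorem InvF.DU {u₀ : R3 → R3 → ℝ≥0∞} (hu : ∀ x v, ∀ c ∈ Gam, u₀ (x + c) v = u₀ x v) (ha : InvF a)
    (hq : InvF q) (r : ℝ) : InvF (DU u₀ a q r) := by
  intro t x v c hc
  simp only [R68.DU, path_inv_pa hq t x v hc, path_inv_pa ha t x v hc]
  rw [add_sub_right_comm, hu _ v c hc]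

theorem pa_self (f : Fn) (t : ℝ) (x v : R3) : pa f t x v t = f t x v := by
  simp [pa]

theorem pa_pa (f : Fn) (t s : ℝ) (x v : R3) : pa f s (x - (t - s) • v) v = pa f t x v := by
  funext s'
  unfold pa
  rw [sub_sub, ← add_smul]
  congr 3
  ring

theorem pa_PI (f : Fn) (r t s : ℝ) (x v : R3) :
    pa (PI f r) t x v s = ∫⁻ s' in Ioc r s, pa f t x v s' := by
  show ∫⁻ s' in Ioc r s, pa f s (x - (t - s) • v) v s' = _
  rw [pa_pa]

theorem pa_DU (u₀ : R3 → R3 → ℝ≥0∞) (a q : Fn) (r t s : ℝ) (x v : R3) :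
    pa (DU u₀ a q r) t x v s = duh (u₀ (x - (t - r) • v) v) (pa a t x v) (pa q t x v) r s := by
  show duh (u₀ (x - (t - s) • v - (s - r) • v) v) (pa a s (x - (t - s) • v) v)
    (pa q s (x - (t - s) • v) v) r s = _
  rw [pa_pa, pa_pa, sub_sub, ← add_smul, sub_add_sub_cancel]

theorem DU_eq (u₀ : R3 → R3 → ℝ≥0∞) (a q : Fn) (r t : ℝ) (x v : R3) :
    DU u₀ a q r t x v = u₀ (x - (t - r) • v) v * ex (PI a r t x v) + AI a q r t x v := rfl

theorem AI_le_PI (a f : Fn) (r : ℝ) : AI a f r ≤ PI f r := by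
  intro t x v
  refine lintegral_mono fun s => ?_
  exact mul_le_of_le_one_left' (ex_le_one _)

theorem path_pa_mono (h : LeOn r T f g) (ht : t ∈ Icc r T) (x v : R3) {s : ℝ} (hs : s ∈ Ioc r t) :
    pa f t x v s ≤ pa g t x v s :=
  h s ⟨hs.1.le, hs.2.trans ht.2⟩ _ _

theorem PI_mono (h : LeOn r T f g) : LeOn r T (PI f r) (PI g r) := by
  intro t ht x v
  exact setLIntegral_mono' measurableSet_Ioc fun s hs => path_pa_mono h ht x v hs

theorem AI_mono (hab : LeOn r T b a) (h : LeOn r T f g) : LeOn r T (AI a f r) (AI b g r) := by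
  intro t ht x v
  refine setLIntegral_mono' measurableSet_Ioc fun s hs => ?_
  refine mul_le_mul' (ex_anti ?_) (path_pa_mono h ht x v hs)
  exact setLIntegral_mono' measurableSet_Ioc fun s' hs' =>
    path_pa_mono hab ht x v ⟨hs.1.trans hs'.1, hs'.2⟩

theorem PI_add (hf : Meas f) (g : Fn) (r : ℝ) : PI (f + g) r = PI f r + PI g r := by
  funext t x v
  exact lintegral_add_left (hf.pa t x v) (pa g t x v)

theorem AI_add (ha : Meas a) (hf : Meas f) (g : Fn) (r : ℝ) :
    AI a (f + g) r = AI a f r + AI a g r := by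
  funext t x v
  have hm : Measurable fun s => ex (∫⁻ s' in Ioc s t, pa a t x v s') * pa f t x v s :=
    (measurable_ex.comp (measurable_lintegral_Ioc_left (ha.pa t x v) t)).mul (hf.pa t x v)
  show _ = AI a f r t x v + AI a g r t x v
  unfold AI
  rw [← lintegral_add_left hm]
  refine lintegral_congr fun s => ?_
  rw [← mul_add]
  rfl

theorem PI_smul (hf : Meas f) (c : ℝ≥0∞) (r : ℝ) : PI (c • f) r = c • PI f r := by
  funext t x v
  exact lintegral_const_mul c (hf.pa t x v)

theorem AI_smul (ha : Meas a) (hf : Meas f) (c : ℝ≥0∞) (r : ℝ) :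
    AI a (c • f) r = c • AI a f r := by
  funext t x v
  have hm : Measurable fun s => ex (∫⁻ s' in Ioc s t, pa a t x v s') * pa f t x v s :=
    (measurable_ex.comp (measurable_lintegral_Ioc_left (ha.pa t x v) t)).mul (hf.pa t x v)
  show _ = c * AI a f r t x v
  unfold AI
  rw [← lintegral_const_mul c hm]
  refine lintegral_congr fun s => ?_
  rw [mul_left_comm]
  rfl

theorem GN_mono {f' g' : Fn} (h : LeOn r T f f') (h' : LeOn r T g g') :
    LeOn r T (GN f g) (GN f' g') := by
  intro t ht x v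
  exact gn_mono (fun u => h t ht x u) (fun u => h' t ht x u) v

theorem LS_mono (h : LeOn r T f g) : LeOn r T (LS f) (LS g) := by
  intro t ht x v
  exact ls_mono (fun u => h t ht x u) v

theorem GN_add_left {f' : Fn} (hf : Meas f) (hf' : Meas f') (hg : Meas g) :
    GN (f + f') g = GN f g + GN f' g := by
  funext t x v
  exact gn_add_left (hf.slice t x) (hf'.slice t x) (hg.slice t x) v

theorem GN_add_right {g' : Fn} (hf : Meas f) (hg : Meas g) (hg' : Meas g') :
    GN f (g + g') = GN f g + GN f g' := by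
  funext t x v
  exact gn_add_right (hf.slice t x) (hg.slice t x) (hg'.slice t x) v

theorem GN_smul_left (hf : Meas f) (hg : Meas g) (c : ℝ≥0∞) : GN (c • f) g = c • GN f g := by
  funext t x v
  exact gn_mul_left c (hf.slice t x) (hg.slice t x) v

theorem GN_smul_right (hf : Meas f) (hg : Meas g) (c : ℝ≥0∞) : GN f (c • g) = c • GN f g := by
  funext t x v
  exact gn_mul_right c (hf.slice t x) (hg.slice t x) v

theorem GN_tm_right (hf : Meas f) (hg : Meas g) (j : ℝ → ℝ) : GN f (tm j * g) = tm j * GN f g := by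
  funext t x v
  exact gn_mul_right (ENNReal.ofReal (j t)) (hf.slice t x) (hg.slice t x) v

theorem GN_tm_left (hf : Meas f) (hg : Meas g) (j : ℝ → ℝ) : GN (tm j * f) g = tm j * GN f g := by
  funext t x v
  exact gn_mul_left (ENNReal.ofReal (j t)) (hf.slice t x) (hg.slice t x) v

theorem LS_add (hf : Meas f) (hg : Meas g) : LS (f + g) = LS f + LS g := by
  funext t x v
  exact ls_add (hf.slice t x) (hg.slice t x) v

theorem LS_smul (hf : Meas f) (c : ℝ≥0∞) : LS (c • f) = c • LS f := by
  funext t x v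
  exact ls_mul c (hf.slice t x) v

theorem LS_tm (hf : Meas f) (j : ℝ → ℝ) : LS (tm j * f) = tm j * LS f := by
  funext t x v
  exact ls_mul (ENNReal.ofReal (j t)) (hf.slice t x) v

theorem LeOn.trans (h : LeOn r T f g) (h' : LeOn r T g q) : LeOn r T f q := by
  exact fun t ht x v => (h t ht x v).trans (h' t ht x v)

theorem LeOn.add {f' g' : Fn} (h : LeOn r T f f') (h' : LeOn r T g g') :
    LeOn r T (f + g) (f' + g') := by
  exact fun t ht x v => add_le_add (h t ht x v) (h' t ht x v)

theorem LeOn.smul (h : LeOn r T f g) (c : ℝ≥0∞) : LeOn r T (c • f) (c • g) := by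
  exact fun t ht x v => mul_le_mul_right (h t ht x v) c

theorem LeOn.mono {r' T' : ℝ} (h : LeOn r T f g) (hr : r ≤ r') (hT : T' ≤ T) : LeOn r' T' f g := by
  exact fun t ht x v => h t ⟨hr.trans ht.1, ht.2.trans hT⟩ x v

/-! ### Transport of integrals -/

theorem path_meas_coord (i : Fin 3) : Measurable fun x : R3 => x i :=
  (EuclideanSpace.proj (𝕜 := ℝ) i).continuous.measurable

theorem path_cell_eq : cell = (fun x : R3 => x.ofLp) ⁻¹' (Set.pi univ fun _ => Ico (0 : ℝ) 1) := by
  ext x
  simp [cell]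

theorem measurableSet_cell : MeasurableSet cell := by
  have : cell = ⋂ i : Fin 3, (fun x : R3 => x i) ⁻¹' Ico 0 1 := by
    ext x
    simp [cell]
  rw [this]
  exact MeasurableSet.iInter fun i => path_meas_coord i measurableSet_Ico

theorem volume_cell : volume cell = 1 := by
  rw [path_cell_eq, (PiLp.volume_preserving_ofLp (Fin 3)).measure_preimage
    (MeasurableSet.univ_pi fun _ => measurableSet_Ico).nullMeasurableSet, Real.volume_pi_Ico]
  simp

theorem measurableSet_slab : MeasurableSet slab := by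
  exact path_meas_coord 0 measurableSet_Icc

theorem path_lintegral_translate {S : Set R3} (hS : MeasurableSet S) (Φ : R3 → ℝ≥0∞) (c : R3) :
    ∫⁻ x in S, Φ (x + c) = ∫⁻ x in {y | y - c ∈ S}, Φ x := by
  have hS' : MeasurableSet {y : R3 | y - c ∈ S} := (measurable_id.sub_const c) hS
  rw [← lintegral_indicator hS, ← lintegral_indicator hS',
    ← lintegral_add_right_eq_self ({y : R3 | y - c ∈ S}.indicator Φ) c]
  refine lintegral_congr fun x => ?_
  by_cases hx : x ∈ S
  · rw [indicator_of_mem hx, indicator_of_mem (show x + c ∈ {y : R3 | y - c ∈ S} by simpa using hx)]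
  · rw [indicator_of_notMem hx,
      indicator_of_notMem (show x + c ∉ {y : R3 | y - c ∈ S} by simpa using hx)]

theorem path_periodic_span {Φ : R3 → ℝ≥0∞} (hp : IsPeriodic3 Φ) (g : R3)
    (hg : g ∈ Submodule.span ℤ (Set.range (EuclideanSpace.basisFun (Fin 3) ℝ).toBasis)) (x : R3) :
    Φ (g + x) = Φ x := by
  induction hg using Submodule.span_induction generalizing x with
  | mem g hg =>
    obtain ⟨i, rfl⟩ := hg
    rw [add_comm]
    simpa using hp x i
  | zero => rw [zero_add]
  | add g g' _ _ ih ih' => rw [add_assoc, ih, ih']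
  | smul n g _ ih =>
    have hper : Function.Periodic Φ g := fun y => by rw [add_comm]; exact ih y
    rw [add_comm]
    exact hper.zsmul n x

/-- `cell` is a fundamental domain of `ℤ³` (`ZSpan.isAddFundamentalDomain`), or a direct proof
coordinate by coordinate. -/
theorem lintegral_cell_add {Φ : R3 → ℝ≥0∞} (hm : Measurable Φ) (hp : IsPeriodic3 Φ) (c : R3) :
    ∫⁻ x in cell, Φ (x + c) = ∫⁻ x in cell, Φ x := by
  set B := (EuclideanSpace.basisFun (Fin 3) ℝ).toBasis with hB
  have hc : cell = ZSpan.fundamentalDomain B := by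
    ext x
    simp [cell, ZSpan.mem_fundamentalDomain, hB]
  have h1 := ZSpan.isAddFundamentalDomain B (volume : Measure R3)
  have h2 := h1.vadd_of_comm c
  have : VAddInvariantMeasure (Submodule.span ℤ (Set.range B)) R3 volume :=
    ⟨fun g s _ => measure_preimage_add volume (g : R3) s⟩
  have h3 := h2.setLIntegral_eq h1 Φ fun g x => path_periodic_span hp g g.2 x
  rw [path_lintegral_translate measurableSet_cell, hc, ← h3]
  congr 2
  ext y
  rw [Set.mem_vadd_set_iff_neg_vadd_mem, vadd_eq_add, mem_ofPred_eq, neg_add_eq_sub]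

/-- A ball of radius `R` is covered by `(2R + 2)³` cells. -/
theorem lintegral_ball_le_cell {Φ : R3 → ℝ≥0∞} (hm : Measurable Φ) (hp : IsPeriodic3 Φ) (c : R3)
    {R : ℝ} (hR : 0 ≤ R) : ∫⁻ x in Metric.closedBall c R, Φ x ≤
      ENNReal.ofReal ((2 * R + 2) ^ 3) * ∫⁻ x in cell, Φ x := by
  set N : ℕ := ⌊2 * R⌋₊ + 1 with hN
  have hNR : 2 * R < N := by rw [hN]; push_cast; exact Nat.lt_floor_add_one _
  have hNR' : (N : ℝ) ≤ 2 * R + 2 := by
    rw [hN]; push_cast
    have := Nat.floor_le (show 0 ≤ 2 * R by linarith)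
    linarith
  let d : (Fin 3 → Fin N) → R3 := fun k => WithLp.toLp 2 fun i => c i - R + (k i : ℕ)
  have hsub : Metric.closedBall c R ⊆ ⋃ k : Fin 3 → Fin N, {y | y - d k ∈ cell} := by
    intro y hy
    have hi : ∀ i, |y i - c i| ≤ R := fun i => by
      have h1 : ‖(y - c) i‖ ≤ ‖y - c‖ := PiLp.norm_apply_le (y - c) i
      have h2 : ‖y - c‖ ≤ R := by simpa [dist_eq_norm] using hy
      simpa using h1.trans h2
    have h0 : ∀ i, 0 ≤ y i - c i + R := fun i => by linarith [(abs_le.1 (hi i)).1]
    have hlt : ∀ i, ⌊y i - c i + R⌋₊ < N := fun i => by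
      rw [Nat.floor_lt (h0 i)]
      linarith [(abs_le.1 (hi i)).2]
    refine mem_iUnion.2 ⟨fun i => ⟨⌊y i - c i + R⌋₊, hlt i⟩, fun i => ?_⟩
    have h1 := Nat.floor_le (h0 i)
    have h2 := Nat.lt_floor_add_one (y i - c i + R)
    simp only [d, PiLp.sub_apply, mem_Ico]
    constructor <;> linarith
  calc ∫⁻ x in Metric.closedBall c R, Φ x
      ≤ ∫⁻ x in ⋃ k : Fin 3 → Fin N, {y | y - d k ∈ cell}, Φ x := lintegral_mono_set hsub
    _ ≤ ∑' k : Fin 3 → Fin N, ∫⁻ x in {y | y - d k ∈ cell}, Φ x := lintegral_iUnion_le _ _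
    _ = ∑' k : Fin 3 → Fin N, ∫⁻ x in cell, Φ x := by
        refine tsum_congr fun k => ?_
        rw [← path_lintegral_translate measurableSet_cell, lintegral_cell_add hm hp]
    _ = (N : ℝ≥0∞) ^ 3 * ∫⁻ x in cell, Φ x := by
        rw [tsum_fintype, Finset.sum_const, Finset.card_univ, nsmul_eq_mul]
        simp
    _ ≤ _ := by
        gcongr
        rw [ENNReal.ofReal_pow (by linarith), ← ENNReal.ofReal_natCast]
        gcongr

/-- The change of variables `u ↦ x - s u`. -/
theorem lintegral_ball_shear {Φ : R3 → ℝ≥0∞} (hm : Measurable Φ) (x c : R3) {s R : ℝ} (hs : 0 < s) :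
    ∫⁻ u in Metric.closedBall c R, Φ (x - s • u) =
      ENNReal.ofReal (s⁻¹ ^ 3) * ∫⁻ y in Metric.closedBall (x - s • c) (s * R), Φ y := by
  have hb : MeasurableSet (Metric.closedBall (x - s • c) (s * R)) := Metric.isClosed_closedBall.measurableSet
  have hΨ : Measurable fun z : R3 => (Metric.closedBall (x - s • c) (s * R)).indicator Φ (x - z) :=
    (hm.indicator hb).comp (measurable_id.const_sub x)
  have h1 : ∫⁻ u in Metric.closedBall c R, Φ (x - s • u) =
      ∫⁻ u : R3, (Metric.closedBall (x - s • c) (s * R)).indicator Φ (x - s • u) := by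
    rw [← lintegral_indicator Metric.isClosed_closedBall.measurableSet]
    refine lintegral_congr fun u => ?_
    have hiff : x - s • u ∈ Metric.closedBall (x - s • c) (s * R) ↔ u ∈ Metric.closedBall c R := by
      rw [Metric.mem_closedBall, Metric.mem_closedBall, dist_sub_left, dist_smul₀,
        Real.norm_of_nonneg hs.le, mul_le_mul_iff_right₀ hs]
    by_cases hu : u ∈ Metric.closedBall c R
    · rw [indicator_of_mem hu, indicator_of_mem (hiff.2 hu)]
    · rw [indicator_of_notMem hu, indicator_of_notMem (mt hiff.1 hu)]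
  have h2 := lintegral_map (μ := (volume : Measure R3)) hΨ (measurable_const_smul s)
  rw [Measure.map_addHaar_smul volume hs.ne', lintegral_smul_measure,
    lintegral_sub_left_eq_self ((Metric.closedBall (x - s • c) (s * R)).indicator Φ) x,
    lintegral_indicator hb] at h2
  rw [h1, ← h2]
  simp [abs_of_pos hs]

theorem lintegral_slab_add {Φ : R3 → ℝ≥0∞} (hm : Measurable Φ)
    (hi : ∀ x (c : ℝ), Φ (x + EuclideanSpace.single 0 c) = Φ x) (c : R3) :
    ∫⁻ x in slab, Φ (x + c) = ∫⁻ x in slab, Φ x := by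
  have e : ∀ x : R3, Φ (x + c) = Φ (x + (c - EuclideanSpace.single 0 (c 0))) := fun x => by
    rw [← hi (x + (c - EuclideanSpace.single 0 (c 0))) (c 0), add_assoc, sub_add_cancel]
  simp only [e]
  rw [path_lintegral_translate measurableSet_slab]
  congr 2
  ext y
  simp [slab]

theorem lintegral_ball_le_slab {Φ : R3 → ℝ≥0∞} (hm : Measurable Φ)
    (hi : ∀ x (c : ℝ), Φ (x + EuclideanSpace.single 0 c) = Φ x) (c : R3) :
    ∫⁻ x in Metric.closedBall c (1 / 2), Φ x ≤ ∫⁻ x in slab, Φ x := by
  rw [← lintegral_slab_add hm hi (EuclideanSpace.single 0 (c 0 - 1 / 2)),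
    path_lintegral_translate measurableSet_slab]
  refine lintegral_mono_set fun y hy => ?_
  have h1 : ‖(y - c) 0‖ ≤ ‖y - c‖ := PiLp.norm_apply_le (y - c) 0
  have h2 : ‖y - c‖ ≤ 1 / 2 := by simpa [dist_eq_norm] using hy
  have h3 : |y 0 - c 0| ≤ 1 / 2 := by simpa using h1.trans h2
  have h4 := abs_le.1 h3
  simp only [slab, mem_ofPred_eq, PiLp.sub_apply, PiLp.single_apply, if_true, mem_Icc]
  constructor <;> linarith [h4.1, h4.2]

end Crest.Agent.R68
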