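/-
R68/C0a: the frame, the lattice, the distance to the lines
Skeleton by helper76 (row 68); keep the statements unchanged, add any helper lemmas you like.
-/
import Crest.Agent.R68.CDefs
import Crest.Agent.R68.Path

set_option autoImplicit false
set_option linter.unusedVariables false
set_option linter.unusedSectionVars false

noncomputable section

namespace Crest.Agent.R68

open MeasureTheory Set Filter Topology
open scoped ENNReal NNReal
open Crest.AnalysisR.VecCalc3 Crest.AnalysisR.PDE.Boltzmann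

variable {x y v : R3} {k : ℤ × ℤ}

theorem C0a_s2 : √2 * √2 = (2 : ℝ) := Real.mul_self_sqrt (by norm_num)
theorem C0a_s3 : √3 * √3 = (3 : ℝ) := Real.mul_self_sqrt (by norm_num)
theorem C0a_s3pos : (0 : ℝ) < √3 := Real.sqrt_pos.2 (by norm_num)
theorem C0a_e10 : e1 0 = 1 := by simp [e1]
theorem C0a_e11 : e1 1 = 0 := by simp [e1]
theorem C0a_e12 : e1 2 = 0 := by simp [e1]
theorem C0a_e20 : e2 0 = 0 := rfl
theorem C0a_e21 : e2 1 = 1 / √3 := rfl
theorem C0a_e22 : e2 2 = √2 / √3 := rfl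
theorem C0a_e30 : e3 0 = 0 := rfl
theorem C0a_e31 : e3 1 = -(√2 / √3) := rfl
theorem C0a_e32 : e3 2 = 1 / √3 := rfl
theorem C0a_lat0 (k : ℤ × ℤ) : lat k 0 = 0 := rfl
theorem C0a_lat1 (k : ℤ × ℤ) : lat k 1 = k.1 := rfl
theorem C0a_lat2 (k : ℤ × ℤ) : lat k 2 = k.2 := rfl

theorem C0a_ext {x y : R3} (h0 : x 0 = y 0) (h1 : x 1 = y 1) (h2 : x 2 = y 2) : x = y := by
  ext i
  fin_cases i
  · exact h0
  · exact h1
  · exact h2

theorem C0a_norm_one {x : R3} (h : x 0 ^ 2 + x 1 ^ 2 + x 2 ^ 2 = 1) : ‖x‖ = 1 := by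
  rw [← geo4_norm_sq] at h
  exact (pow_eq_one_iff_of_nonneg (norm_nonneg _) two_ne_zero).1 h

theorem norm_e1 : ‖e1‖ = 1 := by
  apply C0a_norm_one
  rw [C0a_e10, C0a_e11, C0a_e12]; norm_num
theorem norm_e2 : ‖e2‖ = 1 := by
  apply C0a_norm_one
  rw [C0a_e20, C0a_e21, C0a_e22, div_pow, div_pow, Real.sq_sqrt (by norm_num),
    Real.sq_sqrt (by norm_num)]
  norm_num
theorem norm_e3 : ‖e3‖ = 1 := by
  apply C0a_norm_one
  rw [C0a_e30, C0a_e31, C0a_e32, neg_sq, div_pow, div_pow, Real.sq_sqrt (by norm_num),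
    Real.sq_sqrt (by norm_num)]
  norm_num
theorem inner_e2_e3 : inner ℝ e2 e3 = 0 := by
  rw [geo4_inner, C0a_e20, C0a_e21, C0a_e22, C0a_e30, C0a_e31, C0a_e32]; ring
theorem inner_e2_e1 : inner ℝ e2 e1 = 0 := by
  rw [geo4_inner, C0a_e20, C0a_e11, C0a_e12]; ring
theorem inner_e3_e1 : inner ℝ e3 e1 = 0 := by
  rw [geo4_inner, C0a_e30, C0a_e11, C0a_e12]; ring
theorem inner_e1 (x : R3) : inner ℝ x e1 = x 0 := by
  rw [geo4_inner, C0a_e10, C0a_e11, C0a_e12]; ring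
theorem c2_eq (x : R3) : c2 x = (x 1 + √2 * x 2) / √3 := by
  rw [c2, geo4_inner, C0a_e20, C0a_e21, C0a_e22]; ring
theorem c3_eq (x : R3) : c3 x = (-(√2 * x 1) + x 2) / √3 := by
  rw [c3, geo4_inner, C0a_e30, C0a_e31, C0a_e32]; ring
theorem c2_add (x y : R3) : c2 (x + y) = c2 x + c2 y := inner_add_left _ _ _
theorem c2_sub (x y : R3) : c2 (x - y) = c2 x - c2 y := inner_sub_left _ _ _
theorem c2_smul (a : ℝ) (x : R3) : c2 (a • x) = a * c2 x := real_inner_smul_left _ _ _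
theorem c3_add (x y : R3) : c3 (x + y) = c3 x + c3 y := inner_add_left _ _ _
theorem c3_sub (x y : R3) : c3 (x - y) = c3 x - c3 y := inner_sub_left _ _ _
theorem c3_smul (a : ℝ) (x : R3) : c3 (a • x) = a * c3 x := real_inner_smul_left _ _ _
theorem c2_single (c : ℝ) : c2 (EuclideanSpace.single 0 c) = 0 := by
  rw [c2_eq]; simp
theorem c3_single (c : ℝ) : c3 (EuclideanSpace.single 0 c) = 0 := by
  rw [c3_eq]; simp
theorem frame_zero (a b c : ℝ) : (a • e1 + b • e2 + c • e3) 0 = a := by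
  simp only [PiLp.add_apply, PiLp.smul_apply, smul_eq_mul, C0a_e10, C0a_e20, C0a_e30]; ring
theorem frame_c2 (a b c : ℝ) : c2 (a • e1 + b • e2 + c • e3) = b := by
  rw [c2_add, c2_add, c2_smul, c2_smul, c2_smul, c2, c2, c2, real_inner_comm, inner_e2_e1,
    real_inner_self_eq_norm_sq, norm_e2, real_inner_comm, inner_e2_e3]
  ring
theorem frame_c3 (a b c : ℝ) : c3 (a • e1 + b • e2 + c • e3) = c := by
  rw [c3_add, c3_add, c3_smul, c3_smul, c3_smul, c3, c3, c3, real_inner_comm, inner_e3_e1,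
    inner_e2_e3, real_inner_self_eq_norm_sq, norm_e3]
  ring
theorem frame_decomp (x : R3) : x = x 0 • e1 + c2 x • e2 + c3 x • e3 := by
  have h3 := C0a_s3pos.ne'
  apply C0a_ext
  · rw [frame_zero]
  · simp only [PiLp.add_apply, PiLp.smul_apply, smul_eq_mul, C0a_e11, C0a_e21, C0a_e31, c2_eq, c3_eq]
    field_simp
    rw [Real.sq_sqrt (by norm_num)]
    linear_combination (-x 1) * C0a_s2
  · simp only [PiLp.add_apply, PiLp.smul_apply, smul_eq_mul, C0a_e12, C0a_e22, C0a_e32, c2_eq, c3_eq]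
    field_simp
    rw [Real.sq_sqrt (by norm_num)]
    linear_combination (-x 2) * C0a_s2
theorem C0a_sq (x : R3) : x 1 ^ 2 + x 2 ^ 2 = c2 x ^ 2 + c3 x ^ 2 := by
  rw [c2_eq, c3_eq, div_pow, div_pow, Real.sq_sqrt (by norm_num)]
  linear_combination (-(x 1 ^ 2 + x 2 ^ 2) / 3) * C0a_s2
theorem norm_sq_frame (x : R3) : ‖x‖ ^ 2 = x 0 ^ 2 + c2 x ^ 2 + c3 x ^ 2 := by
  rw [geo4_norm_sq, add_assoc, C0a_sq, add_assoc]
theorem norm_le_frame (x : R3) : ‖x‖ ≤ |x 0| + |c2 x| + |c3 x| := by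
  apply le_of_sq_le_sq _ (by positivity) |>.trans_eq rfl
  rw [norm_sq_frame, ← sq_abs (x 0), ← sq_abs (c2 x), ← sq_abs (c3 x)]
  have := abs_nonneg (x 0)
  have := abs_nonneg (c2 x)
  have := abs_nonneg (c3 x)
  nlinarith [mul_nonneg (abs_nonneg (x 0)) (abs_nonneg (c2 x)),
    mul_nonneg (abs_nonneg (x 0)) (abs_nonneg (c3 x)),
    mul_nonneg (abs_nonneg (c2 x)) (abs_nonneg (c3 x))]
theorem abs_zero_le_norm (x : R3) : |x 0| ≤ ‖x‖ := by
  apply abs_le_of_sq_le_sq _ (norm_nonneg _)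
  rw [norm_sq_frame]
  nlinarith [sq_nonneg (c2 x), sq_nonneg (c3 x)]
theorem abs_c2_le_norm (x : R3) : |c2 x| ≤ ‖x‖ := by
  apply abs_le_of_sq_le_sq _ (norm_nonneg _)
  rw [norm_sq_frame]
  nlinarith [sq_nonneg (x 0), sq_nonneg (c3 x)]
theorem abs_c3_le_norm (x : R3) : |c3 x| ≤ ‖x‖ := by
  apply abs_le_of_sq_le_sq _ (norm_nonneg _)
  rw [norm_sq_frame]
  nlinarith [sq_nonneg (x 0), sq_nonneg (c2 x)]
theorem continuous_c2 : Continuous c2 := continuous_id.inner continuous_const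
theorem continuous_c3 : Continuous c3 := continuous_id.inner continuous_const
theorem continuous_ry : Continuous ry := by
  unfold ry
  fun_prop
theorem ry_nonneg (x : R3) : 0 ≤ ry x := Real.sqrt_nonneg _
theorem C0a_ry_sq (x : R3) : ry x ^ 2 = x 1 ^ 2 + x 2 ^ 2 := Real.sq_sqrt (by positivity)
theorem ry_sq (x : R3) : ry x ^ 2 = c2 x ^ 2 + c3 x ^ 2 := by
  rw [C0a_ry_sq, C0a_sq]
theorem abs_c2_le_ry (x : R3) : |c2 x| ≤ ry x := by
  apply abs_le_of_sq_le_sq _ (ry_nonneg _)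
  rw [ry_sq]
  nlinarith [sq_nonneg (c3 x)]
theorem abs_c3_le_ry (x : R3) : |c3 x| ≤ ry x := by
  apply abs_le_of_sq_le_sq _ (ry_nonneg _)
  rw [ry_sq]
  nlinarith [sq_nonneg (c2 x)]
theorem ry_le_add (x : R3) : ry x ≤ |c2 x| + |c3 x| := by
  apply le_of_sq_le_sq _ (by positivity) |>.trans_eq rfl
  rw [ry_sq, ← sq_abs (c2 x), ← sq_abs (c3 x)]
  nlinarith [mul_nonneg (abs_nonneg (c2 x)) (abs_nonneg (c3 x))]
theorem ry_le_norm (x : R3) : ry x ≤ ‖x‖ := by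
  apply le_of_sq_le_sq _ (norm_nonneg _) |>.trans_eq rfl
  rw [ry_sq, norm_sq_frame]
  nlinarith [sq_nonneg (x 0)]
theorem C0a_ry_eq (x : R3) : ry x = ‖x - x 0 • e1‖ := by
  rw [← sq_eq_sq₀ (ry_nonneg _) (norm_nonneg _), C0a_ry_sq, geo4_norm_sq]
  simp only [PiLp.sub_apply, PiLp.smul_apply, smul_eq_mul, C0a_e10, C0a_e11, C0a_e12]
  ring
theorem ry_add_le (x y : R3) : ry (x + y) ≤ ry x + ry y := by
  rw [C0a_ry_eq, C0a_ry_eq, C0a_ry_eq]
  refine le_of_eq_of_le ?_ (norm_add_le _ _)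
  congr 1
  rw [PiLp.add_apply, add_smul]
  abel
theorem ry_smul (a : ℝ) (x : R3) : ry (a • x) = |a| * ry x := by
  rw [C0a_ry_eq, C0a_ry_eq, PiLp.smul_apply, smul_eq_mul, mul_smul, ← smul_sub, norm_smul,
    Real.norm_eq_abs]
theorem C0a_ry_neg (x : R3) : ry (-x) = ry x := by
  simp [ry]
theorem ry_sub_le (x y : R3) : ry (x - y) ≤ ry x + ry y := by
  rw [sub_eq_add_neg, ← C0a_ry_neg y]
  exact ry_add_le _ _
theorem ry_single (x : R3) (c : ℝ) : ry (x + EuclideanSpace.single 0 c) = ry x := by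
  simp [ry]

/-- Lebesgue measure in the frame (`lintegral_frame`). -/
theorem lintegral_e123 {g : R3 → ℝ≥0∞} (hg : Measurable g) :
    ∫⁻ z, g z = ∫⁻ a : ℝ, ∫⁻ b : ℝ, ∫⁻ c : ℝ, g (a • e1 + b • e2 + c • e3) := by
  rw [lintegral_frame norm_e1 norm_e2 norm_e3 inner_e2_e3 inner_e2_e1 inner_e3_e1 hg]
  refine lintegral_congr fun a => ?_
  have hm : Measurable fun p : ℝ × ℝ => g (a • e1 + (p.1 • e2 + p.2 • e3)) :=
    hg.comp (by fun_prop)
  rw [Measure.volume_eq_prod, lintegral_prod _ hm.aemeasurable]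
  simp only [add_assoc]

theorem lat_zero : lat 0 = 0 := by
  apply C0a_ext <;> simp [C0a_lat0, C0a_lat1, C0a_lat2]
theorem lat_add (k k' : ℤ × ℤ) : lat (k + k') = lat k + lat k' := by
  apply C0a_ext <;> simp [C0a_lat0, C0a_lat1, C0a_lat2]
theorem lat_sub (k k' : ℤ × ℤ) : lat (k - k') = lat k - lat k' := by
  apply C0a_ext <;> simp [C0a_lat0, C0a_lat1, C0a_lat2]
theorem lat_mem (k : ℤ × ℤ) : lat k ∈ Gam := ⟨⟨k.1, rfl⟩, ⟨k.2, rfl⟩⟩
theorem neg_lat_mem (k : ℤ × ℤ) : -lat k ∈ Gam :=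
  ⟨⟨-k.1, by simp [C0a_lat1]⟩, ⟨-k.2, by simp [C0a_lat2]⟩⟩
theorem single_mem_Gam (c : ℝ) : (EuclideanSpace.single 0 c : R3) ∈ Gam :=
  ⟨⟨0, by simp⟩, ⟨0, by simp⟩⟩
theorem mem_Gam {a : R3} (h : a ∈ Gam) : ∃ k c, a = lat k + EuclideanSpace.single 0 c := by
  obtain ⟨⟨k1, h1⟩, ⟨k2, h2⟩⟩ := h
  refine ⟨(k1, k2), a 0, ?_⟩
  apply C0a_ext <;> simp [C0a_lat0, C0a_lat1, C0a_lat2, h1, h2]
theorem one_le_ry_lat (hk : k ≠ 0) : 1 ≤ ry (lat k) := by
  apply le_of_sq_le_sq _ (ry_nonneg _) |>.trans_eq rfl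
  rw [C0a_ry_sq, C0a_lat1, C0a_lat2]
  have h : (1 : ℤ) ≤ k.1 ^ 2 + k.2 ^ 2 := by
    by_contra hc
    apply hk
    have h1 : k.1 = 0 := by nlinarith [sq_nonneg k.1, sq_nonneg k.2]
    have h2 : k.2 = 0 := by nlinarith [sq_nonneg k.1, sq_nonneg k.2]
    exact Prod.ext h1 h2
  have h' : ((1 : ℤ) : ℝ) ≤ ((k.1 ^ 2 + k.2 ^ 2 : ℤ) : ℝ) := Int.cast_le.2 h
  push_cast at h'
  rw [one_pow]
  exact h'
theorem ry_sub_lat (hk : k ≠ 0) (x : R3) : 1 - ry x ≤ ry (x - lat k) := by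
  have h1 := one_le_ry_lat hk
  have h2 := ry_sub_le x (x - lat k)
  rw [sub_sub_cancel] at h2
  linarith
theorem lat_unique {k' : ℤ × ℤ} (h : ry (x - lat k) + ry (x - lat k') < 1) : k = k' := by
  by_contra hc
  have h1 := one_le_ry_lat (sub_ne_zero.2 hc)
  have h2 := ry_sub_le (x - lat k') (x - lat k)
  rw [sub_sub_sub_cancel_left, ← lat_sub] at h2
  linarith

theorem C0a_pell (hk : k ≠ 0) : k.1 ^ 2 - 2 * k.2 ^ 2 ≠ 0 := by
  intro h
  by_cases h2 : k.2 = 0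
  · apply hk
    rw [h2] at h
    have h1 : k.1 = 0 := by nlinarith [sq_nonneg k.1]
    exact Prod.ext h1 h2
  · have h3 : (k.2 : ℝ) ≠ 0 := by exact_mod_cast h2
    have h4 : (k.1 : ℝ) ^ 2 - 2 * (k.2 : ℝ) ^ 2 = 0 := by exact_mod_cast h
    have h5 : √2 = |(k.1 : ℝ) / k.2| := by
      rw [← Real.sqrt_sq_eq_abs]
      congr 1
      field_simp
      linarith
    apply irrational_sqrt_two
    exact ⟨|(k.1 : ℚ) / k.2|, by rw [h5]; push_cast; rfl⟩

/-- `|k₁² - 2 k₂²| ≥ 1` (`irrational_sqrt_two`) and `|k₁ - √2 k₂| ≤ √3 ‖k‖`. -/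
theorem dioph (hk : k ≠ 0) : 1 ≤ 3 * ry (lat k) * |c2 (lat k)| := by
  have h1 : (1 : ℝ) ≤ |(k.1 : ℝ) ^ 2 - 2 * (k.2 : ℝ) ^ 2| := by
    exact_mod_cast Int.one_le_abs (C0a_pell hk)
  have h2 : (k.1 : ℝ) ^ 2 - 2 * (k.2 : ℝ) ^ 2 = (k.1 - √2 * k.2) * (k.1 + √2 * k.2) := by
    linear_combination (k.2 : ℝ) ^ 2 * C0a_s2
  have h3 : |(k.1 : ℝ) - √2 * k.2| ≤ √3 * ry (lat k) := by
    apply abs_le_of_sq_le_sq _ (mul_nonneg C0a_s3pos.le (ry_nonneg _))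
    rw [mul_pow, C0a_ry_sq, C0a_lat1, C0a_lat2, Real.sq_sqrt (by norm_num)]
    nlinarith [sq_nonneg (√2 * (k.1 : ℝ) + k.2), C0a_s2]
  have h4 : |(k.1 : ℝ) + √2 * k.2| = √3 * |c2 (lat k)| := by
    rw [c2_eq, C0a_lat1, C0a_lat2, abs_div, abs_of_pos C0a_s3pos]
    field_simp
  rw [h2, abs_mul, h4] at h1
  calc (1 : ℝ) ≤ _ := h1
    _ ≤ √3 * ry (lat k) * (√3 * |c2 (lat k)|) :=
      mul_le_mul_of_nonneg_right h3 (mul_nonneg C0a_s3pos.le (abs_nonneg _))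
    _ = _ := by linear_combination (ry (lat k) * |c2 (lat k)|) * C0a_s3

theorem C0a_card (a : ℝ) {R : ℝ} (hR : 0 ≤ R) :
    ((Finset.Icc ⌈a - R⌉ ⌊a + R⌋).card : ℝ) ≤ 2 * R + 1 := by
  rw [Int.card_Icc]
  have h1 := Int.le_ceil (a - R)
  have h2 := Int.floor_le (a + R)
  rcases le_total 0 (⌊a + R⌋ + 1 - ⌈a - R⌉) with h | h
  · have : (((⌊a + R⌋ + 1 - ⌈a - R⌉).toNat : ℤ) : ℝ) = ((⌊a + R⌋ + 1 - ⌈a - R⌉ : ℤ) : ℝ) := by
      rw [Int.toNat_of_nonneg h]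
    push_cast at this
    rw [this]
    linarith
  · rw [Int.toNat_eq_zero.2 h]
    push_cast
    linarith

theorem C0a_abs1 (x : R3) : |x 1| ≤ ry x := by
  apply abs_le_of_sq_le_sq _ (ry_nonneg _)
  rw [C0a_ry_sq]
  nlinarith [sq_nonneg (x 2)]
theorem C0a_abs2 (x : R3) : |x 2| ≤ ry x := by
  apply abs_le_of_sq_le_sq _ (ry_nonneg _)
  rw [C0a_ry_sq]
  nlinarith [sq_nonneg (x 1)]

theorem exists_near (x : R3) {R : ℝ} (hR : 0 ≤ R) : ∃ s : Finset (ℤ × ℤ),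
    (s.card : ℝ) ≤ (2 * R + 1) ^ 2 ∧ ∀ k, ry (x - lat k) ≤ R → k ∈ s := by
  refine ⟨Finset.Icc ⌈x 1 - R⌉ ⌊x 1 + R⌋ ×ˢ Finset.Icc ⌈x 2 - R⌉ ⌊x 2 + R⌋, ?_, fun k hk => ?_⟩
  · rw [Finset.card_product, Nat.cast_mul, sq]
    exact mul_le_mul (C0a_card _ hR) (C0a_card _ hR) (Nat.cast_nonneg _) (by positivity)
  · have h1 := abs_le.1 ((C0a_abs1 _).trans hk)
    have h2 := abs_le.1 ((C0a_abs2 _).trans hk)
    rw [PiLp.sub_apply, C0a_lat1] at h1
    rw [PiLp.sub_apply, C0a_lat2] at h2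
    simp only [Finset.mem_product, Finset.mem_Icc, Int.ceil_le, Int.le_floor]
    exact ⟨⟨by linarith [h1.2], by linarith [h1.1]⟩, by linarith [h2.2], by linarith [h2.1]⟩

theorem dd_le (x : R3) (k : ℤ × ℤ) : dd x ≤ ry (x - lat k) :=
  ciInf_le (f := fun k : ℤ × ℤ => ry (x - lat k)) ⟨0, by rintro _ ⟨k, rfl⟩; exact ry_nonneg _⟩ k

theorem C0a_dd_round (x : R3) : dd x = ry (x - lat (round (x 1), round (x 2))) := by
  refine le_antisymm (dd_le x _) (le_ciInf fun k => ?_)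
  apply Real.sqrt_le_sqrt
  simp only [PiLp.sub_apply, C0a_lat1, C0a_lat2]
  exact add_le_add (sq_le_sq.2 (round_le _ _)) (sq_le_sq.2 (round_le _ _))

/-- Round both coordinates. -/
theorem exists_dd (x : R3) : ∃ k, dd x = ry (x - lat k) := ⟨_, C0a_dd_round x⟩
theorem dd_nonneg (x : R3) : 0 ≤ dd x := by
  rw [C0a_dd_round]; exact ry_nonneg _
theorem dd_le_one (x : R3) : dd x ≤ 1 := by
  rw [C0a_dd_round]
  apply le_of_sq_le_sq _ zero_le_one |>.trans_eq rfl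
  rw [C0a_ry_sq]
  simp only [PiLp.sub_apply, C0a_lat1, C0a_lat2]
  have h1 := abs_le.1 (abs_sub_round (x 1))
  have h2 := abs_le.1 (abs_sub_round (x 2))
  nlinarith [h1.1, h1.2, h2.1, h2.2]
theorem dd_le_ry (x : R3) : dd x ≤ ry x := by
  have := dd_le x 0
  rwa [lat_zero, sub_zero] at this
theorem dd_eq_of_le (h : ry (x - lat k) ≤ 1 / 2) : dd x = ry (x - lat k) := by
  refine le_antisymm (dd_le x _) (le_ciInf fun k' => ?_)
  by_cases c : k = k'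
  · rw [c]
  · by_contra hc
    exact c (lat_unique (x := x) (by linarith))
theorem dd_eq_ry (h : ry x ≤ 1 / 2) : dd x = ry x := by
  have := dd_eq_of_le (x := x) (k := 0) (by rwa [lat_zero, sub_zero])
  rwa [lat_zero, sub_zero] at this
theorem C0a_dd_lat_le (x : R3) (k : ℤ × ℤ) : dd (x + lat k) ≤ dd x := by
  obtain ⟨k', h⟩ := exists_dd x
  have := dd_le (x + lat k) (k' + k)
  rwa [lat_add, add_sub_add_right_eq_sub, ← h] at this
theorem dd_add_Gam (x : R3) {a : R3} (ha : a ∈ Gam) : dd (x + a) = dd x := by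
  obtain ⟨k, c, rfl⟩ := mem_Gam ha
  have h1 : dd (x + (lat k + EuclideanSpace.single 0 c)) = dd (x + lat k) := by
    unfold dd
    congr 1
    funext k'
    rw [← add_assoc, add_sub_right_comm, ry_single]
  rw [h1]
  refine le_antisymm (C0a_dd_lat_le x k) ?_
  have := C0a_dd_lat_le (x + lat k) (0 - k)
  rwa [lat_sub, lat_zero, zero_sub, add_neg_cancel_right] at this
theorem dd_add_le (x z : R3) : dd (x + z) ≤ dd x + ‖z‖ := by
  obtain ⟨k, h⟩ := exists_dd x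
  have h1 := dd_le (x + z) k
  have h2 := ry_add_le (x - lat k) z
  rw [← add_sub_right_comm] at h2
  linarith [ry_le_norm z]
theorem dd_sub_le (x z : R3) : dd (x - z) ≤ dd x + ‖z‖ := by
  rw [sub_eq_add_neg, ← norm_neg z]
  exact dd_add_le _ _
theorem le_dd_sub (x z : R3) : dd x ≤ dd (x - z) + ‖z‖ := by
  have := dd_add_le (x - z) z
  rwa [sub_add_cancel] at this
theorem continuous_dd : Continuous dd := by
  refine (LipschitzWith.of_le_add_mul 1 fun x y => ?_).continuous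
  have := le_dd_sub x (x - y)
  rw [sub_sub_cancel] at this
  rw [dist_eq_norm]
  simpa using this

end Crest.Agent.R68
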