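/-
R68/PA1: regularity and time integrals for the abstract initial layer
Skeleton by helper76 (row 68); keep the statements unchanged, add any helper lemmas you like.
-/
import Crest.Agent.R68.ADefs
import Crest.Agent.R68.Path
import Crest.Agent.R68.Duh1
import Crest.Agent.R68.Geo4
import Crest.Agent.R68.Geo5

set_option autoImplicit false
set_option linter.unusedVariables false
set_option linter.unusedSectionVars false

noncomputable section

namespace Crest.Agent.R68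

open MeasureTheory Set Filter Topology
open scoped ENNReal NNReal
open Crest.AnalysisR.VecCalc3 Crest.AnalysisR.PDE.Boltzmann

variable {f g a b f' g' : Fn} {r T : ℝ}

theorem PA1_four_le (b : ℝ≥0) : (4 : ℝ≥0) ≤ (2 + b) ^ 2 :=
  calc (4 : ℝ≥0) = 2 ^ 2 := by norm_num
    _ ≤ (2 + b) ^ 2 := pow_le_pow_left₀ zero_le le_self_add 2

theorem PA1_one_le_br (v : R3) : 1 ≤ br v :=
  ENNReal.one_le_ofReal.2 (le_add_of_nonneg_right (norm_nonneg v))

theorem PA1_two_mul_le {y z : ℝ≥0∞} (h : 2 * y ≤ z) (hz : z ≠ ⊤) : y ≠ ⊤ := by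
  rintro rfl
  rw [ENNReal.mul_top two_ne_zero] at h
  exact hz (top_le_iff.1 h)

theorem PA1_int_pow {a : ℕ} (ha : 1 ≤ a) {t : ℝ} (ht : 0 ≤ t) :
    ∫⁻ s in Ioc 0 t, ENNReal.ofReal (s ^ a / s) = ENNReal.ofReal (t ^ a / a) := by
  obtain ⟨n, rfl⟩ : ∃ n, a = n + 1 := ⟨a - 1, by omega⟩
  have h1 : ∫⁻ s in Ioc 0 t, ENNReal.ofReal (s ^ (n + 1) / s) =
      ∫⁻ s in Ioc 0 t, ENNReal.ofReal (s ^ n) := by
    refine setLIntegral_congr_fun measurableSet_Ioc fun s hs => ?_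
    simp only [pow_succ, mul_div_cancel_right₀ _ hs.1.ne']
  have hi : IntegrableOn (fun s : ℝ => s ^ n) (Ioc 0 t) :=
    (continuous_pow n).integrableOn_Icc.mono_set Ioc_subset_Icc_self
  rw [h1, ← ofReal_integral_eq_lintegral_ofReal hi, ← intervalIntegral.integral_of_le ht,
    integral_pow]
  · simp
  · filter_upwards [ae_restrict_mem measurableSet_Ioc] with s hs
    exact pow_nonneg hs.1.le n

theorem LeOn.oc (h : LeOn r T f g) : LeOc r T f g := by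
  intro t ht x v
  exact h t (Ioc_subset_Icc_self ht) x v

theorem LeOc.trans {q : Fn} (h : LeOc r T f g) (h' : LeOc r T g q) : LeOc r T f q := by
  intro t ht x v
  exact (h t ht x v).trans (h' t ht x v)

theorem LeOc.mono {T' : ℝ} (h : LeOc r T f g) (hT : T' ≤ T) : LeOc r T' f g := by
  intro t ht x v
  exact h t ⟨ht.1, ht.2.trans hT⟩ x v

theorem PI_mono_oc (h : LeOc r T f g) : LeOn r T (PI f r) (PI g r) := by
  intro t ht x v
  exact setLIntegral_mono' measurableSet_Ioc fun s hs => h s ⟨hs.1, hs.2.trans ht.2⟩ _ v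

theorem AI_mono_oc (hab : LeOc r T b a) (h : LeOc r T f g) : LeOn r T (AI a f r) (AI b g r) := by
  intro t ht x v
  refine setLIntegral_mono' measurableSet_Ioc fun s hs => ?_
  refine mul_le_mul' (ex_anti ?_) (h s ⟨hs.1, hs.2.trans ht.2⟩ _ v)
  exact setLIntegral_mono' measurableSet_Ioc fun s' hs' =>
    hab s' ⟨hs.1.trans hs'.1, hs'.2.trans ht.2⟩ _ v

theorem GN_mono_oc (h : LeOc r T f f') (h' : LeOc r T g g') : LeOc r T (GN f g) (GN f' g') := by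
  intro t ht x v
  exact gn_mono (fun u => h t ht x u) (fun u => h' t ht x u) v

theorem LS_mono_oc (h : LeOc r T f g) : LeOc r T (LS f) (LS g) := by
  intro t ht x v
  exact ls_mono (fun u => h t ht x u) v

theorem GN_comm (hf : Meas f) (hg : Meas g) : GN f g = GN g f := by
  funext t x v
  exact gn_comm (hf.slice t x) (hg.slice t x) v

/-- `lintegral_ex_mul_le_one`. -/
theorem AI_mul_le (ha : Meas a) {t : ℝ} {x v : R3} {c : ℝ≥0∞}
    (h : ∀ s ∈ Ioc r t, pa f t x v s ≤ c) : AI a (a * f) r t x v ≤ c := by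
  have hm : Measurable fun s => ex (∫⁻ s' in Ioc s t, pa a t x v s') * pa a t x v s :=
    (measurable_ex.comp (measurable_lintegral_Ioc_left (ha.pa t x v) t)).mul (ha.pa t x v)
  calc AI a (a * f) r t x v
      ≤ ∫⁻ s in Ioc r t, ex (∫⁻ s' in Ioc s t, pa a t x v s') * pa a t x v s * c := by
        refine setLIntegral_mono' measurableSet_Ioc fun s hs => ?_
        rw [mul_assoc]
        exact mul_le_mul' le_rfl (mul_le_mul' le_rfl (h s hs))
    _ = (∫⁻ s in Ioc r t, ex (∫⁻ s' in Ioc s t, pa a t x v s') * pa a t x v s) * c :=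
        lintegral_mul_const c hm
    _ ≤ 1 * c := mul_le_mul' (lintegral_ex_mul_le_one (ha.pa t x v) r t) le_rfl
    _ = c := one_mul c

theorem Reg.add (h : Reg f) (h' : Reg g) : Reg (f + g) := by
  exact ⟨h.meas.add h'.meas, h.inv.add h'.inv, fun t x v =>
    ENNReal.add_ne_top.2 ⟨h.fin t x v, h'.fin t x v⟩⟩

theorem Reg.mul (h : Reg f) (h' : Reg g) : Reg (f * g) := by
  exact ⟨h.meas.mul h'.meas, h.inv.mul h'.inv, fun t x v =>
    ENNReal.mul_ne_top (h.fin t x v) (h'.fin t x v)⟩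

theorem Reg.smul (h : Reg f) {c : ℝ≥0∞} (hc : c ≠ ⊤) : Reg (c • f) := by
  exact ⟨h.meas.smul c, h.inv.smul c, fun t x v => ENNReal.mul_ne_top hc (h.fin t x v)⟩

theorem reg_tm {j : ℝ → ℝ} (h : Measurable j) : Reg (tm j) := by
  exact ⟨meas_tm h, invF_tm j, fun t x v => ENNReal.ofReal_ne_top⟩

theorem reg_pw (a : ℕ) : Reg (pw a) := by
  exact reg_tm (measurable_id.pow_const a)

namespace P1

variable {D : P1} {F : Fn} {σ : ℝ≥0}

theorem OK.rEc (h : D.OK) : Reg D.Ec := by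
  exact h.rE0.add h.rE1

theorem OK.renv (h : D.OK) {M : ℝ≥0∞} (hM : M ≠ ⊤) (a : ℕ) : Reg (D.env M a) := by
  exact (h.rEc.add h.rH).add (((reg_pw a).mul h.rW).smul hM)

theorem OK.renv' (h : D.OK) {M : ℝ≥0∞} (hM : M ≠ ⊤) (a : ℕ) : Reg (D.env' M a) := by
  exact (((h.rE0.smul ENNReal.coe_ne_top).add h.rE1).add h.rH).add
    (((reg_pw a).mul h.rW).smul hM)

theorem OK.rZ (h : D.OK) (ε : ℝ≥0) (Λ : ℝ) (a : ℕ) : Reg (D.Z ε Λ a) := by
  exact (reg_tm (Real.measurable_exp.comp (measurable_id.const_mul Λ))).mul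
    (((h.rEc.smul ENNReal.coe_ne_top).add h.rH).add ((reg_pw a).mul h.rW))

theorem OK.meas_tr (h : D.OK) (hF : Meas F) : Meas (D.tr F) := by
  exact hF.inf ((h.rEc.meas.add h.rH.meas).add (h.rW.meas.smul _))

theorem OK.meas_hot (h : D.OK) (hF : Meas F) : Meas (D.hot F) := by
  exact hF.sub (h.rEc.meas.add h.rH.meas)

theorem OK.meas_gain (h : D.OK) (hF : Meas F) : Meas (D.gain F) := by
  exact ((h.meas_tr hF).GN (h.meas_tr hF)).add
    ((h.rE0.meas.GN (hF.sub (h.meas_tr hF))).smul _)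

theorem OK.meas_att (h : D.OK) : Meas D.att := by
  exact h.rE0.meas.LS.smul _

theorem OK.meas_Phi (h : D.OK) (hg : Meas g) (hF : Meas F) : Meas (D.Phi σ g F) := by
  exact Meas.DU h.mF0 (h.meas_tr hF).LS ((h.meas_gain hF).add (hg.smul _)) 0

theorem OK.inv_hot (h : D.OK) (hF : InvF F) : InvF (D.hot F) := by
  exact hF.sub (h.rEc.inv.add h.rH.inv)

theorem OK.inv_Phi (h : D.OK) (hg : InvF g) (hF : InvF F) : InvF (D.Phi σ g F) := by
  have htr : InvF (D.tr F) := hF.inf ((h.rEc.inv.add h.rH.inv).add (h.rW.inv.smul _))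
  have hgain : InvF (D.gain F) := (htr.GN htr).add ((h.rE0.inv.GN (hF.sub htr)).smul _)
  exact InvF.DU h.iF0 htr.LS (hgain.add (hg.smul _)) 0

theorem OK.e_le (h : D.OK) : 400 * D.e ≤ 1 := by
  refine le_trans ?_ h.e_small
  have h1 : (4 : ℝ≥0) ≤ (2 + D.b₁) ^ 2 := PA1_four_le D.b₁
  calc 400 * D.e = 100 * D.e * 1 * 4 := by ring
    _ ≤ 100 * D.e * D.Cw * (2 + D.b₁) ^ 2 := by gcongr; exact h.one_Cw

theorem OK.η_le (h : D.OK) : 400 * D.η ≤ 1 := by
  refine le_trans ?_ h.η_small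
  have h1 : (4 : ℝ≥0) ≤ (2 + D.b₁) ^ 2 := PA1_four_le D.b₁
  calc 400 * D.η = 100 * D.η * 4 := by ring
    _ ≤ 100 * D.η * (2 + D.b₁) ^ 2 := by gcongr

theorem OK.Ec_pa (h : D.OK) {t s : ℝ} (hs : s ≤ t) (x v : R3) : pa D.Ec t x v s ≤ D.Ec t x v := by
  exact add_le_add (h.E0_pa t x v s).le (h.E1_pa t x v s hs)

theorem le_env_iff (h : D.OK) {M : ℝ≥0∞} {a : ℕ} {T : ℝ} :
    LeOn 0 T F (D.env M a) ↔ LeOn 0 T (D.hot F) (M • (pw a * D.W)) := by
  refine forall₂_congr fun t ht => forall₂_congr fun x v => ?_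
  exact tsub_le_iff_left.symm

theorem env_mono (h : D.OK) {M M' : ℝ≥0∞} {a a' : ℕ} (hM : M ≤ M') (ha : a' ≤ a) :
    LeOn 0 D.t₁ (D.env M a) (D.env M' a') := by
  intro t ht x v
  refine add_le_add le_rfl (mul_le_mul' hM (mul_le_mul' ?_ le_rfl))
  exact ENNReal.ofReal_le_ofReal (pow_le_pow_of_le_one ht.1 (ht.2.trans h.t₁_le) ha)

/-- The picard map only sees the times in `(0, t₁]`. -/
theorem Phi_congr {G : Fn} (hFG : ∀ t ∈ Ioc 0 D.t₁, F t = G t) {t : ℝ} (ht : t ∈ Icc 0 D.t₁) :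
    D.Phi σ g F t = D.Phi σ g G t := by
  have htr : ∀ s ∈ Ioc 0 t, D.tr F s = D.tr G s := fun s hs => by
    have := hFG s ⟨hs.1, hs.2.trans ht.2⟩
    simp only [tr, Pi.inf_apply, this]
  funext x v
  refine duh_congr (fun s hs => ?_) fun s hs => ?_
  · simp only [pa, LS, htr s hs]
  · have := hFG s ⟨hs.1, hs.2.trans ht.2⟩
    simp only [pa, gain, GN, Pi.add_apply, Pi.smul_apply, Pi.sub_apply, htr s hs, this]

theorem OK.PA1_W_pa (h : D.OK) {t s : ℝ} (ht : t ∈ Icc 0 D.t₁) (x v : R3) (hs : s ∈ Ioc 0 t) :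
    pa D.W t x v s ≤ D.Cw * D.W t x v := by
  refine (h.W_pa t ht x v s hs).trans (mul_le_mul' ?_ le_rfl)
  exact mul_le_of_le_one_right' (Geo5_ga_le_one (sub_nonneg.2 hs.2) v)

/-- The singular gain: `E0W` and `W_pa`. -/
theorem OK.PI_E0W (h : D.OK) {j : ℝ → ℝ} (hj : Measurable j) {t : ℝ} (ht : t ∈ Icc 0 D.t₁)
    (x v : R3) : PI ((2 : ℝ≥0∞) • GN D.E0 (tm j * D.W)) 0 t x v ≤
      D.b₁ * (∫⁻ s in Ioc 0 t, ENNReal.ofReal (j s / s)) * D.W t x v := by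
  have hm : Measurable fun s : ℝ => ENNReal.ofReal (j s / s) :=
    (hj.div measurable_id).ennreal_ofReal
  rw [GN_tm_right h.rE0.meas h.rW.meas, ← lintegral_const_mul _ hm,
    ← lintegral_mul_const _ (hm.const_mul _)]
  refine setLIntegral_mono' measurableSet_Ioc fun s hs => ?_
  have h1 := h.E0W s ⟨hs.1, hs.2.trans ht.2⟩ (x - (t - s) • v) v
  have h2 : pa D.W t x v s ≤ D.Cw * D.W t x v := h.PA1_W_pa ht x v hs
  have h3 : ENNReal.ofReal (j s) * ENNReal.ofReal (D.b₀ / s) =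
      D.b₀ * ENNReal.ofReal (j s / s) := by
    rw [ENNReal.ofReal_div_of_pos hs.1, ENNReal.ofReal_div_of_pos hs.1,
      ENNReal.ofReal_coe_nnreal, div_eq_mul_inv, div_eq_mul_inv]
    ring
  calc pa ((2 : ℝ≥0∞) • (tm j * GN D.E0 D.W)) t x v s
      = 2 * (ENNReal.ofReal (j s) * GN D.E0 D.W s (x - (t - s) • v) v) := rfl
    _ ≤ 2 * (ENNReal.ofReal (j s) * (ENNReal.ofReal (D.b₀ / s) * (D.Cw * D.W t x v))) :=
        mul_le_mul' le_rfl (mul_le_mul' le_rfl (h1.trans (mul_le_mul' le_rfl h2)))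
    _ = D.b₁ * ENNReal.ofReal (j s / s) * D.W t x v := by
        rw [← mul_assoc (ENNReal.ofReal (j s)), h3, b₁]
        push_cast
        ring

theorem OK.PI_E0W_pw (h : D.OK) {a : ℕ} (ha : 1 ≤ a) :
    LeOn 0 D.t₁ (PI ((2 : ℝ≥0∞) • GN D.E0 (pw a * D.W)) 0)
      (((D.b₁ / a : ℝ≥0) : ℝ≥0∞) • (pw a * D.W)) := by
  intro t ht x v
  refine (h.PI_E0W (j := fun t => t ^ a) (measurable_id.pow_const a) ht x v).trans (le_of_eq ?_)
  have ha0 : (a : ℝ≥0) ≠ 0 := by exact_mod_cast (by omega : a ≠ 0)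
  have ha1 : (0 : ℝ) < a := by exact_mod_cast (by omega : 0 < a)
  rw [PA1_int_pow ha ht.1, ENNReal.ofReal_div_of_pos ha1, ENNReal.ofReal_natCast]
  change _ = ((D.b₁ / a : ℝ≥0) : ℝ≥0∞) * (ENNReal.ofReal (t ^ a) * D.W t x v)
  rw [ENNReal.coe_div ha0, ENNReal.coe_natCast, div_eq_mul_inv, div_eq_mul_inv]
  ring

/-- The regular gains: `E1W`, `HW`, `WW`, `W_pa`, `RW`. -/
theorem OK.PI_RW (h : D.OK) {j : ℝ → ℝ} (hj : Measurable j) (hm : MonotoneOn j (Icc 0 D.t₁)) :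
    LeOn 0 D.t₁ (PI ((2 : ℝ≥0∞) • GN (D.E1 + D.H + D.W) (tm j * D.W)) 0)
      ((D.η : ℝ≥0∞) • (tm j * D.W)) := by
  intro t ht x v
  have hm' := hm
  have hm : Measurable fun s : ℝ => br v * ga (t - s) v := by
    refine Measurable.const_mul ?_ _
    unfold ga
    fun_prop
  rw [GN_tm_right ((h.rE1.meas.add h.rH.meas).add h.rW.meas) h.rW.meas,
    GN_add_left (h.rE1.meas.add h.rH.meas) h.rW.meas h.rW.meas,
    GN_add_left h.rE1.meas h.rH.meas h.rW.meas]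
  have hK : (1 : ℝ≥0∞) ≤ D.K := by exact_mod_cast h.one_K
  calc PI ((2 : ℝ≥0∞) • (tm j * (GN D.E1 D.W + GN D.H D.W + GN D.W D.W))) 0 t x v
      ≤ ∫⁻ s in Ioc 0 t, (6 * D.K * D.Cw : ℝ≥0∞) * (br v * ga (t - s) v) *
          (ENNReal.ofReal (j t) * D.W t x v) := by
        refine setLIntegral_mono' measurableSet_Ioc fun s hs => ?_
        have hs' : s ∈ Ioc 0 D.t₁ := ⟨hs.1, hs.2.trans ht.2⟩
        have h1 := h.E1W s hs' (x - (t - s) • v) v
        have h2 := h.HW s hs' (x - (t - s) • v) v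
        have h3 := h.WW s hs' (x - (t - s) • v) v
        have h4 := h.W_pa t ht x v s hs
        have h5 : ENNReal.ofReal (j s) ≤ ENNReal.ofReal (j t) :=
          ENNReal.ofReal_le_ofReal (hm' (Ioc_subset_Icc_self hs') ht hs.2)
        have h6 : D.W s (x - (t - s) • v) v ≤ D.K * (br v * D.W s (x - (t - s) • v) v) :=
          calc D.W s (x - (t - s) • v) v = 1 * (1 * D.W s (x - (t - s) • v) v) := by
                rw [one_mul, one_mul]
            _ ≤ _ := mul_le_mul' hK (mul_le_mul' (PA1_one_le_br v) le_rfl)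
        calc pa ((2 : ℝ≥0∞) • (tm j * (GN D.E1 D.W + GN D.H D.W + GN D.W D.W))) t x v s
            = 2 * (ENNReal.ofReal (j s) * (GN D.E1 D.W s (x - (t - s) • v) v +
                GN D.H D.W s (x - (t - s) • v) v + GN D.W D.W s (x - (t - s) • v) v)) := rfl
          _ ≤ 2 * (ENNReal.ofReal (j t) * (D.K * (br v * pa D.W t x v s) +
                D.K * (br v * pa D.W t x v s) + D.K * (br v * pa D.W t x v s))) :=
              mul_le_mul' le_rfl (mul_le_mul' h5 (add_le_add (add_le_add (h1.trans h6) h2) h3))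
          _ = 6 * D.K * br v * ENNReal.ofReal (j t) * pa D.W t x v s := by ring
          _ ≤ 6 * D.K * br v * ENNReal.ofReal (j t) * (D.Cw * ga (t - s) v * D.W t x v) :=
              mul_le_mul' le_rfl h4
          _ = _ := by ring
    _ = ((6 * D.K * D.Cw : ℝ≥0∞) * ∫⁻ s in Ioc 0 t, br v * ga (t - s) v) *
          (ENNReal.ofReal (j t) * D.W t x v) := by
        rw [lintegral_mul_const _ (hm.const_mul _), lintegral_const_mul _ hm]
    _ ≤ D.η * (ENNReal.ofReal (j t) * D.W t x v) := mul_le_mul' (h.RW v t ht.2) le_rfl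

/-- `EE`, `EH`, `HH`. -/
theorem OK.PI_PP (h : D.OK) : LeOn 0 D.t₁ (PI (GN (D.Ec + D.H) (D.Ec + D.H)) 0)
    ((D.η : ℝ≥0∞) • D.E1 + (4 * D.η : ℝ≥0∞) • D.H) := by
  intro t ht x v
  have hE := h.rEc.meas
  have hH := h.rH.meas
  rw [GN_add_left hE hH (hE.add hH), GN_add_right hE hE hH, GN_add_right hH hE hH,
    GN_comm hH hE, PI_add ((hE.GN hE).add (hE.GN hH)), PI_add (hE.GN hE), PI_add (hE.GN hH)]
  calc PI (GN D.Ec D.Ec) 0 t x v + PI (GN D.Ec D.H) 0 t x v +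
        (PI (GN D.Ec D.H) 0 t x v + PI (GN D.H D.H) 0 t x v)
      ≤ D.η * (D.E1 t x v + D.H t x v) + D.η * D.H t x v + (D.η * D.H t x v + D.η * D.H t x v) :=
        add_le_add (add_le_add (h.EE t ht x v) (h.EH t ht x v))
          (add_le_add (h.EH t ht x v) (h.HH t ht x v))
    _ = D.η * D.E1 t x v + 4 * D.η * D.H t x v := by ring

theorem OK.PI_GN_env_ne_top (h : D.OK) (M : ℝ≥0) {a : ℕ} (ha : 1 ≤ a) {t : ℝ} (ht : t ∈ Icc 0 D.t₁)
    (x v : R3) : PI (GN (D.env M a) (D.env M a)) 0 t x v ≠ ⊤ := by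
  have hP : Meas (D.Ec + D.H) := h.rEc.meas.add h.rH.meas
  have hY : Meas (pw a * D.W) := ((reg_pw a).mul h.rW).meas
  have hQ : Meas ((M : ℝ≥0∞) • (pw a * D.W)) := hY.smul _
  have hR : Meas (D.E1 + D.H + D.W) := (h.rE1.meas.add h.rH.meas).add h.rW.meas
  have hS : Meas (D.E0 + (D.E1 + D.H + D.W)) := h.rE0.meas.add hR
  -- the common majorant
  have hfin : PI (GN (D.E0 + (D.E1 + D.H + D.W)) (pw a * D.W)) 0 t x v ≠ ⊤ := by
    have h1 := h.PI_E0W_pw ha t ht x v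
    have h2 := h.PI_RW (j := fun t => t ^ a) (measurable_id.pow_const a)
      (fun s hs s' _ hss' => pow_le_pow_left₀ hs.1 hss' a) t ht x v
    rw [PI_smul (h.rE0.meas.GN hY)] at h1
    have h2' : ((2 : ℝ≥0∞) • PI (GN (D.E1 + D.H + D.W) (pw a * D.W)) 0) t x v ≤
        ((D.η : ℝ≥0∞) • (pw a * D.W)) t x v := by
      rw [← PI_smul (hR.GN hY)]; exact h2
    have hf := ((reg_pw a).mul h.rW).fin t x v
    rw [GN_add_left h.rE0.meas hR hY, PI_add (h.rE0.meas.GN hY)]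
    refine ENNReal.add_ne_top.2 ⟨PA1_two_mul_le h1 ?_, PA1_two_mul_le h2' ?_⟩
    · exact ENNReal.mul_ne_top ENNReal.coe_ne_top hf
    · exact ENNReal.mul_ne_top ENNReal.coe_ne_top hf
  have hPS : LeOn 0 D.t₁ (D.Ec + D.H) (D.E0 + (D.E1 + D.H + D.W)) := fun s hs y u => by
    change D.E0 s y u + D.E1 s y u + D.H s y u ≤
      D.E0 s y u + (D.E1 s y u + D.H s y u + D.W s y u)
    rw [add_assoc]
    exact add_le_add le_rfl le_self_add
  have hYS : LeOn 0 D.t₁ (pw a * D.W) (D.E0 + (D.E1 + D.H + D.W)) := fun s hs y u => by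
    change ENNReal.ofReal (s ^ a) * D.W s y u ≤
      D.E0 s y u + (D.E1 s y u + D.H s y u + D.W s y u)
    have : ENNReal.ofReal (s ^ a) ≤ 1 :=
      ENNReal.ofReal_le_one.2 (pow_le_one₀ hs.1 (hs.2.trans h.t₁_le))
    calc ENNReal.ofReal (s ^ a) * D.W s y u ≤ 1 * D.W s y u := mul_le_mul' this le_rfl
      _ = D.W s y u := one_mul _
      _ ≤ _ := le_add_self.trans le_add_self
  have h1 : PI (GN (D.Ec + D.H) (D.Ec + D.H)) 0 t x v ≠ ⊤ :=
    ne_top_of_le_ne_top (((h.rE1.smul ENNReal.coe_ne_top).add (h.rH.smul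
      (ENNReal.mul_ne_top ENNReal.ofNat_ne_top ENNReal.coe_ne_top))).fin t x v) (h.PI_PP t ht x v)
  have h2 : PI (GN (D.Ec + D.H) (pw a * D.W)) 0 t x v ≠ ⊤ :=
    ne_top_of_le_ne_top hfin (PI_mono (GN_mono hPS fun _ _ _ _ => le_rfl) t ht x v)
  have h3 : PI (GN (pw a * D.W) (pw a * D.W)) 0 t x v ≠ ⊤ :=
    ne_top_of_le_ne_top hfin (PI_mono (GN_mono hYS fun _ _ _ _ => le_rfl) t ht x v)
  rw [env, GN_add_left hP hQ (hP.add hQ), GN_add_right hP hP hQ, GN_add_right hQ hP hQ,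
    GN_comm hQ hP, GN_smul_right hP hY, GN_smul_left hY hQ, GN_smul_right hY hY,
    PI_add ((hP.GN hP).add ((hP.GN hY).smul _)), PI_add (hP.GN hP), PI_add ((hP.GN hY).smul _),
    PI_smul (hP.GN hY), PI_smul ((hY.GN hY).smul _), PI_smul (hY.GN hY)]
  exact ENNReal.add_ne_top.2 ⟨ENNReal.add_ne_top.2 ⟨h1, ENNReal.mul_ne_top ENNReal.coe_ne_top h2⟩,
    ENNReal.add_ne_top.2 ⟨ENNReal.mul_ne_top ENNReal.coe_ne_top h2,
      ENNReal.mul_ne_top ENNReal.coe_ne_top (ENNReal.mul_ne_top ENNReal.coe_ne_top h3)⟩⟩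

/-- `LE1`, `LH`, `LW`. -/
theorem OK.LS_tr_le (h : D.OK) (F : Fn) :
    LeOc 0 D.t₁ (LS (D.tr F)) (LS D.E0 + (1 + 2 * D.K : ℝ≥0∞) • vl br) := by
  intro t ht x v
  have h0 : LS (D.tr F) t x v ≤ LS (D.Ec + D.H + (D.x₀ : ℝ≥0∞) • D.W) t x v :=
    ls_mono (fun u => inf_le_right) v
  refine h0.trans ?_
  rw [LS_add (h.rEc.meas.add h.rH.meas) (h.rW.meas.smul _), LS_add h.rEc.meas h.rH.meas, Ec,
    LS_add h.rE0.meas h.rE1.meas, LS_smul h.rW.meas]
  have hx : (D.x₀ : ℝ≥0∞) ≤ 1 := by exact_mod_cast h.x₀_le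
  calc LS D.E0 t x v + LS D.E1 t x v + LS D.H t x v + D.x₀ * LS D.W t x v
      ≤ LS D.E0 t x v + br v + D.K * br v + 1 * (D.K * br v) :=
        add_le_add (add_le_add (add_le_add le_rfl (h.LE1 t ht x v)) (h.LH t ht x v))
          (mul_le_mul' hx (h.LW t ht x v))
    _ = LS D.E0 t x v + (1 + 2 * D.K) * br v := by ring

theorem OK.PA1_E0_pa (h : D.OK) {t s s' : ℝ} (ht : t ≤ D.t₁) (hs : 0 < s) (x v : R3)
    (hs' : s' ∈ Ioc s t) :
    pa (LS D.E0) t x v s' ≤ ENNReal.ofReal (D.b₀ / s * (1 + ‖v‖)) := by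
  refine (h.LE0 s' ⟨hs.trans hs'.1, hs'.2.trans ht⟩ _ v).trans ?_
  have hb : (0 : ℝ) ≤ D.b₀ := D.b₀.coe_nonneg
  rw [ENNReal.ofReal_mul (div_nonneg hb hs.le)]
  exact mul_le_mul' (ENNReal.ofReal_le_ofReal (div_le_div_of_nonneg_left hb hs hs'.1.le)) le_rfl

theorem OK.PA1_tr_pa (h : D.OK) (F : Fn) {t s s' : ℝ} (ht : t ≤ D.t₁) (hs : 0 < s) (x v : R3)
    (hs' : s' ∈ Ioc s t) :
    pa (LS (D.tr F)) t x v s' ≤ ENNReal.ofReal ((D.b₀ / s + (1 + 2 * D.K)) * (1 + ‖v‖)) := by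
  refine (h.LS_tr_le F s' ⟨hs.trans hs'.1, hs'.2.trans ht⟩ _ v).trans ?_
  have hb : (0 : ℝ) ≤ D.b₀ := D.b₀.coe_nonneg
  have hK : (0 : ℝ) ≤ D.K := D.K.coe_nonneg
  rw [add_mul, ENNReal.ofReal_add (by positivity) (by positivity)]
  refine add_le_add (h.PA1_E0_pa ht hs x v hs') (le_of_eq ?_)
  rw [ENNReal.ofReal_mul (by positivity), ENNReal.ofReal_add zero_le_one (by positivity),
    ENNReal.ofReal_one, ENNReal.ofReal_mul zero_le_two, ENNReal.ofReal_ofNat,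
    ENNReal.ofReal_coe_nnreal]
  rfl

theorem OK.loc_tr (h : D.OK) (F : Fn) {t s : ℝ} (ht : t ≤ D.t₁) (hs : 0 < s) (x v : R3) :
    ∫⁻ s' in Ioc s t, (pa (LS (D.tr F)) t x v s' + pa (LS D.E0) t x v s') ≠ ⊤ := by
  refine ne_top_of_le_ne_top ?_ (setLIntegral_mono' measurableSet_Ioc fun s' hs' =>
    add_le_add (h.PA1_tr_pa F ht hs x v hs') (h.PA1_E0_pa ht hs x v hs'))
  rw [setLIntegral_const, Real.volume_Ioc]
  exact ENNReal.mul_ne_top (ENNReal.add_ne_top.2 ⟨ENNReal.ofReal_ne_top, ENNReal.ofReal_ne_top⟩)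
    ENNReal.ofReal_ne_top

/-- The survival factor on `[s, t]`, `t ≤ A s` (`1 + 2 K ≤ 1 + 8 K`, `depl`). -/
theorem OK.surv (h : D.OK) (F : Fn) {t s A : ℝ} (ht : t ≤ D.t₁) (hs : 0 < s) (hA : t ≤ A * s)
    (x v : R3) : ∫⁻ s' in Ioc s t, pa (LS (D.tr F)) t x v s' ≤
      ENNReal.ofReal ((D.b₀ * A + 1) * (1 + ‖v‖)) := by
  rcases le_or_gt t s with hts | hst
  · rw [Ioc_eq_empty (not_lt.2 hts), Measure.restrict_empty, lintegral_zero_measure]
    exact zero_le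
  refine (setLIntegral_mono' measurableSet_Ioc fun s' hs' => h.PA1_tr_pa F ht hs x v hs').trans ?_
  have hb : (0 : ℝ) ≤ D.b₀ := D.b₀.coe_nonneg
  have hK : (0 : ℝ) ≤ D.K := D.K.coe_nonneg
  have hv : (0 : ℝ) ≤ 1 + ‖v‖ := by positivity
  rw [setLIntegral_const, Real.volume_Ioc, ← ENNReal.ofReal_mul (by positivity)]
  refine ENNReal.ofReal_le_ofReal ?_
  have he : (D.e : ℝ) ≤ 1 := by
    have : (400 : ℝ) * D.e ≤ 1 := by exact_mod_cast h.e_le
    linarith [D.e.coe_nonneg]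
  have h1 : (1 + 2 * D.K : ℝ) * (t - s) ≤ 1 := by
    have := h.depl
    nlinarith
  have h2 : D.b₀ / s * (t - s) ≤ D.b₀ * A := by
    rw [div_mul_eq_mul_div, div_le_iff₀ hs, mul_assoc]
    exact mul_le_mul_of_nonneg_left (by linarith) hb
  calc (D.b₀ / s + (1 + 2 * D.K)) * (1 + ‖v‖) * (t - s)
      = (D.b₀ / s * (t - s) + (1 + 2 * D.K) * (t - s)) * (1 + ‖v‖) := by ring
    _ ≤ (D.b₀ * A + 1) * (1 + ‖v‖) := mul_le_mul_of_nonneg_right (add_le_add h2 h1) hv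

end P1

end Crest.Agent.R68
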