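/-
R68/C0b: periodisation, volumes, slab integrals
Skeleton by helper76 (row 68); keep the statements unchanged, add any helper lemmas you like.
-/
import Crest.Agent.R68.C0a
import Crest.Agent.R68.PA1

set_option autoImplicit false
set_option linter.unusedVariables false
set_option linter.unusedSectionVars false

noncomputable section

namespace Crest.Agent.R68

open MeasureTheory Set Filter Topology
open scoped ENNReal NNReal
open Crest.AnalysisR.VecCalc3 Crest.AnalysisR.PDE.Boltzmann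

variable {f g : Bool → Fn} {F : Fn}

theorem InvF.inv1 (h : InvF F) : Inv1 F := by
  exact fun t x v c => h t x v _ (single_mem_Gam c)

theorem meas_perz (h : ∀ b, Meas (f b)) : Meas (perz f) := by
  exact Measurable.tsum fun i : Bool × ℤ × ℤ => path_meas_comp (h i.1) measurable_fst
    (measurable_snd.fst.sub_const _) measurable_snd.snd

theorem invF_perz (h : ∀ b, Inv1 (f b)) : InvF (perz f) := by
  intro t x v a ha
  obtain ⟨k, c, rfl⟩ := mem_Gam ha
  unfold perz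
  rw [← ((Equiv.refl Bool).prodCongr (Equiv.addRight k)).tsum_eq]
  refine tsum_congr fun i => ?_
  have e : x + (lat k + EuclideanSpace.single 0 c) - lat (i.2 + k) =
      (x - lat i.2) + EuclideanSpace.single 0 c := by
    rw [lat_add]
    abel
  exact (congrArg (fun y => f i.1 t y v) e).trans (h i.1 t _ v c)

theorem le_perz (f : Bool → Fn) (b : Bool) (k : ℤ × ℤ) (t : ℝ) (x v : R3) :
    f b t (x - lat k) v ≤ perz f t x v := by
  exact ENNReal.le_tsum (f := fun i : Bool × ℤ × ℤ => f i.1 t (x - lat i.2) v) (b, k)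

theorem perz_mono {t : ℝ} {v : R3} (h : ∀ b y, f b t y v ≤ g b t y v) (x : R3) :
    perz f t x v ≤ perz g t x v := by
  exact ENNReal.tsum_le_tsum fun i => h _ _

theorem perz_add (f g : Bool → Fn) : perz (fun b => f b + g b) = perz f + perz g := by
  funext t x v
  exact ENNReal.tsum_add

theorem perz_ne_zero {t : ℝ} {x v : R3} (h : perz f t x v ≠ 0) :
    ∃ b k, f b t (x - lat k) v ≠ 0 := by
  by_contra hc
  push Not at hc
  exact h (ENNReal.tsum_eq_zero.2 fun i => hc _ _)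

theorem pa_perz (f : Bool → Fn) (t : ℝ) (x v : R3) (s : ℝ) :
    pa (perz f) t x v s = ∑' i : Bool × ℤ × ℤ, pa (f i.1) t (x - lat i.2) v s := by
  unfold pa perz
  simp only [sub_right_comm x _ (lat _)]

theorem PI_perz (h : ∀ b, Meas (f b)) (r : ℝ) : PI (perz f) r = perz fun b => PI (f b) r := by
  funext t x v
  show ∫⁻ s in Ioc r t, pa (perz f) t x v s =
    ∑' i : Bool × ℤ × ℤ, ∫⁻ s in Ioc r t, pa (f i.1) t (x - lat i.2) v s
  simp only [pa_perz]
  exact lintegral_tsum fun i => ((h i.1).pa t _ v).aemeasurable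

theorem tm_mul_perz (j : ℝ → ℝ) (f : Bool → Fn) : tm j * perz f = perz fun b => tm j * f b := by
  funext t x v
  exact ENNReal.tsum_mul_left.symm

theorem smul_perz (c : ℝ≥0∞) (f : Bool → Fn) : c • perz f = perz fun b => c • f b := by
  funext t x v
  exact ENNReal.tsum_mul_left.symm

theorem C0b_meas_k (v : R3) : Measurable fun u : R3 => 1 + ‖v - u‖ₑ ^ (-(9 / 8) : ℝ) :=
  measurable_const.add ((measurable_const.sub measurable_id).enorm.pow_const _)

theorem Cm_perz (h : ∀ b, Meas (f b)) : Cm (perz f) = perz fun b => Cm (f b) := by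
  funext t x v
  show ∫⁻ u, (∑' i : Bool × ℤ × ℤ, f i.1 t (x - lat i.2) u) * (1 + ‖v - u‖ₑ ^ (-(9 / 8) : ℝ)) =
    ∑' i : Bool × ℤ × ℤ, ∫⁻ u, f i.1 t (x - lat i.2) u * (1 + ‖v - u‖ₑ ^ (-(9 / 8) : ℝ))
  simp only [← ENNReal.tsum_mul_right]
  exact lintegral_tsum fun i => (((h i.1).slice t _).mul (C0b_meas_k v)).aemeasurable

theorem Cm_add {E E' : Fn} (h : Meas E) (h' : Meas E') : Cm (E + E') = Cm E + Cm E' := by
  funext t x v
  show ∫⁻ u, (E t x u + E' t x u) * (1 + ‖v - u‖ₑ ^ (-(9 / 8) : ℝ)) =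
    (∫⁻ u, E t x u * (1 + ‖v - u‖ₑ ^ (-(9 / 8) : ℝ))) +
      ∫⁻ u, E' t x u * (1 + ‖v - u‖ₑ ^ (-(9 / 8) : ℝ))
  simp only [add_mul]
  exact lintegral_add_left ((h.slice t x).mul (C0b_meas_k v)) _

theorem Cm_mono {E E' : Fn} {t : ℝ} {x : R3} (h : E t x ≤ E' t x) (v : R3) :
    Cm E t x v ≤ Cm E' t x v := by
  exact lintegral_mono fun u => mul_le_mul' (h u) le_rfl

theorem mass_le_Cm (E : Fn) (t : ℝ) (x v : R3) : ∫⁻ u, E t x u ≤ Cm E t x v := by
  exact lintegral_mono fun u => le_mul_of_one_le_right' le_self_add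

/-- `y⁻¹ ≤ 1 + y ^ (-9/8)`. -/
theorem inv_le_Cm (E : Fn) (t : ℝ) (x v : R3) : ∫⁻ u, E t x u * ‖v - u‖ₑ⁻¹ ≤ Cm E t x v := by
  refine lintegral_mono fun u => mul_le_mul' le_rfl ?_
  rcases le_total 1 ‖v - u‖ₑ with h | h
  · exact (ENNReal.inv_le_one.2 h).trans le_self_add
  · rw [← ENNReal.rpow_neg_one]
    exact (ENNReal.rpow_le_rpow_of_exponent_ge h (by norm_num)).trans le_add_self

/-- `y⁻¹ ≤ ρ ^ (1/8) y ^ (-9/8)` for `y ≤ ρ`. -/
theorem inv_near_le_Cm (E : Fn) (hE : Meas E) (t : ℝ) (x v : R3) {ρ : ℝ} (hρ : 0 ≤ ρ) :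
    ∫⁻ u in {u | ‖v - u‖ ≤ ρ}, E t x u * ‖v - u‖ₑ⁻¹ ≤
      ENNReal.ofReal (ρ ^ (1 / 8 : ℝ)) * Cm E t x v := by
  have hS : MeasurableSet {u : R3 | ‖v - u‖ ≤ ρ} :=
    measurableSet_le (measurable_const.sub measurable_id).norm measurable_const
  unfold Cm
  rw [← lintegral_const_mul' _ _ ENNReal.ofReal_ne_top]
  refine le_trans (setLIntegral_mono_ae' hS ?_) (setLIntegral_le_lintegral {u : R3 | ‖v - u‖ ≤ ρ} _)
  have hv : ∀ᵐ u : R3, u ≠ v := by
    rw [ae_iff]
    simp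
  filter_upwards [hv] with u hu hu'
  have h0 : ‖v - u‖ₑ ≠ 0 := by
    rw [ne_eq, enorm_eq_zero, sub_eq_zero]
    exact hu.symm
  rw [mul_left_comm]
  refine mul_le_mul' le_rfl ?_
  have h1 : ‖v - u‖ₑ⁻¹ = ‖v - u‖ₑ ^ (1 / 8 : ℝ) * ‖v - u‖ₑ ^ (-(9 / 8) : ℝ) := by
    rw [← ENNReal.rpow_add _ _ h0 enorm_ne_top, ← ENNReal.rpow_neg_one]
    norm_num
  rw [h1, ← ENNReal.ofReal_rpow_of_nonneg hρ (by norm_num)]
  refine mul_le_mul' (ENNReal.rpow_le_rpow ?_ (by norm_num)) le_add_self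
  rw [← ofReal_norm]
  exact ENNReal.ofReal_le_ofReal hu'

/-- Only one line contributes. -/
theorem perz_eq_of_near {t : ℝ} {x v : R3} {k : ℤ × ℤ} {ρ : ℝ}
    (hs : ∀ b y, f b t y v ≠ 0 → ry y ≤ ρ) (hx : ry (x - lat k) + ρ < 1) :
    perz f t x v = f true t (x - lat k) v + f false t (x - lat k) v := by
  have h : ∀ b, ∑' k' : ℤ × ℤ, f b t (x - lat k') v = f b t (x - lat k) v := fun b => by
    refine tsum_eq_single k fun k' hk' => ?_
    by_contra hc
    exact hk' (lat_unique (x := x) (by linarith [hs b _ hc])).symm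
  unfold perz
  rw [ENNReal.tsum_prod', tsum_bool, h, h, add_comm]

theorem perz_eq_zero {t : ℝ} {x v : R3} {ρ : ℝ} (hs : ∀ b y, f b t y v ≠ 0 → ry y ≤ ρ)
    (hx : ρ < dd x) : perz f t x v = 0 := by
  by_contra hc
  obtain ⟨b, k, h⟩ := perz_ne_zero hc
  linarith [hs b _ h, dd_le x k]

theorem C0b_sum {t : ℝ} {x v : R3} {ρ : ℝ} (hs : ∀ b y, f b t y v ≠ 0 → ry y ≤ ρ)
    {s : Finset (ℤ × ℤ)} (h : ∀ k, ry (x - lat k) ≤ ρ → k ∈ s) :
    perz f t x v = ∑ i ∈ (Finset.univ : Finset Bool) ×ˢ s, f i.1 t (x - lat i.2) v := by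
  refine tsum_eq_sum fun i hi => ?_
  by_contra hc
  exact hi (Finset.mem_product.2 ⟨Finset.mem_univ _, h _ (hs _ _ hc)⟩)

theorem perz_ne_top {t : ℝ} {x v : R3} {ρ : ℝ} (hs : ∀ b y, f b t y v ≠ 0 → ry y ≤ ρ)
    (hf : ∀ b y, f b t y v ≠ ⊤) : perz f t x v ≠ ⊤ := by
  obtain ⟨s, -, h⟩ := exists_near x (abs_nonneg ρ)
  rw [C0b_sum hs fun k hk => h k (hk.trans (le_abs_self ρ))]
  exact ENNReal.sum_ne_top.2 fun i _ => hf _ _

/-- `exists_near`. -/
theorem perz_le_card {t : ℝ} {x v : R3} {ρ : ℝ} (hρ : 0 ≤ ρ) (hs : ∀ b y, f b t y v ≠ 0 → ry y ≤ ρ)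
    {c c' : ℝ≥0∞} (hf : ∀ b y, f b t y v ≤ c + c' * g b t y v) :
    perz f t x v ≤ ENNReal.ofReal (2 * (2 * ρ + 1) ^ 2) * c + c' * perz g t x v := by
  obtain ⟨s, hc, h⟩ := exists_near x hρ
  rw [C0b_sum hs h]
  refine (Finset.sum_le_sum fun i _ => hf i.1 _).trans ?_
  rw [Finset.sum_add_distrib, ← Finset.mul_sum, Finset.sum_const, nsmul_eq_mul]
  refine add_le_add (mul_le_mul' ?_ le_rfl) (mul_le_mul' le_rfl (ENNReal.sum_le_tsum _))
  rw [← ENNReal.ofReal_natCast]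
  refine ENNReal.ofReal_le_ofReal ?_
  rw [Finset.card_product, Finset.card_univ, Fintype.card_bool]
  push_cast
  linarith

theorem C0b_box (a b : Fin 3 → ℝ) : volume {x : R3 | ∀ i, a i ≤ x i ∧ x i ≤ b i} =
    ENNReal.ofReal (b 0 - a 0) * ENNReal.ofReal (b 1 - a 1) * ENNReal.ofReal (b 2 - a 2) := by
  have e : {x : R3 | ∀ i, a i ≤ x i ∧ x i ≤ b i} = (fun x : R3 => x.ofLp) ⁻¹' Icc a b := by
    ext x
    simp only [mem_ofPred_eq, mem_preimage, mem_Icc, Pi.le_def, forall_and]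
  rw [e, (PiLp.volume_preserving_ofLp (Fin 3)).measure_preimage
    measurableSet_Icc.nullMeasurableSet, Real.volume_Icc_pi, Fin.prod_univ_three]

theorem volume_slab_ry_ge {r : ℝ} (hr : 0 ≤ r) :
    ENNReal.ofReal (r ^ 2) ≤ volume (slab ∩ {x | ry x ≤ r}) := by
  have h := C0b_box ![0, -(r / 2), -(r / 2)] ![1, r / 2, r / 2]
  have e : r / 2 - -(r / 2) = r := by ring
  simp only [Matrix.cons_val_zero, Matrix.cons_val_one, Matrix.cons_val, sub_zero,
    ENNReal.ofReal_one, one_mul, e] at h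
  rw [sq, ENNReal.ofReal_mul hr, ← h]
  refine measure_mono fun x hx => ?_
  have h0 := hx 0
  have h1 := hx 1
  have h2 := hx 2
  simp only [Matrix.cons_val_zero, Matrix.cons_val_one, Matrix.cons_val] at h0 h1 h2
  refine ⟨h0, Real.sqrt_le_iff.2 ⟨hr, ?_⟩⟩
  nlinarith [h1.1, h1.2, h2.1, h2.2]

theorem volume_slab_ry_le {r : ℝ} (hr : 0 ≤ r) :
    volume (slab ∩ {x | ry x ≤ r}) ≤ ENNReal.ofReal (4 * r ^ 2) := by
  have h := C0b_box ![0, -r, -r] ![1, r, r]
  simp only [Matrix.cons_val_zero, Matrix.cons_val_one, Matrix.cons_val, sub_zero,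
    ENNReal.ofReal_one, one_mul] at h
  rw [show 4 * r ^ 2 = (r - -r) * (r - -r) by ring, ENNReal.ofReal_mul (by linarith), ← h]
  refine measure_mono fun x hx => ?_
  have h1 : x 1 ^ 2 + x 2 ^ 2 ≤ r ^ 2 := (Real.sqrt_le_iff.1 hx.2).2
  intro i
  fin_cases i
  · exact hx.1
  · exact abs_le.1 (abs_le_of_sq_le_sq (by nlinarith [sq_nonneg (x 2)]) hr : |x 1| ≤ r)
  · exact abs_le.1 (abs_le_of_sq_le_sq (by nlinarith [sq_nonneg (x 1)]) hr : |x 2| ≤ r)

theorem ae_c2_ne_zero : ∀ᵐ x : R3, c2 x ≠ 0 := by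
  have h : (ℝ ∙ e2)ᗮ ≠ ⊤ := by
    intro hc
    have h1 : e2 ∈ (ℝ ∙ e2)ᗮ := hc ▸ Submodule.mem_top
    rw [Submodule.mem_orthogonal_singleton_iff_inner_left, real_inner_self_eq_norm_sq,
      norm_e2] at h1
    norm_num at h1
  rw [ae_iff]
  refine measure_mono_null (fun x hx => ?_) (Measure.addHaar_submodule volume _ h)
  exact Submodule.mem_orthogonal_singleton_iff_inner_left.2 (not_not.1 hx)

/-- The translates `cell - lat k` are disjoint subsets of the slab. -/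
theorem lintegral_cell_tsum {Φ : R3 → ℝ≥0∞} (hΦ : Measurable Φ) :
    ∫⁻ x in cell, ∑' k : ℤ × ℤ, Φ (x - lat k) ≤ ∫⁻ x in slab, Φ x := by
  rw [lintegral_tsum (f := fun (k : ℤ × ℤ) (x : R3) => Φ (x - lat k))
    fun k => (hΦ.comp (measurable_id.sub_const (lat k))).aemeasurable]
  have e : ∀ k : ℤ × ℤ, ∫⁻ x in cell, Φ (x - lat k) = ∫⁻ x in {y | y + lat k ∈ cell}, Φ x := by
    intro k
    simp only [sub_eq_add_neg]
    rw [path_lintegral_translate measurableSet_cell]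
    simp only [sub_neg_eq_add]
  simp only [e]
  rw [← lintegral_iUnion (s := fun k : ℤ × ℤ => {y : R3 | y + lat k ∈ cell})
    (fun k => (measurable_id.add_const (lat k)) measurableSet_cell)]
  · refine lintegral_mono_set (iUnion_subset fun k y hy => ?_)
    have h0 := hy 0
    simp only [lat, PiLp.add_apply, Matrix.cons_val_zero, add_zero] at h0
    exact Ico_subset_Icc_self h0
  · intro k k' hk
    refine Set.disjoint_left.2 fun y hy hy' => hk ?_
    have h1 := hy 1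
    have h2 := hy 2
    have h3 := hy' 1
    have h4 := hy' 2
    simp only [lat, PiLp.add_apply, Matrix.cons_val_zero, Matrix.cons_val_one, Matrix.cons_val,
      mem_Ico] at h1 h2 h3 h4
    have a1 : (k.1 : ℝ) < k'.1 + 1 := by linarith [h1.2, h3.1]
    have a2 : (k'.1 : ℝ) < k.1 + 1 := by linarith [h1.1, h3.2]
    have a3 : (k.2 : ℝ) < k'.2 + 1 := by linarith [h2.2, h4.1]
    have a4 : (k'.2 : ℝ) < k.2 + 1 := by linarith [h2.1, h4.2]
    norm_cast at a1 a2 a3 a4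
    exact Prod.ext (by omega) (by omega)

theorem volume_cell_dd {r : ℝ} (hr : 0 ≤ r) :
    volume (cell ∩ {x | dd x < r}) ≤ ENNReal.ofReal (16 * r ^ 2) := by
  have hS : MeasurableSet {x : R3 | ry x ≤ r} :=
    measurableSet_le continuous_ry.measurable measurable_const
  have hD : MeasurableSet {x : R3 | dd x < r} :=
    measurableSet_lt continuous_dd.measurable measurable_const
  have h := lintegral_cell_tsum (Φ := {x : R3 | ry x ≤ r}.indicator 1) (measurable_one.indicator hS)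
  rw [lintegral_indicator_one hS, Measure.restrict_apply hS, inter_comm] at h
  refine le_trans ?_ (h.trans ((volume_slab_ry_le hr).trans (ENNReal.ofReal_le_ofReal ?_)))
  · rw [inter_comm, ← Measure.restrict_apply hD, ← lintegral_indicator_one hD]
    refine lintegral_mono (indicator_le' (fun x hx => ?_) fun _ _ => zero_le)
    obtain ⟨k, hk⟩ := exists_dd x
    refine le_trans (le_of_eq ?_) (ENNReal.le_tsum k)
    rw [indicator_of_mem (show x - lat k ∈ {x : R3 | ry x ≤ r} from (hk ▸ hx : ry _ < r).le)]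
    rfl
  · nlinarith [sq_nonneg r]

theorem C0b_line {p : ℝ} (hp1 : p < 1) {ρ : ℝ} (hρ : 0 ≤ ρ) :
    ∫⁻ b in Icc (-ρ) ρ, ‖b‖ₑ ^ (-p) ≤ ENNReal.ofReal (2 / (1 - p) * ρ ^ (1 - p)) := by
  have h1 : ∫⁻ b in Ioc 0 ρ, ‖b‖ₑ ^ (-p) = ENNReal.ofReal (ρ ^ (1 - p) / (1 - p)) := by
    have e : ∫⁻ b in Ioc 0 ρ, ‖b‖ₑ ^ (-p) = ∫⁻ b in Ioc 0 ρ, ENNReal.ofReal (b ^ (-p)) := by
      refine setLIntegral_congr_fun measurableSet_Ioc fun b hb => ?_
      rw [Real.enorm_eq_ofReal hb.1.le, ENNReal.ofReal_rpow_of_pos hb.1]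
    rw [e, ← ofReal_integral_eq_lintegral_ofReal
      ((intervalIntegrable_iff_integrableOn_Ioc_of_le hρ).1
        (intervalIntegral.intervalIntegrable_rpow' (by linarith)))
      (ae_restrict_of_forall_mem measurableSet_Ioc fun b hb => Real.rpow_nonneg hb.1.le _),
      ← intervalIntegral.integral_of_le hρ, integral_rpow (Or.inl (by linarith)),
      Real.zero_rpow (by linarith), sub_zero, neg_add_eq_sub]
  have h2 : ∫⁻ b in Icc (-ρ) 0, ‖b‖ₑ ^ (-p) = ∫⁻ b in Ioc 0 ρ, ‖b‖ₑ ^ (-p) := by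
    rw [setLIntegral_congr Ioc_ae_eq_Icc, ← lintegral_indicator measurableSet_Icc,
      ← lintegral_indicator measurableSet_Icc, ← lintegral_neg_eq_self]
    refine lintegral_congr fun b => ?_
    simp only [indicator, mem_Icc, neg_le_neg_iff, Left.neg_nonpos_iff, enorm_neg, and_comm]
  have h3 : 0 < 1 - p := by linarith
  rw [← Icc_union_Ioc_eq_Icc (neg_nonpos.2 hρ) hρ]
  refine (lintegral_union_le _ _ _).trans (le_of_eq ?_)
  rw [h2, h1, ← ENNReal.ofReal_add (by positivity) (by positivity)]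
  exact congrArg _ (by ring)

/-- `lintegral_e123`. -/
theorem lintegral_slab_rpow {p q : ℝ} (hp : 0 ≤ p) (hp1 : p < 1) (hq : 0 ≤ q) (hq1 : q < 1) :
    ∃ K : ℝ≥0, ∀ ρ : ℝ, 0 ≤ ρ → ∫⁻ x in slab ∩ {x | ry x ≤ ρ}, ‖c2 x‖ₑ ^ (-p) * ‖c3 x‖ₑ ^ (-q) ≤
      K * ENNReal.ofReal (ρ ^ (2 - p - q)) := by
  have h1 : 0 < 1 - p := by linarith
  have h2 : 0 < 1 - q := by linarith
  refine ⟨(2 / (1 - p) * (2 / (1 - q))).toNNReal, fun ρ hρ => ?_⟩
  have hS : MeasurableSet (slab ∩ {x : R3 | ry x ≤ ρ}) :=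
    measurableSet_slab.inter (measurableSet_le continuous_ry.measurable measurable_const)
  have m1 : Measurable ((Icc (0 : ℝ) 1).indicator (1 : ℝ → ℝ≥0∞)) :=
    measurable_one.indicator measurableSet_Icc
  have m2 : ∀ r : ℝ, Measurable ((Icc (-ρ) ρ).indicator fun b : ℝ => ‖b‖ₑ ^ (-r)) := fun r =>
    (measurable_enorm.pow_const _).indicator measurableSet_Icc
  calc ∫⁻ x in slab ∩ {x | ry x ≤ ρ}, ‖c2 x‖ₑ ^ (-p) * ‖c3 x‖ₑ ^ (-q)
      ≤ ∫⁻ x : R3, (Icc (0 : ℝ) 1).indicator 1 (x 0) *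
          ((Icc (-ρ) ρ).indicator (fun b : ℝ => ‖b‖ₑ ^ (-p)) (c2 x) *
            (Icc (-ρ) ρ).indicator (fun b : ℝ => ‖b‖ₑ ^ (-q)) (c3 x)) := by
        rw [← lintegral_indicator hS]
        refine lintegral_mono (indicator_le' (fun x hx => le_of_eq ?_) fun _ _ => zero_le)
        have k0 : x 0 ∈ Icc (0 : ℝ) 1 := hx.1
        have k2 : c2 x ∈ Icc (-ρ) ρ := abs_le.1 ((abs_c2_le_ry x).trans hx.2)
        have k3 : c3 x ∈ Icc (-ρ) ρ := abs_le.1 ((abs_c3_le_ry x).trans hx.2)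
        rw [indicator_of_mem k0, indicator_of_mem k2, indicator_of_mem k3, Pi.one_apply, one_mul]
    _ = (∫⁻ b in Icc (-ρ) ρ, ‖b‖ₑ ^ (-p)) * ∫⁻ b in Icc (-ρ) ρ, ‖b‖ₑ ^ (-q) := by
        refine (lintegral_e123 ((m1.comp (path_meas_coord 0)).mul
          (((m2 p).comp continuous_c2.measurable).mul
            ((m2 q).comp continuous_c3.measurable)))).trans ?_
        simp only [Function.comp, Pi.mul_apply, frame_zero, frame_c2, frame_c3]
        simp only [lintegral_const_mul _ (m2 q), lintegral_const_mul _ ((m2 q).const_mul _),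
          lintegral_const_mul _ ((m2 p).mul_const _), lintegral_mul_const _ (m2 p),
          lintegral_mul_const _ m1]
        rw [lintegral_indicator_one measurableSet_Icc, Real.volume_Icc, sub_zero,
          ENNReal.ofReal_one, one_mul, lintegral_indicator measurableSet_Icc,
          lintegral_indicator measurableSet_Icc]
    _ ≤ ENNReal.ofReal (2 / (1 - p) * ρ ^ (1 - p)) * ENNReal.ofReal (2 / (1 - q) * ρ ^ (1 - q)) :=
        mul_le_mul' (C0b_line hp1 hρ) (C0b_line hq1 hρ)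
    _ = _ := by
        rw [← ENNReal.ofReal_mul (by positivity)]
        show _ = ENNReal.ofReal _ * _
        rw [← ENNReal.ofReal_mul (by positivity), show 2 - p - q = (1 - p) + (1 - q) by ring,
          Real.rpow_add' hρ (by linarith)]
        exact congrArg _ (by ring)

/-- Free transport preserves slab integrals (`lintegral_slab_add`, Tonelli). -/
theorem lintegral_slab_pa {G : Fn} (hG : Meas G) (hi : Inv1 G) (t s : ℝ) :
    ∫⁻ x in slab, ∫⁻ v, pa G t x v s = ∫⁻ y in slab, ∫⁻ v, G s y v := by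
  rw [lintegral_lintegral_swap (path_meas_pa hG measurable_const measurable_fst measurable_snd
      measurable_const).aemeasurable, lintegral_lintegral_swap (hG.time s).aemeasurable]
  refine lintegral_congr fun v => ?_
  simp only [pa, sub_eq_add_neg _ ((t - s) • v)]
  exact lintegral_slab_add (Φ := fun y => G s y v)
    (path_meas_comp hG measurable_const measurable_id measurable_const) (fun x c => hi s x v c) _

theorem lintegral_slab_pa_time {G : Fn} (hG : Meas G) (hi : Inv1 G) (t : ℝ) {I : Set ℝ}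
    (hI : MeasurableSet I) :
    ∫⁻ x in slab, ∫⁻ v, ∫⁻ s in I, pa G t x v s = ∫⁻ s in I, ∫⁻ y in slab, ∫⁻ v, G s y v := by
  have e : ∀ x : R3, ∫⁻ v, ∫⁻ s in I, pa G t x v s = ∫⁻ s in I, ∫⁻ v, pa G t x v s := fun x =>
    lintegral_lintegral_swap (path_meas_pa hG measurable_const measurable_const measurable_fst
      measurable_snd).aemeasurable
  simp only [e]
  rw [lintegral_lintegral_swap]
  · exact lintegral_congr fun s => lintegral_slab_pa hG hi t s
  · exact (Measurable.lintegral_prod_right' (f := fun p : (R3 × ℝ) × R3 => pa G t p.1.1 p.2 p.1.2)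
      (path_meas_pa hG measurable_const measurable_fst.fst measurable_snd
        measurable_fst.snd)).aemeasurable

end Crest.Agent.R68
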