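/-
R68/C0c: the profile functions, the constants, regularity of the concrete objects
Skeleton by helper76 (row 68); keep the statements unchanged, add any helper lemmas you like.
-/
import Crest.Agent.R68.C0b

set_option autoImplicit false
set_option linter.unusedVariables false
set_option linter.unusedSectionVars false

noncomputable section

namespace Crest.Agent.R68

open MeasureTheory Set Filter Topology
open scoped ENNReal NNReal
open Crest.AnalysisR.VecCalc3 Crest.AnalysisR.PDE.Boltzmann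

theorem sgn_sq (b : Bool) : sgn b ^ 2 = 1 := by
  cases b <;> simp [sgn]
theorem abs_sgn (b : Bool) : |sgn b| = 1 := by
  cases b <;> simp [sgn]
theorem sgn_not (b : Bool) : sgn (!b) = -sgn b := by
  cases b <;> simp [sgn]
theorem sgn_opp (v : R3) : sgn (CP.opp v) * v 0 ≤ 0 := by
  unfold CP.opp sgn
  by_cases h : v 0 < 0
  · simp [h, h.le]
  · simp [h, not_lt.1 h]
theorem tau_nonneg (ζ : ℝ) : 0 ≤ tau ζ := by
  exact Real.smoothTransition.nonneg _
theorem tau_le_one (ζ : ℝ) : tau ζ ≤ 1 := by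
  exact Real.smoothTransition.le_one _
theorem tau_eq_zero {ζ : ℝ} (h : 1 ≤ |ζ|) : tau ζ = 0 := by
  refine Real.smoothTransition.zero_of_nonpos ?_
  have := sq_abs ζ
  nlinarith
theorem tau_eq_one {ζ : ℝ} (h : |ζ| ≤ 1 / 2) : tau ζ = 1 := by
  refine Real.smoothTransition.one_of_one_le ?_
  have := sq_abs ζ
  have := abs_nonneg ζ
  nlinarith
theorem tau_pos {ζ : ℝ} (h : |ζ| < 1) : 0 < tau ζ := by
  refine Real.smoothTransition.pos_of_pos ?_
  have := sq_abs ζ
  have := abs_nonneg ζ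
  nlinarith
theorem tau_anti {ζ ζ' : ℝ} (h : |ζ| ≤ |ζ'|) : tau ζ' ≤ tau ζ := by
  refine Real.smoothTransition.monotone ?_
  have := sq_abs ζ
  have := sq_abs ζ'
  have := abs_nonneg ζ
  nlinarith
theorem contDiff_tau : ContDiff ℝ 1 tau := by
  unfold tau
  exact Real.smoothTransition.contDiff.comp (by fun_prop)
theorem deriv_tau_bdd : ∃ K : ℝ, 0 ≤ K ∧ (∀ ζ, |deriv tau ζ| ≤ K) ∧
    (∀ ζ, 1 < |ζ| → deriv tau ζ = 0) ∧ ∀ ζ ζ', |tau ζ - tau ζ'| ≤ K * |ζ - ζ'| := by
  have h0 : ∀ ζ, 1 < |ζ| → deriv tau ζ = 0 := by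
    intro ζ hζ
    have : tau =ᶠ[𝓝 ζ] fun _ => 0 := by
      filter_upwards [(isOpen_lt continuous_const continuous_abs).mem_nhds hζ] with y hy
      exact tau_eq_zero (le_of_lt hy)
    rw [this.deriv_eq, deriv_const]
  have hc : Continuous (deriv tau) := contDiff_tau.continuous_deriv le_rfl
  obtain ⟨K, hK⟩ := (isCompact_Icc (a := (-1 : ℝ)) (b := 1)).exists_bound_of_continuousOn hc.continuousOn
  have hK0 : 0 ≤ K := (norm_nonneg _).trans (hK 0 (by norm_num))
  have h1 : ∀ ζ, |deriv tau ζ| ≤ K := by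
    intro ζ
    by_cases h : 1 < |ζ|
    · rw [h0 ζ h, abs_zero]; exact hK0
    · exact hK ζ (abs_le.1 (not_lt.1 h))
  refine ⟨K, hK0, h1, h0, fun ζ ζ' => ?_⟩
  exact Convex.norm_image_sub_le_of_norm_deriv_le (𝕜 := ℝ) (s := univ)
    (fun x _ => contDiff_tau.differentiable one_ne_zero x) (fun x _ => h1 x) convex_univ
    (mem_univ ζ') (mem_univ ζ)
theorem tau_small {θ : ℝ} (hθ : 0 < θ) : ∃ ζ₃ : ℝ, 1 / 2 ≤ ζ₃ ∧ ζ₃ < 1 ∧ tau ζ₃ ≤ θ := by
  have h1 : ∀ᶠ y in 𝓝 (1 : ℝ), tau y < θ :=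
    contDiff_tau.continuous.continuousAt.eventually_lt continuousAt_const
      (by rw [tau_eq_zero (by simp)]; exact hθ)
  have h2 : ∀ᶠ y in 𝓝 (1 : ℝ), 1 / 2 < y := lt_mem_nhds (by norm_num)
  obtain ⟨y, ⟨h3, h4⟩, h5⟩ := (((h1.and h2).filter_mono (nhdsWithin_le_nhds (s := Iio 1))).and
    self_mem_nhdsWithin).exists
  exact ⟨y, h4.le, h5, h3.le⟩
theorem ff_nonneg (s : ℝ) : 0 ≤ ff s := by
  exact le_max_right _ _
theorem ff_le {s : ℝ} (h : s ≤ 1) : ff s ≤ 1 / 2 := by
  exact max_le (by linarith) (by norm_num)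
theorem abs_ff_sub (s s' : ℝ) : |ff s - ff s'| ≤ |s - s'| := by
  refine (abs_max_sub_max_le_abs _ _ _).trans (le_of_eq ?_)
  congr 1
  ring
theorem continuous_ff : Continuous ff := by
  unfold ff
  fun_prop
theorem ff_pos_iff {s : ℝ} : 0 < ff s ↔ 1 / 2 < s := by
  simp [ff]
theorem fbar_pos : 0 < fbar := by
  have hπ := Real.pi_pos
  refine div_pos ?_ (by positivity)
  have h := intervalIntegral.integral_lt_integral_of_continuousOn_of_le_of_exists_lt
    (f := fun _ => (0 : ℝ)) (g := fun z => ff (Real.sin z)) (a := 0) (b := 2 * Real.pi) (by positivity)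
    continuousOn_const (continuous_ff.comp Real.continuous_sin).continuousOn
    (fun x _ => ff_nonneg _) ⟨Real.pi / 2, ⟨by positivity, by linarith⟩, by
      rw [Real.sin_pi_div_two]; exact ff_pos_iff.2 (by norm_num)⟩
  simpa using h
theorem fbar_le : fbar ≤ 1 / 2 := by
  have hπ := Real.pi_pos
  rw [fbar, div_le_iff₀ (by positivity)]
  have h := intervalIntegral.integral_mono_on (μ := volume) (f := fun z => ff (Real.sin z))
    (g := fun _ => (1 / 2 : ℝ)) (a := 0) (b := 2 * Real.pi) (by positivity)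
    ((continuous_ff.comp Real.continuous_sin).intervalIntegrable _ _) intervalIntegrable_const
    (fun x _ => ff_le (Real.sin_le_one x))
  rw [intervalIntegral.integral_const, smul_eq_mul] at h
  linarith
theorem continuous_qf (b : Bool) : Continuous (CP.qf b) := by
  have := continuous_ff
  unfold CP.qf
  fun_prop
theorem c0c_hasDerivAt_int {f : ℝ → ℝ} (hf : Continuous f) (z : ℝ) :
    HasDerivAt (fun u => ∫ x in (0 : ℝ)..u, f x) (f z) z :=
  intervalIntegral.integral_hasDerivAt_right (hf.intervalIntegrable _ _)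
    (hf.stronglyMeasurableAtFilter _ _) hf.continuousAt
theorem hasDerivAt_Qt (b : Bool) (z : ℝ) : HasDerivAt (CP.Qt b) (CP.qf b z + cL * fbar / 64) z := by
  exact c0c_hasDerivAt_int ((continuous_qf b).add continuous_const) z
theorem c0c_int_ff (b : Bool) :
    ∫ z in (0 : ℝ)..(2 * Real.pi), ff (sgn b * Real.sin z) = 2 * Real.pi * fbar := by
  have hπ := Real.pi_pos
  have h1 : ∫ z in (0 : ℝ)..(2 * Real.pi), ff (Real.sin z) = 2 * Real.pi * fbar := by
    rw [fbar]; field_simp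
  cases b
  · have hp : Function.Periodic (fun z => ff (Real.sin z)) (2 * Real.pi) := fun z => by
      simp only [Real.sin_add_two_pi]
    have h2 := hp.intervalIntegral_add_eq 0 Real.pi
    have h3 := intervalIntegral.integral_comp_add_right (fun z => ff (Real.sin z)) (a := 0)
      (b := 2 * Real.pi) Real.pi
    simp only [Real.sin_add_pi] at h3
    simp only [sgn, Bool.false_eq_true, if_false, neg_mul, one_mul]
    rw [h3, zero_add, add_comm (2 * Real.pi), ← h2, zero_add, h1]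
  · simp only [sgn, if_true, one_mul, h1]

theorem c0c_qf_bd (b : Bool) (z : ℝ) : |CP.qf b z + cL * fbar / 64| ≤ 1 := by
  have h1 := cL_pos
  have h2 := cL_le
  have h3 := fbar_pos
  have h4 := fbar_le
  have h5 : |sgn b * Real.sin z| ≤ 1 := by
    rw [abs_mul, abs_sgn, one_mul]; exact Real.abs_sin_le_one z
  have h6 := ff_nonneg (sgn b * Real.sin z)
  have h7 := ff_le (abs_le.1 h5).2
  have h8 := ff_nonneg (-(sgn b * Real.sin z))
  have h9 := ff_le (s := -(sgn b * Real.sin z)) (by linarith [(abs_le.1 h5).1])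
  unfold CP.qf
  rw [abs_le]
  constructor <;> nlinarith
/-- The integrand is `2π`-periodic with mean zero and bounded by `1`. -/
theorem abs_Qt_le (b : Bool) (z : ℝ) : |CP.Qt b z| ≤ 7 := by
  have hπ := Real.pi_pos
  have hc : Continuous fun z => CP.qf b z + cL * fbar / 64 := (continuous_qf b).add continuous_const
  have hp : Function.Periodic (fun z => CP.qf b z + cL * fbar / 64) (2 * Real.pi) := fun z => by
    simp only [CP.qf, Real.sin_add_two_pi]
  have h0 : ∫ z in (0 : ℝ)..(0 + 2 * Real.pi), (CP.qf b z + cL * fbar / 64) = 0 := by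
    have e1 := c0c_int_ff b
    have e2 := c0c_int_ff (!b)
    have c1 : Continuous fun z => ff (sgn b * Real.sin z) := continuous_ff.comp (by fun_prop)
    have c2 : Continuous fun z => ff (-(sgn b * Real.sin z)) := continuous_ff.comp (by fun_prop)
    simp only [sgn_not, neg_mul] at e2
    unfold CP.qf
    rw [zero_add, intervalIntegral.integral_add (Continuous.intervalIntegrable (by fun_prop) _ _)
      intervalIntegrable_const, intervalIntegral.integral_sub
      (Continuous.intervalIntegrable (by fun_prop) _ _) (Continuous.intervalIntegrable (by fun_prop) _ _),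
      intervalIntegral.integral_const_mul, intervalIntegral.integral_const_mul, e1, e2,
      intervalIntegral.integral_const, smul_eq_mul]
    ring
  have hq : Function.Periodic (CP.Qt b) (2 * Real.pi) := fun z => by
    unfold CP.Qt
    rw [hp.intervalIntegral_add_eq_add 0 z (fun _ _ => hc.intervalIntegrable _ _), h0, add_zero]
  obtain ⟨y, hy, e⟩ := hq.exists_mem_Ico₀ (by positivity) z
  rw [e]
  have h := intervalIntegral.norm_integral_le_of_norm_le_const (a := 0) (b := y) (C := 1)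
    (f := fun z => CP.qf b z + cL * fbar / 64) fun x _ => c0c_qf_bd b x
  rw [sub_zero, one_mul, abs_of_nonneg hy.1] at h
  have := Real.pi_lt_d2
  exact h.trans (by linarith [hy.2])

theorem nuM_pos : 0 < nuM := by
  exact lt_min one_pos (Classical.choose_spec ls_Mx_ge).1
theorem nuM_le : nuM ≤ 1 := by
  exact min_le_left _ _
theorem nuM_br (v : R3) : nuM * br v ≤ ls Mx v := by
  refine le_trans ?_ ((Classical.choose_spec ls_Mx_ge).2 v)
  gcongr
  exact min_le_right _ _
theorem nu_pos : 0 < nu := by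
  have : (0 : ℝ) < nuM := nuM_pos
  unfold nu
  positivity
theorem two_le_N0 : 2 ≤ N0 := by
  rw [N0, le_div_iff₀ (pow_pos nuM_pos 2)]
  calc 2 * nuM ^ 2 ≤ 2 * 1 := by gcongr; exact pow_le_one₀ zero_le nuM_le
    _ ≤ 204800 := by norm_num
theorem kap_pos : 0 < kap := by
  have h1 := cL_pos
  have h2 := one_le_Cb
  unfold kap
  positivity
theorem kap_le : kap ≤ 1 / 7000 := by
  have h1 := cL_pos
  have h2 := one_le_Cb
  have h3 := cL_le
  have h4 : cL / (2048 * Cb) ≤ 24 / 2048 := by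
    rw [div_le_div_iff₀ (by positivity) (by norm_num)]
    nlinarith
  calc kap ≤ (24 / 2048) ^ 2 := pow_le_pow_left₀ (by positivity) h4 2
    _ ≤ 1 / 7000 := by norm_num
theorem sqrt_kap : Cb * √kap = cL / 2048 := by
  have h1 := cL_pos
  have h2 := one_le_Cb
  rw [kap, Real.sqrt_sq (by positivity)]
  field_simp
theorem bet_pos : 0 < bet := by
  exact div_pos kap_pos (by norm_num)
theorem Kpl_spec {w : R3 → ℝ≥0∞} (hw : AdmW N0 w) (v n : R3) (hn : ‖n‖ = 1) :
    pl (fun u => ga (1 / 8) (u - v) * w u) v n ≤ Kpl := by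
  exact Classical.choose_spec (adm_pl N0) w hw v n hn
theorem one_le_Kgl : 1 ≤ Kgl := by
  exact le_add_self
theorem Kgl_gn {w : R3 → ℝ≥0∞} (hw : AdmW N0 w) {β : ℝ} (hβ : β ∈ Icc (1 / 8 : ℝ) 4) (v : R3) :
    2 * gn (fun u => ga β u * w u) (fun u => ga β u * w u) v ≤ Kgl * br v * ga β v := by
  have h := Classical.choose_spec (adm_gn N0) w hw β hβ v
  calc _ ≤ 2 * ((Classical.choose (adm_gn N0) : ℝ≥0) * br v * ga β v) := by gcongr
    _ = ((2 * Classical.choose (adm_gn N0) : ℝ≥0) : ℝ≥0∞) * br v * ga β v := by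
      push_cast; ring
    _ ≤ _ := by
      gcongr
      exact le_self_add.trans le_self_add
theorem Kgl_ls {w : R3 → ℝ≥0∞} (hw : AdmW N0 w) (v : R3) :
    ls (fun u => ga (1 / 8) u * w u) v ≤ Kgl * br v := by
  refine (Classical.choose_spec (adm_ls N0) w hw v).trans ?_
  gcongr
  exact le_add_self.trans le_self_add
/-- Polynomial growth in `V`. -/
theorem consts_poly : ∃ c : ℝ, 0 < c ∧ ∀ V : ℝ, 1 ≤ V → Cv V ≤ c * V ∧ Lv V ≤ c * V ∧
    (Cwv V : ℝ) ≤ c * V ^ (5 / 4 : ℝ) ∧ (b1v V : ℝ) ≤ c * V ^ 4 := by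
  have hb := bet_pos
  have h1 := cL_pos
  have h2 := fbar_pos
  set c₁ : ℝ := 6 * 155 * 64 / (cL * fbar) with hc₁
  set c₂ : ℝ := 4 / bet with hc₂
  set c₃ : ℝ := 2 * (1 + N0) * (2 ^ 25 * c₂) ^ (5 / 4 : ℝ) with hc₃
  have p1 : 0 < c₁ := by positivity
  have p2 : 0 < c₂ := by positivity
  have p3 : 0 < c₃ := by positivity
  have p4 : 0 ≤ 2 * c₃ * (Kb * (c₁ * c₂)) := by positivity
  refine ⟨c₁ + c₂ + c₃ + 2 * c₃ * (Kb * (c₁ * c₂)), by positivity, fun V hV => ?_⟩
  have hV0 : 0 < V := by linarith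
  have e1 : Cv V = c₁ * V := by rw [Cv, hc₁]; ring
  have e2 : Lv V = c₂ * V := by rw [Lv, hc₂]; ring
  have e3 : (Cwv V : ℝ) = c₃ * V ^ (5 / 4 : ℝ) := by
    rw [Cwv, e2, ← mul_assoc (2 ^ 25 : ℝ), Real.mul_rpow (by positivity) hV0.le]
    push_cast
    rw [Real.coe_toNNReal _ (by positivity), hc₃]
    ring
  have e4 : (b1v V : ℝ) = 2 * c₃ * (Kb * (c₁ * c₂)) * (V ^ (5 / 4 : ℝ) * V ^ 2) := by
    rw [b1v, b0v]
    push_cast
    rw [e3, e1, e2, Real.coe_toNNReal _ (by positivity)]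
    ring
  have e5 : V ^ (5 / 4 : ℝ) * V ^ 2 ≤ V ^ 4 := by
    have : V ^ (5 / 4 : ℝ) ≤ V ^ 2 := by
      rw [← Real.rpow_natCast]
      exact Real.rpow_le_rpow_of_exponent_le hV (by norm_num)
    calc _ ≤ V ^ 2 * V ^ 2 := by gcongr
      _ = V ^ 4 := by ring
  refine ⟨?_, ?_, ?_, ?_⟩
  · rw [e1]; gcongr; linarith
  · rw [e2]; gcongr; linarith
  · rw [e3]; gcongr; linarith
  · rw [e4]; gcongr; linarith

namespace CP

variable {P : CP} {r t : ℝ} {x v : R3} {b : Bool} {g : ℕ}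

theorem OK.V_le_L (h : P.OK) : P.V ≤ P.L := by
  have h1 := bet_pos
  have h2 : bet ≤ 1 := by have := kap_le; unfold bet; linarith
  have h3 := h.V_ge
  rw [L, Lv, le_div_iff₀ h1]
  nlinarith
theorem OK.one_le_L (h : P.OK) : 1 ≤ P.L := by
  linarith [h.V_le_L, h.V_ge]
theorem OK.one_le_C (h : P.OK) : 1 ≤ P.C := by
  have h1 := cL_pos
  have h2 := cL_le
  have h3 := fbar_pos
  have h4 := fbar_le
  have h5 := h.V_ge
  rw [C, Cv, le_div_iff₀ (by positivity)]
  nlinarith
theorem OK.c0c_coe_Cw (h : P.OK) : (P.Cw : ℝ) = 2 * (1 + N0) * (2 ^ 25 * P.L) ^ (5 / 4 : ℝ) := by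
  have := h.one_le_L
  rw [Cw, Cwv]
  push_cast
  rw [Real.coe_toNNReal _ (by rw [← L]; positivity), L]
theorem OK.one_le_Cw (h : P.OK) : 1 ≤ P.Cw := by
  have h1 := h.one_le_L
  have h2 : (1 : ℝ) ≤ (2 ^ 25 * P.L) ^ (5 / 4 : ℝ) := Real.one_le_rpow (by linarith) (by norm_num)
  have h3 : (0 : ℝ) ≤ N0 := N0.2
  rw [← NNReal.coe_le_coe, h.c0c_coe_Cw, NNReal.coe_one]
  nlinarith
theorem OK.coe_b₀ (h : P.OK) : (P.b₀ : ℝ) = 3 ^ 70 * (Kpl + 1) * (P.C * P.L) := by
  have h1 := h.one_le_L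
  have h2 := h.one_le_C
  rw [b₀, b0v, Kb]
  push_cast
  rw [Real.coe_toNNReal _ (by rw [← L, ← C]; positivity), L, C]
theorem OK.coe_Cw (h : P.OK) : (P.Cw : ℝ) = 2 * (1 + N0) * (2 ^ 25 * P.L) ^ (5 / 4 : ℝ) := by
  exact h.c0c_coe_Cw
theorem OK.one_le_b₀ (h : P.OK) : 1 ≤ P.b₀ := by
  have h1 := h.one_le_L
  have h2 := h.one_le_C
  have h3 : (0 : ℝ) ≤ Kpl := Kpl.2
  rw [← NNReal.coe_le_coe, h.coe_b₀, NNReal.coe_one]
  exact one_le_mul_of_one_le_of_one_le (one_le_mul_of_one_le_of_one_le (by norm_num) (by linarith))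
    (one_le_mul_of_one_le_of_one_le h2 h1)
theorem D1_b₁ (P : CP) (r : ℝ) : (P.D1 r).b₁ = b1v P.V := rfl
theorem OK.four_le_K₀ (h : P.OK) : 4 ≤ P.K₀ := by
  have := Real.one_le_exp (x := 3 * P.R₀ ^ 2) (by positivity)
  unfold K₀
  linarith
theorem OK.T_le' (h : P.OK) : P.T ≤ 1 / 200 := by
  have h1 := h.one_le_L
  have h2 := h.T_le
  have h3 := h.T_pos
  nlinarith
/-- `t₀` is eventually smaller than any fixed number. -/
theorem OK.ev_t₀ (h : P.OK) {c : ℝ} (hc : 0 < c) : ∀ᶠ r in 𝓝[>] (0 : ℝ), 0 < P.t₀ r ∧ P.t₀ r ≤ c := by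
  have hV := h.V_ge
  filter_upwards [Ioo_mem_nhdsGT hc] with r hr
  unfold t₀
  refine ⟨div_pos hr.1 (by linarith), ?_⟩
  rw [div_le_iff₀ (by linarith)]
  nlinarith [hr.1, hr.2]
theorem del_pos (P : CP) (t : ℝ) : 0 < P.del t := by
  exact lt_min one_pos (Real.exp_pos _)
theorem del_le_one (P : CP) (t : ℝ) : P.del t ≤ 1 := by
  exact min_le_left _ _
theorem del_eq_one (ht : t ≤ P.t₁) : P.del t = 1 := by
  exact min_eq_left (Real.one_le_exp (by nlinarith [nu_pos]))
theorem del_eq_exp (ht : P.t₁ ≤ t) : P.del t = Real.exp (-nu * (t - P.t₁)) := by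
  exact min_eq_right (Real.exp_le_one_iff.2 (by nlinarith [nu_pos]))
theorem del_le_mul (P : CP) {s : ℝ} (hs : s ≤ t) : P.del s ≤ Real.exp (nu * (t - s)) * P.del t := by
  unfold del
  rw [mul_min_of_nonneg _ _ (Real.exp_pos _).le, mul_one, ← Real.exp_add]
  refine min_le_min (Real.one_le_exp (by nlinarith [nu_pos])) (le_of_eq ?_)
  congr 1
  ring
theorem continuous_del (P : CP) : Continuous P.del := by
  unfold del
  fun_prop
theorem c0c_lint_exp {a : ℝ} (ha : 0 < a) (c : ℝ) :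
    ∫⁻ s in Ioi c, ENNReal.ofReal (Real.exp (-a * (s - c))) = ENNReal.ofReal (1 / a) := by
  have e : ∀ s, Real.exp (-a * (s - c)) = Real.exp (a * c) * Real.exp (-a * s) := fun s => by
    rw [← Real.exp_add]; congr 1; ring
  have hi := (integrableOn_exp_mul_Ioi (neg_neg_of_pos ha) c).const_mul (Real.exp (a * c))
  simp only [e]
  rw [← ofReal_integral_eq_lintegral_ofReal hi (ae_of_all _ fun s => by positivity),
    integral_const_mul, integral_exp_mul_Ioi (neg_neg_of_pos ha), neg_div_neg_eq, ← mul_div_assoc,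
    ← Real.exp_add]
  simp
theorem OK.lintegral_del (h : P.OK) :
    ∫⁻ s in Ioi 0, ENNReal.ofReal (P.del s) ≤ ENNReal.ofReal (1 + 1 / nu) := by
  have h1 := h.t₁_pos
  have h2 := h.t₁_le
  have h3 := nu_pos
  rw [← Ioc_union_Ioi_eq_Ioi h1.le]
  refine (lintegral_union_le _ _ _).trans ?_
  rw [ENNReal.ofReal_add zero_le_one (by positivity), ← c0c_lint_exp h3 P.t₁]
  refine add_le_add ?_ (setLIntegral_mono' measurableSet_Ioi fun s hs => ?_)
  · calc _ ≤ ∫⁻ s in Ioc 0 P.t₁, 1 :=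
          lintegral_mono fun s => ENNReal.ofReal_le_one.2 (P.del_le_one s)
      _ = ENNReal.ofReal P.t₁ := by simp
      _ ≤ _ := ENNReal.ofReal_le_ofReal (by linarith)
  · rw [del_eq_exp (le_of_lt hs)]
theorem c0c_sqrt_del (ht : P.t₁ ≤ t) : √(P.del t) = Real.exp (-((nuM : ℝ) / 8) * (t - P.t₁)) := by
  rw [del_eq_exp ht, ← Real.exp_half, nu]
  congr 1
  ring
theorem lintegral_sqrt_del (P : CP) :
    ∫⁻ s in Ioi P.t₁, ENNReal.ofReal √(P.del s) ≤ ENNReal.ofReal (8 / nuM) := by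
  have h1 : (0 : ℝ) < nuM := nuM_pos
  have h2 := c0c_lint_exp (a := (nuM : ℝ) / 8) (by positivity) P.t₁
  rw [one_div_div] at h2
  rw [← h2]
  exact setLIntegral_mono' measurableSet_Ioi fun s hs => by rw [c0c_sqrt_del (le_of_lt hs)]
/-- `exp y ≥ (1 + y / 2) ^ 2`. -/
theorem OK.sqrt_del_count (h : P.OK) (ht : 0 ≤ t) : 2 * (20 * t + 2) ^ 2 * √(P.del t) ≤ N0 := by
  have h1 : (0 : ℝ) < nuM := nuM_pos
  have h2 : (nuM : ℝ) ≤ 1 := nuM_le
  have h3 := h.t₁_le
  have h4 := h.t₁_pos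
  have e : (N0 : ℝ) = 204800 / nuM ^ 2 := by simp [N0]
  rw [e, le_div_iff₀ (by positivity)]
  rcases le_total t P.t₁ with h5 | h5
  · rw [del_eq_one h5, Real.sqrt_one]
    have h6 : (nuM : ℝ) ^ 2 ≤ 1 := pow_le_one₀ h1.le h2
    have h7 : (20 * t + 2) ^ 2 ≤ 3 ^ 2 := pow_le_pow_left₀ (by positivity) (by linarith) 2
    nlinarith
  · rw [c0c_sqrt_del h5]
    have h6 := Real.add_one_le_exp ((nuM : ℝ) / 16 * (t - P.t₁))
    have h7 : nuM * (20 * t + 2) ≤ 320 * Real.exp ((nuM : ℝ) / 16 * (t - P.t₁)) := by nlinarith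
    have h8 := pow_le_pow_left₀ (by positivity) h7 2
    have h9 : Real.exp ((nuM : ℝ) / 16 * (t - P.t₁)) ^ 2 *
        Real.exp (-((nuM : ℝ) / 8) * (t - P.t₁)) = 1 := by
      rw [← Real.exp_nat_mul, ← Real.exp_add, ← Real.exp_zero]
      congr 1
      push_cast
      ring
    have h10 := Real.exp_pos (-((nuM : ℝ) / 8) * (t - P.t₁))
    calc _ = 2 * (nuM * (20 * t + 2)) ^ 2 * Real.exp (-((nuM : ℝ) / 8) * (t - P.t₁)) := by ring
      _ ≤ 2 * (320 * Real.exp ((nuM : ℝ) / 16 * (t - P.t₁))) ^ 2 *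
          Real.exp (-((nuM : ℝ) / 8) * (t - P.t₁)) := by gcongr
      _ = 204800 * (Real.exp ((nuM : ℝ) / 16 * (t - P.t₁)) ^ 2 *
          Real.exp (-((nuM : ℝ) / 8) * (t - P.t₁))) := by ring
      _ = 204800 := by rw [h9, mul_one]
theorem OK.del_poly (h : P.OK) (n : ℕ) :
    Tendsto (fun t : ℝ => (t + 1) ^ n * P.del t) atTop (𝓝 0) := by
  have h1 := ((tendsto_rpow_mul_exp_neg_mul_atTop_nhds_zero n nu nu_pos).comp
    (tendsto_atTop_add_const_right atTop 1 tendsto_id)).const_mul (Real.exp (nu * (1 + P.t₁)))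
  rw [mul_zero] at h1
  refine h1.congr' ?_
  filter_upwards [eventually_ge_atTop P.t₁] with t ht
  simp only [Function.comp, id, Real.rpow_natCast]
  rw [del_eq_exp ht, mul_left_comm, ← Real.exp_add]
  congr 2
  ring

theorem el_nonneg (P : CP) (t : ℝ) (x : R3) : 0 ≤ P.el t x := by
  exact abs_nonneg _
theorem th_nonneg (P : CP) (t : ℝ) (x : R3) : 0 ≤ P.th t x := by
  exact pow_nonneg (P.el_nonneg t x) _
theorem OK.el_eq (h : P.OK) (ht : 0 ≤ t) (x : R3) : P.el t x = |c2 x| * P.T / (t + P.T) := by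
  have := h.T_pos
  rw [el, lt, abs_div, abs_mul, abs_of_pos this, abs_of_pos (show 0 < t + P.T by linarith)]
theorem OK.el_le (h : P.OK) (ht : 0 ≤ t) (x : R3) : P.el t x ≤ |c2 x| := by
  have := h.T_pos
  rw [h.el_eq ht, div_le_iff₀ (by linarith)]
  nlinarith [abs_nonneg (c2 x)]
theorem U_zero (P : CP) (b : Bool) (t : ℝ) (x : R3) : P.U b t x 0 = sgn b := by
  exact frame_zero _ _ _
theorem c2_U (P : CP) (b : Bool) (t : ℝ) (x : R3) : c2 (P.U b t x) = c2 x / (t + P.T) := by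
  exact frame_c2 _ _ _
theorem c3_U (P : CP) (b : Bool) (t : ℝ) (x : R3) : c3 (P.U b t x) = P.ze t x := by
  exact frame_c3 _ _ _
theorem osc_not (P : CP) (b : Bool) (l : ℝ) : P.osc (!b) l = -P.osc b l := by
  rw [osc, osc, sgn_not, neg_mul]
theorem osc_le_one (P : CP) (b : Bool) (l : ℝ) : P.osc b l ≤ 1 := by
  refine (le_abs_self _).trans ?_
  rw [osc, abs_mul, abs_sgn, one_mul]
  exact Real.abs_sin_le_one _
theorem c0c_log_sub {l l' m : ℝ} (hm : 0 < m) (hl : m ≤ l) (hl' : m ≤ l') :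
    Real.log l - Real.log l' ≤ |l - l'| / m := by
  have h1 : 0 < l := by linarith
  have h2 : 0 < l' := by linarith
  rw [← Real.log_div h1.ne' h2.ne']
  refine (Real.log_le_sub_one_of_pos (div_pos h1 h2)).trans ?_
  rw [div_sub_one h2.ne']
  exact (div_le_div_of_nonneg_right (le_abs_self _) h2.le).trans
    (div_le_div_of_nonneg_left (abs_nonneg _) hm hl')
/-- `|log l - log l'| ≤ |l - l'| / min l l'`. -/
theorem OK.abs_osc_sub (h : P.OK) (b : Bool) {l l' : ℝ} (hl : 0 < l) (hll : |l - l'| ≤ l / 2) :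
    |P.osc b l - P.osc b l'| ≤ 2 * |l - l'| / (l * P.α) := by
  have hα := h.α_pos
  have h1 : l / 2 ≤ l' := by linarith [(abs_le.1 hll).2]
  have h2 : |Real.log l - Real.log l'| ≤ |l - l'| / (l / 2) := by
    have a1 := c0c_log_sub (l := l) (l' := l') (half_pos hl) (by linarith) h1
    have a2 := c0c_log_sub (l := l') (l' := l) (half_pos hl) h1 (by linarith)
    rw [abs_sub_comm] at a2
    exact abs_le.2 ⟨by linarith, a1⟩
  rw [osc, osc, ← mul_sub, abs_mul, abs_sgn, one_mul]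
  refine (Real.abs_sin_sub_sin_le _ _).trans ?_
  rw [← sub_div, abs_div, abs_of_pos hα]
  refine (div_le_div_of_nonneg_right h2 hα.le).trans (le_of_eq ?_)
  field_simp
theorem chi_nonneg (P : CP) (b : Bool) (t : ℝ) (x : R3) : 0 ≤ P.chi b t x := by
  exact mul_nonneg (tau_nonneg _) (ff_nonneg _)
theorem chi_le (P : CP) (b : Bool) (t : ℝ) (x : R3) : P.chi b t x ≤ 1 / 2 := by
  calc P.chi b t x ≤ 1 * (1 / 2) :=
        mul_le_mul (tau_le_one _) (ff_le (P.osc_le_one _ _)) (ff_nonneg _) zero_le_one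
    _ = 1 / 2 := one_mul _
theorem OK.rho0_nonneg (h : P.OK) (ht : 0 ≤ t) (x : R3) : 0 ≤ P.rho0 t x := by
  have h1 := h.one_le_C
  have h2 := h.T_pos
  unfold rho0
  positivity
theorem OK.c0c_rho0_le (h : P.OK) (ht : 0 < t) (x : R3) :
    P.rho0 t x ≤ P.C * P.L / t * (P.T / (t + P.T)) := by
  have h1 := h.one_le_C
  have h2 := h.T_pos
  have h3 := h.one_le_L
  have h4 := P.el_nonneg t x
  have h5 : 0 < t / P.L := by positivity
  have h6 : t / P.L ≤ √((t / P.L + P.el t x) ^ 2 + c3 x ^ 2) :=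
    Real.le_sqrt_of_sq_le (by nlinarith [sq_nonneg (c3 x)])
  refine (div_le_div_of_nonneg_left (by positivity) h5 h6).trans (le_of_eq ?_)
  field_simp
theorem OK.rho0_le (h : P.OK) (ht : 0 < t) (x : R3) : P.rho0 t x ≤ P.C * P.L / t := by
  have h1 := h.one_le_C
  have h2 := h.T_pos
  have h3 := h.one_le_L
  exact (h.c0c_rho0_le ht x).trans
    (mul_le_of_le_one_right (by positivity) ((div_le_one (by linarith)).2 (by linarith)))
theorem OK.rho0_le' (h : P.OK) (ht : 0 < t) (x : R3) :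
    P.rho0 t x ≤ P.C * P.L / t * (P.T / (t + P.T)) := by
  exact h.c0c_rho0_le ht x
theorem OK.rho0_le'' (h : P.OK) (ht : 0 < t) (x : R3) : P.rho0 t x ≤ P.C * P.L * P.T / t ^ 2 := by
  have h1 := h.one_le_C
  have h2 := h.T_pos
  have h3 := h.one_le_L
  calc _ ≤ P.C * P.L / t * (P.T / (t + P.T)) := h.c0c_rho0_le ht x
    _ ≤ P.C * P.L / t * (P.T / t) := by gcongr; linarith
    _ = _ := by field_simp
theorem OK.c0c_rho0_mul (h : P.OK) (ht : 0 ≤ t) (x : R3) {y : ℝ} (hy : 0 ≤ y)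
    (h0 : (P.T / (t + P.T) * y) ^ 2 ≤ P.el t x ^ 2 + c3 x ^ 2) : P.rho0 t x * y ≤ P.C := by
  have h1 := h.one_le_C
  have h2 := h.T_pos
  have h3 := h.one_le_L
  have h4 := P.el_nonneg t x
  have h5 : 0 ≤ t / P.L := by positivity
  have h6 : P.T / (t + P.T) * y ≤ √((t / P.L + P.el t x) ^ 2 + c3 x ^ 2) :=
    Real.le_sqrt_of_sq_le (by nlinarith)
  rw [rho0, div_mul_eq_mul_div, mul_assoc, mul_div_assoc]
  exact mul_le_of_le_one_right (by linarith) (div_le_one_of_le₀ h6 (Real.sqrt_nonneg _))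
theorem OK.rho0_mul_ry (h : P.OK) (ht : 0 ≤ t) (x : R3) : P.rho0 t x * ry x ≤ P.C := by
  have h2 := h.T_pos
  have h3 : P.T / (t + P.T) ≤ 1 := (div_le_one (by linarith)).2 (by linarith)
  have h4 : 0 ≤ P.T / (t + P.T) := by positivity
  refine h.c0c_rho0_mul ht x (ry_nonneg x) ?_
  rw [h.el_eq ht, mul_pow, ry_sq, mul_div_assoc, mul_pow, sq_abs]
  have h5 : (P.T / (t + P.T)) ^ 2 ≤ 1 := pow_le_one₀ h4 h3
  nlinarith [sq_nonneg (c3 x)]
theorem OK.rho0_mul_el (h : P.OK) (ht : 0 ≤ t) (x : R3) : P.rho0 t x * P.el t x ≤ P.C := by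
  have h2 := h.T_pos
  have h3 : P.T / (t + P.T) ≤ 1 := (div_le_one (by linarith)).2 (by linarith)
  have h4 : 0 ≤ P.T / (t + P.T) := by positivity
  refine h.c0c_rho0_mul ht x (P.el_nonneg t x) ?_
  have h5 : (P.T / (t + P.T)) ^ 2 ≤ 1 := pow_le_one₀ h4 h3
  rw [mul_pow]
  nlinarith [sq_nonneg (c3 x), sq_nonneg (P.el t x)]
theorem OK.rho0_ge (h : P.OK) (ht : 0 < t) (hT : t ≤ P.T) (hx : ry x ≤ P.V * t) :
    P.C / (6 * P.V * t) ≤ P.rho0 t x := by
  have h1 := h.one_le_C
  have h2 := h.T_pos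
  have h3 := h.one_le_L
  have h4 := P.el_nonneg t x
  have h5 : 0 < t / P.L := by positivity
  have hV := h.V_ge
  have h6 : t / P.L ≤ t := div_le_self ht.le h3
  have h7 : P.el t x ≤ P.V * t := ((h.el_le ht.le x).trans (abs_c2_le_ry x)).trans hx
  have h8 : |c3 x| ≤ P.V * t := (abs_c3_le_ry x).trans hx
  have h9 : √((t / P.L + P.el t x) ^ 2 + c3 x ^ 2) ≤ 3 * P.V * t := by
    have a1 : t ≤ P.V * t := by nlinarith
    have a2 : (t / P.L + P.el t x) ^ 2 ≤ (2 * (P.V * t)) ^ 2 :=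
      pow_le_pow_left₀ (by positivity) (by linarith) 2
    have a3 : c3 x ^ 2 ≤ (P.V * t) ^ 2 := by
      rw [← sq_abs]; exact pow_le_pow_left₀ (abs_nonneg _) h8 2
    refine Real.sqrt_le_iff.2 ⟨by positivity, ?_⟩
    nlinarith [sq_nonneg (P.V * t)]
  have h10 : 1 / 2 ≤ P.T / (t + P.T) := by
    rw [le_div_iff₀ (by linarith)]; linarith
  have h11 : 0 < √((t / P.L + P.el t x) ^ 2 + c3 x ^ 2) := Real.sqrt_pos.2 (by positivity)
  calc P.C / (6 * P.V * t) = P.C * (1 / 2) / (3 * P.V * t) := by field_simp; norm_num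
    _ ≤ _ := by unfold rho0; gcongr

theorem c0c_and {α : Type} [MeasurableSpace α] {p q : α → Prop} (hp : MeasurableSet {a | p a})
    (hq : MeasurableSet {a | q a}) : MeasurableSet {a | p a ∧ q a} := hp.inter hq
theorem c0c_m2 : Measurable c2 := continuous_c2.measurable
theorem c0c_m3 : Measurable c3 := continuous_c3.measurable
theorem c0c_mry : Measurable ry := continuous_ry.measurable
theorem c0c_mdd : Measurable dd := continuous_dd.measurable
theorem c0c_mtau : Measurable tau := contDiff_tau.continuous.measurable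
theorem c0c_mff : Measurable ff := continuous_ff.measurable
theorem c0c_mosc (P : CP) (b : Bool) : Measurable (P.osc b) := by
  unfold osc
  fun_prop
theorem c0c_mlt (P : CP) : Measurable fun p : ℝ × R3 => P.lt p.1 p.2 := by
  have := c0c_m2
  unfold lt
  fun_prop
theorem c0c_tx : Measurable fun p : ℝ × R3 × R3 => (p.1, p.2.1) := by fun_prop
theorem c0c_c2_single (x : R3) (c : ℝ) : c2 (x + EuclideanSpace.single 0 c) = c2 x := by
  rw [c2_add, c2_single, add_zero]
theorem c0c_c3_single (x : R3) (c : ℝ) : c3 (x + EuclideanSpace.single 0 c) = c3 x := by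
  rw [c3_add, c3_single, add_zero]
theorem measurable_el (P : CP) : Measurable fun p : ℝ × R3 => P.el p.1 p.2 := by
  exact (c0c_mlt P).abs
theorem measurable_ze (P : CP) : Measurable fun p : ℝ × R3 => P.ze p.1 p.2 := by
  exact (c0c_m3.comp measurable_snd).div (measurable_fst.add ((measurable_el P).const_mul _))
theorem measurable_U (P : CP) (b : Bool) : Measurable fun p : ℝ × R3 => P.U b p.1 p.2 := by
  exact (measurable_const.add (((c0c_m2.comp measurable_snd).div
    (measurable_fst.add_const _)).smul_const _)).add ((measurable_ze P).smul_const _)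
theorem measurable_rho0 (P : CP) : Measurable fun p : ℝ × R3 => P.rho0 p.1 p.2 := by
  have h1 := c0c_m3
  have h2 := measurable_el P
  unfold rho0
  fun_prop
theorem measurable_chi (P : CP) (b : Bool) : Measurable fun p : ℝ × R3 => P.chi b p.1 p.2 := by
  exact (c0c_mtau.comp (measurable_ze P)).mul (c0c_mff.comp ((c0c_mosc P b).comp (measurable_el P)))
theorem measurableSet_GC (P : CP) (ε₃ ζ₃ : ℝ) :
    MeasurableSet {p : ℝ × R3 | P.GC ε₃ ζ₃ p.1 p.2} := by
  simp only [GC, ofPred_exists]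
  exact MeasurableSet.iUnion fun b => (measurableSet_le (measurable_ze P).abs measurable_const).inter
    (measurableSet_le measurable_const (c0c_mff.comp ((c0c_mosc P b).comp (measurable_el P))))
theorem el_single (P : CP) (t : ℝ) (x : R3) (c : ℝ) :
    P.el t (x + EuclideanSpace.single 0 c) = P.el t x := by
  rw [el, el, lt, lt, c0c_c2_single]
theorem ze_single (P : CP) (t : ℝ) (x : R3) (c : ℝ) :
    P.ze t (x + EuclideanSpace.single 0 c) = P.ze t x := by
  rw [ze, ze, el_single, c0c_c3_single]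
theorem U_single (P : CP) (b : Bool) (t : ℝ) (x : R3) (c : ℝ) :
    P.U b t (x + EuclideanSpace.single 0 c) = P.U b t x := by
  rw [U, U, ze_single, c0c_c2_single]
theorem c0c_mFc (P : CP) (r : ℝ) (b : Bool) : Measurable fun p : R3 × R3 => P.Fc r b p.1 p.2 := by
  have h1 := c0c_m2
  have h2 := c0c_m3
  have h3 := c0c_mtau
  have h4 := c0c_mff
  have h5 := c0c_mosc P b
  have h6 := path_meas_coord 0
  unfold Fc
  refine Measurable.ite ?_ (by fun_prop) measurable_const
  exact c0c_and (measurableSet_lt measurable_const (by fun_prop))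
    (c0c_and (measurableSet_le (by fun_prop) measurable_const)
    (c0c_and (measurableSet_le (by fun_prop) (by fun_prop))
    (c0c_and (measurableSet_le (by fun_prop) (by fun_prop))
    (measurableSet_le (by fun_prop) (by fun_prop)))))
theorem c0c_Wg_iff {r : ℝ} {g : ℕ} {b : Bool} {t : ℝ} {x v : R3} : P.Wg r g b t x v ↔
    0 < P.el t x ∧ P.el t x ≤ r * (1 + (g + 1) / (P.G + 1)) ∧
      1 / 2 - (g + 1) / (4 * (P.G + 1)) ≤ P.osc b (P.el t x) ∧
      |c3 v| ≤ 1 + (g + 1) / (2 * (P.G + 1)) ∧ ‖v - P.U b t x‖ ≤ (32 * P.L) ^ (g + 1) * P.th t x :=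
  ⟨fun h => ⟨h.1, h.2, h.3, h.4, h.5⟩, fun h => ⟨h.1, h.2.1, h.2.2.1, h.2.2.2.1, h.2.2.2.2⟩⟩
theorem c0c_add {f g : Fn} (hf : Meas f ∧ Inv1 f) (hg : Meas g ∧ Inv1 g) :
    Meas (f + g) ∧ Inv1 (f + g) :=
  ⟨hf.1.add hg.1, fun t x v c => by simp only [Pi.add_apply, hf.2 t x v c, hg.2 t x v c]⟩
theorem c0c_sum {s : Finset ℕ} {f : ℕ → Fn} (hf : ∀ i, Meas (f i) ∧ Inv1 (f i)) :
    Meas (∑ i ∈ s, f i) ∧ Inv1 (∑ i ∈ s, f i) :=
  Finset.sum_induction f (fun F => Meas F ∧ Inv1 F) (fun _ _ => c0c_add)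
    ⟨measurable_const, fun _ _ _ _ => rfl⟩ fun i _ => hf i
theorem c0c_GN {f g : Fn} (hf : Meas f ∧ Inv1 f) (hg : Meas g ∧ Inv1 g) :
    Meas (GN f g) ∧ Inv1 (GN f g) :=
  ⟨hf.1.GN hg.1, fun t x v c => by
    have e1 : f t (x + EuclideanSpace.single 0 c) = f t x := funext fun u => hf.2 t x u c
    have e2 : g t (x + EuclideanSpace.single 0 c) = g t x := funext fun u => hg.2 t x u c
    simp only [GN, e1, e2]⟩
theorem c0c_perz {f : Bool → Fn} (hf : ∀ b, Meas (f b) ∧ Inv1 (f b)) :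
    Meas (perz f) ∧ InvF (perz f) :=
  ⟨meas_perz fun b => (hf b).1, invF_perz fun b => (hf b).2⟩
theorem meas_E0c (P : CP) (r : ℝ) (b : Bool) : Meas (P.E0c r b) ∧ Inv1 (P.E0c r b) := by
  refine ⟨(c0c_mFc P r b).comp (f := fun p : ℝ × R3 × R3 => (p.2.1 - p.1 • p.2.2, p.2.2))
    (by fun_prop), fun t x v c => ?_⟩
  simp only [E0c, Fc, add_sub_right_comm, c0c_c2_single, c0c_c3_single]
theorem meas_amp (P : CP) (r : ℝ) (g : ℕ) (b : Bool) : Meas (P.amp r g b) ∧ Inv1 (P.amp r g b) := by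
  have h1 := (measurable_el P).comp c0c_tx
  have h2 := (measurable_U P b).comp c0c_tx
  have h3 := c0c_m3
  refine ⟨?_, fun t x v c => ?_⟩
  · unfold Meas amp
    refine Measurable.ite ?_ (((h1.pow_const _).const_mul _).div (h1.pow_const _)).ennreal_ofReal
      measurable_const
    simp only [c0c_Wg_iff]
    exact c0c_and (measurableSet_lt measurable_const h1)
      (c0c_and (measurableSet_le h1 measurable_const)
      (c0c_and (measurableSet_le measurable_const ((c0c_mosc P b).comp h1))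
      (c0c_and (measurableSet_le (by fun_prop) measurable_const)
      (measurableSet_le (measurable_snd.snd.sub h2).norm ((h1.pow_const 24).const_mul _)))))
  · simp only [amp, c0c_Wg_iff, th, el_single, U_single]
theorem meas_Eg (P : CP) (r : ℝ) (g : ℕ) (b : Bool) : Meas (P.Eg r g b) ∧ Inv1 (P.Eg r g b) := by
  cases g with
  | zero => exact meas_E0c P r b
  | succ g => exact meas_amp P r (g + 1) b
theorem meas_Ehi (P : CP) (r : ℝ) (b : Bool) : Meas (P.Ehi r b) ∧ Inv1 (P.Ehi r b) := by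
  exact c0c_sum fun g => meas_amp P r (g + 1) b
theorem meas_Ecc (P : CP) (r : ℝ) (b : Bool) : Meas (P.Ecc r b) ∧ Inv1 (P.Ecc r b) := by
  exact c0c_add (meas_E0c P r b) (meas_Ehi P r b)
theorem meas_Psic (P : CP) (r : ℝ) (b : Bool) : Meas (P.Psic r b) ∧ Inv1 (P.Psic r b) := by
  exact c0c_sum fun g₁ => c0c_sum fun g₂ => c0c_GN (meas_Eg P r g₁ b) (meas_Eg P r g₂ b)
theorem meas_sgc (P : CP) (b : Bool) : Meas (P.sgc b) ∧ Inv1 (P.sgc b) := by
  refine ⟨measurable_sg.comp (f := fun p : ℝ × R3 × R3 => (P.U b p.1 p.2.1, P.th p.1 p.2.1, p.2.2))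
    (((measurable_U P b).comp c0c_tx).prodMk
      ((((measurable_el P).comp c0c_tx).pow_const _).prodMk measurable_snd.snd)), fun t x v c => ?_⟩
  simp only [sgc, th, el_single, U_single]
theorem meas_E0 (P : CP) (r : ℝ) : Meas (P.E0 r) ∧ InvF (P.E0 r) := by
  exact c0c_perz (meas_E0c P r)
theorem meas_Ecal (P : CP) (r : ℝ) : Meas (P.Ecal r) ∧ InvF (P.Ecal r) := by
  exact c0c_perz (meas_Ecc P r)
theorem meas_Psi (P : CP) (r : ℝ) : Meas (P.Psi r) ∧ InvF (P.Psi r) := by
  exact c0c_perz (meas_Psic P r)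
theorem meas_E1 (P : CP) (r : ℝ) : Meas (P.E1 r) ∧ InvF (P.E1 r) := by
  exact ⟨(((meas_tm P.continuous_del.measurable).mul (meas_Psi P r).1).PI 0).smul _,
    (((invF_tm _).mul (meas_Psi P r).2).PI 0).smul _⟩
theorem meas_Dump (P : CP) (r : ℝ) : Meas (P.Dump r) := by
  exact ((meas_Ecal P r).1.GN (meas_Ecal P r).1).sub (meas_Psi P r).1
theorem meas_om (P : CP) : Meas P.om ∧ InvF P.om := by
  have h := c0c_perz (meas_sgc P)
  refine ⟨measurable_const.add (Measurable.ite (measurableSet_lt measurable_const measurable_fst)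
    (((P.continuous_del.measurable.comp measurable_fst).sqrt.ennreal_ofReal).mul h.1)
    measurable_const), fun t x v a ha => ?_⟩
  simp only [om, h.2 t x v a ha]
theorem reg_eW : Reg eW := by
  have h1 := c0c_mdd
  refine ⟨?_, fun t x v a ha => ?_, fun t x v => ENNReal.mul_ne_top ENNReal.ofReal_ne_top
    ENNReal.ofReal_ne_top⟩
  · unfold Meas eW ga mm
    fun_prop
  · simp only [eW, mm, dd_add_Gam x ha]
theorem reg_eH (P : CP) : Reg P.eH := by
  have h1 := c0c_mdd
  refine ⟨?_, fun t x v a ha => ?_, fun t x v => ENNReal.mul_ne_top ENNReal.ofReal_ne_top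
    ENNReal.ofReal_ne_top⟩
  · unfold Meas eH ga Th Zf
    fun_prop
  · simp only [eH, Th, Zf, dd_add_Gam x ha]
theorem reg_hole (P : CP) : Reg P.hole := by
  have h1 := c0c_mdd
  refine ⟨?_, fun t x v a ha => ?_, fun t x v => ?_⟩
  · exact Measurable.ite (measurableSet_lt (by fun_prop) measurable_const) measurable_const
      measurable_const
  · simp only [hole, add_sub_right_comm, dd_add_Gam _ ha]
  · unfold hole
    split_ifs <;> simp
theorem meas_F0 (P : CP) (r : ℝ) : (Measurable fun p : R3 × R3 => P.F0 r p.1 p.2) ∧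
    ∀ x v, ∀ c ∈ Gam, P.F0 r (x + c) v = P.F0 r x v := by
  have h1 := c0c_mdd
  refine ⟨((meas_E0 P r).1.time 0).add (Measurable.ite (c0c_and (measurableSet_lt (by fun_prop)
    measurable_const) (measurableSet_le measurable_const (by fun_prop)))
    (measurable_Mx.comp measurable_snd) measurable_const), fun x v c hc => ?_⟩
  simp only [F0, Fa, (meas_E0 P r).2 0 x v c hc, dd_add_Gam x hc]
theorem Ecc_eq (P : CP) (r : ℝ) (b : Bool) :
    P.Ecc r b = ∑ g ∈ Finset.range (P.G + 1), P.Eg r g b := by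
  rw [Finset.sum_range_succ', add_comm]
  rfl
theorem Ecal_eq (P : CP) (r : ℝ) : P.Ecal r = P.E0 r + perz (P.Ehi r) := by
  exact perz_add _ _
theorem E0_pa (P : CP) (r t : ℝ) (x v : R3) (s : ℝ) : pa (P.E0 r) t x v s = P.E0 r t x v := by
  have e : ∀ y : R3, y - (t - s) • v - s • v = y - t • v := fun y => by
    rw [sub_sub, ← add_smul, sub_add_cancel]
  rw [E0, pa_perz]
  simp only [pa, E0c, perz, e]
theorem E1_pa (P : CP) (r t : ℝ) (x v : R3) {s : ℝ} (hs : s ≤ t) :
    pa (P.E1 r) t x v s ≤ P.E1 r t x v := by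
  show P.Λ * pa (PI (tm P.del * P.Psi r) 0) t x v s ≤ P.Λ * PI (tm P.del * P.Psi r) 0 t x v
  rw [pa_PI]
  exact mul_le_mul_right (lintegral_mono_set (Ioc_subset_Ioc_right hs)) _
theorem hole_pa (P : CP) (t : ℝ) (x v : R3) (s : ℝ) : pa P.hole t x v s = P.hole t x v := by
  have e : x - (t - s) • v - s • v = x - t • v := by
    rw [sub_sub, ← add_smul, sub_add_cancel]
  simp only [pa, hole, e]
theorem c0c_mQt : Measurable fun p : R3 × ℝ => Qt (opp p.1) p.2 := by
  have hc : ∀ b, Measurable (Qt b) := fun b =>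
    (continuous_iff_continuousAt.2 fun z => (hasDerivAt_Qt b z).continuousAt).measurable
  have e : (fun p : R3 × ℝ => Qt (opp p.1) p.2) =
      fun p => if p.1 0 < 0 then Qt true p.2 else Qt false p.2 := by
    funext p
    by_cases h : p.1 0 < 0 <;> simp [opp, h]
  rw [e]
  exact Measurable.ite (measurableSet_lt ((path_meas_coord 0).comp measurable_fst) measurable_const)
    ((hc true).comp measurable_snd) ((hc false).comp measurable_snd)
theorem measurable_phi (P : CP) : Measurable fun p : ℝ × R3 × R3 => P.phi p.1 p.2.1 p.2.2 := by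
  have h1 := c0c_m2
  have h2 := c0c_mry
  have h3 : Measurable fun p : ℝ × R3 × R3 => P.Bf p.1 p.2.1 p.2.2 := by
    refine Measurable.div ((((((measurable_rho0 P).comp c0c_tx).const_mul _).mul
      (c0c_mtau.comp ((measurable_ze P).comp c0c_tx))).mul ((c0c_mlt P).comp c0c_tx)).mul
      (by fun_prop)) ?_
    unfold Jv
    fun_prop
  have h4 : Measurable fun p : ℝ × R3 × R3 => Qt (opp p.2.2) (Real.log (P.el p.1 p.2.1) / P.α) :=
    c0c_mQt.comp (f := fun p : ℝ × R3 × R3 => (p.2.2, Real.log (P.el p.1 p.2.1) / P.α))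
      (measurable_snd.snd.prodMk (((measurable_el P).comp c0c_tx).log.div_const _))
  have h5 : Measurable sg2 :=
    Measurable.ite (measurableSet_le measurable_const h1) measurable_const measurable_const
  have h6 : Measurable fun p : ℝ × R3 × R3 => P.pp p.1 p.2.1 p.2.2 :=
    (measurable_const.sub (h3.mul h4)).add (by fun_prop)
  unfold phi
  refine Measurable.ite ?_ (Measurable.mul (by fun_prop) h6.neg.exp) measurable_const
  exact c0c_and (measurableSet_le measurable_const (by fun_prop))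
    (c0c_and (measurableSet_le (by fun_prop) measurable_const)
    (measurableSet_le (by fun_prop) (by fun_prop)))
theorem phi_single (P : CP) (t : ℝ) (x v : R3) (c : ℝ) :
    P.phi t (x + EuclideanSpace.single 0 c) v = P.phi t x v := by
  simp only [phi, pp, Bf, Jv, rho0, lt, el_single, ze_single, ry_single, c0c_c2_single, c0c_c3_single]
theorem OK.phi_nonneg (h : P.OK) (t : ℝ) (x v : R3) : 0 ≤ P.phi t x v := by
  unfold phi
  split_ifs with h1
  · have hV := h.V_ge
    refine mul_nonneg (sub_nonneg.2 ?_) (Real.exp_pos _).le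
    exact div_le_one_of_le₀ (pow_le_pow_left₀ (norm_nonneg _) h1.2.1 2) (sq_nonneg _)
  · exact le_rfl
theorem isLin_Nf (P : CP) (t : ℝ) : IsLin (P.Nf t) := by
  have hφ : Measurable fun q : R3 × R3 => ENNReal.ofReal (P.phi t q.1 q.2) :=
    ((measurable_phi P).comp (f := fun q : R3 × R3 => (t, q)) (by fun_prop)).ennreal_ofReal
  have h1 : ∀ {f : R3 × R3 → ℝ≥0∞}, Measurable f → ∀ x,
      Measurable fun v => f (x, v) * ENNReal.ofReal (P.phi t x v) := fun hf x =>
    (hf.mul hφ).comp (f := fun v : R3 => (x, v)) (by fun_prop)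
  have h2 : ∀ {f : R3 × R3 → ℝ≥0∞}, Measurable f →
      Measurable fun x => ∫⁻ v, f (x, v) * ENNReal.ofReal (P.phi t x v) := fun hf =>
    (hf.mul hφ).lintegral_prod_right'
  refine ⟨fun f g hf hg => ?_, fun c f hf => ?_, fun f hf hm => ?_⟩
  · unfold Nf
    rw [← lintegral_add_left (h2 hf)]
    refine lintegral_congr fun x => ?_
    rw [← lintegral_add_left (h1 hf x)]
    simp only [Pi.add_apply, add_mul]
  · unfold Nf
    rw [← lintegral_const_mul _ (h2 hf)]
    refine lintegral_congr fun x => ?_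
    rw [← lintegral_const_mul _ (h1 hf x)]
    simp only [mul_assoc]
  · unfold Nf
    rw [← lintegral_iSup (fun n => h2 (hf n)) fun n m hnm x =>
      lintegral_mono fun v => mul_le_mul_left (hm hnm (x, v)) _]
    refine lintegral_congr fun x => ?_
    rw [← lintegral_iSup (fun n => h1 (hf n) x) fun n m hnm v => mul_le_mul_left (hm hnm (x, v)) _]
    simp only [ENNReal.iSup_mul]
theorem Nf_mono (P : CP) (t : ℝ) {f g : R3 × R3 → ℝ≥0∞} (h : f ≤ g) : P.Nf t f ≤ P.Nf t g := by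
  exact lintegral_mono fun x => lintegral_mono fun v => mul_le_mul_left (h (x, v)) _
theorem Nf_congr_ae (P : CP) (t : ℝ) {f g : R3 × R3 → ℝ≥0∞} (h : ∀ᵐ q, f q = g q) :
    P.Nf t f = P.Nf t g := by
  refine lintegral_congr_ae (ae_restrict_of_ae ?_)
  filter_upwards [Measure.ae_ae_of_ae_prod h] with x hx
  refine lintegral_congr_ae ?_
  filter_upwards [hx] with v hv
  rw [hv]
theorem c0c_gt (P : CP) (Q : HQ) (ρ εc : ℝ) :
    MeasurableSet {q : (ℝ × R3 × R3) × ℝ | q.2 ∈ P.gt Q ρ εc q.1.1 q.1.2.1 q.1.2.2} := by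
  have h2 := c0c_mry
  have hy : Measurable fun q : (ℝ × R3 × R3) × ℝ => (q.2, q.1.2.1 - (q.1.1 - q.2) • q.1.2.2) := by
    fun_prop
  have h3 := (measurable_el P).comp hy
  have h4 := hy (measurableSet_GC P Q.ε₃ Q.ζ₃)
  simp only [gt, mem_ofPred_eq]
  refine c0c_and ?_ (c0c_and ?_ (c0c_and ?_ (c0c_and h4 ?_)))
  · exact measurableSet_le (by fun_prop) measurable_snd
  · exact measurableSet_le measurable_snd (by fun_prop)
  · exact measurableSet_le (by fun_prop) (by fun_prop)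
  · exact measurableSet_le (by fun_prop) h3
theorem c0c_gd (P : CP) (Q : HQ) (ρ : ℝ) :
    MeasurableSet {q : R3 × R3 | q.2 ∈ P.gd Q ρ q.1} := by
  have h1 := c0c_m2
  simp only [gd, mem_ofPred_eq]
  refine c0c_and ?_ (c0c_and ?_ ?_)
  · exact measurableSet_le (by fun_prop) measurable_const
  · exact measurableSet_le measurable_const (by fun_prop)
  · exact measurableSet_le measurable_const (by fun_prop)
theorem c0c_ind {α β : Type} [MeasurableSpace α] [MeasurableSpace β] {S : α → Set β}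
    {g : α → β → ℝ≥0∞} (hS : MeasurableSet {q : α × β | q.2 ∈ S q.1})
    (hg : Measurable fun q : α × β => g q.1 q.2) :
    Measurable fun q : α × β => (S q.1).indicator (g q.1) q.2 := hg.indicator hS
theorem c0c_setLint {α : Type} [MeasurableSpace α] {S : α → Set ℝ} {g : α → ℝ → ℝ≥0∞}
    (hS : MeasurableSet {q : α × ℝ | q.2 ∈ S q.1}) (hg : Measurable fun q : α × ℝ => g q.1 q.2) :
    Measurable fun a => ∫⁻ s in S a, g a s := by
  have e : (fun a => ∫⁻ s in S a, g a s) = fun a => ∫⁻ s, (S a).indicator (g a) s :=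
    funext fun a => (lintegral_indicator (measurable_prodMk_left (x := a) hS) _).symm
  rw [e]
  exact (c0c_ind hS hg).lintegral_prod_right'
theorem meas_mainT (P : CP) (Q : HQ) (r ρ εc : ℝ) {f : Fn} (hf : Meas f) :
    Meas (P.mainT Q r ρ εc f) := by
  refine c0c_setLint (c0c_gt P Q ρ εc) (g := fun (p : ℝ × R3 × R3) s =>
    2 * gn (P.E0 r s (p.2.1 - (p.1 - s) • p.2.2)) ((P.gd Q ρ p.2.2).indicator
      (f s (p.2.1 - (p.1 - s) • p.2.2))) p.2.2) ?_
  refine Measurable.const_mul (measurable_gn ?_ ?_ measurable_fst.snd.snd) _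
  · exact path_meas_comp (meas_E0 P r).1 (by fun_prop) (by fun_prop) measurable_snd
  · refine c0c_ind (S := fun a : (ℝ × R3 × R3) × ℝ => P.gd Q ρ a.1.2.2)
      (g := fun a => f a.2 (a.1.2.1 - (a.1.1 - a.2) • a.1.2.2)) ?_
      (path_meas_comp hf (by fun_prop) (by fun_prop) measurable_snd)
    exact (show Measurable fun q : ((ℝ × R3 × R3) × ℝ) × R3 => (q.1.1.2.2, q.2) by fun_prop)
      (c0c_gd P Q ρ)

end CP

theorem reg_src (s₀ : ℝ) : Reg (src s₀) := by
  have h1 := CP.c0c_mdd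
  refine ⟨?_, fun t x v a ha => ?_, fun t x v => ?_⟩
  · refine Measurable.ite ?_ measurable_const measurable_const
    exact CP.c0c_and (measurableSet_le measurable_const measurable_fst)
      (CP.c0c_and (measurableSet_le measurable_fst measurable_const)
      (CP.c0c_and (measurableSet_le (by fun_prop) measurable_const)
      (measurableSet_le (by fun_prop) measurable_const)))
  · simp only [src, dd_add_Gam x ha]
  · unfold src
    split_ifs <;> simp
theorem src_le_one (s₀ t : ℝ) (x v : R3) : src s₀ t x v ≤ 1 := by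
  unfold src
  split_ifs <;> simp

end Crest.Agent.R68
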