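/-
R68/C1: kinematics of the cold flow, transport of the velocity weight
Skeleton by helper76 (row 68); keep the statements unchanged, add any helper lemmas you like.
-/
import Crest.Agent.R68.C0c

set_option autoImplicit false
set_option linter.unusedVariables false
set_option linter.unusedSectionVars false

noncomputable section

namespace Crest.Agent.R68

open MeasureTheory Set Filter Topology
open scoped ENNReal NNReal
open Crest.AnalysisR.VecCalc3 Crest.AnalysisR.PDE.Boltzmann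

namespace CP

variable {P : CP} {r s t : ℝ} {x v : R3} {b : Bool} {g : ℕ}

theorem Jv_eq (h : P.OK) (ht : 0 ≤ t) (b : Bool) (x v : R3) :
    P.Jv t x v = c2 (v - P.U b t x) * (t + P.T) := by
  have hT := h.T_pos
  have : t + P.T ≠ 0 := by positivity
  rw [c2_sub, c2_U, Jv]
  field_simp

theorem Jv_pa (P : CP) (s t : ℝ) (x v : R3) : P.Jv s (x - (t - s) • v) v = P.Jv t x v := by
  simp only [Jv, c2_sub, c2_smul]
  ring

/-- `lt s x_s = T (c2 v - J / (s + T))`. -/
theorem lt_eq (h : P.OK) (ht : 0 ≤ t) (x v : R3) :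
    P.lt t x = P.T * (c2 v - P.Jv t x v / (t + P.T)) := by
  have hT := h.T_pos
  have : t + P.T ≠ 0 := by positivity
  rw [lt, Jv]
  field_simp
  ring

theorem lt_sub (h : P.OK) (hs : 0 ≤ s) (hst : s ≤ t) (x v : R3) :
    P.lt t x - P.lt s (x - (t - s) • v) = P.T * P.Jv t x v * (t - s) / ((s + P.T) * (t + P.T)) := by
  have hT := h.T_pos
  have ht : 0 ≤ t := hs.trans hst
  have h1 : t + P.T ≠ 0 := by positivity
  have h2 : s + P.T ≠ 0 := by positivity
  rw [lt_eq h ht x v, lt_eq h hs _ v, Jv_pa]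
  field_simp
  ring

theorem C1_lt_s (h : P.OK) (hs : 0 ≤ s) (hst : s ≤ t) (b : Bool) (x v : R3) :
    P.lt t x - P.lt s (x - (t - s) • v) =
      P.T * c2 (v - P.U b s (x - (t - s) • v)) * ((t - s) / (t + P.T)) := by
  have hT := h.T_pos
  have ht : 0 ≤ t := hs.trans hst
  have h1 : t + P.T ≠ 0 := by positivity
  have h2 : s + P.T ≠ 0 := by positivity
  rw [lt_sub h hs hst, ← Jv_pa P s t, Jv_eq h hs b]
  field_simp

theorem C1_lt_t (h : P.OK) (hs : 0 ≤ s) (hst : s ≤ t) (b : Bool) (x v : R3) :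
    P.lt t x - P.lt s (x - (t - s) • v) =
      (t - s) * c2 (v - P.U b t x) * (P.T / (s + P.T)) := by
  have hT := h.T_pos
  have ht : 0 ≤ t := hs.trans hst
  have h1 : t + P.T ≠ 0 := by positivity
  have h2 : s + P.T ≠ 0 := by positivity
  rw [lt_sub h hs hst, Jv_eq h ht b]
  field_simp

theorem kin_lt (h : P.OK) (hs : 0 ≤ s) (hst : s ≤ t) (b : Bool) (x v : R3) :
    |P.lt t x - P.lt s (x - (t - s) • v)| ≤ P.T * ‖v - P.U b s (x - (t - s) • v)‖ ∧
    |P.lt t x - P.lt s (x - (t - s) • v)| ≤ t * ‖v - P.U b t x‖ := by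
  have hT := h.T_pos
  have ht : 0 ≤ t := hs.trans hst
  constructor
  · rw [C1_lt_s h hs hst b x v, abs_mul, abs_mul, abs_of_pos hT,
      abs_of_nonneg (div_nonneg (sub_nonneg.2 hst) (by positivity))]
    have h1 : (t - s) / (t + P.T) ≤ 1 := by
      rw [div_le_one (by positivity)]; linarith
    have h2 := abs_c2_le_norm (v - P.U b s (x - (t - s) • v))
    calc P.T * |c2 (v - P.U b s (x - (t - s) • v))| * ((t - s) / (t + P.T))
        ≤ P.T * ‖v - P.U b s (x - (t - s) • v)‖ * 1 := by gcongr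
      _ = _ := mul_one _
  · rw [C1_lt_t h hs hst b x v, abs_mul, abs_mul, abs_of_nonneg (sub_nonneg.2 hst),
      abs_of_nonneg (div_nonneg hT.le (by positivity))]
    have h1 : P.T / (s + P.T) ≤ 1 := by
      rw [div_le_one (by positivity)]; linarith
    have h2 := abs_c2_le_norm (v - P.U b t x)
    have h3 : t - s ≤ t := by linarith
    calc (t - s) * |c2 (v - P.U b t x)| * (P.T / (s + P.T))
        ≤ t * ‖v - P.U b t x‖ * 1 := by gcongr
      _ = _ := mul_one _

theorem C1_cc0 (P : CP) (b : Bool) (s t : ℝ) (x v : R3) :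
    (v - P.U b t x) 0 = (v - P.U b s (x - (t - s) • v)) 0 := by
  simp only [PiLp.sub_apply, U_zero]

theorem C1_cc2 (h : P.OK) (hs : 0 ≤ s) (hst : s ≤ t) (b : Bool) (x v : R3) :
    c2 (v - P.U b t x) * (t + P.T) = c2 (v - P.U b s (x - (t - s) • v)) * (s + P.T) := by
  rw [← Jv_eq h (hs.trans hst), ← Jv_eq h hs, Jv_pa]

theorem C1_cc3 (b : Bool) (hpos : 0 < s + P.L * P.el s (x - (t - s) • v))
    (hpt : 0 < t + P.L * P.el t x) :
    c3 (v - P.U b t x) * (t + P.L * P.el t x) =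
      c3 (v - P.U b s (x - (t - s) • v)) * (s + P.L * P.el s (x - (t - s) • v)) +
        c3 v * P.L * (P.el t x - P.el s (x - (t - s) • v)) := by
  rw [c3_sub, c3_sub, c3_U, c3_U, ze, ze, sub_mul, sub_mul, div_mul_cancel₀ _ hpos.ne',
    div_mul_cancel₀ _ hpt.ne', c3_sub, c3_smul]
  ring

theorem C1_arith_cc {L s t lt ls w a₂ a₃ b₃ N : ℝ} (hL : 1 ≤ L) (hs : 0 ≤ s) (hst : s ≤ t)
    (hlt : 0 ≤ lt) (hls : 0 ≤ ls) (hpt : 0 < t + L * lt) (hw : |w| ≤ 4)
    (e : b₃ * (t + L * lt) = a₃ * (s + L * ls) + w * L * (lt - ls))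
    (hD : |lt - ls| ≤ (t - s) * |a₂|) (n2 : |a₂| ≤ N) (n3 : |a₃| ≤ N) (hN : N ≤ 1) :
    |b₃| ≤ 5 * L * N := by
  have hN0 : 0 ≤ N := (abs_nonneg _).trans n2
  have hts : 0 ≤ t - s := sub_nonneg.2 hst
  have hD1 : |lt - ls| ≤ (t - s) * N := hD.trans (by gcongr)
  have hD2 : |lt - ls| ≤ t - s := hD1.trans (mul_le_of_le_one_right hts hN)
  have h1 : s + L * ls ≤ L * (t + L * lt) := by
    have a1 : ls ≤ lt + (t - s) := by linarith [(abs_le.1 hD2).1]
    have a2 : L * ls ≤ L * (lt + (t - s)) := by gcongr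
    have a3 : s ≤ L * s := le_mul_of_one_le_left hs hL
    have a4 : L * lt ≤ L * (L * lt) := le_mul_of_one_le_left (by positivity) hL
    nlinarith
  have h2 : |lt - ls| ≤ (t + L * lt) * N := hD1.trans (by
    gcongr
    have : 0 ≤ L * lt := by positivity
    linarith)
  refine le_of_mul_le_mul_right ?_ hpt
  calc |b₃| * (t + L * lt) = |b₃ * (t + L * lt)| := by rw [abs_mul, abs_of_pos hpt]
    _ ≤ |a₃ * (s + L * ls)| + |w * L * (lt - ls)| := by rw [e]; exact abs_add_le _ _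
    _ = |a₃| * (s + L * ls) + |w| * L * |lt - ls| := by
        rw [abs_mul, abs_mul, abs_mul, abs_of_nonneg (by positivity : 0 ≤ s + L * ls),
          abs_of_nonneg (by positivity : 0 ≤ L)]
    _ ≤ N * (L * (t + L * lt)) + 4 * L * ((t + L * lt) * N) := by gcongr
    _ = _ := by ring

theorem C1_arith_back {L s t l ls w a₃ b₃ q : ℝ} (hL : 1 ≤ L) (hs : 0 ≤ s) (ht : 0 ≤ t)
    (ht1 : t ≤ 1) (hl : 0 < l) (hl1 : l ≤ 1) (hls : l / 2 ≤ ls) (hq : 0 ≤ q) (hw : |w| ≤ 2)
    (e : b₃ * (t + L * l) = a₃ * (s + L * ls) + w * L * (l - ls))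
    (hD : |l - ls| ≤ q * l) (n3 : |b₃| ≤ q * l) : |a₃| ≤ 2 * (1 + 3 * L) * q := by
  have hls0 : 0 < ls := by linarith
  have h1 : l / 2 ≤ s + L * ls := by
    have : ls ≤ L * ls := le_mul_of_one_le_left hls0.le hL
    linarith
  have h2 : t + L * l ≤ 1 + L := by
    have : L * l ≤ L := mul_le_of_le_one_right (by positivity) hl1
    linarith
  refine le_of_mul_le_mul_right ?_ (half_pos hl)
  calc |a₃| * (l / 2) ≤ |a₃| * (s + L * ls) := by gcongr
    _ = |a₃ * (s + L * ls)| := by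
        rw [abs_mul, abs_of_nonneg (by positivity : 0 ≤ s + L * ls)]
    _ = |b₃ * (t + L * l) - w * L * (l - ls)| := by rw [e]; congr 1; ring
    _ ≤ |b₃ * (t + L * l)| + |w * L * (l - ls)| := abs_sub _ _
    _ = |b₃| * (t + L * l) + |w| * L * |l - ls| := by
        rw [abs_mul, abs_mul, abs_mul, abs_of_nonneg (by positivity : 0 ≤ t + L * l),
          abs_of_nonneg (by positivity : 0 ≤ L)]
    _ ≤ q * l * (1 + L) + 2 * L * (q * l) := by gcongr
    _ = _ := by ring

/-- With `cc = v - U`: `cc₁` is constant, `cc₂ (s + T)` is constant and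
`cc₃(t) (t + L el t) = cc₃(s) (s + L el s) + v₃ L (el t - el s)`, where
`|el t - el s| ≤ T |cc₂ s| (t - s) / (t + T)`. -/
theorem kin_cc (h : P.OK) (hs : 0 ≤ s) (hst : s ≤ t) (hpos : 0 < s + P.L * P.el s (x - (t - s) • v))
    (hc : ‖v - P.U b s (x - (t - s) • v)‖ ≤ 1) (hv : |c3 v| ≤ 4) :
    ‖v - P.U b t x‖ ≤ 8 * P.L * ‖v - P.U b s (x - (t - s) • v)‖ := by
  have hT := h.T_pos
  have ht : 0 ≤ t := hs.trans hst
  have hL := h.one_le_L
  have hel := P.el_nonneg t x
  have hpt : 0 < t + P.L * P.el t x := by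
    rcases ht.eq_or_lt with h0 | h0
    · have hs0 : s = t := le_antisymm hst (h0 ▸ hs)
      subst hs0
      simpa using hpos
    · positivity
  have e0 := C1_cc0 P b s t x v
  have e2 := C1_cc2 h hs hst b x v
  have e3 := C1_cc3 b hpos hpt
  have hD : |P.el t x - P.el s (x - (t - s) • v)| ≤
      (t - s) * |c2 (v - P.U b s (x - (t - s) • v))| := by
    refine (abs_abs_sub_abs_le_abs_sub _ _).trans ?_
    rw [C1_lt_s h hs hst b x v, abs_mul, abs_mul, abs_of_pos hT,
      abs_of_nonneg (div_nonneg (sub_nonneg.2 hst) (by positivity))]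
    have h1 : P.T / (t + P.T) ≤ 1 := by
      rw [div_le_one (by positivity)]; linarith
    have h3 : 0 ≤ t - s := sub_nonneg.2 hst
    calc P.T * |c2 (v - P.U b s (x - (t - s) • v))| * ((t - s) / (t + P.T))
        = (t - s) * |c2 (v - P.U b s (x - (t - s) • v))| * (P.T / (t + P.T)) := by ring
      _ ≤ (t - s) * |c2 (v - P.U b s (x - (t - s) • v))| * 1 := by gcongr
      _ = _ := mul_one _
  have n0 := abs_zero_le_norm (v - P.U b s (x - (t - s) • v))
  have n2 := abs_c2_le_norm (v - P.U b s (x - (t - s) • v))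
  have n3 := abs_c3_le_norm (v - P.U b s (x - (t - s) • v))
  have nt := norm_le_frame (v - P.U b t x)
  have k2 : |c2 (v - P.U b t x)| ≤ |c2 (v - P.U b s (x - (t - s) • v))| := by
    have := congrArg abs e2
    rw [abs_mul, abs_mul, abs_of_pos (by positivity : 0 < t + P.T),
      abs_of_pos (by positivity : 0 < s + P.T)] at this
    refine le_of_mul_le_mul_right ?_ (by positivity : 0 < t + P.T)
    rw [this]
    gcongr
  have k3 := C1_arith_cc hL hs hst hel (P.el_nonneg s _) hpt hv e3 hD n2 n3 hc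
  rw [e0] at nt
  have hN := norm_nonneg (v - P.U b s (x - (t - s) • v))
  nlinarith

/-- Backwards in time one factor `el` is lost:
`|cc₃ s| L el s ≤ |cc₃ t| (t + L el t) + 2 L |el t - el s|`, `|cc₂ s| ≤ |cc₂ t| (1 + 1 / T)`. -/
theorem kin_back (h : P.OK) (A : ℝ) : ∃ A' r' : ℝ, 0 < r' ∧ ∀ (b : Bool) (s t : ℝ) (x v : R3),
    0 ≤ s → s ≤ t → t ≤ 1 → 0 < P.el t x → P.el t x ≤ r' → |c3 v| ≤ 2 →
    ‖v - P.U b t x‖ ≤ A * P.th t x →
    ‖v - P.U b s (x - (t - s) • v)‖ ≤ A' * P.el t x ^ 23 ∧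
      |P.el t x - P.el s (x - (t - s) • v)| ≤ A * P.th t x := by
  have hT := h.T_pos
  have hL := h.one_le_L
  refine ⟨|A| * (2 + 1 / P.T + 2 * (1 + 3 * P.L)), 1 / (2 * (|A| + 1)), by positivity, ?_⟩
  intro b s t x v hs hst ht1 hl hlr hv hN
  have ht : 0 ≤ t := hs.trans hst
  have hA : 0 ≤ |A| := abs_nonneg A
  set l := P.el t x with hl_def
  have hth : P.th t x = l ^ 24 := rfl
  have hNn := norm_nonneg (v - P.U b t x)
  have hD : |l - P.el s (x - (t - s) • v)| ≤ ‖v - P.U b t x‖ := by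
    refine (abs_abs_sub_abs_le_abs_sub _ _).trans ((kin_lt h hs hst b x v).2.trans ?_)
    nlinarith
  refine ⟨?_, hD.trans hN⟩
  have hl1 : l ≤ 1 := hlr.trans (by rw [div_le_one (by positivity)]; linarith)
  have hAl : |A| * l ≤ 1 / 2 := by
    rw [le_div_iff₀ (by positivity)] at hlr
    nlinarith
  have hp : 0 < l ^ 23 := by positivity
  have hq : l ^ 23 ≤ l := by
    calc l ^ 23 ≤ l ^ 1 := pow_le_pow_of_le_one hl.le hl1 (by norm_num)
      _ = l := pow_one l
  set q := |A| * l ^ 23 with hq_def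
  have hq0 : 0 ≤ q := by positivity
  have hq2 : q ≤ 1 / 2 := le_trans (mul_le_mul_of_nonneg_left hq hA) hAl
  have hN' : ‖v - P.U b t x‖ ≤ q * l := by
    refine hN.trans ?_
    rw [hth, hq_def]
    calc A * l ^ 24 ≤ |A| * l ^ 24 := by gcongr; exact le_abs_self A
      _ = |A| * l ^ 23 * l := by ring
  have hels : l / 2 ≤ P.el s (x - (t - s) • v) := by
    have := (abs_le.1 (hD.trans hN')).2
    nlinarith
  have hpos : 0 < s + P.L * P.el s (x - (t - s) • v) := by
    have : 0 < P.el s (x - (t - s) • v) := by linarith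
    positivity
  have hpt : 0 < t + P.L * l := by positivity
  have e0 := C1_cc0 P b s t x v
  have e2 := C1_cc2 h hs hst b x v
  have e3 := C1_cc3 b hpos hpt
  have n0 := abs_zero_le_norm (v - P.U b t x)
  have n2 := abs_c2_le_norm (v - P.U b t x)
  have n3 := abs_c3_le_norm (v - P.U b t x)
  have ns := norm_le_frame (v - P.U b s (x - (t - s) • v))
  have hNq : ‖v - P.U b t x‖ ≤ q := hN'.trans (by nlinarith)
  have k2 : |c2 (v - P.U b s (x - (t - s) • v))| ≤ q * (1 + 1 / P.T) := by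
    have := congrArg abs e2
    rw [abs_mul, abs_mul, abs_of_pos (by positivity : 0 < t + P.T),
      abs_of_pos (by positivity : 0 < s + P.T)] at this
    refine le_of_mul_le_mul_right ?_ hT
    calc |c2 (v - P.U b s (x - (t - s) • v))| * P.T
        ≤ |c2 (v - P.U b s (x - (t - s) • v))| * (s + P.T) := by gcongr; linarith
      _ = |c2 (v - P.U b t x)| * (t + P.T) := this.symm
      _ ≤ q * (1 + P.T) := by gcongr; exact n2.trans hNq
      _ = q * (1 + 1 / P.T) * P.T := by field_simp; ring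
  have k3 := C1_arith_back hL hs ht ht1 hl hl1 hels hq0 hv e3 (hD.trans hN') (n3.trans hN')
  rw [← e0] at ns
  have : |A| * (2 + 1 / P.T + 2 * (1 + 3 * P.L)) * l ^ 23 =
      q + q * (1 + 1 / P.T) + 2 * (1 + 3 * P.L) * q := by rw [hq_def]; ring
  rw [this]
  linarith

/-- If `sgc b s ≠ 0` then `‖cc t‖ + th t ≤ 2 ^ 25 L (‖cc s‖ + th s)` (`kin_cc`, `kin_lt`,
`(a + b) ^ 24 ≤ 2 ^ 23 (a ^ 24 + b ^ 24)`).  If `‖cc t‖ + th t = 0` then also `‖cc s‖ + th s = 0`
(the identities of `kin_cc`), so `sgc b s = 0` (`0 ^ (-5/4) = 0`). -/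
theorem sgc_pa (h : P.OK) (hs : 0 < s) (hst : s ≤ t) (b : Bool) (x v : R3) :
    pa (P.sgc b) t x v s ≤
      ENNReal.ofReal ((2 ^ 25 * P.L) ^ (5 / 4 : ℝ)) * (1 + P.sgc b t x v) := by
  have hT := h.T_pos
  have ht : 0 < t := hs.trans_le hst
  have hL := h.one_le_L
  have hT' := h.T_le'
  show sg (P.U b s (x - (t - s) • v)) (P.th s (x - (t - s) • v)) v ≤ _
  unfold sg
  split_ifs with hc
  swap
  · exact zero_le
  obtain ⟨hc, hv⟩ := hc
  have hels := P.el_nonneg s (x - (t - s) • v)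
  have helt := P.el_nonneg t x
  have hpos : 0 < s + P.L * P.el s (x - (t - s) • v) := by positivity
  have hpt : 0 < t + P.L * P.el t x := by positivity
  have hNs := norm_nonneg (v - P.U b s (x - (t - s) • v))
  have hNt := norm_nonneg (v - P.U b t x)
  have hths := P.th_nonneg s (x - (t - s) • v)
  have htht := P.th_nonneg t x
  set a := ‖v - P.U b s (x - (t - s) • v)‖ + P.th s (x - (t - s) • v) with ha
  have ha0 : 0 ≤ a := by positivity
  rcases ha0.eq_or_lt with ha1 | ha1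
  · rw [← ha1, Real.zero_rpow (by norm_num)]
    simp
  set c := ‖v - P.U b t x‖ + P.th t x with hcd
  have hc0 : 0 ≤ c := by positivity
  have hcp : 0 < c := by
    rcases hc0.eq_or_lt with hc1 | hc1
    swap
    · exact hc1
    exfalso
    have z1 : ‖v - P.U b t x‖ = 0 := by linarith
    have z2 : P.th t x = 0 := by linarith
    have z3 : P.el t x = 0 := pow_eq_zero_iff (by norm_num) |>.1 z2
    have z4 : |P.el t x - P.el s (x - (t - s) • v)| ≤ 0 := by
      refine (abs_abs_sub_abs_le_abs_sub _ _).trans ((kin_lt h hs.le hst b x v).2.trans ?_)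
      rw [z1, mul_zero]
    have z5 : P.el s (x - (t - s) • v) = 0 := by
      have := abs_nonpos_iff.1 z4
      linarith
    have e0 := C1_cc0 P b s t x v
    have e2 := C1_cc2 h hs.le hst b x v
    have e3 := C1_cc3 b hpos hpt
    have n0 := abs_zero_le_norm (v - P.U b t x)
    have n2 := abs_c2_le_norm (v - P.U b t x)
    have n3 := abs_c3_le_norm (v - P.U b t x)
    rw [z1] at n0 n2 n3
    have m0 := abs_nonpos_iff.1 n0
    have m2 := abs_nonpos_iff.1 n2
    have m3 := abs_nonpos_iff.1 n3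
    rw [m0] at e0
    rw [m2, zero_mul] at e2
    rw [m3, z3, z5] at e3
    have y2 : c2 (v - P.U b s (x - (t - s) • v)) = 0 :=
      (mul_eq_zero.1 e2.symm).resolve_right (by positivity)
    have y3 : c3 (v - P.U b s (x - (t - s) • v)) = 0 := by
      have : c3 (v - P.U b s (x - (t - s) • v)) * s = 0 := by linarith
      exact (mul_eq_zero.1 this).resolve_right hs.ne'
    have ns := norm_le_frame (v - P.U b s (x - (t - s) • v))
    rw [← e0, y2, y3] at ns
    have y4 : P.th s (x - (t - s) • v) = 0 := by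
      show P.el s (x - (t - s) • v) ^ 24 = 0
      rw [z5]; norm_num
    simp only [abs_zero, add_zero] at ns
    linarith
  have hM : 0 < 2 ^ 25 * P.L := by positivity
  have hca : c ≤ 2 ^ 25 * P.L * a := by
    have k1 := kin_cc h hs.le hst hpos hc ((abs_c3_le_norm v).trans hv)
    have k2 : P.el t x ≤ P.el s (x - (t - s) • v) + ‖v - P.U b s (x - (t - s) • v)‖ := by
      have := (abs_abs_sub_abs_le_abs_sub _ _).trans (kin_lt h hs.le hst b x v).1
      have := (abs_le.1 this).2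
      have h3 : P.T * ‖v - P.U b s (x - (t - s) • v)‖ ≤ ‖v - P.U b s (x - (t - s) • v)‖ := by
        nlinarith
      unfold el
      linarith
    have k3 : P.th t x ≤ 2 ^ 23 * a := by
      have k4 : ‖v - P.U b s (x - (t - s) • v)‖ ^ 24 ≤ ‖v - P.U b s (x - (t - s) • v)‖ := by
        calc ‖v - P.U b s (x - (t - s) • v)‖ ^ 24 ≤ ‖v - P.U b s (x - (t - s) • v)‖ ^ 1 :=
            pow_le_pow_of_le_one hNs hc (by norm_num)
          _ = _ := pow_one _
      calc P.th t x = P.el t x ^ 24 := rfl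
        _ ≤ (P.el s (x - (t - s) • v) + ‖v - P.U b s (x - (t - s) • v)‖) ^ 24 := by gcongr
        _ ≤ 2 ^ (24 - 1) * (P.el s (x - (t - s) • v) ^ 24 +
              ‖v - P.U b s (x - (t - s) • v)‖ ^ 24) := add_pow_le hels hNs 24
        _ ≤ 2 ^ 23 * a := by
            rw [ha]
            show (2 : ℝ) ^ 23 * (P.th s (x - (t - s) • v) + _) ≤ _
            gcongr ?_ * ?_
            linarith
    have k5 : ‖v - P.U b s (x - (t - s) • v)‖ ≤ a := by linarith
    have k6 : 8 * P.L * ‖v - P.U b s (x - (t - s) • v)‖ ≤ 8 * P.L * a := by gcongr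
    have k7 : a ≤ P.L * a := le_mul_of_one_le_left ha0 hL
    have k8 : 0 ≤ P.L * a := by positivity
    rw [hcd]
    nlinarith
  have key : a ^ (-(5 / 4) : ℝ) ≤ (2 ^ 25 * P.L) ^ (5 / 4 : ℝ) * c ^ (-(5 / 4) : ℝ) := by
    have h1 : c / (2 ^ 25 * P.L) ≤ a := by
      rw [div_le_iff₀ hM]; linarith
    calc a ^ (-(5 / 4) : ℝ) ≤ (c / (2 ^ 25 * P.L)) ^ (-(5 / 4) : ℝ) :=
          Real.rpow_le_rpow_of_nonpos (by positivity) h1 (by norm_num)
      _ = _ := by
          rw [Real.div_rpow hcp.le hM.le, Real.rpow_neg hM.le, div_inv_eq_mul, mul_comm]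
  refine (ENNReal.ofReal_le_ofReal key).trans ?_
  rw [ENNReal.ofReal_mul (by positivity)]
  gcongr
  show _ ≤ 1 + sg (P.U b t x) (P.th t x) v
  unfold sg
  split_ifs with hd
  · exact le_add_self
  · have h1 : 1 ≤ c := by
      have : 1 < ‖v - P.U b t x‖ := by
        by_contra hh
        exact hd ⟨not_lt.1 hh, hv⟩
      linarith
    rw [add_zero]
    exact ENNReal.ofReal_le_one.2 (Real.rpow_le_one_of_one_le_of_nonpos h1 (by norm_num))

theorem C1_sgc_ne (hne : P.sgc b t x v ≠ 0) : ‖v - P.U b t x‖ ≤ 1 ∧ ‖v‖ ≤ 4 := by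
  by_contra hh
  exact hne (if_neg hh)

/-- `‖U‖ ≤ 5`. -/
theorem sgc_supp (h : P.OK) (ht : 0 < t) (hne : P.sgc b t x v ≠ 0) : ry x ≤ 10 * t + 1 / 2 := by
  have hT := h.T_pos
  have hL := h.one_le_L
  have hT' := h.T_le'
  have hLT := h.T_le
  obtain ⟨h1, h2⟩ := C1_sgc_ne hne
  have hU : ‖P.U b t x‖ ≤ 5 := by
    have : P.U b t x = v - (v - P.U b t x) := by abel
    rw [this]
    linarith [norm_sub_le v (v - P.U b t x)]
  have hel := P.el_nonneg t x
  have u2 := (abs_c2_le_norm _).trans hU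
  have u3 := (abs_c3_le_norm _).trans hU
  rw [c2_U, abs_div, abs_of_pos (by positivity : 0 < t + P.T), div_le_iff₀ (by positivity)] at u2
  rw [c3_U, ze, abs_div, abs_of_pos (by positivity : 0 < t + P.L * P.el t x),
    div_le_iff₀ (by positivity)] at u3
  have he : P.el t x ≤ 5 * P.T := by
    rw [h.el_eq ht.le, div_le_iff₀ (by positivity)]
    nlinarith
  have he' : P.L * P.el t x ≤ P.L * (5 * P.T) := by gcongr
  have := ry_le_add x
  nlinarith

/-- `exists_near`, `sqrt_del_count`. -/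
theorem adm_om (h : P.OK) (t : ℝ) (x : R3) : AdmW N0 (P.om t x) := by
  by_cases ht : 0 < t
  · obtain ⟨S, hS, hmem⟩ := exists_near x (R := 10 * t + 1 / 2) (by positivity)
    refine ⟨Bool × ℤ × ℤ, Finset.univ ×ˢ S, fun _ => (√(P.del t)).toNNReal,
      fun i => P.U i.1 t (x - lat i.2), fun i => P.th t (x - lat i.2),
      fun i => P.th_nonneg _ _, ?_, fun v => ?_⟩
    · rw [Finset.sum_const, Finset.card_product, Finset.card_univ, Fintype.card_bool,
        ← NNReal.coe_le_coe]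
      simp only [nsmul_eq_mul, NNReal.coe_mul, NNReal.coe_natCast, Nat.cast_mul, Nat.cast_ofNat]
      rw [Real.coe_toNNReal _ (Real.sqrt_nonneg _)]
      refine le_trans ?_ (h.sqrt_del_count ht.le)
      have : (2 * (10 * t + 1 / 2) + 1) ^ 2 = (20 * t + 2) ^ 2 := by ring
      rw [this] at hS
      push_cast
      gcongr
    · simp only [om, if_pos ht, perz]
      rw [tsum_eq_sum (s := Finset.univ ×ˢ S), Finset.mul_sum]
      · rfl
      · intro i hi
        by_contra hne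
        exact hi (Finset.mem_product.2 ⟨Finset.mem_univ _, hmem _ (sgc_supp h ht hne)⟩)
  · refine ⟨Unit, ∅, fun _ => 0, fun _ => 0, fun _ => 0, fun _ => le_rfl, by simp, fun v => ?_⟩
    simp [om, if_neg ht]

theorem reg_om (h : P.OK) : Reg P.om := by
  exact ⟨P.meas_om.1, P.meas_om.2, fun t x v => (adm_om h t x).ne_top v⟩

theorem one_le_om (P : CP) (t : ℝ) (x v : R3) : 1 ≤ P.om t x v := by
  exact le_self_add

theorem om_eq_one (h : P.OK) (hv : 4 < ‖v‖) (t : ℝ) (x : R3) : P.om t x v = 1 := by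
  exact (adm_om h t x).eq_one hv

theorem om_eq (ht : 0 < t) (ht₁ : t ≤ P.t₁) (x v : R3) : P.om t x v = 1 + perz P.sgc t x v := by
  simp [om, if_pos ht, del_eq_one ht₁]

theorem C1_om_pa (h : P.OK) (hs : 0 < s) (hst : s ≤ t) {e : ℝ} (he : 1 ≤ e)
    (hd : √(P.del s) ≤ e * √(P.del t)) (x v : R3) :
    pa P.om t x v s ≤ P.Cw * ENNReal.ofReal e * P.om t x v := by
  have ht : 0 < t := hs.trans_le hst
  have hL := h.one_le_L
  set M := ENNReal.ofReal ((2 ^ 25 * P.L) ^ (5 / 4 : ℝ)) with hM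
  have h1 : perz P.sgc s (x - (t - s) • v) v ≤
      ENNReal.ofReal (2 * (2 * (10 * t + 1 / 2) + 1) ^ 2) * M + M * perz P.sgc t x v := by
    have := perz_le_card (f := fun b t' x' v' => pa (P.sgc b) t' x' v' s) (t := t) (x := x) (v := v)
      (ρ := 10 * t + 1 / 2) (g := P.sgc) (c := M) (c' := M) (by positivity) (fun b y hne => ?_)
      (fun b y => (sgc_pa h hs hst b y v).trans (by rw [mul_add, mul_one]))
    · exact (pa_perz P.sgc t x v s).le.trans this
    · have a1 := sgc_supp h hs hne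
      have a2 := (C1_sgc_ne hne).2
      have a3 := ry_add_le (y - (t - s) • v) ((t - s) • v)
      rw [sub_add_cancel, ry_smul, abs_of_nonneg (sub_nonneg.2 hst)] at a3
      have a4 : (t - s) * ry v ≤ (t - s) * 4 :=
        mul_le_mul_of_nonneg_left ((ry_le_norm v).trans a2) (sub_nonneg.2 hst)
      linarith
  have h2 : ENNReal.ofReal √(P.del t) *
      ENNReal.ofReal (2 * (2 * (10 * t + 1 / 2) + 1) ^ 2) ≤ N0 := by
    rw [← ENNReal.ofReal_mul (Real.sqrt_nonneg _), ← ENNReal.ofReal_coe_nnreal]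
    refine ENNReal.ofReal_le_ofReal (le_trans (le_of_eq ?_) (h.sqrt_del_count ht.le))
    ring
  have h3 : ENNReal.ofReal √(P.del s) ≤ ENNReal.ofReal e * ENNReal.ofReal √(P.del t) := by
    rw [← ENNReal.ofReal_mul (by linarith)]
    exact ENNReal.ofReal_le_ofReal hd
  have h4 : (1 : ℝ≥0∞) ≤ ENNReal.ofReal e := ENNReal.one_le_ofReal.2 he
  have h5 : 1 ≤ M := ENNReal.one_le_ofReal.2
    (Real.one_le_rpow (by linarith) (by norm_num))
  have h6 : (P.Cw : ℝ≥0∞) = 2 * (1 + N0) * M := by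
    rw [← ENNReal.ofReal_coe_nnreal, h.coe_Cw, ENNReal.ofReal_mul (by positivity),
      ENNReal.ofReal_mul (by positivity), ENNReal.ofReal_add (by positivity) (by positivity),
      ENNReal.ofReal_coe_nnreal]
    simp [hM]
  show 1 + (if 0 < s then ENNReal.ofReal √(P.del s) * perz P.sgc s (x - (t - s) • v) v else 0) ≤ _
  simp only [om, if_pos ht, if_pos hs]
  rw [h6]
  set d := ENNReal.ofReal √(P.del t)
  set E := ENNReal.ofReal e
  set n := ENNReal.ofReal (2 * (2 * (10 * t + 1 / 2) + 1) ^ 2)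
  set p := perz P.sgc t x v
  have h7 : 1 ≤ M * E := one_le_mul h5 h4
  calc 1 + ENNReal.ofReal √(P.del s) * perz P.sgc s (x - (t - s) • v) v
      ≤ M * E + E * d * (n * M + M * p) := by gcongr
    _ = M * E * (1 + d * n + d * p) := by ring
    _ ≤ M * E * (1 + N0 + d * p) := by gcongr
    _ ≤ M * E * (1 + N0 + d * p) + M * E * (1 + N0 + (1 + 2 * N0) * (d * p)) := le_self_add
    _ = _ := by ring

/-- `sgc_pa`, `perz_le_card`, `sqrt_del_count`, `del_le_mul`. -/
theorem om_pa (h : P.OK) (hs : 0 < s) (hst : s ≤ t) (x v : R3) :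
    pa P.om t x v s ≤ P.Cw * ENNReal.ofReal (Real.exp (nu * (t - s))) * P.om t x v := by
  refine C1_om_pa h hs hst (Real.one_le_exp (mul_nonneg nu_pos.le (sub_nonneg.2 hst))) ?_ x v
  have h1 := P.del_le_mul hst
  have h2 : 1 ≤ Real.exp (nu * (t - s)) :=
    Real.one_le_exp (mul_nonneg nu_pos.le (sub_nonneg.2 hst))
  have h3 := (P.del_pos t).le
  rw [Real.sqrt_le_left (by positivity), mul_pow, Real.sq_sqrt h3]
  refine h1.trans ?_
  gcongr
  nlinarith

theorem om_pa' (h : P.OK) (hs : 0 < s) (hst : s ≤ t) (ht : t ≤ P.t₁) (x v : R3) :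
    pa P.om t x v s ≤ P.Cw * P.om t x v := by
  have := C1_om_pa h hs hst le_rfl (by rw [del_eq_one ht, del_eq_one (hst.trans ht), one_mul]) x v
  simpa using this

/-- A sum over the lines of terms `≤ j (1 + sgc)`, long times. -/
theorem perz_le_om (h : P.OK) (ht : 0 < t) {f : Bool → Fn} {j : ℝ≥0∞}
    (hs : ∀ b y, f b t y v ≠ 0 → ry y ≤ 3 * t + 1 / 2)
    (hf : ∀ b y, f b t y v ≤ j * (1 + P.sgc b t y v)) (x : R3) :
    ENNReal.ofReal (P.del t) * perz f t x v ≤
      N0 * ENNReal.ofReal √(P.del t) * j * P.om t x v := by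
  have h1 := perz_le_card (x := x) (g := P.sgc) (c := j) (c' := j) (by positivity) hs
    (fun b y => (hf b y).trans (by rw [mul_add, mul_one]))
  have hd := (P.del_pos t).le
  have e : ENNReal.ofReal (P.del t) = ENNReal.ofReal √(P.del t) * ENNReal.ofReal √(P.del t) := by
    rw [← ENNReal.ofReal_mul (Real.sqrt_nonneg _), Real.mul_self_sqrt hd]
  have h2 : ENNReal.ofReal √(P.del t) * ENNReal.ofReal (2 * (2 * (3 * t + 1 / 2) + 1) ^ 2) ≤ N0 := by
    rw [← ENNReal.ofReal_mul (Real.sqrt_nonneg _), ← ENNReal.ofReal_coe_nnreal]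
    refine ENNReal.ofReal_le_ofReal (le_trans ?_ (h.sqrt_del_count ht.le))
    rw [mul_comm]
    have : 2 * (3 * t + 1 / 2) + 1 ≤ 20 * t + 2 := by linarith
    gcongr ?_ * ?_ ^ 2 * _
  have h3 : (1 : ℝ≥0∞) ≤ N0 := by exact_mod_cast (le_trans (by norm_num) two_le_N0 : (1 : ℝ≥0) ≤ N0)
  simp only [om, if_pos ht]
  rw [e]
  set d := ENNReal.ofReal √(P.del t)
  set n := ENNReal.ofReal (2 * (2 * (3 * t + 1 / 2) + 1) ^ 2)
  calc d * d * perz f t x v ≤ d * d * (n * j + j * perz P.sgc t x v) := by gcongr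
    _ = d * j * (d * n + 1 * (d * perz P.sgc t x v)) := by ring
    _ ≤ d * j * (N0 + N0 * (d * perz P.sgc t x v)) := by gcongr
    _ = _ := by ring

/-- Short times: only one line contributes. -/
theorem perz_le_om' (h : P.OK) (ht : 0 < t) (ht₁ : t ≤ P.t₁) {f : Bool → Fn} {j : ℝ≥0∞}
    (hs : ∀ b y, f b t y v ≠ 0 → ry y ≤ 1 / 4) (x : R3)
    (hf : ∀ b y, ry y = dd x → f b t y v ≤ j * (1 + P.sgc b t y v)) :
    perz f t x v ≤ 2 * j * P.om t x v := by
  obtain ⟨k, hk⟩ := exists_dd x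
  by_cases hx : 1 / 4 < dd x
  · rw [perz_eq_zero hs hx]
    exact zero_le
  rw [perz_eq_of_near (k := k) hs (by linarith [not_lt.1 hx]), om_eq ht ht₁, two_mul, add_mul]
  refine add_le_add ((hf _ _ hk.symm).trans ?_) ((hf _ _ hk.symm).trans ?_) <;>
  · gcongr
    exact le_perz _ _ _ _ _ _

end CP

end Crest.Agent.R68
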