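/-
R68/C2Aux: auxiliary lemmas for R68/C2 (helper82)
-/
import Crest.Agent.R68.C1

set_option autoImplicit false
set_option linter.unusedVariables false
set_option linter.unusedSectionVars false

noncomputable section

namespace Crest.Agent.R68

open MeasureTheory Set Filter Topology
open scoped ENNReal NNReal
open Crest.AnalysisR.VecCalc3 Crest.AnalysisR.PDE.Boltzmann

theorem C2_ev (A : ℝ) {c : ℝ} (hc : 0 < c) : ∀ᶠ r in 𝓝[>] (0 : ℝ), A * r ≤ c := by
  have h : Tendsto (fun r : ℝ => A * r) (𝓝 0) (𝓝 (A * 0)) :=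
    (continuous_const.mul continuous_id).tendsto 0
  rw [mul_zero] at h
  exact (h.eventually (ge_mem_nhds hc)).filter_mono nhdsWithin_le_nhds

theorem C2_frac {t L p q κ : ℝ} (ht : 0 ≤ t) (hL : 0 < L) (hp : 0 < p) (hq : 0 < q) (hκ : 1 ≤ κ)
    (h : q ≤ κ * p) : L * q / (t + L * q) ≤ κ * (L * p / (t + L * p)) := by
  rw [← mul_div_assoc, div_le_div_iff₀ (by positivity) (by positivity)]
  have h1 : 0 ≤ L * t * (κ * p - q) := mul_nonneg (by positivity) (by linarith)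
  have h2 : 0 ≤ L * L * p * q * (κ - 1) := mul_nonneg (by positivity) (by linarith)
  nlinarith

theorem C2_frac_le {t s : ℝ} (ht : 0 ≤ t) (hs : 0 < s) : s / (t + s) ≤ 1 :=
  div_le_one_of_le₀ (by linarith) (by positivity)

theorem C2_ze {t L p q c D : ℝ} (ht : 0 ≤ t) (hL : 0 < L) (hp : 0 < p) (hq : 0 < q) (hD : 0 ≤ D)
    (h : |p - q| ≤ t * D) : |c / (t + L * p) - c / (t + L * q)| ≤ |c / (t + L * p)| * (L * D) := by
  have h1 : 0 < t + L * p := by positivity
  have h2 : 0 < t + L * q := by positivity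
  have e : c / (t + L * p) - c / (t + L * q) = c / (t + L * p) * (L * (q - p) / (t + L * q)) := by
    field_simp
    ring
  rw [e, abs_mul]
  refine mul_le_mul_of_nonneg_left ?_ (abs_nonneg _)
  rw [abs_div, abs_mul, abs_of_pos hL, abs_of_pos h2, div_le_iff₀ h2, abs_sub_comm]
  have h3 : L * |p - q| ≤ L * (t * D) := mul_le_mul_of_nonneg_left h hL.le
  have h4 : 0 ≤ L * D * (L * q) := by positivity
  nlinarith

theorem C2_sqrt {L w z : ℝ} (hL : 0 ≤ L) (h : L * |w - z| ≤ 1 / 2) :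
    √(1 + L ^ 2 * z ^ 2) ≤ 3 / 2 * √(1 + L ^ 2 * w ^ 2) := by
  have h0 : 0 ≤ 1 + L ^ 2 * w ^ 2 := by positivity
  rw [Real.sqrt_le_iff]
  refine ⟨by positivity, ?_⟩
  rw [mul_pow, Real.sq_sqrt h0]
  have h1 : |L * w - L * z| ≤ 1 / 2 := by rw [← mul_sub, abs_mul, abs_of_nonneg hL]; exact h
  obtain ⟨h2, h3⟩ := abs_le.1 h1
  have e : L * z = L * w - (L * w - L * z) := by ring
  have h4 : (L * w - L * z) ^ 2 ≤ 1 / 4 := by nlinarith
  nlinarith [sq_nonneg (L * w + (L * w - L * z)), sq_nonneg (L * w)]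

theorem C2_pow {p q : ℝ} (hq : 0 ≤ q) (h : q ≤ 501 / 500 * p) (n : ℕ) :
    q ^ n ≤ (501 / 500) ^ n * p ^ n := by
  rw [← mul_pow]
  exact pow_le_pow_left₀ hq h n

theorem C2_pow24 {p q : ℝ} (hq : 0 ≤ q) (h : q ≤ 501 / 500 * p) :
    501 / 500 * q ^ 24 ≤ 6 / 5 * p ^ 24 := by
  have h1 := C2_pow hq h 24
  have h2 : (0 : ℝ) ≤ p ^ 24 := by positivity
  have h3 : (501 / 500 : ℝ) * (501 / 500) ^ 24 ≤ 6 / 5 := by norm_num
  nlinarith

theorem C2_pow73 {C p q : ℝ} (hC : 0 ≤ C) (hp : 0 < p) (hq : 0 < q) (h : q ≤ 501 / 500 * p) :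
    C / (8 * p ^ 73) ≤ 4 / 3 * (C / (8 * q ^ 73)) := by
  have h1 := C2_pow hq.le h 73
  have h2 : (0 : ℝ) < p ^ 73 := by positivity
  have h3 : (501 / 500 : ℝ) ^ 73 ≤ 4 / 3 := by norm_num
  have h4 : q ^ 73 ≤ 4 / 3 * p ^ 73 := h1.trans (mul_le_mul_of_nonneg_right h3 h2.le)
  rw [← mul_div_assoc, div_le_div_iff₀ (by positivity) (by positivity)]
  nlinarith [mul_le_mul_of_nonneg_left h4 hC]

/-- Two scales that differ by at most `p ^ 24`. -/
theorem C2_close {p q : ℝ} (hp : 0 < p) (hp1 : p ≤ 1 / 1000) (h : |p - q| ≤ p ^ 24) :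
    0 < q ∧ q ≤ 501 / 500 * p ∧ p ≤ 501 / 500 * q ∧ |p - q| ≤ p * p := by
  have h1 : p ^ 24 ≤ p ^ 2 := pow_le_pow_of_le_one hp.le (by linarith) (by norm_num)
  have h2 : |p - q| ≤ p * p := by rw [← sq]; exact h.trans h1
  obtain ⟨h3, h4⟩ := abs_le.1 h2
  have h5 : p * p ≤ p * (1 / 1000) := mul_le_mul_of_nonneg_left hp1 hp.le
  exact ⟨by linarith, by linarith, by linarith, h2⟩

/-- Integrals of products over a sheared box. -/
theorem C2_box (c₁ c₂ a₁ a₂ a₃ : ℝ) {m : ℝ → ℝ} (hm : Measurable m) {f g : ℝ → ℝ≥0∞}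
    (hf : Measurable f) (hg : Measurable g) :
    ∫⁻ u in {u : R3 | |u 0 - c₁| ≤ a₁ ∧ |c2 u - c₂| ≤ a₂ ∧ |c3 u - m (c2 u)| ≤ a₃},
      f (u 0) * g (c2 u) = (∫⁻ a in Icc (c₁ - a₁) (c₁ + a₁), f a) *
        ((∫⁻ b in Icc (c₂ - a₂) (c₂ + a₂), g b) * ENNReal.ofReal (2 * a₃)) := by
  have m0 : Measurable fun u : R3 => u 0 := path_meas_coord 0
  have m2 : Measurable c2 := continuous_c2.measurable
  have m3 : Measurable c3 := continuous_c3.measurable
  have hS : MeasurableSet {u : R3 | |u 0 - c₁| ≤ a₁ ∧ |c2 u - c₂| ≤ a₂ ∧ |c3 u - m (c2 u)| ≤ a₃} :=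
    (measurableSet_le (m0.sub_const _).abs measurable_const).inter
      ((measurableSet_le (m2.sub_const _).abs measurable_const).inter
        (measurableSet_le (m3.sub (hm.comp m2)).abs measurable_const))
  have hI : ∀ y c a : ℝ, |y - c| ≤ a ↔ y ∈ Icc (c - a) (c + a) := fun y c a => by
    rw [abs_le, mem_Icc]
    constructor <;> rintro ⟨h1, h2⟩ <;> constructor <;> linarith
  have mfg : Measurable fun u : R3 => f (u 0) * g (c2 u) := (hf.comp m0).mul (hg.comp m2)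
  rw [← lintegral_indicator hS, lintegral_e123 (mfg.indicator hS)]
  have e : ∀ a b c : ℝ, {u : R3 | |u 0 - c₁| ≤ a₁ ∧ |c2 u - c₂| ≤ a₂ ∧
      |c3 u - m (c2 u)| ≤ a₃}.indicator (fun u => f (u 0) * g (c2 u)) (a • e1 + b • e2 + c • e3) =
      (Icc (c₁ - a₁) (c₁ + a₁)).indicator f a * ((Icc (c₂ - a₂) (c₂ + a₂)).indicator g b *
        (Icc (m b - a₃) (m b + a₃)).indicator 1 c) := by
    intro a b c
    simp only [indicator, mem_ofPred_eq, frame_zero, frame_c2, frame_c3, hI]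
    by_cases h1 : a ∈ Icc (c₁ - a₁) (c₁ + a₁) <;> by_cases h2 : b ∈ Icc (c₂ - a₂) (c₂ + a₂) <;>
      by_cases h3 : c ∈ Icc (m b - a₃) (m b + a₃) <;> simp [h1, h2, h3]
  have e' : ∀ b : ℝ, ∫⁻ c : ℝ, (Icc (m b - a₃) (m b + a₃)).indicator (1 : ℝ → ℝ≥0∞) c =
      ENNReal.ofReal (2 * a₃) := fun b => by
    rw [lintegral_indicator_one measurableSet_Icc, Real.volume_Icc]
    congr 1
    ring
  have mi : ∀ b : ℝ, Measurable ((Icc (m b - a₃) (m b + a₃)).indicator (1 : ℝ → ℝ≥0∞)) :=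
    fun b => measurable_one.indicator measurableSet_Icc
  calc _ = ∫⁻ a : ℝ, ∫⁻ b : ℝ, (Icc (c₁ - a₁) (c₁ + a₁)).indicator f a *
        ((Icc (c₂ - a₂) (c₂ + a₂)).indicator g b * ENNReal.ofReal (2 * a₃)) := by
        refine lintegral_congr fun a => lintegral_congr fun b => ?_
        rw [← e' b, ← lintegral_const_mul _ (mi b), ← lintegral_const_mul _ ((mi b).const_mul _)]
        exact lintegral_congr fun c => e a b c
    _ = _ := by
        rw [← lintegral_indicator measurableSet_Icc, ← lintegral_indicator measurableSet_Icc,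
          ← lintegral_mul_const _ (hg.indicator measurableSet_Icc),
          ← lintegral_mul_const _ (hf.indicator measurableSet_Icc)]
        refine lintegral_congr fun a => ?_
        rw [lintegral_const_mul _ ((hg.indicator measurableSet_Icc).mul_const _)]

/-- One-dimensional singular integrals over an interval. -/
theorem C2_sing {p : ℝ} (hp0 : 0 ≤ p) (hp : p < 1) : ∃ K : ℝ≥0, ∀ c a v : ℝ, 0 ≤ a →
    ∫⁻ y in Icc (c - a) (c + a), ‖v - y‖ₑ ^ (-p) ≤ K * ENNReal.ofReal (a ^ (1 - p)) := by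
  obtain ⟨K, hK⟩ := Geo5_ball (E := ℝ) volume (p := p) (by simp) (by simpa using hp)
  refine ⟨K + 2, fun c a v ha => ?_⟩
  rcases ha.eq_or_lt with rfl | ha'
  · simp
  have h1 := hK a ha
  rw [Module.finrank_self, Nat.cast_one] at h1
  have mf : Measurable fun y : ℝ => ‖y‖ₑ ^ (-p) := by fun_prop
  have mb := mf.indicator (Metric.isClosed_closedBall (x := (0 : ℝ)) (ε := a)).measurableSet
  calc ∫⁻ y in Icc (c - a) (c + a), ‖v - y‖ₑ ^ (-p)
      ≤ ∫⁻ y in Icc (c - a) (c + a), ((Metric.closedBall (0 : ℝ) a).indicator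
          (fun y : ℝ => ‖y‖ₑ ^ (-p)) (v - y) + ENNReal.ofReal a ^ (-p)) := by
        refine lintegral_mono fun y => ?_
        by_cases hy : v - y ∈ Metric.closedBall (0 : ℝ) a
        · rw [indicator_of_mem hy]; exact le_self_add
        · refine le_trans (Geo5_anti ?_ hp0) le_add_self
          rw [mem_closedBall_zero_iff, not_le] at hy
          rw [← ofReal_norm]
          exact ENNReal.ofReal_le_ofReal hy.le
    _ ≤ K * ENNReal.ofReal (a ^ (1 - p)) + 2 * ENNReal.ofReal (a ^ (1 - p)) := by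
        rw [lintegral_add_right _ measurable_const]
        refine add_le_add ((setLIntegral_le_lintegral _ _).trans ?_) (le_of_eq ?_)
        · rw [lintegral_sub_left_eq_self _ v,
            lintegral_indicator Metric.isClosed_closedBall.measurableSet]
          exact h1
        · rw [setLIntegral_const, Real.volume_Icc, ENNReal.ofReal_rpow_of_pos ha',
            ← ENNReal.ofReal_mul (by positivity), ← ENNReal.ofReal_ofNat,
            ← ENNReal.ofReal_mul (by norm_num)]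
          congr 1
          rw [sub_eq_add_neg 1 p, Real.rpow_add ha', Real.rpow_one]
          ring
    _ = _ := by push_cast; ring

namespace CP

variable {P : CP}

/-- the conditions on the support of the cold gas in the variables at time `t` -/
def C2box (P : CP) (r : ℝ) (b : Bool) (t : ℝ) (x u : R3) (p : ℝ) : Prop :=
  0 < p ∧ p ≤ r ∧ |u 0 - sgn b| ≤ p ^ 24 ∧
    |c2 u - c2 x / (t + P.T)| ≤ p ^ 24 * (P.T / (t + P.T)) ∧
    |c3 u - c3 x / (t + P.L * p)| ≤ p ^ 24 * (P.L * p / (t + P.L * p))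

open Classical in
theorem C2_E0c (h : P.OK) (r : ℝ) (b : Bool) {t : ℝ} (ht : 0 ≤ t) (x u : R3) :
    P.E0c r b t x u = if P.C2box r b t x u |c2 x - t * c2 u| then
      ENNReal.ofReal (P.C / (8 * |c2 x - t * c2 u| ^ 73) * ff (P.osc b |c2 x - t * c2 u|) *
        tau (c3 u) / √(1 + P.L ^ 2 * c3 u ^ 2)) else 0 := by
  have hT := h.T_pos
  have hL : 0 < P.L := lt_of_lt_of_le one_pos h.one_le_L
  unfold E0c Fc
  rw [c2_sub, c2_smul, c3_sub, c3_smul]
  set p := |c2 x - t * c2 u| with hp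
  refine if_congr ?_ rfl rfl
  refine and_congr_right fun h0 => and_congr_right fun _ => and_congr_right fun _ =>
    and_congr ?_ ?_
  · have e : c2 u - (c2 x - t * c2 u) / P.T = (c2 u - c2 x / (t + P.T)) / (P.T / (t + P.T)) := by
      field_simp
      ring
    rw [e, abs_div, abs_of_pos (by positivity : 0 < P.T / (t + P.T)), div_le_iff₀ (by positivity)]
  · have e : c3 u - (c3 x - t * c3 u) / (P.L * p) =
        (c3 u - c3 x / (t + P.L * p)) / (P.L * p / (t + P.L * p)) := by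
      field_simp
      ring
    rw [e, abs_div, abs_of_pos (by positivity : 0 < P.L * p / (t + P.L * p)),
      div_le_iff₀ (by positivity)]

theorem C2_lam (h : P.OK) {t : ℝ} (ht : 0 ≤ t) (x u : R3) :
    |(|c2 x - t * c2 u|) - P.el t x| ≤ t * |c2 u - c2 x / (t + P.T)| := by
  have hT := h.T_pos
  refine (abs_abs_sub_abs_le_abs_sub _ _).trans (le_of_eq ?_)
  have e : c2 x - t * c2 u - P.lt t x = -(t * (c2 u - c2 x / (t + P.T))) := by
    unfold lt
    field_simp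
    ring
  rw [e, abs_neg, abs_mul, abs_of_nonneg ht]

theorem C2_tT (h : P.OK) {t D s : ℝ} (ht : 0 ≤ t) (hs : 0 ≤ s) (hD : D ≤ s * (P.T / (t + P.T))) :
    t * D ≤ s ∧ D ≤ s := by
  have hT := h.T_pos
  have hT' := h.T_le'
  have h1 : P.T / (t + P.T) ≤ 1 := C2_frac_le ht hT
  have h2 : t * (P.T / (t + P.T)) ≤ 1 := by
    rw [← mul_div_assoc, div_le_one (by positivity)]
    nlinarith
  refine ⟨?_, hD.trans (mul_le_of_le_one_right hs h1)⟩
  calc t * D ≤ t * (s * (P.T / (t + P.T))) := mul_le_mul_of_nonneg_left hD ht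
    _ = s * (t * (P.T / (t + P.T))) := by ring
    _ ≤ s := mul_le_of_le_one_right hs h2

/-- Stability of the profile. -/
theorem C2_chi (h : P.OK) : ∃ A : ℝ, 0 ≤ A ∧ ∀ (b : Bool) (p q w z δ : ℝ), 0 < p → δ ≤ 1 / 2 →
    |p - q| ≤ p * δ → |w - z| ≤ 3 * P.L * δ →
    |ff (P.osc b p) * tau w - tau z * ff (P.osc b q)| ≤ A * δ := by
  obtain ⟨K, hK, -, -, hK'⟩ := deriv_tau_bdd
  have hα := h.α_pos
  have hL : 0 < P.L := lt_of_lt_of_le one_pos h.one_le_L
  refine ⟨K * (3 * P.L) + 2 / P.α, by positivity, fun b p q w z δ hp hδ hpq hwz => ?_⟩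
  have h1 : |P.osc b p - P.osc b q| ≤ 2 / P.α * δ := by
    refine (h.abs_osc_sub b hp (hpq.trans (by nlinarith))).trans ?_
    rw [div_le_iff₀ (by positivity)]
    calc 2 * |p - q| ≤ 2 * (p * δ) := by linarith
      _ = _ := by field_simp
  have h2 : |tau w - tau z| ≤ K * (3 * P.L) * δ :=
    (hK' w z).trans (by rw [mul_assoc]; exact mul_le_mul_of_nonneg_left hwz hK)
  have h3 := (abs_ff_sub _ _).trans h1
  have e : ff (P.osc b p) * tau w - tau z * ff (P.osc b q) =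
      ff (P.osc b p) * (tau w - tau z) + tau z * (ff (P.osc b p) - ff (P.osc b q)) := by ring
  rw [e]
  refine (abs_add_le _ _).trans ?_
  rw [abs_mul, abs_mul, abs_of_nonneg (ff_nonneg _), abs_of_nonneg (tau_nonneg _), add_mul]
  have h4 : ff (P.osc b p) ≤ 1 := (ff_le (P.osc_le_one b p)).trans (by norm_num)
  exact add_le_add ((mul_le_of_le_one_left (abs_nonneg _) h4).trans h2)
    ((mul_le_of_le_one_left (abs_nonneg _) (tau_le_one z)).trans h3)

/-- What the non-vanishing of `E0c` gives. -/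
theorem C2_core (h : P.OK) {r : ℝ} (hr : r ≤ 1 / 1000) {b : Bool} {t : ℝ} (ht : 0 ≤ t) {x u : R3}
    (hne : P.E0c r b t x u ≠ 0) : ∃ p, p = |c2 x - t * c2 u| ∧ P.C2box r b t x u p ∧
      0 < P.el t x ∧ P.el t x ≤ 501 / 500 * p ∧ p ≤ 501 / 500 * P.el t x ∧
      |p - P.el t x| ≤ p * p ∧ |c3 u - P.ze t x| ≤ 3 * P.L * p ^ 24 ∧ |c3 u| ≤ 1 ∧
      1 / 2 < P.osc b p ∧ P.E0c r b t x u = ENNReal.ofReal (P.C / (8 * p ^ 73) * ff (P.osc b p) *
        tau (c3 u) / √(1 + P.L ^ 2 * c3 u ^ 2)) := by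
  have hL1 := h.one_le_L
  have hL : 0 < P.L := lt_of_lt_of_le one_pos hL1
  have hV := h.V_ge.trans h.V_le_L
  rw [C2_E0c h r b ht] at hne ⊢
  set p := |c2 x - t * c2 u| with hp
  by_cases hb : P.C2box r b t x u p
  swap
  · exact absurd (if_neg hb) hne
  rw [if_pos hb] at hne ⊢
  obtain ⟨h0, h1, h2, h3, h4⟩ := hb
  have hp24 : 0 ≤ p ^ 24 := by positivity
  obtain ⟨k1, k2⟩ := C2_tT h ht hp24 h3
  obtain ⟨l1, l2, l3, l4⟩ := C2_close h0 (h1.trans hr) ((C2_lam h ht x u).trans k1)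
  have hw : |c3 u| ≤ 1 := by
    by_contra hw
    rw [tau_eq_zero (not_le.1 hw).le] at hne
    simp at hne
  have ho : 1 / 2 < P.osc b p := by
    by_contra ho
    rw [le_antisymm (not_lt.1 (mt ff_pos_iff.1 ho)) (ff_nonneg _)] at hne
    simp at hne
  refine ⟨p, rfl, ⟨h0, h1, h2, h3, h4⟩, l1, l2, l3, l4, ?_, hw, ho, rfl⟩
  have h5 : |c3 u - c3 x / (t + P.L * p)| ≤ p ^ 24 :=
    h4.trans (mul_le_of_le_one_right hp24 (C2_frac_le ht (by positivity)))
  have h6 := C2_ze (c := c3 x) ht hL h0 l1 (abs_nonneg _) (C2_lam h ht x u)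
  have h7 : p ^ 24 ≤ 1 := pow_le_one₀ h0.le (by linarith)
  have h8 : |c3 x / (t + P.L * p)| ≤ 2 := by
    have := abs_sub_abs_le_abs_sub (c3 x / (t + P.L * p)) (c3 u)
    rw [abs_sub_comm] at this
    linarith
  have h9 : p ^ 24 ≤ P.L * p ^ 24 := le_mul_of_one_le_left hp24 hL1
  calc |c3 u - P.ze t x| ≤ |c3 u - c3 x / (t + P.L * p)| + |c3 x / (t + P.L * p) - P.ze t x| :=
        abs_sub_le _ _ _
    _ ≤ p ^ 24 + 2 * (P.L * p ^ 24) := add_le_add h5 (h6.trans (by gcongr))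
    _ ≤ _ := by linarith

end CP

end Crest.Agent.R68
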