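/-
R68/C2: the support, amplitude and density of the cold gas
Skeleton by helper76 (row 68); keep the statements unchanged, add any helper lemmas you like.
-/
import Crest.Agent.R68.C1
import Crest.Agent.R68.C2Aux

set_option autoImplicit false
set_option linter.unusedVariables false
set_option linter.unusedSectionVars false

noncomputable section

namespace Crest.Agent.R68

open MeasureTheory Set Filter Topology
open scoped ENNReal NNReal
open Crest.AnalysisR.VecCalc3 Crest.AnalysisR.PDE.Boltzmann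

namespace CP

variable {P : CP}

/-- The generations are cold and stay close to the line. -/
theorem Wg_supp (h : P.OK) {e' : ℝ} (he : 0 < e') : ∀ᶠ r in 𝓝[>] (0 : ℝ), ∀ g ≤ P.G, ∀ b t x v, 0 ≤ t →
    P.Wg r g b t x v → ‖v - P.U b t x‖ ≤ e' ∧ ‖v‖ ≤ 2 ∧ |c2 v| ≤ e' ∧ ry x ≤ 3 * t + e' ∧
      P.el t x ≤ 2 * r ∧ P.el t x ≤ e' ∧ |P.ze t x| ≤ 2 := by
  have hT := h.T_pos
  have hL1 := h.one_le_L
  have hm : 0 < min e' (1 / 10) := lt_min he (by norm_num)
  filter_upwards [C2_ev (2 * (32 * P.L) ^ (P.G + 1)) (half_pos hm), C2_ev (2 / P.T) (half_pos hm),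
    C2_ev (2 * (1 + 2 * P.L)) hm, (self_mem_nhdsWithin : Ioi (0 : ℝ) ∈ 𝓝[>] 0)]
    with r h1 h2 h3 hr g hg b t x v ht hw
  have hr : 0 < r := hr
  have m1 := min_le_left e' (1 / 10)
  have m2 := min_le_right e' (1 / 10)
  have hl0 := hw.pos
  have hG : ((g : ℝ) + 1) / (P.G + 1) ≤ 1 :=
    div_le_one_of_le₀ (by exact_mod_cast Nat.succ_le_succ hg) (by positivity)
  have hG' : ((g : ℝ) + 1) / (2 * (P.G + 1)) ≤ 1 / 2 := by
    rw [mul_comm, ← div_div]; linarith
  have hl : P.el t x ≤ 2 * r := hw.le.trans (by nlinarith)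
  have hl2 : (1 + 2 * P.L) * P.el t x ≤ min e' (1 / 10) := by nlinarith
  have hl3 : P.el t x ≤ min e' (1 / 10) := by nlinarith
  have hth : P.th t x ≤ 2 * r := le_trans (pow_le_of_le_one hl0.le (by linarith) (by norm_num)) hl
  have hcc : ‖v - P.U b t x‖ ≤ min e' (1 / 10) / 2 := by
    refine hw.cc.trans (le_trans ?_ h1)
    calc (32 * P.L) ^ (g + 1) * P.th t x ≤ (32 * P.L) ^ (P.G + 1) * (2 * r) :=
          mul_le_mul (pow_le_pow_right₀ (by linarith) (Nat.succ_le_succ hg)) hth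
            (P.th_nonneg t x) (by positivity)
      _ = _ := by ring
  have hlT : P.el t x / P.T ≤ min e' (1 / 10) / 2 := by
    refine le_trans ?_ h2
    rw [div_mul_eq_mul_div]
    exact div_le_div_of_nonneg_right hl hT.le
  have a0 : |v 0| ≤ 11 / 10 := by
    have e1 := (abs_zero_le_norm (v - P.U b t x)).trans hcc
    rw [PiLp.sub_apply, U_zero] at e1
    have e2 := abs_sub_abs_le_abs_sub (v 0) (sgn b)
    rw [abs_sgn] at e2
    linarith
  have hc2 : |c2 x / (t + P.T)| = P.el t x / P.T := by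
    rw [h.el_eq ht, abs_div, abs_of_pos (by positivity : 0 < t + P.T)]
    field_simp
  have a2 : |c2 v| ≤ min e' (1 / 10) := by
    have e1 := (abs_c2_le_norm (v - P.U b t x)).trans hcc
    rw [c2_sub, c2_U] at e1
    have e2 := abs_sub_abs_le_abs_sub (c2 v) (c2 x / (t + P.T))
    linarith
  have a3 : |c3 v| ≤ 3 / 2 := hw.v3.trans (by linarith)
  have a4 : |P.ze t x| ≤ 2 := by
    have e1 := (abs_c3_le_norm (v - P.U b t x)).trans hcc
    rw [c3_sub, c3_U, abs_sub_comm] at e1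
    have e2 := abs_sub_abs_le_abs_sub (P.ze t x) (c3 v)
    linarith
  refine ⟨by linarith, ?_, by linarith, ?_, hl, by linarith, a4⟩
  · refine le_of_sq_le_sq ?_ (by norm_num)
    rw [norm_sq_frame, ← sq_abs (v 0), ← sq_abs (c2 v), ← sq_abs (c3 v)]
    have := abs_nonneg (v 0)
    have := abs_nonneg (c2 v)
    have := abs_nonneg (c3 v)
    nlinarith
  · have e1 : |c2 x| = P.el t x + t * (P.el t x / P.T) := by
      rw [← hc2, h.el_eq ht, abs_div, abs_of_pos (by positivity : 0 < t + P.T)]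
      field_simp
      ring
    have hpos : 0 < t + P.L * P.el t x := by positivity
    have e2 : |c3 x| = |P.ze t x| * (t + P.L * P.el t x) := by
      unfold ze
      rw [abs_div, abs_of_pos hpos, div_mul_cancel₀ _ hpos.ne']
    have e3 : t * (P.el t x / P.T) ≤ t := mul_le_of_le_one_right ht (by linarith)
    have e4 : |P.ze t x| * (t + P.L * P.el t x) ≤ 2 * (t + P.L * P.el t x) :=
      mul_le_mul_of_nonneg_right a4 hpos.le
    have := ry_le_add x
    linarith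

theorem Wg.mono {r : ℝ} (h : P.OK) (hr : 0 ≤ r) {g g' : ℕ} (hg : g ≤ g') {b : Bool} {t : ℝ} {x v : R3}
    (hw : P.Wg r g b t x v) : P.Wg r g' b t x v := by
  have hL1 := h.one_le_L
  have h1 : (g : ℝ) + 1 ≤ g' + 1 := by exact_mod_cast Nat.succ_le_succ hg
  refine ⟨hw.pos, hw.le.trans ?_, le_trans ?_ hw.osc, hw.v3.trans ?_, hw.cc.trans ?_⟩
  · gcongr
  · gcongr
  · gcongr
  · exact mul_le_mul_of_nonneg_right (pow_le_pow_right₀ (by linarith) (Nat.succ_le_succ hg))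
      (P.th_nonneg t x)

/-- The two signs live in different stripes. -/
theorem Wg.disjoint {r : ℝ} (h : P.OK) {g g' : ℕ} (hg : g ≤ P.G) (hg' : g' ≤ P.G) {b : Bool} {t : ℝ}
    {x v u : R3} (hw : P.Wg r g b t x v) : ¬P.Wg r g' (!b) t x u := by
  intro hw'
  have h1 := hw.osc
  have h2 := hw'.osc
  rw [osc_not] at h2
  have k : ∀ g ≤ P.G, ((g : ℝ) + 1) / (4 * (P.G + 1)) ≤ 1 / 4 := fun g hg => by
    have : (g : ℝ) + 1 ≤ P.G + 1 := by exact_mod_cast Nat.succ_le_succ hg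
    rw [div_le_div_iff₀ (by positivity) (by norm_num)]
    linarith
  have := k g hg
  have := k g' hg'
  linarith

/-- The box.  Let `y = x - t u`, `cc = u - U`.  Then `c2 u - c2 y / T = cc₂ (t + T) / T`,
`c2 y - lt = - t cc₂`, and
`c3 u - c3 y / (L |c2 y|) = (c3 u - c3 x / (t + L |c2 y|)) (t + L |c2 y|) / (L |c2 y|)`.
So on the support `|c2 y - lt| ≤ T |c2 y| ^ 24`, the ratio `|c2 y| / el` is as close to `1` as we like,
and `|c3 x / (t + L |c2 y|) - ze| ≤ 2 L |cc₂| · 2`. -/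
theorem E0c_box (h : P.OK) {e' : ℝ} (he : 0 < e') : ∀ᶠ r in 𝓝[>] (0 : ℝ), ∀ b t x u, 0 ≤ t →
    P.E0c r b t x u ≠ 0 → 0 < P.el t x ∧ |u 0 - sgn b| ≤ 6 / 5 * P.th t x ∧
      |c2 u - c2 x / (t + P.T)| ≤ 6 / 5 * (P.th t x * (P.T / (t + P.T))) ∧
      |c3 u - c3 x / (t + P.L * |c2 x - t * c2 u|)| ≤
        6 / 5 * (P.th t x * (P.L * P.el t x / (t + P.L * P.el t x))) ∧
      P.E0c r b t x u ≤ ENNReal.ofReal (2 * (P.C / (8 * P.el t x ^ 73)) * (P.chi b t x + e') /
        √(1 + P.L ^ 2 * P.ze t x ^ 2)) := by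
  obtain ⟨A, hA, hchi⟩ := C2_chi h
  have hL1 := h.one_le_L
  have hL : 0 < P.L := lt_of_lt_of_le one_pos hL1
  have hT := h.T_pos
  have hC : 0 ≤ P.C := zero_le_one.trans h.one_le_C
  filter_upwards [C2_ev 1 (by norm_num : (0 : ℝ) < 1 / 1000), C2_ev A he,
    C2_ev (P.L * (3 * P.L)) one_half_pos] with r h1 h2 h3 b t x u ht hne
  rw [one_mul] at h1
  obtain ⟨p, hp, ⟨h0, hr, b1, b2, b3⟩, l1, l2, l3, l4, hz, hw, ho, hE⟩ := C2_core h h1 ht hne
  have k1 : 501 / 500 * p ^ 24 ≤ 6 / 5 * P.th t x := C2_pow24 h0.le l3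
  have k0 : 0 ≤ p ^ 24 := by positivity
  have k2 : p ^ 24 ≤ 6 / 5 * P.th t x := by linarith
  have k3 : p ^ 24 ≤ r := (pow_le_of_le_one h0.le (by linarith) (by norm_num)).trans hr
  have hz' : |c3 u - P.ze t x| ≤ 3 * P.L * r := hz.trans (by gcongr)
  refine ⟨l1, b1.trans k2, b2.trans ?_, ?_, ?_⟩
  · rw [← mul_assoc]; gcongr
  · rw [← hp]
    refine b3.trans ?_
    calc p ^ 24 * (P.L * p / (t + P.L * p))
        ≤ p ^ 24 * (501 / 500 * (P.L * P.el t x / (t + P.L * P.el t x))) :=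
          mul_le_mul_of_nonneg_left (C2_frac ht hL l1 h0 (by norm_num) l3) k0
      _ = 501 / 500 * p ^ 24 * (P.L * P.el t x / (t + P.L * P.el t x)) := by ring
      _ ≤ _ := by rw [← mul_assoc]; gcongr
  · rw [hE]
    refine ENNReal.ofReal_le_ofReal ?_
    have c1 := C2_pow73 hC h0 l1 l2
    have c2 : ff (P.osc b p) * tau (c3 u) ≤ P.chi b t x + e' := by
      have := (abs_le.1 (hchi b p (P.el t x) (c3 u) (P.ze t x) r h0 (by linarith)
        (l4.trans (by gcongr)) hz')).2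
      unfold chi
      linarith
    have c3' := C2_sqrt (w := c3 u) (z := P.ze t x) hL.le
      (le_trans (by rw [mul_assoc P.L]; gcongr) h3)
    have s1 : 0 < √(1 + P.L ^ 2 * c3 u ^ 2) := by positivity
    have s2 : 0 < √(1 + P.L ^ 2 * P.ze t x ^ 2) := by positivity
    have n1 : 0 ≤ ff (P.osc b p) * tau (c3 u) := mul_nonneg (ff_nonneg _) (tau_nonneg _)
    have n2 : 0 ≤ P.C / (8 * P.el t x ^ 73) := by positivity
    rw [div_le_div_iff₀ s1 s2, mul_assoc (P.C / (8 * p ^ 73))]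
    calc _ ≤ 4 / 3 * (P.C / (8 * P.el t x ^ 73)) * (P.chi b t x + e') *
          (3 / 2 * √(1 + P.L ^ 2 * c3 u ^ 2)) := by
          refine mul_le_mul (mul_le_mul c1 c2 n1 (by positivity)) c3' s2.le ?_
          exact mul_nonneg (by positivity) (n1.trans c2)
      _ = _ := by ring

/-- The converse of `E0c_box`. -/
theorem E0c_box_ge (h : P.OK) {e' : ℝ} (he : 0 < e') : ∀ᶠ r in 𝓝[>] (0 : ℝ), ∀ b t x u, 0 ≤ t →
    0 < P.el t x → P.el t x ≤ r / 2 → |P.ze t x| ≤ 1 → |u 0 - sgn b| ≤ 5 / 6 * P.th t x →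
    |c2 u - c2 x / (t + P.T)| ≤ 5 / 6 * (P.th t x * (P.T / (t + P.T))) →
    |c3 u - c3 x / (t + P.L * |c2 x - t * c2 u|)| ≤
      5 / 6 * (P.th t x * (P.L * P.el t x / (t + P.L * P.el t x))) →
    ENNReal.ofReal (1 / 2 * (P.C / (8 * P.el t x ^ 73)) * (P.chi b t x - e') /
        √(1 + P.L ^ 2 * P.ze t x ^ 2)) ≤ P.E0c r b t x u := by
  obtain ⟨A, hA, hchi⟩ := C2_chi h
  have hL1 := h.one_le_L
  have hL : 0 < P.L := lt_of_lt_of_le one_pos hL1
  have hT := h.T_pos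
  have hC : 0 ≤ P.C := zero_le_one.trans h.one_le_C
  filter_upwards [C2_ev 1 (by norm_num : (0 : ℝ) < 1 / 1000), C2_ev A he,
    C2_ev (P.L * (3 * P.L)) one_half_pos] with r h1 h2 h3 b t x u ht l0 hl hz b1 b2 b3
  rw [one_mul] at h1
  have hlam := C2_lam h ht x u
  rw [C2_E0c h r b ht]
  set p := |c2 x - t * c2 u| with hp
  have k0 : 0 ≤ P.th t x := P.th_nonneg t x
  rw [← mul_assoc] at b2 b3
  obtain ⟨k1, k2⟩ := C2_tT h ht (by positivity) b2
  obtain ⟨h0, l2, l3, l4⟩ := C2_close (q := p) l0 (by linarith) (by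
    rw [abs_sub_comm]
    exact hlam.trans (k1.trans (by unfold th at *; linarith)))
  have k3 : 501 / 500 * P.th t x ≤ 6 / 5 * p ^ 24 := C2_pow24 l0.le l3
  have k4 : 5 / 6 * P.th t x ≤ p ^ 24 := by linarith
  have k5 : P.th t x ≤ r :=
    (pow_le_of_le_one l0.le (by linarith) (by norm_num)).trans (by linarith)
  have hbox : P.C2box r b t x u p := by
    refine ⟨h0, by linarith, b1.trans k4, b2.trans (by gcongr), b3.trans ?_⟩
    calc 5 / 6 * P.th t x * (P.L * P.el t x / (t + P.L * P.el t x))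
        ≤ 5 / 6 * P.th t x * (501 / 500 * (P.L * p / (t + P.L * p))) :=
          mul_le_mul_of_nonneg_left (C2_frac ht hL h0 l0 (by norm_num) l3) (by positivity)
      _ = 5 / 6 * (501 / 500 * P.th t x) * (P.L * p / (t + P.L * p)) := by ring
      _ ≤ _ := by gcongr; linarith
  rw [if_pos hbox]
  refine ENNReal.ofReal_le_ofReal ?_
  have hz' : |c3 u - P.ze t x| ≤ 3 * P.L * r := by
    have h5 : |c3 u - c3 x / (t + P.L * p)| ≤ r :=
      b3.trans ((mul_le_of_le_one_right (by positivity) (C2_frac_le ht (by positivity))).trans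
        (by linarith))
    have h6 := C2_ze (c := c3 x) ht hL l0 h0 (abs_nonneg _) ((abs_sub_comm _ _).le.trans hlam)
    have h7 : |c3 x / (t + P.L * p) - P.ze t x| ≤ 1 * (P.L * r) := by
      rw [abs_sub_comm]
      refine h6.trans (mul_le_mul hz ?_ (by positivity) zero_le_one)
      exact mul_le_mul_of_nonneg_left (by linarith) hL.le
    have h8 : r ≤ P.L * r := le_mul_of_one_le_left (by linarith) hL1
    have := abs_sub_le (c3 u) (c3 x / (t + P.L * p)) (P.ze t x)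
    linarith
  have c1 := C2_pow73 hC l0 h0 l2
  have c2 : P.chi b t x - e' ≤ ff (P.osc b p) * tau (c3 u) := by
    have := (abs_le.1 (hchi b (P.el t x) p (P.ze t x) (c3 u) r l0 (by linarith)
      (l4.trans (by gcongr; linarith)) (by rw [abs_sub_comm]; exact hz'))).2
    unfold chi
    linarith
  have c3' := C2_sqrt (w := P.ze t x) (z := c3 u) hL.le
    (le_trans (by rw [mul_assoc P.L, abs_sub_comm]; gcongr) h3)
  have s1 : 0 < √(1 + P.L ^ 2 * c3 u ^ 2) := by positivity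
  have s2 : 0 < √(1 + P.L ^ 2 * P.ze t x ^ 2) := by positivity
  have n1 : 0 ≤ ff (P.osc b p) * tau (c3 u) := mul_nonneg (ff_nonneg _) (tau_nonneg _)
  have n2 : 0 ≤ P.C / (8 * P.el t x ^ 73) := by positivity
  rw [div_le_div_iff₀ s2 s1, mul_assoc (P.C / (8 * p ^ 73))]
  calc _ ≤ 1 / 2 * (P.C / (8 * P.el t x ^ 73)) * (ff (P.osc b p) * tau (c3 u)) *
        √(1 + P.L ^ 2 * c3 u ^ 2) := by gcongr
    _ ≤ 1 / 2 * (4 / 3 * (P.C / (8 * p ^ 73))) * (ff (P.osc b p) * tau (c3 u)) *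
        (3 / 2 * √(1 + P.L ^ 2 * P.ze t x ^ 2)) :=
        mul_le_mul (mul_le_mul_of_nonneg_right (by linarith) n1) c3' s1.le
          (mul_nonneg (by linarith) n1)
    _ = _ := by ring

/-- amplitude times volume of the box -/
theorem rho0_eq (h : P.OK) {t : ℝ} (ht : 0 ≤ t) {x : R3} (hx : 0 < P.el t x) :
    P.rho0 t x = P.C / P.el t x ^ 73 / √(1 + P.L ^ 2 * P.ze t x ^ 2) *
      (P.th t x * (P.th t x * (P.T / (t + P.T))) *
        (P.th t x * (P.L * P.el t x / (t + P.L * P.el t x)))) := by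
  have hL : 0 < P.L := lt_of_lt_of_le one_pos h.one_le_L
  have hT := h.T_pos
  have hpos : 0 < t + P.L * P.el t x := by positivity
  have e : (t / P.L + P.el t x) ^ 2 + c3 x ^ 2 =
      ((t + P.L * P.el t x) / P.L) ^ 2 * (1 + P.L ^ 2 * P.ze t x ^ 2) := by
    unfold ze
    field_simp
  have s2 : 0 < √(1 + P.L ^ 2 * P.ze t x ^ 2) := by positivity
  unfold rho0 th
  rw [e, Real.sqrt_mul (by positivity), Real.sqrt_sq (by positivity)]
  field_simp

/-- The volume of a sheared box (`lintegral_e123`). -/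
theorem lintegral_box (c₁ c₂ a₁ a₂ a₃ : ℝ) (h₁ : 0 ≤ a₁) (h₂ : 0 ≤ a₂) (h₃ : 0 ≤ a₃) {m : ℝ → ℝ}
    (hm : Measurable m) :
    volume {u : R3 | |u 0 - c₁| ≤ a₁ ∧ |c2 u - c₂| ≤ a₂ ∧ |c3 u - m (c2 u)| ≤ a₃} =
      ENNReal.ofReal (8 * (a₁ * a₂ * a₃)) := by
  have := C2_box c₁ c₂ a₁ a₂ a₃ hm (f := fun _ => 1) (g := fun _ => 1) measurable_const
    measurable_const
  simp only [mul_one, setLIntegral_one, Real.volume_Icc] at this
  rw [this, ← ENNReal.ofReal_mul (by linarith), ← ENNReal.ofReal_mul (by linarith)]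
  congr 1
  ring

/-- `‖v - u‖ ^ (-9/8) ≤ |v₀ - u₀| ^ (-7/8) |c2 v - c2 u| ^ (-1/4)`. -/
theorem lintegral_box_sing : ∃ K : ℝ≥0, ∀ (c₁ c₂ a₁ a₂ a₃ : ℝ), 0 ≤ a₁ → 0 ≤ a₂ → 0 ≤ a₃ →
    ∀ m : ℝ → ℝ, Measurable m → ∀ v : R3,
    ∫⁻ u in {u : R3 | |u 0 - c₁| ≤ a₁ ∧ |c2 u - c₂| ≤ a₂ ∧ |c3 u - m (c2 u)| ≤ a₃},
      ‖v - u‖ₑ ^ (-(9 / 8) : ℝ) ≤
      K * ENNReal.ofReal (a₁ ^ (1 / 8 : ℝ) * a₂ ^ (3 / 4 : ℝ) * a₃) := by
  obtain ⟨K₁, hK₁⟩ := C2_sing (p := 7 / 8) (by norm_num) (by norm_num)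
  obtain ⟨K₂, hK₂⟩ := C2_sing (p := 1 / 4) (by norm_num) (by norm_num)
  refine ⟨K₁ * K₂ * 2, fun c₁ c₂ a₁ a₂ a₃ h₁ h₂ h₃ m hm v => ?_⟩
  have hb := C2_box c₁ c₂ a₁ a₂ a₃ hm (f := fun y => ‖v 0 - y‖ₑ ^ (-(7 / 8) : ℝ))
    (g := fun y => ‖c2 v - y‖ₑ ^ (-(1 / 4) : ℝ)) (by fun_prop) (by fun_prop)
  have hpt : ∀ u : R3, ‖v - u‖ₑ ^ (-(9 / 8) : ℝ) ≤
      ‖v 0 - u 0‖ₑ ^ (-(7 / 8) : ℝ) * ‖c2 v - c2 u‖ₑ ^ (-(1 / 4) : ℝ) := by
    intro u
    have e : ‖v - u‖ₑ ^ (-(9 / 8) : ℝ) = ‖v - u‖ₑ ^ (-(7 / 8) : ℝ) * ‖v - u‖ₑ ^ (-(1 / 4) : ℝ) := by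
      rw [ENNReal.rpow_neg, ENNReal.rpow_neg, ENNReal.rpow_neg, ← ENNReal.inv_rpow,
        ← ENNReal.inv_rpow, ← ENNReal.inv_rpow,
        ← ENNReal.rpow_add_of_nonneg _ _ (by norm_num) (by norm_num)]
      norm_num
    rw [e]
    refine mul_le_mul' (Geo5_anti ?_ (by norm_num)) (Geo5_anti ?_ (by norm_num))
    · rw [← ofReal_norm, ← ofReal_norm]
      exact ENNReal.ofReal_le_ofReal (abs_zero_le_norm (v - u))
    · rw [← ofReal_norm, ← ofReal_norm, ← c2_sub]
      exact ENNReal.ofReal_le_ofReal (abs_c2_le_norm (v - u))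
  refine (lintegral_mono hpt).trans (hb.le.trans ?_)
  refine (mul_le_mul' (hK₁ c₁ a₁ (v 0) h₁) (mul_le_mul' (hK₂ c₂ a₂ (c2 v) h₂) le_rfl)).trans
    (le_of_eq ?_)
  rw [ENNReal.ofReal_mul (by positivity), ENNReal.ofReal_mul (by positivity),
    ENNReal.ofReal_mul (by positivity), show (1 - 7 / 8 : ℝ) = 1 / 8 by norm_num,
    show (1 - 1 / 4 : ℝ) = 3 / 4 by norm_num, ENNReal.ofReal_ofNat]
  push_cast
  ring

theorem E0c_le_amp (h : P.OK) : ∀ᶠ r in 𝓝[>] (0 : ℝ), ∀ b t x u, 0 ≤ t →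
    P.E0c r b t x u ≤ P.amp r 0 b t x u := by
  have hL1 := h.one_le_L
  have hL : 0 < P.L := lt_of_lt_of_le one_pos hL1
  have hα := h.α_pos
  have hC : 0 ≤ P.C := zero_le_one.trans h.one_le_C
  filter_upwards [C2_ev 1 (by norm_num : (0 : ℝ) < 1 / 1000), E0c_box h one_half_pos,
    C2_ev 1 (by positivity : (0 : ℝ) < 1 / (P.G + 1)),
    C2_ev (2 / P.α) (by positivity : (0 : ℝ) < 1 / (4 * (P.G + 1)))] with r h1 h2 h3 h4 b t x u ht
  rw [one_mul] at h1 h3
  by_cases hne : P.E0c r b t x u = 0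
  · rw [hne]; exact zero_le
  obtain ⟨p, hp, ⟨h0, hr, b1, b2, b3⟩, l1, l2, l3, l4, hz, hw, ho, hE⟩ := C2_core h h1 ht hne
  have k0 : 0 ≤ p ^ 24 := by positivity
  have k1 : 501 / 500 * p ^ 24 ≤ 6 / 5 * P.th t x := C2_pow24 h0.le l3
  have hW : P.Wg r 0 b t x u := by
    refine ⟨l1, ?_, ?_, hw.trans (le_add_of_nonneg_right (by positivity)), ?_⟩
    · have e1 := (abs_le.1 l4).1
      have e2 : p * p ≤ r * (1 / (P.G + 1)) := mul_le_mul hr (hr.trans h3) h0.le (by linarith)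
      rw [Nat.cast_zero, zero_add, mul_add]
      linarith
    · have e1 := h.abs_osc_sub b h0 (l' := P.el t x) (l4.trans (by nlinarith))
      have e2 : 2 * |p - P.el t x| / (p * P.α) ≤ 2 / P.α * r := by
        rw [div_le_iff₀ (by positivity)]
        calc 2 * |p - P.el t x| ≤ 2 * (p * r) := by
              have : p * p ≤ p * r := mul_le_mul_of_nonneg_left hr h0.le
              linarith
          _ = _ := by field_simp
      have e3 := (abs_le.1 (e1.trans e2)).2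
      rw [Nat.cast_zero, zero_add]
      linarith
    · refine (norm_le_frame _).trans ?_
      rw [PiLp.sub_apply, U_zero, c2_sub, c2_U, c3_sub, c3_U, zero_add, pow_one]
      have e1 := (C2_tT h ht k0 b2).2
      have e2 : p ^ 24 ≤ P.L * p ^ 24 := le_mul_of_one_le_left k0 hL1
      have e3 : P.L * p ^ 24 ≤ P.L * (6 / 5 * P.th t x) :=
        mul_le_mul_of_nonneg_left (by linarith) hL.le
      have e4 : 0 ≤ P.L * P.th t x := mul_nonneg hL.le (P.th_nonneg t x)
      linarith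
  unfold amp
  rw [if_pos hW]
  refine (h2 b t x u ht hne).2.2.2.2.trans (ENNReal.ofReal_le_ofReal ?_)
  have s2 : 1 ≤ √(1 + P.L ^ 2 * P.ze t x ^ 2) :=
    Real.one_le_sqrt.2 (le_add_of_nonneg_right (by positivity))
  have c1 := P.chi_le b t x
  have c2 := P.chi_nonneg b t x
  have n2 : 0 ≤ P.C / P.el t x ^ 73 := by positivity
  refine (div_le_self (by positivity) s2).trans ?_
  rw [mul_zero, pow_zero, mul_one, mul_comm 8, ← div_div]
  nlinarith

theorem Eg_le_amp (h : P.OK) : ∀ᶠ r in 𝓝[>] (0 : ℝ), ∀ g b t x u, 0 ≤ t →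
    P.Eg r g b t x u ≤ P.amp r g b t x u := by
  filter_upwards [E0c_le_amp h] with r h1 g b t x u ht
  cases g with
  | zero => exact h1 b t x u ht
  | succ g => exact le_rfl

/-- Support and amplitude of the sum of all generations. -/
theorem Ecc_le (h : P.OK) : ∀ᶠ r in 𝓝[>] (0 : ℝ), ∀ b t x u, 0 ≤ t →
    (P.Ecc r b t x u ≠ 0 → P.Wg r P.G b t x u) ∧
      P.Ecc r b t x u ≤ ENNReal.ofReal (2 * P.C / P.el t x ^ 73) ∧
      P.Ehi r b t x u ≤ ENNReal.ofReal (2 * P.C / P.el t x ^ 71) := by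
  have hC : 0 ≤ P.C := zero_le_one.trans h.one_le_C
  filter_upwards [E0c_le_amp h, Wg_supp h one_half_pos,
    (self_mem_nhdsWithin : Ioi (0 : ℝ) ∈ 𝓝[>] 0)] with r h1 h2 hr b t x u ht
  have hr : 0 < r := hr
  have eh : P.Ehi r b t x u = ∑ g ∈ Finset.range P.G, P.amp r (g + 1) b t x u := by
    unfold Ehi
    simp only [Finset.sum_apply]
  have hamp : ∀ g ≤ P.G, P.amp r g b t x u ≠ 0 → P.Wg r P.G b t x u := fun g hg hne => by
    unfold amp at hne
    by_cases hw : P.Wg r g b t x u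
    · exact hw.mono h hr.le hg
    · exact absurd (if_neg hw) hne
  have hW : P.Ecc r b t x u ≠ 0 → P.Wg r P.G b t x u := by
    intro hne
    by_contra hw
    apply hne
    show P.E0c r b t x u + P.Ehi r b t x u = 0
    have e0 : P.amp r 0 b t x u = 0 := by
      by_contra h0
      exact hw (hamp 0 (Nat.zero_le _) h0)
    rw [eh, le_antisymm ((h1 b t x u ht).trans e0.le) zero_le, zero_add]
    refine Finset.sum_eq_zero fun g hg => ?_
    by_contra h0
    exact hw (hamp (g + 1) (Finset.mem_range.1 hg) h0)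
  by_cases hne : P.Ecc r b t x u = 0
  · refine ⟨hW, hne.le.trans zero_le, le_trans (le_add_self.trans hne.le) zero_le⟩
  have hw := hW hne
  have l0 := hw.pos
  have l1 : P.el t x ≤ 1 / 2 := (h2 P.G le_rfl b t x u ht hw).2.2.2.2.2.1
  have l2 : P.el t x ^ 2 ≤ 1 / 2 := by nlinarith
  have ha : ∀ g, P.amp r g b t x u ≤ ENNReal.ofReal (P.C * P.el t x ^ (2 * g) / P.el t x ^ 73) :=
    fun g => by
      unfold amp
      split_ifs
      · exact le_rfl
      · exact zero_le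
  have hhi : P.Ehi r b t x u ≤ ENNReal.ofReal (2 * P.C / P.el t x ^ 71) := by
    rw [eh]
    calc _ ≤ ∑ g ∈ Finset.range P.G, ENNReal.ofReal (P.C / P.el t x ^ 71 * (1 / 2) ^ g) := by
          refine Finset.sum_le_sum fun g _ => (ha (g + 1)).trans (ENNReal.ofReal_le_ofReal ?_)
          have e : P.C * P.el t x ^ (2 * (g + 1)) / P.el t x ^ 73 =
              P.C / P.el t x ^ 71 * (P.el t x ^ 2) ^ g := by
            rw [← pow_mul]
            field_simp
            ring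
          rw [e]
          gcongr
      _ = ENNReal.ofReal (P.C / P.el t x ^ 71 * ∑ g ∈ Finset.range P.G, (1 / 2 : ℝ) ^ g) := by
          rw [Finset.mul_sum, ENNReal.ofReal_sum_of_nonneg fun g _ => by positivity]
      _ ≤ _ := by
          refine ENNReal.ofReal_le_ofReal ?_
          rw [mul_div_assoc, mul_comm 2]
          exact mul_le_mul_of_nonneg_left (sum_geometric_two_le _) (by positivity)
  refine ⟨hW, ?_, hhi⟩
  refine (add_le_add ((h1 b t x u ht).trans (ha 0)) hhi).trans ?_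
  rw [← ENNReal.ofReal_add (by positivity) (by positivity)]
  refine ENNReal.ofReal_le_ofReal ?_
  have e : 2 * P.C / P.el t x ^ 71 = P.C / P.el t x ^ 73 * (2 * P.el t x ^ 2) := by
    field_simp
  have n2 : 0 ≤ P.C / P.el t x ^ 73 := by positivity
  rw [e, mul_zero, pow_zero, mul_one, mul_div_assoc]
  nlinarith

theorem dens_le (h : P.OK) {e' : ℝ} (he : 0 < e') : ∀ᶠ r in 𝓝[>] (0 : ℝ), ∀ b t x, 0 ≤ t →
    ∫⁻ u, P.E0c r b t x u ≤ ENNReal.ofReal (4 * P.rho0 t x * (P.chi b t x + e')) := by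
  have hL : 0 < P.L := lt_of_lt_of_le one_pos h.one_le_L
  have hT := h.T_pos
  have hC : 0 ≤ P.C := zero_le_one.trans h.one_le_C
  filter_upwards [E0c_box h he] with r h1 b t x ht
  rcases (P.el_nonneg t x).eq_or_lt with l0 | l0
  · have e : ∀ u, P.E0c r b t x u = 0 := fun u => by
      by_contra hne
      exact (h1 b t x u ht hne).1.ne l0
    simp [e]
  have k0 := P.th_nonneg t x
  have c2' := P.chi_nonneg b t x
  have hm : Measurable fun s : ℝ => c3 x / (t + P.L * |c2 x - t * s|) := by fun_prop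
  have hv := lintegral_box (sgn b) (c2 x / (t + P.T)) (6 / 5 * P.th t x)
    (6 / 5 * (P.th t x * (P.T / (t + P.T))))
    (6 / 5 * (P.th t x * (P.L * P.el t x / (t + P.L * P.el t x))))
    (by positivity) (by positivity) (by positivity) hm
  set S := {u : R3 | |u 0 - sgn b| ≤ 6 / 5 * P.th t x ∧
    |c2 u - c2 x / (t + P.T)| ≤ 6 / 5 * (P.th t x * (P.T / (t + P.T))) ∧
    |c3 u - c3 x / (t + P.L * |c2 x - t * c2 u|)| ≤
      6 / 5 * (P.th t x * (P.L * P.el t x / (t + P.L * P.el t x)))} with hS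
  calc ∫⁻ u, P.E0c r b t x u ≤ ∫⁻ u, S.indicator (fun _ => ENNReal.ofReal
        (2 * (P.C / (8 * P.el t x ^ 73)) * (P.chi b t x + e') /
          √(1 + P.L ^ 2 * P.ze t x ^ 2))) u := by
        refine lintegral_mono fun u => ?_
        by_cases hne : P.E0c r b t x u = 0
        · rw [hne]; exact zero_le
        obtain ⟨-, a1, a2, a3, a4⟩ := h1 b t x u ht hne
        rw [indicator_of_mem (show u ∈ S from ⟨a1, a2, a3⟩)]
        exact a4
    _ ≤ _ := by
        refine (lintegral_indicator_const_le _ _).trans ?_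
        rw [hv, ← ENNReal.ofReal_mul (by positivity)]
        refine ENNReal.ofReal_le_ofReal ?_
        have n1 := mul_nonneg (h.rho0_nonneg ht x) (add_nonneg c2' he.le)
        have e : 2 * (P.C / (8 * P.el t x ^ 73)) * (P.chi b t x + e') /
            √(1 + P.L ^ 2 * P.ze t x ^ 2) * (8 * (6 / 5 * P.th t x *
              (6 / 5 * (P.th t x * (P.T / (t + P.T)))) *
              (6 / 5 * (P.th t x * (P.L * P.el t x / (t + P.L * P.el t x)))))) =
            432 / 125 * (P.rho0 t x * (P.chi b t x + e')) := by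
          rw [rho0_eq h ht l0]
          ring
        rw [e]
        linarith

/-- If `|ze| > 1` then `chi = 0`. -/
theorem dens_ge (h : P.OK) {e' : ℝ} (he : 0 < e') : ∀ᶠ r in 𝓝[>] (0 : ℝ), ∀ b t x, 0 ≤ t →
    0 < P.el t x → P.el t x ≤ r / 2 →
    ENNReal.ofReal (P.rho0 t x * (P.chi b t x - e') / 4) ≤ ∫⁻ u, P.E0c r b t x u := by
  have hL : 0 < P.L := lt_of_lt_of_le one_pos h.one_le_L
  have hT := h.T_pos
  have hC : 0 ≤ P.C := zero_le_one.trans h.one_le_C
  filter_upwards [E0c_box_ge h he] with r h1 b t x ht l0 hl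
  have hρ := h.rho0_nonneg ht x
  rcases le_or_gt (P.chi b t x - e') 0 with hneg | hpos
  · rw [ENNReal.ofReal_of_nonpos (by nlinarith)]
    exact zero_le
  have hz : |P.ze t x| ≤ 1 := by
    by_contra hz
    unfold chi at hpos
    rw [tau_eq_zero (not_le.1 hz).le] at hpos
    linarith
  have k0 := P.th_nonneg t x
  have hm : Measurable fun s : ℝ => c3 x / (t + P.L * |c2 x - t * s|) := by fun_prop
  have hv := lintegral_box (sgn b) (c2 x / (t + P.T)) (5 / 6 * P.th t x)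
    (5 / 6 * (P.th t x * (P.T / (t + P.T))))
    (5 / 6 * (P.th t x * (P.L * P.el t x / (t + P.L * P.el t x))))
    (by positivity) (by positivity) (by positivity) hm
  set S := {u : R3 | |u 0 - sgn b| ≤ 5 / 6 * P.th t x ∧
    |c2 u - c2 x / (t + P.T)| ≤ 5 / 6 * (P.th t x * (P.T / (t + P.T))) ∧
    |c3 u - c3 x / (t + P.L * |c2 x - t * c2 u|)| ≤
      5 / 6 * (P.th t x * (P.L * P.el t x / (t + P.L * P.el t x)))} with hS
  have m0 : Measurable fun u : R3 => u 0 := path_meas_coord 0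
  have m2 : Measurable c2 := continuous_c2.measurable
  have m3 : Measurable c3 := continuous_c3.measurable
  have mS : MeasurableSet S :=
    (measurableSet_le (m0.sub_const _).abs measurable_const).inter
      ((measurableSet_le (m2.sub_const _).abs measurable_const).inter
        (measurableSet_le (m3.sub (hm.comp m2)).abs measurable_const))
  calc _ ≤ ∫⁻ _ in S, ENNReal.ofReal (1 / 2 * (P.C / (8 * P.el t x ^ 73)) * (P.chi b t x - e') /
        √(1 + P.L ^ 2 * P.ze t x ^ 2)) := by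
        rw [setLIntegral_const, hv, ← ENNReal.ofReal_mul (by positivity)]
        refine ENNReal.ofReal_le_ofReal ?_
        have n1 := mul_nonneg hρ hpos.le
        have e : 1 / 2 * (P.C / (8 * P.el t x ^ 73)) * (P.chi b t x - e') /
            √(1 + P.L ^ 2 * P.ze t x ^ 2) * (8 * (5 / 6 * P.th t x *
              (5 / 6 * (P.th t x * (P.T / (t + P.T)))) *
              (5 / 6 * (P.th t x * (P.L * P.el t x / (t + P.L * P.el t x)))))) =
            125 / 432 * (P.rho0 t x * (P.chi b t x - e')) := by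
          rw [rho0_eq h ht l0]
          ring
        rw [e]
        linarith
    _ ≤ ∫⁻ u in S, P.E0c r b t x u :=
        setLIntegral_mono' mS fun u hu => h1 b t x u ht l0 hl hz hu.1 hu.2.1 hu.2.2
    _ ≤ _ := setLIntegral_le_lintegral _ _

theorem reg_E0 (h : P.OK) (r : ℝ) : Reg (P.E0 r) := by
  have hL : 0 < P.L := lt_of_lt_of_le one_pos h.one_le_L
  refine ⟨(P.meas_E0 r).1, (P.meas_E0 r).2, fun t x v => ?_⟩
  refine perz_ne_top (ρ := r + P.L * r * (|c3 v| + r ^ 24) + |t| * ry v) (fun b y hne => ?_)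
    fun b y => ?_
  · unfold E0c Fc at hne
    split_ifs at hne with hc
    swap
    · exact absurd rfl hne
    obtain ⟨h0, h1, -, -, h2⟩ := hc
    have e1 : ry y ≤ ry (y - t • v) + |t| * ry v := by
      have := ry_add_le (y - t • v) (t • v)
      rwa [sub_add_cancel, ry_smul] at this
    have e2 := ry_le_add (y - t • v)
    have e3 : |c3 (y - t • v) / (P.L * |c2 (y - t • v)|)| ≤ |c3 v| + r ^ 24 := by
      have a1 := abs_sub_abs_le_abs_sub (c3 (y - t • v) / (P.L * |c2 (y - t • v)|)) (c3 v)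
      have a2 : |c2 (y - t • v)| ^ 24 ≤ r ^ 24 := pow_le_pow_left₀ h0.le h1 24
      rw [abs_sub_comm] at a1
      linarith
    rw [abs_div, abs_of_pos (mul_pos hL h0), div_le_iff₀ (mul_pos hL h0)] at e3
    have e4 : (|c3 v| + r ^ 24) * (P.L * |c2 (y - t • v)|) ≤ (|c3 v| + r ^ 24) * (P.L * r) := by
      gcongr
    linarith
  · unfold E0c Fc
    split_ifs
    · exact ENNReal.ofReal_ne_top
    · exact ENNReal.zero_ne_top

theorem E0_le_Ecal (P : CP) (r : ℝ) : P.E0 r ≤ P.Ecal r := by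
  intro t x v
  exact perz_mono (fun b y => le_self_add) x

theorem Ecal_ne_top (h : P.OK) : ∀ᶠ r in 𝓝[>] (0 : ℝ), ∀ t x u, 0 ≤ t → P.Ecal r t x u ≠ ⊤ := by
  filter_upwards [Ecc_le h, Wg_supp h one_pos] with r h1 h2 t x u ht
  exact perz_ne_top (ρ := 3 * t + 1)
    (fun b y hne => (h2 P.G le_rfl b t y u ht ((h1 b t y u ht).1 hne)).2.2.2.1)
    fun b y => ne_top_of_le_ne_top ENNReal.ofReal_ne_top (h1 b t y u ht).2.1

theorem Ecal_supp (h : P.OK) {e' : ℝ} (he : 0 < e') : ∀ᶠ r in 𝓝[>] (0 : ℝ), ∀ t x u, 0 ≤ t →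
    P.Ecal r t x u ≠ 0 → ‖u‖ ≤ 2 ∧ |c2 u| ≤ e' ∧ dd x ≤ 3 * t + e' := by
  filter_upwards [Ecc_le h, Wg_supp h he] with r h1 h2 t x u ht hne
  obtain ⟨b, k, hk⟩ := perz_ne_zero hne
  obtain ⟨-, a1, a2, a3, -⟩ := h2 P.G le_rfl b t _ u ht ((h1 b t _ u ht).1 hk)
  exact ⟨a1, a2, (dd_le x k).trans a3⟩

/-- Near the central line and for short times only the central line contributes. -/
theorem E0_center (h : P.OK) : ∀ᶠ r in 𝓝[>] (0 : ℝ), ∀ t ∈ Icc 0 P.t₁, ∀ x, ry x ≤ 1 / 2 → ∀ u,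
    P.E0 r t x u = P.E0c r true t x u + P.E0c r false t x u := by
  filter_upwards [Ecc_le h, Wg_supp h (by norm_num : (0 : ℝ) < 1 / 10)] with r h1 h2 t ht x hx u
  have ht₁ := h.t₁_le
  have := perz_eq_of_near (f := P.E0c r) (t := t) (x := x) (v := u) (k := 0) (ρ := 3 * t + 1 / 10)
    (fun b y hne => (h2 P.G le_rfl b t y u ht.1 ((h1 b t y u ht.1).1 fun h0 =>
      hne (le_antisymm (le_self_add.trans h0.le) zero_le))).2.2.2.1)
    (by rw [lat_zero, sub_zero]; linarith [ht.2])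
  rwa [lat_zero, sub_zero] at this

end CP

end Crest.Agent.R68
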