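/-
R68/C3: singular velocity moments of the cold gas
Skeleton by helper76 (row 68); keep the statements unchanged, add any helper lemmas you like.
-/
import Crest.Agent.R68.C2

set_option autoImplicit false
set_option linter.unusedVariables false
set_option linter.unusedSectionVars false

noncomputable section

namespace Crest.Agent.R68

open MeasureTheory Set Filter Topology
open scoped ENNReal NNReal
open Crest.AnalysisR.VecCalc3 Crest.AnalysisR.PDE.Boltzmann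

theorem C3_enorm_le {z : R3} {y : ℝ} (hy : 0 < y) (h : y ≤ ‖z‖) :
    ‖z‖ₑ ^ (-(9 / 8) : ℝ) ≤ ENNReal.ofReal (y ^ (-(9 / 8) : ℝ)) := by
  rw [← ENNReal.ofReal_rpow_of_pos hy, ← ofReal_norm]
  exact Geo5_anti (ENNReal.ofReal_le_ofReal h) (by norm_num)

theorem C3_half {y : ℝ} (hy : 0 < y) :
    (y / 2) ^ (-(9 / 8) : ℝ) ≤ 3 * y ^ (-(9 / 8) : ℝ) := by
  rw [Real.div_rpow hy.le (by norm_num), Real.rpow_neg (by norm_num : (0 : ℝ) ≤ 2), div_inv_eq_mul,
    mul_comm]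
  refine mul_le_mul_of_nonneg_right ?_ (Real.rpow_nonneg hy.le _)
  have h : ((2 : ℝ) ^ (9 / 8 : ℝ)) ^ 8 ≤ 3 ^ 8 := by
    rw [← Real.rpow_natCast, ← Real.rpow_mul (by norm_num)]
    norm_num
  exact le_of_pow_le_pow_left₀ (by norm_num) (by norm_num) h

theorem C3_pow_le {y : ℝ} (hy : 0 < y) : y ^ (-(9 / 8) : ℝ) ≤ 1 + y ^ (-(5 / 4) : ℝ) := by
  rcases le_total y 1 with h | h
  · have := Real.rpow_le_rpow_of_exponent_ge hy h (by norm_num : (-(5 / 4) : ℝ) ≤ -(9 / 8))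
    linarith
  · have h1 := Real.rpow_le_one_of_one_le_of_nonpos h (by norm_num : (-(9 / 8) : ℝ) ≤ 0)
    have h2 := Real.rpow_nonneg hy.le (-(5 / 4) : ℝ)
    linarith

theorem C3_far {U u v : R3} {R th : ℝ} (h0 : 0 < th) (h1 : th ≤ R) (hu : ‖u - U‖ ≤ R)
    (hu' : ‖u‖ ≤ 2) (hv : 3 * R ≤ ‖v - U‖) :
    1 + ‖v - u‖ₑ ^ (-(9 / 8) : ℝ) ≤ 4 * (1 + sg U th v) := by
  have t1 : ‖v - U‖ ≤ ‖v - u‖ + ‖u - U‖ := norm_sub_le_norm_sub_add_norm_sub _ _ _
  have t2 : ‖v‖ ≤ ‖v - u‖ + ‖u‖ := by simpa using norm_add_le (v - u) u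
  have e4 : ∀ s : ℝ≥0∞, 1 + 3 * (1 + s) ≤ 4 * (1 + s) := fun s => by
    calc 1 + 3 * (1 + s) ≤ (1 + s) + 3 * (1 + s) := by gcongr; exact le_self_add
      _ = 4 * (1 + s) := by ring
  refine le_trans ?_ (e4 _)
  gcongr
  unfold sg
  split_ifs with hc
  · have hy : 0 < ‖v - U‖ + th := by positivity
    refine (C3_enorm_le (half_pos hy) (by linarith)).trans ?_
    rw [← ENNReal.ofReal_one, ← ENNReal.ofReal_add zero_le_one (Real.rpow_nonneg hy.le _),
      ← ENNReal.ofReal_ofNat 3, ← ENNReal.ofReal_mul (by norm_num)]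
    refine ENNReal.ofReal_le_ofReal ((C3_half hy).trans ?_)
    have := C3_pow_le hy
    linarith
  · have h2 : (1 : ℝ) / 2 ≤ ‖v - u‖ := by
      by_contra hcon
      refine hc ⟨?_, ?_⟩ <;> linarith
    refine (C3_enorm_le (half_pos one_pos) h2).trans ?_
    rw [add_zero, mul_one, ← ENNReal.ofReal_ofNat 3]
    refine ENNReal.ofReal_le_ofReal ((C3_half one_pos).trans ?_)
    rw [Real.one_rpow, mul_one]

theorem C3_gen : ∃ K : ℝ, 0 ≤ K ∧ ∀ (E : R3 → ℝ≥0∞) (U v : R3) (c el a : ℝ) (m : ℝ≥0∞),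
    Measurable E → 0 < el → 1 ≤ c → c * el ^ 24 ≤ 1 / 3 → 0 ≤ a →
    (∀ u, E u ≠ 0 → ‖u - U‖ ≤ c * el ^ 24 ∧ ‖u‖ ≤ 2) → (∀ u, E u ≤ ENNReal.ofReal a) →
    ∫⁻ u, E u ≤ m →
    ∫⁻ u, E u * (1 + ‖v - u‖ₑ ^ (-(9 / 8) : ℝ)) ≤
      (4 * m + ENNReal.ofReal (a * el ^ 75 * (K * (4 * c) ^ (25 / 8 : ℝ)))) *
        (1 + sg U (el ^ 24) v) := by
  obtain ⟨K, hK⟩ := lintegral_ball_rpow (p := 9 / 8) (by norm_num) (by norm_num)
  refine ⟨K, K.2, fun E U v c el a m hE hel hc hR ha hs hle hm => ?_⟩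
  have hth : 0 < el ^ 24 := by positivity
  have h1 : el ^ 24 ≤ c * el ^ 24 := le_mul_of_one_le_left hth.le hc
  set R := c * el ^ 24 with hRdef
  have hR0 : 0 < R := hth.trans_le h1
  rcases le_total (3 * R) ‖v - U‖ with hv | hv
  · calc _ ≤ ∫⁻ u, E u * (4 * (1 + sg U (el ^ 24) v)) := by
          refine lintegral_mono fun u => ?_
          by_cases hu : E u = 0
          · simp [hu]
          · exact mul_le_mul' le_rfl (C3_far hth h1 (hs u hu).1 (hs u hu).2 hv)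
      _ = (∫⁻ u, E u) * (4 * (1 + sg U (el ^ 24) v)) := lintegral_mul_const _ hE
      _ ≤ m * (4 * (1 + sg U (el ^ 24) v)) := by gcongr
      _ = 4 * m * (1 + sg U (el ^ 24) v) := by ring
      _ ≤ _ := by gcongr; exact le_self_add
  · by_cases hex : ∀ u, E u = 0
    · simp [hex]
    obtain ⟨u₀, hu₀⟩ := not_forall.1 hex
    have t1 : ‖v - u₀‖ ≤ ‖v - U‖ + ‖u₀ - U‖ := by
      rw [norm_sub_rev u₀]
      exact norm_sub_le_norm_sub_add_norm_sub _ _ _
    have t2 : ‖v‖ ≤ ‖v - u₀‖ + ‖u₀‖ := by simpa using norm_add_le (v - u₀) u₀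
    have hsg : ENNReal.ofReal ((4 * R) ^ (-(5 / 4) : ℝ)) ≤ sg U (el ^ 24) v := by
      unfold sg
      rw [if_pos ⟨by linarith, by linarith [(hs u₀ hu₀).1, (hs u₀ hu₀).2]⟩]
      exact ENNReal.ofReal_le_ofReal (Real.rpow_le_rpow_of_nonpos (by positivity) (by linarith)
        (by norm_num))
    have hsing : ∫⁻ u, E u * ‖v - u‖ₑ ^ (-(9 / 8) : ℝ) ≤
        ENNReal.ofReal a * (K * ENNReal.ofReal ((4 * R) ^ (3 - 9 / 8 : ℝ))) := by
      calc _ ≤ ∫⁻ u, (Metric.closedBall v (4 * R)).indicator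
            (fun u => ENNReal.ofReal a * ‖u - v‖ₑ ^ (-(9 / 8) : ℝ)) u := by
            refine lintegral_mono fun u => ?_
            by_cases hu : E u = 0
            · simp [hu]
            · have t3 : ‖u - v‖ ≤ ‖u - U‖ + ‖v - U‖ := by
                rw [norm_sub_rev v]
                exact norm_sub_le_norm_sub_add_norm_sub _ _ _
              rw [indicator_of_mem (mem_closedBall_iff_norm.2 (by linarith [(hs u hu).1])),
                enorm_sub_rev]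
              exact mul_le_mul' (hle u) le_rfl
        _ = ENNReal.ofReal a * ∫⁻ u in Metric.closedBall v (4 * R), ‖u - v‖ₑ ^ (-(9 / 8) : ℝ) := by
            rw [lintegral_indicator measurableSet_closedBall,
              lintegral_const_mul' _ _ ENNReal.ofReal_ne_top]
        _ ≤ _ := mul_le_mul' le_rfl (hK v _ (by positivity))
    have e1 : a * (K * (4 * R) ^ (3 - 9 / 8 : ℝ)) =
        a * el ^ 75 * (K * (4 * c) ^ (25 / 8 : ℝ)) * (4 * R) ^ (-(5 / 4) : ℝ) := by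
      have f1 : (4 * R) ^ (3 - 9 / 8 : ℝ) = (4 * R) ^ (25 / 8 : ℝ) * (4 * R) ^ (-(5 / 4) : ℝ) := by
        rw [← Real.rpow_add (by positivity)]
        norm_num
      have f2 : (4 * R) ^ (25 / 8 : ℝ) = (4 * c) ^ (25 / 8 : ℝ) * el ^ 75 := by
        rw [hRdef, ← mul_assoc, Real.mul_rpow (by positivity) hth.le, ← Real.rpow_natCast el 24,
          ← Real.rpow_mul hel.le, ← Real.rpow_natCast el 75]
        norm_num
      rw [f1, f2]
      ring
    calc _ = (∫⁻ u, E u) + ∫⁻ u, E u * ‖v - u‖ₑ ^ (-(9 / 8) : ℝ) := by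
          simp only [mul_add, mul_one]
          exact lintegral_add_left hE _
      _ ≤ m + ENNReal.ofReal (a * el ^ 75 * (K * (4 * c) ^ (25 / 8 : ℝ))) *
            ENNReal.ofReal ((4 * R) ^ (-(5 / 4) : ℝ)) := by
          refine add_le_add hm (hsing.trans (le_of_eq ?_))
          rw [← ENNReal.ofReal_coe_nnreal, ← ENNReal.ofReal_mul K.coe_nonneg, ← ENNReal.ofReal_mul ha,
            ← ENNReal.ofReal_mul (by positivity), e1]
      _ ≤ 4 * m * (1 + sg U (el ^ 24) v) + ENNReal.ofReal (a * el ^ 75 *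
            (K * (4 * c) ^ (25 / 8 : ℝ))) * (1 + sg U (el ^ 24) v) := by
          refine add_le_add ?_ (mul_le_mul' le_rfl (hsg.trans le_add_self))
          calc m = 1 * m * 1 := by ring
            _ ≤ _ := by
                gcongr
                · norm_num
                · exact le_self_add
      _ = _ := by ring

theorem C3_small {c M e' : ℝ} (hc : 0 < c) (hM : 0 ≤ M) (he : 0 < e') :
    ∃ ε : ℝ, 0 < ε ∧ ε ≤ 1 ∧ c * ε ≤ 1 / 3 ∧ M * ε ≤ e' := by
  refine ⟨min 1 (min (1 / (3 * c)) (e' / (M + 1))), by positivity, min_le_left _ _, ?_, ?_⟩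
  · calc _ ≤ c * (1 / (3 * c)) := by
          gcongr
          exact (min_le_right _ _).trans (min_le_left _ _)
      _ = 1 / 3 := by field_simp
  · calc _ ≤ (M + 1) * (e' / (M + 1)) := by
          gcongr
          · linarith
          · exact (min_le_right _ _).trans (min_le_right _ _)
      _ = e' := by field_simp

theorem C3_meas {E : Fn} (hE : Meas E) (t : ℝ) (x : R3) : Measurable (E t x) :=
  hE.comp (f := fun v : R3 => (t, x, v)) (by fun_prop)

theorem C3_Cm_ne {E : Fn} {t : ℝ} {x v : R3} (h : Cm E t x v ≠ 0) : ∃ u, E t x u ≠ 0 := by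
  by_contra hcon
  push Not at hcon
  exact h (by simp [Cm, hcon])

namespace CP

variable {P : CP}

theorem C3_part (h : P.OK) {e' : ℝ} (he : 0 < e') : ∀ᶠ r in 𝓝[>] (0 : ℝ), ∀ b t x v, 0 < t →
    ∀ (E : Fn) (m : ℝ≥0∞), Meas E → (∀ u, E t x u ≤ P.Ecc r b t x u) → ∫⁻ u, E t x u ≤ m →
    Cm E t x v ≤ (4 * m + ENNReal.ofReal e') * (1 + P.sgc b t x v) := by
  obtain ⟨K, hK0, hK⟩ := C3_gen
  have hL := h.one_le_L
  have hC := h.one_le_C
  have hc : 1 ≤ (32 * P.L) ^ (P.G + 1) := one_le_pow₀ (by linarith)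
  set c := (32 * P.L) ^ (P.G + 1) with hcdef
  obtain ⟨ε, e0, e1, e2, e3⟩ := C3_small (c := c) (M := 2 * P.C * (K * (4 * c) ^ (25 / 8 : ℝ)))
    (by positivity) (by positivity) he
  filter_upwards [Ecc_le h, Wg_supp h e0] with r h1 h2 b t x v ht E m hE hle hm
  by_cases h0 : Cm E t x v = 0
  · rw [h0]
    exact zero_le
  obtain ⟨u₀, hu₀⟩ := C3_Cm_ne h0
  have hw : ∀ u, E t x u ≠ 0 → P.Wg r P.G b t x u := fun u hu =>
    (h1 b t x u ht.le).1 fun h' => hu (le_antisymm (h' ▸ hle u) zero_le)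
  have hel := (hw u₀ hu₀).pos
  have hel' := (h2 _ le_rfl b t x u₀ ht.le (hw u₀ hu₀)).2.2.2.2.2.1
  have p1 : ∀ n : ℕ, n ≠ 0 → P.el t x ^ n ≤ ε := fun n hn =>
    (pow_le_of_le_one hel.le (hel'.trans e1) hn).trans hel'
  refine (hK (E t x) (P.U b t x) v c (P.el t x) (2 * P.C / P.el t x ^ 73) m (C3_meas hE t x) hel hc
    (le_trans (by gcongr; exact p1 _ (by norm_num)) e2) (by positivity)
    (fun u hu => ⟨(hw u hu).cc, (h2 _ le_rfl b t x u ht.le (hw u hu)).2.1⟩)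
    (fun u => (hle u).trans (h1 b t x u ht.le).2.1) hm).trans ?_
  refine mul_le_mul' (add_le_add le_rfl (ENNReal.ofReal_le_ofReal (le_trans ?_ e3))) le_rfl
  calc _ = 2 * P.C * (K * (4 * c) ^ (25 / 8 : ℝ)) * P.el t x ^ 2 := by field_simp
    _ ≤ _ := by
        gcongr
        exact p1 _ (by norm_num)

/-- Let `R = 32 L th` (`E0c_le_amp`: the support lies in `closedBall U R`).  If `‖v - U‖ ≥ 2 R` then on
the support `1 + ‖v - u‖ ^ (-9/8) ≤ 4 (1 + sgc)` (`‖v - u‖ ≥ (‖v - U‖ + th) / 3`); use `dens_le`.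
Otherwise `sgc ≥ (65 L th) ^ (-5/4)`, and `E0c_box`, `lintegral_box_sing`, `rho0_eq` bound the singular
moment by `K rho0 th ^ (-9/8) ((t + T) / T) ^ (1/4)`; distinguish `t ≤ 1` and `t ≥ 1` (`rho0_le'`). -/
theorem Cm_E0c (h : P.OK) {e' : ℝ} (he : 0 < e') : ∀ᶠ r in 𝓝[>] (0 : ℝ), ∀ b t x v, 0 < t →
    Cm (P.E0c r b) t x v ≤
      ENNReal.ofReal (16 * (P.rho0 t x * (P.chi b t x + e') + e')) * (1 + P.sgc b t x v) := by
  filter_upwards [C3_part h he, dens_le h he] with r h1 h2 b t x v ht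
  refine (h1 b t x v ht _ _ (P.meas_E0c r b).1 (fun u => le_self_add) (h2 b t x ht.le)).trans ?_
  have a1 := h.rho0_nonneg ht.le x
  have a2 := P.chi_nonneg b t x
  rw [← ENNReal.ofReal_ofNat 4, ← ENNReal.ofReal_mul (by norm_num),
    ← ENNReal.ofReal_add (by positivity) he.le]
  exact mul_le_mul' (ENNReal.ofReal_le_ofReal (by linarith)) le_rfl

/-- Amplitude `2 C el ^ (-71)` on a ball of radius `R = (32 L) ^ (G + 1) el ^ 24`: the mass is
`O(el)`; for `‖v - U‖ ≤ 2 R` use `lintegral_ball_rpow` (`el ^ (-71 + 45)` against `sgc ≥ c el ^ (-30)`). -/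
theorem Cm_Ehi (h : P.OK) {e' : ℝ} (he : 0 < e') : ∀ᶠ r in 𝓝[>] (0 : ℝ), ∀ b t x v, 0 < t →
    Cm (P.Ehi r b) t x v ≤ ENNReal.ofReal e' * (1 + P.sgc b t x v) := by
  obtain ⟨K, hK⟩ := lintegral_ball_rpow (p := 0) le_rfl (by norm_num)
  have hL := h.one_le_L
  have hC := h.one_le_C
  set c := (32 * P.L) ^ (P.G + 1) with hcdef
  have hc : 0 < c := by positivity
  obtain ⟨ε, e0, e1, -, e3⟩ := C3_small (c := 1) (M := 2 * P.C * (K * c ^ 3)) (e' := e' / 8)
    one_pos (by positivity) (by positivity)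
  filter_upwards [C3_part h (half_pos he), Ecc_le h, Wg_supp h e0] with r h1 h2 h3 b t x v ht
  by_cases h0 : Cm (P.Ehi r b) t x v = 0
  · rw [h0]
    exact zero_le
  obtain ⟨u₀, hu₀⟩ := C3_Cm_ne h0
  have hle : ∀ u, P.Ehi r b t x u ≤ P.Ecc r b t x u := fun u => le_add_self
  have hw : ∀ u, P.Ehi r b t x u ≠ 0 → P.Wg r P.G b t x u := fun u hu =>
    (h2 b t x u ht.le).1 fun h' => hu (le_antisymm (h' ▸ hle u) zero_le)
  have hel := (hw u₀ hu₀).pos
  have hel' := (h3 _ le_rfl b t x u₀ ht.le (hw u₀ hu₀)).2.2.2.2.2.1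
  have hm : ∫⁻ u, P.Ehi r b t x u ≤ ENNReal.ofReal (e' / 8) := by
    have hb := hK (P.U b t x) (c * P.el t x ^ 24) (by positivity)
    simp only [neg_zero, ENNReal.rpow_zero, sub_zero, Real.rpow_ofNat] at hb
    calc _ ≤ ∫⁻ u, (Metric.closedBall (P.U b t x) (c * P.el t x ^ 24)).indicator
          (fun u => ENNReal.ofReal (2 * P.C / P.el t x ^ 71) * 1) u := by
          refine lintegral_mono fun u => ?_
          by_cases hu : P.Ehi r b t x u = 0
          · simp [hu]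
          · rw [indicator_of_mem (s := Metric.closedBall (P.U b t x) (c * P.el t x ^ 24))
              (mem_closedBall_iff_norm.2 (hw u hu).cc), mul_one]
            exact (h2 b t x u ht.le).2.2
      _ ≤ ENNReal.ofReal (2 * P.C / P.el t x ^ 71) *
            (K * ENNReal.ofReal ((c * P.el t x ^ 24) ^ 3)) := by
          rw [lintegral_indicator measurableSet_closedBall,
            lintegral_const_mul' _ _ ENNReal.ofReal_ne_top]
          exact mul_le_mul' le_rfl hb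
      _ ≤ _ := by
          rw [← ENNReal.ofReal_coe_nnreal, ← ENNReal.ofReal_mul K.coe_nonneg,
            ← ENNReal.ofReal_mul (by positivity)]
          refine ENNReal.ofReal_le_ofReal (le_trans ?_ e3)
          calc _ = 2 * P.C * (K * c ^ 3) * P.el t x := by field_simp
            _ ≤ _ := by gcongr
  refine (h1 b t x v ht _ _ (P.meas_Ehi r b).1 hle hm).trans ?_
  rw [← ENNReal.ofReal_ofNat 4, ← ENNReal.ofReal_mul (by norm_num),
    ← ENNReal.ofReal_add (by positivity) (by positivity)]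
  exact mul_le_mul' (ENNReal.ofReal_le_ofReal (by linarith)) le_rfl

theorem Cm_Ecc_supp (h : P.OK) {e' : ℝ} (he : 0 < e') : ∀ᶠ r in 𝓝[>] (0 : ℝ), ∀ b t x v, 0 ≤ t →
    Cm (P.Ecc r b) t x v ≠ 0 → ry x ≤ 3 * t + e' := by
  filter_upwards [Ecc_le h, Wg_supp h he] with r h1 h2 b t x v ht h0
  obtain ⟨u, hu⟩ := C3_Cm_ne h0
  exact (h2 _ le_rfl b t x u ht ((h1 b t x u ht).1 hu)).2.2.2.1

theorem C3_Ecc (h : P.OK) {e' : ℝ} (he : 0 < e') : ∀ᶠ r in 𝓝[>] (0 : ℝ), ∀ b t x v, 0 < t →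
    Cm (P.Ecc r b) t x v ≤
      ENNReal.ofReal (16 * (P.rho0 t x * (P.chi b t x + e')) + 17 * e') * (1 + P.sgc b t x v) := by
  filter_upwards [Cm_E0c h he, Cm_Ehi h he] with r h1 h2 b t x v ht
  have a1 := h.rho0_nonneg ht.le x
  have a2 := P.chi_nonneg b t x
  unfold Ecc
  rw [Cm_add (P.meas_E0c r b).1 (P.meas_Ehi r b).1]
  refine (add_le_add (h1 b t x v ht) (h2 b t x v ht)).trans (le_of_eq ?_)
  rw [← add_mul, ← ENNReal.ofReal_add (by positivity) he.le]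
  congr 2
  ring

theorem C3_Ecc' (h : P.OK) {e' : ℝ} (he : 0 < e') : ∀ᶠ r in 𝓝[>] (0 : ℝ), ∀ b t x v, 0 < t →
    Cm (P.Ecc r b) t x v ≤ ENNReal.ofReal (16 * P.rho0 t x + e') * (1 + P.sgc b t x v) := by
  filter_upwards [C3_Ecc h (lt_min (half_pos one_pos) (by positivity : 0 < e' / 17))]
    with r h1 b t x v ht
  have a1 := h.rho0_nonneg ht.le x
  have a2 := P.chi_le b t x
  have a3 := min_le_left (1 / 2) (e' / 17)
  have a4 := min_le_right (1 / 2) (e' / 17)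
  refine (h1 b t x v ht).trans (mul_le_mul' (ENNReal.ofReal_le_ofReal ?_) le_rfl)
  have a5 : P.rho0 t x * (P.chi b t x + min (1 / 2) (e' / 17)) ≤ P.rho0 t x * 1 := by
    gcongr
    linarith
  linarith

theorem C3_Ecal (P : CP) (r : ℝ) : Cm (P.Ecal r) = perz fun b => Cm (P.Ecc r b) :=
  Cm_perz fun b => (P.meas_Ecc r b).1

theorem C3_supp (h : P.OK) : ∀ᶠ r in 𝓝[>] (0 : ℝ), ∀ t ∈ Ioc 0 P.t₁, ∀ v b y,
    Cm (P.Ecc r b) t y v ≠ 0 → ry y ≤ 1 / 4 := by
  filter_upwards [Cm_Ecc_supp h (by norm_num : (0 : ℝ) < 1 / 5)] with r h1 t ht v b y h0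
  have := h1 b t y v ht.1.le h0
  linarith [ht.2, h.t₁_le]

theorem C3_two (a : ℝ) : 2 * ENNReal.ofReal a = ENNReal.ofReal (2 * a) := by
  rw [ENNReal.ofReal_mul (by norm_num), ENNReal.ofReal_ofNat]

/-- Near the central line. -/
theorem Cm_center (h : P.OK) {e' : ℝ} (he : 0 < e') : ∀ᶠ r in 𝓝[>] (0 : ℝ), ∀ t ∈ Ioc 0 P.t₁, ∀ x,
    ry x ≤ 1 / 2 → ∀ c : ℝ, (∀ b, P.chi b t x ≤ c) → ∀ v, Cm (P.Ecal r) t x v ≤
      ENNReal.ofReal (32 * (P.rho0 t x * (c + e') + e')) * P.om t x v := by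
  filter_upwards [C3_Ecc h (half_pos he), C3_supp h] with r h1 h2 t ht x hx c hc v
  have a1 := h.rho0_nonneg ht.1.le x
  have hb : ∀ b, Cm (P.Ecc r b) t x v ≤
      ENNReal.ofReal (16 * (P.rho0 t x * (c + e') + e')) * P.om t x v := by
    intro b
    refine (h1 b t x v ht.1).trans (mul_le_mul' (ENNReal.ofReal_le_ofReal ?_) ?_)
    · have a2 : P.rho0 t x * (P.chi b t x + e' / 2) ≤ P.rho0 t x * (c + e') := by
        gcongr
        · exact hc b
        · linarith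
      linarith
    · rw [om_eq ht.1 ht.2]
      have := le_perz P.sgc b 0 t x v
      rw [lat_zero, sub_zero] at this
      exact add_le_add le_rfl this
  rw [C3_Ecal, perz_eq_of_near (k := 0) (h2 t ht v) (by rw [lat_zero, sub_zero]; linarith),
    lat_zero, sub_zero]
  refine (add_le_add (hb _) (hb _)).trans (le_of_eq ?_)
  rw [← two_mul, ← mul_assoc, C3_two]
  congr 2
  ring

theorem Cm_zero (h : P.OK) {e' : ℝ} (he : 0 < e') : ∀ᶠ r in 𝓝[>] (0 : ℝ), ∀ t x v, 0 ≤ t →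
    3 * t + e' < dd x → Cm (P.Ecal r) t x v = 0 := by
  filter_upwards [Cm_Ecc_supp h he] with r h1 t x v ht hx
  rw [C3_Ecal]
  exact perz_eq_zero (fun b y => h1 b t y v ht) hx

theorem Cm_le_t (h : P.OK) : ∀ᶠ r in 𝓝[>] (0 : ℝ), ∀ t ∈ Ioc 0 P.t₁, ∀ x v,
    Cm (P.Ecal r) t x v ≤ ENNReal.ofReal (64 * (P.C * P.L / t)) * P.om t x v := by
  filter_upwards [C3_Ecc' h one_pos, C3_supp h] with r h1 h2 t ht x v
  rw [C3_Ecal]
  refine (perz_le_om' h ht.1 ht.2 (j := ENNReal.ofReal (32 * (P.C * P.L / t))) (h2 t ht v) x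
    fun b y _ => (h1 b t y v ht.1).trans (mul_le_mul' (ENNReal.ofReal_le_ofReal ?_) le_rfl)).trans
    (le_of_eq ?_)
  · have a1 := h.rho0_le ht.1 y
    have a2 : 1 ≤ P.C * P.L / t := by
      rw [le_div_iff₀ ht.1]
      have := one_le_mul_of_one_le_of_one_le h.one_le_C h.one_le_L
      linarith [ht.2, h.t₁_le]
    linarith
  · rw [C3_two]
    congr 2
    ring

theorem Cm_le_dd (h : P.OK) : ∀ᶠ r in 𝓝[>] (0 : ℝ), ∀ t ∈ Ioc 0 P.t₁, ∀ x v,
    ENNReal.ofReal (dd x) * Cm (P.Ecal r) t x v ≤ ENNReal.ofReal (64 * P.C) * P.om t x v := by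
  filter_upwards [C3_Ecc' h one_pos, C3_supp h] with r h1 h2 t ht x v
  have e : ENNReal.ofReal (dd x) * Cm (P.Ecal r) t x v =
      perz (fun b t y v => ENNReal.ofReal (dd x) * Cm (P.Ecc r b) t y v) t x v := by
    rw [C3_Ecal]
    exact ENNReal.tsum_mul_left.symm
  rw [e]
  refine (perz_le_om' h ht.1 ht.2 (j := ENNReal.ofReal (32 * P.C))
    (fun b y h0 => h2 t ht v b y (right_ne_zero_of_mul h0)) x fun b y hy => ?_).trans (le_of_eq ?_)
  · refine (mul_le_mul' le_rfl (h1 b t y v ht.1)).trans ?_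
    rw [← mul_assoc, ← ENNReal.ofReal_mul (dd_nonneg x)]
    refine mul_le_mul' (ENNReal.ofReal_le_ofReal ?_) le_rfl
    have a1 := h.rho0_mul_ry ht.1.le y
    have a2 := dd_le_one x
    have a3 := h.one_le_C
    rw [hy] at a1
    linarith
  · rw [C3_two]
    congr 2
    ring

theorem Cm_le_T (h : P.OK) {e' : ℝ} (he : 0 < e') : ∀ᶠ r in 𝓝[>] (0 : ℝ), ∀ t ∈ Ioc 0 P.t₁, ∀ x v,
    Cm (P.Ecal r) t x v ≤ ENNReal.ofReal (64 * (P.C * P.L * P.T / t ^ 2) + e') * P.om t x v := by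
  filter_upwards [C3_Ecc' h (half_pos he), C3_supp h] with r h1 h2 t ht x v
  rw [C3_Ecal]
  refine (perz_le_om' h ht.1 ht.2
    (j := ENNReal.ofReal (32 * (P.C * P.L * P.T / t ^ 2) + e' / 2)) (h2 t ht v) x
    fun b y _ => (h1 b t y v ht.1).trans (mul_le_mul' (ENNReal.ofReal_le_ofReal ?_) le_rfl)).trans
    (le_of_eq ?_)
  · have a1 := h.rho0_le'' ht.1 y
    have a2 := h.rho0_nonneg ht.1.le y
    linarith
  · rw [C3_two]
    congr 2
    ring

theorem Cm_hi (h : P.OK) {e' : ℝ} (he : 0 < e') : ∀ᶠ r in 𝓝[>] (0 : ℝ), ∀ t ∈ Ioc 0 P.t₁, ∀ x v,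
    Cm (perz (P.Ehi r)) t x v ≤ ENNReal.ofReal e' * P.om t x v := by
  filter_upwards [Cm_Ehi h (half_pos he), C3_supp h] with r h1 h2 t ht x v
  rw [Cm_perz fun b => (P.meas_Ehi r b).1]
  refine (perz_le_om' h ht.1 ht.2 (j := ENNReal.ofReal (e' / 2)) (fun b y h0 => h2 t ht v b y ?_) x
    fun b y _ => h1 b t y v ht.1).trans (le_of_eq ?_)
  · intro h'
    exact h0 (le_antisymm (h' ▸ Cm_mono (E' := P.Ecc r b) (fun u => le_add_self) v) zero_le)
  · rw [C3_two]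
    congr 2
    ring

/-- `perz_le_om`. -/
theorem Cm_long (h : P.OK) {e' : ℝ} (he : 0 < e') : ∀ᶠ r in 𝓝[>] (0 : ℝ), ∀ t, 0 < t → ∀ x v,
    ENNReal.ofReal (P.del t) * Cm (P.Ecal r) t x v ≤
      ENNReal.ofReal (√(P.del t) * (16 * N0 * (P.C * P.L * P.T / t ^ 2) + e')) * P.om t x v := by
  have hN : (0 : ℝ) < N0 := by
    have : (2 : ℝ) ≤ N0 := by exact_mod_cast two_le_N0
    linarith
  filter_upwards [C3_Ecc' h (div_pos he hN), Cm_Ecc_supp h (half_pos one_pos)]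
    with r h1 h2 t ht x v
  rw [C3_Ecal]
  refine (perz_le_om h ht (j := ENNReal.ofReal (16 * (P.C * P.L * P.T / t ^ 2) + e' / N0))
    (fun b y => h2 b t y v ht.le)
    (fun b y => (h1 b t y v ht).trans (mul_le_mul' (ENNReal.ofReal_le_ofReal ?_) le_rfl)) x).trans
    (le_of_eq ?_)
  · have a1 := h.rho0_le'' ht y
    linarith
  · rw [← ENNReal.ofReal_coe_nnreal, ← ENNReal.ofReal_mul hN.le,
      ← ENNReal.ofReal_mul (by positivity)]
    congr 2
    field_simp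

/-- From the moment to the collision frequency: take `v` large in `Cm` (`om = 1`), `ls_le_br`. -/
theorem ls_le_of_Cm (h : P.OK) {E : Fn} (hE : Meas E) {t : ℝ} {x : R3} {c j : ℝ≥0∞}
    (hs : ∀ u, E t x u ≠ 0 → ‖u‖ ≤ 2) (hj : ∀ v, c * Cm E t x v ≤ j * P.om t x v) (v : R3) :
    c * ls (E t x) v ≤ 72 * j * br v := by
  have h1 : c * ∫⁻ u, E t x u ≤ j := by
    have a := hj ((5 : ℝ) • e1)
    rw [om_eq_one h (by rw [norm_smul, norm_e1]; norm_num), mul_one] at a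
    exact (mul_le_mul' le_rfl (mass_le_Cm E t x _)).trans a
  have h2 : ∫⁻ u, br u * E t x u ≤ 3 * ∫⁻ u, E t x u := by
    rw [← lintegral_const_mul _ (C3_meas hE t x)]
    refine lintegral_mono fun u => ?_
    by_cases hu : E t x u = 0
    · simp [hu]
    · refine mul_le_mul' ?_ le_rfl
      rw [br, ← ENNReal.ofReal_ofNat 3]
      exact ENNReal.ofReal_le_ofReal (by linarith [hs u hu])
  calc _ ≤ c * (24 * br v * (3 * ∫⁻ u, E t x u)) :=
        mul_le_mul' le_rfl ((ls_le_br (C3_meas hE t x) v).trans (mul_le_mul' le_rfl h2))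
    _ = 72 * (c * ∫⁻ u, E t x u) * br v := by ring
    _ ≤ _ := by gcongr

end CP

end Crest.Agent.R68
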