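/-
R68/C4: collisions inside the cold gas: closure of the generations
Skeleton by helper76 (row 68); keep the statements unchanged, add any helper lemmas you like.
-/
import Crest.Agent.R68.C2

set_option autoImplicit false
set_option linter.unusedVariables false
set_option linter.unusedSectionVars false

noncomputable section

namespace Crest.Agent.R68

open MeasureTheory Set Filter Topology
open scoped ENNReal NNReal
open Crest.AnalysisR.VecCalc3 Crest.AnalysisR.PDE.Boltzmann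

theorem C4_gn_ne {f g : R3 → ℝ≥0∞} {v : R3} (h : gn f g v ≠ 0) :
    ∃ vs w : R3, ‖w‖ = 1 ∧ f (postVel v vs w) ≠ 0 ∧ g (postVelStar v vs w) ≠ 0 := by
  by_contra hc
  push Not at hc
  apply h
  unfold gn
  have : ∀ vs : R3, ∫⁻ w, cw v vs w * (f (postVel v vs w) * g (postVelStar v vs w)) ∂sphereMeasure = 0 := by
    intro vs
    rw [← lintegral_zero (μ := sphereMeasure)]
    refine lintegral_congr_ae ?_
    filter_upwards [ae_norm_sphere] with w hw
    by_cases hf : f (postVel v vs w) = 0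
    · simp [hf]
    · simp [hc vs w hw hf]
  simp [this]

theorem C4_vol (U : R3) {R : ℝ} (hR : 0 ≤ R) :
    volume (Metric.closedBall U R) ≤ ENNReal.ofReal (5 * R ^ 3) := by
  rw [EuclideanSpace.volume_closedBall_fin_three, ← ENNReal.ofReal_pow hR,
    ← ENNReal.ofReal_mul (by positivity)]
  refine ENNReal.ofReal_le_ofReal ?_
  have := Real.pi_lt_d2
  have h3 : 0 ≤ R ^ 3 := by positivity
  nlinarith

theorem C4_ev (K : ℝ) {c : ℝ} (hc : 0 < c) : ∀ᶠ r in 𝓝[>] (0 : ℝ), 0 < r ∧ K * r ≤ c := by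
  have h1 : Tendsto (fun r : ℝ => K * r) (𝓝 0) (𝓝 (K * 0)) := tendsto_id.const_mul K
  rw [mul_zero] at h1
  have h2 := (h1.eventually (ge_mem_nhds hc)).filter_mono (nhdsWithin_le_nhds (s := Ioi (0 : ℝ)))
  filter_upwards [h2, self_mem_nhdsWithin] with r a b using ⟨b, a⟩

theorem C4_ls_ball {g : R3 → ℝ≥0∞} {U v : R3} {R D : ℝ} (hR : 0 ≤ R) {B : ℝ≥0∞}
    (hg : ∀ u, g u ≤ B) (sg : ∀ u, g u ≠ 0 → ‖u - U‖ ≤ R) (hv : ‖v - U‖ ≤ D) :
    ls g v ≤ B * ENNReal.ofReal (120 * (D + R) * R ^ 3) := by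
  have hD : 0 ≤ D := (norm_nonneg _).trans hv
  calc ls g v ≤ ∫⁻ vs, (Metric.closedBall U R).indicator
        (fun _ => ENNReal.ofReal (D + R) * B * 24) vs := by
        refine lintegral_mono fun vs => ?_
        by_cases h0 : g vs = 0
        · simp [h0]
        have hm : vs ∈ Metric.closedBall U R := by
          rw [Metric.mem_closedBall, dist_eq_norm]; exact sg vs h0
        rw [indicator_of_mem hm]
        calc ∫⁻ w, cw v vs w * g vs ∂sphereMeasure
            ≤ ∫⁻ w, ENNReal.ofReal (D + R) * B ∂sphereMeasure := by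
              refine lintegral_mono_ae ?_
              filter_upwards [ae_norm_sphere] with w hw
              refine mul_le_mul' ((cw_le hw v vs).trans ?_) (hg vs)
              rw [← ofReal_norm]
              refine ENNReal.ofReal_le_ofReal ?_
              calc ‖v - vs‖ = ‖(v - U) - (vs - U)‖ := by congr 1; abel
                _ ≤ ‖v - U‖ + ‖vs - U‖ := norm_sub_le _ _
                _ ≤ D + R := add_le_add hv (sg vs h0)
          _ ≤ _ := by
              rw [lintegral_const]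
              exact mul_le_mul_right sphere_univ_le _
    _ = ENNReal.ofReal (D + R) * B * 24 * volume (Metric.closedBall U R) := by
        rw [lintegral_indicator_const measurableSet_closedBall]
    _ ≤ ENNReal.ofReal (D + R) * B * 24 * ENNReal.ofReal (5 * R ^ 3) :=
        mul_le_mul_right (C4_vol U hR) _
    _ = _ := by
        have : (24 : ℝ≥0∞) = ENNReal.ofReal 24 := by simp
        rw [this, show 120 * (D + R) * R ^ 3 = (D + R) * (24 * (5 * R ^ 3)) by ring,
          ENNReal.ofReal_mul (p := D + R) (by positivity), ENNReal.ofReal_mul (p := 24) (by positivity)]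
        ring

/-- `post_energy` in the frame `U`: `‖v - U‖² + ‖v⁎ - U‖² ≤ 2 R²`. -/
theorem gn_ball {f g : R3 → ℝ≥0∞} {U : R3} {R : ℝ} (hR : 0 ≤ R) {A B : ℝ≥0∞}
    (hf : ∀ u, f u ≤ A) (hg : ∀ u, g u ≤ B) (sf : ∀ u, f u ≠ 0 → ‖u - U‖ ≤ R)
    (sg : ∀ u, g u ≠ 0 → ‖u - U‖ ≤ R) (v : R3) :
    gn f g v ≤ A * B * ENNReal.ofReal (10 ^ 4 * R ^ 4) ∧
      (gn f g v ≠ 0 → ‖v - U‖ ≤ 2 * R ∧ (∃ u, f u ≠ 0) ∧ ∃ u, g u ≠ 0) := by
  have key : ∀ vs w : R3, ‖w‖ = 1 → f (postVel v vs w) ≠ 0 → g (postVelStar v vs w) ≠ 0 →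
      ‖v - U‖ ≤ 2 * R ∧ ‖vs - U‖ ≤ 2 * R := by
    intro vs w hw h1 h2
    have e := post_energy hw v vs U
    have a1 := sf _ h1
    have a2 := sg _ h2
    have b1 := pow_le_pow_left₀ (norm_nonneg _) a1 2
    have b2 := pow_le_pow_left₀ (norm_nonneg _) a2 2
    have n1 := sq_nonneg ‖v - U‖
    have n2 := sq_nonneg ‖vs - U‖
    have n3 := sq_nonneg R
    constructor
    · exact abs_le_of_sq_le_sq' (by nlinarith) (by positivity) |>.2
    · exact abs_le_of_sq_le_sq' (by nlinarith) (by positivity) |>.2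
  refine ⟨?_, fun h => ?_⟩
  · calc gn f g v ≤ ∫⁻ vs, (Metric.closedBall U (2 * R)).indicator
          (fun _ => ENNReal.ofReal (4 * R) * (A * B) * 24) vs := by
          refine lintegral_mono fun vs => ?_
          by_cases hm : vs ∈ Metric.closedBall U (2 * R)
          · rw [indicator_of_mem hm]
            calc ∫⁻ w, cw v vs w * (f (postVel v vs w) * g (postVelStar v vs w)) ∂sphereMeasure
                ≤ ∫⁻ w, ENNReal.ofReal (4 * R) * (A * B) ∂sphereMeasure := by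
                  refine lintegral_mono_ae ?_
                  filter_upwards [ae_norm_sphere] with w hw
                  by_cases h1 : f (postVel v vs w) = 0
                  · simp [h1]
                  by_cases h2 : g (postVelStar v vs w) = 0
                  · simp [h2]
                  obtain ⟨k1, k2⟩ := key vs w hw h1 h2
                  refine mul_le_mul' ((cw_le hw v vs).trans ?_) (mul_le_mul' (hf _) (hg _))
                  rw [← ofReal_norm]
                  refine ENNReal.ofReal_le_ofReal ?_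
                  calc ‖v - vs‖ = ‖(v - U) - (vs - U)‖ := by congr 1; abel
                    _ ≤ ‖v - U‖ + ‖vs - U‖ := norm_sub_le _ _
                    _ ≤ 4 * R := by linarith
              _ ≤ _ := by
                  rw [lintegral_const]
                  exact mul_le_mul_right sphere_univ_le _
          · rw [indicator_of_notMem hm]
            refine le_of_eq ?_
            rw [← lintegral_zero (μ := sphereMeasure)]
            refine lintegral_congr_ae ?_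
            filter_upwards [ae_norm_sphere] with w hw
            by_cases h1 : f (postVel v vs w) = 0
            · simp [h1]
            by_cases h2 : g (postVelStar v vs w) = 0
            · simp [h2]
            exact absurd (by rw [Metric.mem_closedBall, dist_eq_norm]; exact (key vs w hw h1 h2).2) hm
      _ = ENNReal.ofReal (4 * R) * (A * B) * 24 * volume (Metric.closedBall U (2 * R)) := by
          rw [lintegral_indicator_const measurableSet_closedBall]
      _ ≤ ENNReal.ofReal (4 * R) * (A * B) * 24 * ENNReal.ofReal (5 * (2 * R) ^ 3) :=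
          mul_le_mul_right (C4_vol U (by positivity)) _
      _ = A * B * ENNReal.ofReal (4 * R * (24 * (5 * (2 * R) ^ 3))) := by
          have : (24 : ℝ≥0∞) = ENNReal.ofReal 24 := by simp
          rw [this, ENNReal.ofReal_mul (p := 4 * R) (by positivity),
            ENNReal.ofReal_mul (p := 24) (by positivity)]
          ring
      _ ≤ _ := by
          refine mul_le_mul_right (ENNReal.ofReal_le_ofReal ?_) _
          have : 0 ≤ R ^ 4 := by positivity
          nlinarith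
  · obtain ⟨vs, w, hw, h1, h2⟩ := C4_gn_ne h
    exact ⟨(key vs w hw h1 h2).1, ⟨_, h1⟩, ⟨_, h2⟩⟩

theorem gn_supp {f g : R3 → ℝ≥0∞} (sf : ∀ u, f u ≠ 0 → ‖u‖ ≤ 2) (sg : ∀ u, g u ≠ 0 → ‖u‖ ≤ 2) {v : R3}
    (h : gn f g v ≠ 0) : ‖v‖ ≤ 3 := by
  obtain ⟨vs, w, hw, h1, h2⟩ := C4_gn_ne h
  have e := post_energy' hw v vs
  have b1 := pow_le_pow_left₀ (norm_nonneg _) (sf _ h1) 2
  have b2 := pow_le_pow_left₀ (norm_nonneg _) (sg _ h2) 2
  have n2 := sq_nonneg ‖vs‖
  exact abs_le_of_sq_le_sq' (by nlinarith) (by positivity) |>.2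

namespace CP

variable {P : CP}

theorem C4_amp_ne {r : ℝ} {g : ℕ} {b : Bool} {t : ℝ} {x v : R3} (h : P.amp r g b t x v ≠ 0) :
    P.Wg r g b t x v := by
  by_contra hc
  exact h (by simp [amp, hc])

theorem C4_amp_le (r : ℝ) (g : ℕ) (b : Bool) (t : ℝ) (x v : R3) :
    P.amp r g b t x v ≤ ENNReal.ofReal (P.C * P.el t x ^ (2 * g) / P.el t x ^ 73) := by
  unfold amp
  split_ifs
  · exact le_rfl
  · exact zero_le

theorem C4_pow_le {l : ℝ} (h0 : 0 ≤ l) (h1 : l ≤ 1) {n : ℕ} (hn : n ≠ 0) : l ^ n ≤ l :=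
  pow_le_of_le_one h0 h1 hn

theorem C4_size {C M l l' η : ℝ} {g₁ g₂ G : ℕ} (hC : 0 ≤ C) (hM : 0 ≤ M) (hl : 0 < l) (hl' : 0 < l')
    (h1 : l ≤ 2 * l') (h2 : l' ≤ 2 * l) (h3 : l' ≤ 1) (hg : g₁ + g₂ ≤ G)
    (hη : C * 10 ^ 4 * M ^ 4 * 4 ^ G * 2 ^ 50 * l' ≤ η) :
    C * l ^ (2 * g₁) / l ^ 73 * (C * l ^ (2 * g₂) / l ^ 73) * (10 ^ 4 * (M * l ^ 24) ^ 4) ≤
      η * (C * l' ^ (2 * (g₁ + g₂ + 1)) / l' ^ 73) := by
  have e1 : C * l ^ (2 * g₁) / l ^ 73 * (C * l ^ (2 * g₂) / l ^ 73) * (10 ^ 4 * (M * l ^ 24) ^ 4) =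
      C * (C * 10 ^ 4 * M ^ 4) * (l ^ (2 * (g₁ + g₂)) * (1 / l ^ 50)) := by
    rw [mul_add, pow_add]; field_simp
  have e2 : C * l' ^ (2 * (g₁ + g₂ + 1)) / l' ^ 73 = C * (l' ^ (2 * (g₁ + g₂)) / l' ^ 71) := by
    rw [mul_add 2 (g₁ + g₂) 1, pow_add]; field_simp
  have a1 : l ^ (2 * (g₁ + g₂)) ≤ 4 ^ G * l' ^ (2 * (g₁ + g₂)) := by
    calc l ^ (2 * (g₁ + g₂)) ≤ (2 * l') ^ (2 * (g₁ + g₂)) := pow_le_pow_left₀ hl.le h1 _
      _ = 4 ^ (g₁ + g₂) * l' ^ (2 * (g₁ + g₂)) := by rw [mul_pow, pow_mul]; norm_num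
      _ ≤ _ := mul_le_mul_of_nonneg_right (pow_le_pow_right₀ (by norm_num) hg) (by positivity)
  have a2 : 1 / l ^ 50 ≤ 2 ^ 50 * l' * (1 / l' ^ 71) := by
    have b1 : l' ^ 50 ≤ 2 ^ 50 * l ^ 50 := by
      rw [← mul_pow]; exact pow_le_pow_left₀ hl'.le h2 _
    have b2 : l' ^ 21 ≤ l' := C4_pow_le hl'.le h3 (by norm_num)
    calc 1 / l ^ 50 = 2 ^ 50 / (2 ^ 50 * l ^ 50) := by field_simp
      _ ≤ 2 ^ 50 / l' ^ 50 := div_le_div_of_nonneg_left (by positivity) (by positivity) b1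
      _ = 2 ^ 50 * l' ^ 21 * (1 / l' ^ 71) := by field_simp
      _ ≤ _ := by gcongr
  rw [e1, e2]
  calc C * (C * 10 ^ 4 * M ^ 4) * (l ^ (2 * (g₁ + g₂)) * (1 / l ^ 50))
      ≤ C * (C * 10 ^ 4 * M ^ 4) * ((4 ^ G * l' ^ (2 * (g₁ + g₂))) * (2 ^ 50 * l' * (1 / l' ^ 71))) := by
        gcongr
    _ = (C * 10 ^ 4 * M ^ 4 * 4 ^ G * 2 ^ 50 * l') * (C * (l' ^ (2 * (g₁ + g₂)) / l' ^ 71)) := by ring
    _ ≤ _ := by gcongr

/-- One collision at time `s` and free flight until `t`.  With `g' = max g₁ g₂` both inputs lie in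
the ball of radius `R = (32 L) ^ (g' + 1) th` around `U` (`Wg.mono`); `gn_ball`; then `kin_cc`,
`kin_lt`, `abs_osc_sub` show that the output is in `Wg (g₁ + g₂ + 1)` at time `t` (each margin is a
fixed positive number, the errors tend to `0` with `r`; `el s / el t → 1`).  The size is
`C² el ^ (2 (g₁ + g₂) - 146 + 96)` against `C el ^ (2 (g₁ + g₂ + 1) - 73)`. -/
theorem pa_GN_Eg (h : P.OK) {η : ℝ≥0} (hη : 0 < η) : ∀ᶠ r in 𝓝[>] (0 : ℝ), ∀ g₁ g₂, g₁ + g₂ < P.G →
    ∀ b s t x v, 0 < s → s ≤ t →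
      pa (GN (P.Eg r g₁ b) (P.Eg r g₂ b)) t x v s ≤ η * P.amp r (g₁ + g₂ + 1) b t x v := by
  have hL := h.one_le_L
  have hC := h.one_le_C
  have hα := h.α_pos
  have hα' := h.α_le
  have hT := h.T_pos
  have hT' := h.T_le'
  have hG1 : (0 : ℝ) < P.G + 1 := by positivity
  set M : ℝ := (32 * P.L) ^ P.G with hM
  have hM1 : 1 ≤ M := one_le_pow₀ (by linarith)
  set κ : ℝ := P.α / (8 * (P.G + 1)) with hκ
  have hκ0 : 0 < κ := by positivity
  have hκ1 : κ * (P.G + 1) ≤ 1 / 320 := by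
    rw [hκ]; field_simp; linarith
  have hκ2 : κ ≤ 1 / 320 := by
    have : (0 : ℝ) ≤ P.G := by positivity
    nlinarith
  filter_upwards [Eg_le_amp h, C4_ev (4 * M) hκ0, C4_ev 4 one_pos,
    C4_ev (P.C * 10 ^ 4 * M ^ 4 * 4 ^ P.G * 2 ^ 50 * 4) (show (0 : ℝ) < η from hη)]
    with r hE ⟨hr, hr1⟩ ⟨_, hr2⟩ ⟨_, hr3⟩
  intro g₁ g₂ hg b s t x v hs hst
  set y := x - (t - s) • v with hy
  change gn (P.Eg r g₁ b s y) (P.Eg r g₂ b s y) v ≤ _
  set l := P.el s y with hl
  set l' := P.el t x with hl'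
  set g := g₁ + g₂ with hgd
  have w1 : ∀ u, P.Eg r g₁ b s y u ≠ 0 → P.Wg r g b s y u := fun u hu =>
    (C4_amp_ne fun h0 => hu (le_antisymm ((hE g₁ b s y u hs.le).trans h0.le) zero_le)).mono h hr.le
      (by omega)
  have w2 : ∀ u, P.Eg r g₂ b s y u ≠ 0 → P.Wg r g b s y u := fun u hu =>
    (C4_amp_ne fun h0 => hu (le_antisymm ((hE g₂ b s y u hs.le).trans h0.le) zero_le)).mono h hr.le
      (by omega)
  set R : ℝ := (32 * P.L) ^ (g + 1) * P.th s y with hR
  have hR0 : 0 ≤ R := mul_nonneg (by positivity) (P.th_nonneg s y)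
  obtain ⟨k1, k2⟩ := gn_ball (U := P.U b s y) hR0
    (fun u => (hE g₁ b s y u hs.le).trans (C4_amp_le r g₁ b s y u))
    (fun u => (hE g₂ b s y u hs.le).trans (C4_amp_le r g₂ b s y u))
    (fun u hu => (w1 u hu).cc) (fun u hu => (w2 u hu).cc) v
  by_cases h0 : gn (P.Eg r g₁ b s y) (P.Eg r g₂ b s y) v = 0
  · rw [h0]; exact zero_le
  obtain ⟨k3, ⟨u, hu⟩, -⟩ := k2 h0
  have W := w1 u hu
  have hgG : ((g : ℝ) + 1) ≤ P.G := by exact_mod_cast hg
  have l0 : 0 < l := W.pos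
  have hq : ((g : ℝ) + 1) / (P.G + 1) ≤ 1 := by rw [div_le_one hG1]; linarith
  have l1 : l ≤ 2 * r := by
    have := W.le
    nlinarith
  have l2 : l ≤ 1 := by linarith
  have hRM : R ≤ M * l ^ 24 := by
    refine mul_le_mul_of_nonneg_right (pow_le_pow_right₀ (by linarith) hg) (P.th_nonneg s y)
  have hR1 : 2 * R ≤ κ * l := by
    have b1 : l ^ 23 ≤ l := C4_pow_le l0.le l2 (by norm_num)
    have b2 : M * l ^ 24 = M * l ^ 23 * l := by ring
    have b3 : M * l ^ 23 ≤ M * (2 * r) := mul_le_mul_of_nonneg_left (b1.trans l1) (by linarith)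
    have b4 : M * l ^ 23 * l ≤ M * (2 * r) * l := mul_le_mul_of_nonneg_right b3 l0.le
    have b5 : 4 * M * r * l ≤ κ * l := mul_le_mul_of_nonneg_right hr1 l0.le
    nlinarith
  have hκl : κ * l ≤ κ := by nlinarith
  have hd : |l - l'| ≤ κ * l := by
    have b1 := (kin_lt h hs.le hst b x v).1
    have b2 : |l' - l| ≤ |P.lt t x - P.lt s y| := abs_abs_sub_abs_le _ _
    rw [abs_sub_comm]
    have b3 : P.T * ‖v - P.U b s y‖ ≤ 1 * ‖v - P.U b s y‖ :=
      mul_le_mul_of_nonneg_right (by linarith) (norm_nonneg _)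
    linarith
  obtain ⟨d1, d2⟩ := abs_le.1 hd
  have hκl' : κ * l ≤ l / 320 := by nlinarith
  have l0' : 0 < l' := by linarith
  have hv3 : |c3 v| ≤ |c3 u| + 3 * R := by
    have b1 : c3 v = c3 u + c3 (v - u) := by rw [c3_sub]; ring
    have b2 : ‖v - u‖ ≤ ‖v - P.U b s y‖ + ‖u - P.U b s y‖ := by
      calc ‖v - u‖ = ‖(v - P.U b s y) - (u - P.U b s y)‖ := by congr 1; abel
        _ ≤ _ := norm_sub_le _ _
    have b3 := abs_c3_le_norm (v - u)
    have b4 := W.cc
    rw [b1]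
    refine (abs_add_le _ _).trans ?_
    linarith
  have hv3' : |c3 v| ≤ 1 + (((g + 1 : ℕ) : ℝ) + 1) / (2 * (P.G + 1)) := by
    have b1 := W.v3
    have b2 : (((g + 1 : ℕ) : ℝ) + 1) / (2 * (P.G + 1)) =
        ((g : ℝ) + 1) / (2 * (P.G + 1)) + 1 / (2 * (P.G + 1)) := by push_cast; ring
    have b3 : 2 * κ ≤ 1 / (2 * (P.G + 1)) := by
      rw [le_div_iff₀ (by positivity)]; nlinarith
    linarith
  have hW : P.Wg r (g + 1) b t x v := by
    refine ⟨l0', ?_, ?_, hv3', ?_⟩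
    · have b1 := W.le
      have b2 : r * (1 + (((g + 1 : ℕ) : ℝ) + 1) / (P.G + 1)) =
          r * (1 + ((g : ℝ) + 1) / (P.G + 1)) + r * (1 / (P.G + 1)) := by push_cast; ring
      have b3 : 2 * κ ≤ 1 / (P.G + 1) := by
        rw [le_div_iff₀ (by positivity)]; nlinarith
      have b4 : κ * l ≤ κ * (2 * r) := mul_le_mul_of_nonneg_left l1 hκ0.le
      have b5 : r * (2 * κ) ≤ r * (1 / (P.G + 1)) := mul_le_mul_of_nonneg_left b3 hr.le
      change l' ≤ _
      linarith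
    · have b1 := W.osc
      have b2 := h.abs_osc_sub b l0 (l' := l') (by linarith)
      have b3 : 2 * |l - l'| / (l * P.α) ≤ 1 / (4 * (P.G + 1)) := by
        rw [div_le_iff₀ (by positivity)]
        have : κ * l * 2 = 1 / (4 * (P.G + 1)) * (l * P.α) := by rw [hκ]; field_simp; norm_num
        linarith
      have b4 : (((g + 1 : ℕ) : ℝ) + 1) / (4 * (P.G + 1)) =
          ((g : ℝ) + 1) / (4 * (P.G + 1)) + 1 / (4 * (P.G + 1)) := by push_cast; ring
      have b5 := (abs_le.1 (b2.trans b3)).2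
      change _ ≤ P.osc b l'
      linarith
    · have b0 : (((g + 1 : ℕ) : ℝ) + 1) / (2 * (P.G + 1)) ≤ 1 := by
        rw [div_le_one (by positivity)]; push_cast; linarith
      have b1 := kin_cc h (b := b) (x := x) (v := v) hs.le hst (by positivity) (by linarith)
        (by linarith)
      have b2 : l ^ 24 ≤ 2 * l' ^ 24 := by
        have c1 : (1 - 1 / 320) * l ≤ l' := by linarith
        have c2 := pow_le_pow_left₀ (by positivity) c1 24
        rw [mul_pow] at c2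
        have c3 : (1 / 2 : ℝ) ≤ (1 - 1 / 320) ^ 24 := by norm_num
        have c4 : 0 ≤ l ^ 24 := by positivity
        nlinarith
      calc ‖v - P.U b t x‖ ≤ 8 * P.L * (2 * R) :=
            b1.trans (mul_le_mul_of_nonneg_left k3 (by positivity))
        _ = 16 * P.L * (32 * P.L) ^ (g + 1) * l ^ 24 := by rw [hR]; unfold th; ring
        _ ≤ 16 * P.L * (32 * P.L) ^ (g + 1) * (2 * l' ^ 24) := by gcongr
        _ = _ := by unfold th; ring
  have hamp : P.amp r (g + 1) b t x v =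
      ENNReal.ofReal (P.C * l' ^ (2 * (g + 1)) / l' ^ 73) := by simp [amp, hW, hl']
  rw [hamp]
  refine k1.trans ?_
  rw [← ENNReal.ofReal_mul (by positivity), ← ENNReal.ofReal_mul (by positivity),
    ← ENNReal.ofReal_coe_nnreal, ← ENNReal.ofReal_mul (by positivity)]
  refine ENNReal.ofReal_le_ofReal (le_trans ?_ (C4_size (M := M) (G := P.G) (by linarith)
    (by linarith) l0 l0' (by linarith) (by linarith) (by linarith) hg.le ?_))
  · gcongr
  · refine le_trans ?_ hr3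
    rw [mul_assoc _ 4 r]
    gcongr
    linarith

/-- At most `G` pairs have the same sum. -/
theorem pa_Psic (h : P.OK) {η : ℝ≥0} (hη : 0 < η) : ∀ᶠ r in 𝓝[>] (0 : ℝ),
    ∀ b s t x v, 0 < s → s ≤ t → pa (P.Psic r b) t x v s ≤ η * P.Ehi r b t x v := by
  have hp : (0 : ℝ≥0) < η / ((P.G + 1) * (P.G + 1)) := by positivity
  filter_upwards [pa_GN_Eg h hp] with r hr b s t x v hs hst
  set η' : ℝ≥0 := η / ((P.G + 1) * (P.G + 1)) with hη'
  have e : pa (P.Psic r b) t x v s = ∑ g₁ ∈ Finset.range P.G, ∑ g₂ ∈ Finset.range (P.G - g₁),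
      pa (GN (P.Eg r g₁ b) (P.Eg r g₂ b)) t x v s := by
    simp only [pa, Psic, Finset.sum_apply]
  have k : ∀ g₁ ∈ Finset.range P.G, ∀ g₂ ∈ Finset.range (P.G - g₁),
      pa (GN (P.Eg r g₁ b) (P.Eg r g₂ b)) t x v s ≤ η' * P.Ehi r b t x v := by
    intro g₁ h1 g₂ h2
    rw [Finset.mem_range] at h1 h2
    refine (hr g₁ g₂ (by omega) b s t x v hs hst).trans (mul_le_mul_right ?_ _)
    simp only [Ehi, Finset.sum_apply]
    exact Finset.single_le_sum (f := fun g => P.amp r (g + 1) b t x v) (fun _ _ => zero_le)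
      (Finset.mem_range.2 (by omega : g₁ + g₂ < P.G))
  rw [e]
  calc _ ≤ ∑ g₁ ∈ Finset.range P.G, ((P.G + 1 : ℕ) : ℝ≥0∞) * (η' * P.Ehi r b t x v) := by
        refine Finset.sum_le_sum fun g₁ h1 => (Finset.sum_le_card_nsmul _ _ _ (k g₁ h1)).trans ?_
        rw [Finset.card_range, nsmul_eq_mul]
        exact mul_le_mul_left (by exact_mod_cast (by omega : P.G - g₁ ≤ P.G + 1)) _
    _ ≤ ((P.G + 1 : ℕ) : ℝ≥0∞) * (((P.G + 1 : ℕ) : ℝ≥0∞) * (η' * P.Ehi r b t x v)) := by
        rw [Finset.sum_const, Finset.card_range, nsmul_eq_mul]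
        exact mul_le_mul_left (by exact_mod_cast (by omega : P.G ≤ P.G + 1)) _
    _ = _ := by
        rw [← mul_assoc, ← mul_assoc]
        congr 1
        have : ((P.G + 1 : ℝ≥0) * (P.G + 1)) * η' = η := by
          rw [hη']; field_simp
        rw [← this]; push_cast; ring

/-- `lintegral_del`. -/
theorem E1_le (h : P.OK) : ∀ᶠ r in 𝓝[>] (0 : ℝ), P.E1 r ≤ perz (P.Ehi r) := by
  have hΛ : (0 : ℝ≥0) < P.Λ := lt_of_lt_of_le (by norm_num) h.Λ_ge
  have hnu := nu_pos
  set c : ℝ≥0 := (1 + 1 / nu).toNNReal with hc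
  have hc0 : 0 < c := Real.toNNReal_pos.2 (by positivity)
  have hp : (0 : ℝ≥0) < (P.Λ * c)⁻¹ := by positivity
  filter_upwards [pa_Psic h hp] with r hr t x v
  have k : ∀ s ∈ Ioc 0 t, pa (tm P.del * P.Psi r) t x v s ≤
      ENNReal.ofReal (P.del s) * (((P.Λ * c)⁻¹ : ℝ≥0) * perz (P.Ehi r) t x v) := by
    intro s hs
    change ENNReal.ofReal (P.del s) * pa (perz (P.Psic r)) t x v s ≤ _
    refine mul_le_mul_right ?_ _
    rw [pa_perz]
    unfold perz
    rw [← ENNReal.tsum_mul_left]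
    exact ENNReal.tsum_le_tsum fun i => hr i.1 s t _ v hs.1 hs.2
  change (P.Λ : ℝ≥0∞) * ∫⁻ s in Ioc 0 t, pa (tm P.del * P.Psi r) t x v s ≤ _
  calc (P.Λ : ℝ≥0∞) * ∫⁻ s in Ioc 0 t, pa (tm P.del * P.Psi r) t x v s
      ≤ P.Λ * ∫⁻ s in Ioc 0 t,
          ENNReal.ofReal (P.del s) * (((P.Λ * c)⁻¹ : ℝ≥0) * perz (P.Ehi r) t x v) :=
        mul_le_mul_right (setLIntegral_mono' measurableSet_Ioc k) _
    _ = P.Λ * ((∫⁻ s in Ioc 0 t, ENNReal.ofReal (P.del s)) *
          (((P.Λ * c)⁻¹ : ℝ≥0) * perz (P.Ehi r) t x v)) := by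
        rw [lintegral_mul_const _ P.continuous_del.measurable.ennreal_ofReal]
    _ ≤ P.Λ * (c * (((P.Λ * c)⁻¹ : ℝ≥0) * perz (P.Ehi r) t x v)) := by
        refine mul_le_mul_right (mul_le_mul_left ?_ _) _
        exact (lintegral_mono_set Ioc_subset_Ioi_self).trans h.lintegral_del
    _ = _ := by
        rw [← mul_assoc, ← mul_assoc, ← ENNReal.coe_mul, ← ENNReal.coe_mul,
          mul_inv_cancel₀ (by positivity)]
        simp

theorem Ec_le (h : P.OK) : ∀ᶠ r in 𝓝[>] (0 : ℝ), P.E0 r + P.E1 r ≤ P.Ecal r := by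
  filter_upwards [E1_le h] with r hr
  rw [Ecal_eq]
  exact add_le_add_right hr _

theorem reg_E1 (h : P.OK) : ∀ᶠ r in 𝓝[>] (0 : ℝ), Reg (P.E1 r) := by
  filter_upwards [Ec_le h, Ecal_ne_top h] with r hr hr'
  refine ⟨(P.meas_E1 r).1, (P.meas_E1 r).2, fun t x v => ?_⟩
  rcases le_or_gt 0 t with ht | ht
  · exact ne_top_of_le_ne_top (hr' t x v ht) (le_trans le_add_self (hr t x v))
  · have : P.E1 r t x v = 0 := by
      change (P.Λ : ℝ≥0∞) * ∫⁻ s in Ioc 0 t, pa (tm P.del * P.Psi r) t x v s = 0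
      rw [Ioc_eq_empty (by linarith)]
      simp
    simp [this]

/-- A cold particle hardly collides with the cold gas.  `kin_back` gives `‖v - U(s)‖ ≤ A el ^ 23`;
the mass of `Ecc b` at `(s, x_s)` is `O(el ^ (-1))` (`Ecc_le`); the other stripe is empty there
(`abs_osc_sub`). -/
theorem self_c (h : P.OK) {e' : ℝ} (he : 0 < e') : ∀ᶠ r in 𝓝[>] (0 : ℝ), ∀ b s t x v, 0 < s → s ≤ t →
    t ≤ 1 → P.Wg r P.G b t x v → ls (P.Ecc r b s (x - (t - s) • v)) v ≤ ENNReal.ofReal e' ∧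
      (∀ u, P.Ecc r (!b) s (x - (t - s) • v) u = 0) ∧ ry (x - (t - s) • v) ≤ 3 * s + e' := by
  have hL := h.one_le_L
  have hC := h.one_le_C
  have hα := h.α_pos
  have hα' := h.α_le
  have hT := h.T_pos
  have hT' := h.T_le'
  have hG1 : (0 : ℝ) < P.G + 1 := by positivity
  set A : ℝ := (32 * P.L) ^ (P.G + 1) with hA
  have hA1 : 1 ≤ A := one_le_pow₀ (by linarith)
  obtain ⟨A', r', hr', hk⟩ := kin_back h A
  set D : ℝ := |A'| + A * 2 ^ 24 with hD
  have hD0 : 0 ≤ D := by positivity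
  filter_upwards [Ecc_le h, C4_ev 2 hr', C4_ev (2 * A) (show 0 < P.α / 8 by positivity),
    C4_ev (2 * |A'|) (show (0 : ℝ) < 1 / 2 by norm_num), C4_ev 4 hT,
    C4_ev (4 * (1 + 2 * P.L)) he, C4_ev (2 * (480 * P.C * A ^ 3 * D)) he]
    with r hE ⟨hr, hr1⟩ ⟨_, hr2⟩ ⟨_, hr3⟩ ⟨_, hr4⟩ ⟨_, hr5⟩ ⟨_, hr6⟩
  intro b s t x v hs hst ht W
  set y := x - (t - s) • v with hy
  set l := P.el s y with hl
  set l' := P.el t x with hl'
  have l0' : 0 < l' := W.pos
  have l1' : l' ≤ 2 * r := by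
    have := W.le
    rw [div_self hG1.ne'] at this
    linarith
  have l2' : l' ≤ 1 := by linarith
  have hv3 : |c3 v| ≤ 3 / 2 := by
    have := W.v3
    have e : ((P.G : ℝ) + 1) / (2 * (P.G + 1)) = 1 / 2 := by field_simp
    rw [e] at this
    linarith
  have q : ((P.G : ℝ) + 1) / (4 * (P.G + 1)) = 1 / 4 := by field_simp
  obtain ⟨k1, k2⟩ := hk b s t x v hs.le hst ht l0' (by linarith) (by linarith) W.cc
  have p23 : l' ^ 23 ≤ l' := C4_pow_le l0'.le l2' (by norm_num)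
  have p22 : l' ^ 22 ≤ l' := C4_pow_le l0'.le l2' (by norm_num)
  have k1' : ‖v - P.U b s y‖ ≤ |A'| * l' ^ 23 :=
    k1.trans (mul_le_mul_of_nonneg_right (le_abs_self _) (by positivity))
  have hd : |l' - l| ≤ P.α / 8 * l' := by
    refine k2.trans ?_
    have b1 : A * P.th t x = A * l' ^ 23 * l' := by unfold th; ring
    have b2 : A * l' ^ 23 ≤ A * (2 * r) := mul_le_mul_of_nonneg_left (p23.trans l1') (by linarith)
    rw [b1]
    exact mul_le_mul_of_nonneg_right (by linarith) l0'.le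
  obtain ⟨d1, d2⟩ := abs_le.1 hd
  have hal : P.α / 8 * l' ≤ l' / 320 := by nlinarith
  have l0 : 0 < l := by linarith
  have l1 : l ≤ 2 * l' := by linarith
  have l2 : l' ≤ 2 * l := by linarith
  refine ⟨?_, fun u => ?_, ?_⟩
  · have hR0 : 0 ≤ A * P.th s y := mul_nonneg (by linarith) (P.th_nonneg s y)
    refine (C4_ls_ball (U := P.U b s y) hR0 (fun u => (hE b s y u hs.le).2.1)
      (fun u hu => ((hE b s y u hs.le).1 hu).cc) k1').trans ?_
    rw [← ENNReal.ofReal_mul (by positivity)]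
    refine ENNReal.ofReal_le_ofReal ?_
    have b1 : |A'| * l' ^ 23 + A * l ^ 24 ≤ D * l' ^ 23 := by
      have c1 : l ^ 24 ≤ 2 ^ 24 * l' ^ 23 := by
        calc l ^ 24 ≤ (2 * l') ^ 24 := pow_le_pow_left₀ l0.le l1 _
          _ = 2 ^ 24 * (l' ^ 23 * l') := by ring
          _ ≤ 2 ^ 24 * (l' ^ 23 * 1) := by gcongr
          _ = _ := by ring
      have c2 : A * l ^ 24 ≤ A * (2 ^ 24 * l' ^ 23) := mul_le_mul_of_nonneg_left c1 (by linarith)
      rw [hD]; linarith
    have b2 : l' ^ 23 / l ≤ 2 * l' := by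
      rw [div_le_iff₀ l0]
      calc l' ^ 23 = l' ^ 22 * l' := by ring
        _ ≤ l' * (2 * l) := by gcongr
        _ = _ := by ring
    calc 2 * P.C / l ^ 73 * (120 * (|A'| * l' ^ 23 + A * P.th s y) * (A * P.th s y) ^ 3)
        = 240 * P.C * A ^ 3 * ((|A'| * l' ^ 23 + A * l ^ 24) / l) := by
          unfold th; rw [← hl]; field_simp; norm_num
      _ ≤ 240 * P.C * A ^ 3 * (D * l' ^ 23 / l) := by gcongr
      _ = 240 * P.C * A ^ 3 * D * (l' ^ 23 / l) := by ring
      _ ≤ 240 * P.C * A ^ 3 * D * (2 * (2 * r)) := by gcongr; linarith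
      _ ≤ e' := by linarith
  · by_contra hu
    have W' := ((hE (!b) s y u hs.le).1 hu).osc
    have b1 := W.osc
    rw [q] at W' b1
    rw [osc_not] at W'
    have b2 := h.abs_osc_sub b l0' (l' := l) (by linarith)
    have b3 : 2 * |l' - l| / (l' * P.α) ≤ 1 / 4 := by
      rw [div_le_iff₀ (by positivity)]
      linarith
    have b5 := (abs_le.1 (b2.trans b3)).2
    linarith
  · have b1 : |c2 y| = l + s * (l / P.T) := by
      rw [hl, h.el_eq hs.le]; field_simp; ring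
    have b2 : l / P.T ≤ 1 := by rw [div_le_one hT]; linarith
    have b3 : |P.ze s y| ≤ 2 := by
      have c1 : P.ze s y = c3 v - c3 (v - P.U b s y) := by rw [c3_sub, c3_U]; ring
      have c2 := abs_c3_le_norm (v - P.U b s y)
      have c3' : |A'| * l' ^ 23 ≤ |A'| * (2 * r) :=
        mul_le_mul_of_nonneg_left (p23.trans l1') (abs_nonneg _)
      rw [c1]
      refine (abs_sub _ _).trans ?_
      linarith
    have b4 : |c3 y| = |P.ze s y| * (s + P.L * l) := by
      have c1 : 0 < s + P.L * l := by positivity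
      unfold ze
      rw [← hl, abs_div, abs_of_pos c1]; field_simp
    have b5 : |P.ze s y| * (s + P.L * l) ≤ 2 * (s + P.L * l) :=
      mul_le_mul_of_nonneg_right b3 (by positivity)
    have b6 : s * (l / P.T) ≤ s * 1 := mul_le_mul_of_nonneg_left b2 hs.le
    have b7 : (1 + 2 * P.L) * l ≤ (1 + 2 * P.L) * (4 * r) :=
      mul_le_mul_of_nonneg_left (by linarith) (by positivity)
    have b8 := ry_le_add y
    linarith

theorem self_rate (h : P.OK) : ∀ᶠ r in 𝓝[>] (0 : ℝ), ∀ t ∈ Icc 0 P.t₁, ∀ x v, P.Ecal r t x v ≠ 0 →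
    ‖v‖ ≤ 3 ∧ ∀ s ∈ Ioc 0 t, pa (LS (P.Ecal r)) t x v s ≤ 1 := by
  have h10 : (0 : ℝ) < 1 / 10 := by norm_num
  filter_upwards [Ecc_le h, Wg_supp h h10, self_c h h10] with r hE hW hS t ht x v hne
  obtain ⟨b, k, hb⟩ := perz_ne_zero hne
  have W := (hE b t _ v ht.1).1 hb
  have ht1 := h.t₁_le
  refine ⟨by linarith [(hW P.G le_rfl b t _ v ht.1 W).2.1], fun s hs => ?_⟩
  obtain ⟨k1, k2, k3⟩ := hS b s t (x - lat k) v hs.1 hs.2 (by linarith [ht.2]) W
  have e : x - lat k - (t - s) • v = x - (t - s) • v - lat k := by abel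
  rw [e] at k1 k2 k3
  have e2 : P.Ecal r s (x - (t - s) • v) = P.Ecc r b s (x - (t - s) • v - lat k) := by
    funext u
    have := perz_eq_of_near (f := P.Ecc r) (t := s) (x := x - (t - s) • v) (v := u) (k := k)
      (ρ := 3 * s + 1 / 10)
      (fun b' y hy => (hW P.G le_rfl b' s y u hs.1.le ((hE b' s y u hs.1.le).1 hy)).2.2.2.1)
      (by linarith [hs.2, ht.2])
    unfold Ecal
    rw [this]
    cases b
    · have := k2 u
      simp only [Bool.not_false] at this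
      rw [this, zero_add]
    · have := k2 u
      simp only [Bool.not_true] at this
      rw [this, add_zero]
  change ls (P.Ecal r s (x - (t - s) • v)) v ≤ 1
  rw [e2]
  exact k1.trans (ENNReal.ofReal_le_one.2 (by norm_num))

end CP

end Crest.Agent.R68
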