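/-
R68/C5: collisions inside the cold gas: the terms that are not tracked
Skeleton by helper76 (row 68); keep the statements unchanged, add any helper lemmas you like.
-/
import Crest.Agent.R68.C3
import Crest.Agent.R68.C4

set_option autoImplicit false
set_option linter.unusedVariables false
set_option linter.unusedSectionVars false

noncomputable section

namespace Crest.Agent.R68

open MeasureTheory Set Filter Topology
open scoped ENNReal NNReal
open Crest.AnalysisR.VecCalc3 Crest.AnalysisR.PDE.Boltzmann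

theorem C5_ev (K : ℝ) {η : ℝ} (hη : 0 < η) : ∀ᶠ r in 𝓝[>] (0 : ℝ), K * r ≤ η := by
  have h : Tendsto (fun r : ℝ => K * r) (𝓝[>] 0) (𝓝 (K * 0)) :=
    ((continuous_const.mul continuous_id).tendsto 0).mono_left nhdsWithin_le_nhds
  exact h.eventually_le_const (by rwa [mul_zero])

theorem C5_meas_sum {s : Finset ℕ} {F : ℕ → R3 → ℝ≥0∞} (hF : ∀ i, Measurable (F i)) : Measurable (∑ i ∈ s, F i) := by
  rw [Finset.sum_fn]
  exact Finset.measurable_sum s fun i _ => hF i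

theorem C5_gn_sum_left {s : Finset ℕ} {F : ℕ → R3 → ℝ≥0∞} (hF : ∀ i, Measurable (F i)) {g : R3 → ℝ≥0∞}
    (hg : Measurable g) (v : R3) : gn (∑ i ∈ s, F i) g v = ∑ i ∈ s, gn (F i) g v := by
  induction s using Finset.induction_on with
  | empty => simpa using gn_zero_left g v
  | insert a s ha ih =>
    rw [Finset.sum_insert ha, Finset.sum_insert ha,
      gn_add_left (hF a) (C5_meas_sum hF) hg, ih]

theorem C5_gn_sum_right {s : Finset ℕ} {F : ℕ → R3 → ℝ≥0∞} (hF : ∀ i, Measurable (F i)) {g : R3 → ℝ≥0∞}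
    (hg : Measurable g) (v : R3) : gn g (∑ i ∈ s, F i) v = ∑ i ∈ s, gn g (F i) v := by
  rw [gn_comm hg (C5_meas_sum hF), C5_gn_sum_left hF hg]
  exact Finset.sum_congr rfl fun i _ => gn_comm (hF i) hg v

theorem C5_tri (G : ℕ) (a : ℕ → ℕ → ℝ≥0∞) (Y : ℝ≥0∞) (h : ∀ i ≤ G, ∀ j ≤ G, G ≤ i + j → a i j ≤ Y) :
    ∑ i ∈ Finset.range (G + 1), ∑ j ∈ Finset.range (G + 1), a i j ≤
      ∑ i ∈ Finset.range G, ∑ j ∈ Finset.range (G - i), a i j + ((G + 1) ^ 2 : ℕ) * Y := by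
  have h1 : ∀ i ∈ Finset.range (G + 1), ∑ j ∈ Finset.range (G + 1), a i j ≤
      ∑ j ∈ Finset.range (G - i), a i j + (G + 1 : ℕ) * Y := fun i hi => by
    have h2 : ∀ j ∈ Finset.range (G + 1), a i j ≤ (if j ∈ Finset.range (G - i) then a i j else 0) + Y := by
      intro j hj
      simp only [Finset.mem_range] at hi hj ⊢
      split_ifs with h3
      · exact le_self_add
      · rw [zero_add]
        exact h i (by omega) j (by omega) (by omega)
    refine (Finset.sum_le_sum h2).trans_eq ?_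
    rw [Finset.sum_add_distrib, Finset.sum_ite_mem, Finset.inter_eq_right.2 (Finset.range_subset_range.2 (by omega)),
      Finset.sum_const, Finset.card_range, nsmul_eq_mul]
  refine (Finset.sum_le_sum h1).trans_eq ?_
  rw [Finset.sum_add_distrib, Finset.sum_range_succ, Nat.sub_self, Finset.sum_range_zero, add_zero,
    Finset.sum_const, Finset.card_range, nsmul_eq_mul, ← mul_assoc, ← Nat.cast_mul, sq]

theorem C5_ne {f g : R3 → ℝ≥0∞} {v : R3} (h : gn f g v ≠ 0) : (∃ u, f u ≠ 0) ∧ ∃ u, g u ≠ 0 := by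
  constructor
  · by_contra h1
    exact h (by rw [show f = 0 from funext fun u => not_not.1 fun h2 => h1 ⟨u, h2⟩, gn_zero_left])
  · by_contra h1
    exact h (by rw [show g = 0 from funext fun u => not_not.1 fun h2 => h1 ⟨u, h2⟩, gn_zero_right])

theorem C5_pl_tsum {ι : Type} [Countable ι] {G : ι → R3 → ℝ≥0∞} (hG : ∀ i, Measurable (G i)) (v n : R3) :
    pl (fun u => ∑' i, G i u) v n = ∑' i, pl (G i) v n :=
  lintegral_tsum fun i => ((hG i).comp (f := fun z : R3 => v + (z - inner ℝ z n • n)) (by fun_prop)).aemeasurable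

namespace CP

variable {P : CP}

theorem C5_amp {r t : ℝ} {g : ℕ} {b : Bool} {x u : R3} :
    (P.amp r g b t x u ≠ 0 → P.Wg r g b t x u) ∧
      P.amp r g b t x u ≤ ENNReal.ofReal (P.C * P.el t x ^ (2 * g) / P.el t x ^ 73) := by
  unfold amp
  split_ifs with h
  · exact ⟨fun _ => h, le_rfl⟩
  · exact ⟨fun h' => absurd rfl h', zero_le⟩

/-- The pairs of generations with `g₁ + g₂ ≥ G` (`gn_ball`). -/
theorem GN_Ecc_le (h : P.OK) : ∃ c : ℝ, 0 ≤ c ∧ ∀ᶠ r in 𝓝[>] (0 : ℝ), ∀ b t x v, 0 ≤ t →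
    GN (P.Ecc r b) (P.Ecc r b) t x v ≤ P.Psic r b t x v +
      (if ‖v‖ ≤ 3 ∧ P.el t x ≤ 2 * r ∧ ry x ≤ 3 * t + 1 / 10 then
        ENNReal.ofReal (c * P.el t x ^ (2 * P.G - 50)) else 0) := by
  have hC : 0 ≤ P.C := zero_le_one.trans h.one_le_C
  have hL : 0 ≤ P.L := zero_le_one.trans h.one_le_L
  refine ⟨((P.G + 1) ^ 2 : ℕ) * (P.C ^ 2 * (10 ^ 4 * ((32 * P.L) ^ (P.G + 1)) ^ 4)), by positivity, ?_⟩
  filter_upwards [Eg_le_amp h, Wg_supp h (show (0 : ℝ) < 1 / 10 by norm_num), self_mem_nhdsWithin]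
    with r hE hW hr b t x v ht
  have hm : ∀ g, Measurable (P.Eg r g b t x) := fun g => (meas_Eg P r g b).1.slice t x
  have e : P.Ecc r b t x = ∑ g ∈ Finset.range (P.G + 1), P.Eg r g b t x := by
    rw [Ecc_eq, Finset.sum_apply, Finset.sum_apply]
  have e' : P.Psic r b t x v = ∑ i ∈ Finset.range P.G, ∑ j ∈ Finset.range (P.G - i),
      gn (P.Eg r i b t x) (P.Eg r j b t x) v := by
    simp only [Psic, Finset.sum_apply, GN]
  have hs : ∀ g ≤ P.G, ∀ u, P.Eg r g b t x u ≠ 0 → P.Wg r P.G b t x u := fun g hg u hu =>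
    (C5_amp.1 fun h0 => hu (le_zero_iff.1 ((hE g b t x u ht).trans_eq h0))).mono h (le_of_lt hr) hg
  show gn _ _ _ ≤ _
  rw [e, e', C5_gn_sum_left hm (C5_meas_sum hm)]
  simp only [C5_gn_sum_right hm (hm _)]
  refine (C5_tri _ _ (if ‖v‖ ≤ 3 ∧ P.el t x ≤ 2 * r ∧ ry x ≤ 3 * t + 1 / 10 then ENNReal.ofReal
    (P.C ^ 2 * (10 ^ 4 * ((32 * P.L) ^ (P.G + 1)) ^ 4) * P.el t x ^ (2 * P.G - 50)) else 0)
    fun i hi j hj hij => ?_).trans (add_le_add_right (le_of_eq ?_) _)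
  · by_cases h0 : gn (P.Eg r i b t x) (P.Eg r j b t x) v = 0
    · rw [h0]
      exact zero_le
    obtain ⟨u, hu⟩ := (C5_ne h0).1
    have hw := hs i hi u hu
    obtain ⟨-, -, -, h1, h2, h3, -⟩ := hW _ le_rfl b t x u ht hw
    rw [if_pos ⟨gn_supp (fun u hu => (hW _ le_rfl b t x u ht (hs i hi u hu)).2.1)
      (fun u hu => (hW _ le_rfl b t x u ht (hs j hj u hu)).2.1) h0, h2, h1⟩]
    have hp := hw.pos
    refine (gn_ball (mul_nonneg (by positivity) (th_nonneg P t x)) (fun u => (hE i b t x u ht).trans C5_amp.2)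
      (fun u => (hE j b t x u ht).trans C5_amp.2) (fun u hu => (hs i hi u hu).cc)
      (fun u hu => (hs j hj u hu).cc) v).1.trans ?_
    rw [← ENNReal.ofReal_mul (by positivity), ← ENNReal.ofReal_mul (by positivity)]
    refine ENNReal.ofReal_le_ofReal ?_
    have hG := h.G_ge
    obtain ⟨m, hm⟩ : ∃ m, 2 * i + 2 * j = 2 * P.G - 50 + 50 + m := ⟨2 * i + 2 * j - 2 * P.G, by omega⟩
    have h4 : P.el t x ^ (2 * i) * P.el t x ^ (2 * j) =
        P.el t x ^ (2 * P.G - 50) * P.el t x ^ 50 * P.el t x ^ m := by rw [← pow_add, hm, pow_add, pow_add]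
    have h5 : P.el t x ^ m ≤ 1 := pow_le_one₀ hp.le (by linarith)
    unfold th
    generalize (32 * P.L) ^ (P.G + 1) = A at *
    have hz : 0 ≤ P.el t x ^ (2 * P.G - 50) := by positivity
    generalize P.el t x ^ (2 * P.G - 50) = z at *
    calc _ = P.C ^ 2 * (10 ^ 4 * A ^ 4) * (P.el t x ^ (2 * i) * P.el t x ^ (2 * j) / P.el t x ^ 50) := by
          field_simp
      _ = P.C ^ 2 * (10 ^ 4 * A ^ 4) * (z * P.el t x ^ m) := by rw [h4]; field_simp
      _ ≤ _ := mul_le_mul_of_nonneg_left (mul_le_of_le_one_right hz h5) (by positivity)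
  · split_ifs
    · rw [mul_assoc (((P.G + 1) ^ 2 : ℕ) : ℝ), ENNReal.ofReal_mul (Nat.cast_nonneg _), ENNReal.ofReal_natCast]
    · exact mul_zero _

theorem GN_Ecc_not (h : P.OK) : ∀ᶠ r in 𝓝[>] (0 : ℝ), ∀ b t x v, 0 ≤ t →
    GN (P.Ecc r b) (P.Ecc r (!b)) t x v = 0 := by
  filter_upwards [Ecc_le h] with r hE b t x v ht
  by_contra h0
  obtain ⟨⟨u, hu⟩, u', hu'⟩ := C5_ne h0
  exact Wg.disjoint h le_rfl le_rfl ((hE b t x u ht).1 hu) ((hE (!b) t x u' ht).1 hu')

/-- Short times: one line only; `el ≤ ry = dd`. -/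
theorem Dump_short (h : P.OK) {η : ℝ} (hη : 0 < η) : ∀ᶠ r in 𝓝[>] (0 : ℝ), ∀ t ∈ Icc 0 P.t₁, ∀ x v,
    P.Dump r t x v ≤ if ‖v‖ ≤ 3 then ENNReal.ofReal (η * dd x ^ P.nb) else 0 := by
  obtain ⟨c, hc, hG⟩ := GN_Ecc_le h
  filter_upwards [hG, GN_Ecc_not h, Ecc_le h, Wg_supp h (show (0 : ℝ) < 1 / 10 by norm_num), C5_ev (4 * c) hη,
    C5_ev 2 one_pos] with r hG hN hE hW hr hr1 t ht x v
  have hs : ∀ u b y, P.Ecc r b t y u ≠ 0 → ry y ≤ 1 / 4 := fun u b y hu => by
    have h1 := (hW _ le_rfl b t y u ht.1 ((hE b t y u ht.1).1 hu)).2.2.2.1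
    linarith [ht.2, h.t₁_le]
  show gn (P.Ecal r t x) (P.Ecal r t x) v - P.Psi r t x v ≤ _
  rcases lt_or_ge (1 / 4) (dd x) with hd | hd
  · rw [show P.Ecal r t x = 0 from funext fun u => perz_eq_zero (hs u) hd, gn_zero_left, zero_tsub]
    exact zero_le
  obtain ⟨k, hk⟩ := exists_dd x
  have e : P.Ecal r t x = P.Ecc r true t (x - lat k) + P.Ecc r false t (x - lat k) :=
    funext fun u => perz_eq_of_near (hs u) (by linarith)
  have h1 : P.Psic r true t (x - lat k) v + P.Psic r false t (x - lat k) v ≤ P.Psi r t x v := by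
    have := ENNReal.sum_le_tsum (f := fun i : Bool × ℤ × ℤ => P.Psic r i.1 t (x - lat i.2) v) {(true, k), (false, k)}
    rwa [Finset.sum_pair (by simp)] at this
  have h2 : gn (P.Ecc r true t (x - lat k)) (P.Ecc r false t (x - lat k)) v = 0 := hN true t _ v ht.1
  rw [e, gn_add_add ((meas_Ecc P r _).1.slice t _) ((meas_Ecc P r _).1.slice t _), h2, mul_zero, add_zero,
    tsub_le_iff_left]
  refine (add_le_add (hG true t _ v ht.1) (hG false t _ v ht.1)).trans ?_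
  rw [add_add_add_comm]
  refine add_le_add h1 ?_
  by_cases hv : ‖v‖ ≤ 3 ∧ P.el t (x - lat k) ≤ 2 * r ∧ ry (x - lat k) ≤ 3 * t + 1 / 10
  · have h0 := el_nonneg P t (x - lat k)
    rw [if_pos hv, if_pos hv.1, ← ENNReal.ofReal_add (by positivity) (by positivity)]
    refine ENNReal.ofReal_le_ofReal ?_
    have h3 : P.el t (x - lat k) ≤ dd x := ((h.el_le ht.1 _).trans (abs_c2_le_ry _)).trans hk.ge
    have h4 : P.el t (x - lat k) ^ (2 * P.G - 50) ≤ P.el t (x - lat k) ^ (P.nb + 1) :=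
      pow_le_pow_of_le_one h0 (hv.2.1.trans hr1) (by have := h.G_ge; omega)
    have h5 : P.el t (x - lat k) ^ (P.nb + 1) ≤ dd x ^ P.nb * (2 * r) := by
      rw [pow_succ]
      exact mul_le_mul (pow_le_pow_left₀ h0 h3 _) hv.2.1 h0 (pow_nonneg (dd_nonneg x) _)
    have h6 := mul_le_mul_of_nonneg_left (h4.trans h5) hc
    have h7 := mul_le_mul_of_nonneg_right hr (pow_nonneg (dd_nonneg x) P.nb)
    linarith
  · rw [if_neg hv, add_zero]
    exact zero_le

/-- the lines whose sheet is not too thin at `(t, x)` -/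
def fat (P : CP) (r : ℝ) : Fn :=
  perz fun b t x u => if P.T / (36 * (t + 1) ^ 2) ≤ P.el t x then P.Ecc r b t x u else 0

/-- one fat line -/
def C5_ft (P : CP) (r : ℝ) (b : Bool) : Fn := fun t x u =>
  if P.T / (36 * (t + 1) ^ 2) ≤ P.el t x then P.Ecc r b t x u else 0

theorem C5_ft_pos {r t : ℝ} {b : Bool} {x : R3} (h : P.T / (36 * (t + 1) ^ 2) ≤ P.el t x) :
    P.C5_ft r b t x = P.Ecc r b t x := funext fun _ => if_pos h

theorem C5_ft_neg {r t : ℝ} {b : Bool} {x : R3} (h : ¬P.T / (36 * (t + 1) ^ 2) ≤ P.el t x) :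
    P.C5_ft r b t x = 0 := funext fun _ => if_neg h

theorem C5_ft_meas (r t : ℝ) (b : Bool) (x : R3) : Measurable (P.C5_ft r b t x) := by
  by_cases h : P.T / (36 * (t + 1) ^ 2) ≤ P.el t x
  · rw [C5_ft_pos h]
    exact (meas_Ecc P r b).1.slice t x
  · rw [C5_ft_neg h]
    exact measurable_zero

theorem C5_fat_meas (r t : ℝ) (x : R3) : Measurable (P.fat r t x) :=
  Measurable.tsum fun i : Bool × ℤ × ℤ => C5_ft_meas r t i.1 (x - lat i.2)

theorem C5_dio (h : P.OK) {t : ℝ} (ht : 0 ≤ t) {x : R3} {k k' : ℤ × ℤ} (hk : k ≠ k')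
    (h1 : ry (x - lat k) ≤ 3 * t + 1) (h2 : ry (x - lat k') ≤ 3 * t + 1) :
    P.T / (36 * (t + 1) ^ 2) ≤ P.el t (x - lat k) ∨ P.T / (36 * (t + 1) ^ 2) ≤ P.el t (x - lat k') := by
  have hT := h.T_pos
  have hT1 := h.T_le'
  have key : ∀ y : R3, 1 ≤ 36 * (t + 1) * |c2 y| → P.T / (36 * (t + 1) ^ 2) ≤ P.el t y := fun y hy => by
    rw [h.el_eq ht, div_le_div_iff₀ (by positivity) (by positivity)]
    have h3 : t + P.T ≤ (t + 1) * (36 * (t + 1) * |c2 y|) :=
      le_trans (by linarith) (le_mul_of_one_le_right (by positivity) hy)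
    calc P.T * (t + P.T) ≤ P.T * ((t + 1) * (36 * (t + 1) * |c2 y|)) := mul_le_mul_of_nonneg_left h3 hT.le
      _ = _ := by ring
  have e : lat (k - k') = (x - lat k') - (x - lat k) := by rw [lat_sub]; abel
  have h3 := dioph (sub_ne_zero.2 hk)
  rw [e, c2_sub (x - lat k')] at h3
  have h4 : ry ((x - lat k') - (x - lat k)) ≤ 6 * (t + 1) := (ry_sub_le _ _).trans (by linarith)
  have h5 := abs_sub (c2 (x - lat k')) (c2 (x - lat k))
  have h6 : 1 ≤ 3 * (6 * (t + 1)) * (|c2 (x - lat k')| + |c2 (x - lat k)|) :=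
    h3.trans (mul_le_mul (by linarith) h5 (abs_nonneg _) (by positivity))
  rcases le_total |c2 (x - lat k')| |c2 (x - lat k)| with h7 | h7
  · exact Or.inl (key _ (by nlinarith))
  · exact Or.inr (key _ (by nlinarith))

/-- Expand the double sum (`gn_tsum_left`, `gn_tsum_right`).  If two different lines `k ≠ k'` both
contribute at `(t, x)` then `ry (lat (k - k')) ≤ 6 t + 2`, so by `dioph` one of them has
`|c2| ≥ 1 / (36 (t + 1))`, hence is fat; `gn_comm`. -/
theorem GN_Ecal_le (h : P.OK) : ∀ᶠ r in 𝓝[>] (0 : ℝ), ∀ t x v, 0 ≤ t →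
    GN (P.Ecal r) (P.Ecal r) t x v ≤ perz (fun b => GN (P.Ecc r b) (P.Ecc r b)) t x v +
      2 * GN (P.Ecal r) (P.fat r) t x v := by
  filter_upwards [GN_Ecc_not h, Ecc_le h, Wg_supp h one_pos] with r hN hE hW t x v ht
  obtain ⟨F, hF⟩ : ∃ F : Bool × ℤ × ℤ → R3 → ℝ≥0∞, ∀ i, F i = P.Ecc r i.1 t (x - lat i.2) := ⟨_, fun _ => rfl⟩
  obtain ⟨Ft, hFt⟩ : ∃ F : Bool × ℤ × ℤ → R3 → ℝ≥0∞, ∀ i, F i = P.C5_ft r i.1 t (x - lat i.2) := ⟨_, fun _ => rfl⟩
  have mF : ∀ i, Measurable (F i) := fun i => hF i ▸ (meas_Ecc P r _).1.slice t _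
  have mFt : ∀ i, Measurable (Ft i) := fun i => hFt i ▸ C5_ft_meas r t _ _
  have e1 : P.Ecal r t x = fun u => ∑' i, F i u := by simp only [hF]; rfl
  have e2 : P.fat r t x = fun u => ∑' i, Ft i u := by simp only [hFt]; rfl
  have e3 : perz (fun b => GN (P.Ecc r b) (P.Ecc r b)) t x v = ∑' i, gn (F i) (F i) v := by simp only [hF]; rfl
  have hs : ∀ i u, F i u ≠ 0 → ry (x - lat i.2) ≤ 3 * t + 1 := fun i u hu =>
    (hW _ le_rfl i.1 t _ u ht ((hE i.1 t _ u ht).1 (by rwa [hF] at hu))).2.2.2.1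
  have key : ∀ i j, gn (F i) (F j) v ≤
      (if j = i then gn (F i) (F i) v else 0) + (gn (F i) (Ft j) v + gn (F j) (Ft i) v) := by
    intro i j
    split_ifs with hij
    · rw [hij]
      exact le_self_add
    by_cases h0 : gn (F i) (F j) v = 0
    · rw [h0]
      exact zero_le
    obtain ⟨⟨u, hu⟩, u', hu'⟩ := C5_ne h0
    by_cases hk : i.2 = j.2
    · have hb : j.1 = !i.1 := Bool.eq_not_of_ne fun hb => hij (Prod.ext hb hk.symm)
      rw [hF, hF, hb, ← hk] at h0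
      exact absurd (hN i.1 t _ v ht) h0
    rw [zero_add]
    rcases C5_dio h ht hk (hs i u hu) (hs j u' hu') with h1 | h1
    · rw [hFt i, C5_ft_pos h1, ← hF, gn_comm (mF i) (mF j)]
      exact le_add_self
    · rw [hFt j, C5_ft_pos h1, ← hF]
      exact le_self_add
  show gn _ _ _ ≤ _ + 2 * gn _ _ _
  rw [e1, e2, e3, gn_tsum_left mF (Measurable.tsum mF), gn_tsum_left mF (Measurable.tsum mFt)]
  simp only [gn_tsum_right (mF _) mF, gn_tsum_right (mF _) mFt]
  refine (ENNReal.tsum_le_tsum fun i => ENNReal.tsum_le_tsum fun j => key i j).trans_eq ?_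
  simp only [ENNReal.tsum_add, tsum_ite_eq]
  rw [two_mul, ENNReal.tsum_comm (f := fun i j => gn (F j) (Ft i) v)]

/-- `pl_ball`: amplitude `2 C el ^ (-73)`, radius `(32 L) ^ (G + 1) el ^ 24`; `perz_le_card`. -/
theorem pl_fat (h : P.OK) : ∃ c : ℝ, 0 ≤ c ∧ ∀ᶠ r in 𝓝[>] (0 : ℝ), ∀ t x v n, 0 ≤ t → ‖n‖ = 1 →
    pl (P.fat r t x) v n ≤
      if P.T / (36 * (t + 1) ^ 2) ≤ 2 * r then ENNReal.ofReal (c * (t + 1) ^ 52) else 0 := by
  have hC : 0 ≤ P.C := zero_le_one.trans h.one_le_C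
  have hL : 0 ≤ P.L := zero_le_one.trans h.one_le_L
  have hT := h.T_pos
  obtain ⟨A, hA0, hA⟩ : ∃ A : ℝ, 0 ≤ A ∧ (32 * P.L) ^ (P.G + 1) = A := ⟨_, by positivity, rfl⟩
  refine ⟨72 * (8 * P.C * A ^ 2 * (36 / P.T) ^ 25), by positivity, ?_⟩
  filter_upwards [Ecc_le h, Wg_supp h one_pos] with r hE hW t x v n ht hn
  have e : pl (P.fat r t x) v n = perz (fun b t y w => pl (P.C5_ft r b t y) w n) t x v :=
    C5_pl_tsum (fun i : Bool × ℤ × ℤ => C5_ft_meas r t i.1 (x - lat i.2)) v n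
  have hs : ∀ b y, pl (P.C5_ft r b t y) v n ≠ 0 →
      P.T / (36 * (t + 1) ^ 2) ≤ P.el t y ∧ ∃ u, P.Wg r P.G b t y u := fun b y h0 => by
    have h1 : ∃ u, P.C5_ft r b t y u ≠ 0 := by
      by_contra h1
      exact h0 (by rw [show P.C5_ft r b t y = 0 from funext fun u => not_not.1 fun h2 => h1 ⟨u, h2⟩]; simp [pl])
    obtain ⟨u, hu⟩ := h1
    have h2 : P.T / (36 * (t + 1) ^ 2) ≤ P.el t y := by
      by_contra h2
      exact hu (by rw [C5_ft_neg h2]; rfl)
    exact ⟨h2, u, (hE b t y u ht).1 (by rwa [C5_ft_pos h2] at hu)⟩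
  rw [e]
  split_ifs with hc
  · refine (perz_le_card (g := fun _ => 0) (ρ := 3 * t + 1) (c' := 0)
      (c := ENNReal.ofReal (8 * P.C * A ^ 2 * (36 / P.T) ^ 25 * (t + 1) ^ 50)) (by positivity)
      (fun b y h0 => ?_) fun b y => ?_).trans ?_
    · obtain ⟨-, u, hu⟩ := hs b y h0
      exact (hW _ le_rfl b t y u ht hu).2.2.2.1
    · rw [zero_mul, add_zero]
      by_cases h0 : pl (P.C5_ft r b t y) v n = 0
      · exact h0.trans_le zero_le
      obtain ⟨h1, u, hu⟩ := hs b y h0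
      have hp := hu.pos
      have hR : 0 ≤ A * P.th t y := mul_nonneg hA0 (th_nonneg P t y)
      have h2 : pl (P.C5_ft r b t y) v n ≤ pl (fun u => ENNReal.ofReal (2 * P.C / P.el t y ^ 73) *
          (Metric.closedBall (P.U b t y) (A * P.th t y)).indicator 1 u) v n := by
        refine pl_mono (fun z _ => ?_) hn
        rw [C5_ft_pos h1]
        by_cases h3 : P.Ecc r b t y (v + z) = 0
        · exact h3.trans_le zero_le
        · have h4 := ((hE b t y _ ht).1 h3).cc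
          rw [hA] at h4
          rw [indicator_of_mem (mem_closedBall_iff_norm.2 h4), Pi.one_apply, mul_one]
          exact (hE b t y _ ht).2.1
      rw [pl_mul _ (measurable_one.indicator Metric.isClosed_closedBall.measurableSet)] at h2
      refine h2.trans ((mul_le_mul_right (pl_ball hn v _ hR) _).trans ?_)
      rw [← ENNReal.ofReal_mul (by positivity)]
      refine ENNReal.ofReal_le_ofReal ?_
      have h3 : (P.el t y)⁻¹ ≤ 36 / P.T * (t + 1) ^ 2 := by
        refine (inv_anti₀ (by positivity) h1).trans_eq ?_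
        field_simp
      calc _ = 8 * P.C * A ^ 2 * (P.el t y)⁻¹ ^ 25 := by unfold th; field_simp; ring
        _ ≤ 8 * P.C * A ^ 2 * (36 / P.T * (t + 1) ^ 2) ^ 25 :=
          mul_le_mul_of_nonneg_left (pow_le_pow_left₀ (by positivity) h3 _) (by positivity)
        _ = _ := by rw [mul_pow, ← pow_mul, mul_assoc (8 * P.C * A ^ 2)]
    · rw [zero_mul, add_zero, ← ENNReal.ofReal_mul (by positivity)]
      refine ENNReal.ofReal_le_ofReal ?_
      generalize hB : 8 * P.C * A ^ 2 * (36 / P.T) ^ 25 = B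
      have hB0 : 0 ≤ B := by rw [← hB]; positivity
      calc _ ≤ 72 * (t + 1) ^ 2 * (B * (t + 1) ^ 50) := mul_le_mul_of_nonneg_right (by nlinarith) (by positivity)
        _ = _ := by ring
  · refine le_of_eq (not_not.1 fun h0 => ?_)
    obtain ⟨b, k, h1⟩ := perz_ne_zero h0
    obtain ⟨h2, u, hu⟩ := hs b _ h1
    exact hc (h2.trans (hW _ le_rfl b t _ u ht hu).2.2.2.2.1)

/-- `GN_Ecal_le`, `GN_Ecc_le` with `sqrt_del_count`; `gn_le_carleman`, `pl_fat`, `Cm_long`,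
`del_poly` (fat lines exist only for `(t + 1)² ≥ T / (72 r)`). -/
theorem Dump_long (h : P.OK) {η : ℝ} (hη : 0 < η) : ∀ᶠ r in 𝓝[>] (0 : ℝ), ∀ t, P.t₁ ≤ t → ∀ x v,
    ENNReal.ofReal (P.del t ^ 2) * P.Dump r t x v ≤
      if ‖v‖ ≤ 3 then ENNReal.ofReal (η * √(P.del t)) * P.om t x v else 0 := by
  obtain ⟨c, hc, hG⟩ := GN_Ecc_le h
  obtain ⟨c', hc', hF⟩ := pl_fat h
  have hC : 0 ≤ P.C := zero_le_one.trans h.one_le_C
  have hL : 0 ≤ P.L := zero_le_one.trans h.one_le_L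
  have hT := h.T_pos
  have ht₁ := h.t₁_pos
  obtain ⟨K, hK0, hK⟩ : ∃ K : ℝ, 0 ≤ K ∧ 16 * N0 * (P.C * P.L * P.T / P.t₁ ^ 2) + 1 = K := ⟨_, by positivity, rfl⟩
  have hlim := (h.del_poly 52).const_mul (4 * c' * K)
  rw [mul_zero] at hlim
  obtain ⟨t₂, ht₂⟩ := eventually_atTop.1 (hlim.eventually_le_const (half_pos hη))
  filter_upwards [hG, hF, GN_Ecal_le h, Ecal_supp h one_pos, Cm_long h one_pos, C5_ev (N0 * (c * 2)) (half_pos hη),
    C5_ev 2 one_pos, C5_ev (72 * (|t₂| + 1) ^ 2) hT, self_mem_nhdsWithin]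
    with r hG hF hE hS hCm hr hr1 hr2 hr0 t ht x v
  have hr0' : 0 < r := hr0
  have ht0 : 0 < t := ht₁.trans_le ht
  have hd := del_pos P t
  have hd1 := del_le_one P t
  have hsq : 0 ≤ √(P.del t) := Real.sqrt_nonneg _
  have mE : Measurable (P.Ecal r t x) := (meas_Ecal P r).1.slice t x
  have eD : P.Dump r t x v = gn (P.Ecal r t x) (P.Ecal r t x) v - P.Psi r t x v := rfl
  split_ifs with hv
  swap
  · have h0 : gn (P.Ecal r t x) (P.Ecal r t x) v = 0 := not_not.1 fun h0 =>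
      hv (gn_supp (fun u hu => (hS t x u ht0.le hu).1) (fun u hu => (hS t x u ht0.le hu).1) h0)
    rw [eD, h0, zero_tsub, mul_zero]
  obtain ⟨Y, hY⟩ : ∃ Y : Bool → Fn, ∀ b t y w, Y b t y w =
      if ‖w‖ ≤ 3 ∧ P.el t y ≤ 2 * r ∧ ry y ≤ 3 * t + 1 / 10 then
        ENNReal.ofReal (c * P.el t y ^ (2 * P.G - 50)) else 0 := ⟨fun _ t y w => _, fun _ _ _ _ => rfl⟩
  have h1 : P.Dump r t x v ≤ perz Y t x v + 2 * gn (P.Ecal r t x) (P.fat r t x) v := by
    rw [eD, tsub_le_iff_left, ← add_assoc]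
    refine (hE t x v ht0.le).trans (add_le_add_left ?_ _)
    refine (perz_mono (g := fun b => P.Psic r b + Y b) (fun b y => ?_) x).trans_eq (by rw [perz_add]; rfl)
    exact (hG b t y v ht0.le).trans_eq (by rw [← hY b]; rfl)
  have h2 : perz Y t x v ≤ ENNReal.ofReal (2 * (2 * (3 * t + 1 / 10) + 1) ^ 2 * (c * (2 * r))) := by
    refine (perz_le_card (g := fun _ => 0) (ρ := 3 * t + 1 / 10) (c' := 0) (c := ENNReal.ofReal (c * (2 * r)))
      (by positivity) (fun b y h0 => ?_) fun b y => ?_).trans_eq ?_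
    · rw [hY] at h0
      exact (ite_ne_right_iff.1 h0).1.2.2
    · rw [zero_mul, add_zero, hY]
      split_ifs with h3
      · refine ENNReal.ofReal_le_ofReal (mul_le_mul_of_nonneg_left (le_trans ?_ h3.2.1) hc)
        exact pow_le_of_le_one (el_nonneg P t y) (h3.2.1.trans hr1) (by have := h.G_ge; omega)
      · exact zero_le
    · rw [zero_mul, add_zero, ← ENNReal.ofReal_mul (by positivity)]
  have h3 : ENNReal.ofReal (P.del t ^ 2) * perz Y t x v ≤ ENNReal.ofReal (η / 2 * √(P.del t)) * P.om t x v := by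
    refine (mul_le_mul_right h2 _).trans (le_trans ?_ (le_mul_of_one_le_right' (one_le_om P t x v)))
    rw [← ENNReal.ofReal_mul (by positivity)]
    refine ENNReal.ofReal_le_ofReal ?_
    have h4 : 2 * (2 * (3 * t + 1 / 10) + 1) ^ 2 * √(P.del t) ≤ N0 :=
      (mul_le_mul_of_nonneg_right (by nlinarith) hsq).trans (h.sqrt_del_count ht0.le)
    have h5 : P.del t ^ 2 ≤ √(P.del t) * √(P.del t) := by
      rw [Real.mul_self_sqrt hd.le]
      exact pow_le_of_le_one hd.le hd1 two_ne_zero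
    calc _ ≤ √(P.del t) * √(P.del t) * (2 * (2 * (3 * t + 1 / 10) + 1) ^ 2 * (c * (2 * r))) :=
          mul_le_mul_of_nonneg_right h5 (by positivity)
      _ = 2 * (2 * (3 * t + 1 / 10) + 1) ^ 2 * √(P.del t) * (c * 2 * r) * √(P.del t) := by ring
      _ ≤ N0 * (c * 2 * r) * √(P.del t) :=
          mul_le_mul_of_nonneg_right (mul_le_mul_of_nonneg_right h4 (by positivity)) hsq
      _ ≤ _ := mul_le_mul_of_nonneg_right (by linarith) hsq
  obtain ⟨B, hB0, hB, hB'⟩ : ∃ B : ℝ, 0 ≤ B ∧ 4 * K * (B * P.del t) ≤ η / 2 ∧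
      ∀ n, ‖n‖ = 1 → pl (P.fat r t x) v n ≤ ENNReal.ofReal B := by
    by_cases hcnd : P.T / (36 * (t + 1) ^ 2) ≤ 2 * r
    · refine ⟨c' * (t + 1) ^ 52, by positivity, le_trans (le_of_eq (by ring)) (ht₂ t ?_),
        fun n hn => (hF t x v n ht0.le hn).trans_eq (if_pos hcnd)⟩
      rw [div_le_iff₀ (by positivity)] at hcnd
      have h4 : (|t₂| + 1) ^ 2 ≤ (t + 1) ^ 2 := le_of_mul_le_mul_right (a := r) (by linarith) hr0'
      have h5 := le_of_pow_le_pow_left₀ two_ne_zero (by positivity) h4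
      linarith [le_abs_self t₂]
    · exact ⟨0, le_rfl, by simpa using (half_pos hη).le,
        fun n hn => (hF t x v n ht0.le hn).trans ((if_neg hcnd).trans_le zero_le)⟩
  have h4 : gn (P.Ecal r t x) (P.fat r t x) v ≤ 2 * (Cm (P.Ecal r) t x v * ENNReal.ofReal B) := by
    refine (gn_le_carleman mE (C5_fat_meas r t x) (B := fun _ => ENNReal.ofReal B)
      fun u hu _ => hB' _ (norm_dir (sub_ne_zero.2 hu.symm))).trans ?_
    rw [lintegral_mul_const' _ _ ENNReal.ofReal_ne_top]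
    exact mul_le_mul_right (mul_le_mul_left (inv_le_Cm _ t x v) _) _
  have h5 : ENNReal.ofReal (P.del t) * Cm (P.Ecal r) t x v ≤ ENNReal.ofReal (√(P.del t) * K) * P.om t x v := by
    refine (hCm t ht0 x v).trans (mul_le_mul_left (ENNReal.ofReal_le_ofReal ?_) _)
    rw [← hK]
    gcongr
  have h6 : ENNReal.ofReal (P.del t ^ 2) * (2 * gn (P.Ecal r t x) (P.fat r t x) v) ≤
      ENNReal.ofReal (η / 2 * √(P.del t)) * P.om t x v := by
    calc _ ≤ ENNReal.ofReal (P.del t ^ 2) * (2 * (2 * (Cm (P.Ecal r) t x v * ENNReal.ofReal B))) := by gcongr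
      _ = ENNReal.ofReal (4 * (B * P.del t)) * (ENNReal.ofReal (P.del t) * Cm (P.Ecal r) t x v) := by
          rw [sq, ENNReal.ofReal_mul hd.le, ENNReal.ofReal_mul (by norm_num), ENNReal.ofReal_mul hB0,
            ENNReal.ofReal_ofNat]
          ring
      _ ≤ ENNReal.ofReal (4 * (B * P.del t)) * (ENNReal.ofReal (√(P.del t) * K) * P.om t x v) :=
          mul_le_mul_right h5 _
      _ ≤ _ := by
          rw [← mul_assoc, ← ENNReal.ofReal_mul (by positivity)]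
          refine mul_le_mul_left (ENNReal.ofReal_le_ofReal ?_) _
          exact le_trans (le_of_eq (by ring)) (mul_le_mul_of_nonneg_right hB hsq)
  refine (mul_le_mul_right h1 _).trans ?_
  rw [mul_add]
  refine (add_le_add h3 h6).trans_eq ?_
  rw [← add_mul, ← ENNReal.ofReal_add (by positivity) (by positivity), ← add_mul, add_halves]

theorem GN_Ecal_le_Psi (P : CP) (r : ℝ) : GN (P.Ecal r) (P.Ecal r) ≤ P.Psi r + P.Dump r := by
  exact fun t x v => le_add_tsub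

end CP

end Crest.Agent.R68
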