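/-
R68/EntPt: pointwise inequalities for the entropy
Skeleton by helper76 (row 68); keep the statements unchanged, add any helper lemmas you like.
-/
import Crest.Agent.R68.Geo5

set_option autoImplicit false
set_option linter.unusedVariables false
set_option linter.unusedSectionVars false

noncomputable section

namespace Crest.Agent.R68

open MeasureTheory Set Filter Topology
open scoped ENNReal NNReal
open Crest.AnalysisR.VecCalc3 Crest.AnalysisR.PDE.Boltzmann

/-- The entropy density relative to `b`. -/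
def Hf (a b : ℝ) : ℝ := a * Real.log (a / b) - a + b

theorem EntPt_Hf_eq (a : ℝ) {b : ℝ} (hb : 0 < b) :
    Hf a b = a * Real.log a - a * Real.log b - a + b := by
  unfold Hf
  rcases eq_or_ne a 0 with rfl | ha
  · simp
  · rw [Real.log_div ha hb.ne']; ring

theorem EntPt_sq_le_Hf {a b : ℝ} (ha : 0 ≤ a) (hb : 0 < b) : (√a - √b) ^ 2 ≤ Hf a b := by
  rcases ha.eq_or_lt with rfl | ha'
  · simp [Hf, Real.sq_sqrt hb.le]
  · have hsa : 0 < √a := Real.sqrt_pos.2 ha'
    have hsb : 0 < √b := Real.sqrt_pos.2 hb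
    have h1 : a / b = (√a / √b) ^ 2 := by
      rw [div_pow, Real.sq_sqrt ha, Real.sq_sqrt hb.le]
    have h2 : 1 - (√a / √b)⁻¹ ≤ Real.log (√a / √b) :=
      Real.one_sub_inv_le_log_of_pos (div_pos hsa hsb)
    have h3 : a * (1 - (√a / √b)⁻¹) = a - √a * √b := by
      rw [inv_div]
      have : a * (√b / √a) = √a * √b := by
        have h4 : a = √a * √a := (Real.mul_self_sqrt ha).symm
        rw [show a * (√b / √a) = (√a * √a) * (√b / √a) by rw [← h4]]
        field_simp
      rw [mul_sub, this, mul_one]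
    have h5 := mul_le_mul_of_nonneg_left h2 ha
    unfold Hf
    rw [h1, Real.log_pow]
    have h6 := Real.sq_sqrt ha
    have h7 := Real.sq_sqrt hb.le
    push_cast
    nlinarith

theorem EntPt_log_maxwellian (v : R3) :
    Real.log (maxwellian v) = -(3 / 2) * Real.log (2 * Real.pi) - ‖v‖ ^ 2 / 2 := by
  have hp : 0 < 2 * Real.pi := by positivity
  unfold maxwellian
  rw [Real.log_mul (Real.rpow_pos_of_pos hp _).ne' (Real.exp_pos _).ne', Real.log_rpow hp,
    Real.log_exp]
  ring

theorem EntPt_log_two_pi : 0 ≤ Real.log (2 * Real.pi) ∧ Real.log (2 * Real.pi) ≤ 2 := by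
  have h3 := Real.pi_gt_three
  have h4 := Real.pi_lt_d2
  refine ⟨Real.log_nonneg (by linarith), ?_⟩
  rw [Real.log_le_iff_le_exp (by positivity)]
  have h1 := Real.exp_one_gt_d9
  have h2 : Real.exp 2 = Real.exp 1 * Real.exp 1 := by rw [← Real.exp_add]; norm_num
  rw [h2]
  nlinarith

theorem EntPt_maxwellian_pos (v : R3) : 0 < maxwellian v := by
  unfold maxwellian
  have hp : 0 < 2 * Real.pi := by positivity
  exact mul_pos (Real.rpow_pos_of_pos hp _) (Real.exp_pos _)

theorem EntPt_maxwellian_le_one (v : R3) : maxwellian v ≤ 1 := by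
  have h := EntPt_log_maxwellian v
  have h1 := EntPt_log_two_pi.1
  have h2 : Real.log (maxwellian v) ≤ 0 := by
    have : 0 ≤ ‖v‖ ^ 2 := by positivity
    rw [h]; linarith
  exact (Real.log_nonpos_iff (EntPt_maxwellian_pos v).le).1 h2

theorem Hf_nonneg {a b : ℝ} (ha : 0 ≤ a) (hb : 0 < b) : 0 ≤ Hf a b :=
  (sq_nonneg _).trans (EntPt_sq_le_Hf ha hb)

theorem Hf_self {b : ℝ} (hb : 0 < b) : Hf b b = 0 := by
  simp [Hf, div_self hb.ne']

theorem Hf_zero (b : ℝ) : Hf 0 b = b := by
  simp [Hf]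

theorem Hf_convex {a b ε : ℝ} (ha : 0 ≤ a) (hb : 0 < b) (h0 : 0 ≤ ε) (h1 : ε ≤ 1) :
    Hf ((1 - ε) * a + ε * b) b ≤ (1 - ε) * Hf a b := by
  have h := Real.convexOn_mul_log.2 (show a ∈ Ici (0 : ℝ) from ha)
    (show b ∈ Ici (0 : ℝ) from hb.le) (show 0 ≤ 1 - ε by linarith) h0 (by ring)
  simp only [smul_eq_mul] at h
  rw [EntPt_Hf_eq _ hb, EntPt_Hf_eq _ hb]
  nlinarith

theorem continuousOn_Hf {b : ℝ} (hb : 0 < b) : ContinuousOn (fun a => Hf a b) (Ici 0) := by
  have h : (fun a => Hf a b) = fun a => a * Real.log a - a * Real.log b - a + b :=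
    funext fun a => EntPt_Hf_eq a hb
  rw [h]
  exact (((Real.continuous_mul_log.sub (continuous_id.mul continuous_const)).sub
    continuous_id).add continuous_const).continuousOn

theorem measurable_Hf : Measurable fun p : ℝ × ℝ => Hf p.1 p.2 := by
  unfold Hf
  exact ((measurable_fst.mul (measurable_fst.div measurable_snd).log).sub measurable_fst).add
    measurable_snd

/-- A `C¹` function on `ℝ` that agrees with the regularised entropy on `[0, ∞)`. -/
theorem exists_Hf_ext {b ε : ℝ} (hb : 0 < b) (h0 : 0 < ε) (h1 : ε < 1) : ∃ Φ Φ' : ℝ → ℝ,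
    (∀ y, HasDerivAt Φ (Φ' y) y) ∧ Continuous Φ' ∧ ∀ a, 0 ≤ a →
      Φ a = Hf ((1 - ε) * a + ε * b) b ∧ Φ' a = (1 - ε) * Real.log (((1 - ε) * a + ε * b) / b) := by
  have hpos : ∀ y : ℝ, 0 ≤ y → 0 < (1 - ε) * y + ε * b := fun y hy => by
    have : 0 ≤ (1 - ε) * y := mul_nonneg (by linarith) hy
    have : 0 < ε * b := mul_pos h0 hb
    linarith
  set ψ : ℝ → ℝ := fun y => (1 - ε) * Real.log (((1 - ε) * max y 0 + ε * b) / b) with hψ
  have hc : Continuous ψ := by
    refine continuous_const.mul (Continuous.log (by fun_prop) fun y => ?_)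
    exact (div_pos (hpos _ (le_max_right _ _)) hb).ne'
  have hψa : ∀ a, 0 ≤ a → ψ a = (1 - ε) * Real.log (((1 - ε) * a + ε * b) / b) := fun a ha => by
    simp only [hψ, max_eq_left ha]
  have hG : ∀ y, 0 ≤ y → HasDerivAt (fun y => Hf ((1 - ε) * y + ε * b) b) (ψ y) y := fun y hy => by
    have e : (fun y => Hf ((1 - ε) * y + ε * b) b) = fun y =>
        ((1 - ε) * y + ε * b) * Real.log ((1 - ε) * y + ε * b) -
          ((1 - ε) * y + ε * b) * Real.log b - ((1 - ε) * y + ε * b) + b :=
      funext fun y => EntPt_Hf_eq _ hb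
    have hl : HasDerivAt (fun y => (1 - ε) * y + ε * b) (1 - ε) y := by
      simpa using ((hasDerivAt_id y).const_mul (1 - ε)).add_const (ε * b)
    have hp := hpos y hy
    have h2 := (((hl.mul (hl.log hp.ne')).sub (hl.mul_const (Real.log b))).sub hl).add_const b
    rw [e, hψa y hy, Real.log_div hp.ne' hb.ne']
    refine h2.congr_deriv ?_
    rw [mul_div_cancel₀ _ hp.ne']
    ring
  refine ⟨fun y => Hf (ε * b) b + ∫ t in (0 : ℝ)..y, ψ t, ψ, fun y => ?_, hc, fun a ha => ⟨?_, hψa a ha⟩⟩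
  · exact (hc.integral_hasStrictDerivAt 0 y).hasDerivAt.const_add _
  · have := intervalIntegral.integral_eq_sub_of_hasDerivAt
      (f := fun y => Hf ((1 - ε) * y + ε * b) b) (f' := ψ) (a := 0) (b := a)
      (fun y hy => hG y (by rw [uIcc_of_le ha] at hy; exact hy.1)) (hc.intervalIntegrable _ _)
    simp only [this]
    simp

theorem abs_log_reg_le {a ε : ℝ} (ha : 0 ≤ a) (h0 : 0 < ε) (h1 : ε < 1) (v : R3) :
    |Real.log (((1 - ε) * a + ε * maxwellian v) / maxwellian v)| ≤
      |Real.log ε| + max (Real.log a) 0 + ‖v‖ ^ 2 / 2 + 3 := by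
  have hM := EntPt_maxwellian_pos v
  have hM1 := EntPt_maxwellian_le_one v
  have hlM := EntPt_log_maxwellian v
  have hpi := EntPt_log_two_pi
  have h2 : 0 ≤ (1 - ε) * a := mul_nonneg (by linarith) ha
  have h3 : 0 < ε * maxwellian v := mul_pos h0 hM
  have hp : 0 < (1 - ε) * a + ε * maxwellian v := by linarith
  have hv : 0 ≤ ‖v‖ ^ 2 := by positivity
  have hm0 : 0 ≤ max (Real.log a) 0 := le_max_right _ _
  rw [abs_le]
  constructor
  · have : Real.log ε ≤ Real.log (((1 - ε) * a + ε * maxwellian v) / maxwellian v) := by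
      refine Real.log_le_log h0 ?_
      rw [le_div_iff₀ hM]; linarith
    have := neg_abs_le (Real.log ε)
    linarith
  · have h4 : Real.log ((1 - ε) * a + ε * maxwellian v) ≤ max (Real.log a) 0 := by
      rcases le_total a 1 with h | h
      · refine le_trans (Real.log_nonpos hp.le ?_) hm0
        nlinarith
      · refine le_trans (Real.log_le_log hp ?_) (le_max_left _ _)
        nlinarith
    rw [Real.log_div hp.ne' hM.ne', hlM]
    have := abs_nonneg (Real.log ε)
    linarith [hpi.2]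

theorem maxwellian_post {w : R3} (hw : ‖w‖ = 1) (v vs : R3) :
    maxwellian (postVel v vs w) * maxwellian (postVelStar v vs w) = maxwellian v * maxwellian vs := by
  have h := post_energy' hw v vs
  have key : Real.exp (-‖postVel v vs w‖ ^ 2 / 2) * Real.exp (-‖postVelStar v vs w‖ ^ 2 / 2) =
      Real.exp (-‖v‖ ^ 2 / 2) * Real.exp (-‖vs‖ ^ 2 / 2) := by
    rw [← Real.exp_add, ← Real.exp_add]
    congr 1
    linarith
  unfold maxwellian
  rw [mul_mul_mul_comm, key, mul_mul_mul_comm]

theorem mul_log_div_nonneg {A B : ℝ} (hA : 0 < A) (hB : 0 < B) : 0 ≤ (A - B) * Real.log (A / B) := by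
  rcases le_total A B with h | h
  · exact mul_nonneg_of_nonpos_of_nonpos (by linarith)
      (Real.log_nonpos (div_pos hA hB).le ((div_le_one hB).2 h))
  · exact mul_nonneg (by linarith) (Real.log_nonneg ((one_le_div hB).2 h))

theorem EntPt_tendsto_top {A : ℝ} (hA : 0 < A) {An Bn : ℕ → ℝ}
    (hAn : ∀ n, 0 < An n) (hBn : ∀ n, 0 < Bn n) (h1 : Tendsto An atTop (𝓝 A))
    (h2 : Tendsto Bn atTop (𝓝 0)) :
    Tendsto (fun n => ENNReal.ofReal ((An n - Bn n) * Real.log (An n / Bn n))) atTop (𝓝 ⊤) := by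
  have h3 : Tendsto (fun n => An n - Bn n) atTop (𝓝 A) := by simpa using h1.sub h2
  have h4 : Tendsto Bn atTop (𝓝[>] 0) :=
    tendsto_nhdsWithin_iff.2 ⟨h2, Eventually.of_forall hBn⟩
  have h5 : Tendsto (fun n => (Bn n)⁻¹) atTop atTop := tendsto_inv_nhdsGT_zero.comp h4
  have h6 : Tendsto (fun n => An n / Bn n) atTop atTop := by
    simp only [div_eq_mul_inv]
    exact h1.pos_mul_atTop hA h5
  have h7 := h3.pos_mul_atTop hA (Real.tendsto_log_atTop.comp h6)
  exact ENNReal.tendsto_ofReal_atTop.comp h7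

/-- Lower semicontinuity of the dissipation integrand. -/
theorem pairDissipation_le_liminf {A B : ℝ} (hA : 0 ≤ A) (hB : 0 ≤ B) {An Bn : ℕ → ℝ}
    (hAn : ∀ n, 0 < An n) (hBn : ∀ n, 0 < Bn n) (h1 : Tendsto An atTop (𝓝 A))
    (h2 : Tendsto Bn atTop (𝓝 B)) :
    pairDissipation A B ≤
      liminf (fun n => ENNReal.ofReal ((An n - Bn n) * Real.log (An n / Bn n))) atTop := by
  unfold pairDissipation
  split_ifs with c1 c2
  · exact zero_le
  · have h3 : Tendsto (fun n => (An n - Bn n) * Real.log (An n / Bn n)) atTop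
        (𝓝 ((A - B) * Real.log (A / B))) :=
      (h1.sub h2).mul ((h1.div h2 c2.2.ne').log (div_pos c2.1 c2.2).ne')
    exact (ENNReal.tendsto_ofReal h3).liminf_eq.ge
  · rcases hA.eq_or_lt with hA0 | hA0
    · rcases hB.eq_or_lt with hB0 | hB0
      · exact absurd ⟨hA0.symm, hB0.symm⟩ c1
      · subst hA0
        have h3 := EntPt_tendsto_top hB0 hBn hAn h2 h1
        have e : (fun n => ENNReal.ofReal ((An n - Bn n) * Real.log (An n / Bn n))) =
            fun n => ENNReal.ofReal ((Bn n - An n) * Real.log (Bn n / An n)) := by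
          funext n
          rw [Real.log_div (hAn n).ne' (hBn n).ne', Real.log_div (hBn n).ne' (hAn n).ne']
          congr 1
          ring
        rw [e]
        exact h3.liminf_eq.ge
    · rcases hB.eq_or_lt with hB0 | hB0
      · subst hB0
        exact (EntPt_tendsto_top hA0 hAn hBn h1 h2).liminf_eq.ge
      · exact absurd ⟨hA0, hB0⟩ c2

theorem measurable_pairDissipation : Measurable fun p : ℝ × ℝ => pairDissipation p.1 p.2 := by
  unfold pairDissipation
  refine Measurable.ite ?_ measurable_const (Measurable.ite ?_ ?_ measurable_const)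
  · exact (measurableSet_eq_fun measurable_fst measurable_const).inter
      (measurableSet_eq_fun measurable_snd measurable_const)
  · exact (measurableSet_lt measurable_const measurable_fst).inter
      (measurableSet_lt measurable_const measurable_snd)
  · exact ((measurable_fst.sub measurable_snd).mul
      (measurable_fst.div measurable_snd).log).ennreal_ofReal

theorem mul_abs_log_le {a : ℝ} (ha : 0 ≤ a) (v : R3) :
    a * |Real.log a| ≤ a * max (Real.log a) 0 + a * ‖v‖ ^ 2 + Real.exp (-‖v‖ ^ 2 / 2) := by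
  have hv : 0 ≤ a * ‖v‖ ^ 2 := by positivity
  have he := Real.exp_pos (-‖v‖ ^ 2 / 2)
  have hm : 0 ≤ a * max (Real.log a) 0 := mul_nonneg ha (le_max_right _ _)
  rcases ha.eq_or_lt with rfl | ha'
  · simp only [zero_mul, zero_add]; exact he.le
  rcases le_total 0 (Real.log a) with h | h
  · rw [abs_of_nonneg h, max_eq_left h]; linarith
  · rw [abs_of_nonpos h]
    rcases le_total (-Real.log a) (‖v‖ ^ 2) with h' | h'
    · have := mul_le_mul_of_nonneg_left h' ha
      linarith
    · set L := -Real.log a with hL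
      have hL0 : 0 ≤ L := by linarith
      have e1 : a = Real.exp (-L / 2) * Real.exp (-L / 2) := by
        rw [← Real.exp_add, show -L / 2 + -L / 2 = Real.log a by rw [hL]; ring, Real.exp_log ha']
      have e2 : L ≤ Real.exp (L / 2) := by
        have h1 := Real.add_one_le_exp (L / 4)
        have h2 : Real.exp (L / 2) = Real.exp (L / 4) * Real.exp (L / 4) := by
          rw [← Real.exp_add]; congr 1; ring
        rw [h2]
        nlinarith [sq_nonneg (1 - L / 4)]
      have e3 : Real.exp (-L / 2) * Real.exp (L / 2) = 1 := by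
        rw [← Real.exp_add]; simp [neg_div]
      have e4 : Real.exp (-L / 2) ≤ Real.exp (-‖v‖ ^ 2 / 2) := Real.exp_le_exp.2 (by linarith)
      have e5 := Real.exp_pos (-L / 2)
      have e6 : Real.exp (-L / 2) * L ≤ 1 := by
        rw [← e3]; exact mul_le_mul_of_nonneg_left e2 e5.le
      have e7 : a * L ≤ Real.exp (-L / 2) := by
        calc a * L = Real.exp (-L / 2) * (Real.exp (-L / 2) * L) := by
              rw [← mul_assoc, ← e1]
          _ ≤ Real.exp (-L / 2) * 1 := mul_le_mul_of_nonneg_left e6 e5.le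
          _ = _ := mul_one _
      linarith

theorem Hf_maxwellian_le {a : ℝ} (ha : 0 ≤ a) (v : R3) :
    Hf a (maxwellian v) ≤ a * max (Real.log a) 0 + a * (‖v‖ ^ 2 / 2 + 3) + maxwellian v := by
  rw [EntPt_Hf_eq _ (EntPt_maxwellian_pos v), EntPt_log_maxwellian]
  have h1 := mul_le_mul_of_nonneg_left (le_max_left (Real.log a) 0) ha
  have h2 := mul_le_mul_of_nonneg_left EntPt_log_two_pi.2 ha
  nlinarith

/-- A Pinsker-type bound (homogeneity reduces to `b = 1`). -/
theorem abs_sub_le_Hf {η : ℝ} (hη : 0 < η) : ∃ C : ℝ, 0 < C ∧ ∀ a b : ℝ, 0 ≤ a → 0 < b →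
    |a - b| ≤ η * b + C * Hf a b := by
  refine ⟨1 + η⁻¹, by positivity, fun a b ha hb => ?_⟩
  have h1 := EntPt_sq_le_Hf ha hb
  have hsa := Real.sqrt_nonneg a
  have hsb := Real.sqrt_nonneg b
  have h6 := Real.sq_sqrt ha
  have h7 := Real.sq_sqrt hb.le
  set h := |√a - √b| with hh
  have hh0 : 0 ≤ h := abs_nonneg _
  have hh2 : h ^ 2 = (√a - √b) ^ 2 := sq_abs _
  have e1 : |a - b| = h * (√a + √b) := by
    rw [show a - b = (√a - √b) * (√a + √b) by nlinarith, abs_mul,
      abs_of_nonneg (add_nonneg hsa hsb)]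
  have e2 : √a + √b ≤ h + 2 * √b := by
    have := le_abs_self (√a - √b)
    linarith
  have e3 : 2 * h * √b ≤ η * b + η⁻¹ * h ^ 2 := by
    have h8 : 0 ≤ η⁻¹ * (h - η * √b) ^ 2 := by positivity
    have h9 : η⁻¹ * (h - η * √b) ^ 2 = η⁻¹ * h ^ 2 - 2 * h * √b + η * √b ^ 2 := by
      field_simp
      ring
    rw [h9, h7] at h8
    linarith
  have e4 : (1 + η⁻¹) * h ^ 2 ≤ (1 + η⁻¹) * Hf a b :=
    mul_le_mul_of_nonneg_left (hh2 ▸ h1) (by positivity)
  have e5 := mul_le_mul_of_nonneg_left e2 hh0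
  rw [e1]
  nlinarith

theorem EntPt_cell_eq : cell = (fun x : R3 => (x.ofLp : Fin 3 → ℝ)) ⁻¹'
    (Set.pi univ fun _ => Ico (0 : ℝ) 1) := by
  ext x
  simp [cell]

theorem EntPt_measurableSet_cell : MeasurableSet cell := by
  rw [EntPt_cell_eq]
  exact (PiLp.volume_preserving_ofLp (Fin 3)).measurable
    (MeasurableSet.univ_pi fun _ => measurableSet_Ico)

theorem EntPt_volume_cell : volume cell = 1 := by
  rw [EntPt_cell_eq, (PiLp.volume_preserving_ofLp (Fin 3)).measure_preimage
    (MeasurableSet.univ_pi fun _ => measurableSet_Ico).nullMeasurableSet, volume_pi_pi]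
  simp

theorem EntPt_sub_add_sub {x : ℝ≥0∞} (hx : x ≠ ⊤) {b : ℝ} (hb : 0 ≤ b) :
    (x - ENNReal.ofReal b) + (ENNReal.ofReal b - x) = ENNReal.ofReal |x.toReal - b| := by
  have ht : 0 ≤ x.toReal := ENNReal.toReal_nonneg
  conv_lhs => rw [← ENNReal.ofReal_toReal hx]
  rw [← ENNReal.ofReal_sub _ hb, ← ENNReal.ofReal_sub _ ht]
  rcases le_total x.toReal b with h | h
  · rw [ENNReal.ofReal_of_nonpos (by linarith : x.toReal - b ≤ 0), zero_add,
      abs_of_nonpos (by linarith), neg_sub]
  · rw [ENNReal.ofReal_of_nonpos (by linarith : b - x.toReal ≤ 0), add_zero,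
      abs_of_nonneg (by linarith)]

theorem l1_le_relEntropy {η : ℝ≥0} (hη : 0 < η) : ∃ C : ℝ≥0, ∀ f : R3 → R3 → ℝ≥0∞,
    (Measurable fun q : R3 × R3 => f q.1 q.2) → (∀ x v, f x v ≠ ⊤) →
    ∫⁻ x in cell, ∫⁻ v, ((f x v - Mx v) + (Mx v - f x v)) ≤
      η + C * relEntropy fun x v => (f x v).toReal := by
  obtain ⟨C, hC, H⟩ := abs_sub_le_Hf (η := η) (by exact_mod_cast hη)
  lift C to ℝ≥0 using hC.le
  refine ⟨C, fun f hf hfin => ?_⟩
  have hMm : Measurable maxwellian := by
    unfold maxwellian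
    fun_prop
  set G : R3 × R3 → ℝ≥0∞ := fun q => ENNReal.ofReal (Hf (f q.1 q.2).toReal (maxwellian q.2))
    with hG
  have hGm : Measurable G :=
    (measurable_Hf.comp (hf.ennreal_toReal.prodMk (hMm.comp measurable_snd))).ennreal_ofReal
  have hrel : relEntropy (fun x v => (f x v).toReal) = ∫⁻ x in cell, ∫⁻ v, G (x, v) := by
    have : relEntropy (fun x v => (f x v).toReal) =
        ∫⁻ q in cell ×ˢ univ, G q ∂(volume : Measure (R3 × R3)) := rfl
    rw [this, Measure.volume_eq_prod, ← Measure.prod_restrict, Measure.restrict_univ,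
      lintegral_prod _ hGm.aemeasurable]
  have hpt : ∀ x v, (f x v - Mx v) + (Mx v - f x v) ≤
      η * Mx v + (C : ℝ≥0∞) * G (x, v) := fun x v => by
    have hM := EntPt_maxwellian_pos v
    have h1 := H (f x v).toReal (maxwellian v) ENNReal.toReal_nonneg hM
    have h2 := Hf_nonneg (ENNReal.toReal_nonneg (a := f x v)) hM
    unfold Mx
    rw [EntPt_sub_add_sub (hfin x v) hM.le]
    refine (ENNReal.ofReal_le_ofReal h1).trans_eq ?_
    rw [ENNReal.ofReal_add (by positivity) (by positivity), ENNReal.ofReal_mul η.coe_nonneg,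
      ENNReal.ofReal_mul hC.le, ENNReal.ofReal_coe_nnreal, ENNReal.ofReal_coe_nnreal]
  calc ∫⁻ x in cell, ∫⁻ v, ((f x v - Mx v) + (Mx v - f x v))
      ≤ ∫⁻ x in cell, (η + (C : ℝ≥0∞) * ∫⁻ v, G (x, v)) := by
        refine lintegral_mono fun x => (lintegral_mono (hpt x)).trans_eq ?_
        rw [lintegral_add_left (measurable_Mx.const_mul _), lintegral_const_mul _ measurable_Mx,
          lintegral_Mx, mul_one, lintegral_const_mul' _ _ ENNReal.coe_ne_top]
    _ = _ := by
        rw [lintegral_add_left measurable_const, lintegral_const, Measure.restrict_apply_univ,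
          EntPt_volume_cell, mul_one, lintegral_const_mul _ hGm.lintegral_prod_right', hrel]

end Crest.Agent.R68
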