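/-
R68/W1: transport of the weights, plane bounds, two-point inequalities
Skeleton by helper76 (row 68); keep the statements unchanged, add any helper lemmas you like.
-/
import Crest.Agent.R68.C1

set_option autoImplicit false
set_option linter.unusedVariables false
set_option linter.unusedSectionVars false

noncomputable section

namespace Crest.Agent.R68

open MeasureTheory Set Filter Topology
open scoped ENNReal NNReal
open Crest.AnalysisR.VecCalc3 Crest.AnalysisR.PDE.Boltzmann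

/-- `exp a` in `ℝ≥0∞` -/
def W1e (a : ℝ) : ℝ≥0∞ := ENNReal.ofReal (Real.exp a)

theorem W1e_add (a b : ℝ) : W1e a * W1e b = W1e (a + b) := by
  rw [W1e, W1e, W1e, Real.exp_add, ENNReal.ofReal_mul (Real.exp_pos a).le]

theorem W1e_mono {a b : ℝ} (h : a ≤ b) : W1e a ≤ W1e b :=
  ENNReal.ofReal_le_ofReal (Real.exp_le_exp.2 h)

theorem W1e_le_pow (n : ℕ) : W1e n ≤ 3 ^ n := by
  have h : Real.exp n ≤ 3 ^ n := by
    rw [← Real.exp_one_pow]
    exact pow_le_pow_left₀ (Real.exp_pos _).le (Real.exp_one_lt_d9.le.trans (by norm_num)) _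
  refine (ENNReal.ofReal_le_ofReal h).trans (le_of_eq ?_)
  rw [ENNReal.ofReal_pow (by norm_num), ENNReal.ofReal_ofNat]

theorem W1e_le_mul {a b : ℝ} (n : ℕ) (h : a ≤ n + b) : W1e a ≤ 3 ^ n * W1e b :=
  ((W1e_mono h).trans (W1e_add _ _).ge).trans (mul_le_mul_left (W1e_le_pow n) _)

theorem W1e_le_two {a b : ℝ} (h : a ≤ 1 / 4 + b) : W1e a ≤ 2 * W1e b := by
  refine ((W1e_mono h).trans (W1e_add _ _).ge).trans (mul_le_mul_left ?_ _)
  rw [← ENNReal.ofReal_ofNat]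
  refine ENNReal.ofReal_le_ofReal ?_
  rw [← Real.le_log_iff_exp_le (by norm_num)]
  linarith [Real.log_two_gt_d9]

theorem W1_ga (β : ℝ) (v : R3) : ga β v = W1e (-β * ‖v‖ ^ 2) := rfl

theorem W1_ga_anti {β β' : ℝ} (h : β' ≤ β) (v : R3) : ga β v ≤ ga β' v :=
  W1e_mono (by nlinarith [sq_nonneg ‖v‖])

theorem W1_gn_Cm {E : Fn} (hE : Meas E) {g : R3 → ℝ≥0∞} (hg : Measurable g) {t : ℝ} {x v : R3}
    {c : ℝ≥0∞} (hc : c ≠ ⊤) (h : ∀ u, u ≠ v → E t x u ≠ 0 → pl g v (dir (v - u)) ≤ c) :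
    gn (E t x) g v ≤ 2 * c * Cm E t x v := by
  refine (gn_le_carleman (hE.slice t x) hg h).trans ?_
  rw [lintegral_mul_const' _ _ hc, mul_assoc, mul_comm c]
  exact mul_le_mul_right (mul_le_mul_left (inv_le_Cm E t x v) _) _

/-- For `z = v + y`, `y ⊥ v - u`: `‖z‖² = ‖v‖² + 2 ⟪u, y⟫ + ‖y‖²`. -/
theorem plane_norm {u v y : R3} (hu : ‖u‖ ≤ 3) (huv : u ≠ v) (hy : inner ℝ y (dir (v - u)) = 0) :
    ‖v‖ ^ 2 + ‖y‖ ^ 2 / 2 - 18 ≤ ‖v + y‖ ^ 2 ∧ ‖v‖ ^ 2 - 9 ≤ ‖v + y‖ ^ 2 := by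
  have h1 : inner ℝ y (v - u) = 0 := by
    rw [dir, inner_smul_right] at hy
    exact (mul_eq_zero.1 hy).resolve_left (inv_ne_zero (norm_ne_zero_iff.2 (sub_ne_zero.2 huv.symm)))
  have h2 := (abs_le.1 (abs_real_inner_le_norm y u)).1
  have h3 := mul_le_mul_of_nonneg_left hu (norm_nonneg y)
  rw [inner_sub_right] at h1
  rw [norm_add_sq_real, real_inner_comm]
  constructor <;> nlinarith [sq_nonneg (‖y‖ - 6), sq_nonneg (‖y‖ - 3)]

namespace CP

variable {P : CP} {r s t : ℝ} {x v : R3}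

theorem W1_eW (t : ℝ) (x v : R3) : eW t x v = W1e (-(2 - t) * ‖v‖ ^ 2 + -mm t x v ^ 2) :=
  W1e_add _ _

theorem W1_mm_nonneg (t : ℝ) (x v : R3) : 0 ≤ mm t x v := (norm_nonneg v).trans (le_max_left _ _)

theorem W1_norm_le (t : ℝ) (x v : R3) : ‖v‖ ^ 2 ≤ mm t x v ^ 2 :=
  pow_le_pow_left₀ (norm_nonneg v) (le_max_left _ _) 2

theorem W1_mm_sq (ht : 0 ≤ t) (x : R3) {v z : R3} {a : ℝ} (ha : 0 ≤ a)
    (h : ‖v‖ ^ 2 ≤ ‖z‖ ^ 2 + a) : mm t x v ^ 2 ≤ mm t x z ^ 2 + a := by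
  have h1 := W1_norm_le t x z
  have h2 : (dd x / t) ^ 2 ≤ mm t x z ^ 2 :=
    pow_le_pow_left₀ (div_nonneg (dd_nonneg x) ht) (le_max_right _ _) 2
  rcases max_choice ‖v‖ (dd x / t) with e | e <;> rw [show mm t x v = _ from e] <;> linarith

theorem mm_pa (hs : 0 < s) (hst : s ≤ t) (x v : R3) : mm t x v ≤ mm s (x - (t - s) • v) v := by
  refine max_le (le_max_left _ _) ?_
  have h1 := le_dd_sub x ((t - s) • v)
  have h2 : dd (x - (t - s) • v) ≤ mm s (x - (t - s) • v) v * s :=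
    (div_le_iff₀ hs).1 (le_max_right _ _)
  have h3 := mul_le_mul_of_nonneg_left (show ‖v‖ ≤ mm s (x - (t - s) • v) v from le_max_left _ _)
    (sub_nonneg.2 hst)
  rw [norm_smul, Real.norm_of_nonneg (sub_nonneg.2 hst)] at h1
  rw [div_le_iff₀ (hs.trans_le hst)]
  linarith

theorem eW_pa (hs : 0 < s) (hst : s ≤ t) (x v : R3) :
    pa eW t x v s ≤ ga (t - s) v * eW t x v := by
  have h := pow_le_pow_left₀ (W1_mm_nonneg t x v) (mm_pa hs hst x v) 2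
  rw [pa, W1_eW, W1_eW, W1_ga, W1e_add]
  exact W1e_mono (by linarith)

/-- The gain if `mm` grows backwards in time. -/
theorem eW_pa' (hst : s ≤ t) (x v : R3) {d : ℝ}
    (hd : mm t x v ^ 2 + d ≤ mm s (x - (t - s) • v) v ^ 2) :
    pa eW t x v s ≤ ENNReal.ofReal (Real.exp (-d)) * eW t x v := by
  have h := mul_le_mul_of_nonneg_right hst (sq_nonneg ‖v‖)
  rw [pa, W1_eW, W1_eW]
  exact (W1e_mono (by linarith)).trans (W1e_add (-d) _).ge

theorem W_pa (h : P.OK) : ∀ t ∈ Icc 0 P.t₁, ∀ x v, ∀ s ∈ Ioc 0 t,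
    pa P.W t x v s ≤ P.Cw * ga (t - s) v * P.W t x v := by
  intro t ht x v s hs
  refine (mul_le_mul' (eW_pa hs.1 hs.2 x v) (om_pa' h hs.1 hs.2 ht.2 x v)).trans (le_of_eq ?_)
  change _ = _ * (eW t x v * P.om t x v)
  ring

theorem Zf_pa (P : CP) (hst : s ≤ t) (x v : R3) :
    P.Zf s (x - (t - s) • v) v + (t - s) * (2 * P.nb + ‖v‖) ≤ P.Zf t x v := by
  have h1 := dd_sub_le x ((t - s) • v)
  rw [norm_smul, Real.norm_of_nonneg (sub_nonneg.2 hst)] at h1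
  unfold Zf
  linarith

theorem Zf_nonneg (P : CP) (ht : 0 ≤ t) (x v : R3) : 0 ≤ P.Zf t x v := by
  have := dd_nonneg x
  unfold Zf
  positivity

theorem W1_Th_nonneg (h : P.OK) (ht : 0 ≤ t) (x v : R3) : 0 ≤ P.Th t x v :=
  le_min zero_le_one (pow_nonneg (div_nonneg (P.Zf_nonneg ht x v) h.r₁_pos.le) _)

theorem W1_K₀ (h : P.OK) : 0 ≤ P.K₀ := by linarith [h.four_le_K₀]

theorem W1_Th_le (h : P.OK) (ht : 0 ≤ t) (x : R3) {v z : R3} {ρ : ℝ} (hρ : 0 ≤ ρ)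
    (hz : ‖z‖ ≤ ‖v‖ + ρ) : P.Th t x z ≤ Real.exp ρ * P.Th t x v := by
  have hn : (0 : ℝ) < P.nb := by exact_mod_cast h.nb_ge
  have h1 : P.Zf t x z ≤ (1 + ρ / P.nb) * P.Zf t x v := by
    have a1 : 2 * t * P.nb ≤ P.Zf t x v := by
      have := dd_nonneg x
      have := mul_nonneg ht (norm_nonneg v)
      unfold Zf
      linarith
    have a2 := mul_le_mul_of_nonneg_left a1 (div_nonneg hρ hn.le)
    have a3 : ρ / P.nb * (2 * t * P.nb) = 2 * t * ρ := by field_simp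
    have a4 := mul_le_mul_of_nonneg_left hz ht
    have a5 : P.Zf t x z ≤ P.Zf t x v + 2 * t * ρ := by
      unfold Zf
      linarith
    linarith
  have h2 : (1 + ρ / P.nb) ^ P.nb ≤ Real.exp ρ := by
    refine (pow_le_pow_left₀ (by positivity) ((add_comm _ _).trans_le
      (Real.add_one_le_exp (ρ / P.nb))) _).trans (le_of_eq ?_)
    rw [← Real.exp_nat_mul, mul_div_cancel₀ _ hn.ne']
  have h3 : (P.Zf t x z / P.r₁) ^ P.nb ≤ Real.exp ρ * (P.Zf t x v / P.r₁) ^ P.nb := by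
    refine (pow_le_pow_left₀ (div_nonneg (P.Zf_nonneg ht x z) h.r₁_pos.le)
      (div_le_div_of_nonneg_right h1 h.r₁_pos.le) _).trans ?_
    rw [mul_div_assoc, mul_pow]
    exact mul_le_mul_of_nonneg_right h2
      (pow_nonneg (div_nonneg (P.Zf_nonneg ht x v) h.r₁_pos.le) _)
  rw [Th, Th, mul_min_of_nonneg _ _ (Real.exp_pos ρ).le, mul_one]
  exact min_le_min (Real.one_le_exp hρ) h3

theorem W1_KTh_le (h : P.OK) (ht : 0 ≤ t) (x : R3) {v z : R3} {ρ : ℝ} (hρ : 0 ≤ ρ)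
    (hz : ‖z‖ ≤ ‖v‖ + ρ) :
    ENNReal.ofReal (P.K₀ * P.Th t x z) ≤ ENNReal.ofReal (P.K₀ * P.Th t x v) * W1e ρ := by
  rw [W1e, ← ENNReal.ofReal_mul (mul_nonneg (W1_K₀ h) (W1_Th_nonneg h ht x v)), mul_assoc,
    mul_comm _ (Real.exp ρ)]
  exact ENNReal.ofReal_le_ofReal (mul_le_mul_of_nonneg_left (W1_Th_le h ht x hρ hz) (W1_K₀ h))

theorem W1_KTh_le' (h : P.OK) (t : ℝ) (x v : R3) :
    ENNReal.ofReal (P.K₀ * P.Th t x v) ≤ ENNReal.ofReal P.K₀ :=
  ENNReal.ofReal_le_ofReal (mul_le_of_le_one_right (W1_K₀ h) (min_le_left _ _))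

theorem W1_meas (h : P.OK) (β t : ℝ) (x v : R3) :
    Measurable fun z => ga β (z - v) * P.om t x z :=
  ((measurable_ga β).comp (measurable_id.sub_const v)).mul (adm_om h t x).measurable

theorem W1_meas' (h : P.OK) (β t : ℝ) (x : R3) : Measurable fun z => ga β z * P.om t x z :=
  (measurable_ga β).mul (adm_om h t x).measurable

theorem W1_pl (h : P.OK) (t : ℝ) (x : R3) {u v : R3} (huv : u ≠ v) {e : R3 → ℝ≥0∞} {c : ℝ≥0∞}
    (he : ∀ y, inner ℝ y (dir (v - u)) = 0 → e (v + y) ≤ c * ga (1 / 8) y) :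
    pl (fun z => e z * P.om t x z) v (dir (v - u)) ≤ c * Kpl := by
  have hn := norm_dir (sub_ne_zero.2 huv.symm)
  refine (pl_mono (g' := fun z => c * (ga (1 / 8) (z - v) * P.om t x z)) (fun y hy => ?_) hn).trans ?_
  · rw [add_sub_cancel_left, ← mul_assoc]
    exact mul_le_mul_left (he y hy) _
  · rw [pl_mul c (W1_meas h _ t x v)]
    exact mul_le_mul_right (Kpl_spec (adm_om h t x) v _ hn) _

theorem W1_gn (h : P.OK) (t : ℝ) (x v : R3) {e e' : R3 → ℝ≥0∞} {c : ℝ≥0∞} {β : ℝ}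
    (hβ : β ∈ Icc (1 / 8 : ℝ) 4)
    (he : ∀ vs w : R3, ‖w‖ = 1 → e (postVel v vs w) * e' (postVelStar v vs w) ≤
      c * (2 * (ga β (postVel v vs w) * ga β (postVelStar v vs w)))) :
    gn (fun z => e z * P.om t x z) (fun z => e' z * P.om t x z) v ≤
      Kgl * br v * (c * ga β v * P.om t x v) := by
  refine (gn_le_of_two_point (c := c * 2) (W1_meas' h β t x) (W1_meas' h β t x)
    fun vs w hw => ?_).trans ?_
  · rw [mul_mul_mul_comm]
    exact (mul_le_mul_left (he vs w hw) _).trans (le_of_eq (by ring))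
  · rw [mul_assoc]
    refine (mul_le_mul_right (Kgl_gn (adm_om h t x) hβ v) _).trans ?_
    exact (le_mul_of_one_le_right' (P.one_le_om t x v)).trans (le_of_eq (by ring))

theorem H_pa (h : P.OK) : ∀ t ∈ Icc 0 P.t₁, ∀ x v, ∀ s ∈ Ioc 0 t,
    pa P.H t x v s ≤ P.Cw * ga (t - s) v * P.H t x v := by
  intro t ht x v s hs
  have h1 : pa P.eH t x v s ≤ ga (t - s) v * P.eH t x v := by
    have a1 := P.Zf_pa hs.2 x v
    have a2 : 0 ≤ (t - s) * (2 * P.nb + ‖v‖) := mul_nonneg (sub_nonneg.2 hs.2) (by positivity)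
    have a3 : P.Th s (x - (t - s) • v) v ≤ P.Th t x v :=
      min_le_min le_rfl (pow_le_pow_left₀ (div_nonneg (P.Zf_nonneg hs.1.le _ _) h.r₁_pos.le)
        (div_le_div_of_nonneg_right (by linarith) h.r₁_pos.le) _)
    rw [pa, eH, eH, mul_left_comm, W1_ga, W1_ga, W1_ga, W1e_add]
    exact mul_le_mul' (ENNReal.ofReal_le_ofReal (mul_le_mul_of_nonneg_left a3 (W1_K₀ h)))
      (W1e_mono (by linarith))
  refine (mul_le_mul' h1 (om_pa' h hs.1 hs.2 ht.2 x v)).trans (le_of_eq ?_)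
  change _ = _ * (P.eH t x v * P.om t x v)
  ring

theorem reg_W (h : P.OK) : Reg P.W := by
  exact reg_eW.mul (reg_om h)

theorem reg_H (h : P.OK) : Reg P.H := by
  exact P.reg_eH.mul (reg_om h)

theorem reg_mw (h : P.OK) : Reg P.mw := by
  exact Reg.mul ⟨meas_vl (measurable_ga _), invF_vl _, fun _ _ _ => ENNReal.ofReal_ne_top⟩ (reg_om h)

theorem eW_le_W (P : CP) : eW ≤ P.W := by
  exact fun t x v => le_mul_of_one_le_right' (P.one_le_om t x v)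

theorem W_le_mw (ht : t ∈ Icc (0 : ℝ) 1) (x v : R3) : P.W t x v ≤ P.mw t x v := by
  refine mul_le_mul_left (?_ : eW t x v ≤ ga (1 / 4) v) _
  rw [W1_eW]
  exact W1e_mono (by nlinarith [sq_nonneg ‖v‖, sq_nonneg (mm t x v), ht.2])

theorem H_le_mw (h : P.OK) (ht : t ∈ Icc (0 : ℝ) 1) (x v : R3) :
    P.H t x v ≤ ENNReal.ofReal P.K₀ * P.mw t x v := by
  change P.eH t x v * P.om t x v ≤ _ * (ga (1 / 4) v * P.om t x v)
  rw [← mul_assoc]
  exact mul_le_mul_left (mul_le_mul' (W1_KTh_le' h t x v) (W1_ga_anti (by linarith [ht.2]) v)) _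

theorem Mx_le_mw (P : CP) (t : ℝ) (x v : R3) : Mx v ≤ P.mw t x v := by
  exact ((Mx_le v).trans (W1_ga_anti (by norm_num) v)).trans
    (le_mul_of_one_le_right' (a := ga (1 / 4) v) (P.one_le_om t x v))

theorem W_ge {ρ : ℝ} (ht : t ∈ Ioc (0 : ℝ) 1) (hv : ‖v‖ ≤ ρ) (hx : dd x ≤ ρ * t) :
    ENNReal.ofReal (Real.exp (-(3 * ρ ^ 2))) ≤ P.W t x v := by
  refine le_trans ?_ (P.eW_le_W t x v)
  have h1 : mm t x v ≤ ρ := max_le hv ((div_le_iff₀ ht.1).2 hx)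
  have h2 := pow_le_pow_left₀ (W1_mm_nonneg t x v) h1 2
  have h3 := W1_norm_le t x v
  have h4 := mul_nonneg ht.1.le (sq_nonneg ‖v‖)
  rw [W1_eW]
  exact W1e_mono (by linarith)

/-- `plane_norm`, `pl_mono`. -/
theorem pl_W (h : P.OK) (ht : t ∈ Icc (0 : ℝ) 1) (x : R3) {u v : R3} (hu : ‖u‖ ≤ 3) (huv : u ≠ v)
    {A : Set R3} (hA : MeasurableSet A) :
    pl (A.indicator (P.W t x)) v (dir (v - u)) ≤ 3 ^ 50 * eW t x v *
      pl (A.indicator fun z => ga (1 / 4) (z - v) * P.om t x z) v (dir (v - u)) := by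
  rw [← pl_mul _ ((W1_meas h _ t x v).indicator hA)]
  refine pl_mono (fun y hy => ?_) (norm_dir (sub_ne_zero.2 huv.symm))
  by_cases hy' : v + y ∈ A
  · obtain ⟨h1, h2⟩ := plane_norm hu huv hy
    have h3 := W1_mm_sq ht.1 x (v := v) (z := v + y) (a := 9) (by norm_num) (by linarith)
    have h4 := mul_le_mul_of_nonneg_left h1 (show 0 ≤ 2 - t by linarith [ht.2])
    have h5 := mul_nonneg (show 0 ≤ 1 - t by linarith [ht.2]) (sq_nonneg ‖y‖)
    rw [indicator_of_mem hy', indicator_of_mem hy', add_sub_cancel_left, ← mul_assoc]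
    refine mul_le_mul_left ?_ _
    rw [W1_eW, W1_eW, W1_ga, mul_assoc, W1e_add]
    exact W1e_le_mul 50 (by push_cast; nlinarith [sq_nonneg ‖y‖, ht.1])
  · rw [indicator_of_notMem hy']
    exact zero_le

/-- `Zf (v + y) ≤ Zf v (1 + ‖y‖ / nb)` because `Zf ≥ 2 t nb`; so `Th` changes by at most `e ^ ‖y‖`. -/
theorem pl_H (h : P.OK) (ht : t ∈ Icc (0 : ℝ) 1) (x : R3) {u v : R3} (hu : ‖u‖ ≤ 3) (huv : u ≠ v) :
    pl (P.H t x) v (dir (v - u)) ≤ 3 ^ 55 * Kpl * P.eH t x v := by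
  refine (W1_pl h t x huv (e := P.eH t x) (c := 3 ^ 55 * P.eH t x v) fun y hy => ?_).trans
    (le_of_eq (by ring))
  obtain ⟨h1, -⟩ := plane_norm hu huv hy
  have h4 := mul_le_mul_of_nonneg_left h1 (show 0 ≤ 3 - t by linarith [ht.2])
  have h5 := mul_nonneg (show 0 ≤ 1 - t by linarith [ht.2]) (sq_nonneg ‖y‖)
  have h6 : W1e ‖y‖ * ga (3 - t) (v + y) ≤ 3 ^ 55 * (ga (3 - t) v * ga (1 / 8) y) := by
    rw [W1_ga, W1_ga, W1_ga, W1e_add, W1e_add]
    exact W1e_le_mul 55 (by push_cast; nlinarith [sq_nonneg (‖y‖ - 1), sq_nonneg ‖y‖, ht.1])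
  refine (mul_le_mul_left (W1_KTh_le h ht.1 x (norm_nonneg y) (norm_add_le v y)) _).trans ?_
  rw [mul_assoc]
  refine (mul_le_mul_right h6 _).trans (le_of_eq ?_)
  rw [eH]
  ring

theorem pl_mw (h : P.OK) (t : ℝ) (x : R3) {u v : R3} (hu : ‖u‖ ≤ 3) (huv : u ≠ v) :
    pl (P.mw t x) v (dir (v - u)) ≤ 3 ^ 5 * Kpl * ga (1 / 4) v := by
  refine (W1_pl h t x huv (e := ga (1 / 4)) (c := 3 ^ 5 * ga (1 / 4) v) fun y hy => ?_).trans
    (le_of_eq (by ring))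
  obtain ⟨h1, -⟩ := plane_norm hu huv hy
  rw [W1_ga, W1_ga, W1_ga, mul_assoc, W1e_add]
  exact W1e_le_mul 5 (by push_cast; linarith)

section

variable {E : Fn}

/-- `gn_le_carleman`. -/
theorem gn_W_le (h : P.OK) (ht : t ∈ Icc (0 : ℝ) 1) (x v : R3) (hE : Meas E)
    (hs : ∀ u, E t x u ≠ 0 → ‖u‖ ≤ 3) {A : Set R3} (hA : MeasurableSet A) {B : R3 → ℝ≥0∞}
    (hB : ∀ u, u ≠ v → E t x u ≠ 0 →
      pl (A.indicator fun z => ga (1 / 4) (z - v) * P.om t x z) v (dir (v - u)) ≤ B u) :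
    gn (E t x) (A.indicator (P.W t x)) v ≤
      2 * 3 ^ 50 * eW t x v * ∫⁻ u, E t x u * ‖v - u‖ₑ⁻¹ * B u := by
  have hc : 3 ^ 50 * eW t x v ≠ ⊤ := ENNReal.mul_ne_top (by simp) (reg_eW.fin t x v)
  refine (gn_le_carleman (hE.slice t x) (((reg_W h).meas.slice t x).indicator hA)
    (B := fun u => 3 ^ 50 * eW t x v * B u) fun u huv hu =>
      (pl_W h ht x (hs u hu) huv hA).trans (mul_le_mul_right (hB u huv hu) _)).trans (le_of_eq ?_)
  rw [mul_assoc 2, mul_assoc 2, ← lintegral_const_mul' _ _ hc]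
  congr 2
  funext u
  ring

theorem GN_W_Cm (h : P.OK) (ht : t ∈ Icc (0 : ℝ) 1) (x v : R3) (hE : Meas E)
    (hs : ∀ u, E t x u ≠ 0 → ‖u‖ ≤ 3) :
    GN E P.W t x v ≤ 2 * 3 ^ 50 * Kpl * eW t x v * Cm E t x v := by
  refine (W1_gn_Cm hE ((reg_W h).meas.slice t x) (c := 3 ^ 50 * eW t x v * Kpl)
    (ENNReal.mul_ne_top (ENNReal.mul_ne_top (by simp) (reg_eW.fin t x v)) ENNReal.coe_ne_top)
    fun u huv hu => ?_).trans (le_of_eq (by ring))
  have h1 := pl_W h ht x (hs u hu) huv MeasurableSet.univ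
  rw [indicator_univ, indicator_univ] at h1
  refine h1.trans (mul_le_mul_right ((W1_pl h t x huv (e := fun z => ga (1 / 4) (z - v)) (c := 1)
    fun y _ => ?_).trans (one_mul _).le) _)
  rw [add_sub_cancel_left, one_mul]
  exact W1_ga_anti (by norm_num) y

theorem GN_H_Cm (h : P.OK) (ht : t ∈ Icc (0 : ℝ) 1) (x v : R3) (hE : Meas E)
    (hs : ∀ u, E t x u ≠ 0 → ‖u‖ ≤ 3) :
    GN E P.H t x v ≤ 2 * 3 ^ 55 * Kpl * P.eH t x v * Cm E t x v := by
  exact (W1_gn_Cm hE ((reg_H h).meas.slice t x) (c := 3 ^ 55 * Kpl * P.eH t x v)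
    (ENNReal.mul_ne_top (ENNReal.mul_ne_top (by simp) ENNReal.coe_ne_top) (P.reg_eH.fin t x v))
    fun u huv hu => pl_H h ht x (hs u hu) huv).trans (le_of_eq (by ring))

theorem GN_mw_Cm (h : P.OK) (t : ℝ) (x v : R3) (hE : Meas E) (hs : ∀ u, E t x u ≠ 0 → ‖u‖ ≤ 3) :
    GN E P.mw t x v ≤ 2 * 3 ^ 5 * Kpl * ga (1 / 4) v * Cm E t x v := by
  exact (W1_gn_Cm hE ((reg_mw h).meas.slice t x) (c := 3 ^ 5 * Kpl * ga (1 / 4) v)
    (ENNReal.mul_ne_top (ENNReal.mul_ne_top (by simp) ENNReal.coe_ne_top) ENNReal.ofReal_ne_top)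
    fun u huv hu => pl_mw h t x (hs u hu) huv).trans (le_of_eq (by ring))

end

/-- `Th v' ≤ e ^ ‖v⁎‖ Th v` (`norm_postVel_le`), `e ^ y e ^ (-y²) ≤ 2`, and
`ga β v' ga β v⁎' = ga 1 v ga 1 v⁎ ga (β-1) v' ga (β-1) v⁎'` (`post_energy'`);
`gn_le_of_two_point`, `Kgl_gn`. -/
theorem GN_HH (h : P.OK) (ht : t ∈ Icc (0 : ℝ) 1) (x v : R3) :
    GN P.H P.H t x v ≤ ENNReal.ofReal P.K₀ * Kgl * br v * P.H t x v := by
  refine (W1_gn h t x v (e := P.eH t x) (e' := P.eH t x) (β := 2 - t)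
    (c := ENNReal.ofReal P.K₀ * (ENNReal.ofReal (P.K₀ * P.Th t x v) * ga 1 v))
    ⟨by linarith [ht.2], by linarith [ht.1]⟩ fun vs w hw => ?_).trans (le_of_eq ?_)
  · have h1 := post_energy' hw v vs
    have h2 : W1e ‖vs‖ * ga (3 - t) (postVel v vs w) * ga (3 - t) (postVelStar v vs w) ≤
        2 * (ga 1 v * (ga (2 - t) (postVel v vs w) * ga (2 - t) (postVelStar v vs w))) := by
      simp only [W1_ga, W1e_add]
      exact W1e_le_two (by nlinarith [sq_nonneg (‖vs‖ - 1 / 2)])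
    refine (mul_le_mul' (mul_le_mul_left (W1_KTh_le h ht.1 x (norm_nonneg vs)
      (norm_postVel_le hw v vs)) _) (mul_le_mul_left (W1_KTh_le' h t x _) _)).trans ?_
    refine le_trans (le_of_eq (by ring)) ((mul_le_mul_right h2
      (ENNReal.ofReal P.K₀ * ENNReal.ofReal (P.K₀ * P.Th t x v))).trans (le_of_eq (by ring)))
  · have e : ga (3 - t) v = ga 1 v * ga (2 - t) v := by
      rw [W1_ga, W1_ga, W1_ga, W1e_add]
      congr 1
      ring
    change _ = _ * (P.eH t x v * P.om t x v)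
    rw [eH, e]
    ring

/-- `mm v⁎' ^ 2 ≥ mm v ^ 2 - ‖v'‖ ^ 2`. -/
theorem GN_HW (h : P.OK) (ht : t ∈ Icc (0 : ℝ) 1) (x v : R3) :
    GN P.H P.W t x v ≤ ENNReal.ofReal P.K₀ * Kgl * br v * P.W t x v := by
  refine (W1_gn h t x v (e := P.eH t x) (e' := eW t x) (β := 2 - t)
    (c := ENNReal.ofReal P.K₀ * W1e (-mm t x v ^ 2))
    ⟨by linarith [ht.2], by linarith [ht.1]⟩ fun vs w hw => ?_).trans (le_of_eq ?_)
  · have h1 := post_energy' hw v vs
    have h2 := W1_mm_sq ht.1 x (v := v) (z := postVelStar v vs w) (sq_nonneg ‖postVel v vs w‖)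
      (by linarith [sq_nonneg ‖vs‖])
    have h3 : ga (3 - t) (postVel v vs w) * eW t x (postVelStar v vs w) ≤
        2 * (W1e (-mm t x v ^ 2) * (ga (2 - t) (postVel v vs w) * ga (2 - t) (postVelStar v vs w))) := by
      simp only [W1_eW, W1_ga, W1e_add]
      exact W1e_le_two (by linarith)
    refine (mul_le_mul_left (mul_le_mul_left (W1_KTh_le' h t x _) _) _).trans ?_
    rw [mul_assoc]
    exact (mul_le_mul_right h3 _).trans (le_of_eq (by ring))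
  · change _ = _ * (ga (2 - t) v * W1e (-mm t x v ^ 2) * P.om t x v)
    ring

/-- `mm v' ^ 2 + mm v⁎' ^ 2 ≥ mm v ^ 2`. -/
theorem GN_WW (h : P.OK) (ht : t ∈ Icc (0 : ℝ) 1) (x v : R3) :
    GN P.W P.W t x v ≤ Kgl * br v * P.W t x v := by
  refine (W1_gn h t x v (e := eW t x) (e' := eW t x) (β := 2 - t) (c := W1e (-mm t x v ^ 2))
    ⟨by linarith [ht.2], by linarith [ht.1]⟩ fun vs w hw => ?_).trans (le_of_eq ?_)
  · have h1 := post_energy' hw v vs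
    have h2 := W1_mm_sq ht.1 x (v := v) (z := postVelStar v vs w) (sq_nonneg ‖postVel v vs w‖)
      (by linarith [sq_nonneg ‖vs‖])
    have h3 := W1_norm_le t x (postVel v vs w)
    rw [mul_left_comm]
    simp only [W1_eW, W1_ga, W1e_add]
    exact W1e_le_two (by linarith)
  · change _ = _ * (ga (2 - t) v * W1e (-mm t x v ^ 2) * P.om t x v)
    ring

theorem LS_H (h : P.OK) (ht : t ∈ Icc (0 : ℝ) 1) (x v : R3) :
    LS P.H t x v ≤ ENNReal.ofReal P.K₀ * Kgl * br v := by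
  refine (ls_mono (g' := fun u => ENNReal.ofReal P.K₀ * (ga (1 / 8) u * P.om t x u))
    (fun u => (H_le_mw h ht x u).trans (mul_le_mul_right
      (mul_le_mul_left (W1_ga_anti (by norm_num) u) _) _)) v).trans ?_
  rw [ls_mul _ (W1_meas' h _ t x), mul_assoc]
  exact mul_le_mul_right (Kgl_ls (adm_om h t x) v) _

theorem LS_W (h : P.OK) (ht : t ∈ Icc (0 : ℝ) 1) (x v : R3) : LS P.W t x v ≤ Kgl * br v := by
  exact (ls_mono (g' := fun u => ga (1 / 8) u * P.om t x u) (fun u => (W_le_mw ht x u).trans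
    (mul_le_mul_left (W1_ga_anti (by norm_num) u) _)) v).trans (Kgl_ls (adm_om h t x) v)

end CP

end Crest.Agent.R68
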