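/-
R68/C6: the holes, the entropy and the support of the datum
Skeleton by helper76 (row 68); keep the statements unchanged, add any helper lemmas you like.
-/
import Crest.Agent.R68.C2
import Crest.Agent.R68.EntPt
import Crest.Agent.R68.W1

set_option autoImplicit false
set_option linter.unusedVariables false
set_option linter.unusedSectionVars false

noncomputable section

namespace Crest.Agent.R68

open MeasureTheory Set Filter Topology
open scoped ENNReal NNReal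
open Crest.AnalysisR.VecCalc3 Crest.AnalysisR.PDE.Boltzmann

theorem C6_tail {g : R3 → ℝ≥0∞} (hg : ∫⁻ u, g u ≠ ⊤) {η : ℝ≥0∞} (hη : 0 < η) :
    ∃ R : ℝ, 0 ≤ R ∧ ∫⁻ u in (Metric.closedBall (0 : R3) R)ᶜ, g u ≤ η := by
  have hm : ∀ n : ℕ, MeasurableSet (Metric.closedBall (0 : R3) n)ᶜ := fun n =>
    Metric.isClosed_closedBall.measurableSet.compl
  have h1 := tendsto_measure_iInter_atTop (μ := (volume : Measure R3).withDensity g)
    (s := fun n : ℕ => (Metric.closedBall (0 : R3) n)ᶜ) (fun n => (hm n).nullMeasurableSet)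
    (fun n m hnm => compl_subset_compl.2 (Metric.closedBall_subset_closedBall (by exact_mod_cast hnm)))
    ⟨0, by
      rw [withDensity_apply _ (hm 0)]
      exact ne_top_of_le_ne_top hg (setLIntegral_le_lintegral _ _)⟩
  have h2 : (⋂ n : ℕ, (Metric.closedBall (0 : R3) n)ᶜ) = ∅ := by
    refine eq_empty_of_forall_notMem fun u hu => ?_
    obtain ⟨n, hn⟩ := exists_nat_ge ‖u‖
    exact mem_iInter.1 hu n (mem_closedBall_zero_iff.2 hn)
  rw [h2, measure_empty] at h1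
  obtain ⟨n, hn⟩ := (h1.eventually (ge_mem_nhds hη)).exists
  refine ⟨n, Nat.cast_nonneg n, ?_⟩
  rwa [Function.comp_apply, withDensity_apply _ (hm n)] at hn

theorem C6_per {r : ℝ} : IsPeriodic3 fun y : R3 => ({y | dd y < r} : Set R3).indicator (1 : R3 → ℝ≥0∞) y := by
  intro x i
  have h : (EuclideanSpace.single i 1 : R3) ∈ Gam := by
    constructor
    · by_cases c : (1 : Fin 3) = i
      · exact ⟨1, by simp [c]⟩
      · exact ⟨0, by simp [c]⟩
    · by_cases c : (2 : Fin 3) = i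
      · exact ⟨1, by simp [c]⟩
      · exact ⟨0, by simp [c]⟩
  simp only [indicator, mem_ofPred_eq, dd_add_Gam x h, Pi.one_apply]

theorem C6_vol {t₁ t R r : ℝ} (ht₁ : 0 < t₁) (ht : t₁ ≤ t) (hR : 0 ≤ R) (hr : 0 ≤ r) (x : R3) :
    volume ({u : R3 | dd (x - t • u) < r} ∩ Metric.closedBall 0 R) ≤
      ENNReal.ofReal ((2 * R + 2 / t₁) ^ 3 * (16 * r ^ 2)) := by
  have ht0 : 0 < t := ht₁.trans_le ht
  have hA : MeasurableSet {y : R3 | dd y < r} := measurableSet_lt continuous_dd.measurable measurable_const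
  have hA' : MeasurableSet {u : R3 | dd (x - t • u) < r} :=
    measurableSet_lt (continuous_dd.comp (by fun_prop)).measurable measurable_const
  have hΦ : Measurable fun y : R3 => ({y | dd y < r} : Set R3).indicator (1 : R3 → ℝ≥0∞) y :=
    measurable_one.indicator hA
  have h1 := lintegral_ball_shear hΦ x 0 (R := R) ht0
  have h2 := lintegral_ball_le_cell hΦ C6_per (x - t • (0 : R3)) (mul_nonneg ht0.le hR)
  have h3 : ∫⁻ y in cell, ({y | dd y < r} : Set R3).indicator (1 : R3 → ℝ≥0∞) y ≤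
      ENNReal.ofReal (16 * r ^ 2) := by
    rw [lintegral_indicator_one hA, Measure.restrict_apply hA, inter_comm]
    exact volume_cell_dd hr
  calc _ = ∫⁻ u in Metric.closedBall 0 R,
          ({u : R3 | dd (x - t • u) < r} : Set R3).indicator (1 : R3 → ℝ≥0∞) u := by
        rw [lintegral_indicator_one hA', Measure.restrict_apply hA']
    _ = _ := h1
    _ ≤ ENNReal.ofReal (t⁻¹ ^ 3) * (ENNReal.ofReal ((2 * (t * R) + 2) ^ 3) *
          ENNReal.ofReal (16 * r ^ 2)) := by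
        gcongr
        exact h2.trans (by gcongr)
    _ ≤ _ := by
        rw [← mul_assoc, ← ENNReal.ofReal_mul (by positivity), ← ENNReal.ofReal_mul (by positivity),
          ← mul_pow]
        refine ENNReal.ofReal_le_ofReal ?_
        have e : t⁻¹ * (2 * (t * R) + 2) = 2 * R + 2 / t := by field_simp
        rw [e]
        gcongr

theorem C6_hole {g : R3 → ℝ≥0∞} (hg : ∫⁻ u, g u ≠ ⊤) {η : ℝ≥0∞} (hη : 0 < η) {t₁ : ℝ} (ht₁ : 0 < t₁) :
    ∃ r' : ℝ, 0 < r' ∧ ∀ P : CP, P.r₁ ≤ r' → ∀ t, t₁ ≤ t → ∀ x, ∫⁻ u, g u * P.hole t x u ≤ η := by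
  have hη2 : 0 < η / 2 := ENNReal.half_pos hη.ne'
  obtain ⟨R, hR, h1⟩ := C6_tail hg hη2
  obtain ⟨δ, hδ, h2⟩ := exists_pos_setLIntegral_lt_of_measure_lt hg hη2.ne'
  have h3 : Tendsto (fun r : ℝ => ENNReal.ofReal ((2 * R + 2 / t₁) ^ 3 * (16 * r ^ 2))) (𝓝[>] 0) (𝓝 0) := by
    have : Tendsto (fun r : ℝ => ENNReal.ofReal ((2 * R + 2 / t₁) ^ 3 * (16 * r ^ 2))) (𝓝 0)
        (𝓝 (ENNReal.ofReal ((2 * R + 2 / t₁) ^ 3 * (16 * (0 : ℝ) ^ 2)))) :=
      (ENNReal.continuous_ofReal.comp (by fun_prop)).tendsto 0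
    simpa using this.mono_left nhdsWithin_le_nhds
  obtain ⟨r', h4, h5⟩ := ((h3.eventually (gt_mem_nhds hδ)).and self_mem_nhdsWithin).exists
  refine ⟨r', h5, fun P hP t ht x => ?_⟩
  have hA' : MeasurableSet {u : R3 | dd (x - t • u) < r'} :=
    measurableSet_lt (continuous_dd.comp (by fun_prop)).measurable measurable_const
  have h6 := h2 _ ((C6_vol ht₁ ht hR (le_of_lt h5) x).trans_lt h4)
  calc _ ≤ ∫⁻ u, ({u : R3 | dd (x - t • u) < r'} : Set R3).indicator g u := by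
        refine lintegral_mono fun u => ?_
        unfold CP.hole
        split_ifs with c
        · rw [mul_one, indicator_of_mem (show u ∈ {u : R3 | dd (x - t • u) < r'} from c.trans_le hP)]
        · simp
    _ = ∫⁻ u in {u : R3 | dd (x - t • u) < r'}, g u := lintegral_indicator hA' _
    _ ≤ ∫⁻ u in ({u : R3 | dd (x - t • u) < r'} ∩ Metric.closedBall 0 R) ∪ (Metric.closedBall 0 R)ᶜ, g u := by
        refine lintegral_mono_set fun u hu => ?_
        by_cases c : u ∈ Metric.closedBall (0 : R3) R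
        · exact Or.inl ⟨hu, c⟩
        · exact Or.inr c
    _ ≤ η / 2 + η / 2 := (lintegral_union_le _ _ _).trans (add_le_add h6.le h1)
    _ = η := ENNReal.add_halves η

theorem C6_hole_le_one (P : CP) (t : ℝ) (x u : R3) : P.hole t x u ≤ 1 := by
  unfold CP.hole
  split_ifs <;> simp

/-- On a large ball use `lintegral_ball_shear`, `lintegral_ball_le_cell`, `volume_cell_dd`
(measure `≤ (2 R + 2 / t₁)³ 16 r₁²`); near `u = v` use `lintegral_inv_ga_small`; Gaussian tail. -/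
theorem hole_small {η : ℝ≥0} (hη : 0 < η) {t₁ : ℝ} (ht₁ : 0 < t₁) : ∃ r' : ℝ, 0 < r' ∧ ∀ P : CP,
    P.r₁ ≤ r' → ∀ t, t₁ ≤ t → ∀ x v,
      (∫⁻ u, ‖v - u‖ₑ⁻¹ * ga (1 / 4) u * P.hole t x u ≤ η) ∧
        ∫⁻ u, br u * (Mx u * P.hole t x u) ≤ η := by
  have hη2 : 0 < η / 2 := half_pos hη
  obtain ⟨κ, hκ, h1⟩ := lintegral_inv_ga_small (β := 1 / 4) (by norm_num) hη2
  have g1 : ∫⁻ u, (ENNReal.ofReal κ)⁻¹ * ga (1 / 4) u ≠ ⊤ := by
    rw [lintegral_const_mul _ (measurable_ga _)]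
    refine ENNReal.mul_ne_top (ENNReal.inv_ne_top.2 (by simpa using hκ)) ?_
    simpa using lintegral_br_ga (β := 1 / 4) (by norm_num) 0
  have g2 : ∫⁻ u, br u * Mx u ≠ ⊤ := by
    refine ne_top_of_le_ne_top (lintegral_br_ga (β := 1 / 2) (by norm_num) 1) (lintegral_mono fun u => ?_)
    rw [pow_one]
    gcongr
    exact Mx_le u
  obtain ⟨r₁, hr₁, h2⟩ := C6_hole g1 (η := (η / 2 : ℝ≥0)) (by exact_mod_cast hη2) ht₁
  obtain ⟨r₂, hr₂, h3⟩ := C6_hole g2 (η := η) (by exact_mod_cast hη) ht₁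
  refine ⟨min r₁ r₂, lt_min hr₁ hr₂, fun P hP t ht x v => ⟨?_, ?_⟩⟩
  · rw [← lintegral_add_compl _ (Metric.isClosed_closedBall (x := v) (ε := κ)).measurableSet]
    calc _ ≤ ((η / 2 : ℝ≥0) : ℝ≥0∞) + (η / 2 : ℝ≥0) := by
          refine add_le_add (le_trans (lintegral_mono fun u => ?_) (h1 v)) ?_
          · exact mul_le_of_le_one_right' (C6_hole_le_one P t x u)
          · refine le_trans ?_ (h2 P (hP.trans (min_le_left _ _)) t ht x)
            refine le_trans (setLIntegral_mono' Metric.isClosed_closedBall.measurableSet.compl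
              fun u hu => ?_) (setLIntegral_le_lintegral _ _)
            gcongr
            rw [← ofReal_norm]
            refine ENNReal.ofReal_le_ofReal ?_
            rw [mem_compl_iff, mem_closedBall_iff_norm', not_le] at hu
            exact hu.le
      _ = η := by rw [← ENNReal.coe_add, add_halves]
  · simpa only [mul_assoc] using h3 P (hP.trans (min_le_right _ _)) t ht x

namespace CP

variable {P : CP}

/-- the entropy majorant -/
def C6_Psi (y : ℝ≥0∞) : ℝ≥0∞ := y * ENNReal.ofReal (max (Real.log y.toReal) 0 + 5)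

theorem C6_meas_Psi : Measurable C6_Psi := by
  unfold C6_Psi
  fun_prop

theorem C6_el_zero (h : P.OK) (x : R3) : P.el 0 x = |c2 x| := by
  have := h.T_pos
  rw [h.el_eq le_rfl]
  field_simp
  simp

theorem C6_Wg (h : P.OK) : ∀ᶠ r in 𝓝[>] (0 : ℝ), ∀ b x u, P.E0c r b 0 x u ≠ 0 →
    P.Wg r 0 b 0 x u ∧ P.E0c r b 0 x u ≤ ENNReal.ofReal (P.C / |c2 x| ^ 73) := by
  filter_upwards [E0c_le_amp h] with r h1 b x u hne
  have h2 := h1 b 0 x u le_rfl
  unfold amp at h2
  split_ifs at h2 with c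
  · refine ⟨c, ?_⟩
    simpa [C6_el_zero h] using h2
  · exact absurd (le_zero_iff.1 h2) hne

theorem C6_log {C y a : ℝ} (hC : 1 ≤ C) (hy : 0 < y) (hy1 : y ≤ 1) (ha : 0 ≤ a) (h : a ≤ C / y ^ 73) :
    max (Real.log a) 0 + 5 ≤ (Real.log C + 297) * y ^ (-(1 / 4) : ℝ) := by
  have h1 : 1 ≤ y ^ (-(1 / 4) : ℝ) := Real.one_le_rpow_of_pos_of_le_one_of_nonpos hy hy1 (by norm_num)
  have h2 : 0 ≤ Real.log C := Real.log_nonneg hC
  have h3 : -Real.log y ≤ 4 * y ^ (-(1 / 4) : ℝ) := by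
    have := Real.log_le_rpow_div (inv_nonneg.2 hy.le) (show (0 : ℝ) < 1 / 4 by norm_num)
    rw [Real.log_inv, Real.inv_rpow hy.le, ← Real.rpow_neg hy.le] at this
    linarith
  have h4 : Real.log y ≤ 0 := Real.log_nonpos hy.le hy1
  have h5 : max (Real.log a) 0 ≤ Real.log C - 73 * Real.log y := by
    refine max_le ?_ (by linarith)
    rcases ha.eq_or_lt with rfl | ha'
    · rw [Real.log_zero]
      linarith
    · refine (Real.log_le_log ha' h).trans_eq ?_
      rw [Real.log_div (by linarith) (by positivity), Real.log_pow]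
      push_cast
      rfl
  nlinarith

theorem C6_ry {x : R3} (hx : 0 < ry x) :
    ENNReal.ofReal (ry x)⁻¹ ≤ ‖c2 x‖ₑ ^ (-(1 / 2) : ℝ) * ‖c3 x‖ₑ ^ (-(1 / 2) : ℝ) := by
  have h1 : ‖c2 x‖ₑ ≤ ENNReal.ofReal (ry x) := by
    rw [← ofReal_norm]
    exact ENNReal.ofReal_le_ofReal (abs_c2_le_ry x)
  have h2 : ‖c3 x‖ₑ ≤ ENNReal.ofReal (ry x) := by
    rw [← ofReal_norm]
    exact ENNReal.ofReal_le_ofReal (abs_c3_le_ry x)
  refine le_trans (le_of_eq ?_) (mul_le_mul' (Geo5_anti h1 (by norm_num)) (Geo5_anti h2 (by norm_num)))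
  rw [← ENNReal.rpow_add _ _ (by simpa using hx) ENNReal.ofReal_ne_top, ENNReal.ofReal_inv_of_pos hx,
    ← ENNReal.rpow_neg_one]
  norm_num

/-- At `t = 0`: `dens_le` and `rho0_mul_ry` give the density `≤ 4 C / ry` on `ry ≤ e'`;
`log₊ E0c ≤ log C + 73 log (1 / |c2|) ≤ c |c2| ^ (-1/4)`; `ry ≥ |c2| ^ (1/2) |c3| ^ (1/2)`;
`lintegral_slab_rpow`. -/
theorem ent_E0c (h : P.OK) {η : ℝ≥0} (hη : 0 < η) : ∀ᶠ r in 𝓝[>] (0 : ℝ), ∀ b,
    ∫⁻ x in slab, ∫⁻ v, P.E0c r b 0 x v *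
      ENNReal.ofReal (max (Real.log (P.E0c r b 0 x v).toReal) 0 + 5) ≤ η := by
  obtain ⟨K, hK⟩ := lintegral_slab_rpow (p := 3 / 4) (q := 1 / 2) (by norm_num) (by norm_num)
    (by norm_num) (by norm_num)
  have hC := h.one_le_C
  have hl : 0 ≤ Real.log P.C := Real.log_nonneg hC
  set c : ℝ := 4 * P.C * (Real.log P.C + 297) with hc
  have h3 : Tendsto (fun ρ : ℝ => ENNReal.ofReal (c * K * ρ ^ (2 - 3 / 4 - 1 / 2 : ℝ))) (𝓝[>] 0) (𝓝 0) := by
    have : Tendsto (fun ρ : ℝ => ENNReal.ofReal (c * K * ρ ^ (2 - 3 / 4 - 1 / 2 : ℝ))) (𝓝 0)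
        (𝓝 (ENNReal.ofReal (c * K * (0 : ℝ) ^ (2 - 3 / 4 - 1 / 2 : ℝ)))) :=
      (ENNReal.continuous_ofReal.comp (continuous_const.mul
        (Real.continuous_rpow_const (by norm_num)))).tendsto 0
    rw [Real.zero_rpow (by norm_num), mul_zero, ENNReal.ofReal_zero] at this
    exact this.mono_left nhdsWithin_le_nhds
  obtain ⟨ρ, h4, h5, h6⟩ := ((h3.eventually (ge_mem_nhds (show (0 : ℝ≥0∞) < η by exact_mod_cast hη))).and
    (Ioc_mem_nhdsGT (zero_lt_one' ℝ))).exists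
  filter_upwards [C6_Wg h, Wg_supp h h5, dens_le h (e' := 1 / 2) (by norm_num)] with r h7 h8 h9 b
  have hA : MeasurableSet {x : R3 | ry x ≤ ρ} := measurableSet_le continuous_ry.measurable measurable_const
  have key : ∀ x, ∫⁻ v, P.E0c r b 0 x v *
      ENNReal.ofReal (max (Real.log (P.E0c r b 0 x v).toReal) 0 + 5) ≤
      ({x : R3 | ry x ≤ ρ}).indicator
        (fun x => ENNReal.ofReal c * (‖c2 x‖ₑ ^ (-(3 / 4) : ℝ) * ‖c3 x‖ₑ ^ (-(1 / 2) : ℝ))) x := by
    intro x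
    by_cases c0 : ∀ v, P.E0c r b 0 x v = 0
    · simp [c0]
    obtain ⟨u, hu⟩ := not_forall.1 c0
    have w1 := (h7 b x u hu).1
    have w2 := h8 0 (Nat.zero_le _) b 0 x u le_rfl w1
    have w3 : 0 < |c2 x| := by
      rw [← C6_el_zero h]
      exact w1.pos
    have w4 : |c2 x| ≤ 1 := by
      rw [← C6_el_zero h]
      exact w2.2.2.2.2.2.1.trans h6
    have w5 : 0 < ry x := w3.trans_le (abs_c2_le_ry x)
    rw [indicator_of_mem (show x ∈ {x : R3 | ry x ≤ ρ} by simpa using w2.2.2.2.1)]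
    calc _ ≤ ∫⁻ v, P.E0c r b 0 x v *
            ENNReal.ofReal ((Real.log P.C + 297) * |c2 x| ^ (-(1 / 4) : ℝ)) := by
          refine lintegral_mono fun v => ?_
          by_cases c1 : P.E0c r b 0 x v = 0
          · simp [c1]
          · refine mul_le_mul_right (ENNReal.ofReal_le_ofReal (C6_log hC w3 w4 ENNReal.toReal_nonneg ?_)) _
            exact ENNReal.toReal_le_of_le_ofReal (by positivity) (h7 b x v c1).2
      _ = (∫⁻ v, P.E0c r b 0 x v) *
            ENNReal.ofReal ((Real.log P.C + 297) * |c2 x| ^ (-(1 / 4) : ℝ)) :=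
          lintegral_mul_const' _ _ ENNReal.ofReal_ne_top
      _ ≤ ENNReal.ofReal (4 * P.C * (ry x)⁻¹) *
            ENNReal.ofReal ((Real.log P.C + 297) * |c2 x| ^ (-(1 / 4) : ℝ)) := by
          refine mul_le_mul_left ((h9 b 0 x le_rfl).trans (ENNReal.ofReal_le_ofReal ?_)) _
          have q1 := h.rho0_mul_ry le_rfl x
          have q2 := h.rho0_nonneg le_rfl x
          have q3 := P.chi_le b 0 x
          have q4 : P.rho0 0 x ≤ P.C * (ry x)⁻¹ := by rwa [← div_eq_mul_inv, le_div_iff₀ w5]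
          nlinarith
      _ = ENNReal.ofReal c * (ENNReal.ofReal (‖c2 x‖ ^ (-(1 / 4) : ℝ)) * ENNReal.ofReal (ry x)⁻¹) := by
          rw [← ENNReal.ofReal_mul (by positivity), ← ENNReal.ofReal_mul (by positivity),
            ← ENNReal.ofReal_mul (by positivity), hc, Real.norm_eq_abs]
          congr 1
          ring
      _ ≤ ENNReal.ofReal c * (‖c2 x‖ₑ ^ (-(1 / 4) : ℝ) *
            (‖c2 x‖ₑ ^ (-(1 / 2) : ℝ) * ‖c3 x‖ₑ ^ (-(1 / 2) : ℝ))) :=
          mul_le_mul_right (mul_le_mul' (Geo5_ofReal_le _ (by norm_num)) (C6_ry w5)) _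
      _ = _ := by
          rw [← mul_assoc (‖c2 x‖ₑ ^ _), ← ENNReal.rpow_add _ _ (by simpa using w3) enorm_ne_top]
          norm_num
  calc _ ≤ _ := lintegral_mono key
    _ = ENNReal.ofReal c * ∫⁻ x in slab ∩ {x : R3 | ry x ≤ ρ},
          ‖c2 x‖ₑ ^ (-(3 / 4) : ℝ) * ‖c3 x‖ₑ ^ (-(1 / 2) : ℝ) := by
        rw [lintegral_indicator hA, Measure.restrict_restrict hA, inter_comm,
          lintegral_const_mul' _ _ ENNReal.ofReal_ne_top]
    _ ≤ ENNReal.ofReal c * (K * ENNReal.ofReal (ρ ^ (2 - 3 / 4 - 1 / 2 : ℝ))) :=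
        mul_le_mul_right (hK ρ h5.le) _
    _ = ENNReal.ofReal (c * K * ρ ^ (2 - 3 / 4 - 1 / 2 : ℝ)) := by
        rw [ENNReal.ofReal_mul (p := c * K) (by positivity), ENNReal.ofReal_mul (p := c) (by positivity),
          ENNReal.ofReal_coe_nnreal, mul_assoc]
    _ ≤ η := h4

theorem C6_tsum {ι : Type} {f : ι → ℝ≥0∞} (h : ∀ i j, f i ≠ 0 → f j ≠ 0 → i = j) :
    C6_Psi (∑' i, f i) ≤ ∑' i, C6_Psi (f i) := by
  by_cases c : ∀ i, f i = 0
  · simp [c, C6_Psi]
  obtain ⟨i, hi⟩ := not_forall.1 c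
  rw [tsum_eq_single i fun j hj => by_contra fun hj' => hj (h j i hj' hi)]
  exact ENNReal.le_tsum (f := fun i => C6_Psi (f i)) i

/-- At every `x` at most one term of `E0 r 0 x` is non-zero (`lat_unique`, `Wg.disjoint`);
`lintegral_cell_tsum`. -/
theorem ent_E0 (h : P.OK) {η : ℝ≥0} (hη : 0 < η) : ∀ᶠ r in 𝓝[>] (0 : ℝ),
    ∫⁻ x in cell, ∫⁻ v, P.E0 r 0 x v *
      ENNReal.ofReal (max (Real.log (P.E0 r 0 x v).toReal) 0 + 5) ≤ η := by
  filter_upwards [C6_Wg h, Wg_supp h (e' := 1 / 4) (by norm_num), ent_E0c h (half_pos hη)] with r h1 h2 h3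
  have hm : ∀ b, Measurable fun p : R3 × R3 => C6_Psi (P.E0c r b 0 p.1 p.2) := fun b =>
    C6_meas_Psi.comp ((P.meas_E0c r b).1.time 0)
  have hm' : ∀ b, Measurable fun x : R3 => ∫⁻ v, C6_Psi (P.E0c r b 0 x v) := fun b =>
    (hm b).lintegral_prod_right'
  have hm2 : ∀ b x, Measurable fun v : R3 => C6_Psi (P.E0c r b 0 x v) := fun b x =>
    C6_meas_Psi.comp ((P.meas_E0c r b).1.slice 0 x)
  have hm3 : ∀ b k, Measurable fun x : R3 => ∫⁻ v, C6_Psi (P.E0c r b 0 (x - lat k) v) := fun b k =>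
    (hm' b).comp (measurable_id.sub_const (lat k))
  have key : ∀ x v, C6_Psi (P.E0 r 0 x v) ≤
      ∑' i : Bool × ℤ × ℤ, C6_Psi (P.E0c r i.1 0 (x - lat i.2) v) := by
    intro x v
    refine C6_tsum (f := fun i : Bool × ℤ × ℤ => P.E0c r i.1 0 (x - lat i.2) v) ?_
    rintro ⟨b, k⟩ ⟨b', k'⟩ hi hj
    have w1 := (h1 _ _ _ hi).1
    have w2 := (h1 _ _ _ hj).1
    have w3 := (h2 0 (Nat.zero_le _) _ 0 _ _ le_rfl w1).2.2.2.1
    have w4 := (h2 0 (Nat.zero_le _) _ 0 _ _ le_rfl w2).2.2.2.1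
    have e : k = k' := lat_unique (x := x) (by simp only at w3 w4; linarith)
    subst e
    have e' : b = b' := by
      by_contra c
      have : b' = !b := by cases b <;> cases b' <;> simp_all
      subst this
      exact w1.disjoint h (Nat.zero_le _) (Nat.zero_le _) w2
    rw [e']
  calc _ ≤ ∫⁻ x in cell, ∫⁻ v, ∑' i : Bool × ℤ × ℤ, C6_Psi (P.E0c r i.1 0 (x - lat i.2) v) :=
        lintegral_mono fun x => lintegral_mono fun v => key x v
    _ = ∫⁻ x in cell, ∑' b : Bool, ∑' k : ℤ × ℤ, ∫⁻ v, C6_Psi (P.E0c r b 0 (x - lat k) v) := by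
        refine lintegral_congr fun x => ?_
        rw [lintegral_tsum fun i : Bool × ℤ × ℤ => (hm2 i.1 (x - lat i.2)).aemeasurable, ENNReal.tsum_prod']
    _ = ∑' b : Bool, ∫⁻ x in cell, ∑' k : ℤ × ℤ, ∫⁻ v, C6_Psi (P.E0c r b 0 (x - lat k) v) :=
        lintegral_tsum fun b => (Measurable.tsum (hm3 b)).aemeasurable
    _ ≤ ∑' b : Bool, ((η / 2 : ℝ≥0) : ℝ≥0∞) :=
        ENNReal.tsum_le_tsum fun b => (lintegral_cell_tsum (hm' b)).trans (h3 b)
    _ = η := by rw [tsum_bool, ← ENNReal.coe_add, add_halves]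

/-- Where `dd x ≥ r₁` the datum is the truncated Maxwellian (`Hf_self`, `Hf_zero`), elsewhere it is
`E0 r 0` (`Hf_maxwellian_le`, `volume_cell_dd`, `lintegral_Mx`). -/
theorem ent_F0 {H₀ : ℝ≥0} (hH : 0 < H₀) : ∃ R' r' : ℝ, 0 < r' ∧ ∀ P : CP, P.OK → R' ≤ P.R₀ →
    P.r₁ ≤ r' → ∀ᶠ r in 𝓝[>] (0 : ℝ), relEntropy (fun x v => (P.F0 r x v).toReal) ≤ H₀ := by
  have hH3 : 0 < H₀ / 3 := by positivity
  obtain ⟨R, hR, h1⟩ := C6_tail (g := Mx) (by rw [lintegral_Mx]; exact ENNReal.one_ne_top)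
    (η := (H₀ / 3 : ℝ≥0)) (by exact_mod_cast hH3)
  have hH' : (0 : ℝ) < H₀ := hH
  refine ⟨R + 1, √(H₀ / 48), Real.sqrt_pos.2 (by positivity), fun P h hR₀ hr₁ => ?_⟩
  filter_upwards [ent_E0 h hH3, Ecal_supp h (half_pos h.r₁_pos)] with r h2 h3
  have hA : MeasurableSet {x : R3 | dd x < P.r₁} :=
    measurableSet_lt continuous_dd.measurable measurable_const
  have hB : MeasurableSet (Metric.closedBall (0 : R3) R)ᶜ := Metric.isClosed_closedBall.measurableSet.compl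
  have key : ∀ x v, ENNReal.ofReal (Hf (P.F0 r x v).toReal (maxwellian v)) ≤
      C6_Psi (P.E0 r 0 x v) + ((Metric.closedBall (0 : R3) R)ᶜ.indicator Mx v +
        ({x : R3 | dd x < P.r₁}).indicator 1 x * Mx v) := by
    intro x v
    unfold F0 Fa
    by_cases c : P.E0 r 0 x v = 0
    · rw [c, zero_add]
      split_ifs with c'
      · rw [Mx, ENNReal.toReal_ofReal (Mx_pos v).le, Hf_self (Mx_pos v), ENNReal.ofReal_zero]
        exact zero_le
      · rw [ENNReal.toReal_zero, Hf_zero]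
        refine le_add_left ?_
        by_cases c'' : ‖v‖ < P.R₀
        · have : x ∈ {x : R3 | dd x < P.r₁} := not_le.1 fun h' => c' ⟨c'', h'⟩
          rw [indicator_of_mem this, Pi.one_apply, one_mul]
          exact le_add_self
        · have : v ∈ (Metric.closedBall (0 : R3) R)ᶜ := by
            rw [mem_compl_iff, mem_closedBall_zero_iff]
            linarith
          rw [indicator_of_mem this]
          exact le_self_add
    · have w1 := h3 0 x v le_rfl fun h' => c (le_zero_iff.1 ((P.E0_le_Ecal r 0 x v).trans_eq h'))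
      have w2 : dd x < P.r₁ := by linarith [w1.2.2, h.r₁_pos]
      have w3 := (reg_E0 h r).fin 0 x v
      rw [if_neg fun h' => absurd h'.2 (not_le.2 w2), add_zero,
        indicator_of_mem (show x ∈ {x : R3 | dd x < P.r₁} from w2), Pi.one_apply, one_mul]
      have w4 := Hf_maxwellian_le (a := (P.E0 r 0 x v).toReal) ENNReal.toReal_nonneg v
      have w5 : ‖v‖ ^ 2 ≤ 2 ^ 2 := pow_le_pow_left₀ (norm_nonneg _) w1.1 2
      have w6 : 0 ≤ (P.E0 r 0 x v).toReal := ENNReal.toReal_nonneg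
      have w7 : 0 ≤ max (Real.log (P.E0 r 0 x v).toReal) 0 := le_max_right _ _
      calc _ ≤ ENNReal.ofReal ((P.E0 r 0 x v).toReal * (max (Real.log (P.E0 r 0 x v).toReal) 0 + 5) +
              maxwellian v) := ENNReal.ofReal_le_ofReal (by nlinarith)
        _ = C6_Psi (P.E0 r 0 x v) + Mx v := by
            rw [ENNReal.ofReal_add (by positivity) (Mx_pos v).le, ENNReal.ofReal_mul w6,
              ENNReal.ofReal_toReal w3]
            rfl
        _ ≤ _ := add_le_add_right le_add_self _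
  have hm : Measurable fun p : R3 × R3 => C6_Psi (P.E0 r 0 p.1 p.2) :=
    C6_meas_Psi.comp ((P.meas_E0 r).1.time 0)
  have h4 : volume (cell ∩ {x : R3 | dd x < P.r₁}) ≤ (H₀ / 3 : ℝ≥0) := by
    refine (volume_cell_dd h.r₁_pos.le).trans ?_
    rw [← ENNReal.ofReal_coe_nnreal]
    refine ENNReal.ofReal_le_ofReal ?_
    have q1 := pow_le_pow_left₀ h.r₁_pos.le hr₁ 2
    rw [Real.sq_sqrt (by positivity)] at q1
    push_cast
    linarith
  unfold relEntropy
  rw [Measure.volume_eq_prod, ← Measure.prod_restrict, Measure.restrict_univ]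
  refine (lintegral_prod_le _).trans ?_
  calc _ ≤ ∫⁻ x in cell, ∫⁻ v, (C6_Psi (P.E0 r 0 x v) + ((Metric.closedBall (0 : R3) R)ᶜ.indicator Mx v +
          ({x : R3 | dd x < P.r₁}).indicator 1 x * Mx v)) :=
        lintegral_mono fun x => lintegral_mono fun v => key x v
    _ ≤ ∫⁻ x in cell, ((∫⁻ v, C6_Psi (P.E0 r 0 x v)) + (((H₀ / 3 : ℝ≥0) : ℝ≥0∞) +
          ({x : R3 | dd x < P.r₁}).indicator 1 x)) := by
        refine lintegral_mono fun x => ?_
        have hm' : Measurable fun v => C6_Psi (P.E0 r 0 x v) :=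
          C6_meas_Psi.comp ((P.meas_E0 r).1.slice 0 x)
        rw [lintegral_add_left hm',
          lintegral_add_left (measurable_Mx.indicator hB), lintegral_const_mul _ measurable_Mx,
          lintegral_Mx, mul_one, lintegral_indicator hB]
        gcongr
    _ ≤ (H₀ / 3 : ℝ≥0) + ((H₀ / 3 : ℝ≥0) + (H₀ / 3 : ℝ≥0)) := by
        rw [lintegral_add_left hm.lintegral_prod_right', lintegral_add_left measurable_const,
          lintegral_indicator_one hA, Measure.restrict_apply hA, inter_comm, setLIntegral_const,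
          volume_cell, mul_one]
        exact add_le_add h2 (add_le_add le_rfl h4)
    _ = H₀ := by rw [← ENNReal.coe_add, ← ENNReal.coe_add, ← add_assoc, add_thirds]

theorem F0_supp (h : P.OK) : ∀ᶠ r in 𝓝[>] (0 : ℝ), ∀ x v, P.R₀ ≤ ‖v‖ → P.F0 r x v = 0 := by
  filter_upwards [Ecal_supp h one_pos] with r h1 x v hv
  have h2 : P.E0 r 0 x v = 0 := by
    by_contra c
    have w1 := h1 0 x v le_rfl fun h' => c (le_zero_iff.1 ((P.E0_le_Ecal r 0 x v).trans_eq h'))
    linarith [w1.1, h.R₀_ge]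
  unfold F0 Fa
  rw [h2, zero_add, if_neg fun h' => absurd h'.1 (not_lt.2 hv)]

end CP

end Crest.Agent.R68
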