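/-
R68/C7: integrability data (Env) for densities below the cold envelope
Skeleton by helper76 (row 68); keep the statements unchanged, add any helper lemmas you like.
-/
import Crest.Agent.R68.C3
import Crest.Agent.R68.W1

set_option autoImplicit false
set_option linter.unusedVariables false
set_option linter.unusedSectionVars false

noncomputable section

namespace Crest.Agent.R68

open MeasureTheory Set Filter Topology
open scoped ENNReal NNReal
open Crest.AnalysisR.VecCalc3 Crest.AnalysisR.PDE.Boltzmann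

namespace CP

variable {P : CP}

/-- majorant of the density -/
def envρ (R : ℝ) (t : ℝ) (x : R3) : ℝ≥0∞ :=
  1 + ∑' k : ℤ × ℤ, if ry (x - lat k) ≤ R then (ENNReal.ofReal (t + ry (x - lat k)))⁻¹ else 0

/-- majorant of a root of the amplitude -/
def envB (R : ℝ) (x : R3) : ℝ≥0∞ :=
  1 + ∑' k : ℤ × ℤ, if ry (x - lat k) ≤ R then ‖c2 (x - lat k)‖ₑ ^ (-(1 / 2) : ℝ) else 0

theorem C7_meas_ry (k : ℤ × ℤ) : Measurable fun x : R3 => ry (x - lat k) :=
  continuous_ry.measurable.comp (measurable_id.sub_const _)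

theorem measurable_envρ (R : ℝ) : Measurable fun q : ℝ × R3 => envρ R q.1 q.2 := by
  refine measurable_const.add (Measurable.ennreal_tsum fun k => ?_)
  have h : Measurable fun q : ℝ × R3 => ry (q.2 - lat k) := (C7_meas_ry k).comp measurable_snd
  exact Measurable.ite (measurableSet_le h measurable_const)
    (measurable_fst.add h).ennreal_ofReal.inv measurable_const

theorem measurable_envB (R : ℝ) : Measurable (envB R) := by
  refine measurable_const.add (Measurable.ennreal_tsum fun k => ?_)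
  exact Measurable.ite (measurableSet_le (C7_meas_ry k) measurable_const)
    ((continuous_c2.measurable.comp (measurable_id.sub_const _)).enorm.pow_const _) measurable_const

theorem C7_pow (R : ℝ) {p : ℝ} (hp : 0 < p) : ∃ K : ℝ≥0∞, K ≠ ⊤ ∧
    ∀ (x : R3) (a b : ℤ × ℤ → ℝ≥0∞) (c : ℝ≥0∞), 1 ≤ c → (∀ k, a k ^ p ≤ c * b k) →
      (1 + ∑' k, if ry (x - lat k) ≤ R then a k else 0) ^ p ≤
        K * c * (1 + ∑' k, if ry (x - lat k) ≤ R then b k else 0) := by
  refine ⟨(1 + ENNReal.ofReal ((2 * |R| + 1) ^ 2)) ^ p,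
    ENNReal.rpow_ne_top_of_nonneg hp.le (by simp), fun x a b c hc hab => ?_⟩
  obtain ⟨s, hs, hs'⟩ := exists_near x (abs_nonneg R)
  rw [mul_assoc]
  set S := c * (1 + ∑' k, if ry (x - lat k) ≤ R then b k else 0) with hS
  have h1 : 1 ≤ S ^ p⁻¹ := by
    rw [ENNReal.le_rpow_inv_iff hp, ENNReal.one_rpow]
    exact one_le_mul hc le_self_add
  have h2 : ∀ k, (if ry (x - lat k) ≤ R then a k else 0) ≤ S ^ p⁻¹ := fun k => by
    split_ifs with hk
    · rw [ENNReal.le_rpow_inv_iff hp]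
      refine (hab k).trans (mul_le_mul' le_rfl (le_add_left (le_trans ?_ (ENNReal.le_tsum k))))
      rw [if_pos hk]
    · exact bot_le
  have h3 : (s.card : ℝ≥0∞) ≤ ENNReal.ofReal ((2 * |R| + 1) ^ 2) := by
    rw [← ENNReal.ofReal_natCast]
    exact ENNReal.ofReal_le_ofReal hs
  rw [tsum_eq_sum (s := s) fun k hk => if_neg fun h => hk (hs' k (h.trans (le_abs_self R))),
    ← ENNReal.rpow_inv_rpow hp.ne' S, ← ENNReal.mul_rpow_of_nonneg _ _ hp.le, add_mul, one_mul]
  refine ENNReal.rpow_le_rpow (add_le_add h1 ?_) hp.le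
  refine (Finset.sum_le_card_nsmul _ _ _ fun k _ => h2 k).trans ?_
  rw [nsmul_eq_mul]
  exact mul_le_mul' h3 le_rfl

theorem C7_cell (R : ℝ) {p q : ℝ} (hp : 0 ≤ p) (hp1 : p < 1) (hq : 0 ≤ q) (hq1 : q < 1) :
    ∫⁻ x in cell, (1 + ∑' k : ℤ × ℤ, if ry (x - lat k) ≤ R then
      ‖c2 (x - lat k)‖ₑ ^ (-p) * ‖c3 (x - lat k)‖ₑ ^ (-q) else 0) ≠ ⊤ := by
  obtain ⟨K, hK⟩ := lintegral_slab_rpow hp hp1 hq hq1
  have hm : MeasurableSet {x : R3 | ry x ≤ |R|} :=
    measurableSet_le continuous_ry.measurable measurable_const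
  have h1 := lintegral_cell_tsum (Φ := {x : R3 | ry x ≤ |R|}.indicator
    fun x => ‖c2 x‖ₑ ^ (-p) * ‖c3 x‖ₑ ^ (-q)) (Measurable.indicator
      ((continuous_c2.measurable.enorm.pow_const _).mul (continuous_c3.measurable.enorm.pow_const _)) hm)
  rw [lintegral_indicator hm, Measure.restrict_restrict hm, inter_comm] at h1
  rw [lintegral_add_left measurable_const, lintegral_const, Measure.restrict_apply_univ, volume_cell]
  refine ENNReal.add_ne_top.2 ⟨by simp, ne_top_of_le_ne_top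
    (ENNReal.mul_ne_top ENNReal.coe_ne_top ENNReal.ofReal_ne_top)
    (le_trans (lintegral_mono fun x => ENNReal.tsum_le_tsum fun k => ?_)
      (h1.trans (hK _ (abs_nonneg R))))⟩
  split_ifs with hk
  · rw [indicator_of_mem (show x - lat k ∈ {x : R3 | ry x ≤ |R|} from hk.trans (le_abs_self R))]
  · exact bot_le

theorem C7_inv {t : ℝ} (ht : 0 ≤ t) (y : R3) {p : ℝ} (hp : 0 ≤ p) :
    (ENNReal.ofReal (t + ry y))⁻¹ ^ (p + p) ≤ ‖c2 y‖ₑ ^ (-p) * ‖c3 y‖ₑ ^ (-p) := by
  rw [ENNReal.rpow_add_of_nonneg _ _ hp hp, ENNReal.inv_rpow, ← ENNReal.rpow_neg]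
  refine mul_le_mul' (Geo5_anti ?_ hp) (Geo5_anti ?_ hp) <;> rw [Real.enorm_eq_ofReal_abs] <;>
    refine ENNReal.ofReal_le_ofReal ?_
  · linarith [abs_c2_le_ry y]
  · linarith [abs_c3_le_ry y]

/-- At most `n = (2 R + 1)²` terms are non-zero, so `envρ ^ p ≤ (n + 1) ^ p (1 + ∑ term ^ p)`;
`∫_0^T (t + a) ^ (-5/2) dt ≤ a ^ (-3/2)`, `ry ^ (-3/2) ≤ |c2| ^ (-3/4) |c3| ^ (-3/4)`;
`lintegral_cell_tsum`, `lintegral_slab_rpow`. -/
theorem envρ_int₁ (R T : ℝ) : ∫⁻ t in Ioc 0 T, ∫⁻ x in cell, envρ R t x ^ (5 / 2 : ℝ) ≠ ⊤ := by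
  obtain ⟨K, hK, h⟩ := C7_pow R (p := 5 / 2) (by norm_num)
  have h1 := C7_cell R (p := 7 / 8) (q := 7 / 8) (by norm_num) (by norm_num) (by norm_num)
    (by norm_num)
  have h2 : ∫⁻ t in Ioc 0 T, (1 + ENNReal.ofReal (t ^ (-(3 / 4) : ℝ))) ≠ ⊤ := by
    rw [lintegral_add_left measurable_const, lintegral_const, Measure.restrict_apply_univ]
    exact ENNReal.add_ne_top.2 ⟨by simp, (Integrable.lintegral_lt_top
      (intervalIntegral.intervalIntegrable_rpow' (a := 0) (b := T) (by norm_num)).1).ne⟩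
  refine ne_top_of_le_ne_top (ENNReal.mul_ne_top (ENNReal.mul_ne_top hK h1) h2) ?_
  rw [← lintegral_const_mul' _ _ (ENNReal.mul_ne_top hK h1)]
  refine setLIntegral_mono' measurableSet_Ioc fun t ht => ?_
  rw [mul_right_comm, ← lintegral_const_mul' _ _ (ENNReal.mul_ne_top hK (by simp))]
  refine lintegral_mono fun x => h x _ _ _ le_self_add fun k => ?_
  rw [show (5 / 2 : ℝ) = 3 / 4 + (7 / 8 + 7 / 8) by norm_num,
    ENNReal.rpow_add_of_nonneg _ _ (by norm_num) (by norm_num)]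
  refine mul_le_mul' (le_add_left ?_) (C7_inv ht.1.le _ (by norm_num))
  rw [ENNReal.inv_rpow, ← ENNReal.rpow_neg, ← ENNReal.ofReal_rpow_of_pos ht.1]
  exact Geo5_anti (ENNReal.ofReal_le_ofReal (by linarith [ry_nonneg (x - lat k)])) (by norm_num)

theorem envρ_int₂ (R : ℝ) : ∃ C : ℝ≥0, ∀ t, 0 ≤ t →
    ∫⁻ x in cell, envρ R t x ^ (3 / 2 : ℝ) ≤ C := by
  obtain ⟨K, hK, h⟩ := C7_pow R (p := 3 / 2) (by norm_num)
  have h1 := C7_cell R (p := 3 / 4) (q := 3 / 4) (by norm_num) (by norm_num) (by norm_num)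
    (by norm_num)
  refine ⟨_, fun t ht => le_trans ?_ (ENNReal.coe_toNNReal (ENNReal.mul_ne_top hK h1)).ge⟩
  rw [← lintegral_const_mul' _ _ hK]
  refine lintegral_mono fun x => (h x _ _ 1 le_rfl fun k => ?_).trans_eq (by rw [mul_one])
  rw [show (3 / 2 : ℝ) = 3 / 4 + 3 / 4 by norm_num, one_mul]
  exact C7_inv ht _ (by norm_num)

theorem envB_int (R : ℝ) : ∫⁻ x in cell, envB R x ≠ ⊤ := by
  simpa [envB] using C7_cell R (p := 1 / 2) (q := 0) (by norm_num) (by norm_num) le_rfl one_pos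

theorem C7_tsum {f : Bool → R3 → ℝ≥0∞} {Φ : R3 → ℝ≥0∞} {C : ℝ≥0∞} (x : R3)
    (h : ∀ b k, f b (x - lat k) ≤ C * Φ (x - lat k)) :
    ∑' i : Bool × ℤ × ℤ, f i.1 (x - lat i.2) ≤ 2 * C * (1 + ∑' k, Φ (x - lat k)) := by
  have h1 : ∀ b, ∑' k, f b (x - lat k) ≤ C * (1 + ∑' k, Φ (x - lat k)) := fun b =>
    (ENNReal.tsum_le_tsum (h b)).trans (by
      rw [ENNReal.tsum_mul_left]
      exact mul_le_mul' le_rfl le_add_self)
  rw [ENNReal.tsum_prod', tsum_bool, mul_assoc, two_mul]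
  exact add_le_add (h1 _) (h1 _)

theorem C7_mass_Ehi (h : P.OK) : ∀ᶠ r in 𝓝[>] (0 : ℝ), ∃ C : ℝ≥0, ∀ b t x, 0 ≤ t →
    ∫⁻ u, P.Ehi r b t x u ≤ C := by
  filter_upwards [Ecc_le h, Wg_supp h one_pos] with r h1 h2
  have hC := h.one_le_C
  have hL := h.one_le_L
  have hV : volume (Metric.ball (0 : R3) 1) ≠ ⊤ := measure_ball_lt_top.ne
  refine ⟨(ENNReal.ofReal (2 * P.C * ((32 * P.L) ^ (P.G + 1)) ^ 3) *
    volume (Metric.ball (0 : R3) 1)).toNNReal, fun b t x ht => ?_⟩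
  rw [ENNReal.coe_toNNReal (ENNReal.mul_ne_top ENNReal.ofReal_ne_top hV)]
  have h3 : ∀ u, P.Ehi r b t x u ≠ 0 → P.Wg r P.G b t x u := fun u hu =>
    (h1 b t x u ht).1 fun h0 => hu (add_eq_zero.1 h0).2
  by_cases h0 : ∀ u, P.Ehi r b t x u = 0
  · simp [h0]
  push Not at h0
  obtain ⟨u₀, hu₀⟩ := h0
  have hp := (h3 u₀ hu₀).pos
  have hl := (h2 P.G le_rfl b t x u₀ ht (h3 u₀ hu₀)).2.2.2.2.2.1
  have hρ : 0 ≤ (32 * P.L) ^ (P.G + 1) * P.th t x := mul_nonneg (by positivity) (P.th_nonneg t x)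
  calc _ ≤ ∫⁻ u, (Metric.closedBall (P.U b t x) ((32 * P.L) ^ (P.G + 1) * P.th t x)).indicator
        (fun _ => ENNReal.ofReal (2 * P.C / P.el t x ^ 71)) u := by
        refine lintegral_mono fun u => ?_
        by_cases hu : P.Ehi r b t x u = 0
        · rw [hu]
          exact bot_le
        · rw [indicator_of_mem (mem_closedBall_iff_norm.2 (h3 u hu).cc)]
          exact (h1 b t x u ht).2.2
    _ ≤ _ := by
        rw [lintegral_indicator_const measurableSet_closedBall, Measure.addHaar_closedBall _ _ hρ,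
          finrank_euclideanSpace_fin, ← mul_assoc, ← ENNReal.ofReal_mul (by positivity)]
        refine mul_le_mul' (ENNReal.ofReal_le_ofReal ?_) le_rfl
        rw [show 2 * P.C / P.el t x ^ 71 * ((32 * P.L) ^ (P.G + 1) * P.th t x) ^ 3 =
          2 * P.C * ((32 * P.L) ^ (P.G + 1)) ^ 3 * P.el t x by rw [th]; field_simp]
        exact mul_le_of_le_one_right (by positivity) hl

/-- `dens_le`, `rho0 (t + ry) ≤ C L + C`; the mass of `Ehi` is bounded (`Ecc_le`). -/
theorem mass_Ecal (h : P.OK) : ∀ᶠ r in 𝓝[>] (0 : ℝ), ∀ T' : ℝ, ∃ C : ℝ≥0, ∀ t ∈ Icc 0 T', ∀ x,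
    ∫⁻ v, P.Ecal r t x v ≤ C * envρ (10 * T' + 1) t x := by
  filter_upwards [Ecc_le h, Wg_supp h one_pos, C7_mass_Ehi h, dens_le h (e' := 1 / 2) (by norm_num)]
    with r h1 h2 ⟨C₁, h3⟩ h4 T'
  have hC := h.one_le_C
  have hL := h.one_le_L
  refine ⟨2 * (4 * (P.C * P.L + P.C) + C₁ * (11 * T' + 1)).toNNReal, fun t ht x => ?_⟩
  simp only [Ecal, perz]
  rw [lintegral_tsum fun i => ((P.meas_Ecc r _).1.slice _ _).aemeasurable, ENNReal.coe_mul]
  refine C7_tsum (f := fun b y => ∫⁻ v, P.Ecc r b t y v)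
    (C := ENNReal.ofReal (4 * (P.C * P.L + P.C) + C₁ * (11 * T' + 1))) (Φ := fun y =>
    if ry y ≤ 10 * T' + 1 then (ENNReal.ofReal (t + ry y))⁻¹ else 0) x fun b k => ?_
  generalize x - lat k = y
  split_ifs with hy
  · have h5 : ∫⁻ v, P.Ecc r b t y v ≤ ENNReal.ofReal (4 * P.rho0 t y + C₁) := by
      have h6 := h.rho0_nonneg ht.1 y
      simp only [Ecc, Pi.add_apply]
      rw [lintegral_add_left ((P.meas_E0c r b).1.slice _ _),
        ENNReal.ofReal_add (by positivity) C₁.coe_nonneg, ENNReal.ofReal_coe_nnreal]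
      refine add_le_add ((h4 b t y ht.1).trans (ENNReal.ofReal_le_ofReal ?_)) (h3 b t y ht.1)
      nlinarith [P.chi_le b t y]
    refine h5.trans ?_
    rw [← div_eq_mul_inv]
    refine (ENNReal.le_div_iff_mul_le (Or.inr ?_) (Or.inl ENNReal.ofReal_ne_top)).2 ?_
    · have : 0 < 4 * (P.C * P.L + P.C) + C₁ * (11 * T' + 1) := by
        have := ht.1.trans ht.2
        positivity
      simpa using this
    · have h6 := h.rho0_nonneg ht.1 y
      rw [← ENNReal.ofReal_mul (by positivity)]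
      refine ENNReal.ofReal_le_ofReal ?_
      have h7 : P.rho0 t y * t ≤ P.C * P.L := by
        rcases ht.1.eq_or_lt with h0 | h0
        · rw [← h0, mul_zero]
          positivity
        · exact (le_div_iff₀ h0).1 (h.rho0_le h0 y)
      have h8 := h.rho0_mul_ry ht.1 y
      have h9 : C₁ * (t + ry y) ≤ C₁ * (11 * T' + 1) :=
        mul_le_mul_of_nonneg_left (by linarith [ht.2]) C₁.coe_nonneg
      nlinarith
  · have h5 : ∀ v, P.Ecc r b t y v = 0 := fun v => by
      by_contra hv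
      have := (h2 P.G le_rfl b t y v ht.1 ((h1 b t y v ht.1).1 hv)).2.2.2.1
      exact hy (by linarith [ht.1, ht.2])
    simp [h5]

theorem C7_el (h : P.OK) {T' t : ℝ} (ht : t ∈ Icc 0 T') {y : R3} (hy : c2 y ≠ 0) (n : ℕ) :
    0 < P.el t y ∧ ENNReal.ofReal (P.el t y ^ n)⁻¹ ≤
      ENNReal.ofReal (((T' + P.T) / P.T) ^ n) * (‖c2 y‖ₑ ^ (-(1 / 2) : ℝ)) ^ (2 * n) := by
  have hT := h.T_pos
  have h0 : 0 < |c2 y| := abs_pos.2 hy
  have h1 : 0 < t + P.T := by linarith [ht.1]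
  have h2 : 0 < T' + P.T := by linarith [ht.2]
  rw [h.el_eq ht.1]
  refine ⟨by positivity, ?_⟩
  rw [pow_mul, ← ENNReal.rpow_natCast _ 2, ← ENNReal.rpow_mul,
    show (-(1 / 2) : ℝ) * (2 : ℕ) = -1 by norm_num, ENNReal.rpow_neg_one, Real.enorm_eq_ofReal_abs,
    ← ENNReal.ofReal_inv_of_pos h0, ← ENNReal.ofReal_pow (by positivity),
    ← ENNReal.ofReal_mul (by positivity), ← mul_pow, ← inv_pow]
  refine ENNReal.ofReal_le_ofReal (pow_le_pow_left₀ (by positivity) ?_ n)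
  rw [show (|c2 y| * P.T / (t + P.T))⁻¹ = (t + P.T) / P.T * |c2 y|⁻¹ by field_simp]
  gcongr
  exact ht.2

theorem C7_sup {f : Bool → R3 → ℝ≥0∞} {C : ℝ≥0∞} (hC : C ≠ 0) {R : ℝ} {m : ℕ} (hm : m ≤ 145)
    (hs : ∀ b y, f b y ≠ 0 → ry y ≤ R)
    (h : ∀ b y, c2 y ≠ 0 → f b y ≤ C * (‖c2 y‖ₑ ^ (-(1 / 2) : ℝ)) ^ (m + 1)) (x : R3) :
    ∑' i : Bool × ℤ × ℤ, f i.1 (x - lat i.2) ≤ 2 * C * envB R x ^ 146 := by
  have h1 : 1 ≤ envB R x := le_self_add
  refine (C7_tsum (C := C * envB R x ^ 145) (Φ := fun y =>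
    if ry y ≤ R then ‖c2 y‖ₑ ^ (-(1 / 2) : ℝ) else 0) x fun b k => ?_).trans_eq ?_
  · split_ifs with hk
    · by_cases hc : c2 (x - lat k) = 0
      · rw [hc, enorm_zero, ENNReal.zero_rpow_of_neg (by norm_num), ENNReal.mul_top
          (mul_ne_zero hC (pow_ne_zero _ (zero_lt_one.trans_le h1).ne'))]
        exact le_top
      · refine (h b _ hc).trans ?_
        rw [pow_succ, mul_assoc]
        refine mul_le_mul' le_rfl (mul_le_mul' ((pow_le_pow_left' ?_ m).trans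
          (pow_le_pow_right₀ h1 hm)) le_rfl)
        refine le_add_left (le_trans ?_ (ENNReal.le_tsum k))
        rw [if_pos hk]
    · by_contra hn
      exact hk (hs b _ fun h0 => hn (by simp [h0]))
  · rw [pow_succ _ 145]
    simp only [mul_assoc]
    rfl

/-- `Ecc ≤ 2 C el ^ (-73)`, `sgc ≤ el ^ (-30)` when `el > 0` (`envB = ⊤` when `c2 = 0`), and
`el ≥ |c2| T / (T' + T)`. -/
theorem sup_Ecal (h : P.OK) : ∀ᶠ r in 𝓝[>] (0 : ℝ), ∀ T' : ℝ, ∃ C : ℝ≥0, ∀ t ∈ Icc 0 T', ∀ x v,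
    P.Ecal r t x v + P.mw t x v ≤ C * envB (10 * T' + 1) x ^ 146 := by
  filter_upwards [Ecc_le h, Wg_supp h one_pos] with r h1 h2 T'
  have hC := h.one_le_C
  have hT := h.T_pos
  refine ⟨2 * (2 * P.C * ((T' + P.T) / P.T) ^ 73).toNNReal +
    (1 + 2 * (((T' + P.T) / P.T) ^ 30).toNNReal), fun t ht x v => ?_⟩
  have hA : 0 < (T' + P.T) / P.T := div_pos (by linarith [ht.1, ht.2]) hT
  have h3 := C7_sup (f := fun b y => P.Ecc r b t y v) (R := 10 * T' + 1) (m := 145)
    (C := ENNReal.ofReal (2 * P.C * ((T' + P.T) / P.T) ^ 73))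
    (ENNReal.ofReal_pos.2 (by positivity)).ne' le_rfl (fun b y hy => by
      have := (h2 P.G le_rfl b t y v ht.1 ((h1 b t y v ht.1).1 hy)).2.2.2.1
      linarith [ht.1, ht.2]) (fun b y hy => by
      refine (h1 b t y v ht.1).2.1.trans ?_
      rw [div_eq_mul_inv, ENNReal.ofReal_mul (by positivity), ENNReal.ofReal_mul (p := 2 * P.C)
        (by positivity), mul_assoc]
      exact mul_le_mul' le_rfl (C7_el h ht hy 73).2) x
  have h4 : P.om t x v ≤
      (1 + 2 * ENNReal.ofReal (((T' + P.T) / P.T) ^ 30)) * envB (10 * T' + 1) x ^ 146 := by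
    rw [om, add_mul, one_mul]
    refine add_le_add (one_le_pow₀ le_self_add) ?_
    split_ifs with h0
    · refine (mul_le_of_le_one_left' (ENNReal.ofReal_le_one.2
        (Real.sqrt_le_one.2 (P.del_le_one t)))).trans ?_
      refine C7_sup (f := fun b y => P.sgc b t y v) (m := 59)
        (ENNReal.ofReal_pos.2 (by positivity)).ne' (by norm_num) (fun b y hy => by
          linarith [sgc_supp h h0 hy, ht.2]) (fun b y hy => ?_) x
      obtain ⟨h5, h6⟩ := C7_el h ht hy 30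
      refine le_trans ?_ h6
      rw [sgc, sg]
      split_ifs
      · refine ENNReal.ofReal_le_ofReal ((Real.rpow_le_rpow_of_nonpos (pow_pos h5 24)
          (le_add_of_nonneg_left (norm_nonneg _)) (by norm_num)).trans_eq ?_)
        rw [← Real.rpow_natCast, ← Real.rpow_mul h5.le, ← Real.rpow_natCast, ← Real.rpow_neg h5.le]
        norm_num
      · exact bot_le
    · exact bot_le
  push_cast
  rw [add_mul]
  exact add_le_add h3 ((mul_le_of_le_one_left' (Geo5_ga_le_one (by norm_num) v)).trans h4)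

/-- `ρ = envρ`, `B = C' envB`, `p = 146`; `adm_mom` for `mw`. -/
theorem exists_env (h : P.OK) : ∀ᶠ r in 𝓝[>] (0 : ℝ), ∀ (T' : ℝ) (c : ℝ≥0) (F : Fn),
    LeOn 0 T' F (P.Ecal r + (c : ℝ≥0∞) • P.mw) → Nonempty (Env F T') := by
  filter_upwards [mass_Ecal h, sup_Ecal h, Ecal_supp h one_pos] with r h1 h2 h3 T' c F hF
  obtain ⟨C₁, h1⟩ := h1 T'
  obtain ⟨C₂, h2⟩ := h2 T'
  obtain ⟨C₃, h4⟩ := envρ_int₂ (10 * T' + 1)
  have hB := envB_int (10 * T' + 1)
  refine ⟨⟨envρ (10 * T' + 1), fun _ x => (1 + (1 + c) * C₂ : ℝ≥0) * envB (10 * T' + 1) x, 146,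
    measurable_envρ _, ((measurable_envB _).comp measurable_snd).const_mul _,
    fun _ _ => le_self_add, fun _ _ => one_le_mul (by simp) le_self_add, fun k => ?_,
    fun t ht x v => ?_, envρ_int₁ _ _,
    ⟨C₃ + (1 + (1 + c) * C₂) * (∫⁻ x in cell, envB (10 * T' + 1) x).toNNReal, fun t ht => ?_⟩⟩⟩
  · obtain ⟨K, hK⟩ := adm_mom N0 k
    refine ⟨3 ^ k * C₁ + c * K, fun t ht x => ?_⟩
    have hE := (P.meas_Ecal r).1.slice t x
    calc _ ≤ ∫⁻ v, (3 ^ k * P.Ecal r t x v + c * (br v ^ k * (ga (1 / 8) v * P.om t x v))) := by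
          refine lintegral_mono fun v => (mul_le_mul' le_rfl (hF t ht x v)).trans ?_
          simp only [Pi.add_apply, Pi.smul_apply, smul_eq_mul]
          rw [mul_add, mul_left_comm]
          refine add_le_add ?_ (mul_le_mul' le_rfl (mul_le_mul' le_rfl (mul_le_mul'
            (ENNReal.ofReal_le_ofReal (Real.exp_le_exp.2 ?_)) le_rfl)))
          · by_cases h0 : P.Ecal r t x v = 0
            · simp [h0]
            · refine mul_le_mul' (pow_le_pow_left' (ENNReal.ofReal_le_of_le_toReal ?_) k) le_rfl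
              have := (h3 t x v ht.1 h0).1
              simp only [ENNReal.toReal_ofNat]
              linarith
          · nlinarith [sq_nonneg ‖v‖]
      _ ≤ _ := by
          rw [lintegral_add_left (hE.const_mul _), lintegral_const_mul _ hE,
            lintegral_const_mul' _ _ ENNReal.coe_ne_top]
          push_cast
          rw [add_mul, mul_assoc, mul_assoc]
          exact add_le_add (mul_le_mul' le_rfl (h1 t ht x)) (mul_le_mul' le_rfl
            ((hK _ (adm_om h t x)).trans (le_mul_of_one_le_right' le_self_add)))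
  · refine (hF t ht x v).trans ?_
    simp only [Pi.add_apply, Pi.smul_apply, smul_eq_mul]
    calc _ ≤ (1 + c) * (P.Ecal r t x v + P.mw t x v) := by
          rw [mul_add]
          exact add_le_add (le_mul_of_one_le_left' le_self_add) (mul_le_mul' le_add_self le_rfl)
      _ ≤ (1 + c) * (C₂ * envB (10 * T' + 1) x ^ 146) := mul_le_mul' le_rfl (h2 t ht x v)
      _ ≤ _ := by
          rw [mul_pow, ← mul_assoc]
          push_cast
          exact mul_le_mul' (le_add_self.trans (le_self_pow₀ le_self_add (by norm_num))) le_rfl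
  · rw [lintegral_add_right _ ((measurable_envB _).const_mul _),
      lintegral_const_mul _ (measurable_envB _), ENNReal.coe_add C₃, ENNReal.coe_mul,
      ENNReal.coe_toNNReal hB]
    exact add_le_add (h4 t ht.1) le_rfl

end CP

end Crest.Agent.R68
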