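/-
R68/LDefs: definitions for the lower bound (growth of the number of hot particles) and for the
Harnack inequality.  Author: helper76.  FROZEN (ask helper76 for changes).
-/
import Crest.Agent.R68.CDefs

set_option autoImplicit false

noncomputable section

namespace Crest.Agent.R68

open MeasureTheory Set Filter Topology
open scoped ENNReal NNReal
open Crest.AnalysisR.VecCalc3 Crest.AnalysisR.PDE.Boltzmann

/-- `p P r` holds if first `α` (depending on `V`) and then `r` are small. -/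
def SmallA (p : CP → ℝ → Prop) : Prop :=
  ∀ V : ℝ, ∃ α₀ : ℝ, 0 < α₀ ∧ ∀ P : CP, P.OK → P.V = V → P.α ≤ α₀ → ∀ᶠ r in 𝓝[>] (0 : ℝ), p P r

theorem SmallA.and {p q : CP → ℝ → Prop} (hp : SmallA p) (hq : SmallA q) :
    SmallA fun P r => p P r ∧ q P r := by
  intro V
  obtain ⟨a, ha, h1⟩ := hp V
  obtain ⟨b, hb, h2⟩ := hq V
  exact ⟨min a b, lt_min ha hb, fun P hP hV hα =>
    (h1 P hP hV (hα.trans (min_le_left _ _))).and (h2 P hP hV (hα.trans (min_le_right _ _)))⟩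

theorem SmallA.mono {p q : CP → ℝ → Prop} (hp : SmallA p)
    (h : ∀ P : CP, P.OK → ∀ᶠ r in 𝓝[>] (0 : ℝ), p P r → q P r) : SmallA q := by
  intro V
  obtain ⟨a, ha, h1⟩ := hp V
  exact ⟨a, ha, fun P hP hV hα => ((h1 P hP hV hα).and (h P hP)).mono fun r hr => hr.2 hr.1⟩

namespace CP

variable (P : CP)

/-- The range of the exponent of the test function. -/
def Rng (r : ℝ) : Prop := ∀ t ∈ Ioc 0 (P.t₀ r), ∀ x v, ry x ≤ P.V * t → kap ≤ |c2 v| →
  P.pp t x v ∈ Icc (0 : ℝ) (1 / 10)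

/-- A solution of the truncated problem for the concrete data. -/
structure Sol (r : ℝ) (σ : ℝ≥0) (g F : Fn) : Prop where
  ok : (P.D1 r).OK
  mg : Meas g
  g_le : ∀ t x v, g t x v ≤ 1
  ts : (P.D1 r).TS 2 σ g F

def phF : Fn := fun s y v => ENNReal.ofReal (P.phi s y v / s ^ 152)
def kF : Fn := fun s y v => P.phF s y v * ENNReal.ofReal (P.rtB s y v + 2 / s)
def lF : Fn := fun s y v => P.phF s y v * ENNReal.ofReal (P.rtG s y v)

/-- the test function summed over the two outgoing particles -/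
def twoPhi (s : ℝ) (y w u : R3) : ℝ≥0∞ :=
  ∫⁻ ω, cw w u ω * (ENNReal.ofReal (P.phi s y (postVel w u ω)) +
    ENNReal.ofReal (P.phi s y (postVelStar w u ω))) ∂sphereMeasure

/-- The monotonicity of `N t / t ^ 152`. -/
def Grow (r : ℝ) : Prop := ∀ σ g F, P.Sol r σ g F → ∀ t t', 0 < t → t ≤ t' → t' ≤ P.t₀ r →
  P.Nf t (unc F t) * ENNReal.ofReal (t' ^ 152) ≤ P.Nf t' (unc F t') * ENNReal.ofReal (t ^ 152)

def Lev (ρ t : ℝ) (x v : R3) : Prop := ry x ≤ ρ * P.V * t ∧ ‖v‖ ≤ ρ * P.V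

/-- the small constant of the Harnack argument -/
def θH : ℝ≥0 := 1 / (2 * (2 + b1v P.V) ^ 2)

/-- The singular gain splits into a small part and the main term. -/
def Split (Q : HQ) (r : ℝ) : Prop :=
  ∀ ρ ∈ Icc (1 / 16 : ℝ) (1 / 4), ∀ t ∈ Ioc 0 (P.t₀ r), ∀ x v, P.Lev ρ t x v →
    ∀ εc : ℝ, (εc = 0 ∨ (εc = Q.εc ∧ Q.κ₁ ≤ |c2 v|)) → ∀ (h : Fn) (Y : ℝ≥0∞), Meas h →
      LeOc 0 t h (Y • (pw 2 * P.W)) →
      PI ((2 : ℝ≥0∞) • GN (P.E0 r) h) 0 t x v ≤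
        P.θH * Y * (pw 2 * P.W) t x v + P.mainT Q r ρ εc h t x v

/-- Outside the inner zone the singular gain is small. -/
def Outer (r : ℝ) : Prop :=
  ∀ t ∈ Ioc 0 P.t₁, ∀ x v, (P.V * t / 16 ≤ dd x ∨ P.V / 16 ≤ ‖v‖) →
    AI (P.D1 r).att ((2 : ℝ≥0∞) • GN (P.E0 r) (pw 2 * P.W)) 0 t x v ≤ 8⁻¹ * (pw 2 * P.W) t x v

end CP

end Crest.Agent.R68
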