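/-
R68/W2: the concrete data satisfy the hypotheses of the initial layer
Skeleton by helper76 (row 68); keep the statements unchanged, add any helper lemmas you like.
-/
import Crest.Agent.R68.W1
import Crest.Agent.R68.C5

set_option autoImplicit false
set_option linter.unusedVariables false
set_option linter.unusedSectionVars false

noncomputable section

namespace Crest.Agent.R68

open MeasureTheory Set Filter Topology
open scoped ENNReal NNReal
open Crest.AnalysisR.VecCalc3 Crest.AnalysisR.PDE.Boltzmann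

namespace CP

variable {P : CP}

theorem W2_nn (c : ℝ≥0) : (c : ℝ≥0∞) = ENNReal.ofReal c := ENNReal.ofReal_coe_nnreal.symm

theorem W2_c50 : (2 * 3 ^ 50 * Kpl : ℝ≥0∞) = ENNReal.ofReal (2 * 3 ^ 50 * Kpl) := by
  rw [ENNReal.ofReal_mul (by positivity), ENNReal.ofReal_mul (by positivity),
    ENNReal.ofReal_pow (by positivity), ENNReal.ofReal_coe_nnreal]
  simp

theorem W2_c55 : (2 * 3 ^ 55 * Kpl : ℝ≥0∞) = ENNReal.ofReal (2 * 3 ^ 55 * Kpl) := by
  rw [ENNReal.ofReal_mul (by positivity), ENNReal.ofReal_mul (by positivity),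
    ENNReal.ofReal_pow (by positivity), ENNReal.ofReal_coe_nnreal]
  simp

theorem W2_supp (h : P.OK) : ∀ᶠ r in 𝓝[>] (0 : ℝ), ∀ E : Fn, E ≤ P.Ecal r → ∀ t x u, 0 ≤ t →
    E t x u ≠ 0 → ‖u‖ ≤ 2 := by
  filter_upwards [Ecal_supp h one_pos] with r hr E hE t x u ht hne
  exact (hr t x u ht fun h0 => hne (le_antisymm (h0 ▸ hE t x u) zero_le)).1

theorem W2_t1 (h : P.OK) {t : ℝ} (ht : t ∈ Ioc 0 P.t₁) : t ∈ Icc (0 : ℝ) 1 :=
  ⟨ht.1.le, ht.2.trans (h.t₁_le.trans (by norm_num))⟩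

/-- from the moment to the gain -/
theorem W2_GW (h : P.OK) {E : Fn} (hE : Meas E) {t : ℝ} (ht : t ∈ Ioc 0 P.t₁) (x v : R3)
    (hs : ∀ u, E t x u ≠ 0 → ‖u‖ ≤ 2) {j c : ℝ} (hj : Cm E t x v ≤ ENNReal.ofReal j * P.om t x v)
    (hc : 2 * 3 ^ 50 * Kpl * j ≤ c) : GN E P.W t x v ≤ ENNReal.ofReal c * P.W t x v := by
  refine (GN_W_Cm h (W2_t1 h ht) x v hE fun u hu => (hs u hu).trans (by norm_num)).trans ?_
  calc 2 * 3 ^ 50 * Kpl * eW t x v * Cm E t x v
      ≤ 2 * 3 ^ 50 * Kpl * eW t x v * (ENNReal.ofReal j * P.om t x v) := by gcongr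
    _ = (2 * 3 ^ 50 * Kpl * ENNReal.ofReal j) * P.W t x v := by
        simp only [W, Pi.mul_apply]
        ring
    _ ≤ _ := by
        gcongr
        rw [W2_c50, ← ENNReal.ofReal_mul (by positivity)]
        exact ENNReal.ofReal_le_ofReal hc

theorem W2_E1_le (h : P.OK) : ∀ᶠ r in 𝓝[>] (0 : ℝ), P.E1 r ≤ P.Ecal r := by
  filter_upwards [Ec_le h] with r hr
  exact le_trans le_add_self hr

theorem W2_b₀ (h : P.OK) {a t : ℝ} (ht : 0 < t) (ha : a ≤ 3 ^ 70 * (Kpl + 1)) :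
    a * (P.C * P.L / t) ≤ P.b₀ / t := by
  have h1 := h.one_le_C
  have h2 := h.one_le_L
  rw [h.coe_b₀, mul_div_assoc _ (P.C * P.L)]
  exact mul_le_mul_of_nonneg_right ha (by positivity)

theorem E0W (h : P.OK) : ∀ᶠ r in 𝓝[>] (0 : ℝ),
    LeOc 0 P.t₁ (GN (P.E0 r) P.W) (tm (fun t => P.b₀ / t) * P.W) := by
  filter_upwards [W2_supp h, Cm_le_t h] with r h1 h2 t ht x v
  refine W2_GW h (meas_E0 P r).1 ht x v (fun u => h1 _ (E0_le_Ecal P r) t x u ht.1.le)
    ((Cm_mono (E0_le_Ecal P r t x) v).trans (h2 t ht x v)) ?_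
  rw [← mul_assoc]
  refine W2_b₀ h ht.1 ?_
  have : (0 : ℝ) ≤ Kpl := Kpl.2
  nlinarith

theorem E1W (h : P.OK) : ∀ᶠ r in 𝓝[>] (0 : ℝ), LeOc 0 P.t₁ (GN (P.E1 r) P.W) P.W := by
  have hk : (0 : ℝ) ≤ Kpl := Kpl.2
  have he : (0 : ℝ) < 1 / (2 * 3 ^ 50 * (Kpl + 1)) := by positivity
  filter_upwards [W2_supp h, W2_E1_le h, E1_le h, Cm_hi h he] with r h1 h2 h3 h4 t ht x v
  have := W2_GW h (meas_E1 P r).1 ht x v (fun u => h1 _ h2 t x u ht.1.le)
    ((Cm_mono (h3 t x) v).trans (h4 t ht x v)) (c := 1) (by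
      rw [mul_one_div, div_le_one (by positivity)]
      nlinarith)
  rwa [ENNReal.ofReal_one, one_mul] at this

theorem LE0 (h : P.OK) : ∀ᶠ r in 𝓝[>] (0 : ℝ),
    LeOc 0 P.t₁ (LS (P.E0 r)) (tm (fun t => P.b₀ / t) * vl br) := by
  filter_upwards [W2_supp h, Cm_le_t h] with r h1 h2 t ht x v
  have := ls_le_of_Cm h (meas_E0 P r).1 (c := 1) (fun u => h1 _ (E0_le_Ecal P r) t x u ht.1.le)
    (fun w => by
      rw [one_mul]
      exact (Cm_mono (E0_le_Ecal P r t x) w).trans (h2 t ht x w)) v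
  rw [one_mul] at this
  refine this.trans ?_
  show _ ≤ ENNReal.ofReal (P.b₀ / t) * br v
  gcongr
  rw [← ENNReal.ofReal_ofNat 72, ← ENNReal.ofReal_mul (by norm_num), ← mul_assoc]
  refine ENNReal.ofReal_le_ofReal (W2_b₀ h ht.1 ?_)
  have : (0 : ℝ) ≤ Kpl := Kpl.2
  nlinarith

theorem LE1 (h : P.OK) : ∀ᶠ r in 𝓝[>] (0 : ℝ), LeOc 0 P.t₁ (LS (P.E1 r)) (vl br) := by
  have he : (0 : ℝ) < 1 / 72 := by norm_num
  filter_upwards [W2_supp h, W2_E1_le h, E1_le h, Cm_hi h he] with r h1 h2 h3 h4 t ht x v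
  have := ls_le_of_Cm h (meas_E1 P r).1 (c := 1) (fun u => h1 _ h2 t x u ht.1.le)
    (fun w => by
      rw [one_mul]
      exact (Cm_mono (h3 t x) w).trans (h4 t ht x w)) v
  rw [one_mul, ← ENNReal.ofReal_ofNat 72, ← ENNReal.ofReal_mul (by norm_num)] at this
  norm_num at this
  exact this

theorem W2_vol (h : P.OK) {t : ℝ} (ht : t ∈ Icc 0 P.t₁) (c : ℝ≥0∞) : ∫⁻ _ in Ioc 0 t, c ≤ c := by
  rw [setLIntegral_const, Real.volume_Ioc, sub_zero]
  refine mul_le_of_le_one_right' ?_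
  rw [← ENNReal.ofReal_one]
  exact ENNReal.ofReal_le_ofReal (ht.2.trans (h.t₁_le.trans (by norm_num)))

theorem W2_Zf_mono (P : CP) {s t : ℝ} (hst : s ≤ t) (x v : R3) :
    P.Zf s (x - (t - s) • v) v ≤ P.Zf t x v := by
  have h1 := Zf_pa P hst x v
  have h2 : 0 ≤ (t - s) * (2 * P.nb + ‖v‖) := mul_nonneg (sub_nonneg.2 hst) (by positivity)
  linarith

theorem W2_dd_le (P : CP) {s : ℝ} (hs : 0 ≤ s) (x v : R3) : dd x ≤ P.Zf s x v := by
  unfold Zf
  have : 0 ≤ 2 * s * (P.nb + ‖v‖) := by positivity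
  linarith

theorem W2_Th_nonneg (h : P.OK) {t : ℝ} (ht : 0 ≤ t) (x v : R3) : 0 ≤ P.Th t x v :=
  le_min zero_le_one (pow_nonneg (div_nonneg (Zf_nonneg P ht x v) h.r₁_pos.le) _)

theorem W2_Th_one (h : P.OK) {t : ℝ} {x v : R3} (hZ : P.r₁ ≤ P.Zf t x v) : P.Th t x v = 1 :=
  min_eq_left (one_le_pow₀ ((one_le_div h.r₁_pos).2 hZ))

theorem W2_H_eq (P : CP) (t : ℝ) (x v : R3) :
    P.H t x v = ENNReal.ofReal (P.K₀ * P.Th t x v) * ga (3 - t) v * P.om t x v := rfl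

theorem W2_E1_eq {t : ℝ} (ht : t ∈ Icc 0 P.t₁) (r : ℝ) (x v : R3) :
    P.E1 r t x v = P.Λ * PI (P.Psi r) 0 t x v := by
  show (P.Λ : ℝ≥0∞) * PI (tm P.del * P.Psi r) 0 t x v = _
  congr 1
  refine setLIntegral_congr_fun measurableSet_Ioc fun s hs => ?_
  show ENNReal.ofReal (P.del s) * _ = _
  rw [del_eq_one (hs.2.trans ht.2), ENNReal.ofReal_one, one_mul]
  rfl

/-- `GN_Ecal_le_Psi`; `Λ PI Psi = E1` on `[0, t₁]`; `Dump_short` with `dd x_s ≤ min 1 (Zf t)`,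
`r₁ ≤ 1`. -/
theorem EE (h : P.Num) : ∀ᶠ r in 𝓝[>] (0 : ℝ),
    LeOn 0 P.t₁ (PI (GN (P.E0 r + P.E1 r) (P.E0 r + P.E1 r)) 0)
      ((P.η : ℝ≥0∞) • (P.E1 r + P.H)) := by
  have hη : (0 : ℝ) < P.η := h.η_pos
  have he : (0 : ℝ) < P.η * Real.exp (-27) := by positivity
  filter_upwards [Ec_le h.ok, Dump_short h.ok he] with r h1 h2 t ht x v
  have a1 : LeOn 0 P.t₁ (GN (P.E0 r + P.E1 r) (P.E0 r + P.E1 r)) (P.Psi r + P.Dump r) :=
    (GN_mono (fun t _ x v => h1 t x v) (fun t _ x v => h1 t x v)).trans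
      fun t _ x v => GN_Ecal_le_Psi P r t x v
  refine (PI_mono a1 t ht x v).trans ?_
  rw [PI_add (meas_Psi P r).1]
  show PI (P.Psi r) 0 t x v + PI (P.Dump r) 0 t x v ≤ P.η * (P.E1 r t x v + P.H t x v)
  rw [mul_add]
  refine add_le_add ?_ ?_
  · rw [W2_E1_eq ht, ← mul_assoc]
    refine le_mul_of_one_le_left' ?_
    rw [mul_comm]
    exact_mod_cast h.Λ_ge
  · refine le_trans ?_ (W2_vol h.ok ht _)
    refine setLIntegral_mono' measurableSet_Ioc fun s hs => ?_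
    refine (h2 s ⟨hs.1.le, hs.2.trans ht.2⟩ _ v).trans ?_
    split_ifs with hv
    · have b1 : dd (x - (t - s) • v) ^ P.nb ≤ P.Th t x v := by
        refine le_min (pow_le_one₀ (dd_nonneg _) (dd_le_one _)) (pow_le_pow_left₀ (dd_nonneg _) ?_ _)
        have c1 := (W2_dd_le P hs.1.le (x - (t - s) • v) v).trans (W2_Zf_mono P hs.2 x v)
        refine c1.trans ?_
        rw [le_div_iff₀ h.ok.r₁_pos]
        exact mul_le_of_le_one_right (Zf_nonneg P ht.1 x v) (h.ok.r₁_le.trans (by norm_num))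
      have b2 : Real.exp (-27) ≤ Real.exp (-(3 - t) * ‖v‖ ^ 2) := by
        refine Real.exp_le_exp.2 ?_
        have c1 : ‖v‖ ^ 2 ≤ 9 := by nlinarith [norm_nonneg v]
        nlinarith [ht.1, sq_nonneg ‖v‖]
      have b3 := h.ok.four_le_K₀
      have b4 := W2_Th_nonneg h.ok ht.1 x v
      rw [W2_H_eq, W2_nn, ← mul_assoc]
      refine le_trans ?_ (le_mul_of_one_le_right' (one_le_om P t x v))
      rw [ga, ← ENNReal.ofReal_mul (by positivity), ← ENNReal.ofReal_mul hη.le]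
      refine ENNReal.ofReal_le_ofReal ?_
      rw [mul_assoc]
      refine mul_le_mul_of_nonneg_left ?_ hη.le
      rw [mul_comm]
      refine mul_le_mul (b1.trans ?_) b2 (Real.exp_pos _).le (by positivity)
      nlinarith
    · exact zero_le

/-- A calculus lemma: if `Z s + (t - s) m ≤ Z t` for `0 ≤ s ≤ t` then on the set where `Z ≤ r₁`
(an interval with right end point `s*`; `Z s ≤ min r₁ (Z t) - (s* - s) m` for `s < s*`)
`∫ m Z ^ (n - 1) ≤ (min r₁ (Z t)) ^ n / n`. -/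
theorem lintegral_Z {Z : ℝ → ℝ} {m r₁ t : ℝ} {n : ℕ} (hn : 1 ≤ n) (hm : 0 < m) (hr : 0 < r₁)
    (ht : 0 ≤ t) (h0 : ∀ s ∈ Icc 0 t, 0 ≤ Z s)
    (hZ : ∀ s s', 0 ≤ s → s ≤ s' → s' ≤ t → Z s + (s' - s) * m ≤ Z s') :
    ∫⁻ s in Ioc 0 t ∩ {s | Z s ≤ r₁}, ENNReal.ofReal (m * Z s ^ (n - 1)) ≤
      ENNReal.ofReal (min r₁ (Z t) ^ n / n) := by
  rcases (Ioc 0 t ∩ {s | Z s ≤ r₁}).eq_empty_or_nonempty with he | hne
  · rw [he, Measure.restrict_empty, lintegral_zero_measure]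
    exact zero_le
  have hbd : BddAbove (Ioc 0 t ∩ {s | Z s ≤ r₁}) := ⟨t, fun s hs => hs.1.2⟩
  set u := sSup (Ioc 0 t ∩ {s | Z s ≤ r₁}) with hu
  set μ := min r₁ (Z t) with hμ
  have hZμ : ∀ s ∈ Ioc 0 t ∩ {s | Z s ≤ r₁}, Z s ≤ μ := fun s hs => by
    refine le_min hs.2 ?_
    have a1 := hZ s t hs.1.1.le hs.1.2 le_rfl
    have a2 : 0 ≤ (t - s) * m := mul_nonneg (sub_nonneg.2 hs.1.2) hm.le
    linarith
  have hkey : ∀ s ∈ Ioc 0 t ∩ {s | Z s ≤ r₁}, Z s ≤ m * (s - (u - μ / m)) := fun s hs => by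
    have a1 : u ≤ s + (μ - Z s) / m := by
      refine csSup_le hne fun s' hs' => ?_
      rcases le_total s s' with hss | hss
      · have b1 := hZ s s' hs.1.1.le hss hs'.1.2
        have b2 := hZμ s' hs'
        have b3 : s' - s ≤ (μ - Z s) / m := by
          rw [le_div_iff₀ hm]
          linarith
        linarith
      · have b3 : 0 ≤ (μ - Z s) / m := div_nonneg (sub_nonneg.2 (hZμ s hs)) hm.le
        linarith
    have a2 : m * (s - (u - μ / m)) - Z s = m * (s + (μ - Z s) / m - u) := by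
      field_simp
      ring
    have a3 : 0 ≤ m * (s + (μ - Z s) / m - u) := mul_nonneg hm.le (sub_nonneg.2 a1)
    linarith
  have hμ0 : 0 ≤ μ := le_min hr.le (h0 t ⟨ht, le_rfl⟩)
  set a := u - μ / m with ha
  have hau : a ≤ u := sub_le_self _ (div_nonneg hμ0 hm.le)
  have hsub : Ioc 0 t ∩ {s | Z s ≤ r₁} ⊆ Icc a u := fun s hs => by
    refine ⟨?_, le_csSup hbd hs⟩
    have a1 := (h0 s ⟨hs.1.1.le, hs.1.2⟩).trans (hkey s hs)
    exact sub_nonneg.1 (nonneg_of_mul_nonneg_right a1 hm)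
  have hcont : Continuous fun s : ℝ => m * (m * (s - a)) ^ (n - 1) := by fun_prop
  calc ∫⁻ s in Ioc 0 t ∩ {s | Z s ≤ r₁}, ENNReal.ofReal (m * Z s ^ (n - 1))
      ≤ ∫⁻ s in Ioc 0 t ∩ {s | Z s ≤ r₁}, ENNReal.ofReal (m * (m * (s - a)) ^ (n - 1)) := by
        refine setLIntegral_mono hcont.measurable.ennreal_ofReal fun s hs => ENNReal.ofReal_le_ofReal ?_
        exact mul_le_mul_of_nonneg_left
          (pow_le_pow_left₀ (h0 s ⟨hs.1.1.le, hs.1.2⟩) (hkey s hs) _) hm.le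
    _ ≤ ∫⁻ s in Icc a u, ENNReal.ofReal (m * (m * (s - a)) ^ (n - 1)) := lintegral_mono_set hsub
    _ = ENNReal.ofReal (∫ s in Icc a u, m * (m * (s - a)) ^ (n - 1)) := by
        refine (ofReal_integral_eq_lintegral_ofReal hcont.integrableOn_Icc ?_).symm
        refine ae_restrict_of_forall_mem measurableSet_Icc fun s hs => ?_
        exact mul_nonneg hm.le (pow_nonneg (mul_nonneg hm.le (sub_nonneg.2 hs.1)) _)
    _ = ENNReal.ofReal (μ ^ n / n) := by
        congr 1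
        have hn' : (n : ℝ) ≠ 0 := by exact_mod_cast (by omega : n ≠ 0)
        rw [integral_Icc_eq_integral_Ioc, ← intervalIntegral.integral_of_le hau,
          intervalIntegral.integral_eq_sub_of_hasDerivAt (f := fun s => (m * (s - a)) ^ n / n)
            (fun s _ => ?_) (hcont.intervalIntegrable _ _)]
        · have e : m * (u - a) = μ := by
            rw [ha]
            field_simp
            ring
          simp only [e, sub_self, mul_zero, zero_pow (by omega : n ≠ 0), zero_div, sub_zero]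
        · have d := ((((hasDerivAt_id s).sub_const a).const_mul m).pow n).div_const (n : ℝ)
          refine d.congr_deriv ?_
          simp only [id]
          field_simp

theorem W2_int_ga {a t : ℝ} (ha : 0 ≤ a) (ht : 0 ≤ t) :
    ∫⁻ s in Ioc 0 t, ENNReal.ofReal (a * Real.exp (-(t - s) * a)) ≤ 1 := by
  have hcont : Continuous fun s : ℝ => a * Real.exp (-(t - s) * a) := by fun_prop
  rw [← ofReal_integral_eq_lintegral_ofReal (hcont.integrableOn_Icc.mono_set Ioc_subset_Icc_self)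
    (Eventually.of_forall fun s => by positivity), ← intervalIntegral.integral_of_le ht,
    intervalIntegral.integral_eq_sub_of_hasDerivAt (f := fun s => Real.exp (-(t - s) * a))
      (fun s _ => ?_) (hcont.intervalIntegrable _ _), ← ENNReal.ofReal_one]
  · refine ENNReal.ofReal_le_ofReal ?_
    have := Real.exp_pos (-(t - 0) * a)
    simp only [sub_self, neg_zero, zero_mul, Real.exp_zero]
    linarith
  · have d := (((hasDerivAt_id s).const_sub t).neg.mul_const a).exp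
    refine d.congr_deriv ?_
    simp only [id, Pi.neg_apply]
    ring

/-- the integrand of `EH` -/
theorem W2_EH_pt (h : P.OK) {E : Fn} (hE : Meas E) {t s : ℝ} (ht : t ∈ Icc 0 P.t₁) (hs : s ∈ Ioc 0 t)
    (x v : R3) (hsupp : ∀ u, E s (x - (t - s) • v) u ≠ 0 → ‖u‖ ≤ 2) {j : ℝ} (hj0 : 0 ≤ j)
    (hj : ENNReal.ofReal (P.Th s (x - (t - s) • v) v) * Cm E s (x - (t - s) • v) v ≤
      ENNReal.ofReal j * P.om s (x - (t - s) • v) v) :
    pa (GN E P.H) t x v s ≤ (ENNReal.ofReal (2 * 3 ^ 55 * Kpl * P.Cw * P.K₀) * (ga (3 - t) v * P.om t x v)) *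
      ENNReal.ofReal (j * Real.exp (-(t - s) * ‖v‖ ^ 2)) := by
  have hK : 0 ≤ P.K₀ := le_trans (by norm_num) h.four_le_K₀
  have hk : (0 : ℝ) ≤ Kpl := Kpl.2
  refine (GN_H_Cm h (W2_t1 h ⟨hs.1, hs.2.trans ht.2⟩) _ v hE fun u hu =>
    (hsupp u hu).trans (by norm_num)).trans ?_
  have e1 : ga (3 - s) v = ga (3 - t) v * ENNReal.ofReal (Real.exp (-(t - s) * ‖v‖ ^ 2)) := by
    rw [ga, ga, ← ENNReal.ofReal_mul (Real.exp_pos _).le, ← Real.exp_add]
    congr 2
    ring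
  have e2 : P.eH s (x - (t - s) • v) v =
      ENNReal.ofReal P.K₀ * ENNReal.ofReal (P.Th s (x - (t - s) • v) v) * ga (3 - s) v := by
    rw [← ENNReal.ofReal_mul hK]
    rfl
  have e3 : P.om s (x - (t - s) • v) v ≤ P.Cw * P.om t x v := om_pa' h hs.1 hs.2 ht.2 x v
  rw [e2, e1, ENNReal.ofReal_mul hj0, ENNReal.ofReal_mul (by positivity),
    ENNReal.ofReal_mul (by positivity : (0 : ℝ) ≤ 2 * 3 ^ 55 * Kpl), ← W2_c55, ← W2_nn]
  calc _ = (2 * 3 ^ 55 * Kpl * ENNReal.ofReal P.K₀ * ga (3 - t) v *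
        ENNReal.ofReal (Real.exp (-(t - s) * ‖v‖ ^ 2))) *
        (ENNReal.ofReal (P.Th s (x - (t - s) • v) v) * Cm E s (x - (t - s) • v) v) := by ring
    _ ≤ (2 * 3 ^ 55 * Kpl * ENNReal.ofReal P.K₀ * ga (3 - t) v *
        ENNReal.ofReal (Real.exp (-(t - s) * ‖v‖ ^ 2))) * (ENNReal.ofReal j * (P.Cw * P.om t x v)) := by
        exact mul_le_mul_right (hj.trans (mul_le_mul_right e3 _)) _
    _ = _ := by ring

theorem W2_EH_near (h : P.OK) {s : ℝ} (hs : 0 < s) {y v : R3} {c o : ℝ≥0∞}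
    (h1 : c ≤ ENNReal.ofReal (64 * (P.C * P.L / s)) * o)
    (h2 : ENNReal.ofReal (dd y) * c ≤ ENNReal.ofReal (64 * P.C) * o) :
    ENNReal.ofReal (P.Th s y v) * c ≤ ENNReal.ofReal (192 * (P.C * P.L) / P.r₁ ^ P.nb *
      ((2 * P.nb + ‖v‖) * P.Zf s y v ^ (P.nb - 1))) * o := by
  have hZ := Zf_nonneg P hs.le y v
  have hr := h.r₁_pos
  have hC := h.one_le_C
  have hL := h.one_le_L
  have hn : (1 : ℝ) ≤ P.nb := by exact_mod_cast h.nb_ge
  have hv := norm_nonneg v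
  have a1 : P.Th s y v ≤ P.Zf s y v ^ (P.nb - 1) / P.r₁ ^ P.nb * P.Zf s y v := by
    refine (min_le_right _ _).trans (le_of_eq ?_)
    rw [div_pow, div_mul_eq_mul_div, ← pow_succ, Nat.sub_add_cancel h.nb_ge]
  have a2 : ENNReal.ofReal (P.Zf s y v) * c ≤
      ENNReal.ofReal (192 * (P.C * P.L) * (2 * P.nb + ‖v‖)) * o := by
    rw [Zf, ENNReal.ofReal_add (dd_nonneg y) (by positivity), add_mul]
    calc ENNReal.ofReal (dd y) * c + ENNReal.ofReal (2 * s * (P.nb + ‖v‖)) * c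
        ≤ ENNReal.ofReal (64 * P.C) * o +
          ENNReal.ofReal (2 * s * (P.nb + ‖v‖)) * (ENNReal.ofReal (64 * (P.C * P.L / s)) * o) := by
          gcongr
      _ = ENNReal.ofReal (64 * P.C + 2 * s * (P.nb + ‖v‖) * (64 * (P.C * P.L / s))) * o := by
          rw [ENNReal.ofReal_add (by positivity) (by positivity), add_mul,
            ENNReal.ofReal_mul (by positivity : 0 ≤ 2 * s * (P.nb + ‖v‖)), mul_assoc _ _ o]
      _ ≤ _ := by
          gcongr
          have e : 2 * s * (P.nb + ‖v‖) * (64 * (P.C * P.L / s)) = 128 * (P.C * P.L) * (P.nb + ‖v‖) := by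
            field_simp
            norm_num
          rw [e]
          have b1 : P.C ≤ P.C * P.L := le_mul_of_one_le_right (by linarith) hL
          have b2 : 0 ≤ P.C * P.L := by positivity
          nlinarith [mul_nonneg b2 hv, mul_le_mul_of_nonneg_left hn b2]
  calc ENNReal.ofReal (P.Th s y v) * c
      ≤ ENNReal.ofReal (P.Zf s y v ^ (P.nb - 1) / P.r₁ ^ P.nb * P.Zf s y v) * c := by gcongr
    _ = ENNReal.ofReal (P.Zf s y v ^ (P.nb - 1) / P.r₁ ^ P.nb) * (ENNReal.ofReal (P.Zf s y v) * c) := by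
        rw [ENNReal.ofReal_mul (by positivity), mul_assoc]
    _ ≤ ENNReal.ofReal (P.Zf s y v ^ (P.nb - 1) / P.r₁ ^ P.nb) *
        (ENNReal.ofReal (192 * (P.C * P.L) * (2 * P.nb + ‖v‖)) * o) := by gcongr
    _ = _ := by
        rw [← mul_assoc, ← ENNReal.ofReal_mul (by positivity)]
        congr 2
        ring

theorem W2_EH_far (h : P.OK) {s e' : ℝ} (hs : 0 < s) (he : 0 ≤ e') {y v : R3} {c o : ℝ≥0∞}
    (hZ : P.r₁ < P.Zf s y v) (h1 : 3 * s + P.r₁ / 2 < dd y → c = 0)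
    (h2 : c ≤ ENNReal.ofReal (64 * (P.C * P.L * P.T / s ^ 2) + e') * o) :
    ENNReal.ofReal (P.Th s y v) * c ≤ ENNReal.ofReal
      (256 * (P.C * P.L * P.T / P.r₁ ^ 2) * (50 * P.nb ^ 2 + 8 * ‖v‖ ^ 2) + e') * o := by
  rw [W2_Th_one h hZ.le, ENNReal.ofReal_one, one_mul]
  by_cases hd : 3 * s + P.r₁ / 2 < dd y
  · rw [h1 hd]
    exact zero_le
  · refine h2.trans ?_
    gcongr ENNReal.ofReal (?_ + e') * o
    have hr := h.r₁_pos
    have hC := h.one_le_C
    have hL := h.one_le_L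
    have hT := h.T_pos
    have hn : (1 : ℝ) ≤ P.nb := by exact_mod_cast h.nb_ge
    have hv := norm_nonneg v
    rw [not_lt] at hd
    rw [Zf] at hZ
    have a1 : P.r₁ ≤ 2 * s * (3 + 2 * P.nb + 2 * ‖v‖) := by nlinarith
    have a2 : P.r₁ ^ 2 ≤ (2 * s * (3 + 2 * P.nb + 2 * ‖v‖)) ^ 2 := pow_le_pow_left₀ hr.le a1 2
    have a3 : (3 + 2 * P.nb + 2 * ‖v‖) ^ 2 ≤ 50 * (P.nb : ℝ) ^ 2 + 8 * ‖v‖ ^ 2 := by
      nlinarith [sq_nonneg (3 + 2 * P.nb - 2 * ‖v‖)]
    have a4 : P.r₁ ^ 2 ≤ 4 * s ^ 2 * (50 * (P.nb : ℝ) ^ 2 + 8 * ‖v‖ ^ 2) := by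
      refine a2.trans ?_
      rw [mul_pow]
      refine mul_le_mul (le_of_eq (by ring)) a3 (by positivity) (by positivity)
    have a5 : 1 / s ^ 2 ≤ 4 / P.r₁ ^ 2 * (50 * (P.nb : ℝ) ^ 2 + 8 * ‖v‖ ^ 2) := by
      rw [div_mul_eq_mul_div, div_le_div_iff₀ (by positivity) (by positivity)]
      linarith
    have a6 : 0 ≤ 64 * (P.C * P.L * P.T) := by positivity
    calc 64 * (P.C * P.L * P.T / s ^ 2) = 64 * (P.C * P.L * P.T) * (1 / s ^ 2) := by ring
      _ ≤ 64 * (P.C * P.L * P.T) * (4 / P.r₁ ^ 2 * (50 * (P.nb : ℝ) ^ 2 + 8 * ‖v‖ ^ 2)) :=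
          mul_le_mul_of_nonneg_left a5 a6
      _ = _ := by ring

theorem W2_EH_num (h : P.Num) {θ : ℝ} (hθ : 0 ≤ θ) :
    2 * 3 ^ 55 * Kpl * P.Cw * P.K₀ * (192 * (P.C * P.L) * (θ / P.nb)) ≤ P.η / 2 * (P.K₀ * θ) ∧
    2 * 3 ^ 55 * Kpl * P.Cw * P.K₀ * (256 * (P.C * P.L * P.T / P.r₁ ^ 2) * (50 * P.nb ^ 2) +
      P.η / (8 * 3 ^ 55 * (Kpl + 1) * P.Cw) + 256 * (P.C * P.L * P.T / P.r₁ ^ 2) * 8) ≤
        P.η / 2 * P.K₀ := by
  have hK : 0 ≤ P.K₀ := le_trans (by norm_num) h.ok.four_le_K₀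
  have hk : (0 : ℝ) ≤ Kpl := Kpl.2
  have hr := h.ok.r₁_pos
  have hC := h.ok.one_le_C
  have hL := h.ok.one_le_L
  have hT := h.ok.T_pos
  have hn : (1 : ℝ) ≤ P.nb := by exact_mod_cast h.ok.nb_ge
  have hw : (1 : ℝ) ≤ P.Cw := by exact_mod_cast h.ok.one_le_Cw
  have hη : (0 : ℝ) < P.η := h.η_pos
  have h1 : (P.b₀ : ℝ) * P.Cw ≤ P.η * P.nb := by exact_mod_cast h.nb_ge
  have h2 := h.T_le
  rw [h.ok.coe_b₀] at h1 h2
  have hA : 0 ≤ P.C * P.L * P.Cw := by positivity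
  have hB : 0 ≤ Kpl * (P.C * P.L * P.Cw) := by positivity
  constructor
  · have a1 : 2 * 3 ^ 55 * Kpl * P.Cw * (192 * (P.C * P.L)) / P.nb ≤ P.η / 2 := by
      rw [div_le_iff₀ (by linarith)]
      nlinarith
    calc _ = 2 * 3 ^ 55 * Kpl * P.Cw * (192 * (P.C * P.L)) / P.nb * (P.K₀ * θ) := by ring
      _ ≤ _ := mul_le_mul_of_nonneg_right a1 (mul_nonneg hK hθ)
  · have hn2 : (1 : ℝ) ≤ (P.nb : ℝ) ^ 2 := one_le_pow₀ hn
    have a1 : 3 ^ 70 * (Kpl * (P.C * P.L * P.Cw)) * (P.T / P.r₁ ^ 2 * P.nb ^ 2) ≤ P.η := by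
      have e : 3 ^ 70 * (Kpl * (P.C * P.L * P.Cw)) * (P.T / P.r₁ ^ 2 * P.nb ^ 2) =
          3 ^ 70 * Kpl * (P.C * P.L) * P.Cw * P.T * P.nb ^ 2 / P.r₁ ^ 2 := by ring
      rw [e, div_le_iff₀ (by positivity)]
      refine le_trans ?_ h2
      gcongr
      linarith
    have a2 : (2 * 3 ^ 55 * Kpl * P.Cw * (P.η / (8 * 3 ^ 55 * (Kpl + 1) * P.Cw)) : ℝ) ≤ P.η / 4 := by
      have hw0 : (0 : ℝ) < P.Cw := by linarith
      have hw1 : (0 : ℝ) < 8 * 3 ^ 55 * (Kpl + 1) * P.Cw := mul_pos (by positivity) hw0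
      rw [← mul_div_assoc, div_le_div_iff₀ hw1 (by norm_num)]
      have : 0 ≤ (P.Cw : ℝ) * P.η := by positivity
      nlinarith
    have a3 : 0 ≤ Kpl * (P.C * P.L * P.Cw) * (P.T / P.r₁ ^ 2) := by positivity
    have a4 : Kpl * (P.C * P.L * P.Cw) * (P.T / P.r₁ ^ 2) ≤
        Kpl * (P.C * P.L * P.Cw) * (P.T / P.r₁ ^ 2) * P.nb ^ 2 := le_mul_of_one_le_right a3 hn2
    have a5 : 2 * 3 ^ 55 * Kpl * P.Cw * (256 * (P.C * P.L * P.T / P.r₁ ^ 2) * (50 * P.nb ^ 2) +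
        256 * (P.C * P.L * P.T / P.r₁ ^ 2) * 8) ≤ P.η / 4 := by
      have e : 2 * 3 ^ 55 * Kpl * P.Cw * (256 * (P.C * P.L * P.T / P.r₁ ^ 2) * (50 * P.nb ^ 2) +
          256 * (P.C * P.L * P.T / P.r₁ ^ 2) * 8) =
          25600 * 3 ^ 55 * (Kpl * (P.C * P.L * P.Cw) * (P.T / P.r₁ ^ 2) * P.nb ^ 2) +
            4096 * 3 ^ 55 * (Kpl * (P.C * P.L * P.Cw) * (P.T / P.r₁ ^ 2)) := by ring
      have e' : 3 ^ 70 * (Kpl * (P.C * P.L * P.Cw)) * (P.T / P.r₁ ^ 2 * P.nb ^ 2) =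
          3 ^ 70 * (Kpl * (P.C * P.L * P.Cw) * (P.T / P.r₁ ^ 2) * P.nb ^ 2) := by ring
      rw [e]
      rw [e'] at a1
      linarith
    calc _ = (2 * 3 ^ 55 * Kpl * P.Cw * (256 * (P.C * P.L * P.T / P.r₁ ^ 2) * (50 * P.nb ^ 2) +
          256 * (P.C * P.L * P.T / P.r₁ ^ 2) * 8) +
          2 * 3 ^ 55 * Kpl * P.Cw * (P.η / (8 * 3 ^ 55 * (Kpl + 1) * P.Cw))) * P.K₀ := by ring
      _ ≤ _ := mul_le_mul_of_nonneg_right (by linarith) hK

/-- `GN_H_Cm`.  Along the path put `Z s = Zf s x_s v`, `m = 2 nb + ‖v‖`.  Where `Z s ≤ r₁`: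
`Z · Cm ≤ 192 C L m · om` (`Cm_le_dd`, `Cm_le_t`), so the integrand is at most
`c m Z ^ (nb - 1) / r₁ ^ nb`; `lintegral_Z`, `nb_ge`.  Where `Z s > r₁` we have `Th t = 1`, and
`Cm ≠ 0` forces `dd x_s ≤ 3 s + r₁ / 2` (`Cm_zero`), so `s ≥ r₁ / (2 (3 + 2 nb + 2 ‖v‖))`; use
`Cm_le_T` and `∫ ga (t - s) v ds ≤ min 1 ‖v‖⁻²`, `T_le`. -/
theorem EH (h : P.Num) : ∀ᶠ r in 𝓝[>] (0 : ℝ),
    LeOn 0 P.t₁ (PI (GN (P.E0 r + P.E1 r) P.H) 0) ((P.η : ℝ≥0∞) • P.H) := by
  have hK : 0 ≤ P.K₀ := le_trans (by norm_num) h.ok.four_le_K₀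
  have hk : (0 : ℝ) ≤ Kpl := Kpl.2
  have hr := h.ok.r₁_pos
  have hC := h.ok.one_le_C
  have hL := h.ok.one_le_L
  have hT := h.ok.T_pos
  have hn : (1 : ℝ) ≤ P.nb := by exact_mod_cast h.ok.nb_ge
  have hw : (1 : ℝ) ≤ P.Cw := by exact_mod_cast h.ok.one_le_Cw
  have hη : (0 : ℝ) < P.η := h.η_pos
  have he : (0 : ℝ) < P.η / (8 * 3 ^ 55 * (Kpl + 1) * P.Cw) := by positivity
  filter_upwards [Ec_le h.ok, W2_supp h.ok, Cm_le_t h.ok, Cm_le_dd h.ok, Cm_zero h.ok (half_pos hr),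
    Cm_le_T h.ok he] with r h1 h2 h3 h4 h5 h6 t ht x v
  have a1 : LeOn 0 P.t₁ (GN (P.E0 r + P.E1 r) P.H) (GN (P.Ecal r) P.H) :=
    GN_mono (fun t _ x v => h1 t x v) (fun t _ x v => le_rfl)
  refine (PI_mono a1 t ht x v).trans ?_
  set Z : ℝ → ℝ := fun s => P.Zf s (x - (t - s) • v) v with hZ
  set Y : ℝ≥0∞ := ga (3 - t) v * P.om t x v with hY
  set c : ℝ := 2 * 3 ^ 55 * Kpl * P.Cw * P.K₀ with hc
  have hc0 : 0 ≤ c := by positivity
  have hZc : Continuous Z := by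
    have := continuous_dd
    simp only [hZ, Zf]
    fun_prop
  have hZt : Z t = P.Zf t x v := by simp [hZ]
  have hθ := W2_Th_nonneg h.ok ht.1 x v
  have hH : (P.η : ℝ≥0∞) * P.H t x v = ENNReal.ofReal (P.η / 2 * (P.K₀ * P.Th t x v)) * Y +
      ENNReal.ofReal (P.η / 2 * (P.K₀ * P.Th t x v)) * Y := by
    rw [← add_mul, ← ENNReal.ofReal_add (by positivity) (by positivity), W2_H_eq, W2_nn, mul_assoc,
      ← mul_assoc, ← ENNReal.ofReal_mul hη.le]
    congr 2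
    ring
  have hsplit : Ioc 0 t ⊆ (Ioc 0 t ∩ {s | Z s ≤ P.r₁}) ∪ (Ioc 0 t ∩ {s | P.r₁ < Z s}) := fun s hs =>
    (le_or_gt (Z s) P.r₁).imp (fun a => ⟨hs, a⟩) fun a => ⟨hs, a⟩
  show ∫⁻ s in Ioc 0 t, pa (GN (P.Ecal r) P.H) t x v s ≤ P.η * P.H t x v
  rw [hH]
  refine (lintegral_mono_set hsplit).trans ((lintegral_union_le _ _ _).trans (add_le_add ?_ ?_))
  · have hm : (0 : ℝ) < 2 * P.nb + ‖v‖ := by positivity
    have hmeas : Measurable fun s => ENNReal.ofReal ((2 * P.nb + ‖v‖) * Z s ^ (P.nb - 1)) :=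
      (by fun_prop : Continuous fun s => (2 * P.nb + ‖v‖) * Z s ^ (P.nb - 1)).measurable.ennreal_ofReal
    have hint := lintegral_Z (Z := Z) h.ok.nb_ge hm hr ht.1 (fun s hs => Zf_nonneg P hs.1 _ v)
      fun s s' _ hss _ => by
        have b1 := Zf_pa P hss (x - (t - s') • v) v
        have e : x - (t - s') • v - (s' - s) • v = x - (t - s) • v := by
          rw [sub_sub, ← add_smul]
          congr 2
          ring
        rwa [e] at b1
    calc ∫⁻ s in Ioc 0 t ∩ {s | Z s ≤ P.r₁}, pa (GN (P.Ecal r) P.H) t x v s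
        ≤ ∫⁻ s in Ioc 0 t ∩ {s | Z s ≤ P.r₁},
            (ENNReal.ofReal c * Y * ENNReal.ofReal (192 * (P.C * P.L) / P.r₁ ^ P.nb)) *
              ENNReal.ofReal ((2 * P.nb + ‖v‖) * Z s ^ (P.nb - 1)) := by
          refine setLIntegral_mono (hmeas.const_mul _) fun s hs => ?_
          have hs' : s ∈ Ioc 0 P.t₁ := ⟨hs.1.1, hs.1.2.trans ht.2⟩
          have b0 : 0 ≤ Z s := Zf_nonneg P hs.1.1.le _ v
          refine (W2_EH_pt h.ok (meas_Ecal P r).1 ht hs.1 x v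
            (fun u => h2 _ le_rfl s _ u hs.1.1.le) (by positivity)
            (W2_EH_near h.ok hs.1.1 (h3 s hs' _ v) (h4 s hs' _ v))).trans ?_
          rw [mul_assoc (ENNReal.ofReal c * Y), ← ENNReal.ofReal_mul (by positivity)]
          refine mul_le_mul_right (ENNReal.ofReal_le_ofReal ?_) _
          refine mul_le_of_le_one_right (by positivity) (Real.exp_le_one_iff.2 ?_)
          have := mul_nonneg (sub_nonneg.2 hs.1.2) (sq_nonneg ‖v‖)
          linarith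
      _ ≤ (ENNReal.ofReal c * Y * ENNReal.ofReal (192 * (P.C * P.L) / P.r₁ ^ P.nb)) *
            ENNReal.ofReal (min P.r₁ (Z t) ^ P.nb / P.nb) := by
          rw [lintegral_const_mul _ hmeas]
          gcongr
      _ = ENNReal.ofReal (c * (192 * (P.C * P.L) / P.r₁ ^ P.nb * (min P.r₁ (Z t) ^ P.nb / P.nb))) * Y := by
          rw [ENNReal.ofReal_mul hc0,
            ENNReal.ofReal_mul (by positivity : 0 ≤ 192 * (P.C * P.L) / P.r₁ ^ P.nb)]
          ring
      _ ≤ _ := by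
          refine mul_le_mul_left (ENNReal.ofReal_le_ofReal ?_) _
          refine le_trans ?_ (W2_EH_num h hθ).1
          refine mul_le_mul_of_nonneg_left ?_ hc0
          have b0 : 0 ≤ min P.r₁ (Z t) := le_min hr.le (Zf_nonneg P ht.1 _ v)
          have b1 : (min P.r₁ (Z t) / P.r₁) ^ P.nb ≤ P.Th t x v := by
            refine le_min (pow_le_one₀ (by positivity) ((div_le_one hr).2 (min_le_left _ _))) ?_
            rw [← hZt]
            gcongr
            exact min_le_right _ _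
          calc _ = 192 * (P.C * P.L) * ((min P.r₁ (Z t) / P.r₁) ^ P.nb / P.nb) := by
                rw [div_pow]
                ring
            _ ≤ _ := by gcongr
  · rcases (Ioc 0 t ∩ {s | P.r₁ < Z s}).eq_empty_or_nonempty with he' | ⟨s₀, hs₀⟩
    · rw [he', Measure.restrict_empty, lintegral_zero_measure]
      exact zero_le
    have hθ1 : P.Th t x v = 1 := W2_Th_one h.ok (hs₀.2.le.trans (W2_Zf_mono P hs₀.1.2 x v))
    set A : ℝ := 256 * (P.C * P.L * P.T / P.r₁ ^ 2) with hA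
    have hA0 : 0 ≤ A := by positivity
    set e' : ℝ := P.η / (8 * 3 ^ 55 * (Kpl + 1) * P.Cw) with he'
    have hmeas : Measurable fun s : ℝ => ENNReal.ofReal (‖v‖ ^ 2 * Real.exp (-(t - s) * ‖v‖ ^ 2)) :=
      (by fun_prop : Continuous fun s : ℝ => ‖v‖ ^ 2 * Real.exp (-(t - s) * ‖v‖ ^ 2)).measurable.ennreal_ofReal
    have hmeas' : Measurable fun s : ℝ => ENNReal.ofReal (A * (50 * P.nb ^ 2) + e') +
        ENNReal.ofReal (A * 8) * ENNReal.ofReal (‖v‖ ^ 2 * Real.exp (-(t - s) * ‖v‖ ^ 2)) :=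
      measurable_const.add (hmeas.const_mul _)
    calc ∫⁻ s in Ioc 0 t ∩ {s | P.r₁ < Z s}, pa (GN (P.Ecal r) P.H) t x v s
        ≤ ∫⁻ s in Ioc 0 t ∩ {s | P.r₁ < Z s}, (ENNReal.ofReal c * Y) *
            (ENNReal.ofReal (A * (50 * P.nb ^ 2) + e') +
              ENNReal.ofReal (A * 8) * ENNReal.ofReal (‖v‖ ^ 2 * Real.exp (-(t - s) * ‖v‖ ^ 2))) := by
          refine setLIntegral_mono (hmeas'.const_mul _) fun s hs => ?_
          have hs' : s ∈ Ioc 0 P.t₁ := ⟨hs.1.1, hs.1.2.trans ht.2⟩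
          refine (W2_EH_pt h.ok (meas_Ecal P r).1 ht hs.1 x v
            (fun u => h2 _ le_rfl s _ u hs.1.1.le) (by positivity)
            (W2_EH_far h.ok hs.1.1 he.le hs.2 (h5 s _ v hs.1.1.le) (h6 s hs' _ v))).trans ?_
          rw [← ENNReal.ofReal_mul (by positivity), ← ENNReal.ofReal_add (by positivity) (by positivity)]
          gcongr
          have b1 : Real.exp (-(t - s) * ‖v‖ ^ 2) ≤ 1 := by
            refine Real.exp_le_one_iff.2 ?_
            have := mul_nonneg (sub_nonneg.2 hs.1.2) (sq_nonneg ‖v‖)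
            linarith
          have b2 : (A * (50 * P.nb ^ 2) + e') * Real.exp (-(t - s) * ‖v‖ ^ 2) ≤ A * (50 * P.nb ^ 2) + e' :=
            mul_le_of_le_one_right (by positivity) b1
          rw [← hA]
          linarith
      _ ≤ (ENNReal.ofReal c * Y) * (ENNReal.ofReal (A * (50 * P.nb ^ 2) + e') + ENNReal.ofReal (A * 8)) := by
          refine (lintegral_mono_set inter_subset_left).trans ?_
          rw [lintegral_const_mul _ hmeas', lintegral_add_left measurable_const, lintegral_const_mul _ hmeas]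
          gcongr
          · exact W2_vol h.ok ht _
          · exact mul_le_of_le_one_right' (W2_int_ga (sq_nonneg _) ht.1)
      _ = ENNReal.ofReal (c * (A * (50 * P.nb ^ 2) + e' + A * 8)) * Y := by
          rw [← ENNReal.ofReal_add (by positivity) (by positivity), ENNReal.ofReal_mul hc0]
          ring
      _ ≤ _ := by
          refine mul_le_mul_left (ENNReal.ofReal_le_ofReal ?_) _
          rw [hθ1, mul_one]
          exact (W2_EH_num h hθ).2

theorem W2_K (h : P.Num) : ENNReal.ofReal P.K₀ * Kgl ≤ P.K := by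
  have h1 := h.ok.four_le_K₀
  rw [W2_nn Kgl, W2_nn P.K, ← ENNReal.ofReal_mul (by linarith)]
  exact ENNReal.ofReal_le_ofReal h.K_ge

theorem W2_K' (h : P.Num) : (Kgl : ℝ≥0∞) ≤ P.K := by
  refine le_trans (le_mul_of_one_le_left' ?_) (W2_K h)
  rw [← ENNReal.ofReal_one]
  exact ENNReal.ofReal_le_ofReal (le_trans (by norm_num) h.ok.four_le_K₀)

theorem HH (h : P.Num) : LeOn 0 P.t₁ (PI (GN P.H P.H) 0) ((P.η : ℝ≥0∞) • P.H) := by
  intro t ht x v
  have hm : Measurable fun s : ℝ => br v * ga (t - s) v := by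
    unfold ga
    fun_prop
  calc PI (GN P.H P.H) 0 t x v ≤ ∫⁻ s in Ioc 0 t, (P.K * P.Cw * P.H t x v) * (br v * ga (t - s) v) := by
        refine setLIntegral_mono' measurableSet_Ioc fun s hs => ?_
        refine (GN_HH h.ok (W2_t1 h.ok ⟨hs.1, hs.2.trans ht.2⟩) _ v).trans ?_
        calc ENNReal.ofReal P.K₀ * Kgl * br v * P.H s (x - (t - s) • v) v
            ≤ P.K * br v * (P.Cw * ga (t - s) v * P.H t x v) := by
              gcongr
              · exact W2_K h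
              · exact H_pa h.ok t ht x v s hs
          _ = _ := by ring
    _ = (P.K * P.Cw * ∫⁻ s in Ioc 0 t, br v * ga (t - s) v) * P.H t x v := by
        rw [lintegral_const_mul _ hm]
        ring
    _ ≤ P.η * P.H t x v := by
        gcongr
        refine le_trans ?_ (h.RW v t ht.2)
        gcongr
        exact le_mul_of_one_le_left' (by norm_num)

theorem F0_le (h : P.OK) (r : ℝ) : ∀ t ∈ Icc 0 P.t₁, ∀ x v,
    P.F0 r (x - t • v) v ≤ P.E0 r t x v + 4⁻¹ * P.H t x v := by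
  intro t ht x v
  have e : P.E0 r 0 (x - t • v) v = P.E0 r t x v := by
    rw [← E0_pa P r t x v 0, pa, sub_zero]
  unfold F0
  rw [e]
  gcongr
  unfold Fa
  split_ifs with hc
  · have a1 : P.r₁ ≤ P.Zf t x v := by
      have b1 := W2_Zf_mono P ht.1 x v
      rw [sub_zero] at b1
      exact hc.2.trans ((W2_dd_le P le_rfl _ v).trans b1)
    refine ((Mx_le v).trans (Adm_ga_le_one (by norm_num) v)).trans ?_
    rw [W2_H_eq, W2_Th_one h a1, mul_one, ← mul_assoc]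
    refine le_trans ?_ (le_mul_of_one_le_right' (one_le_om P t x v))
    have a2 : (4⁻¹ : ℝ≥0∞) = ENNReal.ofReal 4⁻¹ := by
      rw [ENNReal.ofReal_inv_of_pos (by norm_num), ENNReal.ofReal_ofNat]
    have a3 := h.four_le_K₀
    rw [a2, ga, ← ENNReal.ofReal_mul (by positivity), ← ENNReal.ofReal_mul (by positivity),
      ← ENNReal.ofReal_one]
    refine ENNReal.ofReal_le_ofReal ?_
    have a4 : 4⁻¹ * (P.K₀ * Real.exp (-(3 - t) * ‖v‖ ^ 2)) =
        Real.exp (3 * P.R₀ ^ 2 + -(3 - t) * ‖v‖ ^ 2) := by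
      rw [K₀, Real.exp_add]
      ring
    rw [a4]
    refine Real.one_le_exp ?_
    have a5 : ‖v‖ ^ 2 ≤ P.R₀ ^ 2 := pow_le_pow_left₀ (norm_nonneg v) hc.1.le 2
    nlinarith [ht.1, sq_nonneg ‖v‖]
  · exact zero_le

theorem W2_int_inv {A a : ℝ} (hA : 0 ≤ A) (ha : 0 < a) :
    ∫⁻ s in Ioi a, ENNReal.ofReal (A / s ^ 2) = ENNReal.ofReal (A / a) := by
  have e : ∀ s ∈ Ioi a, ENNReal.ofReal (A / s ^ 2) = ENNReal.ofReal (A * s ^ (-2 : ℝ)) := fun s hs => by
    have hs' : 0 < s := ha.trans hs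
    rw [Real.rpow_neg hs'.le, Real.rpow_two, div_eq_mul_inv]
  rw [setLIntegral_congr_fun measurableSet_Ioi e, ← ofReal_integral_eq_lintegral_ofReal
    ((integrableOn_Ioi_rpow_of_lt (by norm_num) ha).const_mul A)
    (ae_restrict_of_forall_mem measurableSet_Ioi fun s hs => by
      have hs' : 0 < s := ha.trans hs
      positivity),
    integral_const_mul, integral_Ioi_rpow_of_lt (by norm_num) ha]
  congr 1
  norm_num
  rw [Real.rpow_neg_one, div_eq_mul_inv]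

/-- The optical depth seen by an ambient particle.  For `s < s₁ = r₁ / (2 (R₀ + 3))` the particle is
outside the support of the cold gas (`Cm_zero`), afterwards `Cm_le_T`, `ls_le_of_Cm`. -/
theorem depth (h : P.OK) {e' : ℝ} (he : 0 < e') : ∀ᶠ r in 𝓝[>] (0 : ℝ), ∀ t ∈ Icc 0 P.t₁, ∀ x v,
    P.Fa (x - t • v) v ≠ 0 → PI (LS (P.E0 r)) 0 t x v ≤
      ENNReal.ofReal (10 ^ 5 * (P.C * P.L * P.T * P.R₀ ^ 2 / P.r₁) + e') := by
  have hr := h.r₁_pos
  have hC := h.one_le_C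
  have hL := h.one_le_L
  have hT := h.T_pos
  have hR := h.R₀_ge
  have he'' : 0 < e' / (72 * (1 + P.R₀)) := by positivity
  filter_upwards [W2_supp h, Cm_zero h (half_pos hr), Cm_le_T h he''] with r h1 h2 h3 t ht x v hne
  have hc : ‖v‖ < P.R₀ ∧ P.r₁ ≤ dd (x - t • v) := by
    by_contra hc
    exact hne (if_neg hc)
  set a : ℝ := P.r₁ / (2 * (P.R₀ + 3)) with ha
  have ha0 : 0 < a := by positivity
  set A : ℝ := 72 * (1 + P.R₀) * (64 * (P.C * P.L * P.T)) with hA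
  have hA0 : 0 ≤ A := by positivity
  have hmeas : Measurable ((Ioi a).indicator fun s : ℝ => ENNReal.ofReal (A / s ^ 2)) :=
    (by fun_prop : Measurable fun s : ℝ => A / s ^ 2).ennreal_ofReal.indicator measurableSet_Ioi
  calc PI (LS (P.E0 r)) 0 t x v
      ≤ ∫⁻ s in Ioc 0 t, ((Ioi a).indicator (fun s : ℝ => ENNReal.ofReal (A / s ^ 2)) s + ENNReal.ofReal e') := by
        refine setLIntegral_mono' measurableSet_Ioc fun s hs => ?_
        have hs' : s ∈ Ioc 0 P.t₁ := ⟨hs.1, hs.2.trans ht.2⟩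
        have hsupp := fun u => h1 _ (E0_le_Ecal P r) s (x - (t - s) • v) u hs.1.le
        by_cases hsa : s ∈ Ioi a
        · have b1 := ls_le_of_Cm h (meas_E0 P r).1 (c := 1) hsupp (fun w => by
            rw [one_mul]
            exact (Cm_mono (E0_le_Ecal P r s _) w).trans (h3 s hs' _ w)) v
          rw [one_mul] at b1
          refine b1.trans ?_
          have hs0 := hs.1
          rw [indicator_of_mem hsa, br, ← ENNReal.ofReal_ofNat 72, ← ENNReal.ofReal_mul (by norm_num),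
            ← ENNReal.ofReal_mul (by positivity), ← ENNReal.ofReal_add (by positivity) he.le]
          refine ENNReal.ofReal_le_ofReal ?_
          calc _ ≤ 72 * (64 * (P.C * P.L * P.T / s ^ 2) + e' / (72 * (1 + P.R₀))) * (1 + P.R₀) := by
                gcongr
                exact hc.1.le
            _ = _ := by
                rw [hA]
                field_simp
        · have b0 : 3 * s + P.r₁ / 2 < dd (x - (t - s) • v) := by
            have c1 := dd_sub_le (x - (t - s) • v) (s • v)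
            have e : x - (t - s) • v - s • v = x - t • v := by
              rw [sub_sub, ← add_smul, sub_add_cancel]
            rw [e, norm_smul, Real.norm_of_nonneg hs.1.le] at c1
            have c2 : s * ‖v‖ < s * P.R₀ := mul_lt_mul_of_pos_left hc.1 hs.1
            have c3 : s ≤ a := not_lt.1 hsa
            rw [ha, le_div_iff₀ (by positivity)] at c3
            linarith [hc.2]
          have b1 := ls_le_of_Cm h (meas_E0 P r).1 (c := 1) (j := 0) hsupp (fun w => by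
            rw [one_mul, zero_mul]
            exact (Cm_mono (E0_le_Ecal P r s _) w).trans (h2 s _ w hs.1.le b0).le) v
          rw [one_mul, mul_zero, zero_mul] at b1
          exact b1.trans zero_le
    _ ≤ ENNReal.ofReal (A / a) + ENNReal.ofReal e' := by
        rw [lintegral_add_left hmeas]
        refine add_le_add ?_ (W2_vol h ht _)
        refine (setLIntegral_le_lintegral _ _).trans ?_
        rw [lintegral_indicator measurableSet_Ioi, W2_int_inv hA0 ha0]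
    _ ≤ _ := by
        rw [← ENNReal.ofReal_add (by positivity) he.le]
        gcongr
        have e : A / a = 9216 * ((1 + P.R₀) * (P.R₀ + 3)) * (P.C * P.L * P.T / P.r₁) := by
          rw [hA, ha]
          field_simp
          norm_num
        have e2 : 10 ^ 5 * (P.C * P.L * P.T * P.R₀ ^ 2 / P.r₁) = 10 ^ 5 * P.R₀ ^ 2 * (P.C * P.L * P.T / P.r₁) := by
          ring
        rw [e, e2]
        gcongr ?_ * _
        nlinarith

theorem F0_path (h : P.OK) : ∀ᶠ r in 𝓝[>] (0 : ℝ), ∀ t ∈ Icc 0 P.t₁, ∀ x v,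
    P.F0 r (x - t • v) v ≠ 0 → PI (LS (P.E0 r)) 0 t x v ≠ ⊤ := by
  filter_upwards [depth h one_pos, self_rate h] with r h1 h2 t ht x v hne
  by_cases ha : P.Fa (x - t • v) v = 0
  · have e : P.E0 r 0 (x - t • v) v = P.E0 r t x v := by
      rw [← E0_pa P r t x v 0, pa, sub_zero]
    have a1 : P.Ecal r t x v ≠ 0 := fun h0 => hne (by
      rw [F0, ha, add_zero, e]
      exact le_antisymm (h0 ▸ E0_le_Ecal P r t x v) zero_le)
    refine ne_top_of_le_ne_top ENNReal.one_ne_top (le_trans ?_ (W2_vol h ht 1))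
    refine setLIntegral_mono' measurableSet_Ioc fun s hs => le_trans ?_ ((h2 t ht x v a1).2 s hs)
    exact ls_mono (E0_le_Ecal P r s _) v
  · exact ne_top_of_le_ne_top ENNReal.ofReal_ne_top (h1 t ht x v ha)

theorem D1_OK (h : P.Num) : ∀ᶠ r in 𝓝[>] (0 : ℝ), (P.D1 r).OK := by
  filter_upwards [reg_E1 h.ok, F0_path h.ok, EE h, EH h, E0W h.ok, E1W h.ok, LE0 h.ok, LE1 h.ok,
    Ec_le h.ok, self_rate h.ok] with r h1 h2 h3 h4 h5 h6 h7 h8 h9 h10
  refine
    { rE0 := reg_E0 h.ok r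
      rE1 := h1
      rH := reg_H h.ok
      rW := reg_W h.ok
      mF0 := (meas_F0 P r).1
      iF0 := (meas_F0 P r).2
      t₁_pos := h.ok.t₁_pos
      t₁_le := h.ok.t₁_le.trans (by norm_num)
      one_Cw := h.ok.one_le_Cw
      one_K := ?_
      x₀_le := h.x₀_le
      e_small := by rw [D1_b₁]; exact h.e_small
      η_small := by rw [D1_b₁]; exact h.η_small
      n₂_ge := by rw [D1_b₁]; exact h.n₂_ge
      depl := h.depl
      E0_pa := E0_pa P r
      E0_le := fun x v => le_self_add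
      F0_le := F0_le h.ok r
      F0_path := h2
      E1_pa := fun t x v s hs => E1_pa P r t x v hs
      W_pa := W_pa h.ok
      H_pa := H_pa h.ok
      EE := h3
      EH := h4
      HH := HH h
      E0W := h5
      E1W := h6
      HW := fun t ht x v => ?_
      WW := fun t ht x v => ?_
      RW := h.RW
      LE0 := h7
      LE1 := h8
      LH := fun t ht x v => ?_
      LW := fun t ht x v => ?_
      self := fun t ht x v hne => ?_ }
  · have a : (Kgl : ℝ≥0∞) ≤ P.K := W2_K' h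
    exact one_le_Kgl.trans (ENNReal.coe_le_coe.1 a)
  · refine (GN_HW h.ok (W2_t1 h.ok ht) x v).trans ?_
    show _ ≤ P.K * (br v * P.W t x v)
    rw [← mul_assoc]
    gcongr
    exact W2_K h
  · refine (GN_WW h.ok (W2_t1 h.ok ht) x v).trans ?_
    show _ ≤ P.K * (br v * P.W t x v)
    rw [← mul_assoc]
    gcongr
    exact ENNReal.coe_le_coe.1 (W2_K' h)
  · refine (LS_H h.ok (W2_t1 h.ok ht) x v).trans ?_
    show _ ≤ P.K * br v
    gcongr
    exact W2_K h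
  · refine (LS_W h.ok (W2_t1 h.ok ht) x v).trans ?_
    show _ ≤ P.K * br v
    gcongr
    exact ENNReal.coe_le_coe.1 (W2_K' h)
  · have a1 : P.Ecal r t x v ≠ 0 := fun h0 => hne (le_antisymm (h0 ▸ h9 t x v) zero_le)
    refine ⟨(h10 t ht x v a1).1, fun s hs => le_trans ?_ ((h10 t ht x v a1).2 s hs)⟩
    exact ls_mono (h9 s _) v

end CP

end Crest.Agent.R68
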