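/-
R68/H1: the outer zones of the Harnack argument
Skeleton by helper76 (row 68); keep the statements unchanged, add any helper lemmas you like.
-/
import Crest.Agent.R68.LDefs
import Crest.Agent.R68.W2

set_option autoImplicit false
set_option linter.unusedVariables false
set_option linter.unusedSectionVars false

noncomputable section

namespace Crest.Agent.R68

open MeasureTheory Set Filter Topology
open scoped ENNReal NNReal
open Crest.AnalysisR.VecCalc3 Crest.AnalysisR.PDE.Boltzmann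

namespace CP

theorem H1_inv_le {z : R3} {ρ : ℝ} (hρ : 0 < ρ) (h : ρ ≤ ‖z‖) :
    ‖z‖ₑ⁻¹ ≤ ENNReal.ofReal (1 / ρ ^ 2) * ‖z‖ₑ := by
  have hz : 0 < ‖z‖ := hρ.trans_le h
  rw [← ofReal_norm, ← ENNReal.ofReal_inv_of_pos hz, ← ENNReal.ofReal_mul (by positivity)]
  refine ENNReal.ofReal_le_ofReal ?_
  rw [inv_eq_one_div, div_le_iff₀ hz, mul_assoc, one_div_mul_eq_div, le_div_iff₀ (by positivity)]
  nlinarith

theorem H1_inv16 : (16⁻¹ : ℝ≥0∞) = ENNReal.ofReal (1 / 16) := by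
  rw [one_div, ENNReal.ofReal_inv_of_pos (by norm_num), ENNReal.ofReal_ofNat]

theorem H1_inv8 : (8⁻¹ : ℝ≥0∞) = ENNReal.ofReal (1 / 8) := by
  rw [one_div, ENNReal.ofReal_inv_of_pos (by norm_num), ENNReal.ofReal_ofNat]

theorem H1_split : (16⁻¹ : ℝ≥0∞) = 2⁻¹ * 8⁻¹ := by
  rw [← ENNReal.mul_inv (by simp) (by simp)]
  norm_num

theorem H1_pa (P : CP) (h : P.OK) (r t s : ℝ) (x v : R3) :
    pa ((2 : ℝ≥0∞) • GN (P.E0 r) (pw 2 * P.W)) t x v s =
      ENNReal.ofReal (s ^ 2) * (2 * GN (P.E0 r) P.W s (x - (t - s) • v) v) := by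
  rw [pw, GN_tm_right (meas_E0 P r).1 (reg_W h).meas]
  show 2 * (ENNReal.ofReal (s ^ 2) * GN (P.E0 r) P.W s (x - (t - s) • v) v) = _
  ring

/-- For `‖u‖ ≤ 2`: `‖v - u‖⁻¹ ≤ ‖v - u‖ / (V₁ - 2)²`; `gn_W_le` with `A = univ`, `Kpl_spec`, `ls_eq`. -/
theorem fast_rate : ∃ V₁ : ℝ, 5 ≤ V₁ ∧ ∀ P : CP, P.OK → ∀ᶠ r in 𝓝[>] (0 : ℝ), ∀ t ∈ Ioc 0 P.t₁, ∀ x v,
    V₁ ≤ ‖v‖ → 2 * GN (P.E0 r) P.W t x v ≤ 16⁻¹ * LS (P.E0 r) t x v * eW t x v := by
  have hk : (0 : ℝ) ≤ Kpl := Kpl.2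
  have hc := cL_pos
  set a : ℝ := 64 * 3 ^ 50 * Kpl / cL with ha
  have ha0 : 0 ≤ a := by positivity
  refine ⟨5 + a, by linarith, fun P h => ?_⟩
  filter_upwards [W2_supp h] with r h1 t ht x v hv
  have hs : ∀ u, P.E0 r t x u ≠ 0 → ‖u‖ ≤ 2 := fun u => h1 _ (E0_le_Ecal P r) t x u ht.1.le
  have hE := (meas_E0 P r).1
  have h2 := gn_W_le h (W2_t1 h ht) x v hE (fun u hu => (hs u hu).trans (by norm_num))
    MeasurableSet.univ (B := fun _ => Kpl) fun u huv _ => by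
      rw [indicator_univ]
      refine le_trans (pl_mono (fun z _ => ?_) (norm_dir (sub_ne_zero.2 huv.symm)))
        (Kpl_spec (adm_om h t x) v _ (norm_dir (sub_ne_zero.2 huv.symm)))
      exact mul_le_mul_left (W1_ga_anti (by norm_num) _) _
  rw [indicator_univ] at h2
  have hm : Measurable fun u : R3 => ‖v - u‖ₑ * P.E0 r t x u := by
    have := hE.slice t x
    fun_prop
  have h3 : ∫⁻ u, P.E0 r t x u * ‖v - u‖ₑ⁻¹ * Kpl ≤
      (Kpl * ENNReal.ofReal (1 / (3 + a) ^ 2)) * ∫⁻ u, ‖v - u‖ₑ * P.E0 r t x u := by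
    rw [← lintegral_const_mul _ hm]
    refine lintegral_mono fun u => ?_
    by_cases hu : P.E0 r t x u = 0
    · simp [hu]
    have h4 : 3 + a ≤ ‖v - u‖ := by linarith [norm_sub_norm_le v u, hs u hu]
    calc P.E0 r t x u * ‖v - u‖ₑ⁻¹ * Kpl
        ≤ P.E0 r t x u * (ENNReal.ofReal (1 / (3 + a) ^ 2) * ‖v - u‖ₑ) * Kpl := by
          gcongr
          exact H1_inv_le (by linarith) h4
      _ = _ := by ring
  have h5 : 2 * (2 * 3 ^ 50 * Kpl) * ENNReal.ofReal (1 / (3 + a) ^ 2) ≤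
      16⁻¹ * ENNReal.ofReal cL := by
    rw [W2_c50, H1_inv16, ← ENNReal.ofReal_ofNat 2, ← ENNReal.ofReal_mul (by norm_num),
      ← ENNReal.ofReal_mul (by positivity), ← ENNReal.ofReal_mul (by positivity)]
    refine ENNReal.ofReal_le_ofReal ?_
    have h6 : a * cL = 64 * 3 ^ 50 * Kpl := by rw [ha]; field_simp
    rw [mul_one_div, div_le_iff₀ (by positivity)]
    have h7 : a * cL ≤ (3 + a) ^ 2 * cL := mul_le_mul_of_nonneg_right (by nlinarith) hc.le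
    linarith
  calc 2 * GN (P.E0 r) P.W t x v
      ≤ 2 * (2 * 3 ^ 50 * eW t x v * ((Kpl * ENNReal.ofReal (1 / (3 + a) ^ 2)) *
          ∫⁻ u, ‖v - u‖ₑ * P.E0 r t x u)) :=
        mul_le_mul_right (h2.trans (mul_le_mul_right h3 _)) _
    _ = (2 * (2 * 3 ^ 50 * Kpl) * ENNReal.ofReal (1 / (3 + a) ^ 2)) *
          (∫⁻ u, ‖v - u‖ₑ * P.E0 r t x u) * eW t x v := by ring
    _ ≤ (16⁻¹ * ENNReal.ofReal cL) * (∫⁻ u, ‖v - u‖ₑ * P.E0 r t x u) * eW t x v := by gcongr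
    _ = _ := by
        rw [LS, ls_eq (hE.slice t x)]
        ring

/-- `AI_mul_le` (`LS E0 = 2 att`), `eW_pa`. -/
theorem zone_fast : ∃ V₁ : ℝ, 5 ≤ V₁ ∧ ∀ P : CP, P.OK → ∀ᶠ r in 𝓝[>] (0 : ℝ), ∀ t ∈ Ioc 0 P.t₁, ∀ x v,
    V₁ ≤ ‖v‖ → AI (P.D1 r).att ((2 : ℝ≥0∞) • GN (P.E0 r) (pw 2 * P.W)) 0 t x v ≤
      8⁻¹ * (pw 2 * P.W) t x v := by
  obtain ⟨V₁, hV, h0⟩ := fast_rate
  refine ⟨V₁, hV, fun P h => ?_⟩
  filter_upwards [h0 P h] with r h1 t ht x v hv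
  have hm : Meas (P.D1 r).att := (meas_E0 P r).1.LS.smul _
  refine le_trans ?_ (AI_mul_le (r := 0) (t := t) (x := x) (v := v)
    (f := (8⁻¹ : ℝ≥0∞) • (pw 2 * eW)) hm fun s hs => ?_)
  · refine setLIntegral_mono' measurableSet_Ioc fun s hs => mul_le_mul_right ?_ _
    rw [H1_pa P h]
    refine (mul_le_mul_right (h1 s ⟨hs.1, hs.2.trans ht.2⟩ _ v hv) _).trans (le_of_eq ?_)
    show _ = 2⁻¹ * LS (P.E0 r) s (x - (t - s) • v) v *
      (8⁻¹ * (ENNReal.ofReal (s ^ 2) * eW s (x - (t - s) • v) v))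
    rw [H1_split]
    ring
  · show 8⁻¹ * (ENNReal.ofReal (s ^ 2) * pa eW t x v s) ≤ 8⁻¹ * (ENNReal.ofReal (t ^ 2) * P.W t x v)
    refine mul_le_mul_right (mul_le_mul' (ENNReal.ofReal_le_ofReal
      (pow_le_pow_left₀ hs.1.le hs.2 2)) ?_) _
    have h2 := eW_pa' hs.2 x v (d := 0) (by
      rw [add_zero]
      exact pow_le_pow_left₀ (W1_mm_nonneg t x v) (mm_pa hs.1 hs.2 x v) 2)
    rw [neg_zero, Real.exp_zero, ENNReal.ofReal_one, one_mul] at h2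
    exact h2.trans (P.eW_le_W t x v)

theorem H1_num {M V : ℝ} (hM : 0 ≤ M) (hV : 1 ≤ V) (h : M ^ 2 ≤ V) :
    M * V ^ (5 / 4 : ℝ) ≤ V ^ 2 := by
  have h0 : 0 < V := by linarith
  have h1 : V ^ (5 / 4 : ℝ) ≤ V ^ (3 / 2 : ℝ) :=
    Real.rpow_le_rpow_of_exponent_le hV (by norm_num)
  have h2 : M ≤ V ^ (1 / 2 : ℝ) := by
    rw [← Real.sqrt_eq_rpow]
    exact Real.le_sqrt_of_sq_le h
  calc M * V ^ (5 / 4 : ℝ) ≤ V ^ (1 / 2 : ℝ) * V ^ (3 / 2 : ℝ) :=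
        mul_le_mul h2 h1 (by positivity) (by positivity)
    _ = V ^ 2 := by
        rw [← Real.rpow_add h0, ← Real.rpow_natCast]
        norm_num

theorem H1_geo {t s d : ℝ} {x v : R3} (ht : 0 < t) (hs : s ∈ Ioc 0 t) (hv : ‖v‖ ≤ d / 2)
    (hd : d = dd x / t) : d * t / 2 ≤ dd (x - (t - s) • v) ∧
      mm t x v ^ 2 + d ^ 2 / t * (t - s) ≤ mm s (x - (t - s) • v) v ^ 2 := by
  have hd0 : 0 ≤ d := by linarith [norm_nonneg v]
  have hts : 0 ≤ t - s := sub_nonneg.2 hs.2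
  have h1 := le_dd_sub x ((t - s) • v)
  rw [norm_smul, Real.norm_of_nonneg hts] at h1
  have h2 : dd x = d * t := by rw [hd]; field_simp
  have h3 : (t - s) * ‖v‖ ≤ (t - s) * (d / 2) := mul_le_mul_of_nonneg_left hv hts
  have hs0 := hs.1
  refine ⟨by nlinarith, ?_⟩
  have h4 : mm t x v = d := by
    rw [mm, ← hd]
    exact max_eq_right (by linarith)
  have h5 : d + d / 2 * ((t - s) / t) ≤ mm s (x - (t - s) • v) v := by
    refine le_trans ?_ (le_max_right _ _)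
    rw [le_div_iff₀ hs0]
    have h6 : (t - s) / t * s ≤ t - s := by
      rw [div_mul_eq_mul_div, div_le_iff₀ ht]
      exact mul_le_mul_of_nonneg_left hs.2 hts
    have h7 : d / 2 * ((t - s) / t * s) ≤ d / 2 * (t - s) :=
      mul_le_mul_of_nonneg_left h6 (by linarith)
    nlinarith
  have h8 : 0 ≤ d / 2 * ((t - s) / t) := by positivity
  have h9 := pow_le_pow_left₀ (by positivity) h5 2
  have h10 : d ^ 2 / t * (t - s) = 2 * d * (d / 2 * ((t - s) / t)) := by ring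
  rw [h4, h10]
  nlinarith

/-- Let `d = dd x / t ≥ V / 16 ≥ 2 V₁`.  Then `dd x_s ≥ d t / 2` and
`dd x_s / s - d ≥ (d - V₁) (t - s) / s`, so `mm s ^ 2 ≥ mm t ^ 2 + d² (t - s) / t` (`eW_pa'`).  The rate
is `≤ c C / dd x_s` (`GN_W_Cm`, `Cm_le_dd`); the time integral is `≤ c C Cw / d³`, and
`C Cw = O(V ^ (9/4))` (`consts_poly`). -/
theorem zone_far (V₁ : ℝ) : ∃ V₀ : ℝ, ∀ P : CP, P.OK → V₀ ≤ P.V → ∀ᶠ r in 𝓝[>] (0 : ℝ),
    ∀ t ∈ Ioc 0 P.t₁, ∀ x v, ‖v‖ ≤ V₁ → P.V * t / 16 ≤ dd x →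
      PI ((2 : ℝ≥0∞) • GN (P.E0 r) (pw 2 * P.W)) 0 t x v ≤ 8⁻¹ * (pw 2 * P.W) t x v := by
  have hk : (0 : ℝ) ≤ Kpl := Kpl.2
  obtain ⟨c, hc, hpoly⟩ := consts_poly
  set k : ℝ := 2 * 3 ^ 50 * Kpl with hkdef
  have hk0 : 0 ≤ k := by positivity
  refine ⟨max (32 * V₁) ((2 ^ 23 * k * c ^ 2) ^ 2), fun P h hV => ?_⟩
  have hV1 : 32 * V₁ ≤ P.V := (le_max_left _ _).trans hV
  have hV16 := h.V_ge
  have hC := h.one_le_C
  have hnum : 2 ^ 23 * k * (P.C * P.Cw) ≤ P.V ^ 3 := by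
    obtain ⟨p1, -, p3, -⟩ := hpoly P.V (by linarith)
    have p4 := H1_num (by positivity) (by linarith) ((le_max_right _ _).trans hV)
    have p5 : P.C * P.Cw ≤ (c * P.V) * (c * P.V ^ (5 / 4 : ℝ)) :=
      mul_le_mul p1 p3 P.Cw.2 (by positivity)
    calc 2 ^ 23 * k * (P.C * P.Cw) ≤ 2 ^ 23 * k * ((c * P.V) * (c * P.V ^ (5 / 4 : ℝ))) :=
          mul_le_mul_of_nonneg_left p5 (by positivity)
      _ = P.V * (2 ^ 23 * k * c ^ 2 * P.V ^ (5 / 4 : ℝ)) := by ring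
      _ ≤ P.V * P.V ^ 2 := mul_le_mul_of_nonneg_left p4 (by linarith)
      _ = P.V ^ 3 := by ring
  filter_upwards [W2_supp h, Cm_le_dd h] with r h1 h2 t ht x v hv hx
  have ht0 := ht.1
  set d : ℝ := dd x / t with hd
  have hdV : P.V / 16 ≤ d := by
    rw [hd, le_div_iff₀ ht0]
    linarith
  have hd0 : 0 < d := by linarith
  have hvd : ‖v‖ ≤ d / 2 := by linarith
  set a : ℝ := d ^ 2 / t with ha
  have ha0 : 0 < a := by positivity
  have hw : (0 : ℝ) ≤ P.Cw := P.Cw.2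
  have hpt : ∀ s ∈ Ioc (0 : ℝ) t, pa ((2 : ℝ≥0∞) • GN (P.E0 r) (pw 2 * P.W)) t x v s ≤
      (8⁻¹ * (pw 2 * P.W) t x v) * ENNReal.ofReal (a * Real.exp (-(t - s) * a)) := by
    intro s hs
    have hs1 : s ∈ Ioc 0 P.t₁ := ⟨hs.1, hs.2.trans ht.2⟩
    obtain ⟨g1, g2⟩ := H1_geo ht0 hs hvd hd
    rw [H1_pa P h]
    have e1 := GN_W_Cm h (W2_t1 h hs1) (x - (t - s) • v) v (meas_E0 P r).1 fun u hu =>
      (h1 _ (E0_le_Ecal P r) s _ u hs.1.le hu).trans (by norm_num)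
    have e2 : eW s (x - (t - s) • v) v ≤
        ENNReal.ofReal (Real.exp (-(a * (t - s)))) * eW t x v := eW_pa' hs.2 x v g2
    have e3 : Cm (P.E0 r) s (x - (t - s) • v) v ≤
        ENNReal.ofReal (128 * P.C / (d * t)) * (P.Cw * P.om t x v) := by
      have e4 := (mul_le_mul' (ENNReal.ofReal_le_ofReal g1)
        (Cm_mono (E0_le_Ecal P r s (x - (t - s) • v)) v)).trans (h2 s hs1 (x - (t - s) • v) v)
      have e5 : P.om s (x - (t - s) • v) v ≤ P.Cw * P.om t x v := om_pa' h hs.1 hs.2 ht.2 x v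
      calc Cm (P.E0 r) s (x - (t - s) • v) v
          = ENNReal.ofReal (2 / (d * t)) *
              (ENNReal.ofReal (d * t / 2) * Cm (P.E0 r) s (x - (t - s) • v) v) := by
            rw [← mul_assoc, ← ENNReal.ofReal_mul (by positivity),
              show 2 / (d * t) * (d * t / 2) = 1 by field_simp, ENNReal.ofReal_one, one_mul]
        _ ≤ ENNReal.ofReal (2 / (d * t)) *
              (ENNReal.ofReal (64 * P.C) * (P.Cw * P.om t x v)) :=
            mul_le_mul_right (e4.trans (mul_le_mul_right e5 _)) _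
        _ = _ := by
            rw [← mul_assoc, ← ENNReal.ofReal_mul (by positivity)]
            congr 2
            ring
    have e6 : ENNReal.ofReal (s ^ 2) ≤ ENNReal.ofReal (t ^ 2) :=
      ENNReal.ofReal_le_ofReal (pow_le_pow_left₀ hs.1.le hs.2 2)
    have e7 : 2 * (2 * 3 ^ 50 * Kpl) * ENNReal.ofReal (128 * P.C / (d * t)) * P.Cw *
        ENNReal.ofReal (Real.exp (-(a * (t - s)))) ≤
          8⁻¹ * ENNReal.ofReal (a * Real.exp (-(t - s) * a)) := by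
      rw [W2_c50, H1_inv8, W2_nn P.Cw, ← ENNReal.ofReal_ofNat 2, ← ENNReal.ofReal_mul (by norm_num),
        ← ENNReal.ofReal_mul (by positivity), ← ENNReal.ofReal_mul (by positivity),
        ← ENNReal.ofReal_mul (by positivity), ← ENNReal.ofReal_mul (by positivity)]
      refine ENNReal.ofReal_le_ofReal ?_
      rw [show -(t - s) * a = -(a * (t - s)) by ring, ← mul_assoc (1 / 8 : ℝ)]
      refine mul_le_mul_of_nonneg_right ?_ (Real.exp_pos _).le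
      have e8 : (P.V / 16) ^ 3 ≤ d ^ 3 := pow_le_pow_left₀ (by linarith) hdV 3
      have e9 : 2 * k * (128 * P.C / (d * t)) * P.Cw = 256 * k * (P.C * P.Cw) / (d * t) := by ring
      have e10 : 1 / 8 * a = d ^ 3 / 8 / (d * t) := by rw [ha]; field_simp
      show 2 * k * (128 * P.C / (d * t)) * P.Cw ≤ _
      rw [e9, e10]
      refine div_le_div_of_nonneg_right ?_ (by positivity)
      linarith
    calc ENNReal.ofReal (s ^ 2) * (2 * GN (P.E0 r) P.W s (x - (t - s) • v) v)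
        ≤ ENNReal.ofReal (t ^ 2) * (2 * (2 * 3 ^ 50 * Kpl *
            (ENNReal.ofReal (Real.exp (-(a * (t - s)))) * eW t x v) *
            (ENNReal.ofReal (128 * P.C / (d * t)) * (P.Cw * P.om t x v)))) :=
          mul_le_mul' e6 (mul_le_mul_right (e1.trans
            (mul_le_mul' (mul_le_mul_right e2 _) e3)) _)
      _ = (2 * (2 * 3 ^ 50 * Kpl) * ENNReal.ofReal (128 * P.C / (d * t)) * P.Cw *
            ENNReal.ofReal (Real.exp (-(a * (t - s))))) *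
            (ENNReal.ofReal (t ^ 2) * (eW t x v * P.om t x v)) := by ring
      _ ≤ (8⁻¹ * ENNReal.ofReal (a * Real.exp (-(t - s) * a))) *
            (ENNReal.ofReal (t ^ 2) * (eW t x v * P.om t x v)) := mul_le_mul_left e7 _
      _ = _ := by
          show _ = 8⁻¹ * (ENNReal.ofReal (t ^ 2) * (eW t x v * P.om t x v)) * _
          ring
  refine (setLIntegral_mono' measurableSet_Ioc hpt).trans ?_
  rw [lintegral_const_mul _ (by fun_prop)]
  exact mul_le_of_le_one_right' (W2_int_ga ha0.le ht0.le)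

theorem outer : ∃ V₀ : ℝ, ∀ P : CP, P.OK → V₀ ≤ P.V → ∀ᶠ r in 𝓝[>] (0 : ℝ), P.Outer r := by
  obtain ⟨V₁, -, h1⟩ := zone_fast
  obtain ⟨V₀, h2⟩ := zone_far V₁
  refine ⟨max V₀ (16 * V₁), fun P h hV => ?_⟩
  filter_upwards [h1 P h, h2 P h ((le_max_left _ _).trans hV)] with r a1 a2 t ht x v hxv
  have hV1 : 16 * V₁ ≤ P.V := (le_max_right _ _).trans hV
  rcases le_total V₁ ‖v‖ with hv | hv
  · exact a1 t ht x v hv
  · rcases hxv with hx | hx
    · exact (AI_le_PI _ _ _ t x v).trans (a2 t ht x v hv hx)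
    · exact a1 t ht x v (by linarith)

end CP

end Crest.Agent.R68
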