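/-
R68/H2: bad collisions are rare
Skeleton by helper76 (row 68); keep the statements unchanged, add any helper lemmas you like.
-/
import Crest.Agent.R68.LDefs
import Crest.Agent.R68.W2

set_option autoImplicit false
set_option linter.unusedVariables false
set_option linter.unusedSectionVars false

noncomputable section

namespace Crest.Agent.R68

open MeasureTheory Set Filter Topology
open scoped ENNReal NNReal
open Crest.AnalysisR.VecCalc3 Crest.AnalysisR.PDE.Boltzmann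

namespace CP

/-- The collisions with a hot partner in `A` have relative rate at most `θ`. -/
def Rate (P : CP) (r : ℝ) (θ : ℝ≥0∞) (t : ℝ) (x v : R3) (A : Set R3) : Prop :=
  gn (P.E0 r t x) (A.indicator (P.W t x)) v ≤ θ * ENNReal.ofReal (P.b₀ / t) * P.W t x v

theorem H2_core {P : CP} (h : P.OK) : ∀ᶠ r in 𝓝[>] (0 : ℝ), ∀ t ∈ Ioc 0 P.t₁, ∀ x v,
    ∀ (A : Set R3) (B : R3 → ℝ≥0∞) (θ : ℝ≥0∞), MeasurableSet A →
      (∀ u, u ≠ v → P.E0 r t x u ≠ 0 →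
        pl (A.indicator fun z => ga (1 / 4) (z - v) * P.om t x z) v (dir (v - u)) ≤ B u) →
      ∫⁻ u, P.E0 r t x u * ‖v - u‖ₑ⁻¹ * B u ≤ θ * Cm (P.E0 r) t x v → P.Rate r θ t x v A := by
  filter_upwards [W2_supp h, Cm_le_t h] with r h1 h2 t ht x v A B θ hA hB hI
  refine (gn_W_le h (W2_t1 h ht) x v (meas_E0 P r).1 (fun u hu =>
    (h1 _ (E0_le_Ecal P r) t x u ht.1.le hu).trans (by norm_num)) hA hB).trans ?_
  have h3 := (Cm_mono (E0_le_Ecal P r t x) v).trans (h2 t ht x v)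
  have h4 : 2 * 3 ^ 50 * ENNReal.ofReal (64 * (P.C * P.L / t)) ≤ ENNReal.ofReal (P.b₀ / t) := by
    have e : (2 * 3 ^ 50 : ℝ≥0∞) = ENNReal.ofReal (2 * 3 ^ 50) := by
      rw [ENNReal.ofReal_mul (by positivity), ENNReal.ofReal_pow (by positivity)]
      simp
    rw [e, ← ENNReal.ofReal_mul (by positivity), ← mul_assoc]
    refine ENNReal.ofReal_le_ofReal (W2_b₀ h ht.1 ?_)
    have : (0 : ℝ) ≤ Kpl := Kpl.2
    nlinarith
  calc _ ≤ 2 * 3 ^ 50 * eW t x v * (θ * (ENNReal.ofReal (64 * (P.C * P.L / t)) * P.om t x v)) := by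
        gcongr
        exact hI.trans (mul_le_mul_right h3 _)
    _ = θ * (2 * 3 ^ 50 * ENNReal.ofReal (64 * (P.C * P.L / t))) * P.W t x v := by
        simp only [W, Pi.mul_apply]
        ring
    _ ≤ _ := by gcongr

theorem H2_const (E : Fn) (t : ℝ) (x v : R3) {c : ℝ≥0∞} (hc : c ≠ ⊤) :
    ∫⁻ u, E t x u * ‖v - u‖ₑ⁻¹ * c ≤ c * Cm E t x v := by
  rw [lintegral_mul_const' _ _ hc, mul_comm]
  exact mul_le_mul_right (inv_le_Cm E t x v) _

theorem H2_dir {u v : R3} (huv : u ≠ v) : ‖dir (v - u)‖ = 1 := norm_dir (sub_ne_zero.2 huv.symm)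

/-- `gn_W_le`, `adm_pl_tail`, `Cm_le_t`. -/
theorem rate_tail : ∃ K : ℝ≥0, ∀ P : CP, P.OK → ∀ᶠ r in 𝓝[>] (0 : ℝ), ∀ t ∈ Ioc 0 P.t₁, ∀ x v,
    ∀ ρ : ℝ, 0 ≤ ρ →
      P.Rate r (K * ENNReal.ofReal (Real.exp (-ρ ^ 2 / 8))) t x v {z | ρ ≤ ‖z - v‖} := by
  obtain ⟨K, hK⟩ := adm_pl_tail N0
  refine ⟨K, fun P h => ?_⟩
  filter_upwards [H2_core h] with r hr t ht x v ρ hρ
  exact hr t ht x v _ _ _
    (measurableSet_le measurable_const (measurable_id.sub_const v).norm)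
    (fun u huv _ => hK _ (adm_om h t x) v _ (H2_dir huv) ρ hρ)
    (H2_const _ t x v (ENNReal.mul_ne_top ENNReal.coe_ne_top ENNReal.ofReal_ne_top))

/-- `adm_pl_disc`. -/
theorem rate_disc {θ : ℝ≥0} (hθ : 0 < θ) : ∃ κ : ℝ, 0 < κ ∧ ∀ P : CP, P.OK → ∀ᶠ r in 𝓝[>] (0 : ℝ),
    ∀ t ∈ Ioc 0 P.t₁, ∀ x v, P.Rate r θ t x v {z | ‖z - v‖ ≤ κ} := by
  obtain ⟨κ, hκ, hK⟩ := adm_pl_disc N0 hθ
  refine ⟨κ, hκ, fun P h => ?_⟩
  filter_upwards [H2_core h] with r hr t ht x v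
  exact hr t ht x v _ _ _
    (measurableSet_le (measurable_id.sub_const v).norm measurable_const)
    (fun u huv _ => hK _ (adm_om h t x) v _ (H2_dir huv)) (H2_const _ t x v ENNReal.coe_ne_top)

/-- For `‖v - u‖ ≤ ρ` use `inv_near_le_Cm`; for `‖v - u‖ ≥ ρ` use `adm_pl_strip` with `e = e2`
(`|c2 u| ≤ κ` on the support of the cold gas). -/
theorem rate_strip {θ : ℝ≥0} (hθ : 0 < θ) : ∃ κ : ℝ, 0 < κ ∧ ∀ P : CP, P.OK → ∀ᶠ r in 𝓝[>] (0 : ℝ),
    ∀ t ∈ Ioc 0 P.t₁, ∀ x v, P.Rate r θ t x v {z | |c2 z| ≤ κ} := by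
  have hk : (0 : ℝ) ≤ Kpl := Kpl.2
  have hθ' : (0 : ℝ) < θ := hθ
  obtain ⟨ρ, hρd⟩ : ∃ ρ : ℝ, ρ = (θ / 2 / (Kpl + 1)) ^ 8 := ⟨_, rfl⟩
  have hρ : 0 < ρ := by rw [hρd]; positivity
  have hρ' : ENNReal.ofReal (ρ ^ (1 / 8 : ℝ)) * Kpl ≤ (θ / 2 : ℝ≥0) := by
    rw [hρd, ← Real.rpow_natCast, ← Real.rpow_mul (by positivity)]
    norm_num
    rw [W2_nn Kpl, ← ENNReal.ofReal_mul (by positivity)]
    refine (ENNReal.ofReal_le_ofReal (q := θ / 2) ?_).trans (le_of_eq ?_)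
    · rw [div_mul_eq_mul_div, div_le_iff₀ (by positivity)]
      nlinarith
    · rw [ENNReal.ofReal_div_of_pos two_pos, ENNReal.ofReal_coe_nnreal, ENNReal.ofReal_ofNat]
  obtain ⟨κ, hκ, hK⟩ := adm_pl_strip N0 (half_pos hθ) hρ
  refine ⟨κ / 2, half_pos hκ, fun P h => ?_⟩
  filter_upwards [H2_core h, Ecal_supp h (half_pos hκ)] with r hr hs t ht x v
  have hS : MeasurableSet {u : R3 | ‖v - u‖ ≤ ρ} :=
    measurableSet_le (measurable_const.sub measurable_id).norm measurable_const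
  refine hr t ht x v _ (fun u => {u : R3 | ‖v - u‖ ≤ ρ}.indicator (fun _ => (Kpl : ℝ≥0∞)) u +
    (θ / 2 : ℝ≥0)) _ (measurableSet_le (by unfold c2; fun_prop) measurable_const)
    (fun u huv hu => ?_) ?_
  · by_cases hd : ‖v - u‖ ≤ ρ
    · rw [indicator_of_mem (show u ∈ {u : R3 | ‖v - u‖ ≤ ρ} from hd)]
      refine le_trans (le_trans (pl_mono (fun z _ => ?_) (H2_dir huv))
        (Kpl_spec (adm_om h t x) v _ (H2_dir huv))) le_self_add
      exact (indicator_le_self _ _ _).trans (mul_le_mul_left (W1_ga_anti (by norm_num) _) _)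
    · refine le_trans (le_trans (pl_mono (fun z _ => ?_) (H2_dir huv))
        (hK _ (adm_om h t x) v u e2 norm_e2 (not_le.1 hd).le)) le_add_self
      refine indicator_le_indicator_of_subset (fun y hy => ?_) (fun _ => zero_le) _
      have a1 := (hs t x u ht.1.le fun h0 =>
        hu (le_antisymm (h0 ▸ E0_le_Ecal P r t x u) zero_le)).2.1
      have a2 : |c2 y| ≤ κ / 2 := hy
      change |c2 (y - u)| ≤ κ
      rw [c2_sub]
      linarith [abs_sub (c2 y) (c2 u)]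
  · have hm : Measurable fun u => P.E0 r t x u * ‖v - u‖ₑ⁻¹ :=
      ((meas_E0 P r).1.slice t x).mul (measurable_const.sub measurable_id).enorm.inv
    simp only [mul_add]
    rw [lintegral_add_right _ (hm.mul_const _)]
    have b1 : ∫⁻ u, P.E0 r t x u * ‖v - u‖ₑ⁻¹ *
        {u : R3 | ‖v - u‖ ≤ ρ}.indicator (fun _ => (Kpl : ℝ≥0∞)) u ≤
          (θ / 2 : ℝ≥0) * Cm (P.E0 r) t x v := by
      calc _ = ∫⁻ u in {u : R3 | ‖v - u‖ ≤ ρ}, P.E0 r t x u * ‖v - u‖ₑ⁻¹ * Kpl := by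
            rw [← lintegral_indicator hS]
            refine lintegral_congr fun u => ?_
            simp only [indicator]
            split_ifs <;> simp
        _ ≤ ENNReal.ofReal (ρ ^ (1 / 8 : ℝ)) * Cm (P.E0 r) t x v * Kpl := by
            rw [lintegral_mul_const' _ _ ENNReal.coe_ne_top]
            exact mul_le_mul_left (inv_near_le_Cm _ (meas_E0 P r).1 t x v hρ.le) _
        _ ≤ _ := by
            rw [mul_right_comm]
            exact mul_le_mul_left hρ' _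
    refine (add_le_add b1 (H2_const _ t x v ENNReal.coe_ne_top)).trans (le_of_eq ?_)
    rw [← add_mul, ← ENNReal.coe_add, add_halves]

/-- `tau_small`, `Cm_center`. -/
theorem rate_GC {θ : ℝ≥0} (hθ : 0 < θ) : ∃ ε₃ ζ₃ : ℝ, 0 < ε₃ ∧ 1 / 2 ≤ ζ₃ ∧ ζ₃ < 1 ∧ ∀ P : CP, P.OK →
    ∀ᶠ r in 𝓝[>] (0 : ℝ), ∀ t ∈ Ioc 0 P.t₁, ∀ x v, ry x ≤ 1 / 2 → ¬P.GC ε₃ ζ₃ t x →
      P.Rate r θ t x v univ := by
  have hθ' : (0 : ℝ) < θ := hθ
  obtain ⟨ζ, z1, z2, z3⟩ := tau_small hθ'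
  refine ⟨θ, ζ, hθ', z1, z2, fun P h => ?_⟩
  filter_upwards [W2_supp h, Cm_center h hθ'] with r h1 h2 t ht x v hx hG
  have hc : ∀ b, P.chi b t x ≤ θ := fun b => by
    by_cases hz : |P.ze t x| ≤ ζ
    · have a1 : ff (P.osc b (P.el t x)) ≤ θ := (not_le.1 fun a => hG ⟨b, hz, a⟩).le
      exact (mul_le_of_le_one_left (ff_nonneg _) (tau_le_one _)).trans a1
    · have a1 : tau (P.ze t x) ≤ θ :=
        (tau_anti (by rw [abs_of_nonneg (by linarith)]; exact (not_le.1 hz).le)).trans z3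
      exact (mul_le_of_le_one_right (tau_nonneg _)
        ((ff_le (P.osc_le_one _ _)).trans (by norm_num))).trans a1
  unfold Rate
  rw [indicator_univ, W2_nn θ, ← ENNReal.ofReal_mul hθ'.le]
  refine W2_GW h (meas_E0 P r).1 ht x v (fun u => h1 _ (E0_le_Ecal P r) t x u ht.1.le)
    ((Cm_mono (E0_le_Ecal P r t x) v).trans (h2 t ht x hx θ hc v)) ?_
  have hk : (0 : ℝ) ≤ Kpl := Kpl.2
  have a1 := h.rho0_le ht.1 x
  have a2 : 1 ≤ P.C * P.L / t := by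
    rw [le_div_iff₀ ht.1]
    have := one_le_mul_of_one_le_of_one_le h.one_le_C h.one_le_L
    linarith [ht.2, h.t₁_le]
  have a3 := W2_b₀ h ht.1 (a := 2 * 3 ^ 50 * Kpl * 96) (by nlinarith)
  have a4 : 32 * (P.rho0 t x * (θ + θ) + θ) ≤ θ * (96 * (P.C * P.L / t)) := by nlinarith
  calc _ ≤ 2 * 3 ^ 50 * Kpl * (θ * (96 * (P.C * P.L / t))) := by gcongr
    _ = θ * (2 * 3 ^ 50 * Kpl * 96 * (P.C * P.L / t)) := by ring
    _ ≤ _ := by gcongr

theorem rate_one {P : CP} (h : P.OK) : ∀ᶠ r in 𝓝[>] (0 : ℝ), ∀ t ∈ Ioc 0 P.t₁, ∀ x v,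
    P.Rate r 1 t x v univ := by
  filter_upwards [E0W h] with r hr t ht x v
  unfold Rate
  rw [indicator_univ, one_mul]
  exact hr t ht x v

/-- `eW_pa'`, `om_pa'`, `dd_eq_ry`. -/
theorem W_pa_far {P : CP} (h : P.OK) {ρ s t : ℝ} {x v : R3} (hρ : 0 ≤ ρ) (hs : 0 < s) (hst : s ≤ t)
    (ht : t ≤ P.t₁) (hsmall : 4 * ρ * P.V * t ≤ 1) (hL : P.Lev ρ t x v)
    (hfar : 2 * ρ * P.V * s ≤ ry (x - (t - s) • v)) :
    pa P.W t x v s ≤ P.Cw * ENNReal.ofReal (Real.exp (-(3 * ρ ^ 2 * P.V ^ 2))) * P.W t x v := by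
  have hV : 0 ≤ P.V := by linarith [h.V_ge]
  have ht0 : 0 < t := hs.trans_le hst
  have a1 : mm t x v ≤ ρ * P.V :=
    max_le hL.2 ((div_le_iff₀ ht0).2 ((dd_le_ry x).trans hL.1))
  have a2 : ry (x - (t - s) • v) ≤ 1 / 2 := by
    have b1 := ry_sub_le x ((t - s) • v)
    have b2 := ry_le_norm ((t - s) • v)
    rw [norm_smul, Real.norm_of_nonneg (sub_nonneg.2 hst)] at b2
    have b3 : (t - s) * ‖v‖ ≤ t * (ρ * P.V) :=
      mul_le_mul (by linarith) hL.2 (norm_nonneg _) ht0.le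
    linarith [hL.1]
  have a3 : 2 * (ρ * P.V) ≤ mm s (x - (t - s) • v) v := by
    refine le_trans ?_ (le_max_right _ _)
    rw [dd_eq_ry a2, le_div_iff₀ hs]
    linarith
  have a4 := pow_le_pow_left₀ (W1_mm_nonneg t x v) a1 2
  have a5 := pow_le_pow_left₀ (by positivity) a3 2
  refine (mul_le_mul' (eW_pa' hst x v (d := 3 * ρ ^ 2 * P.V ^ 2) (by linarith))
    (om_pa' h hs hst ht x v)).trans (le_of_eq ?_)
  change _ = _ * (eW t x v * P.om t x v)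
  ring

/-- `el ≥ |c2| / 2` for `s ≤ T`, and `c2 x_s` is affine in `s` with slope `c2 v`. -/
theorem volume_thin {P : CP} (h : P.OK) {t κ ε : ℝ} (ht : t ≤ P.T) (hκ : 0 < κ) (hε : 0 ≤ ε) (x : R3)
    {v : R3} (hv : κ ≤ |c2 v|) :
    volume {s ∈ Ioc 0 t | P.el s (x - (t - s) • v) < ε * s} ≤ ENNReal.ofReal (4 * ε * t / κ) := by
  have hT := h.T_pos
  have hv0 : c2 v ≠ 0 := abs_pos.1 (hκ.trans_le hv)
  refine (measure_mono (t := Metric.ball (t - c2 x / c2 v) (2 * ε * t / κ)) fun s hs => ?_).trans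
    (le_of_eq ?_)
  · obtain ⟨⟨s0, st⟩, h2⟩ := hs
    rw [h.el_eq s0.le, div_lt_iff₀ (by linarith), c2_sub, c2_smul] at h2
    have e : c2 x - (t - s) * c2 v = (s - (t - c2 x / c2 v)) * c2 v := by
      field_simp
      ring
    rw [e, abs_mul] at h2
    rw [Metric.mem_ball, Real.dist_eq, lt_div_iff₀ hκ]
    have a1 : |s - (t - c2 x / c2 v)| * κ ≤ |s - (t - c2 x / c2 v)| * |c2 v| := by gcongr
    have a2 : ε * s * (s + P.T) ≤ ε * t * (P.T + P.T) :=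
      mul_le_mul (by gcongr) (by linarith) (by linarith) (mul_nonneg hε (by linarith))
    have a3 : |s - (t - c2 x / c2 v)| * |c2 v| * P.T < 2 * ε * t * P.T := by linarith
    exact a1.trans_lt (lt_of_mul_lt_mul_right a3 hT.le)
  · rw [Real.volume_ball]
    congr 1
    ring

end CP

end Crest.Agent.R68
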