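/-
R68/H3: splitting off the main term
Skeleton by helper76 (row 68); keep the statements unchanged, add any helper lemmas you like.
-/
import Crest.Agent.R68.H2

set_option autoImplicit false
set_option linter.unusedVariables false
set_option linter.unusedSectionVars false

noncomputable section

namespace Crest.Agent.R68

open MeasureTheory Set Filter Topology
open scoped ENNReal NNReal
open Crest.AnalysisR.VecCalc3 Crest.AnalysisR.PDE.Boltzmann

namespace CP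

/-- Times with a small rate or a small weight. -/
theorem bad_times {P : CP} (h : P.OK) {r t : ℝ} (ht : t ∈ Ioc 0 P.t₁) (x v : R3) {S : Set ℝ}
    (hS : S ⊆ Ioc 0 t) (hSm : MeasurableSet S) {A : Set R3} (hA : MeasurableSet A) {θ θ' : ℝ≥0∞}
    (hr : ∀ s ∈ S, P.Rate r θ s (x - (t - s) • v) v A)
    (hw : ∀ s ∈ S, pa P.W t x v s ≤ P.Cw * θ' * P.W t x v) :
    ∫⁻ s in S, 2 * gn (P.E0 r s (x - (t - s) • v))
        (A.indicator ((pw 2 * P.W) s (x - (t - s) • v))) v ≤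
      b1v P.V * θ * θ' * ENNReal.ofReal t * volume S * P.W t x v := by
  have hW := (reg_W h).meas
  rw [mul_right_comm _ (volume S), ← setLIntegral_const]
  refine setLIntegral_mono' hSm fun s hs => ?_
  have hs0 := (hS hs).1
  have e : A.indicator ((pw 2 * P.W) s (x - (t - s) • v)) =
      fun u => ENNReal.ofReal (s ^ 2) * A.indicator (P.W s (x - (t - s) • v)) u := by
    funext u
    exact indicator_const_mul A _ _ u
  have e2 : ENNReal.ofReal (s ^ 2) * ENNReal.ofReal (P.b₀ / s) ≤ P.b₀ * ENNReal.ofReal t := by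
    rw [← ENNReal.ofReal_mul (sq_nonneg s), W2_nn P.b₀, ← ENNReal.ofReal_mul P.b₀.coe_nonneg]
    refine ENNReal.ofReal_le_ofReal ?_
    rw [show s ^ 2 * (P.b₀ / s) = P.b₀ * s by field_simp]
    exact mul_le_mul_of_nonneg_left (hS hs).2 P.b₀.2
  rw [e, gn_mul_right _ ((meas_E0 P r).1.slice _ _) ((hW.slice _ _).indicator hA)]
  calc 2 * (ENNReal.ofReal (s ^ 2) * gn (P.E0 r s (x - (t - s) • v))
        (A.indicator (P.W s (x - (t - s) • v))) v)
      ≤ 2 * (ENNReal.ofReal (s ^ 2) * (θ * ENNReal.ofReal (P.b₀ / s) *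
        (P.Cw * θ' * P.W t x v))) :=
        mul_le_mul' le_rfl (mul_le_mul' le_rfl ((hr s hs).trans (mul_le_mul' le_rfl (hw s hs))))
    _ = 2 * P.Cw * (ENNReal.ofReal (s ^ 2) * ENNReal.ofReal (P.b₀ / s)) * θ * θ' * P.W t x v := by
        ring
    _ ≤ 2 * P.Cw * (P.b₀ * ENNReal.ofReal t) * θ * θ' * P.W t x v := by gcongr
    _ = _ := by
        simp only [b1v, Cw, b₀, ENNReal.coe_mul, ENNReal.coe_ofNat]
        ring

/-- `x ^ 12 exp (-x² / 2048) → 0`, `consts_poly`. -/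
theorem gauss_small (K : ℝ≥0) : ∃ V₀ : ℝ, 1 ≤ V₀ ∧ ∀ V, V₀ ≤ V →
    (K : ℝ) * Real.exp (-V ^ 2 / 2048) * (16 * b1v V * (2 + b1v V) ^ 2) ≤ 1 := by
  obtain ⟨c, hc, H⟩ := consts_poly
  have h1 : Tendsto (fun V : ℝ => V ^ 2 / 2048) atTop atTop :=
    (tendsto_pow_atTop two_ne_zero).atTop_div_const (by norm_num)
  have h2 := ((Real.tendsto_pow_mul_exp_neg_atTop_nhds_zero 6).comp h1).const_mul
    (K * (16 * c * (2 + c) ^ 2) * 2048 ^ 6 : ℝ)
  rw [mul_zero] at h2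
  obtain ⟨V₀, hV₀⟩ := eventually_atTop.1 (h2.eventually (eventually_le_nhds one_pos))
  refine ⟨max 1 V₀, le_max_left _ _, fun V hV => ?_⟩
  have hV1 : 1 ≤ V := (le_max_left _ _).trans hV
  have h3 := (H V hV1).2.2.2
  have h4 : (1 : ℝ) ≤ V ^ 4 := one_le_pow₀ hV1
  have h5 : (2 + b1v V : ℝ) ≤ (2 + c) * V ^ 4 := by nlinarith
  refine le_trans ?_ (hV₀ V ((le_max_right _ _).trans hV))
  calc (K : ℝ) * Real.exp (-V ^ 2 / 2048) * (16 * b1v V * (2 + b1v V) ^ 2)
      ≤ K * Real.exp (-V ^ 2 / 2048) * (16 * (c * V ^ 4) * ((2 + c) * V ^ 4) ^ 2) := by gcongr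
    _ = _ := by
      simp only [Function.comp, neg_div]
      ring

theorem H3_piece {P : CP} (h : P.OK) {r t : ℝ} (ht : t ∈ Ioc 0 P.t₁) (x v : R3) {S : Set ℝ}
    (hS : S ⊆ Ioc 0 t) (hSm : MeasurableSet S) {A : Set R3} (hA : MeasurableSet A) {θ θ' : ℝ≥0∞}
    (hr : ∀ s ∈ S, P.Rate r θ s (x - (t - s) • v) v A)
    (hw : ∀ s ∈ S, pa P.W t x v s ≤ P.Cw * θ' * P.W t x v) {φ : ℝ}
    (hφ : φ * (16 * b1v P.V * (2 + b1v P.V) ^ 2) ≤ 1)
    (hv : θ * θ' * volume S ≤ ENNReal.ofReal φ * ENNReal.ofReal t) :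
    ∫⁻ s in S, 2 * gn (P.E0 r s (x - (t - s) • v))
        (A.indicator ((pw 2 * P.W) s (x - (t - s) • v))) v ≤
      ENNReal.ofReal (1 / (16 * (2 + b1v P.V) ^ 2)) * (pw 2 * P.W) t x v := by
  refine (bad_times h ht x v hS hSm hA hr hw).trans ?_
  have e : (b1v P.V : ℝ≥0∞) * ENNReal.ofReal φ ≤ ENNReal.ofReal (1 / (16 * (2 + b1v P.V) ^ 2)) := by
    rw [W2_nn, ← ENNReal.ofReal_mul (b1v P.V).coe_nonneg]
    refine ENNReal.ofReal_le_ofReal ((le_div_iff₀ (by positivity)).2 ?_)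
    calc _ = φ * (16 * b1v P.V * (2 + b1v P.V) ^ 2) := by ring
      _ ≤ 1 := hφ
  calc _ = b1v P.V * (θ * θ' * volume S) * ENNReal.ofReal t * P.W t x v := by ring
    _ ≤ b1v P.V * (ENNReal.ofReal φ * ENNReal.ofReal t) * ENNReal.ofReal t * P.W t x v := by gcongr
    _ = b1v P.V * ENNReal.ofReal φ * (ENNReal.ofReal (t ^ 2) * P.W t x v) := by
      rw [sq, ENNReal.ofReal_mul ht.1.le]
      ring
    _ ≤ _ := mul_le_mul' e le_rfl

theorem H3_meas {P : CP} (h : P.OK) (r t : ℝ) (x v : R3) {A : Set R3} (hA : MeasurableSet A) :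
    Measurable fun s => 2 * gn (P.E0 r s (x - (t - s) • v))
      (A.indicator ((pw 2 * P.W) s (x - (t - s) • v))) v := by
  refine Measurable.const_mul (measurable_gn ?_ ?_ measurable_const) _
  · exact path_meas_comp (meas_E0 P r).1 (by fun_prop) (by fun_prop) measurable_snd
  · exact c0c_ind (S := fun _ : ℝ => A) (g := fun s => (pw 2 * P.W) s (x - (t - s) • v))
      (measurable_snd hA) (path_meas_comp ((reg_pw 2).meas.mul (reg_W h).meas) (by fun_prop)
        (by fun_prop) measurable_snd)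

theorem H3_vel {E g w : R3 → ℝ≥0∞} (hE : Measurable E) (hg : Measurable g) (hw : Measurable w)
    {Y : ℝ≥0∞} (hle : ∀ u, g u ≤ Y * w u) {D A₁ A₂ A₃ : Set R3} (hD : MeasurableSet D)
    (h₁ : MeasurableSet A₁) (h₂ : MeasurableSet A₂) (h₃ : MeasurableSet A₃)
    (hc : ∀ u, u ∉ D → u ∈ A₁ ∨ u ∈ A₂ ∨ u ∈ A₃) (v : R3) :
    2 * gn E g v ≤ 2 * gn E (D.indicator g) v + Y * (2 * gn E (A₁.indicator w) v +
      2 * gn E (A₂.indicator w) v + 2 * gn E (A₃.indicator w) v) := by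
  have m₁ := hw.indicator h₁
  have m₂ := hw.indicator h₂
  have m₃ := hw.indicator h₃
  have key : g ≤ D.indicator g +
      fun u => Y * (A₁.indicator w + A₂.indicator w + A₃.indicator w) u := by
    intro u
    by_cases hu : u ∈ D
    · rw [Pi.add_apply, indicator_of_mem hu]
      exact le_self_add
    · refine (hle u).trans (le_trans (mul_le_mul' le_rfl ?_) le_add_self)
      simp only [Pi.add_apply]
      rcases hc u hu with k | k | k <;> rw [indicator_of_mem k]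
      · exact le_self_add.trans le_self_add
      · exact le_add_self.trans le_self_add
      · exact le_add_self
  refine (mul_le_mul' le_rfl (gn_mono le_rfl key v)).trans (le_of_eq ?_)
  rw [gn_add_right hE (hg.indicator hD) (((m₁.add m₂).add m₃).const_mul Y),
    gn_mul_right Y hE ((m₁.add m₂).add m₃), gn_add_right hE (m₁.add m₂) m₃, gn_add_right hE m₁ m₂]
  ring

theorem H3_theta (V : ℝ) : ∃ θ : ℝ≥0, 0 < θ ∧ (θ : ℝ) ≤ 1 / 2 ∧
    θ * (16 * b1v V * (2 + b1v V) ^ 2 : ℝ) ≤ 1 := by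
  have hb : (0 : ℝ) ≤ 16 * b1v V * (2 + b1v V) ^ 2 := by positivity
  refine ⟨NNReal.mk (1 / (2 + 16 * b1v V * (2 + b1v V) ^ 2)) (by positivity), ?_, ?_, ?_⟩
  · exact NNReal.coe_pos.1 (by rw [NNReal.coe_mk]; positivity)
  · rw [NNReal.coe_mk]
    exact one_div_le_one_div_of_le two_pos (by linarith)
  · rw [NNReal.coe_mk, one_div, inv_mul_le_iff₀ (by positivity)]
    linarith

/-- Let `θ = θH / (8 b₁)`-type constants.  For `s ∈ gt` split the incoming velocities: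
`h ≤ 1_gd h + Y s² (1_{ρ V ≤ ‖z - v‖} + 1_{|c2 z| ≤ κ₁} + 1_{‖z - v‖ ≤ κ₁}) W`
(`rate_tail`, `rate_strip`, `rate_disc`).  The times `s ∈ (0, t] \ gt` are covered by five sets:
`s < t / A`, `s > (1 - κ₁) t`, `ry x_s > 2 ρ V s` (`W_pa_far`), `¬ GC` (`rate_GC`; `ry x_s ≤ 2 ρ V t`),
`el < εc s` (`volume_thin`; empty if `εc = 0`).  `bad_times` for each of the eight pieces. -/
theorem split : ∃ V₀ : ℝ, ∀ V, V₀ ≤ V → ∃ Q : HQ, Q.OK ∧ ∀ P : CP, P.OK → P.V = V →
    ∀ᶠ r in 𝓝[>] (0 : ℝ), P.Split Q r := by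
  obtain ⟨K, hK⟩ := rate_tail
  obtain ⟨V₀, hV₀, hG⟩ := gauss_small (K + 1)
  refine ⟨V₀, fun V hV => ?_⟩
  obtain ⟨θ, hθ, hθ1, hθb⟩ := H3_theta V
  obtain ⟨κd, hκd, hd⟩ := rate_disc hθ
  obtain ⟨κs, hκs, hs⟩ := rate_strip hθ
  obtain ⟨ε₃, ζ₃, hε₃, hζ, hζ', hGC⟩ := rate_GC hθ
  have hθ0 : (0 : ℝ) < θ := hθ
  obtain ⟨κ, hκ, hκ1, hκ2, hκ3⟩ : ∃ κ : ℝ, 0 < κ ∧ κ ≤ κd ∧ κ ≤ κs ∧ κ ≤ θ :=
    ⟨min κd (min κs θ), lt_min hκd (lt_min hκs hθ0), min_le_left _ _,
      (min_le_right _ _).trans (min_le_left _ _), (min_le_right _ _).trans (min_le_right _ _)⟩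
  refine ⟨⟨1 / θ, κ, θ * κ / 4, ε₃, ζ₃⟩, ⟨(one_le_div hθ0).2 (by linarith), hκ, by linarith,
    by positivity, hε₃, hζ, hζ'⟩, fun P h hPV => ?_⟩
  subst hPV
  have hV0 : 0 < P.V := by linarith
  have hb : (0 : ℝ) ≤ 16 * b1v P.V * (2 + b1v P.V) ^ 2 := by positivity
  have hG' := hG P.V hV
  push_cast at hG'
  have hG1 : Real.exp (-P.V ^ 2 / 2048) * (16 * b1v P.V * (2 + b1v P.V) ^ 2) ≤ 1 := by
    refine le_trans (mul_le_mul_of_nonneg_right ?_ hb) hG'
    exact le_mul_of_one_le_left (Real.exp_pos _).le (le_add_of_nonneg_left K.2)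
  have hGK : K * Real.exp (-P.V ^ 2 / 2048) * (16 * b1v P.V * (2 + b1v P.V) ^ 2) ≤ 1 := by
    refine le_trans (mul_le_mul_of_nonneg_right ?_ hb) hG'
    exact mul_le_mul_of_nonneg_right (le_add_of_nonneg_right zero_le_one) (Real.exp_pos _).le
  filter_upwards [hK P h, hd P h, hs P h, hGC P h, rate_one h, h.ev_t₀ h.t₁_pos, h.ev_t₀ h.T_pos,
    h.ev_t₀ (one_div_pos.2 hV0)] with r r1 r2 r3 r4 r5 ⟨_, t1⟩ ⟨_, t2⟩ ⟨_, t3⟩
  intro ρ hρ t ht x v hL εc hεc g Y hg hle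
  have ht1 : t ∈ Ioc 0 P.t₁ := ⟨ht.1, ht.2.trans t1⟩
  have hVt : P.V * t ≤ 1 := by
    have := (le_div_iff₀ hV0).1 (ht.2.trans t3)
    linarith
  have hρ0 : 0 ≤ ρ := by linarith [hρ.1]
  have hI : ∀ s ∈ Ioc 0 t, s ∈ Ioc 0 P.t₁ := fun s hs => ⟨hs.1, hs.2.trans ht1.2⟩
  have hw1 : ∀ s ∈ Ioc 0 t, pa P.W t x v s ≤ P.Cw * 1 * P.W t x v := fun s hs => by
    refine (W_pa h t (Ioc_subset_Icc_self ht1) x v s hs).trans
      (mul_le_mul' (mul_le_mul' le_rfl ?_) le_rfl)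
    refine ENNReal.ofReal_le_one.2 (Real.exp_le_one_iff.2 ?_)
    nlinarith [hs.2, sq_nonneg ‖v‖]
  have hvol : ∀ {S : Set ℝ}, S ⊆ Ioc 0 t → volume S ≤ ENNReal.ofReal t := fun hS =>
    (measure_mono hS).trans (by rw [Real.volume_Ioc, sub_zero])
  have hy : Measurable fun s : ℝ => x - (t - s) • v := by fun_prop
  have mA₁ : MeasurableSet {z : R3 | ρ * P.V ≤ ‖z - v‖} :=
    measurableSet_le measurable_const (by fun_prop)
  have mA₂ : MeasurableSet {z : R3 | |c2 z| ≤ κs} :=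
    measurableSet_le c0c_m2.abs measurable_const
  have mA₃ : MeasurableSet {z : R3 | ‖z - v‖ ≤ κd} :=
    measurableSet_le (by fun_prop) measurable_const
  have hsq : P.V ^ 2 / 256 ≤ (ρ * P.V) ^ 2 := by
    rw [show P.V ^ 2 / 256 = (1 / 16 * P.V) ^ 2 by ring]
    gcongr
    exact hρ.1
  have p1 := H3_piece h ht1 x v Subset.rfl measurableSet_Ioc mA₁
    (fun s hs => r1 s (hI s hs) _ v _ (by positivity)) hw1 hGK (by
      rw [mul_one, ENNReal.ofReal_mul K.coe_nonneg, W2_nn K]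
      exact mul_le_mul' (mul_le_mul' le_rfl (ENNReal.ofReal_le_ofReal (Real.exp_le_exp.2
        (by linarith)))) (hvol Subset.rfl))
  have p2 := H3_piece h ht1 x v Subset.rfl measurableSet_Ioc mA₂
    (fun s hs => r3 s (hI s hs) _ v) hw1 hθb (by
      rw [mul_one, W2_nn θ]
      exact mul_le_mul' le_rfl (hvol Subset.rfl))
  have p3 := H3_piece h ht1 x v Subset.rfl measurableSet_Ioc mA₃
    (fun s hs => r2 s (hI s hs) _ v) hw1 hθb (by
      rw [mul_one, W2_nn θ]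
      exact mul_le_mul' le_rfl (hvol Subset.rfl))
  have s4 : Ioc 0 (θ * t) ⊆ Ioc 0 t := Ioc_subset_Ioc_right (by nlinarith [ht.1])
  have p4 := H3_piece h ht1 x v s4 measurableSet_Ioc MeasurableSet.univ
    (fun s hs => r5 s (hI s (s4 hs)) _ v) (fun s hs => hw1 s (s4 hs)) hθb (by
      rw [mul_one, one_mul, Real.volume_Ioc, sub_zero, ENNReal.ofReal_mul hθ0.le])
  have s5 : Ioc ((1 - κ) * t) t ⊆ Ioc 0 t := Ioc_subset_Ioc_left (by nlinarith [ht.1])
  have p5 := H3_piece h ht1 x v s5 measurableSet_Ioc MeasurableSet.univ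
    (fun s hs => r5 s (hI s (s5 hs)) _ v) (fun s hs => hw1 s (s5 hs)) hθb (by
      rw [mul_one, one_mul, Real.volume_Ioc, ← ENNReal.ofReal_mul hθ0.le]
      exact ENNReal.ofReal_le_ofReal (by nlinarith [ht.1]))
  have p6 := H3_piece h ht1 x v (S := {s ∈ Ioc 0 t | 2 * ρ * P.V * s ≤ ry (x - (t - s) • v)})
    (sep_subset _ _) (measurableSet_Ioc.inter (measurableSet_le (by fun_prop) (c0c_mry.comp hy)))
    MeasurableSet.univ (fun s hs => r5 s (hI s hs.1) _ v)
    (fun s hs => W_pa_far h hρ0 hs.1.1 hs.1.2 ht1.2 (by nlinarith [hρ.2, mul_pos hV0 ht.1]) hL hs.2)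
    hG1 (by
      rw [one_mul]
      exact mul_le_mul' (ENNReal.ofReal_le_ofReal (Real.exp_le_exp.2
        (by nlinarith [sq_nonneg P.V]))) (hvol (sep_subset _ _)))
  have p7 := H3_piece h ht1 x v
    (S := {s ∈ Ioc 0 t | ry (x - (t - s) • v) ≤ 1 / 2 ∧ ¬P.GC ε₃ ζ₃ s (x - (t - s) • v)})
    (sep_subset _ _) (measurableSet_Ioc.inter ((measurableSet_le (c0c_mry.comp hy)
      measurable_const).inter ((measurable_id.prodMk hy) (measurableSet_GC P ε₃ ζ₃)).compl))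
    MeasurableSet.univ (fun s hs => r4 s (hI s hs.1) _ v hs.2.1 hs.2.2) (fun s hs => hw1 s hs.1)
    hθb (by
      rw [mul_one, W2_nn θ]
      exact mul_le_mul' le_rfl (hvol (sep_subset _ _)))
  have p8 := H3_piece h ht1 x v (S := {s ∈ Ioc 0 t | P.el s (x - (t - s) • v) < εc * s})
    (sep_subset _ _) (measurableSet_Ioc.inter (measurableSet_lt
      ((measurable_el P).comp (measurable_id.prodMk hy)) (by fun_prop)))
    MeasurableSet.univ (fun s hs => r5 s (hI s hs.1) _ v) (fun s hs => hw1 s hs.1) hθb (by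
      rw [mul_one, one_mul, ← ENNReal.ofReal_mul hθ0.le]
      rcases hεc with rfl | ⟨rfl, hv⟩
      · refine le_trans (le_of_eq (measure_mono_null (fun s hs => ?_) measure_empty)) zero_le
        have := hs.2
        rw [zero_mul] at this
        exact absurd this (not_lt.2 (el_nonneg P _ _))
      · refine (volume_thin h (ht.2.trans t2) hκ (by positivity) x hv).trans (le_of_eq ?_)
        congr 1
        field_simp)
  set Q : HQ := ⟨1 / θ, κ, θ * κ / 4, ε₃, ζ₃⟩ with hQ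
  have mgt : MeasurableSet (P.gt Q ρ εc t x v) :=
    measurable_prodMk_left (x := (t, x, v)) (c0c_gt P Q ρ εc)
  have mE := fun s : ℝ => (meas_E0 P r).1.slice s (x - (t - s) • v)
  have mW := fun s : ℝ => ((reg_pw 2).meas.mul (reg_W h).meas).slice s (x - (t - s) • v)
  have m1 := H3_meas h r t x v mA₁
  have m2 := H3_meas h r t x v mA₂
  have m3 := H3_meas h r t x v mA₃
  have q1 : ∫⁻ s in Ioc 0 t ∩ P.gt Q ρ εc t x v, pa ((2 : ℝ≥0∞) • GN (P.E0 r) g) t x v s ≤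
      P.mainT Q r ρ εc g t x v + Y * (3 * (ENNReal.ofReal (1 / (16 * (2 + b1v P.V) ^ 2)) *
        (pw 2 * P.W) t x v)) := by
    refine (setLIntegral_mono' (measurableSet_Ioc.inter mgt) fun s hs => H3_vel (mE s)
      (hg.slice s _) (mW s) (hle s hs.1 _) (D := P.gd Q ρ v)
      (measurable_prodMk_left (x := v) (c0c_gd P Q ρ)) mA₁ mA₂ mA₃ (fun u hu => ?_) v).trans ?_
    · by_contra hc
      simp only [mem_ofPred_eq, not_or, not_le] at hc
      refine hu ⟨?_, hκ2.trans hc.2.1.le, hκ1.trans hc.2.2.le⟩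
      have := norm_add_le (u - v) v
      rw [sub_add_cancel] at this
      linarith [hc.1, hL.2]
    rw [lintegral_add_right _ (((m1.fun_add m2).fun_add m3).const_mul Y),
      lintegral_const_mul _ ((m1.fun_add m2).fun_add m3), lintegral_add_right _ m3,
      lintegral_add_right _ m2]
    refine add_le_add (lintegral_mono_set inter_subset_right) (mul_le_mul' le_rfl ?_)
    refine (add_le_add (add_le_add ((lintegral_mono_set inter_subset_left).trans p1)
      ((lintegral_mono_set inter_subset_left).trans p2))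
      ((lintegral_mono_set inter_subset_left).trans p3)).trans (le_of_eq (by ring))
  have q2 : ∫⁻ s in Ioc 0 t \ P.gt Q ρ εc t x v, pa ((2 : ℝ≥0∞) • GN (P.E0 r) g) t x v s ≤
      Y * (5 * (ENNReal.ofReal (1 / (16 * (2 + b1v P.V) ^ 2)) * (pw 2 * P.W) t x v)) := by
    refine (setLIntegral_mono' (g := fun s => Y * (2 * gn (P.E0 r s (x - (t - s) • v))
      (univ.indicator ((pw 2 * P.W) s (x - (t - s) • v))) v)) (measurableSet_Ioc.diff mgt)
      fun s hs => ?_).trans ?_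
    · rw [indicator_univ, mul_left_comm, ← gn_mul_right Y (mE s) (mW s)]
      exact mul_le_mul' le_rfl (gn_mono le_rfl (hle s hs.1 _) v)
    rw [lintegral_const_mul _ (H3_meas h r t x v MeasurableSet.univ)]
    refine mul_le_mul' le_rfl (le_trans (le_trans (lintegral_mono_set fun s hs => ?_)
      ((lintegral_union_le _ _ _).trans (add_le_add p4 ((lintegral_union_le _ _ _).trans
        (add_le_add p5 ((lintegral_union_le _ _ _).trans (add_le_add p6
          ((lintegral_union_le _ _ _).trans (add_le_add p7 p8))))))))) (le_of_eq (by ring)))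
    by_contra hc
    simp only [mem_union, mem_ofPred_eq, not_or, not_and, not_le, not_lt, not_not] at hc
    obtain ⟨c4, c5, c6, c7, c8⟩ := hc
    have c6' := c6 hs.1
    refine hs.2 ⟨?_, not_lt.1 fun k => c5 ⟨k, hs.1.2⟩, c6'.le, c7 hs.1 ?_, c8 hs.1⟩
    · rw [show t / Q.A = θ * t by rw [hQ]; field_simp]
      exact (not_le.1 fun k => c4 ⟨hs.1.1, k⟩).le
    · have k1 : P.V * s ≤ 1 := (mul_le_mul_of_nonneg_left hs.1.2 hV0.le).trans hVt
      nlinarith [hρ.2, mul_pos hV0 hs.1.1]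
  have e8 : (P.θH : ℝ≥0∞) = 8 * ENNReal.ofReal (1 / (16 * (2 + b1v P.V) ^ 2)) := by
    rw [W2_nn, ← ENNReal.ofReal_ofNat 8, ← ENNReal.ofReal_mul (by norm_num)]
    congr 1
    unfold θH
    push_cast
    field_simp
    norm_num
  unfold PI
  rw [← lintegral_inter_add_sdiff _ _ mgt, e8]
  exact (add_le_add q1 q2).trans (le_of_eq (by ring))

end CP

end Crest.Agent.R68
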