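/-
R68/Soft: a fixed point theorem in a weighted sup norm and weakly convergent subsequences
Skeleton by helper76 (row 68); keep the statements unchanged, add any helper lemmas you like.
-/
import Crest.Agent.R68.Defs

set_option autoImplicit false
set_option linter.unusedVariables false
set_option linter.unusedSectionVars false

noncomputable section

namespace Crest.Agent.R68

open MeasureTheory Set Filter Topology
open scoped ENNReal NNReal
open Crest.AnalysisR.VecCalc3 Crest.AnalysisR.PDE.Boltzmann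

theorem soft_tendsto_half {Y z : ℝ≥0∞} (hY : Y ≠ ⊤) (hz : z ≠ ⊤) :
    Tendsto (fun n : ℕ => Y * 2⁻¹ ^ n * z) atTop (𝓝 0) := by
  have h1 : Tendsto (fun n : ℕ => (2⁻¹ : ℝ≥0∞) ^ n) atTop (𝓝 0) :=
    ENNReal.tendsto_pow_atTop_nhds_zero_of_lt_one (by simp)
  have h2 := ENNReal.Tendsto.const_mul (a := Y * z) h1 (Or.inr (ENNReal.mul_ne_top hY hz))
  rw [mul_zero] at h2
  refine h2.congr fun n => ?_
  ring

theorem soft_half_succ (Y : ℝ≥0∞) (n : ℕ) : Y * 2⁻¹ ^ n / 2 = Y * 2⁻¹ ^ (n + 1) := by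
  rw [pow_succ, div_eq_mul_inv, mul_assoc]

theorem soft_half_ne_top {Y : ℝ≥0∞} (hY : Y ≠ ⊤) (n : ℕ) : Y * 2⁻¹ ^ n ≠ ⊤ :=
  ENNReal.mul_ne_top hY (ENNReal.pow_ne_top (by simp))

theorem soft_half_add (Y : ℝ≥0∞) (n : ℕ) :
    Y * 2⁻¹ ^ (n + 1) + Y * 2⁻¹ ^ (n + 1) = Y * 2⁻¹ ^ n := by
  rw [← soft_half_succ, ENNReal.add_halves]

theorem soft_le_of_forall {a b Y z : ℝ≥0∞} (hY : Y ≠ ⊤) (hz : z ≠ ⊤)
    (h : ∀ n : ℕ, a ≤ b + Y * 2⁻¹ ^ n * z) : a ≤ b := by
  have h1 : Tendsto (fun n : ℕ => b + Y * 2⁻¹ ^ n * z) atTop (𝓝 (b + 0)) :=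
    tendsto_const_nhds.add (soft_tendsto_half hY hz)
  rw [add_zero] at h1
  exact ge_of_tendsto' h1 h

/-- Banach's fixed point theorem for the weighted sup distance.  The iterates are Cauchy at every
point (pass to `toReal`). -/
theorem exists_fixed (S : Set Fn) (Φ : Fn → Fn) (Z : Fn) (hZ : ∀ t x v, Z t x v ≠ ⊤)
    (hfin : ∀ F ∈ S, ∀ t x v, F t x v ≠ ⊤) (hmaps : MapsTo Φ S S)
    (hclosed : ∀ (F : ℕ → Fn) (G : Fn), (∀ n, F n ∈ S) →
      (∀ t x v, Tendsto (fun n => F n t x v) atTop (𝓝 (G t x v))) → G ∈ S)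
    (hcontr : ∀ F ∈ S, ∀ G ∈ S, ∀ Y : ℝ≥0∞, Y ≠ ⊤ → F ≤ G + Y • Z → G ≤ F + Y • Z →
      Φ F ≤ Φ G + (Y / 2) • Z)
    (hbdd : ∃ F ∈ S, ∃ Y : ℝ≥0∞, Y ≠ ⊤ ∧ Φ F ≤ F + Y • Z ∧ F ≤ Φ F + Y • Z) :
    ∃ F ∈ S, Φ F = F := by
  obtain ⟨F₀, hF₀, Y₀, hY₀, h1, h2⟩ := hbdd
  set F : ℕ → Fn := fun n => Φ^[n] F₀ with hF
  have hS : ∀ n, F n ∈ S := fun n => hmaps.iterate n hF₀
  have hsucc : ∀ n, F (n + 1) = Φ (F n) := fun n => Function.iterate_succ_apply' Φ n F₀
  set Y : ℝ≥0∞ := Y₀ + Y₀ with hYdef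
  have hY : Y ≠ ⊤ := ENNReal.add_ne_top.2 ⟨hY₀, hY₀⟩
  set c : ℕ → ℝ≥0∞ := fun n => Y * 2⁻¹ ^ n with hc
  have hc1 : c 1 = Y₀ := by
    have : c 1 = Y / 2 := by simp [hc, div_eq_mul_inv]
    rw [this, hYdef, ← two_mul, mul_comm, mul_div_assoc, ENNReal.div_self (by simp) (by simp),
      mul_one]
  have hcfin : ∀ n, c n ≠ ⊤ := fun n => soft_half_ne_top hY n
  have hchalf : ∀ n, c n / 2 = c (n + 1) := fun n => soft_half_succ Y n
  have hcadd : ∀ n, c (n + 1) + c (n + 1) = c n := fun n => soft_half_add Y n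
  have hstep : ∀ n, F (n + 1) ≤ F n + c (n + 1) • Z ∧ F n ≤ F (n + 1) + c (n + 1) • Z := by
    intro n
    induction n with
    | zero =>
      rw [hsucc 0, hc1]
      exact ⟨h1, h2⟩
    | succ n ih =>
      rw [← hchalf (n + 1)]
      constructor
      · have := hcontr _ (hS (n + 1)) _ (hS n) _ (hcfin (n + 1)) ih.1 ih.2
        rwa [← hsucc, ← hsucc] at this
      · have := hcontr _ (hS n) _ (hS (n + 1)) _ (hcfin (n + 1)) ih.2 ih.1
        rwa [← hsucc, ← hsucc] at this
  set G : Fn := fun t x v => ⨅ n, (F n t x v + c n * Z t x v) with hG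
  have hup : ∀ n t x v, G t x v ≤ F n t x v + c n * Z t x v := fun n t x v =>
    iInf_le (fun n => F n t x v + c n * Z t x v) n
  have hanti : ∀ t x v, Antitone fun n => F n t x v + c n * Z t x v := by
    intro t x v
    refine antitone_nat_of_succ_le fun n => ?_
    have := (hstep n).1 t x v
    simp only [Pi.add_apply, Pi.smul_apply, smul_eq_mul] at this
    calc F (n + 1) t x v + c (n + 1) * Z t x v
        ≤ F n t x v + c (n + 1) * Z t x v + c (n + 1) * Z t x v := by gcongr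
      _ = F n t x v + c n * Z t x v := by rw [add_assoc, ← add_mul, hcadd]
  have hlow0 : ∀ n k t x v, F n t x v + c (n + k) * Z t x v ≤ F (n + k) t x v + c n * Z t x v := by
    intro n k t x v
    induction k with
    | zero => simp
    | succ k ih =>
      have h3 := (hstep (n + k)).2 t x v
      simp only [Pi.add_apply, Pi.smul_apply, smul_eq_mul] at h3
      have hf : c (n + k + 1) * Z t x v ≠ ⊤ := ENNReal.mul_ne_top (hcfin _) (hZ t x v)
      refine (ENNReal.add_le_add_iff_right hf).1 ?_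
      calc F n t x v + c (n + (k + 1)) * Z t x v + c (n + k + 1) * Z t x v
          = F n t x v + c (n + k) * Z t x v := by
            rw [add_assoc, ← add_mul, ← add_assoc n k 1, hcadd]
        _ ≤ F (n + k) t x v + c n * Z t x v := ih
        _ ≤ F (n + k + 1) t x v + c (n + k + 1) * Z t x v + c n * Z t x v := by gcongr
        _ = F (n + (k + 1)) t x v + c n * Z t x v + c (n + k + 1) * Z t x v := by
            rw [← add_assoc n k 1]; ring
  have hlow : ∀ n t x v, F n t x v ≤ G t x v + c n * Z t x v := by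
    intro n t x v
    simp only [hG]
    rw [ENNReal.iInf_add]
    refine le_iInf fun m => ?_
    have h4 := hlow0 n m t x v
    have h5 := hanti t x v (Nat.le_add_left m n)
    calc F n t x v ≤ F n t x v + c (n + m) * Z t x v := le_self_add
      _ ≤ F (n + m) t x v + c n * Z t x v := h4
      _ ≤ F (n + m) t x v + c (n + m) * Z t x v + c n * Z t x v := by gcongr; exact le_self_add
      _ ≤ F m t x v + c m * Z t x v + c n * Z t x v := by gcongr
  have hc0 : ∀ t x v, Tendsto (fun n => c n * Z t x v) atTop (𝓝 0) := fun t x v =>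
    soft_tendsto_half hY (hZ t x v)
  have hlim : ∀ t x v, Tendsto (fun n => F n t x v) atTop (𝓝 (G t x v)) := by
    intro t x v
    have a1 : Tendsto (fun n => G t x v + c n * Z t x v) atTop (𝓝 (G t x v + 0)) :=
      tendsto_const_nhds.add (hc0 t x v)
    have a2 : Tendsto (fun n => G t x v - c n * Z t x v) atTop (𝓝 (G t x v - 0)) :=
      ENNReal.Tendsto.sub tendsto_const_nhds (hc0 t x v) (Or.inr (by simp))
    rw [add_zero] at a1
    rw [tsub_zero] at a2
    exact tendsto_of_tendsto_of_tendsto_of_le_of_le a2 a1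
      (fun n => tsub_le_iff_right.2 (hup n t x v)) (fun n => hlow n t x v)
  have hGS : G ∈ S := hclosed F G hS hlim
  have hup' : ∀ n, G ≤ F n + c n • Z := fun n t x v => by
    simpa only [Pi.add_apply, Pi.smul_apply, smul_eq_mul] using hup n t x v
  have hlow' : ∀ n, F n ≤ G + c n • Z := fun n t x v => by
    simpa only [Pi.add_apply, Pi.smul_apply, smul_eq_mul] using hlow n t x v
  refine ⟨G, hGS, ?_⟩
  funext t x v
  have hYY : Y + Y ≠ ⊤ := ENNReal.add_ne_top.2 ⟨hY, hY⟩
  apply le_antisymm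
  · refine soft_le_of_forall hY (hZ t x v) fun n => ?_
    have b1 := hcontr _ hGS _ (hS n) _ (hcfin n) (hup' n) (hlow' n) t x v
    rw [← hsucc, hchalf] at b1
    simp only [Pi.add_apply, Pi.smul_apply, smul_eq_mul] at b1
    calc Φ G t x v ≤ F (n + 1) t x v + c (n + 1) * Z t x v := b1
      _ ≤ G t x v + c (n + 1) * Z t x v + c (n + 1) * Z t x v := by
          gcongr; exact hlow (n + 1) t x v
      _ = G t x v + c n * Z t x v := by rw [add_assoc, ← add_mul, hcadd]
  · refine soft_le_of_forall hY (hZ t x v) fun n => ?_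
    have b1 := hcontr _ (hS n) _ hGS _ (hcfin n) (hlow' n) (hup' n) t x v
    rw [← hsucc, hchalf] at b1
    simp only [Pi.add_apply, Pi.smul_apply, smul_eq_mul] at b1
    calc G t x v ≤ F (n + 1) t x v + c (n + 1) * Z t x v := hup (n + 1) t x v
      _ ≤ Φ G t x v + c (n + 1) * Z t x v + c (n + 1) * Z t x v := by gcongr
      _ = Φ G t x v + c n * Z t x v := by rw [add_assoc, ← add_mul, hcadd]

/-- Halving argument. -/
theorem le_of_halving {D A Z : Fn} {r T : ℝ} (hZ : ∀ t x v, Z t x v ≠ ⊤) {Y₀ : ℝ≥0∞} (hY : Y₀ ≠ ⊤)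
    (h0 : LeOn r T D (A + Y₀ • Z))
    (hstep : ∀ Y : ℝ≥0∞, Y ≠ ⊤ → LeOn r T D (A + Y • Z) → LeOn r T D (A + (Y / 2) • Z)) :
    LeOn r T D A := by
  have h : ∀ n : ℕ, LeOn r T D (A + (Y₀ * 2⁻¹ ^ n) • Z) := by
    intro n
    induction n with
    | zero => simpa using h0
    | succ n ih =>
      rw [← soft_half_succ]
      exact hstep _ (soft_half_ne_top hY n) ih
  intro t ht x v
  refine soft_le_of_forall hY (hZ t x v) fun n => ?_
  simpa only [Pi.add_apply, Pi.smul_apply, smul_eq_mul] using h n t ht x v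

/-- If `X ≤ A + X / 2`-type improvement holds for every admissible constant then `2 A` is
admissible. -/
theorem le_of_improve {D Z : Fn} {r T : ℝ} (hZ : ∀ t x v, Z t x v ≠ ⊤) {A Y₀ : ℝ≥0∞} (hY : Y₀ ≠ ⊤)
    (h0 : LeOn r T D (Y₀ • Z))
    (hstep : ∀ Y : ℝ≥0∞, Y ≠ ⊤ → LeOn r T D (Y • Z) → LeOn r T D ((A + Y / 2) • Z)) :
    LeOn r T D ((2 * A) • Z) := by
  by_cases hA : A = ⊤
  · intro t ht x v
    refine (h0 t ht x v).trans ?_
    simp only [Pi.smul_apply, smul_eq_mul]
    gcongr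
    simp [hA]
  refine le_of_halving (Y₀ := Y₀) hZ hY ?_ ?_
  · intro t ht x v
    refine (h0 t ht x v).trans ?_
    simp only [Pi.add_apply]
    exact le_add_self
  · intro Y hY' h
    rw [← add_smul] at h ⊢
    have h2 : 2 * A + Y ≠ ⊤ := ENNReal.add_ne_top.2 ⟨ENNReal.mul_ne_top (by simp) hA, hY'⟩
    have h3 := hstep _ h2 h
    have e : A + (2 * A + Y) / 2 = 2 * A + Y / 2 := by
      rw [ENNReal.add_div, ← add_assoc, mul_comm 2 A, mul_div_assoc,
        ENNReal.div_self (by simp) (by simp), mul_one, mul_two]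
    rwa [e] at h3

section lin
variable {X : Type} [MeasurableSpace X] {Λ : (X → ℝ≥0∞) → ℝ≥0∞}

theorem IsLin.soft_zero (h : IsLin Λ) : Λ (fun _ => 0) = 0 := by
  have := h.smul 0 (fun _ => 0) measurable_const
  simpa using this

theorem IsLin.soft_sum (h : IsLin Λ) {g : ℕ → X → ℝ≥0∞} (hg : ∀ i, Measurable (g i)) (n : ℕ) :
    Λ (fun x => ∑ i ∈ Finset.range n, g i x) = ∑ i ∈ Finset.range n, Λ (g i) := by
  induction n with
  | zero => simpa using h.soft_zero
  | succ n ih =>
    simp only [Finset.sum_range_succ]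
    rw [← ih, ← h.add _ _ (Finset.measurable_sum _ fun i _ => hg i) (hg n)]
    rfl

theorem IsLin.soft_tsum (h : IsLin Λ) {g : ℕ → X → ℝ≥0∞} (hg : ∀ i, Measurable (g i)) :
    Λ (fun x => ∑' i, g i x) = ∑' i, Λ (g i) := by
  simp only [ENNReal.tsum_eq_iSup_nat]
  rw [h.sup (fun n x => ∑ i ∈ Finset.range n, g i x)
    (fun n => Finset.measurable_sum _ fun i _ => hg i)
    (fun a b hab x => Finset.sum_le_sum_of_subset (Finset.range_mono hab))]
  simp only [h.soft_sum hg]

/-- `μ A = Λ 1_A` (`Measure.ofMeasurable`), then `Measurable.ennreal_induction`. -/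
theorem IsLin.exists_measure (h : IsLin Λ) :
    ∃ μ : Measure X, ∀ f, Measurable f → Λ f = ∫⁻ x, f x ∂μ := by
  let μ : Measure X := Measure.ofMeasurable (fun s _ => Λ (s.indicator fun _ => 1))
    (by
      have : (∅ : Set X).indicator (fun _ => (1 : ℝ≥0∞)) = fun _ => 0 := by
        funext x; simp
      simp only [this]
      exact h.soft_zero)
    (by
      intro f hf hd
      rw [← h.soft_tsum fun i => measurable_const.indicator (hf i)]
      congr 1
      funext x
      by_cases hx : x ∈ ⋃ i, f i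
      · obtain ⟨i, hi⟩ := mem_iUnion.1 hx
        rw [indicator_of_mem hx, tsum_eq_single i, indicator_of_mem hi]
        intro j hj
        refine indicator_of_notMem (fun hxj => ?_) _
        exact Set.disjoint_left.1 (hd hj) hxj hi
      · rw [indicator_of_notMem hx]
        symm
        refine ENNReal.tsum_eq_zero.2 fun i => indicator_of_notMem (fun hxi => ?_) _
        exact hx (mem_iUnion.2 ⟨i, hxi⟩))
  refine ⟨μ, fun f hf => ?_⟩
  refine Measurable.ennreal_induction (motive := fun f => Λ f = ∫⁻ x, f x ∂μ) ?_ ?_ ?_ hf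
  · intro c s hs
    rw [lintegral_indicator_const hs]
    have e : μ s = Λ (s.indicator fun _ => 1) := Measure.ofMeasurable_apply s hs
    rw [e, ← h.smul c _ (measurable_const.indicator hs)]
    congr 1
    funext x
    by_cases hx : x ∈ s <;> simp [hx]
  · intro f g _ hf hg h1 h2
    rw [h.add f g hf hg, h1, h2]
    exact (lintegral_add_left hf g).symm
  · intro f hf hm h1
    rw [h.sup f hf hm, lintegral_iSup hf hm]
    simp only [h1]

/-- Weak-* sequential compactness of `[0, 1]`-valued functions against `L¹`. -/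
theorem soft_weak [MeasurableSpace.CountablyGenerated X] (lam : Measure X) [SigmaFinite lam]
    {c : ℕ → X → ℝ} (hc : ∀ n, Measurable (c n)) (hb : ∀ n x, |c n x| ≤ 1) :
    ∃ φ : ℕ → ℕ, StrictMono φ ∧ ∀ g : X → ℝ, Integrable g lam →
      ∃ l, Tendsto (fun n => ∫ x, g x * c (φ n) x ∂lam) atTop (𝓝 l) := by
  have hint : ∀ n (g : X → ℝ), Integrable g lam → Integrable (fun x => g x * c n x) lam :=
    fun n g hg => hg.mul_bdd (c := 1) (hc n).aestronglyMeasurable
      (ae_of_all _ fun x => by simpa using hb n x)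
  let L : ℕ → (Lp ℝ 1 lam →ₗ[ℝ] ℝ) := fun n =>
    { toFun := fun g => ∫ x, g x * c n x ∂lam
      map_add' := fun g k => by
        rw [← integral_add (hint n _ (L1.integrable_coeFn g)) (hint n _ (L1.integrable_coeFn k))]
        refine integral_congr_ae ?_
        filter_upwards [Lp.coeFn_add g k] with x hx
        rw [hx, Pi.add_apply, add_mul]
      map_smul' := fun a g => by
        rw [RingHom.id_apply, smul_eq_mul, ← integral_const_mul]
        refine integral_congr_ae ?_
        filter_upwards [Lp.coeFn_smul a g] with x hx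
        rw [hx, Pi.smul_apply, smul_eq_mul, mul_assoc] }
  have hL : ∀ n (g : Lp ℝ 1 lam), ‖L n g‖ ≤ 1 * ‖g‖ := by
    intro n g
    rw [one_mul, L1.norm_eq_integral_norm]
    refine (norm_integral_le_integral_norm _).trans ?_
    refine integral_mono (hint n _ (L1.integrable_coeFn g)).norm (L1.integrable_coeFn g).norm
      fun x => ?_
    simp only [norm_mul]
    exact mul_le_of_le_one_right (norm_nonneg _) (by simpa using hb n x)
  let T : ℕ → StrongDual ℝ (Lp ℝ 1 lam) := fun n => (L n).mkContinuous 1 (hL n)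
  have hT : ∀ n, StrongDual.toWeakDual (T n) ∈
      WeakDual.toStrongDual ⁻¹' Metric.closedBall (0 : StrongDual ℝ (Lp ℝ 1 lam)) 1 := by
    intro n
    simp only [mem_preimage, mem_closedBall_zero_iff]
    exact LinearMap.mkContinuous_norm_le _ zero_le_one (hL n)
  have : Fact ((1 : ℝ≥0∞) ≠ ⊤) := ⟨by simp⟩
  obtain ⟨a, -, φ, hφ, hlim⟩ := WeakDual.isSeqCompact_closedBall ℝ (Lp ℝ 1 lam) 0 1 hT
  refine ⟨φ, hφ, fun g hg => ⟨a (hg.toL1 g), ?_⟩⟩
  have h1 := ((WeakDual.eval_continuous (hg.toL1 g)).tendsto a).comp hlim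
  refine h1.congr fun n => ?_
  change ∫ x, (hg.toL1 g) x * c (φ n) x ∂lam = _
  refine integral_congr_ae ?_
  filter_upwards [hg.coeFn_toL1] with x hx
  rw [hx]

/-- Write `f n = E * c n` with `c n ≤ 1` measurable.  `L¹(lam)` is separable
(`MeasureTheory.Lp.SecondCountableTopology`); along a subsequence `∫ c n * g` converges for `g` in a
countable dense set (compactness of a countable product of intervals), hence for all `g ∈ L¹`
(Cauchy).  For `Λ` take `g = E * dμ/dlam` (`μ` restricted to `{E ≠ 0}` is σ-finite; or apply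
Radon-Nikodym to the finite measure `μ.withDensity E`). -/
theorem weak_subseq [MeasurableSpace.CountablyGenerated X] (lam : Measure X) [SigmaFinite lam]
    {f : ℕ → X → ℝ≥0∞} (hf : ∀ n, Measurable (f n)) {E : X → ℝ≥0∞} (hE : Measurable E)
    (hfin : ∀ x, E x ≠ ⊤) (hle : ∀ n x, f n x ≤ E x) :
    ∃ φ : ℕ → ℕ, StrictMono φ ∧ ∀ Λ : (X → ℝ≥0∞) → ℝ≥0∞, IsLin Λ →
      (∀ g, Measurable g → g =ᵐ[lam] 0 → Λ g = 0) → Λ E ≠ ⊤ →
      ∃ l, Tendsto (fun n => Λ (f (φ n))) atTop (𝓝 l) := by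
  have hq : ∀ n x, f n x / E x ≤ 1 := fun n x => ENNReal.div_le_of_le_mul (by simpa using hle n x)
  have hq' : ∀ n x, f n x / E x ≠ ⊤ := fun n x => ne_top_of_le_ne_top (by simp) (hq n x)
  have hm : ∀ n, Measurable fun x => f n x / E x := fun n => (hf n).div hE
  have hmul : ∀ n x, E x * (f n x / E x) = f n x := by
    intro n x
    by_cases h0 : E x = 0
    · have := hle n x
      rw [h0] at this ⊢
      simp [le_zero_iff.1 this]
    · exact ENNReal.mul_div_cancel h0 (hfin x)
  obtain ⟨φ, hφ, hlim⟩ := soft_weak lam (c := fun n x => (f n x / E x).toReal)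
    (fun n => (hm n).ennreal_toReal) (fun n x => by
      rw [abs_of_nonneg ENNReal.toReal_nonneg]
      exact ENNReal.toReal_le_of_le_ofReal zero_le_one (by simpa using hq n x))
  refine ⟨φ, hφ, fun Λ hΛ hnull hΛE => ?_⟩
  obtain ⟨μ, hμ⟩ := hΛ.exists_measure
  have hac : μ ≪ lam := by
    refine Measure.AbsolutelyContinuous.mk fun s hs h0 => ?_
    rw [← lintegral_indicator_one hs, ← hμ _ (measurable_one.indicator hs)]
    refine hnull _ (measurable_one.indicator hs) ?_
    have : ∀ᵐ x ∂lam, x ∉ s := measure_eq_zero_iff_ae_notMem.1 h0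
    filter_upwards [this] with x hx
    simp [hx]
  set ν : Measure X := μ.withDensity E with hν
  have : IsFiniteMeasure ν := isFiniteMeasure_withDensity (by rw [← hμ E hE]; exact hΛE)
  have hνac : ν ≪ lam := (withDensity_absolutelyContinuous μ E).trans hac
  obtain ⟨l, hl⟩ := hlim (fun x => (ν.rnDeriv lam x).toReal) Measure.integrable_toReal_rnDeriv
  refine ⟨ENNReal.ofReal l, ((ENNReal.continuous_ofReal.tendsto l).comp hl).congr fun n => ?_⟩
  have e1 : ∫ x, (ν.rnDeriv lam x).toReal * (f (φ n) x / E x).toReal ∂lam =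
      ∫ x, (f (φ n) x / E x).toReal ∂ν := by
    simpa only [smul_eq_mul] using
      integral_rnDeriv_smul (f := fun x => (f (φ n) x / E x).toReal) hνac
  have e2 : ∫⁻ x, f (φ n) x / E x ∂ν = Λ (f (φ n)) := by
    rw [hμ _ (hf _), hν, lintegral_withDensity_eq_lintegral_mul μ hE (hm _)]
    simp only [Pi.mul_apply, hmul]
  have e3 : ∫⁻ x, f (φ n) x / E x ∂ν ≠ ⊤ := by
    refine ne_top_of_le_ne_top (measure_ne_top ν univ) ?_
    rw [← lintegral_one]
    exact lintegral_mono fun x => hq _ x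
  simp only [Function.comp_apply]
  rw [e1, integral_toReal (hm _).aemeasurable (ae_of_all _ fun x => (hq' _ x).lt_top),
    ENNReal.ofReal_toReal e3, e2]

/-- Dominated convergence for decreasing sequences. -/
theorem IsLin.tendsto_anti (h : IsLin Λ) {f : ℕ → X → ℝ≥0∞} (hf : ∀ n, Measurable (f n))
    (hanti : Antitone f) (hfin : Λ (f 0) ≠ ⊤) :
    Tendsto (fun n => Λ (f n)) atTop (𝓝 (Λ fun x => ⨅ n, f n x)) := by
  obtain ⟨μ, hμ⟩ := h.exists_measure
  rw [hμ _ (hf 0)] at hfin
  rw [hμ _ (Measurable.iInf hf), lintegral_iInf hf hanti hfin]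
  simp only [hμ _ (hf _)]
  exact tendsto_atTop_iInf fun a b hab => lintegral_mono fun x => hanti hab x

end lin

end Crest.Agent.R68
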