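/-
R68/PA2: basic inequalities for the truncated problem
Skeleton by helper76 (row 68); keep the statements unchanged, add any helper lemmas you like.
-/
import Crest.Agent.R68.PA1
import Crest.Agent.R68.Soft

set_option autoImplicit false
set_option linter.unusedVariables false
set_option linter.unusedSectionVars false

noncomputable section

namespace Crest.Agent.R68

open MeasureTheory Set Filter Topology
open scoped ENNReal NNReal
open Crest.AnalysisR.VecCalc3 Crest.AnalysisR.PDE.Boltzmann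

namespace P1

variable {D : P1} {F g : Fn} {σ : ℝ≥0} {a : ℕ}

theorem PA2_pw_apply (c : ℕ) (t : ℝ) (x v : R3) : pw c t x v = ENNReal.ofReal (t ^ c) := rfl

theorem PA2_meas_pw (c : ℕ) : Meas (pw c) := (reg_pw c).meas

theorem PA2_e_le_half (h : D.OK) : (D.e : ℝ≥0∞) ≤ 2⁻¹ := by
  have h1 := h.e_le
  have h2 : (D.e : ℝ) ≤ 2⁻¹ := by
    have : (400 : ℝ) * D.e ≤ 1 := by exact_mod_cast h1
    have := D.e.coe_nonneg
    linarith
  have h3 : D.e ≤ 2⁻¹ := by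
    rw [← NNReal.coe_le_coe]; simpa using h2
  calc (D.e : ℝ≥0∞) ≤ ((2⁻¹ : ℝ≥0) : ℝ≥0∞) := ENNReal.coe_le_coe.2 h3
    _ = 2⁻¹ := by simp

theorem PA2_half_le (h : D.OK) : (2⁻¹ : ℝ≥0∞) ≤ 1 - D.e := by
  refine ENNReal.le_sub_of_add_le_right ENNReal.coe_ne_top ?_
  calc (2⁻¹ : ℝ≥0∞) + D.e ≤ 2⁻¹ + 2⁻¹ := add_le_add le_rfl (PA2_e_le_half h)
    _ = 1 := ENNReal.inv_two_add_inv_two

theorem PA2_η_le (h : D.OK) : (D.η : ℝ) ≤ 1 / 400 := by
  have : (400 : ℝ) * D.η ≤ 1 := by exact_mod_cast h.η_le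
  linarith

theorem PA2_η_le_one (h : D.OK) : (D.η : ℝ≥0∞) ≤ 1 := by
  have : D.η ≤ 1 := by
    rw [← NNReal.coe_le_coe]
    have := PA2_η_le h
    push_cast
    linarith
  exact_mod_cast this

theorem PA2_x₀_le (h : D.OK) : (D.x₀ : ℝ≥0∞) ≤ 1 := by exact_mod_cast h.x₀_le

theorem PA2_n₂_real (h : D.OK) : 20 * (D.b₁ : ℝ) + 2 ≤ D.n₂ := by exact_mod_cast h.n₂_ge

theorem PA2_two_le (h : D.OK) : 2 ≤ D.n₂ := by
  have h1 := PA2_n₂_real h
  have := D.b₁.coe_nonneg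
  have : (2 : ℝ) ≤ D.n₂ := by linarith
  exact_mod_cast this

theorem PA2_half (h : D.OK) : (((D.b₁ / D.n₂ : ℝ≥0) : ℝ≥0∞)) + D.η ≤ 2⁻¹ := by
  have h1 := PA2_n₂_real h
  have h2 := D.b₁.coe_nonneg
  have h3 := PA2_η_le h
  have h4 : (D.b₁ : ℝ) / D.n₂ ≤ 1 / 20 := by
    rw [div_le_div_iff₀ (by linarith) (by norm_num)]
    linarith
  have h5 : D.b₁ / D.n₂ + D.η ≤ 2⁻¹ := by
    rw [← NNReal.coe_le_coe]
    push_cast
    linarith
  calc (((D.b₁ / D.n₂ : ℝ≥0) : ℝ≥0∞)) + D.η = ((D.b₁ / D.n₂ + D.η : ℝ≥0) : ℝ≥0∞) := by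
        rw [ENNReal.coe_add]
    _ ≤ ((2⁻¹ : ℝ≥0) : ℝ≥0∞) := ENNReal.coe_le_coe.2 h5
    _ = 2⁻¹ := by simp

theorem PA2_tr_le (D : P1) (F : Fn) : D.tr F ≤ F := inf_le_left

theorem PA2_tr_le' (D : P1) (F : Fn) : D.tr F ≤ D.Ec + D.H + (D.x₀ : ℝ≥0∞) • D.W := inf_le_right

theorem PA2_mP (h : D.OK) : Meas (D.Ec + D.H) := h.rEc.meas.add h.rH.meas

theorem PA2_mR (h : D.OK) : Meas (D.E1 + D.H + D.W) := (h.rE1.meas.add h.rH.meas).add h.rW.meas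

theorem PA2_Phi_eq (σ : ℝ≥0) (g F : Fn) (t : ℝ) (x v : R3) :
    D.Phi σ g F t x v = D.F0 (x - t • v) v * ex (PI (LS (D.tr F)) 0 t x v) +
      AI (LS (D.tr F)) (D.gain F + (σ : ℝ≥0∞) • g) 0 t x v := by
  unfold Phi
  rw [DU_eq, sub_zero]

theorem PA2_const_Ioc (c : ℝ≥0∞) (r t : ℝ) :
    ∫⁻ _ in Ioc r t, c = c * ENNReal.ofReal (t - r) := by
  rw [setLIntegral_const, Real.volume_Ioc]

/-- The singular gain of a function dominated by `M t ^ c W`. -/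
theorem PA2_PI_E0 (h : D.OK) {G : Fn} {T : ℝ} (hT : T ≤ D.t₁) {M : ℝ≥0∞} {c : ℕ} (hc : 1 ≤ c)
    (hG : LeOn 0 T G (M • (pw c * D.W))) :
    LeOn 0 T (PI ((2 : ℝ≥0∞) • GN D.E0 G) 0) ((((D.b₁ / c : ℝ≥0) : ℝ≥0∞) * M) • (pw c * D.W)) := by
  have hm : Meas (pw c * D.W) := (PA2_meas_pw c).mul h.rW.meas
  have h1 : LeOn 0 T ((2 : ℝ≥0∞) • GN D.E0 G) ((2 : ℝ≥0∞) • GN D.E0 (M • (pw c * D.W))) :=
    (GN_mono (fun _ _ _ _ => le_rfl) hG).smul 2
  have h2 : (2 : ℝ≥0∞) • GN D.E0 (M • (pw c * D.W)) = M • (2 : ℝ≥0∞) • GN D.E0 (pw c * D.W) := by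
    rw [GN_smul_right h.rE0.meas hm, smul_comm]
  refine (PI_mono h1).trans ?_
  rw [h2, PI_smul ((h.rE0.meas.GN hm).smul 2), mul_comm _ M, mul_smul]
  exact ((h.PI_E0W_pw hc).mono le_rfl hT).smul M

/-- The regular gains of a function dominated by `M t ^ c W`. -/
theorem PA2_PI_R (h : D.OK) {G : Fn} {T : ℝ} (hT : T ≤ D.t₁) {M : ℝ≥0∞} {c : ℕ}
    (hG : LeOn 0 T G (M • (pw c * D.W))) :
    LeOn 0 T (PI ((2 : ℝ≥0∞) • GN (D.E1 + D.H + D.W) G) 0) ((D.η * M) • (pw c * D.W)) := by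
  have hm : Meas (pw c * D.W) := (PA2_meas_pw c).mul h.rW.meas
  have h1 : LeOn 0 T ((2 : ℝ≥0∞) • GN (D.E1 + D.H + D.W) G)
      ((2 : ℝ≥0∞) • GN (D.E1 + D.H + D.W) (M • (pw c * D.W))) :=
    (GN_mono (fun _ _ _ _ => le_rfl) hG).smul 2
  have h2 : (2 : ℝ≥0∞) • GN (D.E1 + D.H + D.W) (M • (pw c * D.W)) =
      M • (2 : ℝ≥0∞) • GN (D.E1 + D.H + D.W) (pw c * D.W) := by
    rw [GN_smul_right (PA2_mR h) hm, smul_comm]
  refine (PI_mono h1).trans ?_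
  rw [h2, PI_smul (((PA2_mR h).GN hm).smul 2), mul_comm _ M, mul_smul]
  have h3 := h.PI_RW (j := fun t => t ^ c) (measurable_id.pow_const c)
    (fun s hs t ht hst => pow_le_pow_left₀ hs.1 hst c)
  exact (h3.mono le_rfl hT).smul M

theorem PA2_LS_path (h : D.OK) (F : Fn) {t : ℝ} (ht : t ∈ Icc 0 D.t₁) (x v : R3) :
    PI (LS (D.tr F)) 0 t x v ≤
      PI (LS D.E0) 0 t x v + ENNReal.ofReal ((1 + 2 * D.K) * (1 + ‖v‖) * t) := by
  refine (PI_mono_oc (h.LS_tr_le F) t ht x v).trans ?_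
  rw [PI_add h.rE0.meas.LS]
  refine add_le_add le_rfl (le_of_eq ?_)
  show ∫⁻ _ in Ioc 0 t, (1 + 2 * D.K : ℝ≥0∞) * br v = _
  rw [PA2_const_Ioc, sub_zero, br, ENNReal.ofReal_mul (by positivity),
    ENNReal.ofReal_mul (by positivity)]
  congr 2
  rw [ENNReal.ofReal_add (by norm_num) (by positivity), ENNReal.ofReal_mul (by norm_num)]
  simp


/-- Depletion of the cold gas.  If `E0 t x v ≠ 0` then `self` bounds the collision frequency along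
the path by `1 + 8 K`; `E0_pa` at `s = 0`, `E0_le`, `one_le_ex_add`, `depl`. -/
theorem OK.Phi_lo (h : D.OK) (σ : ℝ≥0) (g F : Fn) :
    LeOn 0 D.t₁ ((1 - D.e : ℝ≥0∞) • D.E0) (D.Phi σ g F) := by
  intro t ht x v
  show (1 - D.e : ℝ≥0∞) * D.E0 t x v ≤ _
  by_cases h0 : D.E0 t x v = 0
  · rw [h0, mul_zero]; exact zero_le
  have hEc : D.Ec t x v ≠ 0 := fun h' => h0 (by
    have : D.E0 t x v + D.E1 t x v = 0 := h'
    exact (add_eq_zero.1 this).1)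
  obtain ⟨hv, hs⟩ := h.self t ht x v hEc
  have hbr : br v ≤ 4 := by
    unfold br
    calc ENNReal.ofReal (1 + ‖v‖) ≤ ENNReal.ofReal 4 := ENNReal.ofReal_le_ofReal (by linarith)
      _ = 4 := by simp
  have hL : LS (D.Ec + D.H + (D.x₀ : ℝ≥0∞) • D.W) = LS D.Ec + LS D.H + (D.x₀ : ℝ≥0∞) • LS D.W := by
    rw [LS_add (PA2_mP h) (h.rW.meas.smul _), LS_add h.rEc.meas h.rH.meas, LS_smul h.rW.meas]
  have hpt : ∀ s ∈ Ioc 0 t, pa (LS (D.tr F)) t x v s ≤ 1 + 8 * D.K := by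
    intro s hs'
    have hs1 : s ∈ Ioc 0 D.t₁ := ⟨hs'.1, hs'.2.trans ht.2⟩
    have e1 : pa (LS (D.tr F)) t x v s ≤ pa (LS (D.Ec + D.H + (D.x₀ : ℝ≥0∞) • D.W)) t x v s :=
      ls_mono (PA2_tr_le' D F s _) v
    rw [hL] at e1
    refine e1.trans ?_
    have e2 : pa (LS D.H) t x v s ≤ D.K * br v := h.LH s hs1 _ v
    have e3 : pa (LS D.W) t x v s ≤ D.K * br v := h.LW s hs1 _ v
    show pa (LS D.Ec) t x v s + pa (LS D.H) t x v s + D.x₀ * pa (LS D.W) t x v s ≤ _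
    calc pa (LS D.Ec) t x v s + pa (LS D.H) t x v s + D.x₀ * pa (LS D.W) t x v s
        ≤ 1 + D.K * 4 + 1 * (D.K * 4) := by
          gcongr
          · exact hs s hs'
          · exact e2.trans (by gcongr)
          · exact PA2_x₀_le h
          · exact e3.trans (by gcongr)
      _ = 1 + 8 * D.K := by ring
  have hPI : PI (LS (D.tr F)) 0 t x v ≤ D.e := by
    refine (setLIntegral_mono' measurableSet_Ioc hpt).trans ?_
    rw [PA2_const_Ioc, sub_zero]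
    have e1 : (1 + 8 * D.K : ℝ≥0∞) = ENNReal.ofReal (1 + 8 * D.K) := by
      rw [ENNReal.ofReal_add (by norm_num) (by positivity), ENNReal.ofReal_mul (by norm_num)]
      simp
    rw [e1, ← ENNReal.ofReal_mul (by positivity), ← ENNReal.ofReal_coe_nnreal]
    refine ENNReal.ofReal_le_ofReal (le_trans ?_ h.depl)
    exact mul_le_mul_of_nonneg_left ht.2 (by positivity)
  have hex : (1 - D.e : ℝ≥0∞) ≤ ex (PI (LS (D.tr F)) 0 t x v) := by
    rw [tsub_le_iff_right]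
    exact (one_le_ex_add _).trans (add_le_add le_rfl hPI)
  have hE : D.E0 t x v ≤ D.F0 (x - t • v) v := by
    rw [← h.E0_pa t x v 0]
    unfold pa
    rw [sub_zero]
    exact h.E0_le _ _
  rw [PA2_Phi_eq, mul_comm]
  exact (mul_le_mul' hE hex).trans le_self_add

theorem OK.att_le (h : D.OK) (hlo : LeOn 0 D.t₁ ((1 - D.e : ℝ≥0∞) • D.E0) F) :
    LeOn 0 D.t₁ D.att (LS (D.tr F)) := by
  have e : D.att = LS ((2⁻¹ : ℝ≥0∞) • D.E0) := (LS_smul h.rE0.meas _).symm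
  rw [e]
  refine LS_mono fun t ht x v => le_inf ?_ ?_
  · exact (mul_le_mul' (PA2_half_le h) le_rfl).trans (hlo t ht x v)
  · show (2⁻¹ : ℝ≥0∞) * D.E0 t x v ≤ D.E0 t x v + D.E1 t x v + D.H t x v + D.x₀ * D.W t x v
    calc (2⁻¹ : ℝ≥0∞) * D.E0 t x v ≤ 1 * D.E0 t x v := by gcongr; exact ENNReal.inv_le_one.2 one_le_two
      _ = D.E0 t x v := one_mul _
      _ ≤ _ := le_self_add.trans (le_self_add.trans le_self_add)

theorem TS.lo (h : D.OK) (hF : D.TS a σ g F) : LeOn 0 D.t₁ ((1 - D.e : ℝ≥0∞) • D.E0) F := by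
  intro t ht x v
  rw [hF.eq t ht x v]
  exact h.Phi_lo σ g F t ht x v

theorem TS.mono (h : D.OK) (hF : D.TS a σ g F) {a' : ℕ} (ha : a' ≤ a) : D.TS a' σ g F := by
  obtain ⟨M, hM⟩ := hF.bd
  exact ⟨hF.reg, hF.eq, M, hM.trans (env_mono h le_rfl ha)⟩

/-- With `P = Ec + H` and `h' = tr F - P`: `tr F ≤ P + h'`, `h' ≤ x₀ W`, `h' + (F - tr F) ≤ hot F`;
`gn_add_add`. -/
theorem OK.gain_le (h : D.OK) (hF : Meas F) :
    D.gain F ≤ GN (D.Ec + D.H) (D.Ec + D.H) + ((2 : ℝ≥0∞) • GN D.E0 (D.hot F) +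
      (2 : ℝ≥0∞) • GN (D.E1 + D.H + D.W) (D.hot F)) := by
  intro t x v
  have mP := (PA2_mP h).slice t x
  have mtr := (h.meas_tr hF).slice t x
  have mF := hF.slice t x
  have mE0 := h.rE0.meas.slice t x
  have mE1 := h.rE1.meas.slice t x
  have mH := h.rH.meas.slice t x
  have mW := h.rW.meas.slice t x
  set P : R3 → ℝ≥0∞ := (D.Ec + D.H) t x with hP
  set k : R3 → ℝ≥0∞ := D.tr F t x - P with hk
  have mk : Measurable k := mtr.sub mP
  have hPfin : ∀ u, P u ≠ ⊤ := fun u => (h.rEc.add h.rH).fin t x u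
  have k1 : D.tr F t x ≤ P + k := fun u => le_add_tsub
  have k2 : k ≤ D.W t x := fun u => by
    show D.tr F t x u - P u ≤ _
    rw [tsub_le_iff_left]
    refine (PA2_tr_le' D F t x u).trans ?_
    show P u + D.x₀ * D.W t x u ≤ _
    calc P u + D.x₀ * D.W t x u ≤ P u + 1 * D.W t x u := by gcongr; exact PA2_x₀_le h
      _ = _ := by rw [one_mul]
  have k3 : k + (F t x - D.tr F t x) ≤ D.hot F t x := fun u => by
    show min (F t x u) (P u + D.x₀ * D.W t x u) - P u +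
      (F t x u - min (F t x u) (P u + D.x₀ * D.W t x u)) ≤ F t x u - P u
    rcases le_total (F t x u) (P u + D.x₀ * D.W t x u) with h1 | h1
    · rw [min_eq_left h1, tsub_self, add_zero]
    · rw [min_eq_right h1]
      refine ENNReal.le_sub_of_add_le_right (hPfin u) ?_
      rw [add_right_comm, tsub_add_cancel_of_le le_self_add, add_tsub_cancel_of_le h1]
  have k4 : k ≤ D.hot F t x := le_self_add.trans k3
  have g1 : gn (D.tr F t x) (D.tr F t x) v ≤ gn P P v + 2 * gn P k v + gn k k v := by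
    rw [← gn_add_add mP mk]
    exact gn_mono k1 k1 v
  have g2 : gn P k v = gn (D.E0 t x) k v + gn (D.E1 t x + D.H t x) k v := by
    rw [← gn_add_left mE0 (mE1.add mH) mk, ← add_assoc]
    rfl
  have g3 : gn (D.E0 t x) k v + gn (D.E0 t x) (F t x - D.tr F t x) v ≤
      gn (D.E0 t x) (D.hot F t x) v := by
    rw [← gn_add_right mE0 mk (mF.sub mtr)]
    exact gn_mono le_rfl k3 v
  have g4 : gn (D.E1 t x + D.H t x) k v + gn k k v ≤
      gn (D.E1 t x + D.H t x + D.W t x) (D.hot F t x) v := by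
    rw [← gn_add_left (mE1.add mH) mk mk]
    exact gn_mono (add_le_add le_rfl k2) k4 v
  show gn (D.tr F t x) (D.tr F t x) v + 2 * (1 - D.e : ℝ≥0∞) * gn (D.E0 t x) (F t x - D.tr F t x) v ≤
    gn P P v + (2 * gn (D.E0 t x) (D.hot F t x) v +
      2 * gn (D.E1 t x + D.H t x + D.W t x) (D.hot F t x) v)
  calc gn (D.tr F t x) (D.tr F t x) v + 2 * (1 - D.e : ℝ≥0∞) * gn (D.E0 t x) (F t x - D.tr F t x) v
      ≤ (gn P P v + 2 * gn P k v + 2 * gn k k v) + 2 * 1 * gn (D.E0 t x) (F t x - D.tr F t x) v := by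
        refine add_le_add (g1.trans (add_le_add le_rfl ?_)) ?_
        · rw [two_mul]; exact le_self_add
        · gcongr; exact tsub_le_self
    _ = gn P P v + (2 * (gn (D.E0 t x) k v + gn (D.E0 t x) (F t x - D.tr F t x) v) +
          2 * (gn (D.E1 t x + D.H t x) k v + gn k k v)) := by rw [g2]; ring
    _ ≤ _ := by gcongr

theorem OK.PI_gain_ne_top (h : D.OK) (hF : Meas F) {M : ℝ≥0} (ha : 1 ≤ a)
    (hM : LeOn 0 D.t₁ F (D.env M a)) {t : ℝ} (ht : t ∈ Icc 0 D.t₁) (x v : R3) :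
    PI (D.gain F) 0 t x v ≠ ⊤ := by
  have hE : LeOn 0 D.t₁ D.E0 (D.env M a) := fun s _ y u =>
    le_self_add.trans (le_self_add.trans le_self_add)
  have htr : LeOn 0 D.t₁ (D.tr F) (D.env M a) := fun s hs y u => (PA2_tr_le D F s y u).trans (hM s hs y u)
  have hsub : LeOn 0 D.t₁ (F - D.tr F) (D.env M a) := fun s hs y u => tsub_le_self.trans (hM s hs y u)
  have me := (h.renv (M := M) ENNReal.coe_ne_top a).meas
  have h1 : LeOn 0 D.t₁ (D.gain F) ((3 : ℝ≥0∞) • GN (D.env M a) (D.env M a)) := by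
    intro s hs y u
    show GN (D.tr F) (D.tr F) s y u + 2 * (1 - D.e : ℝ≥0∞) * GN D.E0 (F - D.tr F) s y u ≤
      3 * GN (D.env M a) (D.env M a) s y u
    calc GN (D.tr F) (D.tr F) s y u + 2 * (1 - D.e : ℝ≥0∞) * GN D.E0 (F - D.tr F) s y u
        ≤ GN (D.env M a) (D.env M a) s y u + 2 * 1 * GN (D.env M a) (D.env M a) s y u := by
          gcongr
          · exact GN_mono htr htr s hs y u
          · exact tsub_le_self
          · exact GN_mono hE hsub s hs y u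
      _ = _ := by ring
  refine ne_top_of_le_ne_top ?_ (PI_mono h1 t ht x v)
  rw [PI_smul (me.GN me)]
  exact ENNReal.mul_ne_top (by simp) (h.PI_GN_env_ne_top M ha ht x v)

/-- The basic inequality: `DU_eq`, `F0_le`, `PI_PP`, `att_le`. -/
theorem OK.Phi_hot (h : D.OK) (hg : Meas g) (hF : Meas F)
    (hlo : LeOn 0 D.t₁ ((1 - D.e : ℝ≥0∞) • D.E0) F) :
    LeOn 0 D.t₁ (D.hot (D.Phi σ g F)) ((σ : ℝ≥0∞) • PI g 0 +
      AI D.att ((2 : ℝ≥0∞) • GN D.E0 (D.hot F)) 0 +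
      PI ((2 : ℝ≥0∞) • GN (D.E1 + D.H + D.W) (D.hot F)) 0) := by
  intro t ht x v
  have mP := PA2_mP h
  have mh := h.meas_hot hF
  have m1 : Meas ((2 : ℝ≥0∞) • GN D.E0 (D.hot F)) := (h.rE0.meas.GN mh).smul 2
  have m2 : Meas ((2 : ℝ≥0∞) • GN (D.E1 + D.H + D.W) (D.hot F)) := ((PA2_mR h).GN mh).smul 2
  have hq : LeOn 0 D.t₁ (D.gain F + (σ : ℝ≥0∞) • g)
      (GN (D.Ec + D.H) (D.Ec + D.H) + ((2 : ℝ≥0∞) • GN D.E0 (D.hot F) +
      (2 : ℝ≥0∞) • GN (D.E1 + D.H + D.W) (D.hot F)) + (σ : ℝ≥0∞) • g) :=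
    fun s _ y u => add_le_add (h.gain_le hF s y u) le_rfl
  have h1 := AI_mono (h.att_le hlo) hq t ht x v
  rw [AI_add h.meas_att ((mP.GN mP).add (m1.add m2)), AI_add h.meas_att (mP.GN mP),
    AI_add h.meas_att m1] at h1
  have h2 : AI D.att (GN (D.Ec + D.H) (D.Ec + D.H)) 0 t x v ≤
      D.η * D.E1 t x v + 4 * D.η * D.H t x v := (AI_le_PI _ _ _ t x v).trans (h.PI_PP t ht x v)
  have h3 : AI D.att ((σ : ℝ≥0∞) • g) 0 t x v ≤ σ * PI g 0 t x v := by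
    refine (AI_le_PI _ _ _ t x v).trans ?_
    rw [PI_smul hg]
    exact le_rfl
  have h4 := AI_le_PI D.att ((2 : ℝ≥0∞) • GN (D.E1 + D.H + D.W) (D.hot F)) 0 t x v
  have h5 : D.F0 (x - t • v) v * ex (PI (LS (D.tr F)) 0 t x v) ≤ D.E0 t x v + 4⁻¹ * D.H t x v :=
    (mul_le_of_le_one_right' (ex_le_one _)).trans (h.F0_le t ht x v)
  have h6 : (4⁻¹ : ℝ≥0∞) + 4 * D.η ≤ 1 := by
    have h7 : (4⁻¹ : ℝ≥0) + 4 * D.η ≤ 1 := by
      rw [← NNReal.coe_le_coe]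
      have := PA2_η_le h
      push_cast
      linarith
    calc (4⁻¹ : ℝ≥0∞) + 4 * D.η = (((4⁻¹ : ℝ≥0) + 4 * D.η : ℝ≥0) : ℝ≥0∞) := by
          push_cast; simp
      _ ≤ ((1 : ℝ≥0) : ℝ≥0∞) := ENNReal.coe_le_coe.2 h7
      _ = 1 := rfl
  show D.Phi σ g F t x v - (D.E0 t x v + D.E1 t x v + D.H t x v) ≤ σ * PI g 0 t x v +
    AI D.att ((2 : ℝ≥0∞) • GN D.E0 (D.hot F)) 0 t x v +
    PI ((2 : ℝ≥0∞) • GN (D.E1 + D.H + D.W) (D.hot F)) 0 t x v
  rw [tsub_le_iff_left, PA2_Phi_eq]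
  refine (add_le_add h5 h1).trans ?_
  simp only [Pi.add_apply]
  calc D.E0 t x v + 4⁻¹ * D.H t x v + (AI D.att (GN (D.Ec + D.H) (D.Ec + D.H)) 0 t x v +
        (AI D.att ((2 : ℝ≥0∞) • GN D.E0 (D.hot F)) 0 t x v +
          AI D.att ((2 : ℝ≥0∞) • GN (D.E1 + D.H + D.W) (D.hot F)) 0 t x v) +
        AI D.att ((σ : ℝ≥0∞) • g) 0 t x v)
      ≤ D.E0 t x v + 4⁻¹ * D.H t x v + ((D.η * D.E1 t x v + 4 * D.η * D.H t x v) +
        (AI D.att ((2 : ℝ≥0∞) • GN D.E0 (D.hot F)) 0 t x v +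
          PI ((2 : ℝ≥0∞) • GN (D.E1 + D.H + D.W) (D.hot F)) 0 t x v) + σ * PI g 0 t x v) := by
        gcongr
    _ = D.E0 t x v + D.η * D.E1 t x v + (4⁻¹ + 4 * D.η) * D.H t x v + (σ * PI g 0 t x v +
        AI D.att ((2 : ℝ≥0∞) • GN D.E0 (D.hot F)) 0 t x v +
          PI ((2 : ℝ≥0∞) • GN (D.E1 + D.H + D.W) (D.hot F)) 0 t x v) := by ring
    _ ≤ D.E0 t x v + 1 * D.E1 t x v + 1 * D.H t x v + (σ * PI g 0 t x v +
        AI D.att ((2 : ℝ≥0∞) • GN D.E0 (D.hot F)) 0 t x v +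
          PI ((2 : ℝ≥0∞) • GN (D.E1 + D.H + D.W) (D.hot F)) 0 t x v) := by
        gcongr
        exact PA2_η_le_one h
    _ = _ := by rw [one_mul, one_mul]

/-- The form used in the Harnack argument. -/
theorem TS.hot_le (h : D.OK) (hg : Meas g) (hF : D.TS a σ g F) {t' : ℝ} (ht' : t' ≤ D.t₁)
    {X Y : ℝ≥0∞} {c : ℕ} (hX : LeOn 0 t' ((σ : ℝ≥0∞) • PI g 0) (X • (pw c * D.W)))
    (hY : LeOn 0 t' (D.hot F) (Y • (pw c * D.W))) :
    LeOn 0 t' (D.hot F) ((X + D.η * Y) • (pw c * D.W) +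
      AI D.att ((2 : ℝ≥0∞) • GN D.E0 (D.hot F)) 0) := by
  intro t ht x v
  have ht1 : t ∈ Icc 0 D.t₁ := ⟨ht.1, ht.2.trans ht'⟩
  have e : D.hot F t x v = D.hot (D.Phi σ g F) t x v := by
    show F t x v - _ = D.Phi σ g F t x v - _
    rw [← hF.eq t ht1 x v]
  rw [e]
  refine (h.Phi_hot hg hF.reg.meas (hF.lo h) t ht1 x v).trans ?_
  have h1 := hX t ht x v
  have h2 := PA2_PI_R h ht' hY t ht x v
  rw [add_smul]
  simp only [Pi.add_apply]
  calc _ ≤ (X • (pw c * D.W)) t x v + AI D.att ((2 : ℝ≥0∞) • GN D.E0 (D.hot F)) 0 t x v +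
        ((D.η * Y) • (pw c * D.W)) t x v := add_le_add (add_le_add h1 le_rfl) h2
    _ = _ := by ring

/-- `b₁ / n₂ + η ≤ 1 / 2`. -/
theorem OK.Phi_up (h : D.OK) (hg : Meas g) {M X : ℝ≥0} (hF : D.Cl M D.n₂ F)
    (hX : LeOn 0 D.t₁ ((σ : ℝ≥0∞) • PI g 0) ((X : ℝ≥0∞) • (pw D.n₂ * D.W))) :
    LeOn 0 D.t₁ (D.Phi σ g F) (D.env (X + M / 2) D.n₂) := by
  rw [le_env_iff h]
  have hM := (le_env_iff h).1 hF.up
  have hn : 1 ≤ D.n₂ := le_trans one_le_two (PA2_two_le h)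
  intro t ht x v
  refine (h.Phi_hot hg hF.meas hF.lo t ht x v).trans ?_
  have h1 := hX t ht x v
  have h2 := (AI_le_PI D.att _ 0 t x v).trans (PA2_PI_E0 h le_rfl hn hM t ht x v)
  have h3 := PA2_PI_R h le_rfl hM t ht x v
  refine (add_le_add (add_le_add h1 h2) h3).trans ?_
  show X * (pw D.n₂ * D.W) t x v + ((D.b₁ / D.n₂ : ℝ≥0) : ℝ≥0∞) * M * (pw D.n₂ * D.W) t x v +
    D.η * M * (pw D.n₂ * D.W) t x v ≤ (X + M / 2) * (pw D.n₂ * D.W) t x v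
  calc X * (pw D.n₂ * D.W) t x v + ((D.b₁ / D.n₂ : ℝ≥0) : ℝ≥0∞) * M * (pw D.n₂ * D.W) t x v +
        D.η * M * (pw D.n₂ * D.W) t x v
      = (X + M * (((D.b₁ / D.n₂ : ℝ≥0) : ℝ≥0∞) + D.η)) * (pw D.n₂ * D.W) t x v := by ring
    _ ≤ (X + M * 2⁻¹) * (pw D.n₂ * D.W) t x v := by gcongr; exact PA2_half h
    _ = _ := by rw [div_eq_mul_inv]

/-- `le_of_improve` for `hot F`. -/
theorem TS.crude (h : D.OK) (hg : Meas g) (hF : D.TS D.n₂ σ g F) {X : ℝ≥0}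
    (hX : LeOn 0 D.t₁ ((σ : ℝ≥0∞) • PI g 0) ((X : ℝ≥0∞) • (pw D.n₂ * D.W))) :
    LeOn 0 D.t₁ F (D.env (2 * X) D.n₂) := by
  rw [le_env_iff h]
  obtain ⟨M, hM⟩ := hF.bd
  refine le_of_improve ((reg_pw D.n₂).mul h.rW).fin (Y₀ := M) ENNReal.coe_ne_top
    ((le_env_iff h).1 hM) fun Y hY hle => ?_
  lift Y to ℝ≥0 using hY
  have h1 := h.Phi_up (σ := σ) hg ⟨hF.reg.meas, hF.lo h, (le_env_iff h).2 hle⟩ hX
  refine (le_env_iff h).1 fun t ht x v => ?_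
  rw [hF.eq t ht x v]
  exact h1 t ht x v

theorem TS.unlit (h : D.OK) (hg : Meas g) (hF : D.TS D.n₂ 0 g F) :
    LeOn 0 D.t₁ F (D.Ec + D.H) := by
  have h1 := hF.crude h hg (X := 0) (fun t ht x v => by simp)
  intro t ht x v
  have h2 := h1 t ht x v
  simpa [env] using h2

/-- Extension of a bound from `[0, t']` to `[0, t₁]`.  Use `le_of_improve` with the weight `j W`,
`j s = s ^ 2 * max 1 ((s / t') ^ (n₂ - 2))`.  If `hot F ≤ Y j W` on `[0, t₁]` then for `t > t'`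
`Phi_hot`, `PI_E0W` (split the time integral at `t'`: `∫_0^t' X s ds + ∫_t'^t Y j s / s ds`) and
`PI_RW` give `hot F ≤ (X + b₁ X / 2 + (b₁ / n₂ + η) Y) j W`. -/
theorem TS.extend (h : D.OK) (hg : Meas g) (hF : D.TS 2 σ g F) {t' : ℝ} (h0 : 0 < t')
    (ht' : t' ≤ D.t₁) {X : ℝ≥0} (hX : LeOn 0 D.t₁ ((σ : ℝ≥0∞) • PI g 0) ((X : ℝ≥0∞) • (pw 2 * D.W)))
    (hY : LeOn 0 t' (D.hot F) ((X : ℝ≥0∞) • (pw 2 * D.W))) :
    LeOn 0 D.t₁ F (D.env (4 * (1 + D.b₁) * X * ENNReal.ofReal ((D.t₁ / t') ^ D.n₂)) 2) := by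
  obtain ⟨M, hM⟩ := hF.bd
  have hM' := (le_env_iff h).1 hM
  have hn2 := PA2_two_le h
  have hn : 1 ≤ D.n₂ := le_trans one_le_two hn2
  obtain ⟨m, hm⟩ := Nat.exists_eq_add_of_le hn2
  have mW := h.rW.meas
  have m2 : Meas (pw 2 * D.W) := (PA2_meas_pw 2).mul mW
  have mn : Meas (pw D.n₂ * D.W) := (PA2_meas_pw _).mul mW
  set c : ℝ≥0∞ := ENNReal.ofReal (t'⁻¹ ^ m) with hc
  have hcfin : c ≠ ⊤ := ENNReal.ofReal_ne_top
  -- above `t'` the quadratic weight is dominated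
  have hw : ∀ t, t' ≤ t → ∀ x v, (pw 2 * D.W) t x v ≤ c * (pw D.n₂ * D.W) t x v := by
    intro t ht x v
    show ENNReal.ofReal (t ^ 2) * D.W t x v ≤ c * (ENNReal.ofReal (t ^ D.n₂) * D.W t x v)
    rw [← mul_assoc, hc, ← ENNReal.ofReal_mul (by positivity)]
    gcongr
    have h1 : 1 ≤ (t'⁻¹ * t) ^ m := one_le_pow₀ (by rw [inv_mul_eq_div, one_le_div h0]; exact ht)
    rw [hm, pow_add, mul_pow] at *
    have : 0 ≤ t ^ 2 := by positivity
    nlinarith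
  have key : LeOn 0 D.t₁ (D.hot F - (X : ℝ≥0∞) • (pw 2 * D.W))
      ((2 * ((((D.b₁ / (2 : ℕ) : ℝ≥0) : ℝ≥0∞) + D.η) * X * c)) • (pw D.n₂ * D.W)) := by
    refine le_of_improve ((reg_pw D.n₂).mul h.rW).fin (Y₀ := M * c)
      (ENNReal.mul_ne_top ENNReal.coe_ne_top hcfin) ?_ fun Y hY' hle => ?_
    · intro t ht x v
      rcases le_total t t' with h1 | h1
      · exact (tsub_eq_zero_of_le (hY t ⟨ht.1, h1⟩ x v)).le.trans zero_le
      · refine tsub_le_self.trans ((hM' t ht x v).trans ?_)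
        show M * (pw 2 * D.W) t x v ≤ M * c * (pw D.n₂ * D.W) t x v
        rw [mul_assoc]
        gcongr
        exact hw t h1 x v
    · intro t ht x v
      rcases le_total t t' with h1 | h1
      · exact (tsub_eq_zero_of_le (hY t ⟨ht.1, h1⟩ x v)).le.trans zero_le
      have hle' : LeOn 0 D.t₁ (D.hot F) ((X : ℝ≥0∞) • (pw 2 * D.W) + Y • (pw D.n₂ * D.W)) :=
        fun s hs y u => tsub_le_iff_left.1 (hle s hs y u)
      have e : D.hot F t x v = D.hot (D.Phi σ g F) t x v := by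
        show F t x v - _ = D.Phi σ g F t x v - _
        rw [← hF.eq t ht x v]
      have a1 : ∀ G : Fn, Meas G → PI ((2 : ℝ≥0∞) • GN G (D.hot F)) 0 t x v ≤
          PI ((2 : ℝ≥0∞) • GN G ((X : ℝ≥0∞) • (pw 2 * D.W))) 0 t x v +
            PI ((2 : ℝ≥0∞) • GN G (Y • (pw D.n₂ * D.W))) 0 t x v := by
        intro G hG
        refine (PI_mono ((GN_mono (fun _ _ _ _ => le_rfl) hle').smul 2) t ht x v).trans ?_
        rw [GN_add_right hG (m2.smul _) (mn.smul _), smul_add, PI_add ((hG.GN (m2.smul _)).smul 2)]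
        exact le_rfl
      have a2 := (AI_le_PI D.att _ 0 t x v).trans ((a1 D.E0 h.rE0.meas).trans (add_le_add
        (PA2_PI_E0 h le_rfl (c := 2) one_le_two (fun _ _ _ _ => le_rfl) t ht x v)
        (PA2_PI_E0 h le_rfl hn (fun _ _ _ _ => le_rfl) t ht x v)))
      have a3 := (a1 _ (PA2_mR h)).trans (add_le_add
        (PA2_PI_R h le_rfl (fun _ _ _ _ => le_rfl) t ht x v)
        (PA2_PI_R h le_rfl (fun _ _ _ _ => le_rfl) t ht x v))
      show D.hot F t x v - X * (pw 2 * D.W) t x v ≤ _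
      rw [tsub_le_iff_left, e]
      refine (h.Phi_hot hg hF.reg.meas (hF.lo h) t ht x v).trans
        ((add_le_add (add_le_add (hX t ht x v) a2) a3).trans ?_)
      show X * (pw 2 * D.W) t x v + (((D.b₁ / (2 : ℕ) : ℝ≥0) : ℝ≥0∞) * X * (pw 2 * D.W) t x v +
          ((D.b₁ / D.n₂ : ℝ≥0) : ℝ≥0∞) * Y * (pw D.n₂ * D.W) t x v) +
          (D.η * X * (pw 2 * D.W) t x v + D.η * Y * (pw D.n₂ * D.W) t x v) ≤
        X * (pw 2 * D.W) t x v +
          ((((D.b₁ / (2 : ℕ) : ℝ≥0) : ℝ≥0∞) + D.η) * X * c + Y / 2) * (pw D.n₂ * D.W) t x v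
      calc _ = X * (pw 2 * D.W) t x v + ((((D.b₁ / (2 : ℕ) : ℝ≥0) : ℝ≥0∞) + D.η) * X *
            (pw 2 * D.W) t x v + Y * (((D.b₁ / D.n₂ : ℝ≥0) : ℝ≥0∞) + D.η) *
              (pw D.n₂ * D.W) t x v) := by ring
        _ ≤ X * (pw 2 * D.W) t x v + ((((D.b₁ / (2 : ℕ) : ℝ≥0) : ℝ≥0∞) + D.η) * X *
            (c * (pw D.n₂ * D.W) t x v) + Y * 2⁻¹ * (pw D.n₂ * D.W) t x v) := by
            gcongr
            · exact hw t h1 x v
            · exact PA2_half h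
        _ = _ := by rw [div_eq_mul_inv Y]; ring
  rw [le_env_iff h]
  intro t ht x v
  set R : ℝ≥0∞ := ENNReal.ofReal ((D.t₁ / t') ^ D.n₂) with hR
  have hq : 1 ≤ D.t₁ / t' := (one_le_div h0).2 ht'
  have hR1 : 1 ≤ R := by
    rw [hR, ← ENNReal.ofReal_one]
    exact ENNReal.ofReal_le_ofReal (one_le_pow₀ hq)
  have hw' : c * (pw D.n₂ * D.W) t x v ≤ R * (pw 2 * D.W) t x v := by
    show c * (ENNReal.ofReal (t ^ D.n₂) * D.W t x v) ≤ R * (ENNReal.ofReal (t ^ 2) * D.W t x v)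
    rw [← mul_assoc, ← mul_assoc, hc, hR, ← ENNReal.ofReal_mul (by positivity),
      ← ENNReal.ofReal_mul (by positivity)]
    gcongr ?_ * _
    refine ENNReal.ofReal_le_ofReal ?_
    have h1 : (t'⁻¹ * t) ^ m ≤ (D.t₁ / t') ^ D.n₂ := by
      refine le_trans (pow_le_pow_left₀ (mul_nonneg (by positivity) ht.1) ?_ m)
        (pow_le_pow_right₀ hq (by omega))
      rw [inv_mul_eq_div]
      exact div_le_div_of_nonneg_right ht.2 h0.le
    have h2 : t'⁻¹ ^ m * t ^ D.n₂ = (t'⁻¹ * t) ^ m * t ^ 2 := by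
      rw [hm, pow_add, mul_pow]; ring
    rw [h2]
    exact mul_le_mul_of_nonneg_right h1 (by positivity)
  have hb : 2 * (((D.b₁ / (2 : ℕ) : ℝ≥0) : ℝ≥0∞) + D.η) + 1 ≤ 4 * (1 + D.b₁) := by
    have h7 : 2 * (D.b₁ / (2 : ℕ) + D.η) + 1 ≤ 4 * (1 + D.b₁) := by
      rw [← NNReal.coe_le_coe]
      have := PA2_η_le h
      have := D.b₁.coe_nonneg
      push_cast
      linarith
    exact_mod_cast h7
  have k1 := tsub_le_iff_left.1 (key t ht x v)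
  refine k1.trans ?_
  show X * (pw 2 * D.W) t x v + 2 * ((((D.b₁ / (2 : ℕ) : ℝ≥0) : ℝ≥0∞) + D.η) * X * c) *
    (pw D.n₂ * D.W) t x v ≤ 4 * (1 + D.b₁) * X * R * (pw 2 * D.W) t x v
  calc _ = X * (1 * (pw 2 * D.W) t x v) + 2 * (((D.b₁ / (2 : ℕ) : ℝ≥0) : ℝ≥0∞) + D.η) * X *
        (c * (pw D.n₂ * D.W) t x v) := by ring
    _ ≤ X * (R * (pw 2 * D.W) t x v) + 2 * (((D.b₁ / (2 : ℕ) : ℝ≥0) : ℝ≥0∞) + D.η) * X *
        (R * (pw 2 * D.W) t x v) := by gcongr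
    _ = (2 * (((D.b₁ / (2 : ℕ) : ℝ≥0) : ℝ≥0∞) + D.η) + 1) * X * R * (pw 2 * D.W) t x v := by ring
    _ ≤ _ := by gcongr

/-- A lower bound for the gain: `tr F ≥ (1 - e) E0 + 1_A tr F`, `gn_add_add`. -/
theorem OK.gain_ge (h : D.OK) (hF : Meas F) (hlo : LeOn 0 D.t₁ ((1 - D.e : ℝ≥0∞) • D.E0) F)
    {t : ℝ} (ht : t ∈ Icc 0 D.t₁) (x : R3) {A : Set R3} (hA : MeasurableSet A)
    (hdis : ∀ u ∈ A, D.E0 t x u = 0) (v : R3) :
    2 * (1 - D.e : ℝ≥0∞) * gn (D.E0 t x) (A.indicator (F t x)) v ≤ D.gain F t x v := by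
  have mtr := (h.meas_tr hF).slice t x
  have mF := hF.slice t x
  have mE0 := h.rE0.meas.slice t x
  have m1 : Measurable (A.indicator (D.tr F t x)) := mtr.indicator hA
  have m2 : Measurable (A.indicator (F t x - D.tr F t x)) := (mF.sub mtr).indicator hA
  have m3 : Measurable fun u => (1 - D.e : ℝ≥0∞) * D.E0 t x u := mE0.const_mul _
  have k1 : (fun u => (1 - D.e : ℝ≥0∞) * D.E0 t x u) + A.indicator (D.tr F t x) ≤ D.tr F t x := by
    intro u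
    show (1 - D.e : ℝ≥0∞) * D.E0 t x u + A.indicator (D.tr F t x) u ≤ D.tr F t x u
    by_cases hu : u ∈ A
    · rw [hdis u hu, mul_zero, zero_add, indicator_of_mem hu]
    · rw [indicator_of_notMem hu, add_zero]
      refine le_inf (hlo t ht x u) ?_
      show (1 - D.e : ℝ≥0∞) * D.E0 t x u ≤ D.E0 t x u + D.E1 t x u + D.H t x u + D.x₀ * D.W t x u
      exact (mul_le_of_le_one_left' tsub_le_self).trans
        (le_self_add.trans (le_self_add.trans le_self_add))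
  have k2 : A.indicator (F t x) ≤ A.indicator (D.tr F t x) + A.indicator (F t x - D.tr F t x) := by
    intro u
    by_cases hu : u ∈ A
    · simp only [Pi.add_apply, indicator_of_mem hu, Pi.sub_apply]
      exact le_add_tsub
    · simp [indicator_of_notMem hu]
  have g1 : 2 * ((1 - D.e : ℝ≥0∞) * gn (D.E0 t x) (A.indicator (D.tr F t x)) v) ≤
      gn (D.tr F t x) (D.tr F t x) v := by
    refine le_trans ?_ (gn_mono k1 k1 v)
    rw [gn_add_add m3 m1, gn_mul_left _ mE0 m1]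
    exact le_add_self.trans le_self_add
  have g2 : gn (D.E0 t x) (A.indicator (F t x - D.tr F t x)) v ≤
      gn (D.E0 t x) (F t x - D.tr F t x) v := gn_mono le_rfl (fun u => indicator_le_self _ _ u) v
  show _ ≤ gn (D.tr F t x) (D.tr F t x) v +
    2 * (1 - D.e : ℝ≥0∞) * gn (D.E0 t x) (F t x - D.tr F t x) v
  calc 2 * (1 - D.e : ℝ≥0∞) * gn (D.E0 t x) (A.indicator (F t x)) v
      ≤ 2 * (1 - D.e : ℝ≥0∞) * gn (D.E0 t x)
        (A.indicator (D.tr F t x) + A.indicator (F t x - D.tr F t x)) v :=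
        mul_le_mul' le_rfl (gn_mono le_rfl k2 v)
    _ = 2 * ((1 - D.e : ℝ≥0∞) * gn (D.E0 t x) (A.indicator (D.tr F t x)) v) +
        2 * (1 - D.e : ℝ≥0∞) * gn (D.E0 t x) (A.indicator (F t x - D.tr F t x)) v := by
        rw [gn_add_right mE0 m1 m2]; ring
    _ ≤ _ := by gcongr

/-- Restart at time `s` (`duh_trans`, `pa_DU`). -/
theorem TS.restart (h : D.OK) (hg : Meas g) (hF : D.TS a σ g F) {s t : ℝ} (hs : 0 ≤ s) (hst : s ≤ t)
    (ht : t ≤ D.t₁) (x v : R3) {s' : ℝ} (hs' : s' ∈ Icc s t) :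
    pa F t x v s' = duh (pa F t x v s) (pa (LS (D.tr F)) t x v)
      (pa (D.gain F + (σ : ℝ≥0∞) • g) t x v) s s' := by
  have e : ∀ r ∈ Icc 0 D.t₁, pa F t x v r = duh (D.F0 (x - (t - 0) • v) v)
      (pa (LS (D.tr F)) t x v) (pa (D.gain F + (σ : ℝ≥0∞) • g) t x v) 0 r := by
    intro r hr
    rw [← pa_DU]
    exact hF.eq r hr _ v
  rw [e s' ⟨hs.trans hs'.1, hs'.2.trans ht⟩, e s ⟨hs, hst.trans ht⟩]
  exact duh_trans ((h.meas_tr hF.reg.meas).LS.pa t x v)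
    (((h.meas_gain hF.reg.meas).add (hg.smul _)).pa t x v) hs hs'.1

/-- Survival of particles and of the gains. -/
theorem TS.surv (h : D.OK) (hg : Meas g) (hF : D.TS a σ g F) {s t A : ℝ} (hs : 0 < s) (hst : s ≤ t)
    (ht : t ≤ D.t₁) (hA : t ≤ A * s) (x v : R3) :
    ENNReal.ofReal (Real.exp (-((D.b₀ * A + 1) * (1 + ‖v‖)))) *
      (pa F t x v s + ∫⁻ s' in Ioc s t, pa (D.gain F + (σ : ℝ≥0∞) • g) t x v s') ≤ F t x v := by
  have e := hF.restart h hg hs.le hst ht x v (s' := t) ⟨hst, le_rfl⟩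
  rw [pa_self] at e
  have hA1 : 0 ≤ A := by
    by_contra hneg
    have : A * s < 0 := mul_neg_of_neg_of_pos (not_le.1 hneg) hs
    linarith
  have h1 := ex_anti (h.surv F ht hs hA x v)
  rw [ex_ofReal (by positivity)] at h1
  rw [e]
  unfold duh
  rw [mul_add, mul_comm]
  refine add_le_add (mul_le_mul' le_rfl h1) ?_
  rw [← lintegral_const_mul' _ _ ENNReal.ofReal_ne_top]
  refine setLIntegral_mono' measurableSet_Ioc fun s' hs' => mul_le_mul' (h1.trans (ex_anti ?_)) le_rfl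
  exact lintegral_mono_set (Ioc_subset_Ioc_left hs'.1.le)

theorem PA2_Mx₀ (h : D.OK) {t : ℝ} (ht : t ∈ Icc 0 D.t₁) :
    (D.Mx₀ : ℝ≥0∞) * ENNReal.ofReal (t ^ 2) ≤ D.x₀ := by
  rw [← ENNReal.ofReal_coe_nnreal, ← ENNReal.ofReal_mul (NNReal.coe_nonneg _),
    ← ENNReal.ofReal_coe_nnreal]
  refine ENNReal.ofReal_le_ofReal ?_
  have h1 := h.t₁_pos
  unfold Mx₀
  push_cast
  rw [Real.coe_toNNReal _ h1.le, div_mul_eq_mul_div, div_le_iff₀ (by positivity)]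
  exact mul_le_mul_of_nonneg_left (pow_le_pow_left₀ ht.1 ht.2 2) (NNReal.coe_nonneg _)

theorem tr_eq_of_le (h : D.OK) (hF : LeOn 0 D.t₁ F (D.env D.Mx₀ 2)) {t : ℝ} (ht : t ∈ Icc 0 D.t₁) :
    D.tr F t = F t ∧ D.gain F t = GN F F t := by
  have e1 : D.tr F t = F t := by
    funext x v
    refine inf_eq_left.2 ((hF t ht x v).trans ?_)
    show D.Ec t x v + D.H t x v + D.Mx₀ * (ENNReal.ofReal (t ^ 2) * D.W t x v) ≤
      D.Ec t x v + D.H t x v + D.x₀ * D.W t x v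
    rw [← mul_assoc]
    gcongr
    exact PA2_Mx₀ h ht
  refine ⟨e1, ?_⟩
  funext x v
  show gn (D.tr F t x) (D.tr F t x) v + 2 * (1 - D.e : ℝ≥0∞) * gn (D.E0 t x) (F t x - D.tr F t x) v =
    gn (F t x) (F t x) v
  rw [e1, tsub_self, gn_zero_right, mul_zero, add_zero]

theorem Good.le' (h : D.OK) (hF : D.Good F) : LeOn 0 D.t₁ F (D.Ec + D.H + D.W) := by
  intro t ht x v
  rw [← (tr_eq_of_le h hF.le ht).1]
  refine (PA2_tr_le' D F t x v).trans ?_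
  show D.Ec t x v + D.H t x v + D.x₀ * D.W t x v ≤ D.Ec t x v + D.H t x v + D.W t x v
  exact add_le_add le_rfl (mul_le_of_le_one_left' (PA2_x₀_le h))

theorem Good.zero (h : D.OK) (hF : D.Good F) : F 0 = D.F0 := by
  funext x v
  rw [hF.ts.eq 0 ⟨le_rfl, h.t₁_pos.le⟩ x v]
  show duh _ _ _ 0 0 = _
  rw [duh_self]
  simp

/-- `duh_plain`, `F0_path`. -/
theorem Good.plain (h : D.OK) (hF : D.Good F) : ∀ t ∈ Icc 0 D.t₁, ∀ x v,
    F t x v + PI (F * LS F) 0 t x v = F 0 (x - t • v) v + PI (GN F F) 0 t x v := by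
  intro t ht x v
  have mF := hF.ts.reg.meas
  have e : ∀ r ∈ Icc 0 D.t₁, pa F t x v r = duh (D.F0 (x - (t - 0) • v) v)
      (pa (LS (D.tr F)) t x v) (pa (D.gain F + ((0 : ℝ≥0) : ℝ≥0∞) • (0 : Fn)) t x v) 0 r := by
    intro r hr
    rw [← pa_DU]
    exact hF.ts.eq r hr _ v
  have hp := duh_plain (u₀ := D.F0 (x - (t - 0) • v) v) ((h.meas_tr mF).LS.pa t x v)
    (((h.meas_gain mF).add (Meas.smul (f := 0) measurable_const ((0 : ℝ≥0) : ℝ≥0∞))).pa t x v) ht.1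
    (fun s hs => ne_top_of_le_ne_top (h.loc_tr F ht.2 hs.1 x v)
      (lintegral_mono fun s' => le_self_add)) (by
      by_cases h0 : D.F0 (x - (t - 0) • v) v = 0
      · exact Or.inr h0
      · rw [sub_zero] at h0
        exact Or.inl (ne_top_of_le_ne_top
          (ENNReal.add_ne_top.2 ⟨h.F0_path t ht x v h0, ENNReal.ofReal_ne_top⟩)
          (PA2_LS_path h F ht x v)))
  rw [← e t ht, pa_self, sub_zero] at hp
  rw [hF.zero h]
  have i1 : PI (F * LS F) 0 t x v = ∫⁻ s in Ioc 0 t, duh (D.F0 (x - t • v) v)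
      (pa (LS (D.tr F)) t x v) (pa (D.gain F + ((0 : ℝ≥0) : ℝ≥0∞) • (0 : Fn)) t x v) 0 s *
        pa (LS (D.tr F)) t x v s := by
    refine setLIntegral_congr_fun measurableSet_Ioc fun s hs => ?_
    have hs1 : s ∈ Icc 0 D.t₁ := ⟨hs.1.le, hs.2.trans ht.2⟩
    have e' := e s hs1
    rw [sub_zero] at e'
    rw [← e']
    show pa F t x v s * ls (F s _) v = pa F t x v s * ls (D.tr F s _) v
    rw [(tr_eq_of_le h hF.le hs1).1]
  have i2 : PI (GN F F) 0 t x v =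
      ∫⁻ s in Ioc 0 t, pa (D.gain F + ((0 : ℝ≥0) : ℝ≥0∞) • (0 : Fn)) t x v s := by
    refine setLIntegral_congr_fun measurableSet_Ioc fun s hs => ?_
    have hs1 : s ∈ Icc 0 D.t₁ := ⟨hs.1.le, hs.2.trans ht.2⟩
    rw [smul_zero, add_zero]
    show GN F F s _ v = D.gain F s _ v
    rw [(tr_eq_of_le h hF.le hs1).2]
  rw [i1, i2]
  exact hp

theorem Good.upper (h : D.OK) (hF : D.Good F) : ∀ t ∈ Icc 0 D.t₁, ∀ x v,
    F t x v ≤ D.F0 (x - t • v) v + D.E1 t x v + 4 * D.η * D.H t x v +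
      D.x₀ * (D.b₁ + 1) * D.W t x v := by
  intro t ht x v
  have mF := hF.ts.reg.meas
  have mP := PA2_mP h
  have mh := h.meas_hot mF
  have m1 : Meas ((2 : ℝ≥0∞) • GN D.E0 (D.hot F)) := (h.rE0.meas.GN mh).smul 2
  have hM := (le_env_iff h).1 hF.le
  have h1 : PI (D.gain F) 0 t x v ≤ PI (GN (D.Ec + D.H) (D.Ec + D.H)) 0 t x v +
      (PI ((2 : ℝ≥0∞) • GN D.E0 (D.hot F)) 0 t x v +
        PI ((2 : ℝ≥0∞) • GN (D.E1 + D.H + D.W) (D.hot F)) 0 t x v) := by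
    refine (PI_mono (T := D.t₁) (fun s _ y u => h.gain_le mF s y u) t ht x v).trans ?_
    rw [PI_add (mP.GN mP), PI_add m1]
    exact le_rfl
  have h2 := h.PI_PP t ht x v
  have h3 := PA2_PI_E0 h le_rfl (c := 2) one_le_two hM t ht x v
  have h4 := PA2_PI_R h le_rfl hM t ht x v
  have h5 : (D.Mx₀ : ℝ≥0∞) * (pw 2 * D.W) t x v ≤ D.x₀ * D.W t x v := by
    show (D.Mx₀ : ℝ≥0∞) * (ENNReal.ofReal (t ^ 2) * D.W t x v) ≤ _
    rw [← mul_assoc]
    gcongr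
    exact PA2_Mx₀ h ht
  have h6 : ((D.b₁ / (2 : ℕ) : ℝ≥0) : ℝ≥0∞) ≤ D.b₁ := by
    refine ENNReal.coe_le_coe.2 ?_
    rw [← NNReal.coe_le_coe]
    have := D.b₁.coe_nonneg
    push_cast
    linarith
  rw [hF.ts.eq t ht x v, PA2_Phi_eq, smul_zero, add_zero]
  refine (add_le_add (mul_le_of_le_one_right' (ex_le_one _)) ((AI_le_PI _ _ _ t x v).trans
    (h1.trans (add_le_add h2 (add_le_add h3 h4))))).trans ?_
  show D.F0 (x - t • v) v + (D.η * D.E1 t x v + 4 * D.η * D.H t x v +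
    (((D.b₁ / (2 : ℕ) : ℝ≥0) : ℝ≥0∞) * D.Mx₀ * (pw 2 * D.W) t x v +
      D.η * D.Mx₀ * (pw 2 * D.W) t x v)) ≤ _
  calc _ = D.F0 (x - t • v) v + D.η * D.E1 t x v + 4 * D.η * D.H t x v +
        (((D.b₁ / (2 : ℕ) : ℝ≥0) : ℝ≥0∞) + D.η) * (D.Mx₀ * (pw 2 * D.W) t x v) := by ring
    _ ≤ D.F0 (x - t • v) v + 1 * D.E1 t x v + 4 * D.η * D.H t x v +
        (D.b₁ + 1) * (D.x₀ * D.W t x v) := by
        gcongr
        · exact PA2_η_le_one h
        · exact PA2_η_le_one h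
    _ = _ := by ring

theorem Good.lower (h : D.OK) (hF : D.Good F) : ∀ t ∈ Icc 0 D.t₁, ∀ x v,
    D.F0 (x - t • v) v *
      ex (PI (LS D.E0) 0 t x v + ENNReal.ofReal ((1 + 2 * D.K) * (1 + ‖v‖) * t)) ≤ F t x v := by
  intro t ht x v
  rw [hF.ts.eq t ht x v, PA2_Phi_eq]
  exact (mul_le_mul' le_rfl (ex_anti (PA2_LS_path h F ht x v))).trans le_self_add

end P1

end Crest.Agent.R68
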