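/-
R68/L5: transfer of mass by free flight and by one collision
Skeleton by helper76 (row 68); keep the statements unchanged, add any helper lemmas you like.
-/
import Crest.Agent.R68.LDefs
import Crest.Agent.R68.PA2
import Crest.Agent.R68.C2

set_option autoImplicit false
set_option linter.unusedVariables false
set_option linter.unusedSectionVars false

noncomputable section

namespace Crest.Agent.R68

open MeasureTheory Set Filter Topology
open scoped ENNReal NNReal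
open Crest.AnalysisR.VecCalc3 Crest.AnalysisR.PDE.Boltzmann

namespace P1

variable {D : P1} {a : ℕ} {σ : ℝ≥0} {g F : Fn}

theorem L5_test {G : Fn} (hG : Meas G) (hi' : Inv1 G) (t : ℝ) {ψ : R3 → R3 → ℝ≥0∞}
    (hψ : Measurable fun p : R3 × R3 => ψ p.1 p.2)
    (hi : ∀ x v (c : ℝ), ψ (x + EuclideanSpace.single 0 c) v = ψ x v) :
    Meas (fun s y v => G s y v * ψ (y + (t - s) • v) v) ∧
      Inv1 (fun s y v => G s y v * ψ (y + (t - s) • v) v) ∧
      ∀ x v s, pa (fun s y v => G s y v * ψ (y + (t - s) • v) v) t x v s = pa G t x v s * ψ x v := by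
  refine ⟨?_, fun s x v c => ?_, fun x v s => ?_⟩
  · have h1 : Measurable fun p : ℝ × R3 × R3 => (p.2.1 + (t - p.1) • p.2.2, p.2.2) := by fun_prop
    exact Measurable.mul hG (hψ.comp h1)
  · show G s _ v * ψ _ v = G s x v * ψ _ v
    rw [hi', add_right_comm, hi]
  · simp only [pa, sub_add_cancel]

theorem L5_core (h : D.OK) (hg : Meas g) (hF : D.TS a σ g F) {s t A V : ℝ} (hs : 0 < s)
    (hst : s ≤ t) (ht : t ≤ D.t₁) (hA : t ≤ A * s) {ψ q : R3 → R3 → ℝ≥0∞}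
    (hV : ∀ x v, ψ x v ≠ 0 → ‖v‖ ≤ V)
    (hq : ∀ x v, q x v ≤
      pa F t x v s + ∫⁻ s' in Ioc s t, pa (D.gain F + (σ : ℝ≥0∞) • g) t x v s') :
    ENNReal.ofReal (Real.exp (-((D.b₀ * A + 1) * (1 + V)))) *
      ∫⁻ x in slab, ∫⁻ v, q x v * ψ x v ≤ ∫⁻ x in slab, ∫⁻ v, F t x v * ψ x v := by
  have hA0 : 0 ≤ A := by
    by_contra hn
    have := mul_neg_of_neg_of_pos (not_le.1 hn) hs
    linarith
  refine (lintegral_const_mul_le _ _).trans (lintegral_mono fun x => ?_)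
  refine (lintegral_const_mul_le _ _).trans (lintegral_mono fun v => ?_)
  by_cases h0 : ψ x v = 0
  · simp only [h0, mul_zero, le_refl]
  show _ * (q x v * ψ x v) ≤ F t x v * ψ x v
  rw [← mul_assoc]
  refine mul_le_mul_left (le_trans (mul_le_mul' (ENNReal.ofReal_le_ofReal ?_) (hq x v))
    (hF.surv h hg hs hst ht hA x v)) _
  refine Real.exp_le_exp.2 (neg_le_neg (mul_le_mul_of_nonneg_left ?_ (by positivity)))
  linarith [hV x v h0]

/-- Free flight: `TS.surv`, `lintegral_slab_pa`. -/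
theorem TS.fly (h : D.OK) (hg : Meas g) (hF : D.TS a σ g F) {s t A V : ℝ} (hs : 0 < s) (hst : s ≤ t)
    (ht : t ≤ D.t₁) (hA : t ≤ A * s) {ψ : R3 → R3 → ℝ≥0∞}
    (hψ : Measurable fun p : R3 × R3 => ψ p.1 p.2)
    (hi : ∀ x v (c : ℝ), ψ (x + EuclideanSpace.single 0 c) v = ψ x v)
    (hV : ∀ x v, ψ x v ≠ 0 → ‖v‖ ≤ V) :
    ENNReal.ofReal (Real.exp (-((D.b₀ * A + 1) * (1 + V)))) *
      ∫⁻ y in slab, ∫⁻ v, F s y v * ψ (y + (t - s) • v) v ≤ ∫⁻ x in slab, ∫⁻ v, F t x v * ψ x v := by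
  obtain ⟨hm, hi', hp⟩ := L5_test hF.reg.meas hF.reg.inv.inv1 t hψ hi
  refine le_trans (le_of_eq ?_) (L5_core h hg hF hs hst ht hA hV (q := fun x v => pa F t x v s)
    fun x v => le_self_add)
  rw [← lintegral_slab_pa hm hi' t s]
  simp only [hp]

/-- Gains followed by free flight: `TS.surv`, `lintegral_slab_pa_time`. -/
theorem TS.transfer (h : D.OK) (hg : Meas g) (hF : D.TS a σ g F) {s₀ t A V : ℝ} (hs : 0 < s₀)
    (hst : s₀ ≤ t) (ht : t ≤ D.t₁) (hA : t ≤ A * s₀) {ψ : R3 → R3 → ℝ≥0∞}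
    (hψ : Measurable fun p : R3 × R3 => ψ p.1 p.2)
    (hi : ∀ x v (c : ℝ), ψ (x + EuclideanSpace.single 0 c) v = ψ x v)
    (hV : ∀ x v, ψ x v ≠ 0 → ‖v‖ ≤ V) :
    ENNReal.ofReal (Real.exp (-((D.b₀ * A + 1) * (1 + V)))) *
      ∫⁻ s in Ioc s₀ t, ∫⁻ y in slab, ∫⁻ v, D.gain F s y v * ψ (y + (t - s) • v) v ≤
      ∫⁻ x in slab, ∫⁻ v, F t x v * ψ x v := by
  have hinv : InvF (D.gain F) := by
    have htr : InvF (D.tr F) := hF.reg.inv.inf ((h.rEc.inv.add h.rH.inv).add (h.rW.inv.smul _))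
    exact (htr.GN htr).add ((h.rE0.inv.GN (hF.reg.inv.sub htr)).smul _)
  have hmg := h.meas_gain hF.reg.meas
  obtain ⟨hm, hi', hp⟩ := L5_test hmg hinv.inv1 t hψ hi
  refine le_trans (le_of_eq ?_) (L5_core h hg hF hs hst ht hA hV
    (q := fun x v => ∫⁻ s in Ioc s₀ t, pa (D.gain F) t x v s)
    fun x v => le_add_left (lintegral_mono fun s => le_self_add))
  rw [← lintegral_slab_pa_time hm hi' t measurableSet_Ioc]
  simp only [hp, lintegral_mul_const _ (hmg.pa t _ _)]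

/-- `gain_ge`, `1 ≤ 2 (1 - e)`, `lintegral_gn_mul'`. -/
theorem TS.gain_test (h : D.OK) (hF : D.TS a σ g F) {s : ℝ} (hs : s ∈ Icc 0 D.t₁) (y : R3)
    {A : Set R3} (hA : MeasurableSet A) (hdis : ∀ u ∈ A, D.E0 s y u = 0) {ψ : R3 → ℝ≥0∞}
    (hψ : Measurable ψ) {c : ℝ≥0∞} (hc : ∀ w ∈ A, c ≤ ∫⁻ u, D.E0 s y u *
      ∫⁻ ω, cw w u ω * ψ (postVelStar w u ω) ∂sphereMeasure) :
    c * ∫⁻ w in A, F s y w ≤ ∫⁻ v, D.gain F s y v * ψ v := by
  have hm : Measurable (A.indicator (F s y)) := (hF.reg.meas.slice s y).indicator hA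
  have h1 : (1 : ℝ≥0∞) ≤ 2 * (1 - D.e) :=
    (ENNReal.mul_inv_cancel (a := 2) two_ne_zero ENNReal.ofNat_ne_top).ge.trans
      (mul_le_mul_right (PA2_half_le h) _)
  calc c * ∫⁻ w in A, F s y w ≤ ∫⁻ w in A, c * F s y w := lintegral_const_mul_le _ _
    _ = ∫⁻ w, A.indicator (fun w => c * F s y w) w := (lintegral_indicator hA _).symm
    _ ≤ ∫⁻ w, ∫⁻ u, ∫⁻ ω, cw w u ω * (A.indicator (F s y) w * D.E0 s y u * ψ (postVelStar w u ω))
          ∂sphereMeasure := by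
      refine lintegral_mono fun w => ?_
      by_cases hw : w ∈ A
      · simp only [indicator_of_mem hw]
        rw [mul_comm]
        refine (mul_le_mul_right (hc w hw) _).trans ((lintegral_const_mul_le _ _).trans
          (lintegral_mono fun u => ?_))
        show F s y w * (D.E0 s y u * _) ≤ _
        rw [← mul_assoc]
        refine (lintegral_const_mul_le _ _).trans (lintegral_mono fun ω => le_of_eq ?_)
        ring
      · simp only [indicator_of_notMem hw, zero_le]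
    _ = ∫⁻ v, gn (D.E0 s y) (A.indicator (F s y)) v * ψ v :=
      (lintegral_gn_mul' hm (h.rE0.meas.slice s y) hψ).symm
    _ ≤ _ := lintegral_mono fun v => mul_le_mul_left ((le_mul_of_one_le_left zero_le h1).trans
      (h.gain_ge hF.reg.meas (hF.lo h) hs y hA hdis v)) _

end P1

/-- The weight of the directions that produce a transversal velocity (`small_postStar`,
`lintegral_cw`). -/
theorem good_dir (w u : R3) {η : ℝ} (hη : 0 < η) {ψ : R3 → ℝ≥0∞} {c : ℝ≥0∞}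
    (h : ∀ ω : R3, ‖ω‖ = 1 → η < |c2 (postVelStar w u ω) - c2 u| → c ≤ ψ (postVelStar w u ω)) :
    c * ENNReal.ofReal (cL * ‖w - u‖ - Cb * √(η * ‖w - u‖)) ≤
      ∫⁻ ω, cw w u ω * ψ (postVelStar w u ω) ∂sphereMeasure := by
  set S : Set R3 := {ω | |inner ℝ (postVelStar w u ω) e2 - c2 u| ≤ η} with hS
  have hps : Continuous fun ω : R3 => postVelStar w u ω :=
    continuous_postVelStar.comp (f := fun ω : R3 => (w, u, ω)) (by fun_prop)
  have hSm : MeasurableSet S := (isClosed_le (by fun_prop) continuous_const).measurableSet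
  have hcw : Measurable fun ω : R3 => cw w u ω :=
    measurable_cw.comp (f := fun ω : R3 => (w, u, ω)) (by fun_prop)
  have h1 : ENNReal.ofReal (cL * ‖w - u‖ - Cb * √(η * ‖w - u‖)) ≤
      ∫⁻ ω, cw w u ω * Sᶜ.indicator 1 ω ∂sphereMeasure := by
    rw [ENNReal.ofReal_sub _ (mul_nonneg (zero_le_one.trans one_le_Cb) (Real.sqrt_nonneg _)),
      tsub_le_iff_left, ENNReal.ofReal_mul cL_pos.le, ofReal_norm, ← lintegral_cw]
    refine le_trans ?_ (add_le_add_left (small_postStar w u e2 norm_e2 (c2 u) hη) _)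
    refine le_trans (lintegral_mono fun ω => le_of_eq ?_) (lintegral_add_left
      (f := fun ω => cw w u ω * S.indicator 1 ω) (hcw.mul (measurable_one.indicator hSm)) _).le
    show cw w u ω = cw w u ω * S.indicator 1 ω + cw w u ω * Sᶜ.indicator 1 ω
    rw [← mul_add, indicator_self_add_compl_apply, Pi.one_apply, mul_one]
  refine (mul_le_mul_right h1 c).trans ((lintegral_const_mul_le _ _).trans (lintegral_mono_ae ?_))
  filter_upwards [ae_norm_sphere] with ω hω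
  by_cases hs : ω ∈ S
  · rw [indicator_of_notMem (notMem_compl_iff.2 hs), mul_zero, mul_zero]
    exact zero_le
  · rw [indicator_of_mem (mem_compl hs), Pi.one_apply, mul_one, mul_comm]
    exact mul_le_mul_right (h ω hω (not_le.1 hs)) _

namespace CP

variable {P : CP}

theorem measurableSet_setC (P : CP) (Q : HQ) :
    MeasurableSet {p : ℝ × R3 × R3 | p.2 ∈ P.setC Q p.1} := by
  have h1 := c0c_mry
  have h2 := c0c_m2
  have h4 := c0c_tx (measurableSet_GC P Q.ε₃ Q.ζ₃)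
  simp only [setC, mem_ofPred_eq]
  refine c0c_and ?_ (c0c_and h4 (c0c_and ?_ ?_))
  · exact measurableSet_le (by fun_prop) (by fun_prop)
  · exact measurableSet_le (by fun_prop) measurable_const
  · exact measurableSet_le measurable_const (by fun_prop)

theorem measurableSet_setG (P : CP) (κ₄ ζ₄ t : ℝ) : MeasurableSet (P.setG κ₄ ζ₄ t) := by
  have h1 := c0c_mry
  have h2 := c0c_m2
  have h3 := c0c_m3
  refine c0c_and ?_ (c0c_and ?_ (c0c_and ?_ ?_))
  · exact measurableSet_le (by fun_prop) measurable_const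
  · exact measurableSet_le (by fun_prop) measurable_const
  · exact measurableSet_le measurable_const (by fun_prop)
  · exact measurableSet_le (by fun_prop) (by fun_prop)

/-- A lower bound for the density where `|ze| ≤ ζ`, `ff ≥ ε` (`dens_ge`, `rho0_ge`; `el > 0` because
`ff (osc b 0) = 0`). -/
theorem dens_GC (h : P.OK) {ε ζ : ℝ} (hε : 0 < ε) (hζ : ζ < 1) : ∃ c : ℝ, 0 < c ∧
    ∀ᶠ r in 𝓝[>] (0 : ℝ), ∀ s ∈ Ioc 0 (P.t₀ r), ∀ y b, ry y ≤ P.V * s → |P.ze s y| ≤ ζ →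
      ε ≤ ff (P.osc b (P.el s y)) → ENNReal.ofReal (c / s) ≤ ∫⁻ u, P.E0c r b s y u := by
  have hV : 0 < P.V := by linarith [h.V_ge]
  have hC : 0 < P.C := by linarith [h.one_le_C]
  have hτ : 0 < tau (max ζ 0) :=
    tau_pos (by rw [abs_of_nonneg (le_max_right _ _)]; exact max_lt hζ one_pos)
  refine ⟨P.C / (6 * P.V) * (tau (max ζ 0) * ε / 2) / 4, by positivity, ?_⟩
  filter_upwards [dens_ge h (e' := tau (max ζ 0) * ε / 2) (by positivity), h.ev_t₀ h.T_pos]
    with r h1 h2 s hs y b hy hz hf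
  have hel : 0 < P.el s y := by
    refine (el_nonneg P s y).lt_of_ne fun h0 => ?_
    rw [← h0, osc, Real.log_zero, zero_div, Real.sin_zero, mul_zero, ff,
      max_eq_right (by norm_num)] at hf
    linarith
  have hel2 : P.el s y ≤ r / 2 := by
    refine (h.el_le hs.1.le y).trans ((abs_c2_le_ry y).trans (hy.trans ?_))
    refine (mul_le_mul_of_nonneg_left hs.2 hV.le).trans (le_of_eq ?_)
    rw [t₀]
    field_simp
  refine le_trans (ENNReal.ofReal_le_ofReal ?_) (h1 b s y hs.1.le hel hel2)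
  have h3 := h.rho0_ge hs.1 (hs.2.trans h2.2) hy
  have h4 : tau (max ζ 0) * ε ≤ P.chi b s y :=
    mul_le_mul (tau_anti (hz.trans ((le_max_left _ _).trans (le_abs_self _)))) hf hε.le
      (tau_nonneg _)
  have hs0 := hs.1
  calc _ = P.C / (6 * P.V * s) * (tau (max ζ 0) * ε / 2) / 4 := by field_simp
    _ ≤ _ := by
      refine div_le_div_of_nonneg_right (mul_le_mul h3 (by linarith) (by positivity)
        (h.rho0_nonneg hs.1.le y)) (by norm_num)

/-- `κ₄ = kap κ₁ / 4`, `ζ₄ = (1 + ζ₃) / 2`; `good_dir` with `η = kap ‖w - u‖`, `‖w - u‖ ≥ κ₁ / 2`;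
`|c3 v' - c3 u| ≤ ‖w - u‖` (`norm_postVel_sub_left`, `postVel_swap`). -/
theorem local_C (h : P.OK) {Q : HQ} (hQ : Q.OK) : ∃ κ₄ ζ₄ c : ℝ, 0 < κ₄ ∧ ζ₄ < 1 ∧ 0 < c ∧
    ∀ᶠ r in 𝓝[>] (0 : ℝ), ∀ s ∈ Ioc 0 (P.t₀ r), ∀ t, s ≤ t → ∀ y w, (y, w) ∈ P.setC Q s →
      ENNReal.ofReal (c / s) ≤ ∫⁻ u, P.E0 r s y u * ∫⁻ ω, cw w u ω *
        (P.setG κ₄ ζ₄ t).indicator 1 (y + (t - s) • postVelStar w u ω, postVelStar w u ω)
        ∂sphereMeasure := by
  have hk := kap_pos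
  have hk1 : kap ≤ 1 := kap_le.trans (by norm_num)
  have hκ := hQ.κ₁_pos
  have hζ : 0 < 1 - Q.ζ₃ := sub_pos.2 hQ.ζ₃_lt
  have hc := cL_pos
  have hV := h.V_ge
  obtain ⟨c₀, hc₀, hd⟩ := dens_GC h hQ.ε₃_pos hQ.ζ₃_lt
  refine ⟨kap * Q.κ₁ / 4, (1 + Q.ζ₃) / 2, c₀ * (Q.κ₁ * cL / 4), by positivity, by linarith,
    by positivity, ?_⟩
  filter_upwards [hd, E0c_le_amp h, Wg_supp h
    (e' := min (kap * Q.κ₁ / 4) (kap * (1 - Q.ζ₃) / 4)) (by positivity)]
    with r h1 h2 h3 s hs t hst y w ⟨a1, ⟨b, a2, a3⟩, a4, a5⟩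
  dsimp only at a1 a2 a3 a4 a5
  have hs0 := hs.1
  have hVs : 0 ≤ P.V * s := by positivity
  have h4 := h1 s hs y b (by linarith) a2 a3
  calc ENNReal.ofReal (c₀ * (Q.κ₁ * cL / 4) / s)
      = ENNReal.ofReal (c₀ / s) * ENNReal.ofReal (Q.κ₁ * cL / 4) := by
        rw [← ENNReal.ofReal_mul (by positivity), div_mul_eq_mul_div]
    _ ≤ (∫⁻ u, P.E0c r b s y u) * ENNReal.ofReal (Q.κ₁ * cL / 4) := mul_le_mul_left h4 _
    _ ≤ ∫⁻ u, P.E0c r b s y u * ENNReal.ofReal (Q.κ₁ * cL / 4) := lintegral_mul_const_le _ _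
    _ ≤ _ := lintegral_mono fun u => ?_
  by_cases h0 : P.E0c r b s y u = 0
  · simp only [h0, zero_mul, zero_le]
  have hW : P.Wg r 0 b s y u := by
    by_contra hn
    have := h2 b s y u hs0.le
    rw [amp, if_neg hn] at this
    exact h0 (le_zero_iff.1 this)
  obtain ⟨b1, b2, b3, -⟩ := h3 0 (Nat.zero_le _) b s y u hs0.le hW
  have b3' := b3.trans (min_le_left _ _)
  have b3'' := b3.trans (min_le_right _ _)
  have b1' : |c3 u| ≤ Q.ζ₃ + (1 - Q.ζ₃) / 4 := by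
    have k1 := ((abs_c3_le_norm _).trans b1).trans (min_le_right _ _)
    rw [c3_sub, c3_U] at k1
    have k2 := abs_sub_abs_le_abs_sub (c3 u) (P.ze s y)
    have k3 := mul_le_mul_of_nonneg_right hk1 hζ.le
    linarith
  have b4 : Q.κ₁ / 2 ≤ ‖w - u‖ := by
    have k1 := abs_c2_le_norm (w - u)
    rw [c2_sub] at k1
    have k2 := abs_sub_abs_le_abs_sub (c2 w) (c2 u)
    have k3 := mul_le_mul_of_nonneg_right hk1 hκ.le
    linarith
  have b5 : 0 < ‖w - u‖ := by linarith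
  refine mul_le_mul' ?_ ?_
  · have := le_perz (P.E0c r) b 0 s y u
    rwa [lat_zero, sub_zero] at this
  refine le_trans ?_ (good_dir w u (η := kap * ‖w - u‖) (c := 1) (by positivity)
    (ψ := fun v => (P.setG (kap * Q.κ₁ / 4) ((1 + Q.ζ₃) / 2) t).indicator 1 (y + (t - s) • v, v))
    fun ω hω hη => ?_)
  · rw [one_mul]
    refine ENNReal.ofReal_le_ofReal ?_
    rw [mul_assoc, Real.sqrt_mul hk.le, Real.sqrt_mul_self b5.le, ← mul_assoc, sqrt_kap]
    have := mul_le_mul_of_nonneg_left b4 hc.le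
    have := mul_pos hc b5
    linarith
  · have k1 : ‖postVelStar w u ω‖ ≤ 3 * P.V / 4 := by
      linarith [norm_postVelStar_le hω w u]
    have k2 := abs_sub (c2 (postVelStar w u ω)) (c2 u)
    have k3 := mul_le_mul_of_nonneg_left b4 hk.le
    suffices hm : (y + (t - s) • postVelStar w u ω, postVelStar w u ω) ∈
        P.setG (kap * Q.κ₁ / 4) ((1 + Q.ζ₃) / 2) t by
      simp only [indicator_of_mem hm, Pi.one_apply, le_refl]
    simp only [setG, mem_ofPred_eq]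
    refine ⟨?_, k1, ?_, ?_⟩
    · refine (ry_add_le _ _).trans ?_
      rw [ry_smul, abs_of_nonneg (sub_nonneg.2 hst)]
      have := mul_le_mul_of_nonneg_left ((ry_le_norm _).trans k1) (sub_nonneg.2 hst)
      linarith
    · linarith
    · have k4 := norm_postVel_sub_left hω u w
      rw [postVel_swap, norm_sub_rev u] at k4
      have k5 := (abs_c3_le_norm _).trans k4
      rw [c3_sub] at k5
      have k6 := abs_sub_abs_le_abs_sub (c3 (postVelStar w u ω)) (c3 u)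
      have k7 : ‖w - u‖ - (1 - Q.ζ₃) / 4 ≤ |c2 (postVelStar w u ω)| / kap := by
        rw [le_div_iff₀ hk]
        linarith
      linarith

/-- `TS.transfer` with `s₀ = t / (2 A²)`, `ψ = 1_setG`; `TS.gain_test`, `local_C`. -/
theorem massC_le (h : P.OK) {Q : HQ} (hQ : Q.OK) : ∃ κ₄ ζ₄ : ℝ, ∃ C : ℝ≥0, 0 < κ₄ ∧ ζ₄ < 1 ∧
    ∀ᶠ r in 𝓝[>] (0 : ℝ), ∀ σ g F, P.Sol r σ g F → ∀ t ∈ Ioc 0 (P.t₀ r),
      P.massC Q F t ≤ C * ENNReal.ofReal t * P.massG κ₄ ζ₄ F t := by
  obtain ⟨κ₄, ζ₄, c, hκ, hζ, hc, hl⟩ := local_C h hQ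
  obtain ⟨E, hE⟩ : ∃ E, E = Real.exp (-((P.b₀ * (2 * Q.A ^ 2) + 1) * (1 + 3 * P.V / 4))) :=
    ⟨_, rfl⟩
  have hE0 : 0 < E := hE ▸ Real.exp_pos _
  have hA : 1 ≤ Q.A ^ 2 := one_le_pow₀ hQ.A_ge
  have hA0 : 0 < Q.A := one_pos.trans_le hQ.A_ge
  refine ⟨κ₄, ζ₄, (1 / (c * E)).toNNReal, hκ, hζ, ?_⟩
  filter_upwards [hl, h.ev_t₀ h.t₁_pos, Ecal_supp h (half_pos hQ.κ₁_pos)]
    with r h1 h2 h3 σ g F hS t ht
  have ht0 := ht.1
  have hG := measurableSet_setG P κ₄ ζ₄ t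
  have key := hS.ts.transfer hS.ok hS.mg (s₀ := t / (2 * Q.A ^ 2)) (t := t) (A := 2 * Q.A ^ 2)
    (V := 3 * P.V / 4) (by positivity) (div_le_self ht0.le (by linarith)) (ht.2.trans h2.2)
    (le_of_eq (by field_simp)) (ψ := fun x v => (P.setG κ₄ ζ₄ t).indicator 1 (x, v))
    (measurable_one.indicator hG)
    (fun x v a => by simp only [indicator, setG, mem_ofPred_eq, ry_single, Pi.one_apply])
    (fun x v hne => (mem_of_indicator_ne_zero hne).2.1)
  have e1 : ∫⁻ x in slab, ∫⁻ v, F t x v * (P.setG κ₄ ζ₄ t).indicator 1 (x, v) =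
      P.massG κ₄ ζ₄ F t := by
    refine lintegral_congr fun x => lintegral_congr fun v => ?_
    by_cases hx : (x, v) ∈ P.setG κ₄ ζ₄ t
    · simp only [indicator_of_mem hx, Pi.one_apply, mul_one, unc]
    · simp only [indicator_of_notMem hx, mul_zero]
  have e2 : ENNReal.ofReal (c / t) * P.massC Q F t ≤
      ∫⁻ s in Ioc (t / (2 * Q.A ^ 2)) t, ∫⁻ y in slab, ∫⁻ v, (P.D1 r).gain F s y v *
        (P.setG κ₄ ζ₄ t).indicator 1 (y + (t - s) • v, v) := by
    have hlt : t / (2 * Q.A ^ 2) < t / Q.A ^ 2 :=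
      div_lt_div_of_pos_left ht0 (by positivity) (by linarith)
    refine (lintegral_const_mul_le _ _).trans ((setLIntegral_mono' measurableSet_Icc
      fun s hs => ?_).trans (lintegral_mono_set fun s hs => ⟨hlt.trans_le hs.1, hs.2⟩))
    have hs0 : 0 < s := lt_of_lt_of_le (by positivity) hs.1
    refine (lintegral_const_mul_le _ _).trans (lintegral_mono fun y => ?_)
    have hAm : MeasurableSet {w | (y, w) ∈ P.setC Q s} :=
      (show Measurable fun w : R3 => (s, y, w) by fun_prop) (measurableSet_setC P Q)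
    have k1 : ∫⁻ w, (P.setC Q s).indicator (unc F s) (y, w) =
        ∫⁻ w in {w | (y, w) ∈ P.setC Q s}, F s y w := by
      rw [← lintegral_indicator hAm]
      rfl
    show _ * ∫⁻ w, (P.setC Q s).indicator (unc F s) (y, w) ≤ _
    rw [k1]
    refine hS.ts.gain_test hS.ok ⟨hs0.le, hs.2.trans (ht.2.trans h2.2)⟩ y hAm (fun u hu => ?_)
      (ψ := fun v => (P.setG κ₄ ζ₄ t).indicator 1 (y + (t - s) • v, v))
      ((measurable_one.indicator hG).comp
        (f := fun v : R3 => (y + (t - s) • v, v)) (by fun_prop)) fun w hw => ?_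
    · by_contra hne
      have k2 := (h3 s y u hs0.le fun h0 => hne (le_zero_iff.1 (h0 ▸ E0_le_Ecal P r s y u))).2.1
      have k3 : Q.κ₁ ≤ |c2 u| := hu.2.2.2
      linarith [hQ.κ₁_pos]
    · exact (ENNReal.ofReal_le_ofReal (div_le_div_of_nonneg_left hc.le hs0 hs.2)).trans
        (h1 s ⟨hs0, hs.2.trans ht.2⟩ t hs.2 y w hw)
  rw [e1] at key
  have e3 : ENNReal.ofReal E * (ENNReal.ofReal (c / t) * P.massC Q F t) ≤ P.massG κ₄ ζ₄ F t :=
    (mul_le_mul_right e2 _).trans (hE ▸ key)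
  refine le_trans (le_of_eq ?_) (mul_le_mul_right e3 _)
  rw [← mul_assoc, ← mul_assoc]
  change _ = ENNReal.ofReal _ * _ * _ * _ * _
  rw [← ENNReal.ofReal_mul (by positivity), ← ENNReal.ofReal_mul (by positivity),
    ← ENNReal.ofReal_mul (by positivity), show 1 / (c * E) * t * E * (c / t) = 1 by field_simp,
    ENNReal.ofReal_one, one_mul]

end CP

end Crest.Agent.R68
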