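/-
R68/H4: the main term after two more collisions
Skeleton by helper76 (row 68); keep the statements unchanged, add any helper lemmas you like.
-/
import Crest.Agent.R68.LDefs
import Crest.Agent.R68.L5
import Crest.Agent.R68.W2

set_option autoImplicit false
set_option linter.unusedVariables false
set_option linter.unusedSectionVars false

noncomputable section

namespace Crest.Agent.R68

open MeasureTheory Set Filter Topology
open scoped ENNReal NNReal
open Crest.AnalysisR.VecCalc3 Crest.AnalysisR.PDE.Boltzmann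

namespace CP

variable {P : CP} {Q : HQ}

theorem H4_mgt (P : CP) (Q : HQ) (ρ εc t : ℝ) (x v : R3) : MeasurableSet (P.gt Q ρ εc t x v) :=
  (measurable_prodMk_left (x := (t, x, v))) (c0c_gt P Q ρ εc)

theorem H4_mgd (P : CP) (Q : HQ) (ρ : ℝ) (v : R3) : MeasurableSet (P.gd Q ρ v) :=
  (measurable_prodMk_left (x := v)) (c0c_gd P Q ρ)

theorem H4_mint (P : CP) (Q : HQ) (r ρ t : ℝ) (x v : R3) {f : Fn} (hf : Meas f) :
    Measurable fun s : ℝ => 2 * gn (P.E0 r s (x - (t - s) • v))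
      ((P.gd Q ρ v).indicator (f s (x - (t - s) • v))) v := by
  have hy : Measurable fun p : ℝ × R3 => x - (t - p.1) • v := by fun_prop
  refine Measurable.const_mul (measurable_gn ?_ ?_ measurable_const) _
  · exact path_meas_comp (P.meas_E0 r).1 measurable_fst hy measurable_snd
  · have h1 : Measurable fun p : ℝ × R3 => f p.1 (x - (t - p.1) • v) p.2 :=
      path_meas_comp hf measurable_fst hy measurable_snd
    exact h1.indicator (measurable_snd (H4_mgd P Q ρ v))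

theorem mainT_mono {r ρ εc t : ℝ} {x v : R3} {f g : Fn}
    (hfg : ∀ s ∈ P.gt Q ρ εc t x v, ∀ z ∈ P.gd Q ρ v,
      f s (x - (t - s) • v) z ≤ g s (x - (t - s) • v) z) :
    P.mainT Q r ρ εc f t x v ≤ P.mainT Q r ρ εc g t x v := by
  refine setLIntegral_mono' (H4_mgt P Q ρ εc t x v) fun s hs => ?_
  refine mul_le_mul_right (gn_mono le_rfl (fun z => ?_) v) _
  by_cases hz : z ∈ P.gd Q ρ v
  · simpa only [indicator_of_mem hz] using hfg s hs z hz
  · simp only [indicator_of_notMem hz, le_refl]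

theorem mainT_add (r ρ εc : ℝ) {f g : Fn} (hf : Meas f) (hg : Meas g) :
    P.mainT Q r ρ εc (f + g) = P.mainT Q r ρ εc f + P.mainT Q r ρ εc g := by
  funext t x v
  simp only [mainT, Pi.add_apply]
  rw [← lintegral_add_left (H4_mint P Q r ρ t x v hf)]
  refine lintegral_congr fun s => ?_
  rw [← mul_add, ← gn_add_right ((P.meas_E0 r).1.slice _ _)
    ((hf.slice _ _).indicator (H4_mgd P Q ρ v)) ((hg.slice _ _).indicator (H4_mgd P Q ρ v))]
  congr 2
  funext z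
  by_cases hz : z ∈ P.gd Q ρ v <;> simp [hz]

theorem gt_subset (hQ : Q.OK) {ρ εc t : ℝ} (ht : 0 < t) (x v : R3) : P.gt Q ρ εc t x v ⊆ Ioc 0 t := by
  intro s hs
  have hA := hQ.A_ge
  have h1 : 0 < t / Q.A := div_pos ht (by linarith)
  refine ⟨h1.trans_le hs.1, hs.2.1.trans ?_⟩
  nlinarith [hQ.κ₁_pos]

theorem mainT_le_PI (hQ : Q.OK) (r ρ εc : ℝ) {t : ℝ} (ht : 0 < t) (x v : R3) (f : Fn) :
    P.mainT Q r ρ εc f t x v ≤ PI ((2 : ℝ≥0∞) • GN (P.E0 r) f) 0 t x v := by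
  refine le_trans (lintegral_mono fun s => ?_)
    (lintegral_mono_set (gt_subset (P := P) (ρ := ρ) (εc := εc) hQ ht x v))
  exact mul_le_mul_right (gn_mono le_rfl (indicator_le_self _ _) v) _

/-- For `s ∈ gt` the cold gas is bounded by `4 C (εc t / A) ^ (-73)` and supported in the ball of
radius `2` (`E0_center`, `Ecc_le`); `gn_comm`, `gn_le_carleman`, `pl_ball`. -/
theorem mainT_crude (h : P.OK) (hQ : Q.OK) : ∃ C : ℝ≥0, ∀ᶠ r in 𝓝[>] (0 : ℝ),
    ∀ ρ ∈ Icc (0 : ℝ) (1 / 4), ∀ t ∈ Ioc 0 (P.t₀ r), ∀ x v, ∀ f : Fn, Meas f →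
      P.mainT Q r ρ Q.εc f t x v ≤ C * ENNReal.ofReal (t⁻¹ ^ 73) *
        ∫⁻ s in P.gt Q ρ Q.εc t x v, ∫⁻ z in P.gd Q ρ v, f s (x - (t - s) • v) z := by
  have hC : 0 ≤ P.C := zero_le_one.trans h.one_le_C
  have hV : 0 < P.V := by linarith [h.V_ge]
  have hA : 0 < Q.A := by linarith [hQ.A_ge]
  have hκ := hQ.κ₁_pos
  have hε := hQ.εc_pos
  refine ⟨(256 * P.C * (Q.A / Q.εc) ^ 73 / Q.κ₁).toNNReal, ?_⟩
  filter_upwards [E0_center h, Ecc_le h, W2_supp h, h.ev_t₀ h.t₁_pos,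
    h.ev_t₀ (inv_pos.2 hV)] with r h1 h2 h3 h4 h5 ρ hρ t ht x v f hf
  have ht0 := ht.1
  have hcoe : (((256 * P.C * (Q.A / Q.εc) ^ 73 / Q.κ₁).toNNReal : ℝ≥0) : ℝ≥0∞) =
      ENNReal.ofReal (256 * P.C * (Q.A / Q.εc) ^ 73 / Q.κ₁) := rfl
  rw [hcoe, ← ENNReal.ofReal_mul (by positivity),
    ← lintegral_const_mul' _ _ ENNReal.ofReal_ne_top]
  refine setLIntegral_mono' (H4_mgt P Q ρ Q.εc t x v) fun s hs => ?_
  have hs0 := gt_subset hQ ht0 x v hs
  obtain ⟨a1, a2, a3, a4, a5⟩ := hs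
  set y := x - (t - s) • v with hy
  have hst : s ≤ P.V⁻¹ := hs0.2.trans (ht.2.trans h5.2)
  have hry : ry y ≤ 1 / 2 := by
    have e1 : P.V * s ≤ 1 := by
      have := mul_le_mul_of_nonneg_left hst hV.le
      rwa [mul_inv_cancel₀ hV.ne'] at this
    have e2 : 0 ≤ P.V * s := mul_nonneg hV.le hs0.1.le
    nlinarith [hρ.1, hρ.2]
  set M : ℝ := 4 * P.C * (Q.A / Q.εc) ^ 73 * t⁻¹ ^ 73 with hM
  have hM0 : 0 ≤ M := by positivity
  have hel : Q.εc * (t / Q.A) ≤ P.el s y := (mul_le_mul_of_nonneg_left a1 hε.le).trans a5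
  have hel0 : 0 < Q.εc * (t / Q.A) := by positivity
  have hb : ∀ b u, P.E0c r b s y u ≤ ENNReal.ofReal (M / 2) := by
    intro b u
    refine (le_self_add.trans (h2 b s y u hs0.1.le).2.1).trans (ENNReal.ofReal_le_ofReal ?_)
    calc 2 * P.C / P.el s y ^ 73 ≤ 2 * P.C / (Q.εc * (t / Q.A)) ^ 73 := by gcongr
      _ = M / 2 := by rw [hM]; field_simp; ring
  have hE : ∀ u, P.E0 r s y u ≤
      ENNReal.ofReal M * (Metric.closedBall (0 : R3) 2).indicator 1 u := by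
    intro u
    by_cases h0 : P.E0 r s y u = 0
    · rw [h0]; exact zero_le
    · have hu : u ∈ Metric.closedBall (0 : R3) 2 := by
        simpa using h3 _ (P.E0_le_Ecal r) s y u hs0.1.le h0
      rw [indicator_of_mem hu, Pi.one_apply, mul_one,
        h1 s ⟨hs0.1.le, hs0.2.trans (ht.2.trans h4.2)⟩ y hry u]
      refine (add_le_add (hb _ _) (hb _ _)).trans ?_
      rw [← ENNReal.ofReal_add (by positivity) (by positivity), add_halves]
  have hmE := (P.meas_E0 r).1.slice s y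
  have hmg := (hf.slice s y).indicator (H4_mgd P Q ρ v)
  have hpl : ∀ u, u ≠ v → (P.gd Q ρ v).indicator (f s y) u ≠ 0 →
      pl (P.E0 r s y) v (dir (v - u)) ≤ ENNReal.ofReal (16 * M) := by
    intro u hu _
    have hn : ‖dir (v - u)‖ = 1 := norm_dir (sub_ne_zero.2 hu.symm)
    refine (pl_mono (g' := fun u => ENNReal.ofReal M *
      (Metric.closedBall (0 : R3) 2).indicator 1 u) (fun z _ => hE _) hn).trans ?_
    rw [pl_mul _ (measurable_one.indicator Metric.isClosed_closedBall.measurableSet)]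
    refine (mul_le_mul_right (pl_ball hn v 0 (by norm_num)) _).trans ?_
    rw [← ENNReal.ofReal_mul hM0]
    exact ENNReal.ofReal_le_ofReal (by linarith)
  rw [gn_comm hmE hmg]
  refine (mul_le_mul_right (gn_le_carleman hmg hmE hpl) _).trans ?_
  have hin : ∫⁻ u, (P.gd Q ρ v).indicator (f s y) u * ‖v - u‖ₑ⁻¹ * ENNReal.ofReal (16 * M) ≤
      ENNReal.ofReal (16 * M / Q.κ₁) * ∫⁻ z in P.gd Q ρ v, f s y z := by
    rw [← lintegral_indicator (H4_mgd P Q ρ v), ← lintegral_const_mul' _ _ ENNReal.ofReal_ne_top]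
    refine lintegral_mono fun u => ?_
    by_cases hu : u ∈ P.gd Q ρ v
    · have e1 : ‖v - u‖ₑ⁻¹ ≤ ENNReal.ofReal Q.κ₁⁻¹ := by
        rw [ENNReal.ofReal_inv_of_pos hκ, ← ofReal_norm]
        refine ENNReal.inv_le_inv.2 (ENNReal.ofReal_le_ofReal ?_)
        rw [norm_sub_rev]; exact hu.2.2
      calc _ ≤ (P.gd Q ρ v).indicator (f s y) u * ENNReal.ofReal Q.κ₁⁻¹ *
            ENNReal.ofReal (16 * M) := by gcongr
        _ = _ := by
          rw [mul_assoc, ← ENNReal.ofReal_mul (by positivity), mul_comm, div_eq_inv_mul]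
    · simp [indicator_of_notMem hu]
  calc _ ≤ 2 * (2 * (ENNReal.ofReal (16 * M / Q.κ₁) * ∫⁻ z in P.gd Q ρ v, f s y z)) := by gcongr
    _ = _ := by
      rw [← mul_assoc, ← mul_assoc]
      congr 1
      rw [show (2 * 2 : ℝ≥0∞) = ENNReal.ofReal 4 by norm_num,
        ← ENNReal.ofReal_mul (by norm_num), hM]
      congr 1
      ring

/-- `mainT_crude` twice.  For fixed `s` and `s' ≤ (1 - κ₁) s`, `s' ≥ t / A²`, the function
`Φ y = ∫ 1_setC F s' y w dw` is invariant along the lines, and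
`∫_{‖z‖ ≤ V/4} Φ (x_s - (s - s') z) dz ≤ (A / (κ₁ t))³ ∫_slab Φ` (`lintegral_ball_shear`,
`lintegral_ball_le_slab`). -/
theorem mainT_double (h : P.OK) (hQ : Q.OK) : ∃ C : ℝ≥0, ∀ᶠ r in 𝓝[>] (0 : ℝ),
    ∀ t ∈ Ioc 0 (P.t₀ r), ∀ x v, ∀ f F : Fn, Meas f → Meas F → Inv1 F → f ≤ F →
      P.mainT Q r (1 / 8) Q.εc (P.mainT Q r (1 / 4) Q.εc f) t x v ≤
        C * ENNReal.ofReal (t⁻¹ ^ 148) * P.massC Q F t := by
  have hV : 0 < P.V := by linarith [h.V_ge]
  have hA1 := hQ.A_ge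
  have hA : 0 < Q.A := by linarith
  have hκ := hQ.κ₁_pos
  obtain ⟨C, hC⟩ := mainT_crude h hQ
  refine ⟨C * C * (Q.A ^ 73 * (Q.A / Q.κ₁) ^ 3).toNNReal, ?_⟩
  filter_upwards [hC, h.ev_t₀ (inv_pos.2 hV)] with r h1 h5 t ht x v f F hf hF hi hfF
  have ht0 := ht.1
  set Φ : ℝ → R3 → ℝ≥0∞ := fun s y => ∫⁻ w, (P.setC Q s).indicator (unc F s) (y, w) with hΦ
  have hΦm : Measurable fun p : ℝ × R3 => Φ p.1 p.2 := by
    have e1 : Measurable fun q : ℝ × R3 × R3 => (P.setC Q q.1).indicator (unc F q.1) q.2 :=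
      c0c_ind (measurableSet_setC P Q) hF
    have e2 : Measurable fun q : (ℝ × R3) × R3 =>
        (P.setC Q q.1.1).indicator (unc F q.1.1) (q.1.2, q.2) :=
      e1.comp (f := fun q : (ℝ × R3) × R3 => (q.1.1, q.1.2, q.2)) (by fun_prop)
    exact e2.lintegral_prod_right'
  have hΦi : ∀ s y (c : ℝ), Φ s (y + EuclideanSpace.single 0 c) = Φ s y := by
    intro s y c
    refine lintegral_congr fun w => ?_
    have e : (y + EuclideanSpace.single 0 c, w) ∈ P.setC Q s ↔ (y, w) ∈ P.setC Q s := by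
      simp only [setC, GC, mem_ofPred_eq, ry_single, el_single, ze_single]
    by_cases hw : (y, w) ∈ P.setC Q s
    · rw [indicator_of_mem hw, indicator_of_mem (e.2 hw)]
      exact hi s y w c
    · rw [indicator_of_notMem hw, indicator_of_notMem (fun h' => hw (e.1 h'))]
  have key : ∀ s ∈ P.gt Q (1 / 8) Q.εc t x v,
      ∫⁻ z in P.gd Q (1 / 8) v, P.mainT Q r (1 / 4) Q.εc f s (x - (t - s) • v) z ≤
        C * ENNReal.ofReal (Q.A ^ 73 * (Q.A / Q.κ₁) ^ 3 * t⁻¹ ^ 76) * P.massC Q F t := by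
    intro s hs
    have hs0 := gt_subset hQ ht0 x v hs
    have a1 : t / Q.A ≤ s := hs.1
    set y := x - (t - s) • v with hy
    have hsp := hs0.1
    have hsinv : s⁻¹ ≤ Q.A * t⁻¹ := by
      have := inv_anti₀ (div_pos ht0 hA) a1
      rwa [inv_div, div_eq_mul_inv] at this
    have b1 : ∀ z, P.mainT Q r (1 / 4) Q.εc f s y z ≤ C * ENNReal.ofReal ((Q.A * t⁻¹) ^ 73) *
        ∫⁻ s' in Icc (t / Q.A ^ 2) ((1 - Q.κ₁) * s), Φ s' (y - (s - s') • z) := by
      intro z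
      refine (h1 (1 / 4) ⟨by norm_num, le_rfl⟩ s ⟨hs0.1, hs0.2.trans ht.2⟩ y z f hf).trans ?_
      refine mul_le_mul' (mul_le_mul_right (ENNReal.ofReal_le_ofReal (by gcongr)) _) ?_
      refine le_trans (setLIntegral_mono' (H4_mgt P Q _ _ s y z) fun s' hs' => ?_)
        (lintegral_mono_set fun s' hs' => ⟨?_, hs'.2.1⟩)
      · rw [← lintegral_indicator (H4_mgd P Q _ z)]
        refine lintegral_mono fun w => ?_
        by_cases hw : w ∈ P.gd Q (1 / 4) z
        · have hm : (y - (s - s') • z, w) ∈ P.setC Q s' :=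
            ⟨by have := hs'.2.2.1; linarith, hs'.2.2.2.1, by have := hw.1; linarith, hw.2.1⟩
          rw [indicator_of_mem hw, indicator_of_mem hm]
          exact hfF _ _ _
        · rw [indicator_of_notMem hw]; exact zero_le
      · refine le_trans ?_ hs'.1
        rw [pow_two, ← div_div]
        gcongr
    have b2 : ∀ s' ∈ Icc (t / Q.A ^ 2) ((1 - Q.κ₁) * s),
        ∫⁻ z in Metric.closedBall (0 : R3) (P.V / 4), Φ s' (y - (s - s') • z) ≤
          ENNReal.ofReal ((Q.A / Q.κ₁ * t⁻¹) ^ 3) * ∫⁻ y' in slab, Φ s' y' := by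
      intro s' hs'
      have hm : Measurable (Φ s') := hΦm.comp measurable_prodMk_left
      have c1 : Q.κ₁ * s ≤ s - s' := by linarith [hs'.2]
      have c0 : 0 < Q.κ₁ * s := by positivity
      have c2 : 0 < s' := lt_of_lt_of_le (by positivity) hs'.1
      rw [lintegral_ball_shear hm y 0 (c0.trans_le c1)]
      refine mul_le_mul' (ENNReal.ofReal_le_ofReal ?_) ?_
      · have c3 : (s - s')⁻¹ ≤ Q.A / Q.κ₁ * t⁻¹ := by
          refine (inv_anti₀ c0 c1).trans ?_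
          rw [mul_inv]
          calc Q.κ₁⁻¹ * s⁻¹ ≤ Q.κ₁⁻¹ * (Q.A * t⁻¹) := by gcongr
            _ = _ := by ring
        have c4 : 0 ≤ (s - s')⁻¹ := inv_nonneg.2 (c0.trans_le c1).le
        gcongr
      · refine le_trans (lintegral_mono_set (Metric.closedBall_subset_closedBall ?_))
          (lintegral_ball_le_slab hm (hΦi s') _)
        have e0 : s ≤ P.V⁻¹ := hs0.2.trans (ht.2.trans h5.2)
        have e1 : P.V * s ≤ 1 := by
          have := mul_le_mul_of_nonneg_left e0 hV.le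
          rwa [mul_inv_cancel₀ hV.ne'] at this
        nlinarith [mul_pos c2 hV]
    have hm2 : Measurable fun q : R3 × ℝ => Φ q.2 (y - (s - q.2) • q.1) :=
      hΦm.comp (f := fun q : R3 × ℝ => (q.2, y - (s - q.2) • q.1)) (by fun_prop)
    calc _ ≤ ∫⁻ z in Metric.closedBall (0 : R3) (P.V / 4), C * ENNReal.ofReal ((Q.A * t⁻¹) ^ 73) *
          ∫⁻ s' in Icc (t / Q.A ^ 2) ((1 - Q.κ₁) * s), Φ s' (y - (s - s') • z) := by
          refine le_trans (lintegral_mono fun z => b1 z) (lintegral_mono_set fun z hz => ?_)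
          have := hz.1
          rw [mem_closedBall_zero_iff]; linarith
      _ = C * ENNReal.ofReal ((Q.A * t⁻¹) ^ 73) * ∫⁻ s' in Icc (t / Q.A ^ 2) ((1 - Q.κ₁) * s),
          ∫⁻ z in Metric.closedBall (0 : R3) (P.V / 4), Φ s' (y - (s - s') • z) := by
          rw [lintegral_const_mul' _ _ (ENNReal.mul_ne_top ENNReal.coe_ne_top ENNReal.ofReal_ne_top),
            lintegral_lintegral_swap hm2.aemeasurable]
      _ ≤ C * ENNReal.ofReal ((Q.A * t⁻¹) ^ 73) *
          (ENNReal.ofReal ((Q.A / Q.κ₁ * t⁻¹) ^ 3) * P.massC Q F t) := by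
          refine mul_le_mul_right ((setLIntegral_mono' measurableSet_Icc b2).trans ?_) _
          rw [lintegral_const_mul' _ _ ENNReal.ofReal_ne_top]
          refine mul_le_mul_right (lintegral_mono_set (Icc_subset_Icc_right ?_)) _
          nlinarith [hs0.2]
      _ = _ := by
          rw [← mul_assoc, mul_assoc (C : ℝ≥0∞), ← ENNReal.ofReal_mul (by positivity)]
          have e : (Q.A * t⁻¹) ^ 73 * (Q.A / Q.κ₁ * t⁻¹) ^ 3 =
              Q.A ^ 73 * (Q.A / Q.κ₁) ^ 3 * t⁻¹ ^ 76 := by ring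
          rw [e]
  refine (h1 (1 / 8) ⟨by norm_num, by norm_num⟩ t ht x v _ (P.meas_mainT Q r _ _ hf)).trans ?_
  have hint : ∫⁻ s in P.gt Q (1 / 8) Q.εc t x v, ∫⁻ z in P.gd Q (1 / 8) v,
      P.mainT Q r (1 / 4) Q.εc f s (x - (t - s) • v) z ≤
      C * ENNReal.ofReal (Q.A ^ 73 * (Q.A / Q.κ₁) ^ 3 * t⁻¹ ^ 76) * P.massC Q F t *
        ENNReal.ofReal t := by
    refine (setLIntegral_mono' (H4_mgt P Q _ _ t x v) key).trans ?_
    rw [setLIntegral_const]
    refine mul_le_mul_right ((measure_mono (gt_subset hQ ht0 x v)).trans ?_) _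
    rw [Real.volume_Ioc, sub_zero]
  refine (mul_le_mul_right hint _).trans (le_of_eq ?_)
  have hcoe : (((Q.A ^ 73 * (Q.A / Q.κ₁) ^ 3).toNNReal : ℝ≥0) : ℝ≥0∞) =
      ENNReal.ofReal (Q.A ^ 73 * (Q.A / Q.κ₁) ^ 3) := rfl
  have e : ENNReal.ofReal (t⁻¹ ^ 73) * ENNReal.ofReal (Q.A ^ 73 * (Q.A / Q.κ₁) ^ 3 * t⁻¹ ^ 76) *
      ENNReal.ofReal t = ENNReal.ofReal (Q.A ^ 73 * (Q.A / Q.κ₁) ^ 3) *
        ENNReal.ofReal (t⁻¹ ^ 148) := by
    rw [← ENNReal.ofReal_mul (by positivity), ← ENNReal.ofReal_mul (by positivity),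
      ← ENNReal.ofReal_mul (by positivity)]
    have e : t⁻¹ ^ 73 * (Q.A ^ 73 * (Q.A / Q.κ₁) ^ 3 * t⁻¹ ^ 76) * t =
        Q.A ^ 73 * (Q.A / Q.κ₁) ^ 3 * t⁻¹ ^ 148 * (t⁻¹ * t) := by ring
    rw [e, inv_mul_cancel₀ ht0.ne', mul_one]
  rw [ENNReal.coe_mul, ENNReal.coe_mul, hcoe]
  calc _ = (C : ℝ≥0∞) * C * (ENNReal.ofReal (t⁻¹ ^ 73) *
        ENNReal.ofReal (Q.A ^ 73 * (Q.A / Q.κ₁) ^ 3 * t⁻¹ ^ 76) * ENNReal.ofReal t) *
        P.massC Q F t := by ring
    _ = _ := by rw [e]; ring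

end CP

end Crest.Agent.R68
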