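/-
R68/L1: the test function along characteristics
Skeleton by helper76 (row 68); keep the statements unchanged, add any helper lemmas you like.
-/
import Crest.Agent.R68.LDefs
import Crest.Agent.R68.C1
import Crest.Agent.R68.Duh2

set_option autoImplicit false
set_option linter.unusedVariables false
set_option linter.unusedSectionVars false

noncomputable section

namespace Crest.Agent.R68

open MeasureTheory Set Filter Topology
open scoped ENNReal NNReal
open Crest.AnalysisR.VecCalc3 Crest.AnalysisR.PDE.Boltzmann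

/-! ### Functions with bounded value and derivative at a point -/

/-- `f` is differentiable at `s`, `|f s| ≤ M`, `|f' s| ≤ M'`. -/
def L1BD (f : ℝ → ℝ) (s M M' : ℝ) : Prop := ∃ d, HasDerivAt f d s ∧ |f s| ≤ M ∧ |d| ≤ M'

namespace L1BD

variable {f g : ℝ → ℝ} {s M M' N N' : ℝ}

theorem mono (h : L1BD f s M M') (h1 : |f s| ≤ N) (h2 : M' ≤ N') : L1BD f s N N' := by
  obtain ⟨d, a, -, c⟩ := h
  exact ⟨d, a, h1, c.trans h2⟩

theorem le (h : L1BD f s M M') : |f s| ≤ M := h.choose_spec.2.1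

theorem add (h : L1BD f s M M') (h' : L1BD g s N N') :
    L1BD (fun u => f u + g u) s (M + N) (M' + N') := by
  obtain ⟨d, a, b, c⟩ := h
  obtain ⟨d', a', b', c'⟩ := h'
  exact ⟨_, a.add a', (abs_add_le _ _).trans (add_le_add b b'),
    (abs_add_le _ _).trans (add_le_add c c')⟩

theorem mul (h : L1BD f s M M') (h' : L1BD g s N N') :
    L1BD (fun u => f u * g u) s (M * N) (M' * N + M * N') := by
  obtain ⟨d, a, b, c⟩ := h
  obtain ⟨d', a', b', c'⟩ := h'
  have h1 := (abs_nonneg _).trans b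
  have h2 := (abs_nonneg _).trans c
  refine ⟨_, a.mul a', ?_, (abs_add_le _ _).trans (add_le_add ?_ ?_)⟩ <;> rw [abs_mul] <;> gcongr

theorem inv (h : L1BD f s M M') {m : ℝ} (hm : 0 < m) (h1 : m ≤ |f s|) :
    L1BD (fun u => (f u)⁻¹) s m⁻¹ (M' / m ^ 2) := by
  obtain ⟨d, a, b, c⟩ := h
  have h2 := (abs_nonneg _).trans c
  refine ⟨_, a.inv (abs_pos.1 (hm.trans_le h1)), ?_, ?_⟩
  · rw [abs_inv]; gcongr
  · rw [abs_div, abs_neg, abs_pow]; gcongr

theorem abs (h : L1BD f s M M') (h0 : f s ≠ 0) : L1BD (fun u => |f u|) s M M' := by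
  obtain ⟨d, a, b, c⟩ := h
  rcases h0.lt_or_gt with h0 | h0
  · exact ⟨_, (hasDerivAt_abs_neg h0).comp s a, by simpa using b, by simpa using c⟩
  · exact ⟨_, (hasDerivAt_abs_pos h0).comp s a, by simpa using b, by simpa using c⟩

theorem hyp (h : L1BD f s M M') (h' : L1BD g s N N') (h0 : 0 < f s) :
    L1BD (fun u => √(f u ^ 2 + g u ^ 2)) s √(f s ^ 2 + g s ^ 2) (M' + N') := by
  obtain ⟨d, a, -, c⟩ := h
  obtain ⟨d', a', -, c'⟩ := h'
  have h1 : 0 < f s ^ 2 + g s ^ 2 := by positivity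
  have h2 := Real.sqrt_pos.2 h1
  refine ⟨_, ((a.fun_pow 2).fun_add (a'.fun_pow 2)).sqrt h1.ne', (abs_of_pos h2).le, ?_⟩
  have b : |f s| ≤ √(f s ^ 2 + g s ^ 2) := Real.abs_le_sqrt (by nlinarith [sq_nonneg (g s)])
  have b' : |g s| ≤ √(f s ^ 2 + g s ^ 2) := Real.abs_le_sqrt (by nlinarith [sq_nonneg (f s)])
  rw [abs_div, abs_of_pos (mul_pos two_pos h2), div_le_iff₀ (mul_pos two_pos h2)]
  refine (abs_add_le _ _).trans ?_
  have e1 := mul_le_mul b c (abs_nonneg _) h2.le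
  have e2 := mul_le_mul b' c' (abs_nonneg _) h2.le
  simp only [abs_mul, Nat.cast_ofNat, Nat.add_one_sub_one, pow_one, abs_two]
  linarith

theorem aff (A p s : ℝ) : L1BD (fun u => A + u * p) s |A + s * p| |p| :=
  ⟨p, by simpa using ((hasDerivAt_id s).mul_const p).const_add A, le_rfl, le_rfl⟩

theorem congr (h : L1BD f s M M') (e : g =ᶠ[𝓝 s] f) : L1BD g s M M' := by
  obtain ⟨d, a, b, c⟩ := h
  exact ⟨d, a.congr_of_eventuallyEq e, e.eq_of_nhds ▸ b, c⟩

end L1BD

theorem L1_clamp_in {u : ℝ → ℝ} {u' s B : ℝ} (hu : HasDerivAt u u' s) (h0 : 0 < u s) (h1 : u s < B) :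
    HasDerivAt (fun s => max 0 (min (u s) B)) u' s := by
  refine hu.congr_of_eventuallyEq ?_
  filter_upwards [hu.continuousAt.eventually (Ioo_mem_nhds h0 h1)] with z hz
  rw [min_eq_left hz.2.le, max_eq_right hz.1.le]

theorem L1_clamp_out {u : ℝ → ℝ} {s B : ℝ} (hu : ContinuousAt u s) (hB : 0 ≤ B)
    (h : u s < 0 ∨ B < u s) : HasDerivAt (fun s => max 0 (min (u s) B)) 0 s := by
  rcases h with h | h
  · refine (hasDerivAt_const s 0).congr_of_eventuallyEq ?_
    filter_upwards [hu.eventually (Iio_mem_nhds h)] with z hz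
    exact max_eq_left ((min_le_left _ _).trans (le_of_lt hz))
  · refine (hasDerivAt_const s B).congr_of_eventuallyEq ?_
    filter_upwards [hu.eventually (Ioi_mem_nhds h)] with z hz
    rw [min_eq_right (le_of_lt hz), max_eq_right hB]

theorem L1_c2 (t s : ℝ) (x v : R3) : c2 (x - (t - s) • v) = c2 x - t * c2 v + s * c2 v := by
  rw [c2_sub, c2_smul]; ring

theorem L1_c3 (t s : ℝ) (x v : R3) : c3 (x - (t - s) • v) = c3 x - t * c3 v + s * c3 v := by
  rw [c3_sub, c3_smul]; ring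

theorem L1_ry {V t t' s : ℝ} {x v : R3} (h : ry (x - (t - t') • v) ≤ V * t') (hv : ‖v‖ ≤ V)
    (hs : t' ≤ s) : ry (x - (t - s) • v) ≤ V * s := by
  have e : x - (t - s) • v = x - (t - t') • v + (s - t') • v := by
    simp only [sub_smul]; abel
  have h1 := ry_add_le (x - (t - t') • v) ((s - t') • v)
  have h2 := mul_le_mul_of_nonneg_left ((ry_le_norm v).trans hv) (sub_nonneg.2 hs)
  rw [ry_smul, abs_of_nonneg (sub_nonneg.2 hs), ← e] at h1
  linarith

namespace CP

variable {P : CP}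

theorem L1_ev (h : P.OK) : ∀ᶠ r in 𝓝[>] (0 : ℝ), ∀ t ≤ P.t₀ r, 2 * P.V * t ≤ kap * P.T := by
  have h1 := h.V_ge
  have h2 := h.T_pos
  have h3 := kap_pos
  filter_upwards [h.ev_t₀ (c := kap * P.T / (2 * P.V)) (by positivity)] with r hr t ht
  have := ht.trans hr.2
  rwa [le_div_iff₀ (by positivity), mul_comm] at this

theorem L1_le_T (h : P.OK) {t : ℝ} (ht : 0 < t) (hs : 2 * P.V * t ≤ kap * P.T) : t ≤ P.T := by
  have h1 := h.V_ge
  have h2 := h.T_pos
  have h3 := kap_le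
  nlinarith

theorem L1_J (h : P.OK) {t : ℝ} (ht : 0 < t) (hs : 2 * P.V * t ≤ kap * P.T) {x v : R3}
    (hx : ry x ≤ P.V * t) (hv : kap ≤ |c2 v|) : kap * (t + P.T) / 2 ≤ |P.Jv t x v| := by
  have h1 := h.T_pos
  have h2 := abs_sub_abs_le_abs_sub (c2 v * (t + P.T)) (c2 x)
  have h3 := abs_c2_le_ry x
  have h4 := mul_le_mul_of_nonneg_right hv (show 0 ≤ t + P.T by positivity)
  have h5 := mul_pos kap_pos ht
  rw [abs_mul, abs_of_pos (show 0 < t + P.T by positivity)] at h2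
  unfold Jv
  linarith

theorem L1_Bf_eq (h : P.OK) {t : ℝ} (ht : 0 < t) (x v : R3) :
    P.Bf t x v = P.α * P.C * ((t + P.T) * (P.Jv t x v)⁻¹ * (tau (P.ze t x) *
      (P.lt t x * (√((t / P.L + P.el t x) ^ 2 + c3 x ^ 2))⁻¹))) := by
  have h1 := h.T_pos
  have h2 : t + P.T ≠ 0 := by positivity
  simp only [Bf, rho0, div_eq_mul_inv, mul_inv]
  generalize (P.Jv t x v)⁻¹ = a
  generalize (√((t * P.L⁻¹ + P.el t x) ^ 2 + c3 x ^ 2))⁻¹ = b
  field_simp

theorem L1_JT (h : P.OK) {t : ℝ} (ht : 0 < t) {J : ℝ} (hJ : kap * (t + P.T) / 2 ≤ |J|) :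
    |(t + P.T) * J⁻¹| ≤ 2 / kap ∧ |J⁻¹| ≤ 2 / kap / t := by
  have h1 := h.T_pos
  have h2 := kap_pos
  have h3 : 0 < |J| := lt_of_lt_of_le (by positivity) hJ
  rw [abs_mul, abs_inv, abs_of_pos (show 0 < t + P.T by positivity), ← div_eq_mul_inv,
    div_le_div_iff₀ h3 h2, div_div, inv_eq_one_div, div_le_div_iff₀ h3 (by positivity)]
  constructor <;> nlinarith [mul_pos h1 h2]

theorem L1_Delta (h : P.OK) {t : ℝ} (ht : 0 < t) (x : R3) :
    t / P.L + P.el t x ≤ √((t / P.L + P.el t x) ^ 2 + c3 x ^ 2) :=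
  (le_abs_self _).trans (Real.abs_le_sqrt (by nlinarith [sq_nonneg (c3 x)]))

theorem L1_Bf (h : P.OK) {t : ℝ} (ht : 0 < t) (hs : 2 * P.V * t ≤ kap * P.T) {x v : R3}
    (hx : ry x ≤ P.V * t) (hv : kap ≤ |c2 v|) :
    |P.Bf t x v| ≤ P.α * (4 * P.C / kap) * P.el t x / √((t / P.L + P.el t x) ^ 2 + c3 x ^ 2) ∧
      |P.Bf t x v| ≤ P.α * (4 * P.C / kap) := by
  have h1 := h.α_pos
  have h2 := h.one_le_C
  have h3 := h.one_le_L
  have h4 := kap_pos
  have h5 := P.el_nonneg t x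
  have h6 := L1_Delta h ht x
  have h7 : 0 < t / P.L := by positivity
  have h8 := (L1_JT h ht (L1_J h ht hs hx hv)).1
  have key : |P.Bf t x v| ≤
      P.α * (4 * P.C / kap) * P.el t x / √((t / P.L + P.el t x) ^ 2 + c3 x ^ 2) := by
    rw [L1_Bf_eq h ht, abs_mul, abs_mul, abs_mul _ (_ * _), abs_mul (tau _), abs_mul (P.lt t x),
      abs_of_pos h1, abs_of_pos (one_pos.trans_le h2), abs_inv, abs_of_nonneg (Real.sqrt_nonneg _),
      abs_of_nonneg (tau_nonneg _)]
    have := tau_le_one (P.ze t x)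
    have := tau_nonneg (P.ze t x)
    calc _ ≤ P.α * P.C * (4 / kap * (1 *
          (P.el t x * (√((t / P.L + P.el t x) ^ 2 + c3 x ^ 2))⁻¹))) := by
          unfold el
          gcongr
          exact h8.trans (by gcongr; norm_num)
      _ = _ := by ring
  refine ⟨key, key.trans ?_⟩
  rw [div_le_iff₀ (by linarith)]
  gcongr
  linarith

theorem Jv_ge (h : P.OK) : ∀ᶠ r in 𝓝[>] (0 : ℝ), ∀ t ∈ Ioc 0 (P.t₀ r), ∀ x v, ry x ≤ P.V * t →
    kap ≤ |c2 v| → kap * (t + P.T) / 2 ≤ |P.Jv t x v| := by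
  filter_upwards [L1_ev h] with r hr t ht x v hx hv using L1_J h ht.1 (hr t ht.2) hx hv

/-- `rho0_mul_el`. -/
theorem abs_Bf_le (h : P.OK) : ∀ᶠ r in 𝓝[>] (0 : ℝ), ∀ t ∈ Ioc 0 (P.t₀ r), ∀ x v, ry x ≤ P.V * t →
    kap ≤ |c2 v| → |P.Bf t x v| ≤ P.α * (4 * P.C / kap) * P.el t x / √((t / P.L + P.el t x) ^ 2 + c3 x ^ 2) ∧
      |P.Bf t x v| ≤ P.α * (4 * P.C / kap) := by
  filter_upwards [L1_ev h] with r hr t ht x v hx hv using L1_Bf h ht.1 (hr t ht.2) hx hv

/-- `abs_Bf_le`, `abs_Qt_le`, `620 bet / kap = 1 / 20`. -/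
theorem rng : SmallA fun P r => P.Rng r := by
  intro V
  have h0 := kap_pos
  refine ⟨kap / (1120 * (|Cv V| + 1)), by positivity, fun P h hV hα => ?_⟩
  filter_upwards [abs_Bf_le h] with r hr t ht x v hx hv
  have h1 := (hr t ht x v hx hv).2
  have h2 : P.α * (4 * P.C / kap) * 7 ≤ 1 / 40 := by
    have a1 : P.C ≤ |Cv V| + 1 := by rw [C, hV]; linarith [le_abs_self (Cv V)]
    have a2 := h.one_le_C
    calc _ ≤ kap / (1120 * (|Cv V| + 1)) * (4 * (|Cv V| + 1) / kap) * 7 := by gcongr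
      _ = _ := by field_simp; norm_num
  have h3 := abs_le.1 ((abs_mul _ _).trans_le ((mul_le_mul h1
    (abs_Qt_le (opp v) (Real.log (P.el t x) / P.α)) (abs_nonneg _)
    ((abs_nonneg _).trans h1)).trans h2))
  have h4 : 0 ≤ 310 / kap * max 0 (min (bet - sg2 v * c2 x / t) (2 * bet)) := by positivity
  have h5 : 310 / kap * max 0 (min (bet - sg2 v * c2 x / t) (2 * bet)) ≤ 310 / kap * (2 * bet) := by
    have := bet_pos
    gcongr
    exact max_le (by positivity) (min_le_right _ _)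
  have h6 : 310 / kap * (2 * bet) = 1 / 20 := by unfold bet; field_simp; norm_num
  unfold pp
  constructor <;> linarith [h3.1, h3.2]

theorem Rng.phi_le (h : P.OK) {r t : ℝ} (hr : P.Rng r) (ht : t ∈ Ioc 0 (P.t₀ r)) (x v : R3) :
    P.phi t x v ≤ 1 ∧ (P.phi t x v ≠ 0 → P.phi t x v ≤ 1 - ‖v‖ ^ 2 / P.V ^ 2) := by
  unfold phi
  split_ifs with hc
  · have h1 := h.V_ge
    have h2 : Real.exp (-P.pp t x v) ≤ 1 :=
      Real.exp_le_one_iff.2 (neg_nonpos.2 (hr t ht x v hc.2.2 hc.1).1)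
    have h3 : ‖v‖ ^ 2 / P.V ^ 2 ≤ 1 := by
      rw [div_le_one (by positivity)]
      exact pow_le_pow_left₀ (norm_nonneg _) hc.2.1 2
    have h4 := mul_le_of_le_one_right (sub_nonneg.2 h3) h2
    exact ⟨h4.trans (sub_le_self _ (by positivity)), fun _ => h4⟩
  · simp

theorem Rng.phi_ge (h : P.OK) {r t : ℝ} (hr : P.Rng r) (ht : t ∈ Ioc 0 (P.t₀ r)) {x : R3}
    (hx : ry x ≤ P.V * t) (v : R3) :
    Real.exp (-(1 / 10)) * (1 - ‖v‖ ^ 2 / P.V ^ 2 - if |c2 v| ≤ kap then 1 else 0) ≤ P.phi t x v := by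
  have h1 := h.V_ge
  have h2 : 0 ≤ ‖v‖ ^ 2 / P.V ^ 2 := by positivity
  have h3 : (0 : ℝ) ≤ if |c2 v| ≤ kap then 1 else 0 := by split_ifs <;> norm_num
  by_cases hc : kap ≤ |c2 v| ∧ ‖v‖ ≤ P.V
  · have h4 : ‖v‖ ^ 2 / P.V ^ 2 ≤ 1 := by
      rw [div_le_one (by positivity)]
      exact pow_le_pow_left₀ (norm_nonneg _) hc.2 2
    rw [phi, if_pos (And.intro hc.1 (And.intro hc.2 hx)), mul_comm (1 - _)]
    exact (mul_le_mul_of_nonneg_left (sub_le_self _ h3) (Real.exp_pos _).le).trans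
      (mul_le_mul_of_nonneg_right (Real.exp_le_exp.2 (neg_le_neg (hr t ht x v hx hc.1).2))
        (sub_nonneg.2 h4))
  · refine le_trans (mul_nonpos_of_nonneg_of_nonpos (Real.exp_pos _).le ?_) (h.phi_nonneg t x v)
    rcases not_and_or.1 hc with hc | hc
    · rw [if_pos (not_le.1 hc).le]
      linarith
    · have : 1 ≤ ‖v‖ ^ 2 / P.V ^ 2 := by
        rw [one_le_div (by positivity)]
        exact pow_le_pow_left₀ (by positivity) (not_le.1 hc).le 2
      linarith

theorem L1_lt (h : P.OK) {s : ℝ} (hs : 0 < s) (t : ℝ) (x v : R3) :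
    HasDerivAt (fun s => P.lt s (x - (t - s) • v))
      (P.T * P.Jv s (x - (t - s) • v) v / (s + P.T) ^ 2) s := by
  have h1 := h.T_pos
  have h2 : s + P.T ≠ 0 := by positivity
  simp only [lt, Jv, L1_c2]
  refine (((((hasDerivAt_id' s).mul_const (c2 v)).const_add (c2 x - t * c2 v)).mul_const
    P.T).fun_div ((hasDerivAt_id' s).add_const P.T) h2).congr_deriv ?_
  ring

/-- Along the path `J` is constant (`Jv_pa`) and
`Bf = α C (s + T) / J * tau ze * lt / Δ`, `Δ = √((s / L + el)² + c3²) ≥ s / L`.  Where `lt ≠ 0` all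
factors are differentiable: `lt' = T J / (s + T)²` (`lt_eq`), `|lt'| ≤ 2 V`, `|Δ'| ≤ 1 + 3 V`,
`|(tau ze)'| ≤ K (V + 1 + 2 L V) / s` (`deriv_tau_bdd`). -/
theorem hasDerivAt_Bf (V : ℝ) : ∃ c : ℝ, 0 ≤ c ∧ ∀ P : CP, P.OK → P.V = V → ∀ᶠ r in 𝓝[>] (0 : ℝ),
    ∀ (t : ℝ) (x v : R3), ∀ s ∈ Ioc 0 (P.t₀ r), ry (x - (t - s) • v) ≤ P.V * s → kap ≤ |c2 v| →
      ‖v‖ ≤ P.V → P.lt s (x - (t - s) • v) ≠ 0 → ∃ d,
        HasDerivAt (fun s => P.Bf s (x - (t - s) • v) v) d s ∧ |d| ≤ P.α * c / s := by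
  obtain ⟨K, hK0, hK, -, -⟩ := deriv_tau_bdd
  refine ⟨|Cv V * (2 / kap * (1 + (K * (V * (2 + 2 * V * Lv V)) + (1 + 5 * V) * Lv V)))|, abs_nonneg _,
    fun P h hV => ?_⟩
  subst hV
  filter_upwards [L1_ev h] with r hr t x v s hs hx hv hv' h0
  have hs0 := hs.1
  have a1 := h.V_ge
  have a2 := h.T_pos
  have a3 := h.one_le_L
  have a4 := P.el_nonneg s (x - (t - s) • v)
  have a5 := L1_Delta h hs0 (x - (t - s) • v)
  have a6 : 0 < s / P.L := by positivity
  have a7 := h.α_pos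
  have a8 := h.one_le_C
  have hJ := L1_JT h hs0 (L1_J h hs0 (hr s hs.2) hx hv)
  have b1 : L1BD (fun s => P.lt s (x - (t - s) • v)) s (P.el s (x - (t - s) • v)) (2 * P.V) := by
    refine ⟨_, L1_lt h hs0 t x v, le_rfl, ?_⟩
    have c1 := abs_sub (c2 v * (s + P.T)) (c2 (x - (t - s) • v))
    have c2' := (abs_c2_le_ry _).trans hx
    have c3' := mul_le_mul_of_nonneg_right ((abs_c2_le_norm v).trans hv')
      (show 0 ≤ s + P.T by positivity)
    rw [abs_mul, abs_of_pos (show 0 < s + P.T by positivity)] at c1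
    have c4 : |P.Jv s (x - (t - s) • v) v| ≤ 2 * P.V * (s + P.T) := by unfold Jv; nlinarith
    rw [abs_div, abs_mul, abs_of_pos a2, abs_of_pos (show 0 < (s + P.T) ^ 2 by positivity),
      div_le_iff₀ (by positivity)]
    calc _ ≤ (s + P.T) * (2 * P.V * (s + P.T)) := by gcongr; linarith
      _ = _ := by ring
  have b2 : L1BD (fun s => P.el s (x - (t - s) • v)) s _ _ := b1.abs h0
  have b3 : L1BD (fun s => c3 (x - (t - s) • v)) s (P.V * s) P.V := by
    have := (L1BD.aff (c3 x - t * c3 v) (c3 v) s).congr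
      (Eventually.of_forall fun u => L1_c3 t u x v)
    exact this.mono ((abs_c3_le_ry _).trans hx) ((abs_c3_le_norm v).trans hv')
  have b4 := (((L1BD.aff 0 P.L⁻¹ s).congr (g := fun u => u / P.L)
    (Eventually.of_forall fun u => by simp [div_eq_mul_inv])).add b2).hyp b3 (by positivity)
  set Δ := √((s / P.L + P.el s (x - (t - s) • v)) ^ 2 + c3 (x - (t - s) • v) ^ 2) with hΔ
  have a9 : 0 < Δ := by linarith
  have b5 := ((b1.mono (N := Δ) (b1.le.trans (by linarith)) le_rfl).mul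
    (b4.inv a9 (le_abs_self _)))
  replace b5 := b5.mono (N := 1) (N' := (1 + 5 * P.V) * P.L / s)
    (b5.le.trans (mul_inv_cancel₀ a9.ne').le) (by
      have c1 : |P.L⁻¹| ≤ 1 := by
        rw [abs_of_pos (by positivity)]
        exact inv_le_one_of_one_le₀ a3
      have c2' : Δ⁻¹ ≤ P.L / s := by
        rw [← inv_div]
        gcongr
        linarith
      calc _ = (|P.L⁻¹| + 5 * P.V) * Δ⁻¹ := by field_simp; ring
        _ ≤ (1 + 5 * P.V) * (P.L / s) := by gcongr
        _ = _ := by ring)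
  have b6 := b3.mul ((((L1BD.aff 0 1 s).congr (g := fun u => u)
    (Eventually.of_forall fun u => by simp)).add (((L1BD.aff P.L 0 s).congr (g := fun _ => P.L)
    (Eventually.of_forall fun u => by simp)).mul b2)).inv hs0 (by
      refine le_trans ?_ (le_abs_self _)
      have := mul_nonneg (zero_le_one.trans a3) a4
      linarith))
  have b7 : L1BD (fun s => tau (P.ze s (x - (t - s) • v))) s 1
      (K * (P.V * (2 + 2 * P.V * P.L)) / s) := by
    obtain ⟨d, c1, -, c2'⟩ := b6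
    refine ⟨_, ((contDiff_tau.differentiable one_ne_zero _).hasDerivAt.comp s c1).congr_of_eventuallyEq
      (Eventually.of_forall fun u => by simp [ze, div_eq_mul_inv]), ?_, ?_⟩
    · rw [abs_of_nonneg (tau_nonneg _)]
      exact tau_le_one _
    · rw [abs_mul, mul_div_assoc]
      refine mul_le_mul (hK _) (c2'.trans (le_of_eq ?_)) (abs_nonneg _) hK0
      simp only [mul_zero, add_zero, abs_zero, zero_mul, zero_add, abs_one,
        abs_of_pos (one_pos.trans_le a3)]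
      field_simp
      ring
  have b8 : L1BD (fun u => (u + P.T) * (P.Jv s (x - (t - s) • v) v)⁻¹) s (2 / kap) (2 / kap / s) :=
    ⟨_, by simpa using ((hasDerivAt_id' s).add_const P.T).mul_const _, hJ.1, hJ.2⟩
  obtain ⟨d, c1, -, c2'⟩ := b8.mul (b7.mul b5)
  refine ⟨_, (c1.const_mul (P.α * P.C)).congr_of_eventuallyEq ?_, ?_⟩
  · filter_upwards [Ioi_mem_nhds hs0] with u hu
    rw [L1_Bf_eq h hu, Jv_pa, Jv_pa]
  · rw [abs_mul, abs_of_pos (by positivity)]
    refine (mul_le_mul_of_nonneg_left c2' (by positivity)).trans (le_trans (le_of_eq ?_)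
      (div_le_div_of_nonneg_right (mul_le_mul_of_nonneg_left (le_abs_self _) a7.le) hs0.le))
    simp only [C, L]
    ring

/-- The derivative of the oscillating term. -/
theorem L1_BQ (h : P.OK) {s : ℝ} (hs : 0 < s) {t d : ℝ} {x v : R3}
    (hJ : P.Jv s (x - (t - s) • v) v ≠ 0) (h0 : P.lt s (x - (t - s) • v) ≠ 0)
    (hd : HasDerivAt (fun s => P.Bf s (x - (t - s) • v) v) d s) :
    HasDerivAt (fun s => P.Bf s (x - (t - s) • v) v *
        Qt (opp v) (Real.log (P.el s (x - (t - s) • v)) / P.α))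
      (d * Qt (opp v) (Real.log (P.el s (x - (t - s) • v)) / P.α) +
        P.rho0 s (x - (t - s) • v) * tau (P.ze s (x - (t - s) • v)) *
          (qf (opp v) (Real.log (P.el s (x - (t - s) • v)) / P.α) + cL * fbar / 64)) s := by
  have h1 := h.T_pos
  have h2 := h.α_pos
  have h3 : s + P.T ≠ 0 := by positivity
  simp only [el, Real.log_abs]
  refine (hd.fun_mul ((hasDerivAt_Qt (opp v) _).comp s
    (((L1_lt h hs t x v).log h0).div_const P.α))).congr_deriv ?_
  simp only [Function.comp_apply, Bf]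
  field_simp

theorem L1_rt (P : CP) (s : ℝ) (y v : R3) : P.rtG s y v - P.rtB s y v =
    -(P.rho0 s y * tau (P.ze s y) * qf (opp v) (Real.log (P.el s y) / P.α)) := by
  simp only [rtG, rtB, chi, osc_not, qf]
  simp only [osc]
  ring

theorem L1_sg (v : R3) : sg2 v * c2 v = |c2 v| ∧ ∀ a : ℝ, |sg2 v * a| = |a| := by
  unfold sg2
  split_ifs with h
  · simp [abs_of_nonneg h]
  · simp [abs_of_neg (not_le.1 h)]

theorem L1_u {s : ℝ} (hs : 0 < s) (t : ℝ) (x v : R3) :
    HasDerivAt (fun s => bet - sg2 v * c2 (x - (t - s) • v) / s)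
      (-((|c2 v| - sg2 v * c2 (x - (t - s) • v) / s) / s)) s := by
  rw [← (L1_sg v).1]
  simp only [L1_c2]
  refine ((((((hasDerivAt_id' s).mul_const (c2 v)).const_add (c2 x - t * c2 v)).const_mul
    (sg2 v)).fun_div (hasDerivAt_id' s) hs.ne').const_sub bet).congr_deriv ?_
  field_simp

/-- Far from the plane `c2 = 0` the mean collision rate is large. -/
theorem L1_far (h : P.OK) {s : ℝ} (hs : 0 < s) (hT : s ≤ P.T) {y : R3} (hy : ry y ≤ P.V * s)
    (hb : bet * s ≤ |c2 y|) : 155 / s ≤ P.rho0 s y * tau (P.ze s y) * (cL * fbar / 64) := by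
  have a1 := h.V_ge
  have a2 := h.T_pos
  have a3 := bet_pos
  have a4 := cL_pos
  have a5 := fbar_pos
  have b1 : bet * s / 2 ≤ P.el s y := by
    rw [h.el_eq hs.le, div_le_div_iff₀ two_pos (by positivity)]
    nlinarith [mul_pos a3 hs]
  have b2 : 2 * (P.V * s) ≤ P.L * P.el s y := by
    calc _ = P.L * (bet * s / 2) := by simp only [L, Lv]; field_simp; norm_num
      _ ≤ _ := mul_le_mul_of_nonneg_left b1 (zero_le_one.trans h.one_le_L)
  have b3 : 0 < P.V * s := by positivity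
  rw [tau_eq_one, mul_one]
  · refine le_trans (le_of_eq ?_) (mul_le_mul_of_nonneg_right (h.rho0_ge hs hT hy) (by positivity))
    simp only [C, Cv]
    field_simp
  · rw [ze, abs_div, abs_of_pos (show 0 < s + P.L * P.el s y by linarith),
      div_le_iff₀ (by linarith)]
    linarith [abs_c3_le_ry y]

/-- The last term of `pp`. -/
theorem L1_third (h : P.OK) {s : ℝ} (hs : 0 < s) (hT : s ≤ P.T) {t : ℝ} {x v : R3}
    (hy : ry (x - (t - s) • v) ≤ P.V * s) (hv : kap ≤ |c2 v|) (hv' : ‖v‖ ≤ P.V)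
    (hne : |c2 (x - (t - s) • v)| ≠ bet * s) : ∃ d, HasDerivAt (fun s =>
      310 / kap * max 0 (min (bet - sg2 v * c2 (x - (t - s) • v) / s) (2 * bet))) d s ∧
      |d| ≤ 310 / kap * (P.V + bet) / s ∧ d + 155 / s ≤
        P.rho0 s (x - (t - s) • v) * tau (P.ze s (x - (t - s) • v)) * (cL * fbar / 64) := by
  have a1 := h.V_ge
  have a2 := kap_pos
  have a3 := bet_pos
  have a4 := cL_pos
  have a5 := fbar_pos
  have hu := L1_u hs t x v
  have e : |sg2 v * c2 (x - (t - s) • v) / s| = |c2 (x - (t - s) • v)| / s := by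
    rw [abs_div, (L1_sg v).2, abs_of_pos hs]
  rcases hne.lt_or_gt with hlt | hgt
  · have b1 := abs_lt.1 (e.trans_lt ((div_lt_iff₀ hs).2 hlt))
    have b2 := (abs_c2_le_norm v).trans hv'
    have b3 : bet ≤ kap / 2 := by unfold bet; linarith
    refine ⟨_, (L1_clamp_in hu (by linarith [b1.2]) (by linarith [b1.1])).const_mul _, ?_, ?_⟩
    · rw [abs_mul, abs_neg, abs_div _ s, abs_of_pos hs, abs_of_pos (show 0 < 310 / kap by positivity),
        mul_div_assoc (310 / kap)]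
      gcongr
      exact abs_le.2 ⟨by linarith [b1.2], by linarith [b1.1]⟩
    · have b4 : 310 / kap * (kap / 2 / s) ≤
          310 / kap * ((|c2 v| - sg2 v * c2 (x - (t - s) • v) / s) / s) := by
        gcongr
        linarith [b1.2]
      have b5 : 310 / kap * (kap / 2 / s) = 155 / s := by field_simp; norm_num
      have b6 := mul_nonneg (mul_nonneg (h.rho0_nonneg hs.le (x - (t - s) • v))
        (tau_nonneg (P.ze s (x - (t - s) • v)))) (show 0 ≤ cL * fbar / 64 by positivity)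
      linarith
  · have b1 := lt_abs.1 (((lt_div_iff₀ hs).2 hgt).trans_eq e.symm)
    refine ⟨_, (L1_clamp_out hu.continuousAt (by positivity)
      (b1.imp (fun _ => by linarith) fun _ => by linarith)).const_mul _, ?_, ?_⟩
    · rw [mul_zero, abs_zero]
      positivity
    · rw [mul_zero, zero_add]
      exact L1_far h hs hT hy hgt.le

theorem L1_notMem {A k s : ℝ} (hk : k ≠ 0) (h : s ≠ -A / k) : A + s * k ≠ 0 := fun e =>
  h (by rw [eq_div_iff hk]; linarith)

/-- Continuity at a time where `lt = 0`: `|Bf Qt| ≤ c el → 0`.  The exceptional times are those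
with `lt = 0` (`lt` is strictly monotone, `lt_sub`) and those with `sg2 v * c2 x_s = ± bet s`
(affine equations with leading coefficient `|c2 v| ∓ bet ≠ 0`).  Elsewhere
`(Bf Qt)' = rho0 tau (qf + c₂) + Bf' Qt` with `c₂ = cL fbar / 64` (`hasDerivAt_Qt`), and
`rtG - rtB = - rho0 tau qf`.  If `|c2 x_s| < bet s` the last term of `pp` has derivative
`-(310 / kap) (|c2 v| - sg2 v c2 x_s / s) / s ≤ -155 / s`; if `|c2 x_s| > bet s` it is locally
constant, `tau ze = 1` (`L el ≥ 2 V s`) and `rho0 c₂ ≥ 155 / s` (`rho0_ge`). -/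
theorem pp_path : SmallA fun P r => ∃ c : ℝ, ∀ (t' t : ℝ) (x v : R3), 0 < t' → t' ≤ t → t ≤ P.t₀ r →
    ry (x - (t - t') • v) ≤ P.V * t' → kap ≤ |c2 v| → ‖v‖ ≤ P.V →
    ContinuousOn (fun s => P.pp s (x - (t - s) • v) v) (Icc t' t) ∧ ∃ S : Set ℝ, S.Finite ∧
      ∀ s ∈ Ioo t' t, s ∉ S → ∃ d, HasDerivAt (fun s => P.pp s (x - (t - s) • v) v) d s ∧
        |d| ≤ c / s ∧
        d + 154 / s ≤ P.rtG s (x - (t - s) • v) v - P.rtB s (x - (t - s) • v) v := by
  intro V
  obtain ⟨c, hc0, hc⟩ := hasDerivAt_Bf V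
  refine ⟨1 / (7 * c + 1), by positivity, fun P h hV hα => ?_⟩
  filter_upwards [L1_ev h, hc P h hV] with r hr hB
  refine ⟨1 + P.C * P.L + 310 / kap * (P.V + bet), fun t' t x v h0 h1 h2 hx hv hv' => ?_⟩
  have a1 := h.T_pos
  have a2 := kap_pos
  have a3 := h.α_pos
  have a4 := h.one_le_C
  have a5 := h.one_le_L
  have hs : ∀ s ∈ Icc t' t, 0 < s ∧ 2 * P.V * s ≤ kap * P.T ∧ ry (x - (t - s) • v) ≤ P.V * s :=
    fun s hs => ⟨h0.trans_le hs.1, hr s (hs.2.trans h2), L1_ry hx hv' hs.1⟩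
  have hG : ∀ s ∈ Icc t' t, P.lt s (x - (t - s) • v) ≠ 0 → ∃ d, |d| ≤ 1 / s ∧ HasDerivAt
      (fun s => P.Bf s (x - (t - s) • v) v * Qt (opp v) (Real.log (P.el s (x - (t - s) • v)) / P.α))
      (d + P.rho0 s (x - (t - s) • v) * tau (P.ze s (x - (t - s) • v)) *
        (qf (opp v) (Real.log (P.el s (x - (t - s) • v)) / P.α) + cL * fbar / 64)) s := by
    intro s hs' hl
    obtain ⟨b1, b2, b3⟩ := hs s hs'
    obtain ⟨d, c1, c2'⟩ := hB t x v s ⟨b1, hs'.2.trans h2⟩ b3 hv hv' hl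
    refine ⟨_, ?_, L1_BQ h b1 (abs_pos.1 (lt_of_lt_of_le (by positivity) (L1_J h b1 b2 b3 hv))) hl c1⟩
    rw [abs_mul]
    refine (mul_le_mul c2' (abs_Qt_le _ _) (abs_nonneg _) (by positivity)).trans ?_
    rw [div_mul_eq_mul_div]
    rw [le_div_iff₀ (by positivity)] at hα
    gcongr
    nlinarith
  refine ⟨fun s hs' => ?_, {-(c2 x - t * c2 v) / c2 v, -(c2 x - t * c2 v) / (c2 v - bet),
    -(c2 x - t * c2 v) / (c2 v + bet)}, toFinite _, fun s hs' hS => ?_⟩
  · obtain ⟨b1, b2, b3⟩ := hs s hs'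
    refine (continuousWithinAt_const.sub ?_).add (continuousWithinAt_const.mul
      (tendsto_const_nhds.max (((L1_u b1 t x v).continuousAt.min
        tendsto_const_nhds).mono_left nhdsWithin_le_nhds)))
    by_cases hl : P.lt s (x - (t - s) • v) = 0
    · have c1 : Tendsto (fun s => P.α * (4 * P.C / kap) * P.el s (x - (t - s) • v) / (t' / P.L) * 7)
          (𝓝[Icc t' t] s) (𝓝 0) := by
        have := ((((L1_lt h b1 t x v).continuousAt.abs.const_mul
          (P.α * (4 * P.C / kap))).div_const (t' / P.L)).mul_const 7).tendsto.mono_left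
          (nhdsWithin_le_nhds (s := Icc t' t))
        simpa [hl, el] using this
      have c2' : P.Bf s (x - (t - s) • v) v = 0 := by simp [Bf, hl]
      rw [ContinuousWithinAt, c2', zero_mul]
      refine squeeze_zero_norm' (eventually_nhdsWithin_of_forall fun u hu => ?_) c1
      obtain ⟨d1, d2, d3⟩ := hs u hu
      have d4 := P.el_nonneg u (x - (t - u) • v)
      rw [Real.norm_eq_abs, abs_mul]
      refine mul_le_mul ((L1_Bf h d1 d2 d3 hv).1.trans ?_) (abs_Qt_le _ _) (abs_nonneg _)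
        (by positivity)
      have d5 : t' / P.L ≤ u / P.L := by gcongr; exact hu.1
      gcongr
      linarith [L1_Delta h d1 (x - (t - u) • v)]
    · exact (hG s hs' hl).choose_spec.2.continuousAt.continuousWithinAt
  · have hs'' := Ioo_subset_Icc_self hs'
    obtain ⟨b1, b2, b3⟩ := hs s hs''
    simp only [mem_insert_iff, mem_singleton_iff, not_or] at hS
    have b4 : bet < |c2 v| := by unfold bet; linarith
    have b5 := bet_pos
    have n1 := L1_notMem (abs_pos.1 (a2.trans_le hv)) hS.1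
    have n2 := L1_notMem (fun e => b4.ne' (by rw [sub_eq_zero.1 e, abs_of_pos b5])) hS.2.1
    have n3 := L1_notMem
      (fun e => b4.ne' (by rw [eq_neg_of_add_eq_zero_left e, abs_neg, abs_of_pos b5])) hS.2.2
    obtain ⟨d, c1, c2'⟩ := hG s hs'' (by
      rw [lt, L1_c2]
      positivity)
    obtain ⟨d', c3', c4, c5⟩ := L1_third h b1 (L1_le_T h b1 b2) b3 hv hv' (by
      rw [L1_c2]
      intro e
      rcases (abs_eq (by positivity)).1 e with e | e
      · exact n2 (by linarith)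
      · exact n3 (by linarith))
    refine ⟨_, (c2'.const_sub (1 / 40)).add c3', ?_, ?_⟩
    · have c6 : |P.rho0 s (x - (t - s) • v) * tau (P.ze s (x - (t - s) • v)) *
          (qf (opp v) (Real.log (P.el s (x - (t - s) • v)) / P.α) + cL * fbar / 64)| ≤
          P.C * P.L / s * 1 * 1 := by
        rw [abs_mul, abs_mul, abs_of_nonneg (h.rho0_nonneg b1.le _), abs_of_nonneg (tau_nonneg _)]
        exact mul_le_mul (mul_le_mul (h.rho0_le b1 _) (tau_le_one _) (tau_nonneg _) (by positivity))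
          (c0c_qf_bd _ _) (abs_nonneg _) (by positivity)
      refine (abs_add_le _ _).trans ?_
      rw [abs_neg, add_div, add_div]
      linarith [abs_add_le d (P.rho0 s (x - (t - s) • v) * tau (P.ze s (x - (t - s) • v)) *
        (qf (opp v) (Real.log (P.el s (x - (t - s) • v)) / P.α) + cL * fbar / 64))]
    · have c6 : (155 : ℝ) / s = 154 / s + 1 / s := by ring
      rw [L1_rt]
      linarith [(abs_le.1 c1).1]

/-- `ftc_off_countable` with `e' = deriv e` (`measurable_deriv`, bounded off the finite set). -/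
theorem phi_path : SmallA fun P r => ∀ (t' t : ℝ) (x v : R3), 0 < t' → t' ≤ t → t ≤ P.t₀ r →
    ry (x - (t - t') • v) ≤ P.V * t' → kap ≤ |c2 v| → ‖v‖ ≤ P.V → ∃ e' : ℝ → ℝ,
      IntegrableOn e' (Ioc t' t) ∧
      (∀ s ∈ Icc t' t, P.phi s (x - (t - s) • v) v / s ^ 152 =
        P.phi t' (x - (t - t') • v) v / t' ^ 152 + ∫ s' in Ioc t' s, e' s') ∧
      ∀ᵐ s, s ∈ Ioc t' t → P.phi s (x - (t - s) • v) v / s ^ 152 *
        (P.rtB s (x - (t - s) • v) v + 2 / s - P.rtG s (x - (t - s) • v) v) ≤ e' s := by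
  refine pp_path.mono fun P h => Eventually.of_forall fun r ⟨c, hc⟩ t' t x v h0 h1 h2 hx hv hv' => ?_
  obtain ⟨k1, S, hS, k2⟩ := hc t' t x v h0 h1 h2 hx hv hv'
  set E : ℝ → ℝ := fun s =>
    (1 - ‖v‖ ^ 2 / P.V ^ 2) * Real.exp (-P.pp s (x - (t - s) • v) v) / s ^ 152 with hE
  have e1 : ∀ s ∈ Icc t' t, P.phi s (x - (t - s) • v) v / s ^ 152 = E s := fun s hs => by
    rw [phi, if_pos ⟨hv, hv', L1_ry hx hv' hs.1⟩]
  have e2 : ContinuousOn E (Icc t' t) :=
    (continuousOn_const.mul k1.neg.rexp).div (continuousOn_pow _)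
      fun s hs => pow_ne_zero _ (h0.trans_le hs.1).ne'
  have e3 : ∀ s ∈ Ioo t' t, s ∉ S → ∃ d, HasDerivAt E (E s * (-d - 152 / s)) s ∧ |d| ≤ c / s ∧
      d + 154 / s ≤ P.rtG s (x - (t - s) • v) v - P.rtB s (x - (t - s) • v) v := by
    intro s hs hs'
    obtain ⟨d, c1, c2'⟩ := k2 s hs hs'
    have c3' := (h0.trans hs.1).ne'
    refine ⟨d, ((c1.fun_neg.exp.const_mul _).fun_div (hasDerivAt_pow 152 s)
      (pow_ne_zero _ c3')).congr_deriv ?_, c2'⟩
    simp only [hE]
    field_simp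
    norm_num
    ring
  have ae : ∀ᵐ s, s ∈ Ioc t' t → s ∈ Ioo t' t ∧ s ∉ S := by
    filter_upwards [(hS.insert t).countable.ae_notMem volume] with s hs hs'
    rw [mem_insert_iff, not_or] at hs
    exact ⟨⟨hs'.1, lt_of_le_of_ne hs'.2 hs.1⟩, hs.2⟩
  obtain ⟨M, hM⟩ := isCompact_Icc.exists_bound_of_continuousOn e2
  have hi : IntegrableOn (deriv E) (Ioc t' t) := by
    refine Measure.integrableOn_of_bounded (M := M * (|c| / t' + 152 / t')) measure_Ioc_lt_top.ne
      (measurable_deriv E).aestronglyMeasurable ((ae_restrict_iff' measurableSet_Ioc).2 ?_)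
    filter_upwards [ae] with s hs hs'
    obtain ⟨d, c1, c2', -⟩ := e3 s (hs hs').1 (hs hs').2
    have c3' := h0.trans hs'.1
    have c4 := hM s (Ioc_subset_Icc_self hs')
    rw [c1.deriv, norm_mul]
    refine mul_le_mul c4 ((norm_sub_le _ _).trans (add_le_add ?_ ?_)) (norm_nonneg _)
      ((norm_nonneg _).trans c4)
    · rw [norm_neg]
      refine c2'.trans ?_
      gcongr
      exacts [le_abs_self c, hs'.1.le]
    · rw [Real.norm_of_nonneg (by positivity)]
      gcongr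
      exact hs'.1.le
  refine ⟨deriv E, hi, fun s hs => ?_, ?_⟩
  · rw [e1 s hs, e1 t' ⟨le_rfl, h1⟩]
    exact ftc_off_countable hS.countable e2
      (fun s hs hs' => (e3 s hs hs').choose_spec.1.differentiableAt.hasDerivAt) hi s hs
  · filter_upwards [ae] with s hs hs'
    obtain ⟨d, c1, -, c2'⟩ := e3 s (hs hs').1 (hs hs').2
    have c3' := h0.trans hs'.1
    have c4 : (154 : ℝ) / s = 152 / s + 2 / s := by ring
    rw [c1.deriv, ← e1 s (Ioc_subset_Icc_self hs')]
    exact mul_le_mul_of_nonneg_left (by linarith) (div_nonneg (h.phi_nonneg _ _ _) (by positivity))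

end CP

end Crest.Agent.R68
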