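/-
R68/L2: the collision margin: a hot particle produces more than it loses
Skeleton by helper76 (row 68); keep the statements unchanged, add any helper lemmas you like.
-/
import Crest.Agent.R68.L1
import Crest.Agent.R68.C2

set_option autoImplicit false
set_option linter.unusedVariables false
set_option linter.unusedSectionVars false

noncomputable section

namespace Crest.Agent.R68

open MeasureTheory Set Filter Topology
open scoped ENNReal NNReal
open Crest.AnalysisR.VecCalc3 Crest.AnalysisR.PDE.Boltzmann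

namespace CP

variable {P : CP}

theorem L2_m3 {α : Type} [MeasurableSpace α] {a b c : α → R3} (ha : Measurable a)
    (hb : Measurable b) (hc : Measurable c) : (Measurable fun q => cw (a q) (b q) (c q)) ∧
      (Measurable fun q => postVel (a q) (b q) (c q)) ∧
      Measurable fun q => postVelStar (a q) (b q) (c q) := by
  have h0 : Measurable fun q => ((a q, b q, c q) : R3 × R3 × R3) := ha.prodMk (hb.prodMk hc)
  have h1 := measurable_cw.fun_comp h0
  have h2 := continuous_postVel.measurable.fun_comp h0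
  have h3 := continuous_postVelStar.measurable.fun_comp h0
  exact ⟨h1, h2, h3⟩

theorem L2_mphi (P : CP) (s : ℝ) (y : R3) : Measurable fun v => ENNReal.ofReal (P.phi s y v) := by
  have h0 : Measurable fun v => ((s, y, v) : ℝ × R3 × R3) := by fun_prop
  exact (P.measurable_phi.comp h0).ennreal_ofReal

theorem L2_meas (P : CP) (s : ℝ) (y : R3) {α : Type} [MeasurableSpace α] {a b c : α → R3}
    (ha : Measurable a) (hb : Measurable b) (hc : Measurable c) : Measurable fun q =>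
    cw (a q) (b q) (c q) * (ENNReal.ofReal (P.phi s y (postVel (a q) (b q) (c q))) +
      ENNReal.ofReal (P.phi s y (postVelStar (a q) (b q) (c q)))) := by
  obtain ⟨h1, h2, h3⟩ := L2_m3 ha hb hc
  have h4 := (L2_mphi P s y).fun_comp h2
  have h5 := (L2_mphi P s y).fun_comp h3
  exact h1.fun_mul (h4.fun_add h5)

theorem measurable_twoPhi (P : CP) (s : ℝ) (y : R3) :
    Measurable fun p : R3 × R3 => P.twoPhi s y p.1 p.2 := by
  exact (L2_meas P s y (α := (R3 × R3) × R3) measurable_fst.fst measurable_fst.snd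
    measurable_snd).lintegral_prod_right'

theorem L2_mT (P : CP) (s : ℝ) (y w : R3) : Measurable fun u => P.twoPhi s y w u :=
  (P.measurable_twoPhi s y).of_uncurry_left (f := P.twoPhi s y)

/-- `Rng.phi_ge`, `post_energy'`, `lintegral_cw`, `small_post`, `small_postStar` (`e = e2`, `s = 0`). -/
theorem twoPhi_ge (h : P.OK) {r s : ℝ} (hr : P.Rng r) (hs : s ∈ Ioc 0 (P.t₀ r)) {y : R3}
    (hy : ry y ≤ P.V * s) {w u : R3} (hw : ‖w‖ ≤ P.V) (hu : ‖u‖ ≤ 2) :
    ENNReal.ofReal (Real.exp (-(1 / 10)) * (cL * ‖w - u‖ *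
      (2 - ‖w‖ ^ 2 / P.V ^ 2 - ‖u‖ ^ 2 / P.V ^ 2)) - 2 * Cb * √(kap * ‖w - u‖)) ≤ P.twoPhi s y w u := by
  have ha : Real.exp (-(1 / 10)) ≤ 1 := Real.exp_le_one_iff.2 (by norm_num)
  have ha0 := Real.exp_pos (-(1 / 10))
  have hCb := one_le_Cb
  have mI : ∀ {g : R3 → R3}, Measurable g → Measurable fun ω =>
      cw w u ω * {ω | |inner ℝ (g ω) e2 - (0 : ℝ)| ≤ kap}.indicator 1 ω := fun hg =>
    (L2_m3 measurable_const measurable_const measurable_id).1.mul
      (measurable_one.indicator (measurableSet_le ((c0c_m2.comp hg).sub_const 0).abs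
        measurable_const))
  have pt : ∀ v : R3, ENNReal.ofReal (Real.exp (-(1 / 10)) * (1 - ‖v‖ ^ 2 / P.V ^ 2)) ≤
      ENNReal.ofReal (P.phi s y v) + if |c2 v - 0| ≤ kap then 1 else 0 := fun v => by
    have h1 := hr.phi_ge h hs hy v
    rw [sub_zero]
    split_ifs at h1 ⊢
    · rw [← ENNReal.ofReal_one, ← ENNReal.ofReal_add (h.phi_nonneg s y v) zero_le_one]
      exact ENNReal.ofReal_le_ofReal (by linarith)
    · rw [add_zero]
      exact ENNReal.ofReal_le_ofReal (by linarith)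
  have key : (∫⁻ ω, cw w u ω ∂sphereMeasure) * ENNReal.ofReal (Real.exp (-(1 / 10)) *
      (2 - ‖w‖ ^ 2 / P.V ^ 2 - ‖u‖ ^ 2 / P.V ^ 2)) ≤ P.twoPhi s y w u +
      (ENNReal.ofReal (Cb * √(kap * ‖w - u‖)) + ENNReal.ofReal (Cb * √(kap * ‖w - u‖))) := by
    refine le_trans ?_ (add_le_add le_rfl (add_le_add (small_post w u e2 norm_e2 0 kap_pos)
      (small_postStar w u e2 norm_e2 0 kap_pos)))
    have m1 := mI (g := fun ω => postVel w u ω)
      (L2_m3 measurable_const measurable_const measurable_id).2.1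
    have m2 := mI (g := fun ω => postVelStar w u ω)
      (L2_m3 measurable_const measurable_const measurable_id).2.2
    rw [← lintegral_mul_const' _ _ ENNReal.ofReal_ne_top, ← lintegral_add_left m1, twoPhi,
      ← lintegral_add_right _ (m1.fun_add m2)]
    refine lintegral_mono_ae (ae_norm_sphere.mono fun ω hω => ?_)
    rw [← mul_add, ← mul_add, add_add_add_comm]
    refine mul_le_mul_right (le_trans ?_ (add_le_add (pt _) (pt _))) _
    refine le_trans (ENNReal.ofReal_le_ofReal (le_of_eq ?_)) ENNReal.ofReal_add_le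
    rw [← mul_add, sub_sub, ← add_div, ← post_energy' hω w u]
    ring
  rw [lintegral_cw, ← ofReal_norm, ← ENNReal.ofReal_mul cL_pos.le,
    ← ENNReal.ofReal_mul (mul_nonneg cL_pos.le (norm_nonneg _)),
    ← ENNReal.ofReal_add (by positivity) (by positivity)] at key
  rw [ENNReal.ofReal_sub _ (by positivity), tsub_le_iff_right]
  convert key using 2
  · ring
  · congr 1
    ring

/-- Numerics: `(399/400) e^(-1/10) ≥ 9/10`, `V ≥ 16`, `2 Cb √kap = cL / 1024`.  If `‖w - u‖ < 1/2`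
then `‖w‖ ≤ 5/2` and `phi w ≥ 3/4`. -/
theorem net_ge (h : P.OK) (he : 400 * P.e ≤ 1) {r s : ℝ} (hr : P.Rng r) (hs : s ∈ Ioc 0 (P.t₀ r))
    {y : R3} (w : R3) {u : R3} (hu : ‖u‖ ≤ 2) :
    ENNReal.ofReal (P.phi s y w * (cL * ‖w - u‖)) ≤
      (1 - P.e : ℝ≥0∞) * P.twoPhi s y w u + ENNReal.ofReal (P.phi s y w * (cL / 1024)) ∧
    (1 / 2 ≤ ‖w - u‖ → ENNReal.ofReal (P.phi s y w * (cL * ‖w - u‖ + cL / 4)) ≤
      (1 - P.e : ℝ≥0∞) * P.twoPhi s y w u) := by
  by_cases h0 : P.phi s y w = 0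
  · simp [h0]
  have hc := cL_pos
  have hV := h.V_ge
  have h1 := h0
  unfold phi at h1
  split_ifs at h1 with hw
  swap
  · exact absurd rfl h1
  have ha : (903 / 1000 : ℝ) ≤ Real.exp (-(1 / 10)) := by
    have h2 := Real.add_one_le_exp (-(1 / 10 / 4) : ℝ)
    have h3 := pow_le_pow_left₀ (by norm_num) h2 4
    rw [← Real.exp_nat_mul] at h3
    refine le_trans (by norm_num) (h3.trans (le_of_eq ?_))
    norm_num
  have hφ0 := h.phi_nonneg s y w
  have hφ1 := (hr.phi_le h hs y w).2 h0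
  have hz0 : 0 ≤ ‖w‖ ^ 2 / P.V ^ 2 := by positivity
  have hu' : ‖u‖ ^ 2 / P.V ^ 2 ≤ 1 / 64 := by
    rw [div_le_iff₀ (by positivity)]
    nlinarith [norm_nonneg u]
  have hd := norm_nonneg (w - u)
  have hs0 := Real.sqrt_nonneg ‖w - u‖
  have hs1 := Real.mul_self_sqrt hd
  have hG : ENNReal.ofReal (cL * (9 / 10 * ‖w - u‖ * (63 / 64 + (1 - ‖w‖ ^ 2 / P.V ^ 2)) -
      √‖w - u‖ / 1024)) ≤ (1 - P.e : ℝ≥0∞) * P.twoPhi s y w u := by
    have h2 : ENNReal.ofReal (399 / 400) ≤ (1 - P.e : ℝ≥0∞) := by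
      have h3 : (400 : ℝ) * P.e ≤ 1 := by exact_mod_cast he
      rw [← ENNReal.ofReal_one, ← ENNReal.ofReal_coe_nnreal, ← ENNReal.ofReal_sub _ P.e.coe_nonneg]
      exact ENNReal.ofReal_le_ofReal (by linarith)
    refine le_trans ?_ (mul_le_mul' h2 (twoPhi_ge h hr hs hw.2.2 hw.2.1 hu))
    rw [← ENNReal.ofReal_mul (by norm_num), Real.sqrt_mul kap_pos.le, mul_assoc 2, ← mul_assoc Cb,
      sqrt_kap]
    refine ENNReal.ofReal_le_ofReal ?_
    have h3 : 0 ≤ cL * ‖w - u‖ := by positivity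
    have h4 := mul_le_mul_of_nonneg_left (show 63 / 64 + (1 - ‖w‖ ^ 2 / P.V ^ 2) ≤
      2 - ‖w‖ ^ 2 / P.V ^ 2 - ‖u‖ ^ 2 / P.V ^ 2 by linarith) h3
    have h5 : 0 ≤ cL * ‖w - u‖ * (63 / 64 + (1 - ‖w‖ ^ 2 / P.V ^ 2)) :=
      mul_nonneg h3 (by linarith)
    have h6 := mul_le_mul_of_nonneg_right ha (h5.trans h4)
    have h7 : 0 ≤ cL * √‖w - u‖ := by positivity
    linarith
  have h8 := mul_le_mul_of_nonneg_right hφ1 hd
  have h9 := mul_nonneg hz0 hd
  have two : 1 / 2 ≤ ‖w - u‖ → ENNReal.ofReal (P.phi s y w * (cL * ‖w - u‖ + cL / 4)) ≤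
      (1 - P.e : ℝ≥0∞) * P.twoPhi s y w u := fun hd2 => by
    refine le_trans (ENNReal.ofReal_le_ofReal ?_) hG
    have h2 := mul_le_mul_of_nonneg_left hd2 hφ0
    have h3 : √‖w - u‖ ≤ 3 / 2 * ‖w - u‖ := by nlinarith [sq_nonneg (√‖w - u‖ - 1)]
    refine le_trans (le_of_eq (by ring : _ = cL * (P.phi s y w * ‖w - u‖ + P.phi s y w / 4)))
      (mul_le_mul_of_nonneg_left ?_ hc.le)
    linarith
  refine ⟨?_, two⟩
  rcases le_or_gt (1 / 2) ‖w - u‖ with hd2 | hd2
  · refine le_add_right (le_trans (ENNReal.ofReal_le_ofReal ?_) (two hd2))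
    exact mul_le_mul_of_nonneg_left (by linarith) hφ0
  refine le_trans (le_trans (ENNReal.ofReal_le_ofReal ?_) ENNReal.ofReal_add_le)
    (add_le_add hG le_rfl)
  have h2 : ‖w‖ ≤ 5 / 2 := by linarith [norm_le_norm_sub_add w u]
  have h3 : ‖w‖ ^ 2 / P.V ^ 2 ≤ 1 / 40 := by
    rw [div_le_iff₀ (by positivity)]
    nlinarith [norm_nonneg w]
  have h4 : 3 / 4 ≤ P.phi s y w := by
    have h5 := ha.trans (Real.exp_le_exp.2 (neg_le_neg (hr s hs y w hw.2.2 hw.1).2))
    rw [phi, if_pos hw]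
    nlinarith
  have h5 : √‖w - u‖ ≤ 3 / 4 := by nlinarith
  refine le_trans (le_of_eq (by ring : _ = cL * (P.phi s y w * ‖w - u‖)))
    (le_trans (mul_le_mul_of_nonneg_left (?_ : _ ≤ 9 / 10 * ‖w - u‖ *
      (63 / 64 + (1 - ‖w‖ ^ 2 / P.V ^ 2)) - √‖w - u‖ / 1024 + P.phi s y w / 1024) hc.le)
      (le_of_eq (by ring)))
  linarith

/-- `E0_center`, `ls_eq`, `net_ge` (on the support of `E0c (opp w)` we have `‖w - u‖ ≥ 1/2` by
`sgn_opp`), `dens_ge` for `opp w`, `dens_le` for `!opp w`, `rho0_le`. -/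
theorem margin (h : P.OK) (he : 400 * P.e ≤ 1) : ∀ᶠ r in 𝓝[>] (0 : ℝ), P.Rng r →
    ∀ s ∈ Ioc 0 (P.t₀ r), ∀ y, c2 y ≠ 0 → ∀ w,
      ENNReal.ofReal (P.phi s y w) * (ls (P.E0 r s y) w + ENNReal.ofReal (P.rtG s y w)) ≤
        (1 - P.e : ℝ≥0∞) * (∫⁻ u, P.E0 r s y u * P.twoPhi s y w u) +
          ENNReal.ofReal (P.phi s y w) * ENNReal.ofReal (P.rtB s y w + 1 / s) := by
  have hL := h.one_le_L
  have hC := h.one_le_C
  have hV := h.V_ge
  have hT := h.T_pos
  have hc := cL_pos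
  have he' : 0 < 1 / (2 * (P.C * P.L)) := by positivity
  filter_upwards [E0_center h, h.ev_t₀ h.t₁_pos, C2_ev 1 one_pos, dens_ge h he', dens_le h he',
    E0c_le_amp h, Wg_supp h one_half_pos] with r h1 h2 h3 h4 h5 h6 h7 hr s hs y hy w
  by_cases h0 : P.phi s y w = 0
  · simp [h0]
  have hw := h0
  unfold phi at hw
  split_ifs at hw with hw'
  swap
  · exact absurd rfl hw
  have hφ := h.phi_nonneg s y w
  have hs0 := hs.1
  have hry : ry y ≤ r / 2 := by
    refine hw'.2.2.trans ((mul_le_mul_of_nonneg_left hs.2 (by linarith)).trans (le_of_eq ?_))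
    rw [t₀]
    field_simp
  have hel : 0 < P.el s y := by
    rw [h.el_eq hs0.le]
    have := abs_pos.2 hy
    positivity
  have h8 := h4 (opp w) s y hs0.le hel ((h.el_le hs0.le y).trans ((abs_c2_le_ry y).trans hry))
  have h9 := h5 (!opp w) s y hs0.le
  have hE : ∀ u, P.E0 r s y u = P.E0c r (opp w) s y u + P.E0c r (!opp w) s y u := fun u => by
    rw [h1 s ⟨hs0.le, hs.2.trans h2.2⟩ y (by linarith) u]
    cases opp w
    · exact add_comm _ _
    · rfl
  have hsupp : ∀ b u, P.E0c r b s y u ≠ 0 → ‖u - P.U b s y‖ ≤ 1 / 2 ∧ ‖u‖ ≤ 2 := fun b u hne => by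
    have h10 := h6 b s y u hs0.le
    unfold amp at h10
    split_ifs at h10 with hW
    · exact ⟨(h7 0 (Nat.zero_le _) b s y u hs0.le hW).1, (h7 0 (Nat.zero_le _) b s y u hs0.le hW).2.1⟩
    · exact absurd (le_antisymm h10 zero_le) hne
  have mE : ∀ b, Measurable (P.E0c r b s y) := fun b => (P.meas_E0c r b).1.slice s y
  have hne : (1 - P.e : ℝ≥0∞) ≠ ⊤ := ne_top_of_le_ne_top ENNReal.one_ne_top tsub_le_self
  have k1 : ENNReal.ofReal (P.phi s y w) * ls (P.E0 r s y) w =
      ∫⁻ u, P.E0 r s y u * ENNReal.ofReal (P.phi s y w * (cL * ‖w - u‖)) := by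
    rw [ls_eq ((P.meas_E0 r).1.slice s y), ← mul_assoc, ← lintegral_const_mul' _ _
      (ENNReal.mul_ne_top ENNReal.ofReal_ne_top ENNReal.ofReal_ne_top)]
    refine lintegral_congr fun u => ?_
    rw [ENNReal.ofReal_mul hφ, ENNReal.ofReal_mul hc.le, ofReal_norm]
    ring
  have k2 : (∫⁻ u, P.E0 r s y u * ENNReal.ofReal (P.phi s y w * (cL * ‖w - u‖))) +
      (∫⁻ u, P.E0c r (opp w) s y u) * ENNReal.ofReal (P.phi s y w * (cL / 4)) ≤
      (1 - P.e : ℝ≥0∞) * (∫⁻ u, P.E0 r s y u * P.twoPhi s y w u) +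
      (∫⁻ u, P.E0c r (!opp w) s y u) * ENNReal.ofReal (P.phi s y w * (cL / 1024)) := by
    rw [← lintegral_mul_const _ (mE _), ← lintegral_mul_const _ (mE _),
      ← lintegral_const_mul' _ _ hne, ← lintegral_add_right _ ((mE _).mul_const _),
      ← lintegral_add_right _ ((mE _).mul_const _)]
    refine lintegral_mono fun u => ?_
    have alg : ∀ {a b x z t k n : ℝ≥0∞}, a * (x + z) ≤ a * (k * t) → b * x ≤ b * (k * t + n) →
        (a + b) * x + a * z ≤ k * ((a + b) * t) + b * n := fun h1 h2 =>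
      le_trans (le_of_eq (by ring)) ((add_le_add h1 h2).trans (le_of_eq (by ring)))
    rw [hE]
    refine alg ?_ ?_
    · by_cases hu : P.E0c r (opp w) s y u = 0
      · rw [hu, zero_mul, zero_mul]
      rw [← ENNReal.ofReal_add (by positivity) (by positivity), ← mul_add]
      refine mul_le_mul_right ((net_ge h he hr hs w (hsupp _ u hu).2).2 ?_) _
      have a1 := (abs_zero_le_norm _).trans (hsupp _ u hu).1
      have a2 := abs_zero_le_norm (w - u)
      have a3 := sgn_opp w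
      rw [PiLp.sub_apply, U_zero, abs_le] at a1
      rw [PiLp.sub_apply, abs_le] at a2
      unfold sgn at a1 a3
      split_ifs at a1 a3 <;> linarith
    · by_cases hu : P.E0c r (!opp w) s y u = 0
      · rw [hu, zero_mul, zero_mul]
      exact mul_le_mul_right (net_ge h he hr hs w (hsupp _ u hu).2).1 _
  have hρ := h.rho0_nonneg hs0.le y
  have c1 := P.chi_nonneg (opp w) s y
  have c2 := P.chi_nonneg (!opp w) s y
  have k3 : ENNReal.ofReal (P.phi s y w) * ENNReal.ofReal (P.rtG s y w) +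
      (∫⁻ u, P.E0c r (!opp w) s y u) * ENNReal.ofReal (P.phi s y w * (cL / 1024)) ≤
      (∫⁻ u, P.E0c r (opp w) s y u) * ENNReal.ofReal (P.phi s y w * (cL / 4)) +
      ENNReal.ofReal (P.phi s y w) * ENNReal.ofReal (P.rtB s y w + 1 / s) := by
    refine (add_le_add le_rfl (mul_le_mul_left h9 _)).trans
      (le_trans ?_ (add_le_add (mul_le_mul_left h8 _) le_rfl))
    rw [← ENNReal.ofReal_mul hφ, ← ENNReal.ofReal_mul hφ, ← ENNReal.ofReal_mul' (by positivity),
      ← ENNReal.ofReal_mul' (by positivity), rtG, rtB,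
      ← ENNReal.ofReal_add (by positivity) (by positivity)]
    refine le_trans (ENNReal.ofReal_le_ofReal ?_) ENNReal.ofReal_add_le
    have a1 : P.rho0 s y * (1 / (2 * (P.C * P.L))) ≤ 1 / s / 2 :=
      (mul_le_mul_of_nonneg_right (h.rho0_le hs0 y) he'.le).trans (le_of_eq (by field_simp))
    have a2 := mul_le_mul cL_le a1 (by positivity) (by norm_num)
    have a3 : 0 ≤ cL * (P.rho0 s y * P.chi (opp w) s y) := by positivity
    have a4 : 0 ≤ cL * (P.rho0 s y * P.chi (!opp w) s y) := by positivity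
    have a5 : 0 ≤ 1 / s := by positivity
    rw [← sub_nonneg]
    refine le_trans (mul_nonneg hφ (?_ : 0 ≤ cL * (P.rho0 s y * P.chi (opp w) s y) / 32 +
      3 / 256 * (cL * (P.rho0 s y * P.chi (!opp w) s y)) + 1 / s -
      17 / 256 * (cL * (P.rho0 s y * (1 / (2 * (P.C * P.L))))))) (le_of_eq (by ring))
    linarith
  have hfin : (∫⁻ u, P.E0c r (!opp w) s y u) * ENNReal.ofReal (P.phi s y w * (cL / 1024)) +
      (∫⁻ u, P.E0c r (opp w) s y u) * ENNReal.ofReal (P.phi s y w * (cL / 4)) ≠ ⊤ :=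
    ENNReal.add_ne_top.2 ⟨ENNReal.mul_ne_top (ne_top_of_le_ne_top ENNReal.ofReal_ne_top h9)
      ENNReal.ofReal_ne_top, ENNReal.mul_ne_top (ne_top_of_le_ne_top ENNReal.ofReal_ne_top
        (h5 _ s y hs0.le)) ENNReal.ofReal_ne_top⟩
  rw [mul_add, k1]
  refine (ENNReal.add_le_add_iff_right hfin).1 (le_trans (le_of_eq ?_)
    ((add_le_add k2 k3).trans (le_of_eq ?_))) <;> ring

/-- Weak form: `gn_comm`, `lintegral_gn_mul`, `lintegral_gn_mul'`. -/
theorem lintegral_gn_phi (P : CP) (s : ℝ) (y : R3) {E f : R3 → ℝ≥0∞} (hE : Measurable E)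
    (hf : Measurable f) : ∫⁻ v, 2 * gn E f v * ENNReal.ofReal (P.phi s y v) =
      ∫⁻ w, f w * ∫⁻ u, E u * P.twoPhi s y w u := by
  have mφ := L2_mphi P s y
  have mG : Measurable fun v => gn f E v * ENNReal.ofReal (P.phi s y v) :=
    (measurable_gn (f := fun _ => f) (g := fun _ => E) (hf.comp measurable_snd)
      (hE.comp measurable_snd) measurable_id).mul mφ
  have mA : ∀ {g : R3 × R3 × R3 → R3}, Measurable g → Measurable fun p : R3 × R3 × R3 =>
      cw p.1 p.2.1 p.2.2 * (f p.1 * E p.2.1 * ENNReal.ofReal (P.phi s y (g p))) := fun hg =>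
    measurable_cw.mul (((hf.comp measurable_fst).mul (hE.comp measurable_snd.fst)).mul (mφ.comp hg))
  have m1 := mA continuous_postVel.measurable
  have m2 := mA continuous_postVelStar.measurable
  have e : ∀ v, 2 * gn E f v * ENNReal.ofReal (P.phi s y v) =
      gn f E v * ENNReal.ofReal (P.phi s y v) + gn E f v * ENNReal.ofReal (P.phi s y v) :=
    fun v => by rw [gn_comm hf hE, two_mul, add_mul]
  rw [lintegral_congr e, lintegral_add_left mG, lintegral_gn_mul hf hE mφ,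
    lintegral_gn_mul' hf hE mφ, ← lintegral_colM m1, ← lintegral_colM m2, ← lintegral_add_left m1,
    lintegral_colM (m1.fun_add m2)]
  refine lintegral_congr fun w => ?_
  rw [← lintegral_const_mul _ (hE.fun_mul (L2_mT P s y w))]
  refine lintegral_congr fun u => ?_
  rw [← mul_assoc]
  rw [twoPhi, ← lintegral_const_mul _ (L2_meas P s y (a := fun _ => w) (b := fun _ => u)
    (c := fun ω => ω) measurable_const measurable_const measurable_id)]
  refine lintegral_congr fun ω => ?_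
  ring

end CP

end Crest.Agent.R68
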