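/-
R68/L3: growth of the number of hot particles
Skeleton by helper76 (row 68); keep the statements unchanged, add any helper lemmas you like.
-/
import Crest.Agent.R68.L2
import Crest.Agent.R68.PA2
import Crest.Agent.R68.W1
import Crest.Agent.R68.C4

set_option autoImplicit false
set_option linter.unusedVariables false
set_option linter.unusedSectionVars false

noncomputable section

namespace Crest.Agent.R68

open MeasureTheory Set Filter Topology
open scoped ENNReal NNReal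
open Crest.AnalysisR.VecCalc3 Crest.AnalysisR.PDE.Boltzmann

namespace CP

variable {P : CP}

theorem L3_mchi (P : CP) (j : Bool → Bool) :
    Measurable fun p : ℝ × R3 × R3 => P.chi (j (opp p.2.2)) p.1 p.2.1 := by
  have e : (fun p : ℝ × R3 × R3 => P.chi (j (opp p.2.2)) p.1 p.2.1) = fun p =>
      if p.2.2 0 < 0 then P.chi (j true) p.1 p.2.1 else P.chi (j false) p.1 p.2.1 := by
    funext p
    unfold opp
    split_ifs with h <;> simp [h]
  have m : ∀ b, Measurable fun p : ℝ × R3 × R3 => P.chi b p.1 p.2.1 := fun b => by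
    have := (P.measurable_chi b).comp c0c_tx
    exact this
  rw [e]
  exact Measurable.ite (measurableSet_lt ((path_meas_coord 0).comp measurable_snd.snd)
    measurable_const) (m _) (m _)

theorem L3_rho0_single (P : CP) (t : ℝ) (x : R3) (c : ℝ) :
    P.rho0 t (x + EuclideanSpace.single 0 c) = P.rho0 t x := by
  unfold rho0
  rw [el_single, c0c_c3_single]

theorem L3_chi_single (P : CP) (b : Bool) (t : ℝ) (x : R3) (c : ℝ) :
    P.chi b t (x + EuclideanSpace.single 0 c) = P.chi b t x := by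
  unfold chi
  rw [el_single, ze_single]

theorem L3_mul {f g : Fn} (hf : Inv1 f) (hg : Inv1 g) : Inv1 (f * g) := fun t x v c => by
  simp only [Pi.mul_apply, hf t x v c, hg t x v c]

theorem L3_add {f g : Fn} (hf : Inv1 f) (hg : Inv1 g) : Inv1 (f + g) := fun t x v c => by
  simp only [Pi.add_apply, hf t x v c, hg t x v c]

theorem L3_ofReal {A B e : ℝ} (hA : 0 ≤ A) (hB : 0 ≤ B) (h : A - B ≤ e) :
    ENNReal.ofReal A + ENNReal.ofReal (-e) ≤ ENNReal.ofReal B + ENNReal.ofReal e := by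
  rcases le_total 0 e with he | he
  · rw [ENNReal.ofReal_of_nonpos (by linarith : -e ≤ 0), add_zero, ← ENNReal.ofReal_add hB he]
    exact ENNReal.ofReal_le_ofReal (by linarith)
  · rw [ENNReal.ofReal_of_nonpos he, add_zero, ← ENNReal.ofReal_add hA (by linarith)]
    exact ENNReal.ofReal_le_ofReal (by linarith)

theorem L3_rtG (h : P.OK) {t : ℝ} (ht : 0 ≤ t) (x v : R3) : 0 ≤ P.rtG t x v :=
  mul_nonneg (h.rho0_nonneg ht x) (mul_nonneg (by have := cL_pos; positivity) (P.chi_nonneg _ _ _))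

theorem L3_rtB (h : P.OK) {t : ℝ} (ht : 0 ≤ t) (x v : R3) : 0 ≤ P.rtB t x v :=
  mul_nonneg (h.rho0_nonneg ht x) (mul_nonneg (by have := cL_pos; positivity) (P.chi_nonneg _ _ _))

theorem L3_phi_ne {s : ℝ} {y v : R3} (h : P.phi s y v ≠ 0) :
    kap ≤ |c2 v| ∧ ‖v‖ ≤ P.V ∧ ry y ≤ P.V * s := by
  by_contra hc
  exact h (if_neg hc)

theorem L3_phF_zero {s : ℝ} {y v : R3} (h : P.phi s y v = 0) :
    P.phF s y v = 0 ∧ P.kF s y v = 0 ∧ P.lF s y v = 0 := by
  have : P.phF s y v = 0 := by simp [phF, h]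
  simp [kF, lF, this]

theorem meas_phF (P : CP) : (Meas P.phF ∧ Inv1 P.phF) ∧ (Meas P.kF ∧ Inv1 P.kF) ∧
    Meas P.lF ∧ Inv1 P.lF := by
  have m1 : Meas P.phF := (P.measurable_phi.div (measurable_fst.pow_const 152)).ennreal_ofReal
  have i1 : Inv1 P.phF := fun t x v c => by simp only [phF, phi_single]
  have mr := P.measurable_rho0.comp c0c_tx
  refine ⟨⟨m1, i1⟩, ⟨Measurable.mul m1 ?_, fun t x v c => ?_⟩, Measurable.mul m1 ?_,
    fun t x v c => ?_⟩
  · exact ((mr.mul ((P.L3_mchi fun b => !b).const_mul _)).add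
      (measurable_const.div measurable_fst)).ennreal_ofReal
  · simp only [kF, i1 t x v c, rtB, L3_rho0_single, L3_chi_single]
  · exact (mr.mul ((P.L3_mchi id).const_mul _)).ennreal_ofReal
  · simp only [lF, i1 t x v c, rtG, L3_rho0_single, L3_chi_single]

/-- The inequality on one characteristic. -/
def PathIneq (P : CP) (r : ℝ) : Prop := ∀ σ g F, P.Sol r σ g F → ∀ t t', 0 < t → t ≤ t' →
  t' ≤ P.t₀ r → ∀ x v, pa (F * P.phF) t' x v t +
      ∫⁻ s in Ioc t t', pa ((P.D1 r).gain F * P.phF + F * P.kF) t' x v s ≤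
    (F * P.phF) t' x v + ∫⁻ s in Ioc t t', pa (F * LS ((P.D1 r).tr F) * P.phF + F * P.lF) t' x v s

/-- If `‖v‖ ≤ V` the set of `s ∈ [t, t']` with `ry x_s ≤ V s` is empty or an interval `[t'', t']`
(closed, and `ry x_s' ≤ ry x_s + (s' - s) V`).  Before `t''` everything on the left vanishes.  On
`[t'', t']` use `TS.restart`, `duh_test` with `phi_path` (`PI_gain_ne_top`, `loc_tr`). -/
theorem pathIneq : SmallA fun P r => P.PathIneq r := by
  refine phi_path.mono fun P h => ?_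
  filter_upwards [h.ev_t₀ h.t₁_pos] with r hr hp σ g F hS t t' ht htt ht' x v
  have hz : ∀ s, P.phi s (x - (t' - s) • v) v = 0 → pa (F * P.phF) t' x v s = 0 ∧
      pa ((P.D1 r).gain F * P.phF + F * P.kF) t' x v s = 0 := fun s h0 => by
    obtain ⟨a1, a2, -⟩ := L3_phF_zero h0
    simp [pa, a1, a2]
  by_cases hne : ∃ s ∈ Icc t t', P.phi s (x - (t' - s) • v) v ≠ 0
  swap
  · push Not at hne
    rw [(hz t (hne t ⟨le_rfl, htt⟩)).1, setLIntegral_eq_zero measurableSet_Ioc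
      fun s hs => (hz s (hne s ⟨hs.1.le, hs.2⟩)).2, add_zero]
    exact zero_le
  obtain ⟨s₀, hs₀, hne⟩ := hne
  obtain ⟨v1, v2, v3⟩ := L3_phi_ne hne
  have hc : IsCompact (Icc t t' ∩ {s | ry (x - (t' - s) • v) ≤ P.V * s}) :=
    isCompact_Icc.inter_right (isClosed_le (continuous_ry.comp (by fun_prop)) (by fun_prop))
  obtain ⟨u, ⟨⟨u1, u2⟩, u3⟩, hu⟩ := hc.exists_isLeast ⟨s₀, hs₀, v3⟩
  have hlt : ∀ s, t ≤ s → s < u → P.phi s (x - (t' - s) • v) v = 0 := fun s h1 h2 => by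
    by_contra h3
    exact not_le.2 h2 (hu ⟨⟨h1, h2.le.trans u2⟩, (L3_phi_ne h3).2.2⟩)
  have u0 : 0 < u := ht.trans_le u1
  have ht1 : t' ≤ (P.D1 r).t₁ := ht'.trans hr.2
  obtain ⟨e', e1, e2, e3⟩ := hp u t' x v u0 u2 ht' u3 v1 v2
  obtain ⟨⟨m1, -⟩, ⟨m2, -⟩, m3, -⟩ := P.meas_phF
  have mF := hS.ts.reg.meas
  have mG := hS.ok.meas_gain mF
  have mL := (hS.ok.meas_tr mF).LS
  obtain ⟨M, hM⟩ := hS.ts.bd
  have hre := fun s (hs : s ∈ Icc u t') => hS.ts.restart hS.ok hS.mg u0.le u2 ht1 x v hs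
  have key := duh_test (u₀ := pa F t' x v u) (a := pa (LS ((P.D1 r).tr F)) t' x v)
    (q := pa ((P.D1 r).gain F + (σ : ℝ≥0∞) • g) t' x v)
    (e := fun s => P.phi s (x - (t' - s) • v) v / s ^ 152) (e' := e') (mL.pa t' x v)
    ((mG.add (hS.mg.smul _)).pa t' x v) u2 (hS.ts.reg.fin _ _ _) ?_ e1 e2
    (fun s hs => div_nonneg (h.phi_nonneg _ _ _) (pow_nonneg (u0.le.trans hs.1) _))
    (m2.pa t' x v) (m3.pa t' x v) ?_
  · rw [← hre t' ⟨u2, le_rfl⟩, pa_self] at key
    have k1 : pa (F * P.phF) t' x v t ≤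
        pa F t' x v u * ENNReal.ofReal (P.phi u (x - (t' - u) • v) v / u ^ 152) := by
      rcases u1.eq_or_lt with rfl | h1
      · exact le_rfl
      · rw [(hz t (hlt t le_rfl h1)).1]
        exact zero_le
    have k2 : ∫⁻ s in Ioc t u, pa ((P.D1 r).gain F * P.phF + F * P.kF) t' x v s = 0 := by
      rw [← setLIntegral_congr Ioo_ae_eq_Ioc]
      exact setLIntegral_eq_zero measurableSet_Ioo fun s hs => (hz s (hlt s hs.1.le hs.2)).2
    rw [Duh1_split _ u1 u2, k2, zero_add]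
    refine le_trans ?_ (key.trans ?_)
    · rw [add_assoc]
      refine add_le_add k1 ?_
      refine le_trans (setLIntegral_mono' measurableSet_Ioc fun s hs => ?_) (le_of_eq
        (lintegral_add_left (((mG.add (hS.mg.smul _)).mul m1).pa t' x v) _))
      rw [← hre s ⟨hs.1.le, hs.2⟩]
      exact add_le_add (mul_le_mul' le_self_add le_rfl) le_rfl
    · rw [add_assoc]
      refine add_le_add (le_of_eq ?_) ?_
      · simp only [sub_self, zero_smul, sub_zero]
        rfl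
      refine le_trans ?_ (lintegral_mono_set (Ioc_subset_Ioc_left u1))
      refine le_trans (le_of_eq ?_) (le_of_eq
        (lintegral_add_left (((mF.mul mL).mul m1).pa t' x v) (pa (F * P.lF) t' x v)).symm)
      congr 1 <;> refine setLIntegral_congr_fun measurableSet_Ioc fun s hs => ?_ <;>
        simp only [← hre s ⟨hs.1.le, hs.2⟩] <;> rfl
  · rw [lintegral_add_left (mL.pa t' x v)]
    refine ENNReal.add_ne_top.2 ⟨ne_top_of_le_ne_top (hS.ok.loc_tr F ht1 u0 x v)
      (lintegral_mono fun s => le_self_add), ?_⟩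
    refine ne_top_of_le_ne_top (b := (∫⁻ s in Ioc u t', pa ((P.D1 r).gain F) t' x v s) +
      ∫⁻ _ in Ioc u t', (σ : ℝ≥0∞)) (ENNReal.add_ne_top.2 ⟨?_, ?_⟩) ?_
    · exact ne_top_of_le_ne_top (hS.ok.PI_gain_ne_top mF one_le_two hM ⟨ht.le.trans htt, ht1⟩ x v)
        (lintegral_mono_set (Ioc_subset_Ioc_left u0.le))
    · rw [P1.PA2_const_Ioc]
      exact ENNReal.mul_ne_top ENNReal.coe_ne_top ENNReal.ofReal_ne_top
    · rw [← lintegral_add_left (mG.pa t' x v)]
      exact lintegral_mono fun s => add_le_add le_rfl (mul_le_of_le_one_right' (hS.g_le _ _ _))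
  · filter_upwards [e3] with s hs hs'
    have s0 : 0 < s := u0.trans hs'.1
    have p0 : 0 ≤ P.phi s (x - (t' - s) • v) v / s ^ 152 :=
      div_nonneg (h.phi_nonneg _ _ _) (by positivity)
    simp only [pa, kF, lF, phF]
    rw [← ENNReal.ofReal_mul p0, ← ENNReal.ofReal_mul p0]
    refine L3_ofReal (mul_nonneg p0 ?_) (mul_nonneg p0 (L3_rtG h s0.le _ _)) ?_
    · have := L3_rtB h s0.le (x - (t' - s) • v) v
      positivity
    · linarith [hs hs']

/-- `gain_ge` with `A = {kap ≤ |c2|}` (`Ecal_supp`), `lintegral_gn_phi`, `margin`, `LS_tr_le`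
(`(1 + 2 K) (1 + V) ≤ 1 / s` for `s ≤ t₀`). -/
theorem localIneq (h : P.OK) : ∀ᶠ r in 𝓝[>] (0 : ℝ), P.Rng r → ∀ σ g F, P.Sol r σ g F →
    ∀ s ∈ Ioc 0 (P.t₀ r), ∀ y, c2 y ≠ 0 →
      ∫⁻ v, (F * LS ((P.D1 r).tr F) * P.phF + F * P.lF) s y v ≤
        ∫⁻ v, ((P.D1 r).gain F * P.phF + F * P.kF) s y v := by
  by_cases he : 400 * P.e ≤ 1
  swap
  · exact Eventually.of_forall fun r _ σ g F hS => absurd hS.ok.e_le he
  have hV : 0 < P.V := by linarith [h.V_ge]
  filter_upwards [margin h he, Ecal_supp h (half_pos kap_pos), h.ev_t₀ h.t₁_pos,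
    h.ev_t₀ (c := 1 / ((1 + 2 * P.K) * (1 + P.V))) (by positivity)]
    with r hm hE hr hr' hR σ g F hS s hs y hy
  have hs1 : s ≤ (P.D1 r).t₁ := hs.2.trans hr.2
  have s0 := hs.1
  set A : Set R3 := {u | kap ≤ |c2 u|} with hA
  have mA : MeasurableSet A := measurableSet_le measurable_const c0c_m2.abs
  have mF := hS.ts.reg.meas.slice s y
  have mE := (P.meas_E0 r).1.slice s y
  have hdis : ∀ u ∈ A, (P.D1 r).E0 s y u = 0 := fun u hu => by
    by_contra h0
    have h1 := (hE s y u s0.le fun h1 => h0 (le_zero_iff.1 ((P.E0_le_Ecal r s y u).trans_eq h1))).2.1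
    have h2 : kap ≤ |c2 u| := hu
    linarith [kap_pos]
  set c := ENNReal.ofReal (1 / s ^ 152) with hc
  have hph : ∀ v, P.phF s y v = c * ENNReal.ofReal (P.phi s y v) := fun v => by
    rw [hc, ← ENNReal.ofReal_mul (by positivity)]
    unfold phF
    congr 1
    ring
  have k1 : ∀ v, (F * LS ((P.D1 r).tr F) * P.phF + F * P.lF) s y v ≤
      c * (1 - P.e : ℝ≥0∞) * (A.indicator (F s y) v * ∫⁻ u, P.E0 r s y u * P.twoPhi s y v u) +
        (F * P.kF) s y v := fun v => by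
    by_cases h0 : P.phi s y v = 0
    · obtain ⟨a1, -, a3⟩ := L3_phF_zero h0
      simp [a1, a3]
    obtain ⟨v1, v2, -⟩ := L3_phi_ne h0
    have b1 : LS ((P.D1 r).tr F) s y v ≤ ls (P.E0 r s y) v + ENNReal.ofReal (1 / s) := by
      refine (hS.ok.LS_tr_le F s ⟨s0, hs1⟩ y v).trans (add_le_add le_rfl ?_)
      show (1 + 2 * P.K : ℝ≥0∞) * ENNReal.ofReal (1 + ‖v‖) ≤ _
      rw [show (1 + 2 * P.K : ℝ≥0∞) = ENNReal.ofReal (1 + 2 * P.K) by
        rw [ENNReal.ofReal_add zero_le_one (by positivity), ENNReal.ofReal_mul zero_le_two]; simp,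
        ← ENNReal.ofReal_mul (by positivity)]
      refine ENNReal.ofReal_le_ofReal ?_
      have b2 := hs.2.trans hr'.2
      rw [le_div_iff₀ (by positivity)] at b2
      rw [le_div_iff₀ s0]
      calc (1 + 2 * (P.K : ℝ)) * (1 + ‖v‖) * s ≤ (1 + 2 * P.K) * (1 + P.V) * s := by gcongr
        _ ≤ 1 := by linarith
    have b2 : ENNReal.ofReal (P.rtB s y v + 2 / s) =
        ENNReal.ofReal (P.rtB s y v + 1 / s) + ENNReal.ofReal (1 / s) := by
      rw [← ENNReal.ofReal_add (by have := L3_rtB h s0.le y v; positivity) (by positivity)]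
      congr 1
      ring
    rw [indicator_of_mem (show v ∈ A from v1)]
    simp only [Pi.add_apply, Pi.mul_apply, kF, lF, hph, b2]
    calc _ ≤ F s y v * (ls (P.E0 r s y) v + ENNReal.ofReal (1 / s)) *
            (c * ENNReal.ofReal (P.phi s y v)) +
          F s y v * (c * ENNReal.ofReal (P.phi s y v) * ENNReal.ofReal (P.rtG s y v)) := by gcongr
      _ = c * F s y v * (ENNReal.ofReal (P.phi s y v) *
            (ls (P.E0 r s y) v + ENNReal.ofReal (P.rtG s y v))) +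
          c * F s y v * ENNReal.ofReal (P.phi s y v) * ENNReal.ofReal (1 / s) := by ring
      _ ≤ c * F s y v * ((1 - P.e : ℝ≥0∞) * (∫⁻ u, P.E0 r s y u * P.twoPhi s y v u) +
            ENNReal.ofReal (P.phi s y v) * ENNReal.ofReal (P.rtB s y v + 1 / s)) +
          c * F s y v * ENNReal.ofReal (P.phi s y v) * ENNReal.ofReal (1 / s) := by
          gcongr
          exact hm hR s hs y hy v
      _ = _ := by ring
  have mk : Measurable ((F * P.kF) s y) := (hS.ts.reg.meas.mul P.meas_phF.2.1.1).slice s y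
  refine (lintegral_mono k1).trans ?_
  simp only [Pi.add_apply (_ * P.phF)]
  rw [lintegral_add_right _ mk]
  refine le_trans (add_le_add ?_ le_rfl) (lintegral_add_right _ mk).symm.le
  have hc' : c * (1 - P.e : ℝ≥0∞) ≠ ⊤ :=
    ENNReal.mul_ne_top ENNReal.ofReal_ne_top (ne_top_of_le_ne_top ENNReal.one_ne_top tsub_le_self)
  rw [lintegral_const_mul' _ _ hc', ← P.lintegral_gn_phi s y mE (mF.indicator mA),
    ← lintegral_const_mul' _ _ hc']
  refine lintegral_mono fun v => ?_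
  have k2 := hS.ok.gain_ge hS.ts.reg.meas (hS.ts.lo hS.ok) ⟨s0.le, hs1⟩ y mA hdis v
  simp only [Pi.mul_apply, hph]
  refine le_trans (le_of_eq ?_) (mul_le_mul' k2 le_rfl)
  show _ = 2 * (1 - P.e : ℝ≥0∞) * gn (P.E0 r s y) _ v * _
  ring

/-- On the support of `phi` the cold gas vanishes, so `F ≤ c mw`; `adm_mom`, `volume_slab_ry_le`. -/
theorem hot_mass (h : P.OK) : ∀ᶠ r in 𝓝[>] (0 : ℝ), ∀ c : ℝ≥0, ∃ C : ℝ≥0, ∀ s ∈ Ioc 0 (P.t₀ r), ∀ F : Fn,
    (∀ y v, F s y v ≤ P.Ecal r s y v + c * P.mw s y v) →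
    ∫⁻ y in slab, ∫⁻ v, (if P.phi s y v ≠ 0 then F s y v else 0) ≤ C * ENNReal.ofReal (s ^ 2) := by
  obtain ⟨K, hK⟩ := adm_mom N0 0
  have hV : 0 < P.V := by linarith [h.V_ge]
  filter_upwards [Ecal_supp h (half_pos kap_pos)] with r hE c
  refine ⟨c * K * (4 * P.V ^ 2).toNNReal, fun s hs F hF => ?_⟩
  have k1 : ∀ y, ∫⁻ v, (if P.phi s y v ≠ 0 then F s y v else 0) ≤
      {x | ry x ≤ P.V * s}.indicator (fun _ => (c * K : ℝ≥0∞)) y := fun y => by
    by_cases hy : ry y ≤ P.V * s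
    · rw [indicator_of_mem (show y ∈ {x | ry x ≤ P.V * s} from hy)]
      refine le_trans ?_ (mul_le_mul' le_rfl (hK _ (adm_om h s y)))
      rw [← lintegral_const_mul' _ _ ENNReal.coe_ne_top]
      refine lintegral_mono fun v => ?_
      split_ifs with h0
      · have h1 : P.Ecal r s y v = 0 := by
          by_contra h1
          linarith [(hE s y v hs.1.le h1).2.1, (L3_phi_ne h0).1, kap_pos]
        refine (hF y v).trans ?_
        rw [h1, zero_add, pow_zero, one_mul]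
        exact mul_le_mul' le_rfl (mul_le_mul' (W1_ga_anti (by norm_num) v) le_rfl)
      · exact zero_le
    · rw [lintegral_congr fun v => if_neg fun h0 => hy (L3_phi_ne h0).2.2, lintegral_zero]
      exact zero_le
  refine (lintegral_mono k1).trans ?_
  have mS : MeasurableSet {x : R3 | ry x ≤ P.V * s} := measurableSet_le c0c_mry measurable_const
  rw [lintegral_indicator_const mS, Measure.restrict_apply mS, inter_comm]
  refine (mul_le_mul' le_rfl (volume_slab_ry_le (by have := hs.1; positivity))).trans (le_of_eq ?_)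
  rw [show 4 * (P.V * s) ^ 2 = 4 * P.V ^ 2 * s ^ 2 by ring, ENNReal.ofReal_mul (by positivity)]
  push_cast
  rw [mul_assoc (c * K : ℝ≥0∞)]
  rfl

theorem loss_ne_top (h : P.OK) : ∀ᶠ r in 𝓝[>] (0 : ℝ), P.Rng r → ∀ σ g F, P.Sol r σ g F →
    ∀ t t', 0 < t → t' ≤ P.t₀ r → ∫⁻ s in Ioc t t', ∫⁻ y in slab, ∫⁻ v,
      (F * LS ((P.D1 r).tr F) * P.phF + F * P.lF) s y v ≠ ⊤ := by
  filter_upwards [hot_mass h, Ec_le h, h.ev_t₀ h.t₁_pos] with r hm hE hr hR σ g F hS t t' ht ht'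
  obtain ⟨M, hM⟩ := hS.ts.bd
  obtain ⟨C, hC⟩ := hm (P.K₀.toNNReal + M)
  set B : ℝ≥0∞ := ENNReal.ofReal (1 / t ^ 152) *
    (ENNReal.ofReal ((P.b₀ / t + (1 + 2 * P.K)) * (1 + P.V)) +
      ENNReal.ofReal (P.C * P.L / t * (cL / 32 * (1 / 2)))) with hB
  have hB' : B ≠ ⊤ := ENNReal.mul_ne_top ENNReal.ofReal_ne_top
    (ENNReal.add_ne_top.2 ⟨ENNReal.ofReal_ne_top, ENNReal.ofReal_ne_top⟩)
  refine ne_top_of_le_ne_top (b := ∫⁻ _ in Ioc t t', B * (C * ENNReal.ofReal (t' ^ 2))) ?_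
    (setLIntegral_mono' measurableSet_Ioc fun s hs => ?_)
  · rw [P1.PA2_const_Ioc]
    exact ENNReal.mul_ne_top (ENNReal.mul_ne_top hB'
      (ENNReal.mul_ne_top ENNReal.coe_ne_top ENNReal.ofReal_ne_top)) ENNReal.ofReal_ne_top
  have s0 : 0 < s := ht.trans hs.1
  have s1 : s ≤ P.t₀ r := hs.2.trans ht'
  have s2 : s ≤ P.t₁ := s1.trans hr.2
  have s3 : s ∈ Icc (0 : ℝ) 1 := ⟨s0.le, by linarith [h.t₁_le]⟩
  have k1 := hC s ⟨s0, s1⟩ F fun y v => by
    refine (hM s ⟨s0.le, s2⟩ y v).trans ?_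
    show P.E0 r s y v + P.E1 r s y v + P.H s y v + M * (ENNReal.ofReal (s ^ 2) * P.W s y v) ≤ _
    push_cast
    rw [add_mul, ← add_assoc]
    refine add_le_add (add_le_add (hE s y v) (H_le_mw h s3 y v)) (mul_le_mul' le_rfl ?_)
    exact (mul_le_of_le_one_left' (ENNReal.ofReal_le_one.2 (pow_le_one₀ s3.1 s3.2))).trans
      (W_le_mw s3 y v)
  refine le_trans ?_ (mul_le_mul' le_rfl (k1.trans (mul_le_mul' le_rfl
    (ENNReal.ofReal_le_ofReal (pow_le_pow_left₀ s0.le hs.2 2)))))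
  rw [← lintegral_const_mul' _ _ hB']
  refine lintegral_mono fun y => ?_
  rw [← lintegral_const_mul' _ _ hB']
  refine lintegral_mono fun v => ?_
  by_cases h0 : P.phi s y v = 0
  · obtain ⟨a1, -, a3⟩ := L3_phF_zero h0
    simp [a1, a3]
  rw [if_pos h0]
  obtain ⟨-, v2, -⟩ := L3_phi_ne h0
  have b1 : P.phF s y v ≤ ENNReal.ofReal (1 / t ^ 152) := by
    refine ENNReal.ofReal_le_ofReal ?_
    gcongr
    · exact (hR.phi_le h ⟨s0, s1⟩ y v).1
    · exact hs.1.le
  have b2 : LS ((P.D1 r).tr F) s y v ≤ ENNReal.ofReal ((P.b₀ / t + (1 + 2 * P.K)) * (1 + P.V)) := by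
    have := hS.ok.PA1_tr_pa F (t := s) s2 ht y v ⟨hs.1, le_rfl⟩
    rw [pa_self] at this
    refine this.trans (ENNReal.ofReal_le_ofReal ?_)
    show ((P.b₀ : ℝ) / t + (1 + 2 * P.K)) * (1 + ‖v‖) ≤ _
    gcongr
  have b3 : ENNReal.ofReal (P.rtG s y v) ≤ ENNReal.ofReal (P.C * P.L / t * (cL / 32 * (1 / 2))) := by
    refine ENNReal.ofReal_le_ofReal ?_
    have := cL_pos
    have := h.one_le_C
    have := h.one_le_L
    have := P.chi_nonneg (opp v) s y
    unfold rtG
    gcongr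
    · refine (h.rho0_le s0 y).trans ?_
      gcongr
      exact hs.1.le
    · exact P.chi_le _ _ _
  simp only [Pi.add_apply, Pi.mul_apply, lF]
  calc _ ≤ F s y v * ENNReal.ofReal ((P.b₀ / t + (1 + 2 * P.K)) * (1 + P.V)) *
          ENNReal.ofReal (1 / t ^ 152) + F s y v * (ENNReal.ofReal (1 / t ^ 152) *
          ENNReal.ofReal (P.C * P.L / t * (cL / 32 * (1 / 2)))) := by gcongr
    _ = _ := by rw [hB]; ring

/-- Integrate `pathIneq` over `slab × R3` (`lintegral_slab_pa`, `lintegral_slab_pa_time`), use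
`localIneq` (`ae_c2_ne_zero`) and cancel the finite term. -/
theorem grow : SmallA fun P r => P.Grow r := by
  refine (pathIneq.and rng).mono fun P h => ?_
  filter_upwards [localIneq h, loss_ne_top h] with r hl hn ⟨hp, hR⟩ σ g F hS t t' ht htt ht'
  obtain ⟨⟨m1, i1⟩, ⟨m2, i2⟩, m3, i3⟩ := P.meas_phF
  have mF := hS.ts.reg.meas
  have iF := hS.ts.reg.inv
  have itr : InvF ((P.D1 r).tr F) :=
    iF.inf ((hS.ok.rEc.inv.add hS.ok.rH.inv).add (hS.ok.rW.inv.smul _))
  have iG : InvF ((P.D1 r).gain F) := (itr.GN itr).add ((hS.ok.rE0.inv.GN (iF.sub itr)).smul _)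
  have mA := mF.mul m1
  have iA := L3_mul iF.inv1 i1
  have mB := ((hS.ok.meas_gain mF).mul m1).add (mF.mul m2)
  have iB := L3_add (L3_mul iG.inv1 i1) (L3_mul iF.inv1 i2)
  have mC := ((mF.mul (hS.ok.meas_tr mF).LS).mul m1).add (mF.mul m3)
  have iC := L3_add (L3_mul (L3_mul iF.inv1 itr.LS.inv1) i1) (L3_mul iF.inv1 i3)
  have hsplit : ∀ (s : ℝ) (G : R3 → R3 → ℝ≥0∞),
      ∫⁻ x in slab, ∫⁻ v, (pa (F * P.phF) t' x v s + G x v) =
        (∫⁻ y in slab, ∫⁻ v, (F * P.phF) s y v) + ∫⁻ x in slab, ∫⁻ v, G x v := fun s G => by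
    have m : Measurable fun p : R3 × R3 => pa (F * P.phF) t' p.1 p.2 s :=
      path_meas_pa mA measurable_const measurable_fst measurable_snd measurable_const
    rw [← lintegral_slab_pa mA iA t' s, ← lintegral_add_left m.lintegral_prod_right']
    exact lintegral_congr fun x => lintegral_add_left (m.comp measurable_prodMk_left) _
  have k1 := lintegral_mono (μ := volume.restrict slab) fun x =>
    lintegral_mono (μ := volume) fun v => hp σ g F hS t t' ht htt ht' x v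
  simp only [← pa_self (F * P.phF) t'] at k1
  rw [hsplit, hsplit, lintegral_slab_pa_time mB iB t' measurableSet_Ioc,
    lintegral_slab_pa_time mC iC t' measurableSet_Ioc] at k1
  have k2 : ∫⁻ y in slab, ∫⁻ v, (F * P.phF) t y v ≤ ∫⁻ y in slab, ∫⁻ v, (F * P.phF) t' y v := by
    refine ENNReal.le_of_add_le_add_right (hn hR σ g F hS t t' ht ht') (le_trans ?_ k1)
    refine add_le_add le_rfl (setLIntegral_mono' measurableSet_Ioc fun s hs => ?_)
    refine lintegral_mono_ae (ae_restrict_of_ae ?_)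
    filter_upwards [ae_c2_ne_zero] with y hy
    exact hl hR σ g F hS s ⟨ht.trans hs.1, hs.2.trans ht'⟩ y hy
  have k3 : ∀ s, 0 < s → P.Nf s (unc F s) =
      (∫⁻ y in slab, ∫⁻ v, (F * P.phF) s y v) * ENNReal.ofReal (s ^ 152) := fun s hs => by
    unfold Nf
    rw [← lintegral_mul_const' _ _ ENNReal.ofReal_ne_top]
    refine lintegral_congr fun y => ?_
    rw [← lintegral_mul_const' _ _ ENNReal.ofReal_ne_top]
    refine lintegral_congr fun v => ?_
    simp only [Pi.mul_apply, phF, unc]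
    rw [mul_assoc, ← ENNReal.ofReal_mul' (by positivity), div_mul_cancel₀ _ (by positivity)]
  rw [k3 t ht, k3 t' (ht.trans_le htt), mul_right_comm]
  gcongr

end CP

end Crest.Agent.R68
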