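/-
R68/L4: the source; the solution that is not ignited
Skeleton by helper76 (row 68); keep the statements unchanged, add any helper lemmas you like.
-/
import Crest.Agent.R68.L3
import Crest.Agent.R68.C4

set_option autoImplicit false
set_option linter.unusedVariables false
set_option linter.unusedSectionVars false

noncomputable section

namespace Crest.Agent.R68

open MeasureTheory Set Filter Topology
open scoped ENNReal NNReal
open Crest.AnalysisR.VecCalc3 Crest.AnalysisR.PDE.Boltzmann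

namespace CP

variable {P : CP}

/-- A density bounded by `c mw` on the support of `phi` has a bounded weighted mass. -/
theorem L4_mass (h : P.OK) : ∃ K : ℝ≥0, ∀ t ∈ Icc (0 : ℝ) 1, (∀ x v, P.phi t x v ≤ 1) →
    ∀ (c : ℝ≥0∞) (f : R3 × R3 → ℝ≥0∞), (∀ x v, P.phi t x v ≠ 0 → f (x, v) ≤ c * P.mw t x v) →
      P.Nf t f ≤ c * K := by
  obtain ⟨K, hK⟩ := adm_mom N0 0
  have hV := h.V_ge
  refine ⟨K * (4 * P.V ^ 2).toNNReal, fun t ht h1 c f hf => ?_⟩
  have hS : MeasurableSet {x : R3 | ry x ≤ P.V} := measurableSet_le c0c_mry measurable_const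
  have key : ∀ x, ∫⁻ v, f (x, v) * ENNReal.ofReal (P.phi t x v) ≤
      {x : R3 | ry x ≤ P.V}.indicator (fun _ => c * K) x := by
    intro x
    by_cases hx : ry x ≤ P.V
    · rw [indicator_of_mem (by exact hx)]
      calc ∫⁻ v, f (x, v) * ENNReal.ofReal (P.phi t x v)
          ≤ ∫⁻ v, c * (br v ^ 0 * (ga (1 / 8) v * P.om t x v)) := by
            refine lintegral_mono fun v => ?_
            by_cases hp : P.phi t x v = 0
            · simp [hp]
            · calc f (x, v) * ENNReal.ofReal (P.phi t x v) ≤ c * P.mw t x v * 1 :=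
                    mul_le_mul' (hf x v hp) (ENNReal.ofReal_le_one.2 (h1 x v))
                _ ≤ _ := by
                    rw [mul_one, pow_zero, one_mul]
                    exact mul_le_mul_right (mul_le_mul_left (W1_ga_anti (by norm_num) v) _) _
        _ = c * ∫⁻ v, br v ^ 0 * (ga (1 / 8) v * P.om t x v) := by
            refine lintegral_const_mul _ ?_
            simp only [pow_zero, one_mul]
            exact W1_meas' h _ t x
        _ ≤ c * K := mul_le_mul_right (hK _ (adm_om h t x)) _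
    · have : ∀ v, P.phi t x v = 0 := fun v => by
        unfold phi
        rw [if_neg]
        rintro ⟨-, -, h3⟩
        exact hx (h3.trans (mul_le_of_le_one_right (by linarith) ht.2))
      simp [this]
  calc P.Nf t f ≤ ∫⁻ x in slab, {x : R3 | ry x ≤ P.V}.indicator (fun _ => c * K) x :=
        lintegral_mono key
    _ = c * K * volume (slab ∩ {x : R3 | ry x ≤ P.V}) := by
        rw [lintegral_indicator hS, setLIntegral_const, Measure.restrict_apply hS, inter_comm]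
    _ ≤ c * K * ENNReal.ofReal (4 * P.V ^ 2) :=
        mul_le_mul_right (volume_slab_ry_le (by linarith)) _
    _ = _ := by
        rw [ENNReal.coe_mul, mul_assoc]
        rfl

/-- The cold gas vanishes on the support of `phi`. -/
theorem L4_cold (h : P.OK) : ∀ᶠ r in 𝓝[>] (0 : ℝ), ∀ t x v, 0 ≤ t → P.phi t x v ≠ 0 →
    (P.E0 r + P.E1 r) t x v = 0 := by
  filter_upwards [Ec_le h, Ecal_supp h (half_pos kap_pos)] with r h1 h2 t x v ht hp
  have hk : kap ≤ |c2 v| := by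
    by_contra hc
    exact hp (by unfold phi; rw [if_neg fun h' => hc h'.1])
  refine le_antisymm ((h1 t x v).trans (le_of_eq ?_)) zero_le
  by_contra hne
  have := (h2 t x v ht hne).2.1
  linarith [kap_pos]

theorem L4_norm {v : R3} (hv : ‖v - e2‖ ≤ 1 / 2) : ‖v‖ ≤ 3 / 2 := by
  have := norm_add_le (v - e2) e2
  rw [sub_add_cancel, norm_e2] at this
  linarith

theorem L4_c2 {v : R3} (hv : ‖v - e2‖ ≤ 1 / 2) : 1 / 2 ≤ |c2 v| := by
  have h1 := abs_c2_le_norm (v - e2)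
  have h2 : c2 e2 = 1 := by
    unfold c2
    rw [real_inner_self_eq_norm_sq, norm_e2, one_pow]
  rw [c2_sub, h2] at h1
  have h3 := (abs_le.1 (h1.trans hv)).1
  exact le_trans (by linarith) (le_abs_self _)

/-- the part of the source near the central line -/
def L4G (s₀ : ℝ) : Fn := fun _ y v => if ry y ≤ s₀ ∧ ‖v - e2‖ ≤ 1 / 2 then 1 else 0

theorem L4G_meas (s₀ : ℝ) : Meas (L4G s₀) := by
  have h1 := c0c_mry
  refine Measurable.ite ?_ measurable_const measurable_const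
  exact c0c_and (measurableSet_le (by fun_prop) measurable_const)
    (measurableSet_le (by fun_prop) measurable_const)

theorem L4G_inv (s₀ : ℝ) : Inv1 (L4G s₀) := fun t x v c => by
  simp only [L4G, ry_single]

theorem L4G_int {s₀ : ℝ} (hs : 0 ≤ s₀) (s : ℝ) :
    ENNReal.ofReal (s₀ ^ 2) * volume (Metric.closedBall e2 (1 / 2)) ≤
      ∫⁻ y in slab, ∫⁻ v, L4G s₀ s y v := by
  have hS : MeasurableSet {x : R3 | ry x ≤ s₀} := measurableSet_le c0c_mry measurable_const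
  have e : ∀ y, ∫⁻ v, L4G s₀ s y v =
      {x : R3 | ry x ≤ s₀}.indicator (fun _ => volume (Metric.closedBall e2 (1 / 2))) y := by
    intro y
    by_cases hy : ry y ≤ s₀
    · rw [indicator_of_mem (by exact hy), ← lintegral_indicator_one Metric.isClosed_closedBall.measurableSet]
      refine lintegral_congr fun v => ?_
      simp only [L4G, hy, true_and, indicator, Metric.mem_closedBall, dist_eq_norm, Pi.one_apply]
    · rw [indicator_of_notMem (by exact hy)]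
      simp [L4G, hy]
  simp only [e]
  rw [lintegral_indicator hS, setLIntegral_const, Measure.restrict_apply hS, inter_comm, mul_comm]
  exact mul_le_mul_right (volume_slab_ry_ge hs) _

theorem L4_cancel {a b : ℝ≥0∞} {t : ℝ} (ht : 0 < t)
    (h : a * ENNReal.ofReal (t ^ 152) ≤ b * ENNReal.ofReal (t ^ 152)) : a ≤ b :=
  (ENNReal.mul_le_mul_iff_left (ENNReal.ofReal_pos.2 (pow_pos ht _)).ne' ENNReal.ofReal_ne_top).1 h

/-- Non-zero only if `t ≥ s₀`, `‖v‖ ≤ 3/2`, `dd x ≤ 3 t`; `W_ge`. -/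
theorem PI_src_le (h : P.OK) {s₀ : ℝ} (hs : 0 < s₀) (a : ℕ) : ∀ t ∈ Icc 0 P.t₁, ∀ x v,
    PI (src s₀) 0 t x v ≤ ENNReal.ofReal (Real.exp 27 * s₀ / s₀ ^ a) * (pw a * P.W) t x v := by
  intro t ht x v
  by_cases hz : ∀ s ∈ Ioc 0 t, pa (src s₀) t x v s = 0
  · have : PI (src s₀) 0 t x v = 0 := by
      unfold PI
      rw [setLIntegral_congr_fun measurableSet_Ioc hz, lintegral_zero]
    rw [this]
    exact zero_le
  push Not at hz
  obtain ⟨s, hs', hne⟩ := hz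
  have hc : s₀ ≤ s ∧ s ≤ 2 * s₀ ∧ dd (x - (t - s) • v) ≤ s₀ ∧ ‖v - e2‖ ≤ 1 / 2 := by
    by_contra hc
    exact hne (by simp only [pa, src]; rw [if_neg hc])
  obtain ⟨h1, h2, h3, h4⟩ := hc
  have hv := L4_norm h4
  have hts : s₀ ≤ t := h1.trans hs'.2
  have ht0 : 0 < t := hs.trans_le hts
  have hx : dd x ≤ 3 * t := by
    have h5 := le_dd_sub x ((t - s) • v)
    rw [norm_smul, Real.norm_eq_abs, abs_of_nonneg (by linarith [hs'.2])] at h5
    have h6 : (t - s) * ‖v‖ ≤ t * (3 / 2) :=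
      mul_le_mul (by linarith [hs'.1]) hv (norm_nonneg _) ht0.le
    linarith
  have hW := W_ge (P := P) (ρ := 3) (t := t) (x := x) (v := v)
    ⟨ht0, by linarith [ht.2, h.t₁_le]⟩ (by linarith) hx
  have hI : PI (src s₀) 0 t x v ≤ ENNReal.ofReal s₀ := by
    calc PI (src s₀) 0 t x v ≤ ∫⁻ s in Ioc 0 t, (Icc s₀ (2 * s₀)).indicator 1 s := by
          refine lintegral_mono fun s => ?_
          by_cases hm : s ∈ Icc s₀ (2 * s₀)
          · rw [indicator_of_mem hm]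
            exact src_le_one _ _ _ _
          · simp only [pa, src]
            rw [if_neg fun h' => hm ⟨h'.1, h'.2.1⟩]
            exact zero_le
      _ ≤ ∫⁻ s, (Icc s₀ (2 * s₀)).indicator 1 s := setLIntegral_le_lintegral _ _
      _ = ENNReal.ofReal s₀ := by
          rw [lintegral_indicator_one measurableSet_Icc, Real.volume_Icc]
          congr 1
          ring
  have hp : s₀ ^ a ≤ t ^ a := pow_le_pow_left₀ hs.le hts a
  have hp0 : 0 < s₀ ^ a := pow_pos hs a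
  calc PI (src s₀) 0 t x v ≤ ENNReal.ofReal s₀ := hI
    _ ≤ ENNReal.ofReal (Real.exp 27 * s₀ / s₀ ^ a) *
        (ENNReal.ofReal (t ^ a) * ENNReal.ofReal (Real.exp (-(3 * 3 ^ 2)))) := by
        rw [← ENNReal.ofReal_mul (by positivity), ← ENNReal.ofReal_mul (by positivity)]
        refine ENNReal.ofReal_le_ofReal ?_
        have e : Real.exp 27 * s₀ / s₀ ^ a * (t ^ a * Real.exp (-(3 * 3 ^ 2))) =
            s₀ * (t ^ a / s₀ ^ a) := by
          rw [show (-(3 * 3 ^ 2) : ℝ) = -27 by norm_num, Real.exp_neg]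
          have := Real.exp_pos 27
          field_simp
        rw [e]
        exact le_mul_of_one_le_right hs.le ((one_le_div hp0).2 hp)
    _ ≤ _ := mul_le_mul_right (mul_le_mul_right hW _) _

theorem src_Src (h : P.OK) (r : ℝ) {s₀ : ℝ} (hs : 0 < s₀) : (P.D1 r).Src (src s₀) := by
  exact ⟨(reg_src s₀).meas, (reg_src s₀).inv,
    (Real.exp 27 * s₀ / s₀ ^ P.n₂).toNNReal, fun t ht x v => PI_src_le h hs P.n₂ t ht x v⟩

/-- `TS.surv` on `[s₀, 2 s₀]` with `A = 2`, `lintegral_slab_pa_time`, `Rng.phi_ge`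
(`phi ≥ 1/2` at the end point), `volume_slab_ry_ge`. -/
theorem N_src (h : P.OK) : ∃ c : ℝ, 0 < c ∧ ∀ᶠ r in 𝓝[>] (0 : ℝ), P.Rng r → ∀ s₀, 0 < s₀ →
    2 * s₀ ≤ P.t₀ r → ∀ σ F, P.Sol r σ (src s₀) F →
      ENNReal.ofReal (c * σ * s₀ ^ 3) ≤ P.Nf (2 * s₀) (unc F (2 * s₀)) := by
  have hB0 : volume (Metric.closedBall e2 (1 / 2 : ℝ)) ≠ 0 :=
    (Metric.measure_closedBall_pos volume e2 (by norm_num)).ne'
  have hB1 : volume (Metric.closedBall e2 (1 / 2 : ℝ)) ≠ ⊤ := measure_closedBall_lt_top.ne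
  set B : ℝ := (volume (Metric.closedBall e2 (1 / 2 : ℝ))).toReal with hB
  have hBpos : 0 < B := ENNReal.toReal_pos hB0 hB1
  set c₁ : ℝ := Real.exp (-((P.b₀ * 2 + 1) * (5 / 2))) with hc₁
  set c₂ : ℝ := Real.exp (-(1 / 10)) * (1 / 2) with hc₂
  have hc₁0 : 0 < c₁ := Real.exp_pos _
  have hc₂0 : 0 < c₂ := by positivity
  have hV := h.V_ge
  refine ⟨c₁ * c₂ * B, by positivity, ?_⟩
  filter_upwards [h.ev_t₀ h.t₁_pos] with r hr hR s₀ hs hs2 σ F hF
  have hmem : 2 * s₀ ∈ Ioc 0 (P.t₀ r) := ⟨by linarith, hs2⟩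
  have key : ∀ x v, ENNReal.ofReal (c₁ * c₂ * σ) * ∫⁻ s in Ioc s₀ (2 * s₀), pa (L4G s₀) (2 * s₀) x v s ≤
      F (2 * s₀) x v * ENNReal.ofReal (P.phi (2 * s₀) x v) := by
    intro x v
    by_cases hz : ∀ s ∈ Ioc s₀ (2 * s₀), pa (L4G s₀) (2 * s₀) x v s = 0
    · rw [setLIntegral_congr_fun measurableSet_Ioc hz, lintegral_zero, mul_zero]
      exact zero_le
    push Not at hz
    obtain ⟨s, hs', hne⟩ := hz
    have hc : ry (x - (2 * s₀ - s) • v) ≤ s₀ ∧ ‖v - e2‖ ≤ 1 / 2 := by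
      by_contra hc
      exact hne (by simp only [pa, L4G]; rw [if_neg hc])
    have hv := L4_norm hc.2
    have hk := L4_c2 hc.2
    have hx : ry x ≤ P.V * (2 * s₀) := by
      have h5 := ry_add_le (x - (2 * s₀ - s) • v) ((2 * s₀ - s) • v)
      have h6 := ry_le_norm ((2 * s₀ - s) • v)
      rw [sub_add_cancel] at h5
      rw [norm_smul, Real.norm_eq_abs, abs_of_nonneg (by linarith [hs'.2])] at h6
      have h7 : (2 * s₀ - s) * ‖v‖ ≤ s₀ * (3 / 2) :=
        mul_le_mul (by linarith [hs'.1]) hv (norm_nonneg _) hs.le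
      nlinarith [hc.1]
    have hphi : c₂ ≤ P.phi (2 * s₀) x v := by
      refine le_trans ?_ (hR.phi_ge h hmem hx v)
      rw [if_neg (by linarith [kap_le]), sub_zero, hc₂]
      refine mul_le_mul_of_nonneg_left ?_ (Real.exp_pos _).le
      have h8 : ‖v‖ ^ 2 / P.V ^ 2 ≤ 1 / 2 := by
        rw [div_le_iff₀ (by positivity)]
        nlinarith [norm_nonneg v]
      linarith
    have hsv := hF.ts.surv hF.ok hF.mg (s := s₀) (t := 2 * s₀) (A := 2) hs (by linarith)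
      (hs2.trans hr.2) le_rfl x v
    have h9 : (σ : ℝ≥0∞) * ∫⁻ s in Ioc s₀ (2 * s₀), pa (L4G s₀) (2 * s₀) x v s ≤
        ∫⁻ s in Ioc s₀ (2 * s₀), pa ((P.D1 r).gain F + (σ : ℝ≥0∞) • src s₀) (2 * s₀) x v s := by
      rw [← lintegral_const_mul _ ((L4G_meas s₀).pa _ x v)]
      refine setLIntegral_mono' measurableSet_Ioc fun s' hs'' => ?_
      refine le_trans ?_ (le_add_self : (σ : ℝ≥0∞) * src s₀ s' (x - (2 * s₀ - s') • v) v ≤
        (P.D1 r).gain F s' (x - (2 * s₀ - s') • v) v + (σ : ℝ≥0∞) * src s₀ s' (x - (2 * s₀ - s') • v) v)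
      refine mul_le_mul_right ?_ _
      simp only [pa, L4G, src]
      by_cases hq : ry (x - (2 * s₀ - s') • v) ≤ s₀ ∧ ‖v - e2‖ ≤ 1 / 2
      · rw [if_pos hq, if_pos ⟨hs''.1.le, hs''.2, (dd_le_ry _).trans hq.1, hq.2⟩]
      · rw [if_neg hq]
        exact zero_le
    have h10 : ENNReal.ofReal c₁ ≤
        ENNReal.ofReal (Real.exp (-(((P.D1 r).b₀ * 2 + 1) * (1 + ‖v‖)))) := by
      refine ENNReal.ofReal_le_ofReal (Real.exp_le_exp.2 (neg_le_neg ?_))
      exact mul_le_mul_of_nonneg_left (by linarith) (by positivity)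
    calc ENNReal.ofReal (c₁ * c₂ * σ) * ∫⁻ s in Ioc s₀ (2 * s₀), pa (L4G s₀) (2 * s₀) x v s
        = ENNReal.ofReal c₁ * ((σ : ℝ≥0∞) * ∫⁻ s in Ioc s₀ (2 * s₀), pa (L4G s₀) (2 * s₀) x v s) *
          ENNReal.ofReal c₂ := by
          rw [ENNReal.ofReal_mul (by positivity), ENNReal.ofReal_mul hc₁0.le, ENNReal.ofReal_coe_nnreal]
          ring
      _ ≤ _ := mul_le_mul' ((mul_le_mul' h10 (h9.trans le_add_self)).trans hsv)
          (ENNReal.ofReal_le_ofReal hphi)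
  calc ENNReal.ofReal (c₁ * c₂ * B * σ * s₀ ^ 3)
      = ENNReal.ofReal (c₁ * c₂ * σ) * (ENNReal.ofReal (s₀ ^ 2) *
          volume (Metric.closedBall e2 (1 / 2 : ℝ)) * ENNReal.ofReal s₀) := by
        rw [← ENNReal.ofReal_toReal hB1, ← hB, ← ENNReal.ofReal_mul (by positivity),
          ← ENNReal.ofReal_mul (by positivity), ← ENNReal.ofReal_mul (by positivity)]
        congr 1
        ring
    _ ≤ ENNReal.ofReal (c₁ * c₂ * σ) *
          ∫⁻ s in Ioc s₀ (2 * s₀), ∫⁻ y in slab, ∫⁻ v, L4G s₀ s y v := by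
        refine mul_le_mul_right ?_ _
        refine le_trans (le_of_eq ?_) (lintegral_mono fun s => L4G_int hs.le s)
        rw [setLIntegral_const, Real.volume_Ioc]
        congr 2
        ring
    _ = ∫⁻ x in slab, ∫⁻ v, ENNReal.ofReal (c₁ * c₂ * σ) *
          ∫⁻ s in Ioc s₀ (2 * s₀), pa (L4G s₀) (2 * s₀) x v s := by
        rw [← lintegral_slab_pa_time (L4G_meas s₀) (L4G_inv s₀) (2 * s₀) measurableSet_Ioc,
          ← lintegral_const_mul' _ _ ENNReal.ofReal_ne_top]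
        refine lintegral_congr fun x => ?_
        rw [lintegral_const_mul' _ _ ENNReal.ofReal_ne_top]
    _ ≤ _ := lintegral_mono fun x => lintegral_mono fun v => key x v

/-- On the support of `phi t₀`: `Ecal = 0` and `Th ≤ ((3 V + 2 nb) t₀ / r₁) ^ nb`. -/
theorem N_unlit (h : P.OK) : ∃ C : ℝ, ∀ᶠ r in 𝓝[>] (0 : ℝ), P.Rng r →
    P.Nf (P.t₀ r) (unc (P.E0 r + P.E1 r + P.H) (P.t₀ r)) ≤ ENNReal.ofReal (C * P.t₀ r ^ P.nb) := by
  obtain ⟨K, hK⟩ := L4_mass h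
  have hV := h.V_ge
  have hr₁ := h.r₁_pos
  have hK₀ := W1_K₀ h
  refine ⟨P.K₀ * ((3 * P.V + 2 * P.nb) / P.r₁) ^ P.nb * K, ?_⟩
  filter_upwards [h.ev_t₀ one_pos, L4_cold h] with r hr hc hR
  have hm : P.t₀ r ∈ Ioc 0 (P.t₀ r) := ⟨hr.1, le_rfl⟩
  have ht0 := hr.1
  refine (hK _ ⟨hr.1.le, hr.2⟩ (fun x v => (hR.phi_le h hm x v).1)
    (ENNReal.ofReal (P.K₀ * ((3 * P.V + 2 * P.nb) / P.r₁ * P.t₀ r) ^ P.nb)) _ fun x v hp => ?_).trans
    (le_of_eq ?_)
  · have hs : kap ≤ |c2 v| ∧ ‖v‖ ≤ P.V ∧ ry x ≤ P.V * P.t₀ r := by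
      by_contra hc'
      exact hp (by unfold phi; rw [if_neg hc'])
    have e : unc (P.E0 r + P.E1 r + P.H) (P.t₀ r) (x, v) =
        (P.E0 r + P.E1 r) (P.t₀ r) x v + P.H (P.t₀ r) x v := rfl
    rw [e, hc _ x v hr.1.le hp, zero_add]
    change ENNReal.ofReal (P.K₀ * P.Th (P.t₀ r) x v) * ga (3 - P.t₀ r) v * P.om (P.t₀ r) x v ≤
      _ * (ga (1 / 4) v * P.om (P.t₀ r) x v)
    rw [← mul_assoc]
    refine mul_le_mul_left (mul_le_mul' (ENNReal.ofReal_le_ofReal ?_)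
      (W1_ga_anti (by linarith [hr.2]) v)) _
    refine mul_le_mul_of_nonneg_left ((min_le_right _ _).trans ?_) hK₀
    refine pow_le_pow_left₀ (div_nonneg (P.Zf_nonneg hr.1.le x v) hr₁.le) ?_ _
    rw [div_mul_eq_mul_div]
    refine div_le_div_of_nonneg_right ?_ hr₁.le
    unfold Zf
    have h1 := (dd_le_ry x).trans hs.2.2
    have h2 := mul_le_mul_of_nonneg_left hs.2.1 hr.1.le
    nlinarith
  · rw [← ENNReal.ofReal_coe_nnreal, ← ENNReal.ofReal_mul (by positivity), mul_pow]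
    congr 1
    ring

theorem N_ne_top (h : P.OK) : ∀ᶠ r in 𝓝[>] (0 : ℝ), P.Rng r →
    P.Nf (P.t₀ r) (unc (P.E0 r + P.E1 r + P.H + P.W) (P.t₀ r)) ≠ ⊤ := by
  obtain ⟨K, hK⟩ := L4_mass h
  filter_upwards [h.ev_t₀ one_pos, L4_cold h] with r hr hc hR
  have hm : P.t₀ r ∈ Ioc 0 (P.t₀ r) := ⟨hr.1, le_rfl⟩
  refine ne_top_of_le_ne_top ?_ (hK _ ⟨hr.1.le, hr.2⟩ (fun x v => (hR.phi_le h hm x v).1)
    (ENNReal.ofReal P.K₀ + 1) _ fun x v hp => ?_)
  · exact ENNReal.mul_ne_top (ENNReal.add_ne_top.2 ⟨ENNReal.ofReal_ne_top, ENNReal.one_ne_top⟩)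
      ENNReal.coe_ne_top
  · have e : unc (P.E0 r + P.E1 r + P.H + P.W) (P.t₀ r) (x, v) =
        (P.E0 r + P.E1 r) (P.t₀ r) x v + P.H (P.t₀ r) x v + P.W (P.t₀ r) x v := rfl
    rw [e, hc _ x v hr.1.le hp, zero_add, add_mul, one_mul]
    exact add_le_add (H_le_mw h ⟨hr.1.le, hr.2⟩ x v) (W_le_mw ⟨hr.1.le, hr.2⟩ x v)

/-- `N_src` and `Grow`: a bound for `N t₀` bounds the strength of the source. -/
theorem src_small (h : P.OK) : ∃ C : ℝ≥0, ∀ᶠ r in 𝓝[>] (0 : ℝ), P.Rng r → P.Grow r →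
    ∀ s₀ : ℝ≥0, 0 < s₀ → 2 * (s₀ : ℝ) ≤ P.t₀ r → ∀ σ F, P.Sol r σ (src s₀) F → ∀ N : ℝ≥0,
      P.Nf (P.t₀ r) (unc F (P.t₀ r)) ≤ N * ENNReal.ofReal (P.t₀ r ^ 152) →
      LeOn 0 P.t₁ ((σ : ℝ≥0∞) • PI (src s₀) 0) (((C * N * s₀ : ℝ≥0) : ℝ≥0∞) • (pw 2 * P.W)) := by
  obtain ⟨c, hc, hN⟩ := N_src h
  refine ⟨(Real.exp 27 * 2 ^ 152 / c).toNNReal, ?_⟩
  filter_upwards [hN, h.ev_t₀ one_pos] with r h1 hr hR hG s₀ hs hs2 σ F hF N hb t ht x v
  have hs' : (0 : ℝ) < s₀ := hs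
  have hs1 : (s₀ : ℝ) ≤ 1 := by linarith [hr.2]
  have h2 := h1 hR s₀ hs' hs2 σ F hF
  have h3 := hG σ _ F hF (2 * s₀) (P.t₀ r) (by linarith) hs2 le_rfl
  have h4 : ENNReal.ofReal (c * σ * s₀ ^ 3) ≤ N * ENNReal.ofReal ((2 * s₀) ^ 152) := by
    refine L4_cancel hr.1 (((mul_le_mul_left h2 _).trans h3).trans ?_)
    rw [mul_right_comm]
    exact mul_le_mul_left hb _
  rw [← ENNReal.ofReal_coe_nnreal (p := N), ← ENNReal.ofReal_mul N.coe_nonneg,
    ENNReal.ofReal_le_ofReal_iff (by positivity)] at h4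
  have h5 : (σ : ℝ) * (Real.exp 27 * s₀ / s₀ ^ 2) ≤ Real.exp 27 * 2 ^ 152 / c * N * s₀ := by
    have h6 : (s₀ : ℝ) ^ 152 ≤ s₀ ^ 5 := pow_le_pow_of_le_one hs'.le hs1 (by norm_num)
    have h7 : c * σ * s₀ ^ 3 ≤ N * (2 ^ 152 * s₀ ^ 5) := by
      refine h4.trans ?_
      rw [mul_pow]
      exact mul_le_mul_of_nonneg_left (mul_le_mul_of_nonneg_left h6 (by positivity)) N.coe_nonneg
    have h8 : c * σ ≤ N * 2 ^ 152 * s₀ ^ 2 := by
      refine le_of_mul_le_mul_right (h7.trans (le_of_eq ?_)) (pow_pos hs' 3)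
      ring
    have h9 : (σ : ℝ) ≤ N * 2 ^ 152 * s₀ ^ 2 / c := by
      rw [le_div_iff₀ hc, mul_comm]
      exact h8
    refine (mul_le_mul_of_nonneg_right h9 (by positivity)).trans (le_of_eq ?_)
    field_simp
  change (σ : ℝ≥0∞) * PI (src s₀) 0 t x v ≤ _ * (pw 2 * P.W) t x v
  refine (mul_le_mul_right (PI_src_le h hs' 2 t ht x v) _).trans ?_
  rw [← mul_assoc]
  refine mul_le_mul_left ?_ _
  rw [← ENNReal.ofReal_coe_nnreal (p := σ), ← ENNReal.ofReal_mul σ.coe_nonneg, ← ENNReal.ofReal_coe_nnreal]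
  refine ENNReal.ofReal_le_ofReal (h5.trans (le_of_eq ?_))
  rw [NNReal.coe_mul, NNReal.coe_mul, Real.coe_toNNReal _ (by positivity)]

theorem src_large (h : P.OK) : ∀ᶠ r in 𝓝[>] (0 : ℝ), P.Rng r → P.Grow r → ∀ s₀, 0 < s₀ →
    2 * s₀ ≤ P.t₀ r → ∀ δ : ℝ≥0∞, δ ≠ ⊤ → ∃ σ, ∀ F, P.Sol r σ (src s₀) F →
      δ ≤ P.Nf (P.t₀ r) (unc F (P.t₀ r)) := by
  obtain ⟨c, hc, hN⟩ := N_src h
  filter_upwards [hN, h.ev_t₀ one_pos] with r h1 hr hR hG s₀ hs hs2 δ hδ
  refine ⟨(δ.toReal / (c * s₀ ^ 3)).toNNReal, fun F hF => ?_⟩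
  have h2 := h1 hR s₀ hs hs2 _ F hF
  have h3 := hG _ _ F hF (2 * s₀) (P.t₀ r) (by linarith) hs2 le_rfl
  have e : ENNReal.ofReal (c * (δ.toReal / (c * s₀ ^ 3)).toNNReal * s₀ ^ 3) = δ := by
    rw [Real.coe_toNNReal _ (by positivity)]
    refine Eq.trans ?_ (ENNReal.ofReal_toReal hδ)
    congr 1
    field_simp
  rw [e] at h2
  refine L4_cancel hr.1 (((mul_le_mul_left h2 _).trans h3).trans ?_)
  exact mul_le_mul_right (ENNReal.ofReal_le_ofReal (pow_le_pow_left₀ (by linarith) hs2 _)) _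

end CP

end Crest.Agent.R68
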