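/-
R68/L6: slow particles reach a stripe of the opposite sign
Skeleton by helper76 (row 68); keep the statements unchanged, add any helper lemmas you like.
-/
import Crest.Agent.R68.L5
import Crest.Agent.R68.L3

set_option autoImplicit false
set_option linter.unusedVariables false
set_option linter.unusedSectionVars false

noncomputable section

namespace Crest.Agent.R68

open MeasureTheory Set Filter Topology
open scoped ENNReal NNReal
open Crest.AnalysisR.VecCalc3 Crest.AnalysisR.PDE.Boltzmann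

theorem L6_sub {T w a t τ τ' : ℝ} (h : 0 < τ + T) (h' : 0 < τ' + T) :
    (a + (τ' - t) * w) * T / (τ' + T) - (a + (τ - t) * w) * T / (τ + T) =
      T * (w * T + w * t - a) / ((τ + T) * (τ' + T)) * (τ' - τ) := by
  field_simp
  ring

/-- The time spent in a stripe. -/
theorem L6_real {T w a B t l α : ℝ} (hw : 0 < w) (ht : 0 < t) (htB : 40 * t ≤ B)
    (ha : |a| ≤ 3 / 32 * (B * w)) (hB : 38 * B ≤ T) (hα : 0 < α) (hl : 9 / 8 * (B * w) ≤ l)
    (hl' : l * Real.exp α ≤ 3 / 2 * (9 / 8 * (B * w))) :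
    ∃ p q, B ≤ p ∧ q ≤ 2 * B ∧ α * B / 8 ≤ q - p ∧
      ∀ τ ∈ Icc p q, (a + (τ - t) * w) * T / (τ + T) ∈ Icc l (l * Real.exp α) := by
  obtain ⟨g, hg⟩ : ∃ g : ℝ → ℝ, ∀ τ, g τ = (a + (τ - t) * w) * T / (τ + T) := ⟨_, fun _ => rfl⟩
  have hB0 : 0 < B := by linarith
  have hT : 0 < T := by linarith
  have hBw : 0 < B * w := by positivity
  have h1 : 38 * (B * w) ≤ w * T := by nlinarith
  have h2 : 40 * (w * t) ≤ B * w := by nlinarith
  have h3 : 0 < w * t := by positivity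
  obtain ⟨ha1, ha2⟩ := abs_le.1 ha
  have key : ∀ τ τ', 0 ≤ τ → τ ≤ τ' → g τ ≤ g τ' ∧ g τ' - g τ ≤ 2 * w * (τ' - τ) := by
    intro τ τ' h4 h5
    have h6 := L6_sub (w := w) (a := a) (t := t) (by linarith : 0 < τ + T) (by linarith : 0 < τ' + T)
    rw [← hg, ← hg] at h6
    have h7 : 0 < (τ + T) * (τ' + T) := mul_pos (by linarith) (by linarith)
    have h8 : 0 ≤ T * (w * T + w * t - a) / ((τ + T) * (τ' + T)) :=
      div_nonneg (mul_nonneg hT.le (by linarith)) h7.le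
    have h9 : T * (w * T + w * t - a) / ((τ + T) * (τ' + T)) ≤ 2 * w := by
      rw [div_le_iff₀ h7]
      have h10 : T * T ≤ (τ + T) * (τ' + T) :=
        mul_le_mul (by linarith) (by linarith) hT.le (by linarith)
      calc T * (w * T + w * t - a) ≤ T * (2 * (w * T)) :=
            mul_le_mul_of_nonneg_left (by linarith) hT.le
        _ = 2 * w * (T * T) := by ring
        _ ≤ _ := mul_le_mul_of_nonneg_left h10 (by positivity)
    constructor
    · have := mul_nonneg h8 (sub_nonneg.2 h5)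
      linarith
    · rw [h6]
      exact mul_le_mul_of_nonneg_right h9 (sub_nonneg.2 h5)
  have hc : ContinuousOn g (Icc B (2 * B)) := by
    rw [show g = fun τ => (a + (τ - t) * w) * T / (τ + T) from funext hg]
    exact ContinuousOn.div (by fun_prop) (by fun_prop) fun τ hτ => by linarith [hτ.1]
  have hlo : g B ≤ l := by
    rw [hg, div_le_iff₀ (by linarith)]
    calc (a + (B - t) * w) * T ≤ l * T := mul_le_mul_of_nonneg_right (by linarith) hT.le
      _ ≤ _ := mul_le_mul_of_nonneg_left (by linarith) (by linarith)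
  have hhi : l * Real.exp α ≤ g (2 * B) := by
    rw [hg, le_div_iff₀ (by linarith)]
    calc l * Real.exp α * (2 * B + T) ≤ 3 / 2 * (9 / 8 * (B * w)) * (20 / 19 * T) :=
          mul_le_mul hl' (by linarith) (by linarith) (by positivity)
      _ = 135 / 76 * (B * w) * T := by ring
      _ ≤ _ := mul_le_mul_of_nonneg_right (by linarith) hT.le
  have he : l * α ≤ l * Real.exp α - l := by
    have := mul_le_mul_of_nonneg_left (Real.add_one_le_exp α) (by linarith : 0 ≤ l)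
    linarith
  have hlα : 9 / 8 * (B * w) * α ≤ l * α := mul_le_mul_of_nonneg_right hl hα.le
  have hpos : 0 < 9 / 8 * (B * w) * α := by positivity
  obtain ⟨p, hp, hp'⟩ := intermediate_value_Icc (by linarith) hc
    (⟨hlo, by linarith⟩ : l ∈ Icc (g B) (g (2 * B)))
  obtain ⟨q, hq, hq'⟩ := intermediate_value_Icc (by linarith) hc
    (⟨by linarith, hhi⟩ : l * Real.exp α ∈ Icc (g B) (g (2 * B)))
  refine ⟨p, q, hp.1, hq.2, ?_, fun τ hτ => ?_⟩
  · rcases le_total p q with h4 | h4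
    · have h5 := (key p q (by linarith [hp.1]) h4).2
      have h6 : w * (9 / 8 * (α * B)) ≤ w * (2 * (q - p)) := by linarith
      have h7 := le_of_mul_le_mul_left h6 hw
      have h8 : 0 < α * B := by positivity
      linarith
    · have h5 := (key q p (by linarith [hq.1]) h4).1
      linarith
  · rw [← hg, ← hp']
    refine ⟨(key p τ (by linarith [hp.1]) hτ.1).1, ?_⟩
    rw [hp', ← hq']
    exact (key τ q (by linarith [hp.1, hτ.1]) hτ.2).1

theorem L6_swap {Φ : Fn} (h : Meas Φ) (I : Set ℝ) :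
    ∫⁻ s in I, ∫⁻ y in slab, ∫⁻ v, Φ s y v = ∫⁻ y in slab, ∫⁻ v, ∫⁻ s in I, Φ s y v := by
  rw [lintegral_lintegral_swap (f := fun s y => ∫⁻ v, Φ s y v)]
  · refine lintegral_congr fun y => lintegral_lintegral_swap (f := fun s v => Φ s y v) ?_
    exact (path_meas_comp h measurable_fst measurable_const measurable_snd).aemeasurable
  · exact (Measurable.lintegral_prod_right' (f := fun p : (ℝ × R3) × R3 => Φ p.1.1 p.1.2 p.2)
      (path_meas_comp h measurable_fst.fst measurable_fst.snd measurable_snd)).aemeasurable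

/-- `sgn b * sin z ≥ 3/4` on an interval of length `1` in every period; `log (3/2) ≥ 2/5`. -/
theorem exists_stripe {α l₁ : ℝ} (hα : 0 < α) (hα' : α ≤ 1 / 40) (hl : 0 < l₁) (b : Bool) :
    ∃ l, l₁ ≤ l ∧ l * Real.exp α ≤ 3 / 2 * l₁ ∧ ∀ l' ∈ Icc l (l * Real.exp α),
      3 / 4 ≤ sgn b * Real.sin (Real.log l' / α) := by
  have hpi := Real.pi_pos
  have hpi' := Real.pi_lt_d2
  obtain ⟨z, hz⟩ : ∃ z, l₁ = Real.exp (α * z) :=
    ⟨Real.log l₁ / α, by rw [mul_div_cancel₀ _ hα.ne', Real.exp_log hl]⟩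
  obtain ⟨k, hk1, hk2⟩ : ∃ k : ℤ, z + 1 / 2 ≤ sgn b * (Real.pi / 2) + k * (2 * Real.pi) ∧
      sgn b * (Real.pi / 2) + k * (2 * Real.pi) ≤ z + 1 / 2 + 7 := by
    have h1 := Int.le_ceil ((z + 1 / 2 - sgn b * (Real.pi / 2)) / (2 * Real.pi))
    have h2 := Int.ceil_lt_add_one ((z + 1 / 2 - sgn b * (Real.pi / 2)) / (2 * Real.pi))
    rw [div_le_iff₀ (by positivity)] at h1
    rw [← sub_lt_iff_lt_add, lt_div_iff₀ (by positivity)] at h2
    generalize ⌈(z + 1 / 2 - sgn b * (Real.pi / 2)) / (2 * Real.pi)⌉ = k at h1 h2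
    exact ⟨k, by linarith, by linarith⟩
  obtain ⟨m, hm⟩ : ∃ m, m = sgn b * (Real.pi / 2) + k * (2 * Real.pi) := ⟨_, rfl⟩
  rw [← hm] at hk1 hk2
  refine ⟨Real.exp (α * (m - 1 / 2)), ?_, ?_, fun l' hl' => ?_⟩
  · rw [hz]
    exact Real.exp_le_exp.2 (mul_le_mul_of_nonneg_left (by linarith) hα.le)
  · have h1 := Real.exp_bound_div_one_sub_of_interval (x := 1 / 5) (by norm_num) (by norm_num)
    have h2 : Real.exp (α * (m - 1 / 2)) * Real.exp α ≤ Real.exp (1 / 5) * Real.exp (α * z) := by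
      rw [← Real.exp_add, ← Real.exp_add]
      exact Real.exp_le_exp.2 (by nlinarith)
    rw [hz]
    exact h2.trans (mul_le_mul_of_nonneg_right (h1.trans (by norm_num)) (Real.exp_pos _).le)
  · have h0 : 0 < l' := (Real.exp_pos _).trans_le hl'.1
    have h1 : m - 1 / 2 ≤ Real.log l' / α := by
      rw [le_div_iff₀ hα, mul_comm]
      exact (Real.le_log_iff_exp_le h0).2 hl'.1
    have h2 : Real.log l' / α ≤ m + 1 / 2 := by
      rw [div_le_iff₀ hα, Real.log_le_iff_le_exp h0]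
      refine hl'.2.trans_eq ?_
      rw [← Real.exp_add]
      congr 1
      ring
    obtain ⟨δ, hδ⟩ : ∃ δ, δ = Real.log l' / α - m := ⟨_, rfl⟩
    have h3 : Real.log l' / α = δ + sgn b * (Real.pi / 2) + k * (2 * Real.pi) := by linarith
    have h4 := Real.one_sub_sq_div_two_le_cos (x := δ)
    have h5 : δ ^ 2 ≤ 1 / 4 := by nlinarith
    rw [h3, Real.sin_add_int_mul_two_pi]
    cases b
    · rw [show sgn false = -1 from rfl, neg_one_mul, neg_one_mul, ← sub_eq_add_neg,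
        Real.sin_sub_pi_div_two]
      linarith
    · rw [show sgn true = 1 from rfl, one_mul, one_mul, Real.sin_add_pi_div_two]
      linarith

namespace CP

variable {P : CP}

/-- the particles that meet the opposite stripe at time `τ` -/
def setO (P : CP) (κ₄ ζ₅ τ : ℝ) : Set (R3 × R3) :=
  {p | ry p.1 ≤ 3 * P.V * τ / 4 ∧ ‖p.2‖ ≤ 3 * P.V / 4 ∧ κ₄ ≤ |c2 p.2| ∧ |P.ze τ p.1| ≤ ζ₅ ∧
    1 / 4 ≤ ff (P.osc (opp p.2) (P.el τ p.1))}

theorem measurableSet_setO (P : CP) (κ₄ ζ₅ : ℝ) :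
    MeasurableSet {p : ℝ × R3 × R3 | p.2 ∈ P.setO κ₄ ζ₅ p.1} := by
  have h1 := c0c_m2
  have h2 := c0c_mry
  have h3 : Measurable fun p : ℝ × R3 × R3 => P.el p.1 p.2.1 :=
    ((measurable_el P).comp c0c_tx :)
  have h4 : Measurable fun p : ℝ × R3 × R3 => P.osc (opp p.2.2) (P.el p.1 p.2.1) := by
    have e : (fun p : ℝ × R3 × R3 => P.osc (opp p.2.2) (P.el p.1 p.2.1)) = fun p =>
        if p.2.2 0 < 0 then P.osc true (P.el p.1 p.2.1) else P.osc false (P.el p.1 p.2.1) := by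
      funext p
      by_cases h : p.2.2 0 < 0 <;> simp [opp, h]
    rw [e]
    exact Measurable.ite (measurableSet_lt ((path_meas_coord 0).comp measurable_snd.snd)
      measurable_const) ((c0c_mosc P true).comp h3) ((c0c_mosc P false).comp h3)
  exact c0c_and (measurableSet_le (by fun_prop) (by fun_prop))
    (c0c_and (measurableSet_le (by fun_prop) measurable_const)
    (c0c_and (measurableSet_le measurable_const (by fun_prop))
    (c0c_and (measurableSet_le ((measurable_ze P).comp c0c_tx).abs measurable_const)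
    (measurableSet_le measurable_const (c0c_mff.comp h4)))))

theorem L6_kap (h : P.OK) {w : ℝ} (hw : 0 ≤ w) : w / kap ≤ P.L * w / 4 := by
  have h1 := kap_pos
  have h2 := h.V_ge
  have h3 : P.L * kap = 49600 * P.V := by
    rw [L, Lv, bet]
    field_simp
    norm_num
  rw [div_le_iff₀ h1]
  calc w ≤ w * (49600 * P.V / 4) := le_mul_of_one_le_right hw (by linarith)
    _ = _ := by rw [← h3]; ring

/-- Take `A₁ ≥ 40 + 8 V / κ₄ + 2 V / (1 - ζ₄)`, `ζ₅ = max (1/2) ((1 + ζ₄) / 2)`, `w = |c2 v|`,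
`y τ = y + (τ - t) v`.  On `[A₁ t, 2 A₁ t]`: `sg2 v * c2 (y τ) ≥ (17/20) τ w`, `T / (τ + T) ≥ 19/20`,
`el τ = sg2 v * lt τ` is increasing and `2 w`-Lipschitz (`lt_sub`), `el (A₁ t) ≤ (9/8) A₁ t w`,
`el (2 A₁ t) ≥ (19/20) (37/20) A₁ t w ≥ (3/2) el (A₁ t)`.  `exists_stripe` and the intermediate value
theorem give `τa < τb` with `τb - τa ≥ l α / (2 w)`.  Finally
`|ze| ≤ (V / A₁ + ζ₄ + w / kap) / (1 + L w / 4) ≤ ζ₅` since `L / 4 = V / bet`. -/
theorem meet (h : P.OK) {κ₄ ζ₄ : ℝ} (hκ : 0 < κ₄) (hζ : ζ₄ < 1) : ∃ A₁ ζ₅ : ℝ, 1 ≤ A₁ ∧ ζ₅ < 1 ∧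
    ∀ᶠ r in 𝓝[>] (0 : ℝ), ∀ t, 0 < t → 2 * A₁ * t ≤ P.t₀ r → ∀ y v, (y, v) ∈ P.setG κ₄ ζ₄ t →
      ENNReal.ofReal (P.α * A₁ * t / 8) ≤
        volume {τ ∈ Ioc t (2 * A₁ * t) | (y + (τ - t) • v, v) ∈ P.setO κ₄ ζ₅ τ} := by
  have hV := h.V_ge
  have hT := h.T_pos
  have hL := h.one_le_L
  obtain ⟨A, hA⟩ : ∃ A, A = 40 + 8 * P.V / κ₄ + 2 * P.V / (1 - ζ₄) := ⟨_, rfl⟩
  have hζ' : 0 < 1 - ζ₄ := by linarith
  have a1 : 0 < 8 * P.V / κ₄ := by positivity
  have a2 : 0 < 2 * P.V / (1 - ζ₄) := by positivity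
  have hA1 : 40 ≤ A := by linarith
  have hA2 : 8 * P.V ≤ A * κ₄ := (div_le_iff₀ hκ).1 (by linarith)
  have hA3 : 2 * P.V ≤ A * (1 - ζ₄) := (div_le_iff₀ hζ').1 (by linarith)
  refine ⟨A, max (1 / 2) ((1 + ζ₄) / 2), by linarith, max_lt (by norm_num) (by linarith), ?_⟩
  filter_upwards [h.ev_t₀ (c := P.T / 19) (by positivity)] with r hr t ht htr y v hyv
  obtain ⟨hy, hv, hw, hw3⟩ : ry y ≤ 3 * P.V * t / 4 ∧ ‖v‖ ≤ 3 * P.V / 4 ∧ κ₄ ≤ |c2 v| ∧
    |c3 v| ≤ ζ₄ + |c2 v| / kap := hyv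
  obtain ⟨σ, hσ, hσv⟩ : ∃ σ : ℝ, |σ| = 1 ∧ σ * c2 v = |c2 v| := by
    rcases le_total 0 (c2 v) with h1 | h1
    · exact ⟨1, abs_one, by rw [one_mul, abs_of_nonneg h1]⟩
    · exact ⟨-1, by simp, by rw [neg_one_mul, abs_of_nonpos h1]⟩
  obtain ⟨w, hw'⟩ : ∃ w, w = |c2 v| := ⟨_, rfl⟩
  rw [← hw'] at hw hw3 hσv
  have hw0 : 0 < w := hκ.trans_le hw
  have hB : 0 < A * t := by positivity
  obtain ⟨l, hl1, hl2, hl3⟩ := exists_stripe h.α_pos h.α_le
    (by positivity : 0 < 9 / 8 * (A * t * w)) (opp v)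
  have ha : |σ * c2 y| ≤ 3 / 32 * (A * t * w) := by
    rw [abs_mul, hσ, one_mul]
    have h1 : A * κ₄ ≤ A * w := mul_le_mul_of_nonneg_left hw (by linarith)
    have h2 : 8 * P.V * t ≤ A * w * t := mul_le_mul_of_nonneg_right (hA2.trans h1) ht.le
    linarith [abs_c2_le_ry y]
  obtain ⟨p, q, hp, hq, hpq, hg⟩ := L6_real (T := P.T) hw0 ht
    (mul_le_mul_of_nonneg_right hA1 ht.le) ha (by linarith [hr.2]) h.α_pos hl1 hl2
  refine le_trans ?_ (measure_mono (s := Icc p q) fun τ hτ => ?_)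
  · rw [Real.volume_Icc]
    exact ENNReal.ofReal_le_ofReal (by linarith)
  have h1 : A * t ≤ τ := hp.trans hτ.1
  have h2 : τ ≤ 2 * (A * t) := hτ.2.trans hq
  have h3 : t < τ := by nlinarith
  have h4 : 0 < τ := ht.trans h3
  have hel : P.el τ (y + (τ - t) • v) ∈ Icc l (l * Real.exp P.α) := by
    have h5 := hg τ hτ
    have h6 : 0 < (σ * c2 y + (τ - t) * w) * P.T / (τ + P.T) :=
      lt_of_lt_of_le (by positivity) (hl1.trans h5.1)
    have h7 : 0 < σ * c2 y + (τ - t) * w :=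
      (mul_pos_iff_of_pos_right hT).1 ((div_pos_iff_of_pos_right (by positivity)).1 h6)
    have h8 : |c2 (y + (τ - t) • v)| = σ * c2 y + (τ - t) * w := by
      rw [← abs_of_pos h7, ← hσv, c2_add, c2_smul,
        show σ * c2 y + (τ - t) * (σ * c2 v) = σ * (c2 y + (τ - t) * c2 v) by ring, abs_mul, hσ,
        one_mul]
    rwa [h.el_eq h4.le, h8]
  refine ⟨⟨h3, by linarith⟩, ?_, hv, hw' ▸ hw, ?_, ?_⟩
  · have h5 := ry_add_le y ((τ - t) • v)
    rw [ry_smul, abs_of_pos (sub_pos.2 h3)] at h5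
    have h6 := mul_le_mul_of_nonneg_left ((ry_le_norm v).trans hv) (sub_pos.2 h3).le
    show ry (y + (τ - t) • v) ≤ 3 * P.V * τ / 4
    linarith
  · show |P.ze τ (y + (τ - t) • v)| ≤ _
    have h5 : |c3 (y + (τ - t) • v)| ≤ 3 * P.V * t / 4 + τ * (ζ₄ + w / kap) := by
      rw [c3_add, c3_smul]
      refine (abs_add_le _ _).trans (add_le_add ((abs_c3_le_ry y).trans hy) ?_)
      rw [abs_mul, abs_of_pos (sub_pos.2 h3)]
      exact mul_le_mul (by linarith) hw3 (abs_nonneg _) h4.le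
    have h6 : τ * w / 2 ≤ P.el τ (y + (τ - t) • v) := by
      have h7 := mul_le_mul_of_nonneg_right h2 hw0.le
      have h8 : 0 < A * t * w := by positivity
      linarith [hel.1]
    have h7 : 2 * P.V * t ≤ τ * (1 - ζ₄) :=
      calc 2 * P.V * t ≤ A * (1 - ζ₄) * t := mul_le_mul_of_nonneg_right hA3 ht.le
        _ = A * t * (1 - ζ₄) := by ring
        _ ≤ _ := mul_le_mul_of_nonneg_right h1 hζ'.le
    have h8 := mul_le_mul_of_nonneg_left (L6_kap h hw0.le) h4.le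
    have h9 := mul_le_mul_of_nonneg_left h6 (by linarith : 0 ≤ P.L)
    have h10 : 0 ≤ P.L * P.el τ (y + (τ - t) • v) := mul_nonneg (by linarith) (P.el_nonneg _ _)
    have h11 := mul_le_mul_of_nonneg_right (le_max_left (1 / 2) ((1 + ζ₄) / 2)) h10
    have h12 := mul_le_mul_of_nonneg_right (le_max_right (1 / 2) ((1 + ζ₄) / 2)) h4.le
    have h13 : 0 < P.V * t := by positivity
    rw [ze, abs_div, abs_of_pos (by linarith : 0 < τ + P.L * P.el τ (y + (τ - t) • v)),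
      div_le_iff₀ (by linarith)]
    linarith
  · have h5 := hl3 _ hel
    exact le_max_of_le_left (by unfold osc; linarith)

/-- `dens_GC` with `b = opp w`, `‖w - u‖ ≥ 1/2`, `good_dir` with `η = 2 kap`, `Rng.phi_ge`
(`phi ≥ 1/5`). -/
theorem local_O (h : P.OK) {κ₄ ζ₅ : ℝ} (hζ : ζ₅ < 1) : ∃ c : ℝ, 0 < c ∧ ∀ᶠ r in 𝓝[>] (0 : ℝ),
    P.Rng r → ∀ τ t', 0 < τ → τ ≤ t' → t' ≤ P.t₀ r → ∀ y w, (y, w) ∈ P.setO κ₄ ζ₅ τ →
      ENNReal.ofReal (c / τ) ≤ ∫⁻ u, P.E0 r τ y u * ∫⁻ ω, cw w u ω *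
        ENNReal.ofReal (P.phi t' (y + (t' - τ) • postVelStar w u ω) (postVelStar w u ω))
        ∂sphereMeasure := by
  obtain ⟨c, hc, h1⟩ := dens_GC h (by norm_num : (0 : ℝ) < 1 / 4) hζ
  have hcL := cL_pos
  have hk := kap_pos
  have hk' := kap_le
  have hV := h.V_ge
  refine ⟨c * (cL / 20), by positivity, ?_⟩
  filter_upwards [h1, E0c_le_amp h, Wg_supp h hk] with r h1 h2 h3 hr τ t' hτ hτt ht' y w hyw
  obtain ⟨hy, hw, -, hz, hf⟩ : ry y ≤ 3 * P.V * τ / 4 ∧ ‖w‖ ≤ 3 * P.V / 4 ∧ κ₄ ≤ |c2 w| ∧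
    |P.ze τ y| ≤ ζ₅ ∧ 1 / 4 ≤ ff (P.osc (opp w) (P.el τ y)) := hyw
  have hVτ : 0 < P.V * τ := by positivity
  have h4 := h1 τ ⟨hτ, hτt.trans ht'⟩ y (opp w) (by linarith) hz hf
  rw [mul_div_right_comm, ENNReal.ofReal_mul (by positivity)]
  refine (mul_le_mul_left h4 _).trans ?_
  rw [← lintegral_mul_const' _ _ ENNReal.ofReal_ne_top]
  refine lintegral_mono fun u => ?_
  by_cases hu : P.E0c r (opp w) τ y u = 0
  · simp [hu]
  have h5 : P.Wg r 0 (opp w) τ y u := by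
    by_contra h5
    have h6 := h2 (opp w) τ y u hτ.le
    rw [amp, if_neg h5] at h6
    exact hu (le_antisymm h6 zero_le)
  obtain ⟨u1, u2, u3, -⟩ := h3 0 (Nat.zero_le _) _ _ _ _ hτ.le h5
  have hd : 1 / 2 ≤ ‖w - u‖ := by
    have h6 := (abs_zero_le_norm _).trans u1
    have h7 := abs_zero_le_norm (w - u)
    have h8 := sgn_opp w
    rw [PiLp.sub_apply, U_zero] at h6
    rw [PiLp.sub_apply] at h7
    obtain ⟨h9, h10⟩ := abs_le.1 h6
    obtain ⟨h11, h12⟩ := abs_le.1 h7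
    cases hb : opp w
    · rw [hb, show sgn false = -1 from rfl] at h8 h9 h10
      linarith
    · rw [hb, show sgn true = 1 from rfl] at h8 h9 h10
      linarith
  refine mul_le_mul' ?_ (le_trans ?_ (good_dir w u (η := 2 * kap) (by positivity)
    (ψ := fun v => ENNReal.ofReal (P.phi t' (y + (t' - τ) • v) v)) (c := ENNReal.ofReal (1 / 5))
    fun ω hω hη => ?_))
  · have := le_perz (P.E0c r) (opp w) 0 τ y u
    rwa [lat_zero, sub_zero] at this
  · rw [← ENNReal.ofReal_mul (by norm_num)]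
    refine ENNReal.ofReal_le_ofReal ?_
    have h6 : √(2 * kap * ‖w - u‖) ≤ √kap * (2 * ‖w - u‖) := by
      rw [show 2 * kap * ‖w - u‖ = kap * (2 * ‖w - u‖) by ring, Real.sqrt_mul hk.le]
      refine mul_le_mul_of_nonneg_left (Real.sqrt_le_iff.2 ⟨by positivity, by nlinarith⟩)
        (Real.sqrt_nonneg _)
    have h7 := mul_le_mul_of_nonneg_left h6 (by linarith [one_le_Cb] : 0 ≤ Cb)
    rw [← mul_assoc, sqrt_kap] at h7
    have h8 := mul_le_mul_of_nonneg_left hd hcL.le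
    linarith
  · have h6 := post_energy' hω w u
    have h7 := norm_postVelStar_le hω w u
    generalize postVelStar w u ω = v at hη h6 h7 ⊢
    have h8 : kap < |c2 v| := by
      have := abs_sub (c2 v) (c2 u)
      linarith
    have h9 : ry (y + (t' - τ) • v) ≤ P.V * t' := by
      have h10 := ry_add_le y ((t' - τ) • v)
      rw [ry_smul, abs_of_nonneg (sub_nonneg.2 hτt)] at h10
      have h11 := mul_le_mul_of_nonneg_left ((ry_le_norm v).trans (by linarith : ‖v‖ ≤ P.V))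
        (sub_nonneg.2 hτt)
      linarith
    have h10 := hr.phi_ge h ⟨hτ.trans_le hτt, ht'⟩ h9 v
    rw [if_neg (not_le.2 h8), sub_zero] at h10
    refine ENNReal.ofReal_le_ofReal (le_trans ?_ h10)
    have h11 : ‖v‖ ^ 2 / P.V ^ 2 ≤ 3 / 5 := by
      rw [div_le_iff₀ (by positivity)]
      have h12 := pow_le_pow_left₀ (norm_nonneg _) hw 2
      have h13 := pow_le_pow_left₀ (norm_nonneg _) u2 2
      have h14 := pow_le_pow_left₀ (by norm_num) hV 2
      have h15 := sq_nonneg ‖postVel w u ω‖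
      linarith
    have h12 := Real.add_one_le_exp (-(1 / 10))
    calc (1 / 5 : ℝ) ≤ 9 / 10 * (2 / 5) := by norm_num
      _ ≤ _ := mul_le_mul (by linarith) (by linarith) (by norm_num) (Real.exp_pos _).le

/-- `TS.transfer` (`s₀ = t`, `ψ = phi (2 A₁ t)`), `TS.gain_test` with `local_O`, `TS.fly` from `t` to
`τ`, Tonelli and `meet`. -/
theorem massG_le (h : P.OK) {κ₄ ζ₄ : ℝ} (hκ : 0 < κ₄) (hζ : ζ₄ < 1) : ∃ A₁ : ℝ, ∃ C : ℝ≥0, 1 ≤ A₁ ∧
    ∀ᶠ r in 𝓝[>] (0 : ℝ), P.Rng r → ∀ σ g F, P.Sol r σ g F → ∀ t, 0 < t → 2 * A₁ * t ≤ P.t₀ r →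
      P.massG κ₄ ζ₄ F t ≤ C * P.Nf (2 * A₁ * t) (unc F (2 * A₁ * t)) := by
  obtain ⟨A, ζ₅, hA, hζ₅, h1⟩ := meet h hκ hζ
  obtain ⟨c, hc, h2⟩ := local_O h (κ₄ := κ₄) hζ₅
  have hα := h.α_pos
  have hV := h.V_ge
  obtain ⟨K, hK⟩ : ∃ K, K = Real.exp (-((P.b₀ * (2 * A) + 1) * (1 + P.V))) := ⟨_, rfl⟩
  have hK0 : 0 < K := hK ▸ Real.exp_pos _
  refine ⟨A, (16 / (K * K * c * P.α)).toNNReal, hA, ?_⟩
  filter_upwards [h1, h2, Ecal_supp h (half_pos hκ), h.ev_t₀ h.t₁_pos]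
    with r h1 h2 h3 h4 hr σ g F hS t ht ht'
  have hF := hS.ts.reg.meas
  have htt : t ≤ 2 * A * t := by nlinarith
  have hO := P.measurableSet_setO κ₄ ζ₅
  obtain ⟨I, hI⟩ : ∃ I : Fn, ∀ s y v, I s y v = (P.setO κ₄ ζ₅ s).indicator 1 (y, v) :=
    ⟨_, fun _ _ _ => rfl⟩
  have hIm : Meas I := by
    have h5 : Measurable ({p : ℝ × R3 × R3 | p.2 ∈ P.setO κ₄ ζ₅ p.1}.indicator
      (1 : ℝ × R3 × R3 → ℝ≥0∞)) := measurable_one.indicator hO
    rw [Meas, show (fun p : ℝ × R3 × R3 => I p.1 p.2.1 p.2.2) = _ from funext fun p => hI _ _ _]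
    exact h5
  have hphi : Meas fun s y v => ENNReal.ofReal (P.phi s y v) := P.measurable_phi.ennreal_ofReal
  -- gains followed by free flight
  have h5 := hS.ts.transfer hS.ok hS.mg ht htt (ht'.trans h4.2) le_rfl (V := P.V)
    (ψ := fun x v => ENNReal.ofReal (P.phi (2 * A * t) x v)) (hphi.time _)
    (fun x v c => by rw [phi_single]) fun x v hx => by
      by_contra h5
      exact hx (by rw [phi, if_neg fun h6 => h5 h6.2.1, ENNReal.ofReal_zero])
  -- one collision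
  have h6 : ∀ s ∈ Ioc t (2 * A * t), ∀ y, ENNReal.ofReal (c / (2 * A * t)) *
      ∫⁻ v, F s y v * I s y v ≤ ∫⁻ v, (P.D1 r).gain F s y v *
        ENNReal.ofReal (P.phi (2 * A * t) (y + (2 * A * t - s) • v) v) := by
    intro s hs y
    have hs0 := ht.trans hs.1
    have hm : MeasurableSet {w | (y, w) ∈ P.setO κ₄ ζ₅ s} :=
      hO.preimage (f := fun w => (s, y, w)) (by fun_prop)
    refine le_trans (le_of_eq ?_) (hS.ts.gain_test hS.ok ⟨hs0.le, hs.2.trans (ht'.trans h4.2)⟩ y hm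
      (fun u hu => ?_) (ψ := fun v => ENNReal.ofReal (P.phi (2 * A * t) (y + (2 * A * t - s) • v) v))
      (path_meas_comp hphi measurable_const (by fun_prop) measurable_id)
      (c := ENNReal.ofReal (c / (2 * A * t))) fun w hw => ?_)
    · rw [← lintegral_indicator hm]
      congr 1
      refine lintegral_congr fun v => ?_
      rw [hI]
      by_cases hv : (y, v) ∈ P.setO κ₄ ζ₅ s <;> simp [hv]
    · by_contra h6
      have h7 := (h3 s y u hs0.le fun h7 =>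
        h6 (le_antisymm ((P.E0_le_Ecal r s y u).trans_eq h7) zero_le)).2.1
      have h8 : κ₄ ≤ |c2 u| := hu.2.2.1
      linarith
    · exact (ENNReal.ofReal_le_ofReal (div_le_div_of_nonneg_left hc.le hs0 hs.2)).trans
        (h2 hr s _ hs0 hs.2 ht' y w hw)
  -- free flight
  have h7 : ∀ s ∈ Ioc t (2 * A * t), ENNReal.ofReal K *
      ∫⁻ y in slab, ∫⁻ v, F t y v * I s (y + (s - t) • v) v ≤
        ∫⁻ y in slab, ∫⁻ v, F s y v * I s y v := by
    intro s hs
    rw [hK]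
    refine hS.ts.fly hS.ok hS.mg ht hs.1.le (hs.2.trans (ht'.trans h4.2)) hs.2 (V := P.V)
      (ψ := I s) (hIm.time s) (fun x v c => ?_) fun x v hx => ?_
    · rw [hI, hI]
      have e : (x + EuclideanSpace.single 0 c, v) ∈ P.setO κ₄ ζ₅ s ↔ (x, v) ∈ P.setO κ₄ ζ₅ s := by
        simp only [setO, mem_ofPred_eq, ry_single, ze_single, el_single]
      by_cases hx : (x, v) ∈ P.setO κ₄ ζ₅ s
      · rw [indicator_of_mem hx, indicator_of_mem (e.2 hx)]
        rfl
      · rw [indicator_of_notMem hx, indicator_of_notMem (mt e.1 hx)]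
    · rw [hI] at hx
      have h7 : ‖v‖ ≤ 3 * P.V / 4 := (mem_of_indicator_ne_zero hx).2.1
      linarith
  -- the time spent in the stripe
  have h8 : ENNReal.ofReal (P.α * A * t / 8) * P.massG κ₄ ζ₄ F t ≤
      ∫⁻ s in Ioc t (2 * A * t), ∫⁻ y in slab, ∫⁻ v, F t y v * I s (y + (s - t) • v) v := by
    rw [L6_swap (Φ := fun s y v => F t y v * I s (y + (s - t) • v) v)
      ((path_meas_comp hF measurable_const measurable_snd.fst measurable_snd.snd).mul
        (path_meas_comp hIm measurable_fst (by fun_prop) measurable_snd.snd)),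
      massG, ← lintegral_const_mul' _ _ ENNReal.ofReal_ne_top]
    refine lintegral_mono fun y => ?_
    rw [← lintegral_const_mul' _ _ ENNReal.ofReal_ne_top]
    refine lintegral_mono fun v => ?_
    by_cases hv : (y, v) ∈ P.setG κ₄ ζ₄ t
    · have hm : MeasurableSet {s : ℝ | (y + (s - t) • v, v) ∈ P.setO κ₄ ζ₅ s} :=
        hO.preimage (f := fun s => (s, y + (s - t) • v, v)) (by fun_prop)
      have e : ∫⁻ s in Ioc t (2 * A * t), I s (y + (s - t) • v) v =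
          volume {τ ∈ Ioc t (2 * A * t) | (y + (τ - t) • v, v) ∈ P.setO κ₄ ζ₅ τ} := by
        rw [show (fun s => I s (y + (s - t) • v) v) =
          {s : ℝ | (y + (s - t) • v, v) ∈ P.setO κ₄ ζ₅ s}.indicator 1 from funext fun s => hI _ _ _,
          lintegral_indicator_one hm, Measure.restrict_apply hm, inter_comm]
        rfl
      beta_reduce
      rw [indicator_of_mem hv, lintegral_const_mul' _ _ (hS.ts.reg.fin _ _ _), mul_comm]
      exact mul_le_mul_right ((h1 t ht ht' y v hv).trans_eq e.symm) _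
    · simp [hv]
  have h9 : ENNReal.ofReal (c / (2 * A * t)) * (ENNReal.ofReal K *
      (ENNReal.ofReal (P.α * A * t / 8) * P.massG κ₄ ζ₄ F t)) ≤ ∫⁻ s in Ioc t (2 * A * t),
        ∫⁻ y in slab, ∫⁻ v, (P.D1 r).gain F s y v *
          ENNReal.ofReal (P.phi (2 * A * t) (y + (2 * A * t - s) • v) v) := by
    refine (mul_le_mul_right (mul_le_mul_right h8 _) _).trans ?_
    rw [← lintegral_const_mul' _ _ ENNReal.ofReal_ne_top,
      ← lintegral_const_mul' _ _ ENNReal.ofReal_ne_top]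
    refine setLIntegral_mono' measurableSet_Ioc fun s hs => (mul_le_mul_right (h7 s hs) _).trans ?_
    rw [← lintegral_const_mul' _ _ ENNReal.ofReal_ne_top]
    exact lintegral_mono fun y => h6 s hs y
  have h10 := (mul_le_mul_right h9 (ENNReal.ofReal K)).trans (hK ▸ h5)
  refine le_trans (le_of_eq ?_) (mul_le_mul_right h10 _)
  rw [← mul_assoc, ← mul_assoc, ← mul_assoc, ← mul_assoc, ← ENNReal.ofReal.eq_1,
    ← ENNReal.ofReal_mul (by positivity), ← ENNReal.ofReal_mul (by positivity),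
    ← ENNReal.ofReal_mul (by positivity), ← ENNReal.ofReal_mul (by positivity),
    show 16 / (K * K * c * P.α) * K * (c / (2 * A * t)) * K * (P.α * A * t / 8) = 1 by
      field_simp; norm_num, ENNReal.ofReal_one, one_mul]

theorem massC_le_N (h : P.OK) {Q : HQ} (hQ : Q.OK) : ∃ A₁ : ℝ, ∃ C : ℝ≥0, 1 ≤ A₁ ∧
    ∀ᶠ r in 𝓝[>] (0 : ℝ), P.Rng r → P.Grow r → ∀ σ g F, P.Sol r σ g F → ∀ N : ℝ≥0,
      P.Nf (P.t₀ r) (unc F (P.t₀ r)) ≤ N * ENNReal.ofReal (P.t₀ r ^ 152) →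
      ∀ t, 0 < t → 2 * A₁ * t ≤ P.t₀ r → P.massC Q F t ≤ C * N * ENNReal.ofReal (t ^ 153) := by
  obtain ⟨κ₄, ζ₄, C₁, hκ, hζ, h1⟩ := massC_le h hQ
  obtain ⟨A, C₂, hA, h2⟩ := massG_le h hκ hζ
  refine ⟨A, C₁ * C₂ * ((2 * A) ^ 152).toNNReal, hA, ?_⟩
  filter_upwards [h1, h2] with r h1 h2 hr hG σ g F hS N hN t ht ht'
  have htt : t ≤ 2 * A * t := by nlinarith
  have h3 := (hG σ g F hS _ _ (ht.trans_le htt) ht' le_rfl).trans (mul_le_mul_left hN _)
  have h4 : 0 < P.t₀ r ^ 152 := pow_pos (ht.trans_le (htt.trans ht')) _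
  generalize P.t₀ r ^ 152 = z at h3 h4
  rw [mul_right_comm (N : ℝ≥0∞), ENNReal.mul_le_mul_iff_left (ENNReal.ofReal_pos.2 h4).ne'
    ENNReal.ofReal_ne_top] at h3
  refine (h1 σ g F hS t ⟨ht, htt.trans ht'⟩).trans ((mul_le_mul_right
    ((h2 hr σ g F hS t ht ht').trans (mul_le_mul_right h3 _)) _).trans_eq ?_)
  rw [mul_pow, ENNReal.ofReal_mul (by positivity), pow_succ t 152, ENNReal.ofReal_mul (by positivity),
    ENNReal.coe_mul, ENNReal.coe_mul, ← ENNReal.ofReal.eq_1]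
  generalize ENNReal.ofReal ((2 * A) ^ 152) = a
  generalize ENNReal.ofReal (t ^ 152) = b
  ring

end CP

end Crest.Agent.R68
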