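/-
R68/H5: the Harnack inequality
Skeleton by helper76 (row 68); keep the statements unchanged, add any helper lemmas you like.
-/
import Crest.Agent.R68.H1
import Crest.Agent.R68.H3
import Crest.Agent.R68.H4
import Crest.Agent.R68.L4
import Crest.Agent.R68.L6

set_option autoImplicit false
set_option linter.unusedVariables false
set_option linter.unusedSectionVars false

noncomputable section

namespace Crest.Agent.R68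

open MeasureTheory Set Filter Topology
open scoped ENNReal NNReal
open Crest.AnalysisR.VecCalc3 Crest.AnalysisR.PDE.Boltzmann

namespace CP

variable {P : CP} {Q : HQ}

theorem H5_coef {b η θ : ℝ≥0} (hη : 100 * η * (2 + b) ^ 2 ≤ 1) (hθ : θ = 1 / (2 * (2 + b) ^ 2))
    (X X₂ Y : ℝ≥0∞) :
    (X + η * Y + θ * Y) + ((b / (2 : ℕ) : ℝ≥0) : ℝ≥0∞) * ((X + η * Y + θ * Y) +
      ((b / (2 : ℕ) : ℝ≥0) : ℝ≥0∞) * (X + η * Y + θ * Y) + X₂) ≤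
      (((1 + b) ^ 2 : ℝ≥0) : ℝ≥0∞) * (X + X₂) + Y / 2 := by
  obtain ⟨B, hB⟩ : ∃ B : ℝ≥0, B = b / (2 : ℕ) := ⟨_, rfl⟩
  rw [← hB]
  have hb : (b : ℝ) = 2 * B := by
    rw [hB]; push_cast; ring
  have hB0 : (0 : ℝ) ≤ B := B.2
  have hη0 : (0 : ℝ) ≤ η := η.2
  have hη' : 100 * (η : ℝ) * (2 + b) ^ 2 ≤ 1 := by exact_mod_cast hη
  have hθ' : (θ : ℝ) * (2 * (2 + b) ^ 2) = 1 := by
    rw [hθ]; push_cast
    have : (0 : ℝ) < 2 * (2 + b) ^ 2 := by positivity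
    field_simp
  have hθ0 : (0 : ℝ) ≤ θ := θ.2
  have e1 : (X + η * Y + θ * Y) + (B : ℝ≥0∞) * ((X + η * Y + θ * Y) +
      (B : ℝ≥0∞) * (X + η * Y + θ * Y) + X₂) =
      ((1 + B + B ^ 2 : ℝ≥0) : ℝ≥0∞) * X + (B : ℝ≥0∞) * X₂ +
        (((η + θ) * (1 + B + B ^ 2) : ℝ≥0) : ℝ≥0∞) * Y := by
    push_cast; ring
  have e2 : (((1 + b) ^ 2 : ℝ≥0) : ℝ≥0∞) * (X + X₂) + Y / 2 =
      (((1 + b) ^ 2 : ℝ≥0) : ℝ≥0∞) * X + (((1 + b) ^ 2 : ℝ≥0) : ℝ≥0∞) * X₂ +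
        ((2⁻¹ : ℝ≥0) : ℝ≥0∞) * Y := by
    rw [mul_add, ENNReal.coe_inv two_ne_zero, div_eq_mul_inv, mul_comm Y]
    rfl
  rw [e1, e2]
  have i1 : (1 + B + B ^ 2 : ℝ≥0) ≤ (1 + b) ^ 2 := by
    rw [← NNReal.coe_le_coe]; push_cast; rw [hb]; nlinarith
  have i2 : B ≤ (1 + b) ^ 2 := by
    rw [← NNReal.coe_le_coe]; push_cast; rw [hb]; nlinarith
  have i3 : ((η + θ) * (1 + B + B ^ 2) : ℝ≥0) ≤ 2⁻¹ := by
    rw [← NNReal.coe_le_coe]; push_cast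
    rw [hb] at hη' hθ'
    have : (η + θ : ℝ) * (1 + B + B ^ 2) ≤ (η + θ) * (1 + B) ^ 2 :=
      mul_le_mul_of_nonneg_left (by nlinarith) (by positivity)
    nlinarith
  gcongr

theorem H5_coef' {b η : ℝ≥0} (hη : 400 * η ≤ 1) (X X₂ Y : ℝ≥0∞) :
    X + η * Y + Y * 8⁻¹ ≤ (((1 + b) ^ 2 : ℝ≥0) : ℝ≥0∞) * (X + X₂) + Y / 2 := by
  have e1 : X + η * Y + Y * 8⁻¹ = X + ((η + 8⁻¹ : ℝ≥0) : ℝ≥0∞) * Y := by
    rw [ENNReal.coe_add, ENNReal.coe_inv (by norm_num), add_mul, add_assoc, mul_comm Y]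
    rfl
  have e2 : Y / 2 = ((2⁻¹ : ℝ≥0) : ℝ≥0∞) * Y := by
    rw [ENNReal.coe_inv two_ne_zero, div_eq_mul_inv, mul_comm Y]
    rfl
  have i1 : (η + 8⁻¹ : ℝ≥0) ≤ 2⁻¹ := by
    have : 400 * (η : ℝ) ≤ 1 := by exact_mod_cast hη
    rw [← NNReal.coe_le_coe]; push_cast; linarith
  have i2 : (1 : ℝ≥0∞) ≤ (((1 + b) ^ 2 : ℝ≥0) : ℝ≥0∞) := by
    rw [← ENNReal.coe_one, ENNReal.coe_le_coe]
    exact one_le_pow₀ le_self_add
  rw [e1, e2]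
  refine add_le_add ?_ (by gcongr)
  calc X ≤ 1 * (X + X₂) := by rw [one_mul]; exact le_self_add
    _ ≤ _ := by gcongr

theorem H5_lev {ρ ρ' εc t s : ℝ} {x v z : R3} (hρ : ρ' = 2 * ρ) (hs : s ∈ P.gt Q ρ εc t x v)
    (hz : z ∈ P.gd Q ρ v) : P.Lev ρ' s (x - (t - s) • v) z ∧ Q.κ₁ ≤ |c2 z| := by
  subst hρ
  exact ⟨⟨hs.2.2.1, hz.1⟩, hz.2.1⟩

/-- One improvement step.  By invariance (`exists_dd`, `inv_hot`) assume `ry x = dd x`.  Start from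
`TS.hot_le` with `X' = X + η Y`.  Outer zone: `Outer`.  Inner zone `Lev (1/16)`: three levels.
Level 3 (`Lev (1/4)`, `κ₁ ≤ |c2|`): `hot ≤ (X' + θ Y) t² W + mainT (1/4) εc hot`.
Level 2 (`Lev (1/8)`, `κ₁ ≤ |c2|`): the good inputs are at level 3, so (`mainT_mono`, `mainT_add`,
`mainT_le_PI`, `PI_E0W_pw`) `hot ≤ ((X' + θ Y) (1 + b₁ / 2) + X₂) t² W`.
Level 1 (`εc = 0`): the good inputs are at level 2.  Finally
`(η + θ) (1 + b₁ / 2)² ≤ 1 / 2` (`η_small`). -/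
theorem harnack_step (h : P.OK) (hQ : Q.OK) {r : ℝ} (hO : P.Outer r) (hS : P.Split Q r) {σ : ℝ≥0}
    {g F : Fn} (hF : P.Sol r σ g F) {t' : ℝ} (ht₀ : t' ≤ P.t₀ r) (ht₁ : t' ≤ P.t₁) {X X₂ Y : ℝ≥0∞}
    (hX : LeOn 0 t' ((σ : ℝ≥0∞) • PI g 0) (X • (pw 2 * P.W)))
    (hX₂ : ∀ t ∈ Ioc 0 t', ∀ x v, P.Lev (1 / 8) t x v →
      P.mainT Q r (1 / 8) Q.εc (P.mainT Q r (1 / 4) Q.εc ((P.D1 r).hot F)) t x v ≤
        X₂ * (pw 2 * P.W) t x v)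
    (hY : LeOn 0 t' ((P.D1 r).hot F) (Y • (pw 2 * P.W))) :
    LeOn 0 t' ((P.D1 r).hot F)
      ((((1 + b1v P.V) ^ 2 : ℝ≥0) * (X + X₂) + Y / 2) • (pw 2 * P.W)) := by
  have hD := hF.ok
  obtain ⟨Z, hZ⟩ : ∃ Z : Fn, Z = pw 2 * P.W := ⟨_, rfl⟩
  obtain ⟨u, hu⟩ : ∃ u : Fn, u = (P.D1 r).hot F := ⟨_, rfl⟩
  have rZ : Reg Z := hZ ▸ (reg_pw 2).mul (reg_W h)
  have mu : Meas u := hu ▸ hD.meas_hot hF.ts.reg.meas
  have iu : InvF u := hu ▸ hD.inv_hot hF.ts.reg.inv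
  have mE : Meas (P.E0 r) := (P.meas_E0 r).1
  have h1 : LeOn 0 t' u ((X + P.η * Y) • Z +
      AI (P.D1 r).att ((2 : ℝ≥0∞) • GN (P.E0 r) u) 0) := by
    rw [hu, hZ]
    exact P1.TS.hot_le hD hF.mg hF.ts ht₁ hX hY
  have hpi : ∀ M : ℝ≥0∞, LeOn 0 t' (PI ((2 : ℝ≥0∞) • GN (P.E0 r) (M • Z)) 0)
      ((((b1v P.V / (2 : ℕ) : ℝ≥0) : ℝ≥0∞) * M) • Z) := by
    intro M
    rw [hZ]
    exact P1.PA2_PI_E0 hD ht₁ (c := 2) (by norm_num) fun _ _ _ _ => le_rfl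
  have hS' := hS
  unfold Split at hS'
  have hO' := hO
  unfold Outer at hO'
  rw [← hZ] at hS' hO'
  rw [← hu, ← hZ] at hX₂ hY ⊢
  obtain ⟨X', hX'⟩ : ∃ X', X' = X + P.η * Y + P.θH * Y := ⟨_, rfl⟩
  obtain ⟨B, hB⟩ : ∃ B : ℝ≥0∞, B = ((b1v P.V / (2 : ℕ) : ℝ≥0) : ℝ≥0∞) := ⟨_, rfl⟩
  rw [← hB] at hpi
  -- one level
  have lev : ∀ ρ ∈ Icc (1 / 16 : ℝ) (1 / 4), ∀ t ∈ Ioc 0 t', ∀ x v, P.Lev ρ t x v →
      ∀ εc : ℝ, (εc = 0 ∨ (εc = Q.εc ∧ Q.κ₁ ≤ |c2 v|)) →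
      u t x v ≤ X' * Z t x v + P.mainT Q r ρ εc u t x v := by
    intro ρ hρ t ht x v hL εc hε
    have a1 := h1 t ⟨ht.1.le, ht.2⟩ x v
    have a2 := AI_le_PI (P.D1 r).att ((2 : ℝ≥0∞) • GN (P.E0 r) u) 0 t x v
    have a3 := hS' ρ hρ t ⟨ht.1, ht.2.trans ht₀⟩ x v hL εc hε u Y mu (hY.oc.mono ht.2)
    calc u t x v ≤ (X + P.η * Y) * Z t x v +
          AI (P.D1 r).att ((2 : ℝ≥0∞) • GN (P.E0 r) u) 0 t x v := a1
      _ ≤ (X + P.η * Y) * Z t x v + (P.θH * Y * Z t x v + P.mainT Q r ρ εc u t x v) :=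
          add_le_add le_rfl (a2.trans a3)
      _ = _ := by rw [hX']; ring
  have mainZ : ∀ ρ εc : ℝ, ∀ t ∈ Ioc 0 t', ∀ x v, ∀ M : ℝ≥0∞,
      P.mainT Q r ρ εc (M • Z) t x v ≤ B * M * Z t x v := fun ρ εc t ht x v M =>
    (mainT_le_PI hQ r ρ εc ht.1 x v _).trans (hpi M t ⟨ht.1.le, ht.2⟩ x v)
  have lev2 : ∀ t ∈ Ioc 0 t', ∀ x v, P.Lev (1 / 8) t x v → Q.κ₁ ≤ |c2 v| →
      u t x v ≤ (X' + B * X' + X₂) * Z t x v := by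
    intro t ht x v hL hκ
    have a1 := lev (1 / 8) ⟨by norm_num, by norm_num⟩ t ht x v hL Q.εc (Or.inr ⟨rfl, hκ⟩)
    have a2 : P.mainT Q r (1 / 8) Q.εc u t x v ≤
        P.mainT Q r (1 / 8) Q.εc (X' • Z + P.mainT Q r (1 / 4) Q.εc u) t x v := by
      refine mainT_mono fun s hs z hz => ?_
      have hs' := gt_subset hQ ht.1 x v hs
      obtain ⟨l1, l2⟩ := H5_lev (ρ' := 1 / 4) (by norm_num) hs hz
      exact lev (1 / 4) ⟨by norm_num, le_rfl⟩ s ⟨hs'.1, hs'.2.trans ht.2⟩ _ z l1 Q.εc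
        (Or.inr ⟨rfl, l2⟩)
    rw [mainT_add r _ _ (rZ.meas.smul X') (P.meas_mainT Q r _ _ mu)] at a2
    calc u t x v ≤ X' * Z t x v + (P.mainT Q r (1 / 8) Q.εc (X' • Z) t x v +
          P.mainT Q r (1 / 8) Q.εc (P.mainT Q r (1 / 4) Q.εc u) t x v) :=
          a1.trans (add_le_add le_rfl a2)
      _ ≤ X' * Z t x v + (B * X' * Z t x v + X₂ * Z t x v) :=
          add_le_add le_rfl (add_le_add (mainZ _ _ t ht x v X') (hX₂ t ht x v hL))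
      _ = _ := by ring
  have lev1 : ∀ t ∈ Ioc 0 t', ∀ x v, P.Lev (1 / 16) t x v →
      u t x v ≤ (X' + B * (X' + B * X' + X₂)) * Z t x v := by
    intro t ht x v hL
    have a1 := lev (1 / 16) ⟨le_rfl, by norm_num⟩ t ht x v hL 0 (Or.inl rfl)
    have a2 : P.mainT Q r (1 / 16) 0 u t x v ≤
        P.mainT Q r (1 / 16) 0 ((X' + B * X' + X₂) • Z) t x v := by
      refine mainT_mono fun s hs z hz => ?_
      have hs' := gt_subset hQ ht.1 x v hs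
      obtain ⟨l1, l2⟩ := H5_lev (ρ' := 1 / 8) (by norm_num) hs hz
      exact lev2 s ⟨hs'.1, hs'.2.trans ht.2⟩ _ z l1 l2
    calc u t x v ≤ X' * Z t x v + B * (X' + B * X' + X₂) * Z t x v :=
          a1.trans (add_le_add le_rfl (a2.trans (mainZ _ _ t ht x v _)))
      _ = _ := by ring
  have out : ∀ t ∈ Ioc 0 t', ∀ x v, (P.V * t / 16 ≤ dd x ∨ P.V / 16 ≤ ‖v‖) →
      u t x v ≤ (X + P.η * Y + Y * 8⁻¹) * Z t x v := by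
    intro t ht x v hz
    have a1 := h1 t ⟨ht.1.le, ht.2⟩ x v
    have a2 : LeOn 0 t' (AI (P.D1 r).att ((2 : ℝ≥0∞) • GN (P.E0 r) u) 0)
        (AI (P.D1 r).att ((2 : ℝ≥0∞) • GN (P.E0 r) (Y • Z)) 0) :=
      AI_mono (fun _ _ _ _ => le_rfl) ((GN_mono (fun _ _ _ _ => le_rfl) hY).smul 2)
    rw [GN_smul_right mE rZ.meas, smul_comm, AI_smul hD.meas_att ((mE.GN rZ.meas).smul 2)] at a2
    have a3 := a2 t ⟨ht.1.le, ht.2⟩ x v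
    have a4 := hO' t ⟨ht.1, ht.2.trans ht₁⟩ x v hz
    calc u t x v ≤ (X + P.η * Y) * Z t x v +
          AI (P.D1 r).att ((2 : ℝ≥0∞) • GN (P.E0 r) u) 0 t x v := a1
      _ ≤ (X + P.η * Y) * Z t x v + Y * (8⁻¹ * Z t x v) :=
          add_le_add le_rfl (a3.trans (mul_le_mul_right a4 Y))
      _ = _ := by ring
  have key : ∀ t ∈ Ioc 0 t', ∀ x v, ry x = dd x →
      u t x v ≤ ((((1 + b1v P.V) ^ 2 : ℝ≥0) : ℝ≥0∞) * (X + X₂) + Y / 2) * Z t x v := by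
    intro t ht x v hx
    by_cases hz : P.V * t / 16 ≤ dd x ∨ P.V / 16 ≤ ‖v‖
    · exact (out t ht x v hz).trans (mul_le_mul_left (H5_coef' hD.η_le X X₂ Y) _)
    · push Not at hz
      refine (lev1 t ht x v ⟨by rw [hx]; linarith [hz.1], by linarith [hz.2]⟩).trans
        (mul_le_mul_left ?_ _)
      rw [hX', hB]
      exact H5_coef hD.η_small rfl X X₂ Y
  intro t ht x v
  rcases ht.1.eq_or_lt with h0 | h0
  · have a1 := hY t ht x v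
    have a2 : Z t x v = 0 := by
      rw [hZ, ← h0]
      simp [pw, tm]
    change u t x v ≤ Y * Z t x v at a1
    rw [a2, mul_zero] at a1
    exact a1.trans zero_le
  · obtain ⟨k, hk⟩ := exists_dd x
    have a1 := key t ⟨h0, ht.2⟩ (x + -lat k) v (by
      rw [dd_add_Gam x (neg_lat_mem k), hk, sub_eq_add_neg])
    rw [iu t x v _ (neg_lat_mem k), rZ.inv t x v _ (neg_lat_mem k)] at a1
    exact a1

/-- `mainT_double`, `massC_le_N`, `W_ge`. -/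
theorem main_le (h : P.OK) (hQ : Q.OK) : ∃ A₁ : ℝ, ∃ C : ℝ≥0, 1 ≤ A₁ ∧ ∀ᶠ r in 𝓝[>] (0 : ℝ),
    P.Rng r → P.Grow r → ∀ σ g F, P.Sol r σ g F → ∀ N : ℝ≥0,
      P.Nf (P.t₀ r) (unc F (P.t₀ r)) ≤ N * ENNReal.ofReal (P.t₀ r ^ 152) →
      ∀ t ∈ Ioc 0 (P.t₀ r / (2 * A₁)), ∀ x v, P.Lev (1 / 8) t x v →
        P.mainT Q r (1 / 8) Q.εc (P.mainT Q r (1 / 4) Q.εc ((P.D1 r).hot F)) t x v ≤
          C * N * (pw 2 * P.W) t x v := by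
  obtain ⟨C₁, h₁⟩ := mainT_double h hQ
  obtain ⟨A₁, C₂, hA, h₂⟩ := massC_le_N h hQ
  refine ⟨A₁, C₁ * C₂ * (Real.exp (3 * (1 / 8 * P.V) ^ 2)).toNNReal, hA, ?_⟩
  filter_upwards [h₁, h₂, h.ev_t₀ one_pos] with r h₁ h₂ h₃ hR hG σ g F hF N hN t ht x v hL
  have ht1 : 2 * A₁ * t ≤ P.t₀ r := by
    have := (le_div_iff₀ (by linarith : (0 : ℝ) < 2 * A₁)).1 ht.2
    linarith
  have ht0 := ht.1
  have ht2 : t ≤ P.t₀ r := by nlinarith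
  have ht3 : t ≤ 1 := ht2.trans h₃.2
  have a1 := h₁ t ⟨ht0, ht2⟩ x v ((P.D1 r).hot F) F (hF.ok.meas_hot hF.ts.reg.meas) hF.ts.reg.meas
    hF.ts.reg.inv.inv1 tsub_le_self
  have a2 := h₂ hR hG σ g F hF N hN t ht0 ht1
  have a3 : ENNReal.ofReal (Real.exp (-(3 * (1 / 8 * P.V) ^ 2))) ≤ P.W t x v :=
    W_ge ⟨ht0, ht3⟩ hL.2 ((dd_le_ry x).trans hL.1)
  have a4 : 1 ≤ ENNReal.ofReal (Real.exp (3 * (1 / 8 * P.V) ^ 2)) * P.W t x v := by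
    refine le_trans (le_of_eq ?_) (mul_le_mul_right a3 _)
    rw [← ENNReal.ofReal_mul (Real.exp_pos _).le, ← Real.exp_add, add_neg_cancel, Real.exp_zero,
      ENNReal.ofReal_one]
  have a5 : ENNReal.ofReal (t⁻¹ ^ 148) * ENNReal.ofReal (t ^ 153) ≤ ENNReal.ofReal (t ^ 2) := by
    rw [← ENNReal.ofReal_mul (by positivity)]
    refine ENNReal.ofReal_le_ofReal ?_
    have : t⁻¹ ^ 148 * t ^ 153 = t ^ 5 := by field_simp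
    rw [this]
    exact pow_le_pow_of_le_one ht0.le ht3 (by norm_num)
  calc _ ≤ C₁ * ENNReal.ofReal (t⁻¹ ^ 148) * (C₂ * N * ENNReal.ofReal (t ^ 153)) :=
        a1.trans (mul_le_mul_right a2 _)
    _ = C₁ * C₂ * N * (ENNReal.ofReal (t⁻¹ ^ 148) * ENNReal.ofReal (t ^ 153)) * 1 := by ring
    _ ≤ C₁ * C₂ * N * ENNReal.ofReal (t ^ 2) *
        (ENNReal.ofReal (Real.exp (3 * (1 / 8 * P.V) ^ 2)) * P.W t x v) := by gcongr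
    _ = _ := by
        change _ = _ * (ENNReal.ofReal (t ^ 2) * P.W t x v)
        rw [ENNReal.coe_mul, ENNReal.coe_mul]
        change _ = _ * ENNReal.ofReal (Real.exp (3 * (1 / 8 * P.V) ^ 2)) * _ * _
        ring

/-- The Harnack inequality, extended to `[0, t₁]`: `le_of_improve` with `harnack_step`, `src_small`,
`main_le`, then `TS.extend`. -/
theorem harnack : ∃ V₀ : ℝ, ∀ V, V₀ ≤ V → ∀ P : CP, P.OK → P.V = V → ∃ C : ℝ≥0,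
    ∀ᶠ r in 𝓝[>] (0 : ℝ), P.Rng r → P.Grow r → ∀ s₀ : ℝ≥0, 0 < s₀ → 2 * (s₀ : ℝ) ≤ P.t₀ r →
      ∀ σ F, P.Sol r σ (src s₀) F → ∀ N : ℝ≥0,
        P.Nf (P.t₀ r) (unc F (P.t₀ r)) ≤ N * ENNReal.ofReal (P.t₀ r ^ 152) →
        LeOn 0 P.t₁ F ((P.D1 r).env (C * N * ENNReal.ofReal ((P.t₀ r)⁻¹ ^ P.n₂)) 2) := by
  obtain ⟨V₁, hO⟩ := outer
  obtain ⟨V₂, hS⟩ := split
  refine ⟨max V₁ V₂, fun V hV P h hPV => ?_⟩
  obtain ⟨Q, hQ, hS⟩ := hS V ((le_max_right _ _).trans hV)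
  obtain ⟨A₁, C₂, hA, hM⟩ := main_le h hQ
  obtain ⟨C₁, hsrc⟩ := src_small h
  refine ⟨4 * (1 + b1v P.V) * (2 * (1 + b1v P.V) ^ 2 * (C₁ + C₂)) * ((2 * A₁) ^ P.n₂).toNNReal, ?_⟩
  filter_upwards [hO P h (hPV ▸ (le_max_left _ _).trans hV), hS P h hPV, hM, hsrc,
    h.ev_t₀ h.t₁_pos] with r hO hS hM hsrc ht hR hG s₀ hs₀ hs₀' σ F hF N hN
  have hD := hF.ok
  have ht₁ := h.t₁_le
  obtain ⟨t', ht'⟩ : ∃ t', t' = P.t₀ r / (2 * A₁) := ⟨_, rfl⟩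
  have hA' : (0 : ℝ) < 2 * A₁ := by linarith
  have h0 : 0 < t' := ht' ▸ div_pos ht.1 hA'
  have h1 : t' ≤ P.t₀ r := ht' ▸ div_le_self ht.1.le (by linarith)
  have h2 : t' ≤ P.t₁ := h1.trans ht.2
  have hs1 : s₀ ≤ 1 := by
    rw [← NNReal.coe_le_coe]; push_cast; linarith [ht.2]
  have hX := hsrc hR hG s₀ hs₀ hs₀' σ F hF N hN
  have hX₂ := hM hR hG σ _ F hF N hN
  rw [← ht'] at hX₂
  obtain ⟨M, hM0⟩ := hF.ts.bd
  have rZ : Reg (pw 2 * P.W) := (reg_pw 2).mul (reg_W h)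
  have hY := le_of_improve rZ.fin (ENNReal.coe_ne_top (r := M))
    (((P1.le_env_iff hD).1 hM0).mono le_rfl h2)
    fun Y _ hY => harnack_step h hQ hO hS hF h1 h2 (hX.mono le_rfl h2) hX₂ hY
  obtain ⟨X, hXd⟩ : ∃ X : ℝ≥0, X = 2 * (1 + b1v P.V) ^ 2 * (C₁ + C₂) * N := ⟨_, rfl⟩
  have hb : (1 : ℝ≥0) ≤ (1 + b1v P.V) ^ 2 := one_le_pow₀ le_self_add
  have b1 : C₁ * N * s₀ ≤ C₁ * N := mul_le_of_le_one_right' hs1
  have b2 : C₁ * N * s₀ ≤ X := by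
    calc C₁ * N * s₀ ≤ 1 * 1 * C₁ * N := by rw [one_mul, one_mul]; exact b1
      _ ≤ X := by
        rw [hXd]
        gcongr
        · norm_num
        · exact le_self_add
  have b3 : 2 * ((((1 + b1v P.V) ^ 2 : ℝ≥0) : ℝ≥0∞) * (((C₁ * N * s₀ : ℝ≥0) : ℝ≥0∞) + C₂ * N)) ≤
      X := by
    calc _ ≤ 2 * ((((1 + b1v P.V) ^ 2 : ℝ≥0) : ℝ≥0∞) * (((C₁ * N : ℝ≥0) : ℝ≥0∞) + C₂ * N)) := by
          gcongr
      _ = X := by rw [hXd]; push_cast; ring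
  have hE := P1.TS.extend hD hF.mg hF.ts h0 h2 (X := X)
    (fun t ht x v => (hX t ht x v).trans (mul_le_mul_left (ENNReal.coe_le_coe.2 b2) _))
    (fun t ht x v => (hY t ht x v).trans (mul_le_mul_left b3 _))
  refine hE.trans (P1.env_mono hD ?_ le_rfl)
  have b4 : ENNReal.ofReal ((P.t₁ / t') ^ P.n₂) ≤
      ENNReal.ofReal ((2 * A₁) ^ P.n₂) * ENNReal.ofReal ((P.t₀ r)⁻¹ ^ P.n₂) := by
    rw [← ENNReal.ofReal_mul (by positivity), ← mul_pow]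
    refine ENNReal.ofReal_le_ofReal (pow_le_pow_left₀ (div_pos h.t₁_pos h0).le ?_ _)
    have e : P.t₁ / t' = P.t₁ * (2 * A₁ * (P.t₀ r)⁻¹) := by
      rw [ht']; field_simp
    rw [e]
    have := ht.1
    exact mul_le_of_le_one_left (by positivity) (by linarith)
  change 4 * (1 + (b1v P.V : ℝ≥0∞)) * X * ENNReal.ofReal ((P.t₁ / t') ^ P.n₂) ≤ _
  refine (mul_le_mul_right b4 _).trans (le_of_eq ?_)
  rw [hXd, ENNReal.coe_mul _ (Real.toNNReal _)]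
  change _ = _ * ENNReal.ofReal ((2 * A₁) ^ P.n₂) * _ * _
  push_cast
  ring

end CP

end Crest.Agent.R68
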