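/-
R68/PB: comparison of two Picard images / two solutions
Skeleton by helper76 (row 68); keep the statements unchanged, add any helper lemmas you like.
-/
import Crest.Agent.R68.PA2
import Crest.Agent.R68.Duh2

set_option autoImplicit false
set_option linter.unusedVariables false
set_option linter.unusedSectionVars false

noncomputable section

namespace Crest.Agent.R68

open MeasureTheory Set Filter Topology
open scoped ENNReal NNReal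
open Crest.AnalysisR.VecCalc3 Crest.AnalysisR.PDE.Boltzmann

/-- `(a - b) (u' - u) ≤ L Δ` -/
theorem PB_cross {a b u u' L Δ : ℝ≥0∞} (h1 : a ≤ b + L) (h2 : b ≤ a + L) (h3 : u ≤ u' + Δ) (h4 : u' ≤ u + Δ) :
    a * u' + b * u ≤ a * u + b * u' + L * Δ := by
  rcases le_total a b with h | h
  · have hc : b - a ≤ L := tsub_le_iff_left.2 h2
    rw [← add_tsub_cancel_of_le h]
    generalize b - a = c at hc
    calc a * u' + (a + c) * u = a * u + a * u' + c * u := by ring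
      _ ≤ a * u + a * u' + c * (u' + Δ) := by gcongr
      _ = a * u + (a + c) * u' + c * Δ := by ring
      _ ≤ _ := by gcongr
  · have hc : a - b ≤ L := tsub_le_iff_left.2 h1
    rw [← add_tsub_cancel_of_le h]
    generalize a - b = c at hc
    calc (b + c) * u' + b * u = b * u + b * u' + c * u' := by ring
      _ ≤ b * u + b * u' + c * (u + Δ) := by gcongr
      _ = (b + c) * u + b * u' + c * Δ := by ring
      _ ≤ _ := by gcongr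

theorem PB_min {a b d U : ℝ≥0∞} (h : a ≤ b + d) : a ⊓ U ≤ b ⊓ U + d := by
  rcases le_total b U with h1 | h1
  · rw [inf_eq_left.2 h1]; exact inf_le_left.trans h
  · rw [inf_eq_right.2 h1]; exact inf_le_right.trans le_self_add

theorem PB_sub_min {a b d U : ℝ≥0∞} (h : a ≤ b + d) : a - a ⊓ U ≤ b - b ⊓ U + d := by
  rw [tsub_min, tsub_min, tsub_le_iff_right]
  calc a ≤ b + d := h
    _ ≤ (b - U + U) + d := by gcongr; exact le_tsub_add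
    _ = _ := by ring

/-- `duh_cmp` along a characteristic -/
theorem PB_cmp {u₀ : R3 → R3 → ℝ≥0∞} {a₁ a₂ b q₁ q₂ k₁ k₂ ρ : Fn} (ha₁ : Meas a₁) (ha₂ : Meas a₂) (hb : Meas b)
    (hq₁ : Meas q₁) (hq₂ : Meas q₂) (hk₁ : Meas k₁) (hk₂ : Meas k₂) (hρ : Meas ρ) {t : ℝ} (ht : 0 ≤ t) (x v : R3)
    (hloc : ∀ s ∈ Ioc 0 t, (∫⁻ s' in Ioc s t, pa a₁ t x v s') ≠ ⊤ ∧ (∫⁻ s' in Ioc s t, pa a₂ t x v s') ≠ ⊤ ∧
      (∫⁻ s' in Ioc s t, pa b t x v s') ≠ ⊤)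
    (h0 : u₀ (x - (t - 0) • v) v ≠ 0 → PI a₁ 0 t x v ≠ ⊤ ∧ PI a₂ 0 t x v ≠ ⊤ ∧ PI b 0 t x v ≠ ⊤)
    (hu : u₀ (x - (t - 0) • v) v ≠ ⊤) (f₁ : PI q₁ 0 t x v ≠ ⊤) (f₂ : PI q₂ 0 t x v ≠ ⊤)
    (f₃ : PI k₁ 0 t x v ≠ ⊤) (f₄ : PI k₂ 0 t x v ≠ ⊤)
    (h : ∀ s ∈ Ioc 0 t, ∀ y, (q₁ + a₂ * DU u₀ a₂ q₂ 0 + b * DU u₀ a₁ q₁ 0 + k₂) s y v ≤
      (q₂ + a₁ * DU u₀ a₁ q₁ 0 + b * DU u₀ a₂ q₂ 0 + k₁ + ρ) s y v) :
    DU u₀ a₁ q₁ 0 t x v + AI b k₂ 0 t x v ≤ DU u₀ a₂ q₂ 0 t x v + AI b k₁ 0 t x v + AI b ρ 0 t x v := by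
  have h3 : ∀ s, (∫⁻ s' in Ioc s t, pa a₁ t x v s') ≠ ⊤ ∧ (∫⁻ s' in Ioc s t, pa a₂ t x v s') ≠ ⊤ ∧
      (∫⁻ s' in Ioc s t, pa b t x v s') ≠ ⊤ →
      ∫⁻ s' in Ioc s t, (pa a₁ t x v s' + pa a₂ t x v s' + pa b t x v s') ≠ ⊤ := fun s hs => by
    rw [lintegral_add_right _ (hb.pa t x v), lintegral_add_right _ (ha₂.pa t x v)]
    exact ENNReal.add_ne_top.2 ⟨ENNReal.add_ne_top.2 ⟨hs.1, hs.2.1⟩, hs.2.2⟩
  have key := duh_cmp (d₀ := 0) (ha₁.pa t x v) (ha₂.pa t x v) (hb.pa t x v) (hq₁.pa t x v) (hq₂.pa t x v)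
    (hk₁.pa t x v) (hk₂.pa t x v) (hρ.pa t x v) ht (fun s hs => h3 s (hloc s hs))
    (by
      by_cases hz : u₀ (x - (t - 0) • v) v = 0
      · exact Or.inr hz
      · exact Or.inl (h3 0 (h0 hz))) hu hu
    (by
      rw [lintegral_add_right _ (hk₂.pa t x v), lintegral_add_right _ (hk₁.pa t x v),
        lintegral_add_right _ (hq₂.pa t x v)]
      exact ENNReal.add_ne_top.2 ⟨ENNReal.add_ne_top.2 ⟨ENNReal.add_ne_top.2 ⟨f₁, f₂⟩, f₃⟩, f₄⟩)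
    le_self_add (fun s hs => by
      rw [← pa_DU u₀ a₁ q₁, ← pa_DU u₀ a₂ q₂]
      exact h s hs (x - (t - s) • v))
  rw [zero_mul, add_zero] at key
  exact key

/-- Pointwise `f f⁎ ≤ g g⁎ + E Δ⁎ + Δ E⁎`; `gn_comm`. -/
theorem gn_diff {f g E Δ : R3 → ℝ≥0∞} (hg : Measurable g) (hE : Measurable E) (hΔ : Measurable Δ)
    (hfE : f ≤ E) (hgE : g ≤ E) (hfg : f ≤ g + Δ) (v : R3) :
    gn f f v ≤ gn g g v + 2 * gn E Δ v := by
  have hm : Measurable (E ⊓ (g + Δ)) := hE.inf (hg.add hΔ)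
  have hf : f ≤ E ⊓ (g + Δ) := le_inf hfE hfg
  calc gn f f v ≤ gn (E ⊓ (g + Δ)) (g + Δ) v := gn_mono hf hfg v
    _ = gn (E ⊓ (g + Δ)) g v + gn (E ⊓ (g + Δ)) Δ v := gn_add_right hm hg hΔ v
    _ ≤ gn (g + Δ) g v + gn E Δ v :=
        add_le_add (gn_mono inf_le_right le_rfl v) (gn_mono inf_le_left le_rfl v)
    _ = gn g g v + gn Δ g v + gn E Δ v := by rw [gn_add_left hg hΔ hg]
    _ ≤ gn g g v + gn Δ E v + gn E Δ v := by gcongr; exact gn_mono le_rfl hgE v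
    _ = gn g g v + 2 * gn E Δ v := by rw [gn_comm hΔ hE, two_mul, add_assoc]

/-- The real identity
`f f⁎ - g g⁎ - E₀ (f⁎ - g⁎) - (f - g) E₀⁎ = (f - g) (f⁎ - E₀⁎) + (g - E₀) (f⁎ - g⁎)`. -/
theorem gn_diff' {f g E₀ E Δ : R3 → ℝ≥0∞} (hf : Measurable f) (hg : Measurable g)
    (hE₀ : Measurable E₀) (hE : Measurable E) (hΔ : Measurable Δ) (ff : ∀ u, f u ≠ ⊤)
    (fg : ∀ u, g u ≠ ⊤) (fE : ∀ u, E₀ u ≠ ⊤) (h₁ : f ≤ E₀ + E) (h₂ : E₀ ≤ f + E) (h₃ : g ≤ E₀ + E)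
    (h₄ : E₀ ≤ g + E) (hfg : f ≤ g + Δ) (hgf : g ≤ f + Δ) (v : R3) :
    gn f f v + 2 * gn E₀ g v ≤ gn g g v + 2 * gn E₀ f v + 2 * gn E Δ v := by
  have e1 : 2 * gn E₀ g v = gn E₀ g v + gn g E₀ v := by rw [two_mul, gn_comm hg hE₀]
  have e2 : 2 * gn E₀ f v = gn E₀ f v + gn f E₀ v := by rw [two_mul, gn_comm hf hE₀]
  have e3 : 2 * gn E Δ v = gn E Δ v + gn Δ E v := by rw [two_mul, gn_comm hΔ hE]
  rw [e1, e2, e3, Geo1_gn_eq hf hf, Geo1_gn_eq hE₀ hg, Geo1_gn_eq hg hE₀, Geo1_gn_eq hg hg,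
    Geo1_gn_eq hE₀ hf, Geo1_gn_eq hf hE₀, Geo1_gn_eq hE hΔ, Geo1_gn_eq hΔ hE,
    ← lintegral_add_left (Geo1_meas hE₀ hg v), ← lintegral_add_left (Geo1_meas hf hf v),
    ← lintegral_add_left (Geo1_meas hE₀ hf v), ← lintegral_add_left (Geo1_meas hg hg v),
    ← lintegral_add_left (Geo1_meas hE hΔ v), ← lintegral_add_right _
      ((Geo1_meas hE hΔ v).fun_add (Geo1_meas hΔ hE v))]
  refine lintegral_mono fun p => ?_
  simp only [← mul_add]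
  refine mul_le_mul' le_rfl ?_
  generalize postVel v p.1 p.2 = y
  generalize postVelStar v p.1 p.2 = z
  have c1 := PB_cross (hfg y) (hgf y) (h₂ z) (h₁ z)
  have c2 := PB_cross (h₃ y) (h₄ y) (hgf z) (hfg z)
  calc f y * f z + (E₀ y * g z + g y * E₀ z) = (f y * f z + g y * E₀ z) + E₀ y * g z := by ring
    _ ≤ (f y * E₀ z + g y * f z + Δ y * E z) + E₀ y * g z := by gcongr
    _ = (g y * f z + E₀ y * g z) + (f y * E₀ z + Δ y * E z) := by ring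
    _ ≤ (g y * g z + E₀ y * f z + E y * Δ z) + (f y * E₀ z + Δ y * E z) := by gcongr
    _ = _ := by ring

namespace P1

variable {D : P1} {F G g g' γ Δ : Fn} {σ σ' M : ℝ≥0} {a : ℕ}

theorem PB_tr_le (hFG : LeOn 0 D.t₁ F (G + Δ)) : LeOn 0 D.t₁ (D.tr F) (D.tr G + Δ) :=
  fun t ht x v => PB_min (hFG t ht x v)

theorem PB_E0_le (M : ℝ≥0∞) (a : ℕ) (t : ℝ) (x v : R3) : D.E0 t x v ≤ D.env M a t x v :=
  (le_self_add.trans le_self_add).trans le_self_add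

theorem OK.PB_up (h : D.OK) {M : ℝ≥0∞} (hF : LeOn 0 D.t₁ F (D.env M a)) {t : ℝ} (ht : t ∈ Icc 0 D.t₁) (x : R3) :
    F t x ≤ D.E0 t x + D.env' M a t x := fun v => by
  refine (hF t ht x v).trans ?_
  simp only [env, env', Ec, Pi.add_apply]
  calc _ ≤ _ + ((D.e : ℝ≥0∞) • D.E0) t x v := le_self_add
    _ = _ := by ring

theorem OK.PB_lo (h : D.OK) (hF : LeOn 0 D.t₁ ((1 - D.e : ℝ≥0∞) • D.E0) F) (M : ℝ≥0∞) (a : ℕ) {t : ℝ}
    (ht : t ∈ Icc 0 D.t₁) (x : R3) : D.E0 t x ≤ F t x + D.env' M a t x := fun v => by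
  have h1 := hF t ht x v
  simp only [env', Pi.add_apply, Pi.smul_apply, smul_eq_mul] at h1 ⊢
  calc D.E0 t x v = 1 * D.E0 t x v := (one_mul _).symm
    _ ≤ ((1 - D.e : ℝ≥0∞) + D.e) * D.E0 t x v := by gcongr; exact le_tsub_add
    _ = (1 - D.e : ℝ≥0∞) * D.E0 t x v + D.e * D.E0 t x v := add_mul _ _ _
    _ ≤ _ := add_le_add h1 ((le_self_add.trans le_self_add).trans le_self_add)

theorem OK.PB_loc (h : D.OK) (F : Fn) {t s : ℝ} (ht : t ≤ D.t₁) (hs : 0 < s) (x v : R3) :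
    (∫⁻ s' in Ioc s t, pa (LS (D.tr F)) t x v s') ≠ ⊤ ∧ (∫⁻ s' in Ioc s t, pa (LS D.E0) t x v s') ≠ ⊤ :=
  ⟨ne_top_of_le_ne_top (h.loc_tr F ht hs x v) (lintegral_mono fun _ => le_self_add),
    ne_top_of_le_ne_top (h.loc_tr F ht hs x v) (lintegral_mono fun _ => le_add_self)⟩

theorem OK.PB_path (h : D.OK) (F : Fn) {t : ℝ} (ht : t ∈ Icc 0 D.t₁) {x v : R3}
    (h0 : D.F0 (x - (t - 0) • v) v ≠ 0) : PI (LS (D.tr F)) 0 t x v ≠ ⊤ := by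
  refine ne_top_of_le_ne_top ?_ (PI_mono_oc (h.LS_tr_le F) t ht x v)
  rw [PI_add h.rE0.meas.LS]
  refine ENNReal.add_ne_top.2 ⟨h.F0_path t ht x v (by simpa using h0), ?_⟩
  simp only [PI, pa, vl, Pi.smul_apply, smul_eq_mul, lintegral_const, Measure.restrict_apply_univ,
    Real.volume_Ioc, br]
  finiteness

theorem OK.PB_F0 (h : D.OK) {t : ℝ} (ht : t ∈ Icc 0 D.t₁) (x v : R3) : D.F0 (x - (t - 0) • v) v ≠ ⊤ := by
  rw [sub_zero]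
  exact ne_top_of_le_ne_top (ENNReal.add_ne_top.2 ⟨h.rE0.fin t x v,
    ENNReal.mul_ne_top (by simp) (h.rH.fin t x v)⟩) (h.F0_le t ht x v)

/-- `tr F ≤ tr G + Δ`, `F - tr F ≤ (G - tr G) + Δ`, `gn_diff`. -/
theorem OK.gain_diff (h : D.OK) (hF : D.Cl M a F) (hG : D.Cl M a G) (hΔ : Meas Δ)
    (hFG : LeOn 0 D.t₁ F (G + Δ)) :
    LeOn 0 D.t₁ (D.gain F) (D.gain G + (4 : ℝ≥0∞) • GN (D.env M a) Δ) := by
  intro t ht x v
  have mE := (h.renv (M := M) ENNReal.coe_ne_top a).meas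
  have h1 := gn_diff (f := D.tr F t x) ((h.meas_tr hG.meas).slice t x) (mE.slice t x) (hΔ.slice t x)
    (fun u => inf_le_left.trans (hF.up t ht x u)) (fun u => inf_le_left.trans (hG.up t ht x u))
    (fun u => PB_tr_le hFG t ht x u) v
  have h2 : gn (D.E0 t x) ((F - D.tr F) t x) v ≤
      gn (D.E0 t x) ((G - D.tr G) t x) v + gn (D.env M a t x) (Δ t x) v := by
    calc gn (D.E0 t x) ((F - D.tr F) t x) v ≤ gn (D.E0 t x) ((G - D.tr G) t x + Δ t x) v :=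
          gn_mono le_rfl (fun u => PB_sub_min (hFG t ht x u)) v
      _ = gn (D.E0 t x) ((G - D.tr G) t x) v + gn (D.E0 t x) (Δ t x) v :=
          gn_add_right (h.rE0.meas.slice t x) ((hG.meas.sub (h.meas_tr hG.meas)).slice t x) (hΔ.slice t x) v
      _ ≤ _ := by gcongr; exact gn_mono (fun u => PB_E0_le M a t x u) le_rfl v
  have h3 : (2 * (1 - D.e : ℝ≥0∞)) ≤ 2 := by
    calc (2 * (1 - D.e : ℝ≥0∞)) ≤ 2 * 1 := by gcongr; exact tsub_le_self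
      _ = 2 := mul_one _
  show gn (D.tr F t x) (D.tr F t x) v + (2 * (1 - D.e : ℝ≥0∞)) * gn (D.E0 t x) ((F - D.tr F) t x) v ≤
    gn (D.tr G t x) (D.tr G t x) v + (2 * (1 - D.e : ℝ≥0∞)) * gn (D.E0 t x) ((G - D.tr G) t x) v +
      4 * gn (D.env M a t x) (Δ t x) v
  generalize (2 * (1 - D.e : ℝ≥0∞)) = c at h3 ⊢
  calc _ ≤ (gn (D.tr G t x) (D.tr G t x) v + 2 * gn (D.env M a t x) (Δ t x) v) +
        c * (gn (D.E0 t x) ((G - D.tr G) t x) v + gn (D.env M a t x) (Δ t x) v) := by gcongr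
    _ = gn (D.tr G t x) (D.tr G t x) v + c * gn (D.E0 t x) ((G - D.tr G) t x) v +
        (2 * gn (D.env M a t x) (Δ t x) v + c * gn (D.env M a t x) (Δ t x) v) := by ring
    _ ≤ gn (D.tr G t x) (D.tr G t x) v + c * gn (D.E0 t x) ((G - D.tr G) t x) v +
        (2 * gn (D.env M a t x) (Δ t x) v + 2 * gn (D.env M a t x) (Δ t x) v) := by gcongr
    _ = _ := by ring

/-- `duh_cmp` with `b = a₁ = LS (tr F)`, `k₁ = k₂ = 0`, `d₀ = 0` and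
`ρ = 4 GN env Δ + env * LS Δ + γ`; then `att_le`. -/
theorem OK.Phi_cmp (h : D.OK) (ha : 1 ≤ a) (hF : D.Cl M a F) (hG : D.Cl M a G) (hΔ : Meas Δ)
    (hg : Meas g) (hg' : Meas g') (hγ : Meas γ)
    (hFG : LeOn 0 D.t₁ F (G + Δ)) (hGF : LeOn 0 D.t₁ G (F + Δ))
    (hΦ : LeOn 0 D.t₁ (D.Phi σ' g' G) (D.env M a))
    (fg : ∀ t ∈ Icc 0 D.t₁, ∀ x v, PI ((σ : ℝ≥0∞) • g) 0 t x v ≠ ⊤)
    (fg' : ∀ t ∈ Icc 0 D.t₁, ∀ x v, PI ((σ' : ℝ≥0∞) • g') 0 t x v ≠ ⊤)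
    (hsrc : LeOn 0 D.t₁ ((σ : ℝ≥0∞) • g) ((σ' : ℝ≥0∞) • g' + γ)) :
    LeOn 0 D.t₁ (D.Phi σ g F) (D.Phi σ' g' G + D.opT M a Δ + PI γ 0) := by
  intro t ht x v
  have mE := (h.renv (M := M) ENNReal.coe_ne_top a).meas
  have mF := (h.meas_tr hF.meas).LS
  have mG := (h.meas_tr hG.meas).LS
  have m0 : Meas (0 : Fn) := measurable_const
  have mρ : Meas ((4 : ℝ≥0∞) • GN (D.env M a) Δ + D.env M a * LS Δ) :=
    ((mE.GN hΔ).smul 4).add (mE.mul hΔ.LS)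
  have key := PB_cmp (u₀ := D.F0) (k₁ := 0) (k₂ := 0)
    (ρ := ((4 : ℝ≥0∞) • GN (D.env M a) Δ + D.env M a * LS Δ) + γ) mF mG mF
    ((h.meas_gain hF.meas).add (hg.smul σ)) ((h.meas_gain hG.meas).add (hg'.smul σ')) m0 m0 (mρ.add hγ) ht.1 x v
    (fun s hs => ⟨(h.PB_loc F ht.2 hs.1 x v).1, (h.PB_loc G ht.2 hs.1 x v).1, (h.PB_loc F ht.2 hs.1 x v).1⟩)
    (fun h0 => ⟨h.PB_path F ht h0, h.PB_path G ht h0, h.PB_path F ht h0⟩) (h.PB_F0 ht x v)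
    (by
      rw [PI_add (h.meas_gain hF.meas)]
      exact ENNReal.add_ne_top.2 ⟨h.PI_gain_ne_top hF.meas ha hF.up ht x v, fg t ht x v⟩)
    (by
      rw [PI_add (h.meas_gain hG.meas)]
      exact ENNReal.add_ne_top.2 ⟨h.PI_gain_ne_top hG.meas ha hG.up ht x v, fg' t ht x v⟩)
    (by simp [PI, pa]) (by simp [PI, pa]) (fun s hs y => by
      have hs' : s ∈ Icc 0 D.t₁ := ⟨hs.1.le, hs.2.trans ht.2⟩
      have h1 := h.gain_diff hF hG hΔ hFG s hs' y v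
      have h2 := hsrc s hs' y v
      have h3 := hΦ s hs' y v
      have h4 : LS (D.tr G) s y v ≤ LS (D.tr F) s y v + LS Δ s y v := by
        have := LS_mono (PB_tr_le (D := D) hGF) s hs' y v
        rwa [LS_add (h.meas_tr hF.meas) hΔ] at this
      simp only [Pi.add_apply, Pi.mul_apply, Pi.zero_apply, add_zero, Phi] at h1 h2 h3 ⊢
      generalize DU D.F0 (LS (D.tr G)) (D.gain G + (σ' : ℝ≥0∞) • g') 0 s y v = u₂ at h3 ⊢
      generalize DU D.F0 (LS (D.tr F)) (D.gain F + (σ : ℝ≥0∞) • g) 0 s y v = u₁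
      calc _ ≤ (D.gain G s y v + ((4 : ℝ≥0∞) • GN (D.env M a) Δ) s y v +
            (((σ' : ℝ≥0∞) • g') s y v + γ s y v)) + (LS (D.tr F) s y v + LS Δ s y v) * u₂ +
            LS (D.tr F) s y v * u₁ := by gcongr
        _ = (D.gain G s y v + ((4 : ℝ≥0∞) • GN (D.env M a) Δ) s y v +
            (((σ' : ℝ≥0∞) • g') s y v + γ s y v)) + (LS (D.tr F) s y v * u₂ + u₂ * LS Δ s y v) +
            LS (D.tr F) s y v * u₁ := by ring
        _ ≤ (D.gain G s y v + ((4 : ℝ≥0∞) • GN (D.env M a) Δ) s y v +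
            (((σ' : ℝ≥0∞) • g') s y v + γ s y v)) + (LS (D.tr F) s y v * u₂ + D.env M a s y v * LS Δ s y v) +
            LS (D.tr F) s y v * u₁ := by gcongr
        _ = _ := by ring)
  have z : AI (LS (D.tr F)) 0 0 t x v = 0 := by simp [AI, pa]
  rw [z, add_zero, add_zero, AI_add mF mρ] at key
  refine key.trans ?_
  simp only [Pi.add_apply]
  rw [add_assoc]
  exact add_le_add le_rfl (add_le_add (AI_mono (h.att_le hF.lo) (fun _ _ _ _ => le_rfl) t ht x v)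
    (AI_le_PI _ _ _ t x v))

/-- `duh_cmp` with `b = LS E0`, `k₁ = 2 GN E0 F`, `k₂ = 2 GN E0 G`, `d₀ = 0` and
`ρ = 2 GN env' Δ + env * LS Δ + LS env' * Δ + σ g`.  Here the truncation is inactive
(`tr_eq_of_le`), `|F - E0| ≤ env'`, the gains are handled by `gn_diff'` and the losses by
`a₂ u₂ + b u₁ - a₁ u₁ - b u₂ = (a₂ - a₁) u₂ + (b - a₁) (u₁ - u₂)`. -/
theorem TS.cmp (h : D.OK) (hg : Meas g) (hg' : Meas g') (hF : D.TS 2 σ g F) (hG : D.TS 2 σ' g' G)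
    (bF : LeOn 0 D.t₁ F (D.env D.Mx₀ 2)) (bG : LeOn 0 D.t₁ G (D.env D.Mx₀ 2)) (hΔ : Meas Δ)
    (hFG : LeOn 0 D.t₁ F (G + Δ)) (hGF : LeOn 0 D.t₁ G (F + Δ))
    (fg : ∀ t ∈ Icc 0 D.t₁, ∀ x v, PI ((σ : ℝ≥0∞) • g) 0 t x v ≠ ⊤)
    (fg' : ∀ t ∈ Icc 0 D.t₁, ∀ x v, PI ((σ' : ℝ≥0∞) • g') 0 t x v ≠ ⊤) :
    LeOn 0 D.t₁ (F + D.opS G) (G + D.opS F + D.opR D.Mx₀ 2 Δ + PI ((σ : ℝ≥0∞) • g) 0) := by
  intro t ht x v
  have mE := (h.renv (M := D.Mx₀) ENNReal.coe_ne_top 2).meas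
  have mE' := (h.renv' (M := D.Mx₀) ENNReal.coe_ne_top 2).meas
  have m0 := h.rE0.meas
  have mF := hF.reg.meas
  have mG := hG.reg.meas
  have mρ : Meas ((2 : ℝ≥0∞) • GN (D.env' D.Mx₀ 2) Δ + D.env D.Mx₀ 2 * LS Δ + LS (D.env' D.Mx₀ 2) * Δ) :=
    (((mE'.GN hΔ).smul 2).add (mE.mul hΔ.LS)).add (mE'.LS.mul hΔ)
  have hk : ∀ {X : Fn}, Meas X → LeOn 0 D.t₁ X (D.env D.Mx₀ 2) →
      PI ((2 : ℝ≥0∞) • GN D.E0 X) 0 t x v ≠ ⊤ := fun {X} mX bX => by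
    rw [PI_smul (m0.GN mX)]
    refine ENNReal.mul_ne_top (by simp) (ne_top_of_le_ne_top
      (h.PI_GN_env_ne_top D.Mx₀ (a := 2) (by norm_num) ht x v) ?_)
    exact PI_mono (GN_mono (fun s _ y u => PB_E0_le _ 2 s y u) bX) t ht x v
  have key := PB_cmp (u₀ := D.F0) (k₁ := (2 : ℝ≥0∞) • GN D.E0 F) (k₂ := (2 : ℝ≥0∞) • GN D.E0 G)
    (ρ := ((2 : ℝ≥0∞) • GN (D.env' D.Mx₀ 2) Δ + D.env D.Mx₀ 2 * LS Δ + LS (D.env' D.Mx₀ 2) * Δ) +
      (σ : ℝ≥0∞) • g) (h.meas_tr mF).LS (h.meas_tr mG).LS m0.LS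
    ((h.meas_gain mF).add (hg.smul σ)) ((h.meas_gain mG).add (hg'.smul σ')) ((m0.GN mF).smul 2)
    ((m0.GN mG).smul 2) (mρ.add (hg.smul σ)) ht.1 x v
    (fun s hs => ⟨(h.PB_loc F ht.2 hs.1 x v).1, (h.PB_loc G ht.2 hs.1 x v).1, (h.PB_loc F ht.2 hs.1 x v).2⟩)
    (fun h0 => ⟨h.PB_path F ht h0, h.PB_path G ht h0, h.F0_path t ht x v (by simpa using h0)⟩)
    (h.PB_F0 ht x v)
    (by
      rw [PI_add (h.meas_gain mF)]
      exact ENNReal.add_ne_top.2 ⟨h.PI_gain_ne_top mF (by norm_num) bF ht x v, fg t ht x v⟩)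
    (by
      rw [PI_add (h.meas_gain mG)]
      exact ENNReal.add_ne_top.2 ⟨h.PI_gain_ne_top mG (by norm_num) bG ht x v, fg' t ht x v⟩)
    (hk mF bF) (hk mG bG) (fun s hs y => by
      have hs' : s ∈ Icc 0 D.t₁ := ⟨hs.1.le, hs.2.trans ht.2⟩
      have eF := hF.eq s hs' y v
      have eG := hG.eq s hs' y v
      obtain ⟨tF, gF⟩ := tr_eq_of_le h bF hs'
      obtain ⟨tG, gG⟩ := tr_eq_of_le h bG hs'
      have uF := h.PB_up bF hs' y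
      have uG := h.PB_up bG hs' y
      have lF := h.PB_lo (hF.lo h) D.Mx₀ 2 hs' y
      have lG := h.PB_lo (hG.lo h) D.Mx₀ 2 hs' y
      have h1 := gn_diff' (mF.slice s y) (mG.slice s y) (m0.slice s y) (mE'.slice s y) (hΔ.slice s y)
        (hF.reg.fin s y) (hG.reg.fin s y) (h.rE0.fin s y) uF lF uG lG (hFG s hs' y) (hGF s hs' y) v
      have h2 : ls (G s y) v ≤ ls (F s y) v + ls (Δ s y) v :=
        (ls_mono (hGF s hs' y) v).trans_eq (ls_add (mF.slice s y) (hΔ.slice s y) v)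
      have h3 : ls (F s y) v ≤ ls (D.E0 s y) v + ls (D.env' D.Mx₀ 2 s y) v :=
        (ls_mono uF v).trans_eq (ls_add (m0.slice s y) (mE'.slice s y) v)
      have h4 : ls (D.E0 s y) v ≤ ls (F s y) v + ls (D.env' D.Mx₀ 2 s y) v :=
        (ls_mono lF v).trans_eq (ls_add (mF.slice s y) (mE'.slice s y) v)
      have h5 := PB_cross h3 h4 (hFG s hs' y v) (hGF s hs' y v)
      have h6 := bG s hs' y v
      simp only [Phi] at eF eG
      simp only [Pi.add_apply, Pi.mul_apply, ← eF, ← eG, gF, gG, LS, tF, tG]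
      simp only [Pi.smul_apply, smul_eq_mul, GN]
      calc _ = (gn (F s y) (F s y) v + 2 * gn (D.E0 s y) (G s y) v) + ls (G s y) v * G s y v +
            ls (D.E0 s y) v * F s y v + σ * g s y v := by ring
        _ ≤ (gn (G s y) (G s y) v + 2 * gn (D.E0 s y) (F s y) v + 2 * gn (D.env' D.Mx₀ 2 s y) (Δ s y) v) +
            (ls (F s y) v + ls (Δ s y) v) * G s y v + ls (D.E0 s y) v * F s y v + σ * g s y v := by gcongr
        _ = (gn (G s y) (G s y) v + 2 * gn (D.E0 s y) (F s y) v + 2 * gn (D.env' D.Mx₀ 2 s y) (Δ s y) v) +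
            G s y v * ls (Δ s y) v + (ls (F s y) v * G s y v + ls (D.E0 s y) v * F s y v) + σ * g s y v := by
          ring
        _ ≤ (gn (G s y) (G s y) v + 2 * gn (D.E0 s y) (F s y) v + 2 * gn (D.env' D.Mx₀ 2 s y) (Δ s y) v) +
            D.env D.Mx₀ 2 s y v * ls (Δ s y) v + (ls (F s y) v * F s y v + ls (D.E0 s y) v * G s y v +
              ls (D.env' D.Mx₀ 2 s y) v * Δ s y v) + σ * g s y v := by gcongr
        _ ≤ _ + σ' * g' s y v := le_self_add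
        _ = _ := by ring)
  rw [AI_add m0.LS mρ] at key
  have eF := hF.eq t ht x v
  have eG := hG.eq t ht x v
  simp only [Phi] at eF eG
  rw [← eF, ← eG] at key
  refine key.trans ?_
  simp only [Pi.add_apply, opS, opR]
  rw [add_assoc _ (AI _ _ 0 t x v) (PI _ 0 t x v)]
  exact add_le_add le_rfl (add_le_add le_rfl (AI_le_PI _ _ _ t x v))

end P1

end Crest.Agent.R68
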