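/-
R68/PC: norms of the majorant operators in the weight Z
Skeleton by helper76 (row 68); keep the statements unchanged, add any helper lemmas you like.
-/
import Crest.Agent.R68.PA1

set_option autoImplicit false
set_option linter.unusedVariables false
set_option linter.unusedSectionVars false

noncomputable section

namespace Crest.Agent.R68

open MeasureTheory Set Filter Topology
open scoped ENNReal NNReal
open Crest.AnalysisR.VecCalc3 Crest.AnalysisR.PDE.Boltzmann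

namespace P1

variable {D : P1} {a : ℕ}

/-- Parameters `(ε, Λ)`: first `ε` small, then `Λ` large. -/
def Ev (p : ℝ≥0 → ℝ → Prop) : Prop :=
  ∃ ε₀ : ℝ≥0, 0 < ε₀ ∧ ∀ ε, 0 < ε → ε ≤ ε₀ → ∃ Λ₀ : ℝ, ∀ Λ, Λ₀ ≤ Λ → p ε Λ

theorem Ev.and {p q : ℝ≥0 → ℝ → Prop} (hp : Ev p) (hq : Ev q) : Ev fun ε Λ => p ε Λ ∧ q ε Λ := by
  obtain ⟨e1, h1, hp⟩ := hp
  obtain ⟨e2, h2, hq⟩ := hq
  refine ⟨min e1 e2, lt_min h1 h2, fun ε h0 hε => ?_⟩
  obtain ⟨L1, k1⟩ := hp ε h0 (hε.trans (min_le_left _ _))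
  obtain ⟨L2, k2⟩ := hq ε h0 (hε.trans (min_le_right _ _))
  exact ⟨max L1 L2, fun Λ hΛ => ⟨k1 Λ ((le_max_left _ _).trans hΛ), k2 Λ ((le_max_right _ _).trans hΛ)⟩⟩

theorem Ev.mono {p q : ℝ≥0 → ℝ → Prop} (hp : Ev p) (h : ∀ ε Λ, p ε Λ → q ε Λ) : Ev q := by
  obtain ⟨e1, h1, hp⟩ := hp
  refine ⟨e1, h1, fun ε h0 hε => ?_⟩
  obtain ⟨L1, k1⟩ := hp ε h0 hε
  exact ⟨L1, fun Λ hΛ => h _ _ (k1 Λ hΛ)⟩

theorem Ev.exists {p : ℝ≥0 → ℝ → Prop} (hp : Ev p) :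
    ∃ ε Λ, 0 < ε ∧ ε ≤ 1 ∧ 0 ≤ Λ ∧ p ε Λ := by
  obtain ⟨e1, h1, hp⟩ := hp
  obtain ⟨L1, k1⟩ := hp (min e1 1) (lt_min h1 one_pos) (min_le_left _ _)
  exact ⟨min e1 1, max L1 0, lt_min h1 one_pos, min_le_right _ _, le_max_right _ _,
    k1 _ (le_max_left _ _)⟩

theorem PC_comb {c₁ c₂ c₃ c ε : ℝ≥0} {X Y W : ℝ≥0∞} (h1 : c₁ ≤ c * ε) (h2 : c₂ ≤ c) (h3 : c₃ ≤ c) :
    c₁ * X + c₂ * Y + c₃ * W ≤ (c : ℝ≥0∞) * (ε * X + Y + W) := by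
  have k1 : (c₁ : ℝ≥0∞) ≤ c * ε := by exact_mod_cast h1
  have k2 : (c₂ : ℝ≥0∞) ≤ c := by exact_mod_cast h2
  have k3 : (c₃ : ℝ≥0∞) ≤ c := by exact_mod_cast h3
  calc _ ≤ (c : ℝ≥0∞) * ε * X + c * Y + c * W := by gcongr
    _ = _ := by ring

theorem PC_one_br (v : R3) : 1 ≤ br v :=
  ENNReal.one_le_ofReal.2 (le_add_of_nonneg_right (norm_nonneg v))

theorem PC_exp_mono {Λ s t : ℝ} (hΛ : 0 ≤ Λ) (h : s ≤ t) :
    ENNReal.ofReal (Real.exp (Λ * s)) ≤ ENNReal.ofReal (Real.exp (Λ * t)) :=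
  ENNReal.ofReal_le_ofReal (Real.exp_le_exp.2 (mul_le_mul_of_nonneg_left h hΛ))

theorem PC_one_exp {Λ t : ℝ} (hΛ : 0 ≤ Λ) (h : 0 ≤ t) : 1 ≤ ENNReal.ofReal (Real.exp (Λ * t)) :=
  ENNReal.one_le_ofReal.2 (Real.one_le_exp (mul_nonneg hΛ h))

theorem PC_pw_le {t : ℝ} (h0 : 0 ≤ t) (h1 : t ≤ 1) (a : ℕ) (x v : R3) : pw a t x v ≤ 1 :=
  ENNReal.ofReal_le_one.2 (pow_le_one₀ h0 h1)

theorem PC_PI_tm {Λ T : ℝ} (hΛ : 0 ≤ Λ) {f g : Fn} (h : LeOn 0 T (PI f 0) g) :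
    LeOn 0 T (PI (tm (fun t => Real.exp (Λ * t)) * f) 0) (tm (fun t => Real.exp (Λ * t)) * g) := by
  intro t ht x v
  calc _ ≤ ∫⁻ s in Ioc 0 t, ENNReal.ofReal (Real.exp (Λ * t)) * pa f t x v s :=
        setLIntegral_mono' measurableSet_Ioc fun s hs => mul_le_mul' (PC_exp_mono hΛ hs.2) le_rfl
    _ = ENNReal.ofReal (Real.exp (Λ * t)) * PI f 0 t x v :=
        lintegral_const_mul' _ _ ENNReal.ofReal_ne_top
    _ ≤ _ := mul_le_mul' le_rfl (h t ht x v)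

theorem PC_Z (ε : ℝ≥0) (Λ : ℝ) (a : ℕ) (t : ℝ) (x v : R3) : D.Z ε Λ a t x v =
    ENNReal.ofReal (Real.exp (Λ * t)) * (ε * D.Ec t x v + D.H t x v + (pw a * D.W) t x v) := rfl

theorem OK.PC_mP (h : D.OK) (a : ℕ) : Meas (pw a * D.W) := (reg_pw a).meas.mul h.rW.meas

theorem OK.PC_P_pa (h : D.OK) (a : ℕ) {t : ℝ} (ht : t ∈ Icc 0 D.t₁) (x v : R3) {s : ℝ}
    (hs : s ∈ Ioc 0 t) :
    pa (pw a * D.W) t x v s ≤ D.Cw * ga (t - s) v * (pw a * D.W) t x v := by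
  have h1 : ENNReal.ofReal (s ^ a) ≤ ENNReal.ofReal (t ^ a) :=
    ENNReal.ofReal_le_ofReal (pow_le_pow_left₀ hs.1.le hs.2 a)
  calc _ = ENNReal.ofReal (s ^ a) * pa D.W t x v s := rfl
    _ ≤ ENNReal.ofReal (t ^ a) * (D.Cw * ga (t - s) v * D.W t x v) :=
        mul_le_mul' h1 (h.W_pa t ht x v s hs)
    _ = D.Cw * ga (t - s) v * (ENNReal.ofReal (t ^ a) * D.W t x v) := by ring
    _ = _ := rfl

theorem PC_pa_Z (ε : ℝ≥0) (Λ : ℝ) (a : ℕ) (t : ℝ) (x v : R3) (s : ℝ) : pa (D.Z ε Λ a) t x v s =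
    ENNReal.ofReal (Real.exp (Λ * s)) *
      (ε * pa D.Ec t x v s + pa D.H t x v s + pa (pw a * D.W) t x v s) := rfl

theorem OK.PC_Z_pa (h : D.OK) (ε : ℝ≥0) {Λ : ℝ} (hΛ : 0 ≤ Λ) (a : ℕ) {t : ℝ} (ht : t ∈ Icc 0 D.t₁)
    (x v : R3) {s : ℝ} (hs : s ∈ Ioc 0 t) : pa (D.Z ε Λ a) t x v s ≤ D.Cw * D.Z ε Λ a t x v := by
  have hg : ga (t - s) v ≤ 1 := Geo5_ga_le_one (sub_nonneg.2 hs.2) v
  have hC : (1 : ℝ≥0∞) ≤ D.Cw := by exact_mod_cast h.one_Cw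
  have h1 : pa D.Ec t x v s ≤ D.Cw * D.Ec t x v :=
    (h.Ec_pa hs.2 x v).trans (le_mul_of_one_le_left' hC)
  have h2 : pa D.H t x v s ≤ D.Cw * D.H t x v :=
    (h.H_pa t ht x v s hs).trans (mul_le_mul' (mul_le_of_le_one_right' hg) le_rfl)
  have h3 : pa (pw a * D.W) t x v s ≤ D.Cw * (pw a * D.W) t x v :=
    (h.PC_P_pa a ht x v hs).trans (mul_le_mul' (mul_le_of_le_one_right' hg) le_rfl)
  have h4 := PC_exp_mono hΛ hs.2
  rw [PC_pa_Z, PC_Z]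
  calc _ ≤ ENNReal.ofReal (Real.exp (Λ * t)) *
        (ε * (D.Cw * D.Ec t x v) + D.Cw * D.H t x v + D.Cw * (pw a * D.W) t x v) := by gcongr
    _ = _ := by ring

theorem OK.PC_AI_self (h : D.OK) {b : Fn} (hb : Meas b) (c : ℝ≥0∞) (ε : ℝ≥0) {Λ : ℝ} (hΛ : 0 ≤ Λ)
    (a : ℕ) : LeOn 0 D.t₁ (AI b (b * (c • D.Z ε Λ a)) 0) ((c * D.Cw) • D.Z ε Λ a) := by
  intro t ht x v
  refine AI_mul_le hb fun s hs => ?_
  calc _ = c * pa (D.Z ε Λ a) t x v s := rfl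
    _ ≤ c * (D.Cw * D.Z ε Λ a t x v) := mul_le_mul' le_rfl (h.PC_Z_pa ε hΛ a ht x v hs)
    _ = c * D.Cw * D.Z ε Λ a t x v := by ring
    _ = _ := rfl

theorem OK.PC_brZ (h : D.OK) (a : ℕ) (c : ℝ≥0) {θ : ℝ≥0} (hθ : 0 < θ) : ∃ Λ₀ : ℝ, 0 ≤ Λ₀ ∧
    ∀ Λ, Λ₀ ≤ Λ → ∀ ε : ℝ≥0,
      LeOn 0 D.t₁ (PI ((c : ℝ≥0∞) • (vl br * D.Z ε Λ a)) 0) ((θ : ℝ≥0∞) • D.Z ε Λ a) := by
  obtain ⟨η, hη, hle⟩ : ∃ η : ℝ≥0, 0 < η ∧ c * (4 + D.Cw) * η ≤ θ := by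
    refine ⟨θ / (c * (4 + D.Cw) + 1), by positivity, ?_⟩
    rw [← mul_div_assoc, div_le_iff₀ (by positivity)]
    nlinarith
  obtain ⟨Λ₀, hΛ₀, hd⟩ := lintegral_br_decay' hη
  refine ⟨Λ₀, hΛ₀.le, fun Λ hΛ ε t ht x v => ?_⟩
  have m1 : Measurable fun s : ℝ => ENNReal.ofReal (Real.exp (Λ * s)) := by fun_prop
  have m2 : Measurable fun s : ℝ => ENNReal.ofReal (Real.exp (Λ * s)) * (br v * ga (t - s) v) := by
    unfold ga
    fun_prop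
  have h0 : ∫⁻ s in Ioc 0 t, ENNReal.ofReal (Real.exp (Λ * s)) ≤
      η * ENNReal.ofReal (Real.exp (Λ * t)) := by
    simpa [br, ga] using hd Λ hΛ 0 0 t
  have h1 := hd Λ hΛ v 0 t
  have hE : ∀ s ∈ Ioc 0 t, br v * pa D.Ec t x v s ≤ 4 * D.Ec t x v := fun s hs => by
    have h2 := h.Ec_pa hs.2 x v
    by_cases h3 : D.Ec t x v = 0
    · rw [h3] at h2 ⊢
      simp [le_zero_iff.1 h2]
    · refine mul_le_mul' ?_ h2
      have h4 := (h.self t ht x v h3).1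
      calc br v ≤ ENNReal.ofReal 4 := ENNReal.ofReal_le_ofReal (by linarith)
        _ = 4 := by simp
  calc _ ≤ ∫⁻ s in Ioc 0 t, (ENNReal.ofReal (Real.exp (Λ * s)) * (c * (ε * (4 * D.Ec t x v))) +
          ENNReal.ofReal (Real.exp (Λ * s)) * (br v * ga (t - s) v) *
            (c * D.Cw * (D.H t x v + (pw a * D.W) t x v))) := by
        refine setLIntegral_mono' measurableSet_Ioc fun s hs => ?_
        have k1 := hE s hs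
        have k2 := h.H_pa t ht x v s hs
        have k3 := h.PC_P_pa a ht x v hs
        calc _ = c * (br v * pa (D.Z ε Λ a) t x v s) := rfl
          _ = ENNReal.ofReal (Real.exp (Λ * s)) * (c * (ε * (br v * pa D.Ec t x v s))) +
              ENNReal.ofReal (Real.exp (Λ * s)) * br v * c *
                (pa D.H t x v s + pa (pw a * D.W) t x v s) := by
            rw [PC_pa_Z]; ring
          _ ≤ ENNReal.ofReal (Real.exp (Λ * s)) * (c * (ε * (4 * D.Ec t x v))) +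
              ENNReal.ofReal (Real.exp (Λ * s)) * br v * c *
                (D.Cw * ga (t - s) v * D.H t x v + D.Cw * ga (t - s) v * (pw a * D.W) t x v) := by
            gcongr
          _ = _ := by ring
    _ = (∫⁻ s in Ioc 0 t, ENNReal.ofReal (Real.exp (Λ * s))) * (c * (ε * (4 * D.Ec t x v))) +
          (∫⁻ s in Ioc 0 t, ENNReal.ofReal (Real.exp (Λ * s)) * (br v * ga (t - s) v)) *
            (c * D.Cw * (D.H t x v + (pw a * D.W) t x v)) := by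
        rw [lintegral_add_left (m1.mul_const _), lintegral_mul_const _ m1, lintegral_mul_const _ m2]
    _ ≤ (η * ENNReal.ofReal (Real.exp (Λ * t))) * (c * (ε * (4 * D.Ec t x v))) +
          (η * ENNReal.ofReal (Real.exp (Λ * t))) *
            (c * D.Cw * (D.H t x v + (pw a * D.W) t x v)) := by gcongr
    _ = ENNReal.ofReal (Real.exp (Λ * t)) * (((c * 4 * η * ε : ℝ≥0) : ℝ≥0∞) * D.Ec t x v +
          ((c * D.Cw * η : ℝ≥0) : ℝ≥0∞) * D.H t x v +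
          ((c * D.Cw * η : ℝ≥0) : ℝ≥0∞) * (pw a * D.W) t x v) := by
        push_cast
        ring
    _ ≤ ENNReal.ofReal (Real.exp (Λ * t)) * (θ * (ε * D.Ec t x v + D.H t x v + (pw a * D.W) t x v)) := by
        have k1 : c * 4 * η ≤ θ := le_trans (by gcongr; exact le_self_add) hle
        have k2 : c * D.Cw * η ≤ θ := le_trans (by gcongr; exact le_add_self) hle
        exact mul_le_mul' le_rfl (PC_comb (mul_le_mul' k1 le_rfl) k2 k2)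
    _ = θ * D.Z ε Λ a t x v := by rw [PC_Z]; ring

theorem PC_E0_le (T : ℝ) : LeOn 0 T D.E0 D.Ec := fun _ _ _ _ => le_self_add

theorem PC_E1_le (T : ℝ) : LeOn 0 T D.E1 D.Ec := fun _ _ _ _ => le_add_self

theorem PC_refl (T : ℝ) (f : Fn) : LeOn 0 T f f := fun _ _ _ _ => le_rfl

theorem PC_small {c θ : ℝ≥0} (hθ : 0 < θ) :
    ∃ ε₀ : ℝ≥0, 0 < ε₀ ∧ ∀ ε, ε ≤ ε₀ → ε ≤ 1 ∧ ε * c ≤ θ := by
  refine ⟨min 1 (θ / (c + 1)), lt_min one_pos (by positivity), fun ε hε =>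
    ⟨hε.trans (min_le_left _ _), ?_⟩⟩
  have h1 := hε.trans (min_le_right _ _)
  rw [le_div_iff₀ (by positivity)] at h1
  nlinarith

theorem OK.PC_GN_Z (h : D.OK) {f : Fn} (hf : Meas f) (ε : ℝ≥0) (Λ : ℝ) (a : ℕ) :
    GN f (D.Z ε Λ a) = tm (fun t => Real.exp (Λ * t)) *
      ((ε : ℝ≥0∞) • GN f D.Ec + GN f D.H + GN f (pw a * D.W)) := by
  have mE := h.rEc.meas
  have mH := h.rH.meas
  have mP := h.PC_mP a
  unfold Z
  rw [GN_tm_right hf (((mE.smul _).add mH).add mP), GN_add_right hf ((mE.smul _).add mH) mP,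
    GN_add_right hf (mE.smul _) mH, GN_smul_right hf mE]

theorem OK.PC_LS_Z (h : D.OK) (ε : ℝ≥0) (Λ : ℝ) (a : ℕ) :
    LS (D.Z ε Λ a) = tm (fun t => Real.exp (Λ * t)) *
      ((ε : ℝ≥0∞) • LS D.Ec + LS D.H + pw a * LS D.W) := by
  have mE := h.rEc.meas
  have mH := h.rH.meas
  have mP := h.PC_mP a
  unfold Z
  rw [LS_tm (((mE.smul _).add mH).add mP), LS_add ((mE.smul _).add mH) mP, LS_add (mE.smul _) mH,
    LS_smul mE]
  exact congrArg (fun q => tm (fun t => Real.exp (Λ * t)) * ((ε : ℝ≥0∞) • LS D.Ec + LS D.H + q))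
    (LS_tm h.rW.meas _)

theorem OK.PC_gnP (h : D.OK) (a : ℕ) {t : ℝ} (ht : t ∈ Ioc 0 D.t₁) (x v : R3) :
    GN D.E1 (pw a * D.W) t x v ≤ br v * (pw a * D.W) t x v ∧
    GN D.H (pw a * D.W) t x v ≤ D.K * (br v * (pw a * D.W) t x v) ∧
    GN (pw a * D.W) (pw a * D.W) t x v ≤ D.K * (br v * (pw a * D.W) t x v) := by
  have e : ∀ f, Meas f → GN f (pw a * D.W) t x v = pw a t x v * GN f D.W t x v := fun f hf =>
    congrFun (congrFun (congrFun (GN_tm_right hf h.rW.meas _) t) x) v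
  have e' : GN (pw a * D.W) D.W t x v = pw a t x v * GN D.W D.W t x v :=
    congrFun (congrFun (congrFun (GN_tm_left h.rW.meas h.rW.meas _) t) x) v
  have k1 : GN D.E1 D.W t x v ≤ D.W t x v := h.E1W t ht x v
  have k2 : GN D.H D.W t x v ≤ D.K * (br v * D.W t x v) := h.HW t ht x v
  have k3 : GN D.W D.W t x v ≤ D.K * (br v * D.W t x v) := h.WW t ht x v
  have k4 := PC_pw_le ht.1.le (ht.2.trans h.t₁_le) a x v
  refine ⟨?_, ?_, ?_⟩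
  · rw [e _ h.rE1.meas]
    exact (mul_le_mul' le_rfl k1).trans (le_mul_of_one_le_left' (PC_one_br v))
  · rw [e _ h.rH.meas]
    calc _ ≤ pw a t x v * (D.K * (br v * D.W t x v)) := mul_le_mul' le_rfl k2
      _ = D.K * (br v * (pw a t x v * D.W t x v)) := by ring
      _ = _ := rfl
  · rw [e _ (h.PC_mP a), e']
    calc _ ≤ pw a t x v * (1 * (D.K * (br v * D.W t x v))) := by gcongr
      _ = D.K * (br v * (pw a t x v * D.W t x v)) := by ring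
      _ = _ := rfl

theorem OK.PC_ls (h : D.OK) (a : ℕ) {t : ℝ} (ht : t ∈ Ioc 0 D.t₁) (x v : R3) :
    LS D.E1 t x v ≤ br v ∧ LS D.H t x v ≤ D.K * br v ∧ pw a t x v * LS D.W t x v ≤ D.K * br v :=
  ⟨h.LE1 t ht x v, h.LH t ht x v,
    (mul_le_of_le_one_left' (PC_pw_le ht.1.le (ht.2.trans h.t₁_le) a x v)).trans (h.LW t ht x v)⟩

theorem OK.PC_c2 (h : D.OK) (a : ℕ) (M : ℝ≥0) {ε : ℝ≥0} (hε : ε ≤ 1) (Λ : ℝ) :
    LeOc 0 D.t₁ (GN (D.E1 + D.H + (M : ℝ≥0∞) • (pw a * D.W)) (D.Z ε Λ a))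
      (tm (fun t => Real.exp (Λ * t)) * ((ε : ℝ≥0∞) • GN D.Ec D.Ec + (2 : ℝ≥0∞) • GN D.Ec D.H +
        GN D.H D.H + ((ε * M : ℝ≥0) : ℝ≥0∞) • ((2 : ℝ≥0∞) • GN D.E0 (pw a * D.W))) +
        ((1 + D.K + M * (1 + 2 * D.K) : ℝ≥0) : ℝ≥0∞) • (vl br * D.Z ε Λ a)) := by
  have mE := h.rEc.meas
  have m0 := h.rE0.meas
  have m1 := h.rE1.meas
  have mH := h.rH.meas
  have mP := h.PC_mP a
  have e : ∀ g, Meas g → GN (D.E1 + D.H + (M : ℝ≥0∞) • (pw a * D.W)) g =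
      GN D.E1 g + GN D.H g + (M : ℝ≥0∞) • GN (pw a * D.W) g := fun g hg => by
    rw [GN_add_left (m1.add mH) (mP.smul _) hg, GN_add_left m1 mH hg, GN_smul_left mP hg]
  have e2 : GN (pw a * D.W) D.Ec = GN D.E0 (pw a * D.W) + GN D.E1 (pw a * D.W) := by
    rw [GN_comm mP mE]
    exact GN_add_left m0 m1 mP
  rw [h.PC_GN_Z ((m1.add mH).add (mP.smul _)), e _ mE, e _ mH, e _ mP, e2, GN_comm mH mE,
    GN_comm mP mH]
  intro t ht x v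
  have ht' : t ∈ Icc 0 D.t₁ := ⟨ht.1.le, ht.2⟩
  obtain ⟨k1, k2, k3⟩ := h.PC_gnP a ht x v
  have k4 : GN D.E1 D.Ec t x v ≤ GN D.Ec D.Ec t x v :=
    GN_mono (PC_E1_le _) (PC_refl _ _) t ht' x v
  have k5 : GN D.E1 D.H t x v ≤ GN D.Ec D.H t x v := GN_mono (PC_E1_le _) (PC_refl _ _) t ht' x v
  have k6 : (ε : ℝ≥0∞) ≤ 1 := by exact_mod_cast hε
  have k7 : ENNReal.ofReal (Real.exp (Λ * t)) * (pw a * D.W) t x v ≤ D.Z ε Λ a t x v :=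
    mul_le_mul' le_rfl le_add_self
  have k8 : GN D.E0 (pw a * D.W) t x v ≤ 2 * GN D.E0 (pw a * D.W) t x v :=
    le_mul_of_one_le_left' one_le_two
  simp only [Pi.add_apply, Pi.smul_apply, smul_eq_mul, Pi.mul_apply (tm _), Pi.mul_apply (tm _ _),
    Pi.mul_apply (tm _ _ _), Pi.mul_apply (vl _), Pi.mul_apply (vl _ _), Pi.mul_apply (vl _ _ _)]
  show ENNReal.ofReal (Real.exp (Λ * t)) * _ ≤ ENNReal.ofReal (Real.exp (Λ * t)) * _ + _ * (br v * _)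
  generalize ENNReal.ofReal (Real.exp (Λ * t)) = E at *
  generalize (pw a * D.W) t x v = P at *
  calc _ = E * (ε * GN D.E1 D.Ec t x v + ε * GN D.Ec D.H t x v + GN D.E1 D.H t x v + GN D.H D.H t x v +
          ε * M * GN D.E0 (pw a * D.W) t x v) +
        E * (ε * M * GN D.E1 (pw a * D.W) t x v + M * GN D.H (pw a * D.W) t x v +
          GN D.E1 (pw a * D.W) t x v + GN D.H (pw a * D.W) t x v +
          M * GN (pw a * D.W) (pw a * D.W) t x v) := by ring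
    _ ≤ E * (ε * GN D.Ec D.Ec t x v + 1 * GN D.Ec D.H t x v + GN D.Ec D.H t x v + GN D.H D.H t x v +
          ε * M * (2 * GN D.E0 (pw a * D.W) t x v)) +
        E * (1 * M * (br v * P) + M * (D.K * (br v * P)) + br v * P + D.K * (br v * P) +
          M * (D.K * (br v * P))) := by gcongr
    _ = E * (ε * GN D.Ec D.Ec t x v + 2 * GN D.Ec D.H t x v + GN D.H D.H t x v +
          ((ε * M : ℝ≥0) : ℝ≥0∞) * (2 * GN D.E0 (pw a * D.W) t x v)) +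
        ((1 + D.K + M * (1 + 2 * D.K) : ℝ≥0) : ℝ≥0∞) * (br v * (E * P)) := by
        push_cast
        ring
    _ ≤ _ := by gcongr

theorem OK.PC_c3 (h : D.OK) (a : ℕ) (M : ℝ≥0) {ε : ℝ≥0} (hε0 : 0 < ε) (hε : ε ≤ 1) (Λ : ℝ) :
    LeOc 0 D.t₁ (D.env M a * LS (D.Z ε Λ a))
      (D.att * (((2 * ε * (1 + M) : ℝ≥0) : ℝ≥0∞) • D.Z ε Λ a) +
        (((1 + 2 * D.K) * (ε⁻¹ + (1 + M)) : ℝ≥0) : ℝ≥0∞) • (vl br * D.Z ε Λ a)) := by
  rw [h.PC_LS_Z]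
  intro t ht x v
  have ht' : t ∈ Icc 0 D.t₁ := ⟨ht.1.le, ht.2⟩
  obtain ⟨k1, k2, k3⟩ := h.PC_ls a ht x v
  have k4 : LS D.Ec t x v = LS D.E0 t x v + LS D.E1 t x v :=
    congrFun (congrFun (congrFun (LS_add h.rE0.meas h.rE1.meas) t) x) v
  have k5 : LS D.E0 t x v = 2 * D.att t x v := by
    show _ = 2 * (2⁻¹ * LS D.E0 t x v)
    rw [← mul_assoc, ENNReal.mul_inv_cancel two_ne_zero ENNReal.ofNat_ne_top, one_mul]
  have k6 : (ε : ℝ≥0∞) ≤ 1 := by exact_mod_cast hε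
  have k7 : D.Ec t x v * LS D.Ec t x v ≤ D.Ec t x v * br v := by
    by_cases h3 : D.Ec t x v = 0
    · simp [h3]
    · have h4 := (h.self t ht' x v h3).2 t ⟨ht.1, le_rfl⟩
      rw [pa_self] at h4
      exact mul_le_mul' le_rfl (h4.trans (PC_one_br v))
  have k8 : ENNReal.ofReal (Real.exp (Λ * t)) * D.Ec t x v ≤ (ε⁻¹ : ℝ≥0) * D.Z ε Λ a t x v := by
    have e : ((ε⁻¹ : ℝ≥0) : ℝ≥0∞) * ε = 1 := by
      rw [← ENNReal.coe_mul, inv_mul_cancel₀ hε0.ne', ENNReal.coe_one]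
    calc _ = ((ε⁻¹ : ℝ≥0) : ℝ≥0∞) * ε * (ENNReal.ofReal (Real.exp (Λ * t)) * D.Ec t x v) := by
          rw [e, one_mul]
      _ = (ε⁻¹ : ℝ≥0) * (ENNReal.ofReal (Real.exp (Λ * t)) * (ε * D.Ec t x v)) := by ring
      _ ≤ _ := mul_le_mul' le_rfl (mul_le_mul' le_rfl (le_self_add.trans le_self_add))
  have k9 : ENNReal.ofReal (Real.exp (Λ * t)) * (D.H t x v + M * (pw a * D.W) t x v) ≤
      (1 + M) * D.Z ε Λ a t x v := by
    rw [PC_Z, mul_left_comm]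
    refine mul_le_mul' le_rfl ?_
    have := @PC_comb 0 1 M (1 + M) ε (D.Ec t x v) (D.H t x v) ((pw a * D.W) t x v) zero_le
      le_self_add le_add_self
    simpa using this
  show (D.Ec t x v + D.H t x v + M * (pw a * D.W) t x v) * (ENNReal.ofReal (Real.exp (Λ * t)) *
      (ε * LS D.Ec t x v + LS D.H t x v + pw a t x v * LS D.W t x v)) ≤
    D.att t x v * (_ * D.Z ε Λ a t x v) + _ * (br v * D.Z ε Λ a t x v)
  generalize ENNReal.ofReal (Real.exp (Λ * t)) = E at *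
  generalize (pw a * D.W) t x v = P at *
  generalize pw a t x v * LS D.W t x v = L at *
  calc _ = E * (ε * (D.Ec t x v * LS D.Ec t x v) + D.Ec t x v * (LS D.H t x v + L)) +
        E * (D.H t x v + M * P) * (ε * LS D.Ec t x v + LS D.H t x v + L) := by ring
    _ ≤ E * (1 * (D.Ec t x v * br v) + D.Ec t x v * (D.K * br v + D.K * br v)) +
        (1 + M) * D.Z ε Λ a t x v * (ε * LS D.Ec t x v + D.K * br v + D.K * br v) := by gcongr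
    _ = (1 + 2 * D.K) * br v * (E * D.Ec t x v) + (1 + M) * D.Z ε Λ a t x v *
        (ε * (2 * D.att t x v) + ε * LS D.E1 t x v + D.K * br v + D.K * br v) := by
        rw [k4, k5]; ring
    _ ≤ (1 + 2 * D.K) * br v * ((ε⁻¹ : ℝ≥0) * D.Z ε Λ a t x v) + (1 + M) * D.Z ε Λ a t x v *
        (ε * (2 * D.att t x v) + 1 * br v + D.K * br v + D.K * br v) := by gcongr
    _ = _ := by
        generalize ε⁻¹ = δ
        push_cast
        ring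

theorem OK.PC_c4 (h : D.OK) (a : ℕ) (M : ℝ≥0) (Y : Fn) :
    LeOc 0 D.t₁ (LS (D.env' M a) * Y)
      (LS D.E0 * ((D.e : ℝ≥0∞) • Y) + ((1 + D.K + M * D.K : ℝ≥0) : ℝ≥0∞) • (vl br * Y)) := by
  have m0 := h.rE0.meas
  have m1 := h.rE1.meas
  have mH := h.rH.meas
  have mP := h.PC_mP a
  have e : LS (pw a * D.W) = pw a * LS D.W := LS_tm h.rW.meas _
  unfold env'
  rw [LS_add (((m0.smul _).add m1).add mH) (mP.smul _), LS_add ((m0.smul _).add m1) mH,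
    LS_add (m0.smul _) m1, LS_smul m0, LS_smul mP, e]
  intro t ht x v
  obtain ⟨k1, k2, k3⟩ := h.PC_ls a ht x v
  show (D.e * LS D.E0 t x v + LS D.E1 t x v + LS D.H t x v + M * (pw a t x v * LS D.W t x v)) *
    Y t x v ≤ LS D.E0 t x v * (D.e * Y t x v) + _ * (br v * Y t x v)
  calc _ ≤ (D.e * LS D.E0 t x v + br v + D.K * br v + M * (D.K * br v)) * Y t x v := by gcongr
    _ = _ := by
        push_cast
        ring

theorem PC_add {T : ℝ} {f g Y : Fn} {c d k : ℝ≥0∞} (h1 : LeOn 0 T f (c • Y)) (h2 : LeOn 0 T g (d • Y))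
    (hk : c + d ≤ k) : LeOn 0 T (f + g) (k • Y) := fun t ht x v =>
  calc _ ≤ c * Y t x v + d * Y t x v := add_le_add (h1 t ht x v) (h2 t ht x v)
    _ = (c + d) * Y t x v := by ring
    _ ≤ k * Y t x v := mul_le_mul' hk le_rfl

theorem PC_smul {T : ℝ} {f Y : Fn} {c : ℝ≥0∞} (h1 : LeOn 0 T f (c • Y)) (d : ℝ≥0∞) :
    LeOn 0 T (d • f) ((d * c) • Y) := fun t ht x v =>
  calc _ ≤ d * (c * Y t x v) := mul_le_mul' le_rfl (h1 t ht x v)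
    _ = d * c * Y t x v := by ring

theorem PC_up {T : ℝ} {f Y : Fn} {c k : ℝ≥0∞} (h1 : LeOn 0 T f (c • Y)) (hk : c ≤ k) :
    LeOn 0 T f (k • Y) := fun t ht x v => (h1 t ht x v).trans (mul_le_mul' hk le_rfl)

theorem PC_AI_le {T : ℝ} {b f g : Fn} (h1 : LeOn 0 T (PI f 0) g) : LeOn 0 T (AI b f 0) g :=
  fun t ht x v => (AI_le_PI b f 0 t x v).trans (h1 t ht x v)

theorem PC_mul {T : ℝ} {f g f' g' : Fn} (h1 : LeOn 0 T f f') (h2 : LeOn 0 T g g') :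
    LeOn 0 T (f * g) (f' * g') := fun t ht x v => mul_le_mul' (h1 t ht x v) (h2 t ht x v)

theorem PC_Ev_basic : Ev fun ε Λ => ε ≤ 1 ∧ 0 ≤ Λ :=
  ⟨1, one_pos, fun ε _ hε => ⟨0, fun _ hΛ => ⟨hε, hΛ⟩⟩⟩

theorem PC_div_le (b : ℝ≥0) (ha : 1 ≤ a) : b / a ≤ b :=
  div_le_self zero_le (by exact_mod_cast ha)

/-- `exp (Λ s) ≤ exp (Λ t)`; `EE`, `EH`, `PI_E0W`. -/
theorem OK.norm_c1 (h : D.OK) (ha : 1 ≤ a) {ε : ℝ≥0} (hε : ε ≤ 1) {Λ : ℝ} (hΛ : 0 ≤ Λ) :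
    LeOn 0 D.t₁ (PI ((2 : ℝ≥0∞) • GN D.E0 (D.Z ε Λ a)) 0)
      (((4 * D.η + D.b₁ / a : ℝ≥0) : ℝ≥0∞) • D.Z ε Λ a) := by
  have mE := h.rEc.meas
  have m0 := h.rE0.meas
  have mH := h.rH.meas
  have mP := h.PC_mP a
  have e : (2 : ℝ≥0∞) • GN D.E0 (D.Z ε Λ a) = tm (fun t => Real.exp (Λ * t)) *
      (((2 * ε : ℝ≥0) : ℝ≥0∞) • GN D.E0 D.Ec + (2 : ℝ≥0∞) • GN D.E0 D.H +
        (2 : ℝ≥0∞) • GN D.E0 (pw a * D.W)) := by
    rw [h.PC_GN_Z m0]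
    funext t x v
    simp only [Pi.add_apply, Pi.smul_apply, smul_eq_mul, Pi.mul_apply]
    push_cast
    ring
  have h1 : LeOn 0 D.t₁ (PI (((2 * ε : ℝ≥0) : ℝ≥0∞) • GN D.E0 D.Ec + (2 : ℝ≥0∞) • GN D.E0 D.H +
        (2 : ℝ≥0∞) • GN D.E0 (pw a * D.W)) 0)
      (((4 * D.η + D.b₁ / a : ℝ≥0) : ℝ≥0∞) • ((ε : ℝ≥0∞) • D.Ec + D.H + pw a * D.W)) := by
    rw [PI_add (((m0.GN mE).smul _).add ((m0.GN mH).smul _)), PI_add ((m0.GN mE).smul _),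
      PI_smul (m0.GN mE), PI_smul (m0.GN mH)]
    intro t ht x v
    have k1 : PI (GN D.E0 D.Ec) 0 t x v ≤ D.η * (D.Ec t x v + D.H t x v) :=
      ((PI_mono (GN_mono (PC_E0_le _) (PC_refl _ _))).trans h.EE t ht x v).trans
        (mul_le_mul' le_rfl (add_le_add le_add_self le_rfl))
    have k2 : PI (GN D.E0 D.H) 0 t x v ≤ D.η * D.H t x v :=
      (PI_mono (GN_mono (PC_E0_le _) (PC_refl _ _))).trans h.EH t ht x v
    have k3 : PI ((2 : ℝ≥0∞) • GN D.E0 (pw a * D.W)) 0 t x v ≤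
        ((D.b₁ / a : ℝ≥0) : ℝ≥0∞) * (pw a * D.W) t x v := h.PI_E0W_pw ha t ht x v
    calc _ = ((2 * ε : ℝ≥0) : ℝ≥0∞) * PI (GN D.E0 D.Ec) 0 t x v + 2 * PI (GN D.E0 D.H) 0 t x v +
          PI ((2 : ℝ≥0∞) • GN D.E0 (pw a * D.W)) 0 t x v := rfl
      _ ≤ ((2 * ε : ℝ≥0) : ℝ≥0∞) * (D.η * (D.Ec t x v + D.H t x v)) + 2 * (D.η * D.H t x v) +
          ((D.b₁ / a : ℝ≥0) : ℝ≥0∞) * (pw a * D.W) t x v := by gcongr
      _ = ((2 * D.η * ε : ℝ≥0) : ℝ≥0∞) * D.Ec t x v +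
          ((2 * D.η * ε + 2 * D.η : ℝ≥0) : ℝ≥0∞) * D.H t x v +
          ((D.b₁ / a : ℝ≥0) : ℝ≥0∞) * (pw a * D.W) t x v := by
          generalize D.b₁ / a = b
          push_cast
          ring
      _ ≤ _ := by
          refine PC_comb (mul_le_mul' ?_ le_rfl) ?_ le_add_self
          · generalize D.b₁ / a = b
            nlinarith [zero_le (a := b), zero_le (a := D.η)]
          · generalize D.b₁ / a = b
            nlinarith [zero_le (a := b), zero_le (a := D.η), mul_le_mul' (le_refl D.η) hε]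
  rw [e]
  intro t ht x v
  refine (PC_PI_tm hΛ h1 t ht x v).trans (le_of_eq ?_)
  exact mul_left_comm _ _ _

/-- Nine terms.  `E1`, `H` against `ε Ec + H`: `EE`, `EH`, `HH` (`4 η`).  `M t^a W` against `ε Ec`:
`ε M (b₁ / a + η)`.  All other terms are bounded by `c br e^{Λ s} s^a W`: `W_pa`,
`lintegral_br_decay'`. -/
theorem OK.norm_c2 (h : D.OK) (ha : 1 ≤ a) (M : ℝ≥0) {θ : ℝ≥0} (hθ : 0 < θ) : Ev fun ε Λ =>
    LeOn 0 D.t₁ (PI (GN (D.E1 + D.H + (M : ℝ≥0∞) • (pw a * D.W)) (D.Z ε Λ a)) 0)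
      (((4 * D.η + θ : ℝ≥0) : ℝ≥0∞) • D.Z ε Λ a) := by
  have mE := h.rEc.meas
  have m0 := h.rE0.meas
  have mH := h.rH.meas
  have mP := h.PC_mP a
  obtain ⟨ε₀, hε₀, hs⟩ := PC_small (c := M * (D.b₁ / a)) (half_pos hθ)
  obtain ⟨Λ₀, hΛ₀, hd⟩ := h.PC_brZ a (1 + D.K + M * (1 + 2 * D.K)) (half_pos hθ)
  refine ⟨ε₀, hε₀, fun ε _ hε => ⟨Λ₀, fun Λ hΛ => ?_⟩⟩
  obtain ⟨hε1, hε2⟩ := hs ε hε
  have mA := (((mE.GN mE).smul ε).add ((mE.GN mH).smul 2)).add (mH.GN mH)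
  have h1 : LeOn 0 D.t₁ (PI ((ε : ℝ≥0∞) • GN D.Ec D.Ec + (2 : ℝ≥0∞) • GN D.Ec D.H +
        GN D.H D.H + ((ε * M : ℝ≥0) : ℝ≥0∞) • ((2 : ℝ≥0∞) • GN D.E0 (pw a * D.W))) 0)
      (((4 * D.η + θ / 2 : ℝ≥0) : ℝ≥0∞) • ((ε : ℝ≥0∞) • D.Ec + D.H + pw a * D.W)) := by
    rw [PI_add mA, PI_add (((mE.GN mE).smul ε).add ((mE.GN mH).smul 2)), PI_add ((mE.GN mE).smul ε),
      PI_smul (mE.GN mE), PI_smul (mE.GN mH), PI_smul ((m0.GN mP).smul 2)]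
    intro t ht x v
    have k1 : PI (GN D.Ec D.Ec) 0 t x v ≤ D.η * (D.Ec t x v + D.H t x v) :=
      (h.EE t ht x v).trans (mul_le_mul' le_rfl (add_le_add le_add_self le_rfl))
    have k2 : PI (GN D.Ec D.H) 0 t x v ≤ D.η * D.H t x v := h.EH t ht x v
    have k2' : PI (GN D.H D.H) 0 t x v ≤ D.η * D.H t x v := h.HH t ht x v
    have k3 : PI ((2 : ℝ≥0∞) • GN D.E0 (pw a * D.W)) 0 t x v ≤
        ((D.b₁ / a : ℝ≥0) : ℝ≥0∞) * (pw a * D.W) t x v := h.PI_E0W_pw ha t ht x v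
    calc _ = ε * PI (GN D.Ec D.Ec) 0 t x v + 2 * PI (GN D.Ec D.H) 0 t x v + PI (GN D.H D.H) 0 t x v +
          ((ε * M : ℝ≥0) : ℝ≥0∞) * PI ((2 : ℝ≥0∞) • GN D.E0 (pw a * D.W)) 0 t x v := rfl
      _ ≤ ε * (D.η * (D.Ec t x v + D.H t x v)) + 2 * (D.η * D.H t x v) + D.η * D.H t x v +
          ((ε * M : ℝ≥0) : ℝ≥0∞) * (((D.b₁ / a : ℝ≥0) : ℝ≥0∞) * (pw a * D.W) t x v) := by gcongr
      _ = ((D.η * ε : ℝ≥0) : ℝ≥0∞) * D.Ec t x v + ((D.η * ε + 3 * D.η : ℝ≥0) : ℝ≥0∞) * D.H t x v +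
          ((ε * (M * (D.b₁ / a)) : ℝ≥0) : ℝ≥0∞) * (pw a * D.W) t x v := by
          generalize D.b₁ / a = b
          push_cast
          ring
      _ ≤ _ := by
          refine PC_comb (mul_le_mul' ?_ le_rfl) ?_ (hε2.trans le_add_self)
          · generalize θ / 2 = b
            nlinarith [zero_le (a := b), zero_le (a := D.η)]
          · generalize θ / 2 = b
            nlinarith [zero_le (a := b), zero_le (a := D.η), mul_le_mul' (le_refl D.η) hε1]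
  refine (PI_mono_oc (h.PC_c2 a M hε1 Λ)).trans ?_
  rw [PI_add ((meas_tm (by fun_prop)).mul (mA.add (((m0.GN mP).smul 2).smul _)))]
  refine PC_add (c := ((4 * D.η + θ / 2 : ℝ≥0) : ℝ≥0∞)) (fun t ht x v => ?_) (hd Λ hΛ ε) ?_
  · refine (PC_PI_tm (hΛ₀.trans hΛ) h1 t ht x v).trans (le_of_eq ?_)
    exact mul_left_comm _ _ _
  · rw [← ENNReal.coe_add, add_assoc, add_halves]

/-- On the paths that carry `Ec` use `self` (frequency `≤ ε + 8 K`, time integral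
`e^{Λ t} / Λ`).  `(H + M t^a W) ε LS E0`: `AI_mul_le` (`LS E0 = 2 att`).  The rest:
`lintegral_br_decay'`. -/
theorem OK.norm_c3 (h : D.OK) (ha : 1 ≤ a) (M : ℝ≥0) {θ : ℝ≥0} (hθ : 0 < θ) : Ev fun ε Λ =>
    LeOn 0 D.t₁ (AI D.att (D.env M a * LS (D.Z ε Λ a)) 0) ((θ : ℝ≥0∞) • D.Z ε Λ a) := by
  obtain ⟨ε₀, hε₀, hs⟩ := PC_small (c := 2 * (1 + M) * D.Cw) (half_pos hθ)
  refine ⟨ε₀, hε₀, fun ε hε0 hε => ?_⟩
  obtain ⟨hε1, hε2⟩ := hs ε hε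
  obtain ⟨Λ₀, hΛ₀, hd⟩ := h.PC_brZ a ((1 + 2 * D.K) * (ε⁻¹ + (1 + M))) (half_pos hθ)
  refine ⟨Λ₀, fun Λ hΛ => ?_⟩
  refine (AI_mono_oc (fun _ _ _ _ => le_rfl) (h.PC_c3 a M hε0 hε1 Λ)).trans ?_
  rw [AI_add h.meas_att (h.meas_att.mul ((h.rZ ε Λ a).meas.smul _))]
  refine PC_add (h.PC_AI_self h.meas_att _ ε (hΛ₀.trans hΛ) a) (PC_AI_le (hd Λ hΛ ε)) ?_
  rw [← ENNReal.coe_mul, ← ENNReal.coe_add, ENNReal.coe_le_coe]
  calc _ = ε * (2 * (1 + M) * D.Cw) + θ / 2 := by ring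
    _ ≤ θ / 2 + θ / 2 := add_le_add hε2 le_rfl
    _ = θ := add_halves θ

/-- `e LS E0 * Z`: `AI_mul_le` and `pa Z ≤ Cw Z`. -/
theorem OK.norm_c4 (h : D.OK) (ha : 1 ≤ a) (M : ℝ≥0) {θ : ℝ≥0} (hθ : 0 < θ) : Ev fun ε Λ =>
    LeOn 0 D.t₁ (AI (LS D.E0) (LS (D.env' M a) * D.Z ε Λ a) 0)
      (((D.e * D.Cw + θ : ℝ≥0) : ℝ≥0∞) • D.Z ε Λ a) := by
  obtain ⟨Λ₀, hΛ₀, hd⟩ := h.PC_brZ a (1 + D.K + M * D.K) hθ
  refine ⟨1, one_pos, fun ε hε0 hε => ⟨Λ₀, fun Λ hΛ => ?_⟩⟩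
  have m0 := h.rE0.meas.LS
  refine (AI_mono_oc (fun _ _ _ _ => le_rfl) (h.PC_c4 a M _)).trans ?_
  rw [AI_add m0 (m0.mul ((h.rZ ε Λ a).meas.smul _))]
  refine PC_add (h.PC_AI_self m0 _ ε (hΛ₀.trans hΛ) a) (PC_AI_le (hd Λ hΛ ε)) ?_
  rw [← ENNReal.coe_mul, ← ENNReal.coe_add]

theorem OK.norm_T (h : D.OK) (ha : 1 ≤ a) (M : ℝ≥0) : Ev fun ε Λ =>
    LeOn 0 D.t₁ (D.opT M a (D.Z ε Λ a)) (((2 * D.b₁ / a + 1 / 4 : ℝ≥0) : ℝ≥0∞) • D.Z ε Λ a) := by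
  have hθ : (0 : ℝ≥0) < 1 / 100 := by norm_num
  refine ((PC_Ev_basic.and (h.norm_c2 ha M hθ)).and (h.norm_c3 ha M hθ)).mono ?_
  rintro ε Λ ⟨⟨⟨hε, hΛ⟩, h2⟩, h3⟩
  have h1 := h.norm_c1 ha hε hΛ
  have mZ := (h.rZ ε Λ a).meas
  have m0 := h.rE0.meas
  have mA := (h.rE1.meas.add h.rH.meas).add ((h.PC_mP a).smul M)
  have e : (4 : ℝ≥0∞) • GN (D.env M a) (D.Z ε Λ a) =
      (2 : ℝ≥0∞) • ((2 : ℝ≥0∞) • GN D.E0 (D.Z ε Λ a)) +
        (4 : ℝ≥0∞) • GN (D.E1 + D.H + (M : ℝ≥0∞) • (pw a * D.W)) (D.Z ε Λ a) := by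
    have e1 : D.env M a = D.E0 + (D.E1 + D.H + (M : ℝ≥0∞) • (pw a * D.W)) := by
      simp only [env, Ec, add_assoc]
    rw [e1, GN_add_left m0 mA mZ, smul_add, smul_smul]
    norm_num
  have m1 := ((m0.GN mZ).smul 2).smul 2
  have m2 := (mA.GN mZ).smul 4
  unfold opT
  rw [e, AI_add h.meas_att (m1.add m2), AI_add h.meas_att m1, AI_smul h.meas_att ((m0.GN mZ).smul 2),
    AI_smul h.meas_att (mA.GN mZ)]
  refine PC_add (PC_add (PC_smul (PC_AI_le h1) 2) (PC_smul (PC_AI_le h2) 4) le_rfl) h3 ?_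
  have hη := h.η_le
  have k : 2 * (4 * D.η + D.b₁ / a) + 4 * (4 * D.η + 1 / 100) + 1 / 100 ≤ 2 * D.b₁ / a + 1 / 4 := by
    rw [mul_div_assoc]
    generalize D.b₁ / a = b
    have hη' : 400 * (D.η : ℝ) ≤ 1 := by exact_mod_cast hη
    rw [← NNReal.coe_le_coe]
    push_cast
    linarith
  exact_mod_cast k

theorem OK.norm_S (h : D.OK) (ha : 1 ≤ a) {ε : ℝ≥0} (hε : ε ≤ 1) {Λ : ℝ} (hΛ : 0 ≤ Λ) :
    LeOn 0 D.t₁ (D.opS (D.Z ε Λ a)) (((1 + D.b₁ : ℝ≥0) : ℝ≥0∞) • D.Z ε Λ a) := by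
  refine PC_up (PC_AI_le (h.norm_c1 ha hε hΛ)) (ENNReal.coe_le_coe.2 (add_le_add ?_ (PC_div_le _ ha)))
  have hη := h.η_le
  nlinarith [zero_le (a := D.η)]

/-- `e_small`, `η_small`. -/
theorem OK.norm_R (h : D.OK) (ha : 1 ≤ a) (M : ℝ≥0) : Ev fun ε Λ =>
    LeOn 0 D.t₁ (D.opR M a (D.Z ε Λ a)) (((1 / (2 * (2 + D.b₁)) : ℝ≥0) : ℝ≥0∞) • D.Z ε Λ a) := by
  have hθ : (0 : ℝ≥0) < 1 / (100 * (2 + D.b₁)) := by positivity
  refine (((PC_Ev_basic.and (h.norm_c2 ha M hθ)).and (h.norm_c3 ha M hθ)).and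
    (h.norm_c4 ha M hθ)).mono ?_
  rintro ε Λ ⟨⟨⟨⟨hε, hΛ⟩, h2⟩, h3⟩, h4⟩
  have h1 := h.norm_c1 ha hε hΛ
  have mZ := (h.rZ ε Λ a).meas
  have m0 := h.rE0.meas
  have mL := m0.LS
  have mA := (h.rE1.meas.add h.rH.meas).add ((h.PC_mP a).smul M)
  have e : (2 : ℝ≥0∞) • GN (D.env' M a) (D.Z ε Λ a) =
      (D.e : ℝ≥0∞) • ((2 : ℝ≥0∞) • GN D.E0 (D.Z ε Λ a)) +
        (2 : ℝ≥0∞) • GN (D.E1 + D.H + (M : ℝ≥0∞) • (pw a * D.W)) (D.Z ε Λ a) := by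
    have e1 : D.env' M a = (D.e : ℝ≥0∞) • D.E0 + (D.E1 + D.H + (M : ℝ≥0∞) • (pw a * D.W)) := by
      simp only [env', add_assoc]
    rw [e1, GN_add_left (m0.smul _) mA mZ, smul_add, GN_smul_left m0 mZ, smul_comm]
  have m1 := ((m0.GN mZ).smul 2).smul D.e
  have m2 := (mA.GN mZ).smul 2
  have m3 := (h.renv (M := M) ENNReal.coe_ne_top a).meas.mul mZ.LS
  have h3' : LeOn 0 D.t₁ (AI (LS D.E0) (D.env M a * LS (D.Z ε Λ a)) 0) _ :=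
    (AI_mono (b := D.att) (fun t _ x v => mul_le_of_le_one_left' (ENNReal.inv_le_one.2 one_le_two))
      (PC_refl _ _)).trans h3
  unfold opR
  rw [e, AI_add mL ((m1.add m2).add m3), AI_add mL (m1.add m2), AI_add mL m1,
    AI_smul mL ((m0.GN mZ).smul 2), AI_smul mL (mA.GN mZ)]
  refine PC_add (PC_add (PC_add (PC_smul (PC_AI_le h1) _) (PC_smul (PC_AI_le h2) 2) le_rfl) h3' le_rfl)
    h4 ?_
  have k : D.e * (4 * D.η + D.b₁ / a) + 2 * (4 * D.η + 1 / (100 * (2 + D.b₁))) +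
      1 / (100 * (2 + D.b₁)) + (D.e * D.Cw + 1 / (100 * (2 + D.b₁))) ≤ 1 / (2 * (2 + D.b₁)) := by
    have q0 := PC_div_le D.b₁ ha
    generalize D.b₁ / a = b at q0
    have q1 : (b : ℝ) ≤ D.b₁ := q0
    have q2 : 100 * (D.e : ℝ) * D.Cw * (2 + D.b₁) ^ 2 ≤ 1 := by exact_mod_cast h.e_small
    have q3 : 100 * (D.η : ℝ) * (2 + D.b₁) ^ 2 ≤ 1 := by exact_mod_cast h.η_small
    have q4 : 400 * (D.η : ℝ) ≤ 1 := by exact_mod_cast h.η_le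
    have q5 : (1 : ℝ) ≤ D.Cw := h.one_Cw
    have q6 : (0 : ℝ) ≤ D.e := D.e.2
    have q7 : (0 : ℝ) ≤ D.η := D.η.2
    have q8 : (0 : ℝ) ≤ D.b₁ := D.b₁.2
    rw [← NNReal.coe_le_coe]
    push_cast
    generalize (D.e : ℝ) = e at *
    generalize (D.η : ℝ) = η at *
    generalize (D.Cw : ℝ) = C at *
    generalize (D.b₁ : ℝ) = β at *
    have hB : 0 < 2 + β := by linarith
    have r0 : 1 / (2 * (2 + β)) = 50 * (1 / (100 * (2 + β))) := by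
      field_simp
      norm_num
    have r1 : e * C * (2 + β) ≤ 1 / (100 * (2 + β)) := by
      rw [le_div_iff₀ (by positivity)]
      nlinarith
    have r2 : η * (2 + β) ≤ 1 / (100 * (2 + β)) := by
      rw [le_div_iff₀ (by positivity)]
      nlinarith
    rw [r0]
    generalize 1 / (100 * (2 + β)) = θ at *
    have r3 : e ≤ e * C := le_mul_of_one_le_right q6 q5
    have r4 : e * (4 * η + b) ≤ e * C * (2 + β) :=
      mul_le_mul r3 (by linarith) (by positivity) (q6.trans r3)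
    have r5 : 0 ≤ e * C * β := mul_nonneg (q6.trans r3) q8
    have r6 : 0 ≤ η * β := mul_nonneg q7 q8
    nlinarith
  exact_mod_cast k

theorem OK.env_le_Z (h : D.OK) (M : ℝ≥0) (a : ℕ) {ε : ℝ≥0} (hε : 0 < ε) {Λ : ℝ} (hΛ : 0 ≤ Λ) :
    ∃ Y : ℝ≥0, LeOn 0 D.t₁ (D.env M a) ((Y : ℝ≥0∞) • D.Z ε Λ a) := by
  refine ⟨ε⁻¹ + 1 + M, fun t ht x v => ?_⟩
  have k : (1 : ℝ≥0) ≤ (ε⁻¹ + 1 + M) * ε := by
    rw [add_assoc, add_mul, inv_mul_cancel₀ hε.ne']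
    exact le_self_add
  have k1 := @PC_comb 1 1 M (ε⁻¹ + 1 + M) ε (D.Ec t x v) (D.H t x v) ((pw a * D.W) t x v) k
    (le_add_self.trans le_self_add) le_add_self
  rw [ENNReal.coe_one, one_mul, one_mul] at k1
  exact k1.trans (mul_le_mul' le_rfl (le_mul_of_one_le_left' (PC_one_exp hΛ ht.1)))

theorem OK.Z_le_env (h : D.OK) (a : ℕ) {ε : ℝ≥0} (hε : ε ≤ 1) (Λ : ℝ) :
    ∃ Y : ℝ≥0, LeOn 0 D.t₁ (D.Z ε Λ a) ((Y : ℝ≥0∞) • (D.Ec + D.H + D.W)) := by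
  refine ⟨(Real.exp |Λ|).toNNReal, fun t ht x v => ?_⟩
  have h1 := ht.2.trans h.t₁_le
  have k1 : ENNReal.ofReal (Real.exp (Λ * t)) ≤ ENNReal.ofReal (Real.exp |Λ|) :=
    ENNReal.ofReal_le_ofReal (Real.exp_le_exp.2 ((mul_le_mul_of_nonneg_right (le_abs_self Λ) ht.1).trans
      (mul_le_of_le_one_right (abs_nonneg Λ) h1)))
  have k2 : (ε : ℝ≥0∞) ≤ 1 := by exact_mod_cast hε
  exact mul_le_mul' k1 (add_le_add (add_le_add (mul_le_of_le_one_left' k2) le_rfl)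
    (mul_le_of_le_one_left' (PC_pw_le ht.1 h1 a x v)))

theorem OK.pw_le_Z (h : D.OK) (a : ℕ) (ε : ℝ≥0) {Λ : ℝ} (hΛ : 0 ≤ Λ) :
    LeOn 0 D.t₁ (pw a * D.W) (D.Z ε Λ a) := fun t ht x v =>
  le_add_self.trans (le_mul_of_one_le_left' (PC_one_exp hΛ ht.1))

section ops

variable {f g : Fn} {M : ℝ≥0}

theorem OK.meas_opT (h : D.OK) (hf : Meas f) : Meas (D.opT M a f) := by
  have m := (h.renv (M := M) ENNReal.coe_ne_top a).meas
  exact h.meas_att.AI (((m.GN hf).smul _).add (m.mul hf.LS)) 0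

theorem OK.meas_opS (h : D.OK) (hf : Meas f) : Meas (D.opS f) :=
  h.rE0.meas.LS.AI ((h.rE0.meas.GN hf).smul _) 0

theorem OK.meas_opR (h : D.OK) (hf : Meas f) : Meas (D.opR M a f) := by
  have m := (h.renv (M := M) ENNReal.coe_ne_top a).meas
  have m' := (h.renv' (M := M) ENNReal.coe_ne_top a).meas
  exact h.rE0.meas.LS.AI ((((m'.GN hf).smul _).add (m.mul hf.LS)).add (m'.LS.mul hf)) 0

theorem opT_mono {T : ℝ} (hfg : LeOn 0 T f g) : LeOn 0 T (D.opT M a f) (D.opT M a g) :=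
  AI_mono (PC_refl _ _) (((GN_mono (PC_refl _ _) hfg).smul _).add (PC_mul (PC_refl _ _) (LS_mono hfg)))

theorem opS_mono {T : ℝ} (hfg : LeOn 0 T f g) : LeOn 0 T (D.opS f) (D.opS g) :=
  AI_mono (PC_refl _ _) ((GN_mono (PC_refl _ _) hfg).smul _)

theorem opR_mono {T : ℝ} (hfg : LeOn 0 T f g) : LeOn 0 T (D.opR M a f) (D.opR M a g) :=
  AI_mono (PC_refl _ _) ((((GN_mono (PC_refl _ _) hfg).smul _).add
    (PC_mul (PC_refl _ _) (LS_mono hfg))).add (PC_mul (PC_refl _ _) hfg))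

theorem OK.opT_smul (h : D.OK) (hf : Meas f) (c : ℝ≥0∞) : D.opT M a (c • f) = c • D.opT M a f := by
  have m := (h.renv (M := M) ENNReal.coe_ne_top a).meas
  unfold opT
  rw [← AI_smul h.meas_att (((m.GN hf).smul _).add (m.mul hf.LS)), GN_smul_right m hf, LS_smul hf,
    smul_add, smul_comm c, mul_smul_comm]

theorem OK.opS_smul (h : D.OK) (hf : Meas f) (c : ℝ≥0∞) : D.opS (c • f) = c • D.opS f := by
  unfold opS
  rw [← AI_smul h.rE0.meas.LS ((h.rE0.meas.GN hf).smul _), GN_smul_right h.rE0.meas hf, smul_comm c]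

theorem OK.opR_smul (h : D.OK) (hf : Meas f) (c : ℝ≥0∞) : D.opR M a (c • f) = c • D.opR M a f := by
  have m := (h.renv (M := M) ENNReal.coe_ne_top a).meas
  have m' := (h.renv' (M := M) ENNReal.coe_ne_top a).meas
  unfold opR
  rw [← AI_smul h.rE0.meas.LS ((((m'.GN hf).smul _).add (m.mul hf.LS)).add (m'.LS.mul hf)),
    GN_smul_right m' hf, LS_smul hf, smul_add, smul_add, smul_comm c, mul_smul_comm, mul_smul_comm]

theorem OK.opS_add (h : D.OK) (hf : Meas f) (hg : Meas g) : D.opS (f + g) = D.opS f + D.opS g := by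
  unfold opS
  rw [← AI_add h.rE0.meas.LS ((h.rE0.meas.GN hf).smul _), GN_add_right h.rE0.meas hf hg, smul_add]

end ops

end P1

end Crest.Agent.R68
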