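/-
R68/PD: existence for the truncated problem and the choice of the source strength
Skeleton by helper76 (row 68); keep the statements unchanged, add any helper lemmas you like.
-/
import Crest.Agent.R68.PB
import Crest.Agent.R68.PC
import Crest.Agent.R68.Soft

set_option autoImplicit false
set_option linter.unusedVariables false
set_option linter.unusedSectionVars false

noncomputable section

namespace Crest.Agent.R68

open MeasureTheory Set Filter Topology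
open scoped ENNReal NNReal
open Crest.AnalysisR.VecCalc3 Crest.AnalysisR.PDE.Boltzmann

namespace P1

variable {D : P1} {F G g : Fn} {σ σ' : ℝ≥0}

theorem PD_one_le (h : D.OK) : 1 ≤ D.n₂ := by
  have h1 := h.n₂_ge
  have h2 : (1 : ℝ≥0) ≤ D.n₂ := le_trans (le_trans one_le_two le_add_self) h1
  exact_mod_cast h2

theorem PD_half (h : D.OK) : (((2 * D.b₁ / D.n₂ + 1 / 4 : ℝ≥0)) : ℝ≥0∞) ≤ 2⁻¹ := by
  have h1 : (20 * D.b₁ + 2 : ℝ) ≤ D.n₂ := by exact_mod_cast h.n₂_ge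
  have hb : (0 : ℝ) ≤ D.b₁ := D.b₁.2
  have hn : (0 : ℝ) < D.n₂ := by linarith
  have h2 : (2 * D.b₁ / D.n₂ + 1 / 4 : ℝ≥0) ≤ 2⁻¹ := by
    rw [← NNReal.coe_le_coe]
    push_cast
    have : (2 * D.b₁ / D.n₂ : ℝ) ≤ 1 / 4 := by
      rw [div_le_iff₀ hn]
      linarith
    linarith
  calc (((2 * D.b₁ / D.n₂ + 1 / 4 : ℝ≥0)) : ℝ≥0∞) ≤ ((2⁻¹ : ℝ≥0) : ℝ≥0∞) := by exact_mod_cast h2
    _ = 2⁻¹ := by simp

theorem PD_src {Mg σm : ℝ≥0} (hσ : σ ≤ σm)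
    (hb : LeOn 0 D.t₁ (PI g 0) ((Mg : ℝ≥0∞) • (pw D.n₂ * D.W))) :
    LeOn 0 D.t₁ ((σ : ℝ≥0∞) • PI g 0) (((σm * Mg : ℝ≥0) : ℝ≥0∞) • (pw D.n₂ * D.W)) := by
  intro t ht x v
  have h1 := hb t ht x v
  simp only [Pi.smul_apply, smul_eq_mul] at h1 ⊢
  rw [ENNReal.coe_mul, mul_assoc]
  exact mul_le_mul' (by exact_mod_cast hσ) h1

theorem PD_fin (h : D.OK) (hg : D.Src g) (σ : ℝ≥0) :
    ∀ t ∈ Icc 0 D.t₁, ∀ x v, PI ((σ : ℝ≥0∞) • g) 0 t x v ≠ ⊤ := by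
  intro t ht x v
  obtain ⟨Mg, hb⟩ := hg.bd
  rw [PI_smul hg.meas]
  exact ne_top_of_le_ne_top
    ((((reg_pw D.n₂).mul h.rW).smul ENNReal.coe_ne_top).fin t x v) (PD_src le_rfl hb t ht x v)

theorem PD_step (h : D.OK) (hg : D.Src g) {M ε : ℝ≥0} {Λ : ℝ}
    (hT : LeOn 0 D.t₁ (D.opT M D.n₂ (D.Z ε Λ D.n₂))
      (((2 * D.b₁ / D.n₂ + 1 / 4 : ℝ≥0) : ℝ≥0∞) • D.Z ε Λ D.n₂))
    (hF : D.Cl M D.n₂ F) (hG : D.Cl M D.n₂ G)
    (hΦ : LeOn 0 D.t₁ (D.Phi σ' g G) (D.env M D.n₂)) {Y : ℝ≥0∞}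
    (hFG : LeOn 0 D.t₁ F (G + Y • D.Z ε Λ D.n₂)) (hGF : LeOn 0 D.t₁ G (F + Y • D.Z ε Λ D.n₂)) :
    LeOn 0 D.t₁ (D.Phi σ g F) (D.Phi σ' g G + (Y / 2) • D.Z ε Λ D.n₂ +
      ((nndist σ σ' : ℝ≥0) : ℝ≥0∞) • PI g 0) := by
  have hZ := (h.rZ ε Λ D.n₂).meas
  have hsrc : LeOn 0 D.t₁ ((σ : ℝ≥0∞) • g)
      ((σ' : ℝ≥0∞) • g + ((nndist σ σ' : ℝ≥0) : ℝ≥0∞) • g) := by
    intro t ht x v
    simp only [Pi.smul_apply, Pi.add_apply, smul_eq_mul]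
    rw [← add_mul, ← ENNReal.coe_add]
    refine mul_le_mul' ?_ le_rfl
    exact_mod_cast NNReal.le_add_nndist σ σ'
  have h1 := h.Phi_cmp (PD_one_le h) hF hG (hZ.smul Y) hg.meas hg.meas
    (hg.meas.smul ((nndist σ σ' : ℝ≥0) : ℝ≥0∞)) hFG hGF hΦ (PD_fin h hg σ) (PD_fin h hg σ') hsrc
  rw [PI_smul hg.meas, h.opT_smul hZ] at h1
  intro t ht x v
  refine (h1 t ht x v).trans ?_
  have h2 := hT t ht x v
  simp only [Pi.smul_apply, Pi.add_apply, smul_eq_mul] at h2 ⊢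
  refine add_le_add (add_le_add le_rfl ?_) le_rfl
  rw [div_eq_mul_inv, mul_assoc]
  exact mul_le_mul' le_rfl (h2.trans (mul_le_mul' (PD_half h) le_rfl))

/-- cut to `[0, t₁]` -/
def PD_cut (D : P1) (F : Fn) : Fn := fun t x v => if t ∈ Icc 0 D.t₁ then F t x v else 0

theorem PD_cut_in {t : ℝ} (ht : t ∈ Icc 0 D.t₁) (x v : R3) : PD_cut D F t x v = F t x v := by
  simp only [PD_cut, if_pos ht]

theorem PD_cut_out {t : ℝ} (ht : t ∉ Icc 0 D.t₁) (x v : R3) : PD_cut D F t x v = 0 := by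
  simp only [PD_cut, if_neg ht]

theorem PD_cut_meas (hF : Meas F) : Meas (PD_cut D F) :=
  Measurable.ite (measurable_fst measurableSet_Icc) hF measurable_const

theorem PD_cut_inv (hF : InvF F) : InvF (PD_cut D F) := by
  intro t x v c hc
  simp only [PD_cut, hF t x v c hc]

theorem PD_lo_env (M : ℝ≥0∞) (a : ℕ) (t : ℝ) (x v : R3) :
    ((1 - D.e : ℝ≥0∞) • D.E0) t x v ≤ D.env M a t x v := by
  simp only [env, Ec, Pi.smul_apply, Pi.add_apply, smul_eq_mul]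
  calc (1 - D.e : ℝ≥0∞) * D.E0 t x v ≤ 1 * D.E0 t x v := mul_le_mul' tsub_le_self le_rfl
    _ = D.E0 t x v := one_mul _
    _ ≤ _ := le_self_add.trans (le_self_add.trans le_self_add)

theorem PD_env_le (h : D.OK) (M : ℝ≥0) (a : ℕ) :
    LeOn 0 D.t₁ (D.env M a) (((1 + M : ℝ≥0) : ℝ≥0∞) • (D.Ec + D.H + D.W)) := by
  intro t ht x v
  have hp : pw a t x v ≤ 1 := by
    show ENNReal.ofReal (t ^ a) ≤ 1
    rw [ENNReal.ofReal_le_one]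
    exact pow_le_one₀ ht.1 (ht.2.trans h.t₁_le)
  simp only [env, Pi.smul_apply, Pi.add_apply, Pi.mul_apply, smul_eq_mul]
  rw [ENNReal.coe_add, ENNReal.coe_one, add_mul, one_mul]
  refine add_le_add le_self_add (mul_le_mul' le_rfl ?_)
  exact (mul_le_of_le_one_left' hp).trans le_add_self

theorem PD_cl (h : D.OK) (hg : D.Src g) {Mg σm : ℝ≥0} (hσ : σ ≤ σm)
    (hb : LeOn 0 D.t₁ (PI g 0) ((Mg : ℝ≥0∞) • (pw D.n₂ * D.W))) (hF : D.TS D.n₂ σ g F) :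
    D.Cl (2 * (σm * Mg)) D.n₂ F := by
  refine ⟨hF.reg.meas, hF.lo h, ?_⟩
  have := hF.crude h hg.meas (PD_src hσ hb)
  simpa only [ENNReal.coe_mul, ENNReal.coe_ofNat] using this

/-- `exists_fixed` on the set of measurable invariant `F` in `Cl M n₂` that vanish for
`t ∉ [0, t₁]`, `M = 2 σ M_g`, for the map `F ↦ Phi σ g F` cut to `[0, t₁]`, with the weight `Z ε Λ n₂`
of `norm_T` (`2 b₁ / n₂ + 1/4 ≤ 1/2`).  `Phi_lo`, `Phi_up`, `Phi_cmp`, `opT_smul`, `env_le_Z`. -/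
theorem OK.exists_TS (h : D.OK) (hg : D.Src g) (σ : ℝ≥0) : ∃ F, D.TS D.n₂ σ g F := by
  obtain ⟨Mg, hb⟩ := hg.bd
  set X : ℝ≥0 := σ * Mg with hX
  obtain ⟨ε, Λ, hε, hε1, hΛ, hT⟩ := (h.norm_T (PD_one_le h) (2 * X)).exists
  obtain ⟨Y₀, hY₀⟩ := h.env_le_Z (2 * X) D.n₂ hε hΛ
  have hup : ∀ F, D.Cl (2 * X) D.n₂ F →
      LeOn 0 D.t₁ (D.Phi σ g F) (D.env ((2 * X : ℝ≥0) : ℝ≥0∞) D.n₂) := by
    intro F hF
    have h1 := h.Phi_up hg.meas hF (PD_src (σ := σ) le_rfl hb)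
    have e : ((σ * Mg : ℝ≥0) : ℝ≥0∞) + ((2 * X : ℝ≥0) : ℝ≥0∞) / 2 = ((2 * X : ℝ≥0) : ℝ≥0∞) := by
      rw [← hX, ENNReal.coe_mul 2 X, ENNReal.coe_ofNat, mul_comm,
        ENNReal.mul_div_cancel_right (by simp) (by simp), mul_two]
    rwa [e] at h1
  set S : Set Fn := {F | D.Cl (2 * X) D.n₂ F ∧ InvF F ∧ ∀ t ∉ Icc 0 D.t₁, ∀ x v, F t x v = 0}
    with hS
  have hfin : ∀ F ∈ S, ∀ t x v, F t x v ≠ ⊤ := by
    intro F hF t x v
    by_cases ht : t ∈ Icc 0 D.t₁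
    · exact ne_top_of_le_ne_top ((h.renv ENNReal.coe_ne_top D.n₂).fin t x v) (hF.1.up t ht x v)
    · rw [hF.2.2 t ht x v]
      exact ENNReal.zero_ne_top
  have hmaps : MapsTo (fun F => PD_cut D (D.Phi σ g F)) S S := by
    intro F hF
    refine ⟨⟨PD_cut_meas (h.meas_Phi hg.meas hF.1.meas), fun t ht x v => ?_, fun t ht x v => ?_⟩,
      PD_cut_inv (h.inv_Phi hg.inv hF.2.1), fun t ht x v => PD_cut_out ht x v⟩
    · simp only [PD_cut_in ht]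
      exact h.Phi_lo σ g F t ht x v
    · simp only [PD_cut_in ht]
      exact hup F hF.1 t ht x v
  have hbd : ∀ F ∈ S, ∀ G : Fn, F ≤ G + (Y₀ : ℝ≥0∞) • D.Z ε Λ D.n₂ := by
    intro F hF G t x v
    by_cases ht : t ∈ Icc 0 D.t₁
    · exact ((hF.1.up t ht x v).trans (hY₀ t ht x v)).trans le_add_self
    · rw [hF.2.2 t ht x v]
      exact zero_le
  have h0 : PD_cut D ((1 - D.e : ℝ≥0∞) • D.E0) ∈ S := by
    refine ⟨⟨PD_cut_meas (h.rE0.meas.smul _), fun t ht x v => ?_, fun t ht x v => ?_⟩,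
      PD_cut_inv (h.rE0.inv.smul _), fun t ht x v => PD_cut_out ht x v⟩
    · rw [PD_cut_in ht]
    · rw [PD_cut_in ht]
      exact PD_lo_env _ _ t x v
  obtain ⟨F, hF, hfix⟩ := exists_fixed S (fun F => PD_cut D (D.Phi σ g F)) (D.Z ε Λ D.n₂)
    (h.rZ ε Λ D.n₂).fin hfin hmaps
    (by
      intro F G hF hlim
      refine ⟨⟨?_, fun t ht x v => ?_, fun t ht x v => ?_⟩, fun t x v c hc => ?_,
        fun t ht x v => ?_⟩
      · exact ENNReal.measurable_of_tendsto (f := fun n (p : ℝ × R3 × R3) => F n p.1 p.2.1 p.2.2)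
          (fun n => (hF n).1.meas) (tendsto_pi_nhds.2 fun p => hlim p.1 p.2.1 p.2.2)
      · exact ge_of_tendsto' (hlim t x v) fun n => (hF n).1.lo t ht x v
      · exact le_of_tendsto' (hlim t x v) fun n => (hF n).1.up t ht x v
      · refine tendsto_nhds_unique (hlim t (x + c) v) ?_
        simp only [(hF _).2.1 t x v c hc]
        exact hlim t x v
      · refine tendsto_nhds_unique (hlim t x v) ?_
        simp only [(hF _).2.2 t ht x v]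
        exact tendsto_const_nhds)
    (by
      intro F hF G hG Y hY hFG hGF t x v
      by_cases ht : t ∈ Icc 0 D.t₁
      · have h1 := PD_step (σ := σ) h hg hT hF.1 hG.1 (hup G hG.1) (fun t _ x v => hFG t x v)
          (fun t _ x v => hGF t x v) t ht x v
        simp only [Pi.add_apply, PD_cut_in ht]
        simpa using h1
      · simp only [PD_cut_out ht]
        exact zero_le)
    ⟨_, h0, Y₀, ENNReal.coe_ne_top, hbd _ (hmaps h0) _, hbd _ h0 _⟩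
  refine ⟨F, ⟨hF.1.meas, hF.2.1, hfin F hF⟩, fun t ht x v => ?_, ⟨_, hF.1.up⟩⟩
  rw [← PD_cut_in (F := D.Phi σ g F) ht]
  exact (congrFun (congrFun (congrFun hfix t) x) v).symm

/-- Lipschitz dependence on `σ`: both solutions are in `Cl (2 σm M_g) n₂` (`TS.crude`); apply
`le_of_improve` to `(F - G) ⊔ (G - F)` with `Phi_cmp`, `γ = |σ - σ'| g`. -/
theorem OK.lip_TS (h : D.OK) (hg : D.Src g) (σm : ℝ≥0) : ∃ C : ℝ≥0, ∀ σ ≤ σm, ∀ σ' ≤ σm, ∀ F G,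
    D.TS D.n₂ σ g F → D.TS D.n₂ σ' g G →
    LeOn 0 D.t₁ F (G + ((C * nndist σ σ' : ℝ≥0) : ℝ≥0∞) • (D.Ec + D.H + D.W)) := by
  obtain ⟨Mg, hb⟩ := hg.bd
  obtain ⟨ε, Λ, hε, hε1, hΛ, hT⟩ := (h.norm_T (PD_one_le h) (2 * (σm * Mg))).exists
  obtain ⟨Y₀, hY₀⟩ := h.env_le_Z (2 * (σm * Mg)) D.n₂ hε hΛ
  obtain ⟨Y₁, hY₁⟩ := h.Z_le_env D.n₂ hε1 Λ
  have key : ∀ σ ≤ σm, ∀ σ' ≤ σm, ∀ F G, D.TS D.n₂ σ g F → D.TS D.n₂ σ' g G → ∀ Y : ℝ≥0∞,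
      LeOn 0 D.t₁ F (G + Y • D.Z ε Λ D.n₂) → LeOn 0 D.t₁ G (F + Y • D.Z ε Λ D.n₂) →
      LeOn 0 D.t₁ (F - G) ((((nndist σ σ' * Mg : ℝ≥0) : ℝ≥0∞) + Y / 2) • D.Z ε Λ D.n₂) := by
    intro σ hσ σ' hσ' F G hF hG Y hFG hGF t ht x v
    have cF := PD_cl h hg hσ hb hF
    have cG := PD_cl h hg hσ' hb hG
    have h1 := PD_step (σ := σ) (σ' := σ') h hg hT cF cG
      (fun t ht x v => by rw [← hG.eq t ht x v]; exact cG.up t ht x v) hFG hGF t ht x v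
    have h2 := PD_src (σ := nndist σ σ') le_rfl hb t ht x v
    have h3 := h.pw_le_Z D.n₂ ε hΛ t ht x v
    rw [← hF.eq t ht x v] at h1
    simp only [Pi.smul_apply, Pi.add_apply, Pi.sub_apply, smul_eq_mul] at h1 h2 ⊢
    rw [← hG.eq t ht x v] at h1
    rw [tsub_le_iff_left]
    refine h1.trans ?_
    rw [add_assoc, add_mul, add_comm (_ * _) (Y / 2 * _)]
    exact add_le_add le_rfl (add_le_add le_rfl (h2.trans (mul_le_mul' le_rfl h3)))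
  refine ⟨2 * Mg * Y₁, fun σ hσ σ' hσ' F G hF hG => ?_⟩
  have cF := PD_cl h hg hσ hb hF
  have cG := PD_cl h hg hσ' hb hG
  have h1 := le_of_improve (D := (F - G) ⊔ (G - F)) (r := 0) (T := D.t₁) (h.rZ ε Λ D.n₂).fin
    (A := ((nndist σ σ' * Mg : ℝ≥0) : ℝ≥0∞)) (Y₀ := Y₀) ENNReal.coe_ne_top
    (fun t ht x v => sup_le (tsub_le_self.trans ((cF.up t ht x v).trans (hY₀ t ht x v)))
      (tsub_le_self.trans ((cG.up t ht x v).trans (hY₀ t ht x v))))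
    (by
      intro Y hY hle
      have hFG : LeOn 0 D.t₁ F (G + Y • D.Z ε Λ D.n₂) := fun t ht x v =>
        tsub_le_iff_left.1 (le_sup_left.trans (hle t ht x v))
      have hGF : LeOn 0 D.t₁ G (F + Y • D.Z ε Λ D.n₂) := fun t ht x v =>
        tsub_le_iff_left.1 (le_sup_right.trans (hle t ht x v))
      intro t ht x v
      have a1 := key σ hσ σ' hσ' F G hF hG Y hFG hGF t ht x v
      have a2 := key σ' hσ' σ hσ G F hG hF Y hGF hFG t ht x v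
      rw [nndist_comm] at a2
      exact sup_le a1 a2)
  intro t ht x v
  have h2 : F t x v - G t x v ≤ _ := le_sup_left.trans (h1 t ht x v)
  have h3 := hY₁ t ht x v
  simp only [Pi.smul_apply, Pi.add_apply, smul_eq_mul] at h2 h3 ⊢
  rw [← tsub_le_iff_left]
  refine h2.trans ((mul_le_mul' le_rfl h3).trans (le_of_eq ?_))
  push_cast
  ring

/-- Intermediate value theorem for `σ ↦ (Λ (F σ t₀)).toReal`. -/
theorem OK.ivt (h : D.OK) (hg : D.Src g) {Λ : (R3 × R3 → ℝ≥0∞) → ℝ≥0∞} (hΛ : IsLin Λ) {t₀ : ℝ}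
    (ht₀ : t₀ ∈ Icc 0 D.t₁) (hfin : Λ (unc (D.Ec + D.H + D.W) t₀) ≠ ⊤) {δ : ℝ≥0∞}
    (h0 : ∀ F, D.TS D.n₂ 0 g F → Λ (unc F t₀) ≤ δ)
    (h1 : ∃ σ, ∀ F, D.TS D.n₂ σ g F → δ ≤ Λ (unc F t₀)) :
    ∃ σ F, D.TS D.n₂ σ g F ∧ Λ (unc F t₀) = δ := by
  obtain ⟨σ₁, hσ₁⟩ := h1
  choose F hF using fun σ => h.exists_TS hg σ
  obtain ⟨μ, hμ⟩ := hΛ.exists_measure
  obtain ⟨C, hC⟩ := h.lip_TS hg σ₁
  have hE : Meas (D.Ec + D.H + D.W) := (h.rEc.meas.add h.rH.meas).add h.rW.meas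
  have hEm : Measurable (unc (D.Ec + D.H + D.W) t₀) := hE.time t₀
  have hFm : ∀ σ, Measurable (unc (F σ) t₀) := fun σ => (hF σ).reg.meas.time t₀
  set L := Λ (unc (D.Ec + D.H + D.W) t₀) with hL
  have hne : ∀ σ, Λ (unc (F σ) t₀) ≠ ⊤ := by
    intro σ
    obtain ⟨M, hM⟩ := (hF σ).bd
    refine ne_top_of_le_ne_top (ENNReal.mul_ne_top (ENNReal.coe_ne_top (r := 1 + M)) hfin) ?_
    rw [hL, hμ _ (hFm σ), hμ _ hEm, ← lintegral_const_mul _ hEm]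
    exact lintegral_mono fun p => (hM t₀ ht₀ p.1 p.2).trans (PD_env_le h M D.n₂ t₀ ht₀ p.1 p.2)
  have hlip : ∀ σ ≤ σ₁, ∀ σ' ≤ σ₁, (Λ (unc (F σ) t₀)).toReal ≤
      (Λ (unc (F σ') t₀)).toReal + C * L.toReal * dist σ σ' := by
    intro σ hσ σ' hσ'
    have h2 : Λ (unc (F σ) t₀) ≤ Λ (unc (F σ') t₀) + ((C * nndist σ σ' : ℝ≥0) : ℝ≥0∞) * L := by
      rw [hL, hμ _ (hFm σ), hμ _ (hFm σ'), hμ _ hEm, ← lintegral_const_mul _ hEm,
        ← lintegral_add_left (hFm σ')]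
      exact lintegral_mono fun p => hC σ hσ σ' hσ' _ _ (hF σ) (hF σ') t₀ ht₀ p.1 p.2
    have h3 : ((C * nndist σ σ' : ℝ≥0) : ℝ≥0∞) * L ≠ ⊤ := ENNReal.mul_ne_top ENNReal.coe_ne_top hfin
    have h4 := ENNReal.toReal_mono (ENNReal.add_ne_top.2 ⟨hne σ', h3⟩) h2
    rw [ENNReal.toReal_add (hne σ') h3, ENNReal.toReal_mul, ENNReal.coe_toReal] at h4
    refine h4.trans (le_of_eq ?_)
    push_cast
    ring
  have hcont : ContinuousOn (fun σ : ℝ≥0 => (Λ (unc (F σ) t₀)).toReal) (Icc 0 σ₁) := by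
    refine (LipschitzOnWith.of_le_add_mul (C * L.toNNReal) fun σ hσ σ' hσ' => ?_).continuousOn
    exact hlip σ hσ.2 σ' hσ'.2
  have hδ : δ ≠ ⊤ := ne_top_of_le_ne_top (hne σ₁) (hσ₁ _ (hF σ₁))
  obtain ⟨σ, -, hσ⟩ := intermediate_value_Icc (zero_le (a := σ₁)) hcont
    (show δ.toReal ∈ Icc _ _ from ⟨ENNReal.toReal_mono hδ (h0 _ (hF 0)),
      ENNReal.toReal_mono (hne σ₁) (hσ₁ _ (hF σ₁))⟩)
  exact ⟨σ, F σ, hF σ, (ENNReal.toReal_eq_toReal_iff' (hne σ) hδ).1 hσ⟩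

end P1

end Crest.Agent.R68
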