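/-
R68/PE1: the majorant operators as positive linear functionals; smoothing
Skeleton by helper76 (row 68); keep the statements unchanged, add any helper lemmas you like.
-/
import Crest.Agent.R68.PC
import Crest.Agent.R68.Soft

set_option autoImplicit false
set_option linter.unusedVariables false
set_option linter.unusedSectionVars false

noncomputable section

namespace Crest.Agent.R68

open MeasureTheory Set Filter Topology
open scoped ENNReal NNReal
open Crest.AnalysisR.VecCalc3 Crest.AnalysisR.PDE.Boltzmann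

theorem IsLin.mono {X : Type} [MeasurableSpace X] {Λ : (X → ℝ≥0∞) → ℝ≥0∞} (h : IsLin Λ)
    {f g : X → ℝ≥0∞} (hf : Measurable f) (hg : Measurable g) (hfg : f ≤ g) : Λ f ≤ Λ g := by
  obtain ⟨μ, hμ⟩ := h.exists_measure
  rw [hμ f hf, hμ g hg]
  exact lintegral_mono hfg

theorem meas_cur {f : ℝ × R3 × R3 → ℝ≥0∞} (hf : Measurable f) : Meas (cur f) := by
  exact hf

theorem pe1_isLin_kernel {X A : Type} [MeasurableSpace X] [MeasurableSpace A] (ν : Measure A)
    {k : A → ℝ≥0∞} (hk : Measurable k) {T : A → X} (hT : Measurable T) :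
    IsLin fun f : X → ℝ≥0∞ => ∫⁻ a, k a * f (T a) ∂ν := by
  refine ⟨fun f g hf hg => ?_, fun c f hf => ?_, fun f hf hm => ?_⟩
  · simp only [Pi.add_apply, mul_add]
    exact lintegral_add_left (hk.mul (hf.comp hT)) _
  · simp only [mul_left_comm _ c]
    exact lintegral_const_mul _ (hk.mul (hf.comp hT))
  · simp only [ENNReal.mul_iSup]
    exact lintegral_iSup (fun n => hk.mul ((hf n).comp hT)) fun a b hab u =>
      mul_le_mul_right (hm hab (T u)) _

theorem pe1_isLin_eval {X : Type} [MeasurableSpace X] (c : ℝ≥0∞) (p : X) :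
    IsLin fun f : X → ℝ≥0∞ => c * f p :=
  ⟨fun f g _ _ => mul_add _ _ _, fun d f _ => mul_left_comm _ _ _,
    fun f _ _ => ENNReal.mul_iSup _ _⟩

/-- The function on the product. -/
def pe1_unc (F : Fn) : ℝ × R3 × R3 → ℝ≥0∞ := fun p => F p.1 p.2.1 p.2.2

/-- An operator that is a positive linear functional at every point. -/
structure IsOp (S : Fn → Fn) : Prop where
  meas : ∀ f, Meas f → Meas (S f)
  lin : ∀ t x v, IsLin fun f : ℝ × R3 × R3 → ℝ≥0∞ => S (cur f) t x v

theorem IsOp.comp {S S' : Fn → Fn} (h : IsOp S) (h' : IsOp S') : IsOp fun f => S (S' f) := by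
  refine ⟨fun f hf => h.meas _ (h'.meas f hf), fun t x v => ?_⟩
  have hm : ∀ f : ℝ × R3 × R3 → ℝ≥0∞, Measurable f → Measurable (pe1_unc (S' (cur f))) :=
    fun f hf => h'.meas _ (meas_cur hf)
  refine ⟨fun f g hf hg => ?_, fun c f hf => ?_, fun f hf hmo => ?_⟩
  · have e : S' (cur (f + g)) = cur (pe1_unc (S' (cur f)) + pe1_unc (S' (cur g))) := by
      funext t x v
      exact (h'.lin t x v).add f g hf hg
    exact (congrArg (fun F => S F t x v) e).trans ((h.lin t x v).add _ _ (hm f hf) (hm g hg))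
  · have e : S' (cur fun p => c * f p) = cur fun p => c * pe1_unc (S' (cur f)) p := by
      funext t x v
      exact (h'.lin t x v).smul c f hf
    exact (congrArg (fun F => S F t x v) e).trans ((h.lin t x v).smul c _ (hm f hf))
  · have e : S' (cur fun p => ⨆ n, f n p) = cur fun p => ⨆ n, pe1_unc (S' (cur (f n))) p := by
      funext t x v
      exact (h'.lin t x v).sup f hf hmo
    exact (congrArg (fun F => S F t x v) e).trans ((h.lin t x v).sup _ (fun n => hm _ (hf n))
      fun a b hab p => (h'.lin p.1 p.2.1 p.2.2).mono (hf a) (hf b) (hmo hab))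

theorem IsOp.add {S S' : Fn → Fn} (h : IsOp S) (h' : IsOp S') : IsOp fun f => S f + S' f := by
  refine ⟨fun f hf => (h.meas f hf).add (h'.meas f hf), fun t x v => ?_⟩
  refine ⟨fun f g hf hg => ?_, fun c f hf => ?_, fun f hf hmo => ?_⟩
  · have e1 := (h.lin t x v).add f g hf hg
    have e2 := (h'.lin t x v).add f g hf hg
    simp only [Pi.add_apply] at e1 e2 ⊢
    rw [e1, e2, add_add_add_comm]
  · have e1 := (h.lin t x v).smul c f hf
    have e2 := (h'.lin t x v).smul c f hf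
    simp only [Pi.add_apply] at e1 e2 ⊢
    rw [e1, e2, mul_add]
  · have e1 := (h.lin t x v).sup f hf hmo
    have e2 := (h'.lin t x v).sup f hf hmo
    simp only [Pi.add_apply] at e1 e2 ⊢
    rw [e1, e2]
    exact ENNReal.iSup_add_iSup_of_monotone
      (fun a b hab => (h.lin t x v).mono (hf a) (hf b) (hmo hab))
      fun a b hab => (h'.lin t x v).mono (hf a) (hf b) (hmo hab)

theorem isOp_GN {E : Fn} (hE : Meas E) : IsOp fun f => GN E f := by
  refine ⟨fun f hf => hE.GN hf, fun t x v => ?_⟩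
  refine ⟨fun f g hf hg => ?_, fun c f hf => ?_, fun f hf hmo => ?_⟩
  · exact gn_add_right (hE.slice t x) ((meas_cur hf).slice t x) ((meas_cur hg).slice t x) v
  · exact gn_mul_right c (hE.slice t x) ((meas_cur hf).slice t x) v
  · exact gn_iSup_right (G := fun n => cur (f n) t x) (hE.slice t x)
      (fun n => (meas_cur (hf n)).slice t x) (fun a b hab u => hmo hab (t, x, u)) v

theorem isOp_LS : IsOp fun f => LS f := by
  refine ⟨fun f hf => hf.LS, fun t x v => ?_⟩
  refine ⟨fun f g hf hg => ?_, fun c f hf => ?_, fun f hf hmo => ?_⟩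
  · exact ls_add ((meas_cur hf).slice t x) ((meas_cur hg).slice t x) v
  · exact ls_mul c ((meas_cur hf).slice t x) v
  · have hk : Measurable fun u : R3 => ‖v - u‖ₑ := (measurable_const.sub measurable_id).enorm
    have h1 := (pe1_isLin_kernel (volume : Measure R3) hk (T := fun u => (t, x, u))
      (measurable_const.prodMk (measurable_const.prodMk measurable_id))).sup f hf hmo
    have e : ∀ g : ℝ × R3 × R3 → ℝ≥0∞, Measurable g →
        LS (cur g) t x v = ENNReal.ofReal cL * ∫⁻ u, ‖v - u‖ₑ * g (t, x, u) :=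
      fun g hg => ls_eq ((meas_cur hg).slice t x) v
    simp only [e _ (hf _), e _ (Measurable.iSup hf)] at h1 ⊢
    rw [h1, ENNReal.mul_iSup]

theorem isOp_mul {E : Fn} (hE : Meas E) : IsOp fun f => E * f := by
  exact ⟨fun f hf => hE.mul hf, fun t x v => pe1_isLin_eval (E t x v) (t, x, v)⟩

theorem isOp_smul (c : ℝ≥0∞) : IsOp fun f => c • f := by
  exact ⟨fun f hf => hf.smul c, fun t x v => pe1_isLin_eval c (t, x, v)⟩

theorem isOp_AI {a : Fn} (ha : Meas a) (r : ℝ) : IsOp fun f => AI a f r := by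
  refine ⟨fun f hf => ha.AI hf r, fun t x v => ?_⟩
  exact pe1_isLin_kernel (volume.restrict (Ioc r t))
    (measurable_ex.comp (measurable_lintegral_Ioc_left (ha.pa t x v) t))
    (T := fun s : ℝ => (s, x - (t - s) • v, v)) (by fun_prop)

/-- Dominated convergence (`IsLin.tendsto_anti`). -/
theorem IsOp.tendsto_anti {S : Fn → Fn} (h : IsOp S) {f : ℕ → Fn} (hf : ∀ n, Meas (f n))
    (hanti : Antitone f) {t : ℝ} {x v : R3} (hfin : S (f 0) t x v ≠ ⊤) :
    Tendsto (fun n => S (f n) t x v) atTop (𝓝 (S (fun t x v => ⨅ n, f n t x v) t x v)) := by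
  exact (h.lin t x v).tendsto_anti (f := fun n => pe1_unc (f n)) hf
    (fun a b hab p => hanti hab p.1 p.2.1 p.2.2) hfin

/-- If `g = 0` a.e. on `ℝ × R3 × R3` then for every `(s, y)` and a.e. `u` the function
`g (s', y - (s - s') u, ·)` vanishes a.e. for a.e. `s' < s`: the set `N` of `(s', z)` where
`∫ g s' z ≠ 0` is null, and for `s' < s` the map `u ↦ y - (s - s') u` is an invertible affine map;
Tonelli in `(s', u)`.  Then `gn_eq_zero_of_ae'`. -/
theorem PI_GN_null {E g : Fn} (hE : Meas E) (hg : Meas g)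
    (h0 : ∀ᵐ p : ℝ × R3 × R3, g p.1 p.2.1 p.2.2 = 0) (s : ℝ) (y : R3) :
    ∀ᵐ u, PI (GN E g) 0 s y u = 0 := by
  have hG : Measurable fun q : ℝ × R3 => ∫⁻ v, g q.1 q.2 v :=
    Measurable.lintegral_prod_right' (f := fun z : (ℝ × R3) × R3 => g z.1.1 z.1.2 z.2)
      (path_meas_comp hg measurable_fst.fst measurable_fst.snd measurable_snd)
  have h1 : ∀ᵐ s' : ℝ, ∀ᵐ z : R3, ∫⁻ v, g s' z v = 0 := by
    filter_upwards [Measure.ae_ae_of_ae_prod h0] with s' hs'
    filter_upwards [Measure.ae_ae_of_ae_prod hs'] with z hz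
    exact (lintegral_congr_ae hz).trans lintegral_zero
  have h2 : ∀ᵐ s' : ℝ, ∀ᵐ u : R3, ∫⁻ v, g s' (y - (s - s') • u) v = 0 := by
    filter_upwards [h1, compl_mem_ae_iff.2 (measure_singleton s)] with s' hs' hne
    have hne' : s - s' ≠ 0 := sub_ne_zero.2 fun e => hne (by simp [e])
    exact ((Measure.measurePreserving_sub_left (volume : Measure R3) y).quasiMeasurePreserving.comp
      (Measure.quasiMeasurePreserving_smul (volume : Measure R3) hne')).ae hs'
  have hmeas : MeasurableSet {q : ℝ × R3 | ∫⁻ v, g q.1 (y - (s - q.1) • q.2) v = 0} :=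
    (hG.comp (f := fun q : ℝ × R3 => (q.1, y - (s - q.1) • q.2)) (by fun_prop))
      (measurableSet_singleton 0)
  filter_upwards [(Measure.ae_ae_comm hmeas).1 h2] with u hu
  refine (lintegral_congr_ae ?_).trans lintegral_zero
  filter_upwards [ae_restrict_of_ae hu] with s' hs'
  exact gn_eq_zero_of_ae' (hE.slice _ _) (hg.slice _ _)
    ((lintegral_eq_zero_iff (hg.slice _ _)).1 hs') u

namespace P1

variable {D : P1} {M : ℝ≥0} {a : ℕ}

theorem OK.isOp_T (h : D.OK) : IsOp (D.opT M a) := by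
  have hE := (h.renv (M := M) ENNReal.coe_ne_top a).meas
  exact (isOp_AI h.meas_att 0).comp
    (((isOp_smul 4).comp (isOp_GN hE)).add ((isOp_mul hE).comp isOp_LS))

theorem OK.isOp_S (h : D.OK) : IsOp D.opS := by
  exact (isOp_AI h.rE0.meas.LS 0).comp ((isOp_smul 2).comp (isOp_GN h.rE0.meas))

theorem OK.isOp_R (h : D.OK) : IsOp (D.opR M a) := by
  have hE := (h.renv (M := M) ENNReal.coe_ne_top a).meas
  have hE' := (h.renv' (M := M) ENNReal.coe_ne_top a).meas
  exact (isOp_AI h.rE0.meas.LS 0).comp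
    ((((isOp_smul 2).comp (isOp_GN hE')).add ((isOp_mul hE).comp isOp_LS)).add (isOp_mul hE'.LS))

theorem OK.opSS_null (h : D.OK) {g : Fn} (hg : Meas g)
    (h0 : ∀ᵐ p : ℝ × R3 × R3, g p.1 p.2.1 p.2.2 = 0) (t : ℝ) (x v : R3) :
    D.opS (D.opS g) t x v = 0 := by
  have h1 : ∀ s y, D.opS g s y =ᵐ[volume] 0 := by
    intro s y
    filter_upwards [PI_GN_null h.rE0.meas hg h0 s y] with u hu
    have h2 := AI_le_PI (LS D.E0) ((2 : ℝ≥0∞) • GN D.E0 g) 0 s y u
    rw [PI_smul (h.rE0.meas.GN hg), Pi.smul_apply, Pi.smul_apply, Pi.smul_apply, hu,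
      smul_zero] at h2
    exact le_zero_iff.1 h2
  refine (lintegral_congr fun s => ?_).trans lintegral_zero
  have h2 : pa ((2 : ℝ≥0∞) • GN D.E0 (D.opS g)) t x v s = 0 := by
    have h3 : GN D.E0 (D.opS g) s (x - (t - s) • v) v = 0 :=
      gn_eq_zero_of_ae' (h.rE0.meas.slice _ _) ((h.meas_opS hg).slice _ _) (h1 _ _) v
    simp only [pa, Pi.smul_apply, h3, smul_zero]
  rw [h2, mul_zero]

/-- `weak_subseq` on `ℝ × R3 × R3` for the functions cut to `[0, t₁]` (`opS_mono` shows that cutting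
does not change `opS (opS ·)` on `[0, t₁]`); `env_le_Z` and `norm_S` give the finiteness. -/
theorem OK.opSS_subseq (h : D.OK) {F : ℕ → Fn} (hF : ∀ n, Meas (F n))
    (hle : ∀ n, LeOn 0 D.t₁ (F n) (D.env M 2)) : ∃ φ : ℕ → ℕ, StrictMono φ ∧
    ∀ t ∈ Icc 0 D.t₁, ∀ x v, ∃ l, l ≠ ⊤ ∧
      Tendsto (fun n => D.opS (D.opS (F (φ n))) t x v) atTop (𝓝 l) := by
  classical
  let cut : Fn → ℝ × R3 × R3 → ℝ≥0∞ := fun G =>
    {p : ℝ × R3 × R3 | p.1 ∈ Icc 0 D.t₁}.indicator (pe1_unc G)
  have hcm : ∀ G, Meas G → Measurable (cut G) := fun G hG =>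
    Measurable.indicator hG (measurable_fst measurableSet_Icc)
  have hce : ∀ G, ∀ t ∈ Icc 0 D.t₁, ∀ x v, cur (cut G) t x v = G t x v := fun G t ht x v =>
    indicator_of_mem (s := {p : ℝ × R3 × R3 | p.1 ∈ Icc 0 D.t₁}) (a := (t, x, v)) ht _
  have hE := h.renv (M := M) ENNReal.coe_ne_top 2
  have hcl : ∀ n, cut (F n) ≤ cut (D.env M 2) := fun n p =>
    indicator_le_indicator' fun hp => hle n p.1 hp p.2.1 p.2.2
  obtain ⟨φ, hφ, hlim⟩ := weak_subseq (volume : Measure (ℝ × R3 × R3)) (fun n => hcm _ (hF n))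
    (hcm _ hE.meas) (fun p => ne_top_of_le_ne_top (hE.fin p.1 p.2.1 p.2.2)
      (indicator_le_self _ _ p)) hcl
  refine ⟨φ, hφ, fun t ht x v => ?_⟩
  have hL := (h.isOp_S.comp h.isOp_S).lin t x v
  have hfin : D.opS (D.opS (cur (cut (D.env M 2)))) t x v ≠ ⊤ := by
    obtain ⟨Y, hY⟩ := h.env_le_Z M 2 (ε := 1) one_pos (Λ := 0) le_rfl
    have hZ := h.rZ 1 0 2
    have hS := h.norm_S (a := 2) (by norm_num) (ε := 1) le_rfl (Λ := 0) le_rfl
    have step : ∀ (G : Fn) (c : ℝ≥0∞), LeOn 0 D.t₁ G (c • D.Z 1 0 2) →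
        LeOn 0 D.t₁ (D.opS G) ((c * ((1 + D.b₁ : ℝ≥0) : ℝ≥0∞)) • D.Z 1 0 2) := by
      intro G c hG
      refine (opS_mono hG).trans ?_
      rw [h.opS_smul hZ.meas, mul_smul]
      exact hS.smul c
    have h1 : LeOn 0 D.t₁ (cur (cut (D.env M 2))) ((Y : ℝ≥0∞) • D.Z 1 0 2) := fun t ht x v =>
      (hce _ t ht x v).trans_le (hY t ht x v)
    refine ne_top_of_le_ne_top ?_ (step _ _ (step _ _ h1) t ht x v)
    exact ENNReal.mul_ne_top (ENNReal.mul_ne_top (ENNReal.mul_ne_top ENNReal.coe_ne_top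
      ENNReal.coe_ne_top) ENNReal.coe_ne_top) (hZ.fin t x v)
  obtain ⟨l, hl⟩ := hlim _ hL (fun g hg h0 => h.opSS_null (meas_cur hg) h0 t x v) hfin
  refine ⟨l, ne_top_of_le_ne_top hfin (le_of_tendsto' hl fun n =>
    hL.mono (hcm _ (hF _)) (hcm _ hE.meas) (hcl _)), hl.congr fun n => ?_⟩
  exact le_antisymm (opS_mono (opS_mono fun t ht x v => (hce _ t ht x v).le) t ht x v)
    (opS_mono (opS_mono fun t ht x v => (hce _ t ht x v).ge) t ht x v)

end P1

end Crest.Agent.R68
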