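/-
R68/PE2: the compactness argument: vanishing sources
Skeleton by helper76 (row 68); keep the statements unchanged, add any helper lemmas you like.
-/
import Crest.Agent.R68.PB
import Crest.Agent.R68.PE1

set_option autoImplicit false
set_option linter.unusedVariables false
set_option linter.unusedSectionVars false

noncomputable section

namespace Crest.Agent.R68

open MeasureTheory Set Filter Topology
open scoped ENNReal NNReal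
open Crest.AnalysisR.VecCalc3 Crest.AnalysisR.PDE.Boltzmann

namespace P1

variable {D : P1}

/-- A sequence of solutions with inactive truncation and vanishing sources. -/
structure Seq (D : P1) (σ : ℕ → ℝ≥0) (g F : ℕ → Fn) : Prop where
  mg : ∀ n, Meas (g n)
  ts : ∀ n, D.TS 2 (σ n) (g n) (F n)
  le : ∀ n, LeOn 0 D.t₁ (F n) (D.env D.Mx₀ 2)
  src : ∃ ε : ℕ → ℝ≥0, Tendsto ε atTop (𝓝 0) ∧
    ∀ n, LeOn 0 D.t₁ (PI ((σ n : ℝ≥0∞) • g n) 0) ((ε n : ℝ≥0∞) • (pw 2 * D.W))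

theorem PE2_opS_fin (h : D.OK) {f : Fn} {M : ℝ≥0} (hf : LeOn 0 D.t₁ f (D.env M 2)) :
    ∃ Y : ℝ≥0, LeOn 0 D.t₁ (D.opS f) ((Y : ℝ≥0∞) • D.Z 1 0 2) := by
  obtain ⟨Y, hY⟩ := h.env_le_Z M 2 (ε := 1) one_pos (Λ := 0) le_rfl
  have h1 := opS_mono (D := D) (hf.trans hY)
  rw [h.opS_smul (h.rZ 1 0 2).meas] at h1
  have h2 := (h.norm_S (a := 2) (by norm_num) (ε := 1) le_rfl (Λ := 0) le_rfl).smul (Y : ℝ≥0∞)
  refine ⟨Y * (1 + D.b₁), ?_⟩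
  have h3 := h1.trans h2
  rw [smul_smul] at h3
  rw [ENNReal.coe_mul]
  exact h3

theorem PE2_opS_ne_top (h : D.OK) {f : Fn} {M : ℝ≥0} (hf : LeOn 0 D.t₁ f (D.env M 2)) {t : ℝ}
    (ht : t ∈ Icc 0 D.t₁) (x v : R3) : D.opS f t x v ≠ ⊤ := by
  obtain ⟨Y, hY⟩ := PE2_opS_fin h hf
  exact ne_top_of_le_ne_top (((h.rZ 1 0 2).smul ENNReal.coe_ne_top).fin t x v) (hY t ht x v)

theorem PE2_rpW (h : D.OK) : Reg (pw 2 * D.W) := (reg_pw 2).mul h.rW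

theorem PE2_src_ne_top (h : D.OK) {f : Fn} {ε : ℝ≥0}
    (hf : LeOn 0 D.t₁ f ((ε : ℝ≥0∞) • (pw 2 * D.W))) :
    ∀ t ∈ Icc 0 D.t₁, ∀ x v, f t x v ≠ ⊤ := fun t ht x v =>
  ne_top_of_le_ne_top (((PE2_rpW h).smul ENNReal.coe_ne_top).fin t x v) (hf t ht x v)

theorem PE2_opS_src (h : D.OK) {f : Fn} {ε : ℝ≥0}
    (hf : LeOn 0 D.t₁ f ((ε : ℝ≥0∞) • (pw 2 * D.W))) :
    LeOn 0 D.t₁ (D.opS f) (((ε * D.b₁ : ℝ≥0) : ℝ≥0∞) • (pw 2 * D.W)) := by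
  have h1 := opS_mono (D := D) hf
  rw [h.opS_smul (PE2_rpW h).meas] at h1
  have h2 := h.PI_E0W_pw (a := 2) (by norm_num)
  intro t ht x v
  refine (h1 t ht x v).trans ?_
  have h3 : D.opS (pw 2 * D.W) t x v ≤ PI ((2 : ℝ≥0∞) • GN D.E0 (pw 2 * D.W)) 0 t x v :=
    AI_le_PI _ _ _ t x v
  have h4 := h3.trans (h2 t ht x v)
  simp only [Pi.smul_apply, smul_eq_mul] at h4 ⊢
  rw [ENNReal.coe_mul, mul_assoc]
  gcongr
  refine h4.trans ?_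
  gcongr
  rw [div_le_iff₀ (by norm_num)]
  refine le_mul_of_one_le_right (by positivity) (by norm_num)

theorem PE2_tendsto_src {ε : ℕ → ℝ≥0} (hε : Tendsto ε atTop (𝓝 0)) (c : ℝ≥0) {w : ℝ≥0∞}
    (hw : w ≠ ⊤) : Tendsto (fun n => ((ε n * c : ℝ≥0) : ℝ≥0∞) * w) atTop (𝓝 0) := by
  have h1 : Tendsto (fun n => ε n * c) atTop (𝓝 0) := by simpa using hε.mul_const c
  have h2 : Tendsto (fun n => ((ε n * c : ℝ≥0) : ℝ≥0∞)) atTop (𝓝 0) := by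
    simpa using ENNReal.tendsto_coe.2 h1
  simpa using ENNReal.Tendsto.mul_const h2 (Or.inr hw)

theorem PE2_meas_sup {f : ℕ → Fn} (hf : ∀ n, Meas (f n)) (k : ℕ) :
    Meas fun t x v => ⨆ n, ⨆ _ : k ≤ n, f n t x v :=
  Measurable.iSup fun n => Measurable.iSup_Prop _ (hf n)

theorem PE2_anti_sup (f : ℕ → Fn) :
    Antitone fun k : ℕ => (fun t x v => ⨆ n, ⨆ _ : k ≤ n, f n t x v : Fn) := by
  intro k k' hk t x v
  exact iSup₂_le fun n hn => le_iSup₂_of_le (f := fun n (_ : k ≤ n) => f n t x v) n (hk.trans hn) le_rfl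

/-- An elementary limit lemma. -/
theorem PE2_step {a s e : ℕ → ℝ≥0∞} {l T : ℝ≥0∞} {k : ℕ} (hl : l ≠ ⊤)
    (hs : Tendsto s atTop (𝓝 l)) (he : Tendsto e atTop (𝓝 0))
    (h : ∀ n m, k ≤ n → k ≤ m → a n + s m ≤ a m + s n + T + e n) :
    ⨅ j, (⨆ n, ⨆ _ : j ≤ n, ⨆ m, ⨆ _ : j ≤ m, (a n - a m)) ≤ T := by
  refine ENNReal.le_of_forall_pos_le_add fun η hη _ => ?_
  have hη3 : (0 : ℝ≥0∞) < (η : ℝ≥0∞) / 3 := ENNReal.div_pos (by exact_mod_cast hη.ne') (by norm_num)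
  obtain ⟨N₁, hN₁⟩ := (ENNReal.tendsto_atTop hl).1 hs _ hη3
  obtain ⟨N₂, hN₂⟩ := (ENNReal.tendsto_atTop_zero).1 he _ hη3
  refine iInf_le_of_le (max k (max N₁ N₂)) (iSup₂_le fun n hn => iSup₂_le fun m hm => ?_)
  simp only [max_le_iff] at hn hm
  have h1 := h n m hn.1 hm.1
  have h2 := (hN₁ n hn.2.1).2
  have h3 : l ≤ s m + η / 3 := tsub_le_iff_right.1 (hN₁ m hm.2.1).1
  have h4 := hN₂ n hn.2.2
  have h5 : s m ≠ ⊤ := ne_top_of_le_ne_top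
    (ENNReal.add_ne_top.2 ⟨hl, ENNReal.div_ne_top ENNReal.coe_ne_top (by norm_num)⟩)
    (hN₁ m hm.2.1).2
  rw [tsub_le_iff_left]
  refine (ENNReal.add_le_add_iff_right h5).1 ?_
  calc a n + s m ≤ a m + s n + T + e n := h1
    _ ≤ a m + (s m + η / 3 + η / 3) + T + η / 3 := by
        gcongr
        exact h2.trans (by gcongr)
    _ = a m + (T + (η / 3 + η / 3 + η / 3)) + s m := by ring
    _ = a m + (T + η) + s m := by rw [ENNReal.add_thirds]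

theorem PE2_conv {a : ℕ → ℝ≥0∞}
    (h : ⨅ j, (⨆ n, ⨆ _ : j ≤ n, ⨆ m, ⨆ _ : j ≤ m, (a n - a m)) ≤ 0) :
    ∃ l, Tendsto a atTop (𝓝 l) := by
  refine ⟨liminf a atTop, tendsto_of_le_liminf_of_limsup_le le_rfl ?_⟩
  have key : ∀ j, limsup a atTop ≤
      liminf a atTop + ⨆ n, ⨆ _ : j ≤ n, ⨆ m, ⨆ _ : j ≤ m, (a n - a m) := by
    intro j
    set d := ⨆ n, ⨆ _ : j ≤ n, ⨆ m, ⨆ _ : j ≤ m, (a n - a m) with hd
    have h1 : ∀ n m, j ≤ n → j ≤ m → a n ≤ a m + d := by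
      intro n m hn hm
      rw [← tsub_le_iff_left]
      exact le_iSup₂_of_le (f := fun n (_ : j ≤ n) => ⨆ m, ⨆ _ : j ≤ m, (a n - a m)) n hn
        (le_iSup₂_of_le (f := fun m (_ : j ≤ m) => a n - a m) m hm le_rfl)
    rw [← tsub_le_iff_right]
    refine le_liminf_of_le (by isBoundedDefault) ?_
    filter_upwards [eventually_ge_atTop j] with m hm
    rw [tsub_le_iff_right]
    refine limsup_le_of_le (by isBoundedDefault) ?_
    filter_upwards [eventually_ge_atTop j] with n hn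
    exact h1 n m hn hm
  calc limsup a atTop
      ≤ ⨅ j, (liminf a atTop + ⨆ n, ⨆ _ : j ≤ n, ⨆ m, ⨆ _ : j ≤ m, (a n - a m)) := le_iInf key
    _ = liminf a atTop + ⨅ j, ⨆ n, ⨆ _ : j ≤ n, ⨆ m, ⨆ _ : j ≤ m, (a n - a m) :=
        ENNReal.add_iInf.symm
    _ ≤ liminf a atTop + 0 := by gcongr
    _ = _ := add_zero _

theorem PE2_dev {a : ℕ → ℝ≥0∞} {l : ℝ≥0∞} (hl : l ≠ ⊤) (h : Tendsto a atTop (𝓝 l)) :
    ⨅ j, (⨆ n, ⨆ _ : j ≤ n, ((a n - l) ⊔ (l - a n))) ≤ 0 := by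
  refine ENNReal.le_of_forall_pos_le_add fun η hη _ => ?_
  obtain ⟨N, hN⟩ := (ENNReal.tendsto_atTop hl).1 h η (by exact_mod_cast hη)
  refine iInf_le_of_le N (iSup₂_le fun n hn => ?_)
  rw [zero_add]
  refine sup_le (tsub_le_iff_left.2 (hN n hn).2) ?_
  rw [tsub_le_iff_left]
  exact tsub_le_iff_right.1 (hN n hn).1

theorem PE2_le_W (h : D.OK) {f : Fn} (hf : LeOn 0 D.t₁ f (D.env D.Mx₀ 2)) :
    LeOn 0 D.t₁ f (D.Ec + D.H + D.W) := by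
  intro t ht x v
  have h1 := (tr_eq_of_le h hf ht).1
  rw [← h1]
  have h2 : D.tr f t x v ≤ (D.Ec + D.H + (D.x₀ : ℝ≥0∞) • D.W) t x v := inf_le_right
  refine h2.trans ?_
  simp only [Pi.add_apply, Pi.smul_apply, smul_eq_mul]
  gcongr
  exact mul_le_of_le_one_left' (by exact_mod_cast h.x₀_le)

variable {σ : ℕ → ℝ≥0} {g F : ℕ → Fn}

theorem Seq.comp (h : D.Seq σ g F) {φ : ℕ → ℕ} (hφ : StrictMono φ) :
    D.Seq (σ ∘ φ) (g ∘ φ) (F ∘ φ) := by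
  obtain ⟨ε, hε, hle⟩ := h.src
  exact ⟨fun n => h.mg (φ n), fun n => h.ts (φ n), fun n => h.le (φ n),
    ε ∘ φ, hε.comp hφ.tendsto_atTop, fun n => hle (φ n)⟩

/-- Apply `opS` to `TS.cmp`, add, cancel the finite terms `opS F`, `opS G`. -/
theorem TS.cmp₂ (h : D.OK) {F G g g' Δ : Fn} {σ σ' ε : ℝ≥0} (hg : Meas g) (hg' : Meas g')
    (hF : D.TS 2 σ g F) (hG : D.TS 2 σ' g' G)
    (bF : LeOn 0 D.t₁ F (D.env D.Mx₀ 2)) (bG : LeOn 0 D.t₁ G (D.env D.Mx₀ 2)) (hΔ : Meas Δ)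
    (hFG : LeOn 0 D.t₁ F (G + Δ)) (hGF : LeOn 0 D.t₁ G (F + Δ))
    (sF : LeOn 0 D.t₁ (PI ((σ : ℝ≥0∞) • g) 0) ((ε : ℝ≥0∞) • (pw 2 * D.W)))
    (fg' : ∀ t ∈ Icc 0 D.t₁, ∀ x v, PI ((σ' : ℝ≥0∞) • g') 0 t x v ≠ ⊤) :
    LeOn 0 D.t₁ (F + D.opS (D.opS G)) (G + D.opS (D.opS F) +
      (D.opR D.Mx₀ 2 Δ + D.opS (D.opR D.Mx₀ 2 Δ)) +
      ((ε * (1 + D.b₁) : ℝ≥0) : ℝ≥0∞) • (pw 2 * D.W)) := by
  have h1 := TS.cmp h hg hg' hF hG bF bG hΔ hFG hGF (PE2_src_ne_top h sF) fg'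
  have mF := hF.reg.meas
  have mG := hG.reg.meas
  have mP : Meas (PI ((σ : ℝ≥0∞) • g) 0) := (hg.smul _).PI 0
  have mR : Meas (D.opR D.Mx₀ 2 Δ) := h.meas_opR hΔ
  have h2 := opS_mono (D := D) h1
  rw [h.opS_add mF (h.meas_opS mG), h.opS_add ((mG.add (h.meas_opS mF)).add mR) mP,
    h.opS_add (mG.add (h.meas_opS mF)) mR, h.opS_add mG (h.meas_opS mF)] at h2
  have h3 := PE2_opS_src h sF
  intro t ht x v
  have a1 := h1 t ht x v
  have a2 := h2 t ht x v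
  have a3 := h3 t ht x v
  have a4 := sF t ht x v
  have f1 := PE2_opS_ne_top h bF ht x v
  have f2 := PE2_opS_ne_top h bG ht x v
  simp only [Pi.add_apply, Pi.smul_apply, smul_eq_mul] at a1 a2 a3 a4 ⊢
  refine (ENNReal.add_le_add_iff_right (ENNReal.add_ne_top.2 ⟨f1, f2⟩)).1 ?_
  calc F t x v + D.opS (D.opS G) t x v + (D.opS F t x v + D.opS G t x v)
      = (F t x v + D.opS G t x v) + (D.opS F t x v + D.opS (D.opS G) t x v) := by ring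
    _ ≤ (G t x v + D.opS F t x v + D.opR D.Mx₀ 2 Δ t x v + (ε : ℝ≥0∞) * (pw 2 * D.W) t x v) +
        (D.opS G t x v + D.opS (D.opS F) t x v + D.opS (D.opR D.Mx₀ 2 Δ) t x v +
          ((ε * D.b₁ : ℝ≥0) : ℝ≥0∞) * (pw 2 * D.W) t x v) :=
        add_le_add (a1.trans (by gcongr)) (a2.trans (by gcongr))
    _ = _ := by push_cast; ring

/-- Let `Δ k = ⨆ n, m ≥ k, (F n - F m)`, cut to `[0, t₁]`, and `Δ* = ⨅ k, Δ k`.  From `cmp₂` (let
`n, m → ∞` with `k` fixed, then `k → ∞` with `IsOp.tendsto_anti`) `Δ* ≤ opR Δ* + opS (opR Δ*)` on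
`[0, t₁]`; `norm_R`, `norm_S` and `le_of_halving` give `Δ* = 0`. -/
theorem Seq.cauchy (h : D.OK) (hs : D.Seq σ g F)
    (hc : ∀ t ∈ Icc 0 D.t₁, ∀ x v, ∃ l, l ≠ ⊤ ∧
      Tendsto (fun n => D.opS (D.opS (F n)) t x v) atTop (𝓝 l)) :
    ∀ t ∈ Icc 0 D.t₁, ∀ x v, ∃ l, Tendsto (fun n => F n t x v) atTop (𝓝 l) := by
  obtain ⟨ε, hε, hsrc⟩ := hs.src
  set Δ : ℕ → Fn := fun k t x v =>
    ⨆ n, ⨆ _ : k ≤ n, ⨆ m, ⨆ _ : k ≤ m, (F n t x v - F m t x v) with hΔ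
  have mF : ∀ n, Meas (F n) := fun n => (hs.ts n).reg.meas
  have mΔ : ∀ k, Meas (Δ k) := fun k =>
    PE2_meas_sup (f := fun n t x v => ⨆ m, ⨆ _ : k ≤ m, (F n t x v - F m t x v))
      (fun n => PE2_meas_sup (f := fun m => F n - F m) (fun m => (mF n).sub (mF m)) k) k
  have aΔ : Antitone Δ := by
    intro k k' hk t x v
    exact iSup₂_le fun n hn => iSup₂_le fun m hm =>
      le_iSup₂_of_le (f := fun n (_ : k ≤ n) => ⨆ m, ⨆ _ : k ≤ m, (F n t x v - F m t x v))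
        n (hk.trans hn)
        (le_iSup₂_of_le (f := fun m (_ : k ≤ m) => F n t x v - F m t x v) m (hk.trans hm) le_rfl)
  have bΔ : ∀ k, LeOn 0 D.t₁ (Δ k) (D.env D.Mx₀ 2) := fun k t ht x v =>
    iSup₂_le fun n _ => iSup₂_le fun m _ => tsub_le_self.trans (hs.le n t ht x v)
  have cΔ : ∀ k n m, k ≤ n → k ≤ m → LeOn 0 D.t₁ (F n) (F m + Δ k) := by
    intro k n m hn hm t ht x v
    rw [Pi.add_apply, Pi.add_apply, Pi.add_apply, ← tsub_le_iff_left]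
    exact le_iSup₂_of_le (f := fun n (_ : k ≤ n) => ⨆ m, ⨆ _ : k ≤ m, (F n t x v - F m t x v))
        n hn (le_iSup₂_of_le (f := fun m (_ : k ≤ m) => F n t x v - F m t x v) m hm le_rfl)
  set T : Fn → Fn := fun f => D.opR D.Mx₀ 2 f + D.opS (D.opR D.Mx₀ 2 f) with hT
  have hTop : IsOp T := h.isOp_R.add (h.isOp_S.comp h.isOp_R)
  obtain ⟨e, Λ, he0, he1, hΛ, hR⟩ := (h.norm_R (a := 2) (by norm_num) D.Mx₀).exists
  have hS := h.norm_S (a := 2) (by norm_num) he1 hΛ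
  have rZ := h.rZ e Λ 2
  have hTZ : ∀ (f : Fn) (Y : ℝ≥0∞), LeOn 0 D.t₁ f (Y • D.Z e Λ 2) →
      LeOn 0 D.t₁ (T f) ((Y / 2) • D.Z e Λ 2) := by
    intro f Y hf
    have b1 := opR_mono (D := D) (M := D.Mx₀) (a := 2) hf
    rw [h.opR_smul rZ.meas] at b1
    have b2 := b1.trans (hR.smul Y)
    rw [smul_smul] at b2
    have b3 := opS_mono (D := D) b2
    rw [h.opS_smul rZ.meas] at b3
    have b4 := b3.trans (hS.smul _)
    rw [smul_smul] at b4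
    have b5 := b2.add b4
    rw [← add_smul] at b5
    have hc : (1 / (2 * (2 + D.b₁)) : ℝ≥0) + 1 / (2 * (2 + D.b₁)) * (1 + D.b₁) = 2⁻¹ := by
      have : (2 + D.b₁ : ℝ≥0) ≠ 0 := by positivity
      field_simp
      ring
    have hc' : Y * ((1 / (2 * (2 + D.b₁)) : ℝ≥0) : ℝ≥0∞) +
        Y * ((1 / (2 * (2 + D.b₁)) : ℝ≥0) : ℝ≥0∞) * ((1 + D.b₁ : ℝ≥0) : ℝ≥0∞) = Y / 2 := by
      rw [mul_assoc, ← mul_add, ← ENNReal.coe_mul, ← ENNReal.coe_add, hc, div_eq_mul_inv]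
      simp
    rw [hc'] at b5
    exact b5
  obtain ⟨Y, hY⟩ := h.env_le_Z D.Mx₀ 2 he0 hΛ
  set Δs : Fn := fun t x v => ⨅ k, Δ k t x v with hΔs
  have hfix : LeOn 0 D.t₁ Δs (T Δs) := by
    intro t ht x v
    have hfin : T (Δ 0) t x v ≠ ⊤ :=
      ne_top_of_le_ne_top ((rZ.smul (ENNReal.div_ne_top ENNReal.coe_ne_top (by norm_num))).fin t x v)
        (hTZ _ _ ((bΔ 0).trans hY) t ht x v)
    refine ge_of_tendsto' (hTop.tendsto_anti mΔ aΔ hfin) fun k => ?_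
    obtain ⟨l, hl, hlim⟩ := hc t ht x v
    refine PE2_step (k := k) hl hlim
      (PE2_tendsto_src hε (1 + D.b₁) ((PE2_rpW h).fin t x v)) fun n m hn hm => ?_
    exact TS.cmp₂ h (hs.mg n) (hs.mg m) (hs.ts n) (hs.ts m) (hs.le n) (hs.le m) (mΔ k)
      (cΔ k n m hn hm) (cΔ k m n hm hn) (hsrc n) (PE2_src_ne_top h (hsrc m)) t ht x v
  have hzero : LeOn 0 D.t₁ Δs 0 := by
    refine le_of_halving rZ.fin (Y₀ := Y) ENNReal.coe_ne_top ?_ fun Y' _ hY' => ?_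
    · rw [zero_add]
      intro t ht x v
      exact (iInf_le _ 0).trans (((bΔ 0).trans hY) t ht x v)
    · rw [zero_add] at hY' ⊢
      exact hfix.trans (hTZ _ _ hY')
  intro t ht x v
  exact PE2_conv (hzero t ht x v)

/-- `G = limsup F n` on `[0, t₁]`, `0` outside.  `Phi 0 0 G ≤ env` because `Phi_hot`-type bounds pass
to the limit; more simply: with `Δ k = ⨆ n ≥ k, |F n - G|` (cut), `Phi_cmp` with `(0, 0, G)` on the
left and `(σ k, g k, F k)` on the right gives `Phi 0 0 G ≤ F k + opT (Δ k)`, and `opT (Δ k) → 0`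
(`norm_T`, `IsOp.tendsto_anti`), so `Phi 0 0 G ≤ G ≤ env`; then `Phi_cmp` in the other direction with
`γ = σ k • g k`. -/
theorem Seq.limit (h : D.OK) (hs : D.Seq σ g F)
    (hc : ∀ t ∈ Icc 0 D.t₁, ∀ x v, ∃ l, Tendsto (fun n => F n t x v) atTop (𝓝 l)) :
    ∃ G, D.Good G ∧ ∀ t ∈ Icc 0 D.t₁, ∀ x v, Tendsto (fun n => F n t x v) atTop (𝓝 (G t x v)) := by
  classical
  obtain ⟨ε, hε, hsrc⟩ := hs.src
  set G : Fn := fun t x v => if t ∈ Icc 0 D.t₁ then limsup (fun n => F n t x v) atTop else 0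
    with hG
  have mF : ∀ n, Meas (F n) := fun n => (hs.ts n).reg.meas
  have hlim : ∀ t ∈ Icc 0 D.t₁, ∀ x v, Tendsto (fun n => F n t x v) atTop (𝓝 (G t x v)) := by
    intro t ht x v
    obtain ⟨l, hl⟩ := hc t ht x v
    simp only [hG, if_pos ht, hl.limsup_eq]
    exact hl
  have bG : LeOn 0 D.t₁ G (D.env D.Mx₀ 2) := fun t ht x v =>
    le_of_tendsto' (hlim t ht x v) fun n => hs.le n t ht x v
  have renv := h.renv (M := D.Mx₀) ENNReal.coe_ne_top 2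
  have mG : Meas G :=
    Measurable.ite (measurable_fst measurableSet_Icc) (Measurable.limsup mF) measurable_const
  have rG : Reg G := by
    refine ⟨mG, fun t x v a ha => ?_, fun t x v => ?_⟩
    · simp only [hG, fun n => (hs.ts n).reg.inv t x v a ha]
    · by_cases ht : t ∈ Icc 0 D.t₁
      · exact ne_top_of_le_ne_top (renv.fin t x v) (bG t ht x v)
      · simp only [hG, if_neg ht]
        exact ENNReal.zero_ne_top
  have cF : ∀ n, D.Cl D.Mx₀ 2 (F n) := fun n => ⟨mF n, (hs.ts n).lo h, hs.le n⟩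
  have cG : D.Cl D.Mx₀ 2 G := ⟨mG, fun t ht x v =>
    ge_of_tendsto' (hlim t ht x v) fun n => (cF n).lo t ht x v, bG⟩
  set Δ : ℕ → Fn := fun k t x v => ⨆ n, ⨆ _ : k ≤ n, ((F n - G) ⊔ (G - F n)) t x v with hΔ
  have mΔ : ∀ k, Meas (Δ k) := fun k =>
    PE2_meas_sup (f := fun n => (F n - G) ⊔ (G - F n))
      (fun n => ((mF n).sub mG).sup (mG.sub (mF n))) k
  have aΔ : Antitone Δ := PE2_anti_sup fun n => (F n - G) ⊔ (G - F n)
  have bΔ : ∀ k, LeOn 0 D.t₁ (Δ k) (D.env D.Mx₀ 2) := fun k t ht x v =>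
    iSup₂_le fun n _ => sup_le (tsub_le_self.trans (hs.le n t ht x v))
      (tsub_le_self.trans (bG t ht x v))
  have dΔ : ∀ k t x v, (F k t x v - G t x v) ⊔ (G t x v - F k t x v) ≤ Δ k t x v :=
    fun k t x v => le_iSup₂_of_le (f := fun n (_ : k ≤ n) => ((F n - G) ⊔ (G - F n)) t x v) k
      le_rfl le_rfl
  have c1 : ∀ k, LeOn 0 D.t₁ (F k) (G + Δ k) := fun k t ht x v =>
    tsub_le_iff_left.1 (le_sup_left.trans (dΔ k t x v))
  have c2 : ∀ k, LeOn 0 D.t₁ G (F k + Δ k) := fun k t ht x v =>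
    tsub_le_iff_left.1 (le_sup_right.trans (dΔ k t x v))
  obtain ⟨e, Λ, he0, he1, hΛ, hT⟩ := (h.norm_T (a := 2) (by norm_num) D.Mx₀).exists
  have rZ := h.rZ e Λ 2
  obtain ⟨Y, hY⟩ := h.env_le_Z D.Mx₀ 2 he0 hΛ
  have m0 : Meas (0 : Fn) := measurable_const
  have hT0 : ∀ t ∈ Icc 0 D.t₁, ∀ x v,
      Tendsto (fun k => D.opT D.Mx₀ 2 (Δ k) t x v) atTop (𝓝 0) := by
    intro t ht x v
    have b1 := opT_mono (D := D) (M := D.Mx₀) (a := 2) ((bΔ 0).trans hY)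
    rw [h.opT_smul rZ.meas] at b1
    have b2 := b1.trans (hT.smul _)
    have hfin : D.opT D.Mx₀ 2 (Δ 0) t x v ≠ ⊤ :=
      ne_top_of_le_ne_top
        (((rZ.smul ENNReal.coe_ne_top).smul ENNReal.coe_ne_top).fin t x v) (b2 t ht x v)
    have b3 := h.isOp_T.tendsto_anti mΔ aΔ hfin
    have b4 : LeOn 0 D.t₁ (fun t x v => ⨅ k, Δ k t x v) ((0 : ℝ≥0∞) • (0 : Fn)) := by
      intro t ht x v
      rw [zero_smul]
      exact PE2_dev (rG.fin t x v) (hlim t ht x v)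
    have b5 := opT_mono (D := D) (M := D.Mx₀) (a := 2) b4
    rw [h.opT_smul m0, zero_smul] at b5
    have b6 : D.opT D.Mx₀ 2 (fun t x v => ⨅ k, Δ k t x v) t x v = 0 :=
      le_antisymm (b5 t ht x v) (by simp)
    rwa [b6] at b3
  have hP0 : ∀ t x v, PI (0 : Fn) 0 t x v = 0 := by
    intro t x v
    simp [PI, pa]
  have hP0' : ∀ t ∈ Icc 0 D.t₁, ∀ x v, PI (((0 : ℝ≥0) : ℝ≥0∞) • (0 : Fn)) 0 t x v ≠ ⊤ := by
    intro t _ x v
    rw [smul_zero, hP0]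
    exact ENNReal.zero_ne_top
  have hΦF : ∀ k, LeOn 0 D.t₁ (D.Phi (σ k) (g k) (F k)) (D.env D.Mx₀ 2) := fun k t ht x v =>
    ((hs.ts k).eq t ht x v).symm.trans_le (hs.le k t ht x v)
  have s1 : LeOn 0 D.t₁ (D.Phi 0 0 G) G := by
    intro t ht x v
    have a1 : Tendsto (fun k => F k t x v + D.opT D.Mx₀ 2 (Δ k) t x v) atTop (𝓝 (G t x v + 0)) :=
      (hlim t ht x v).add (hT0 t ht x v)
    rw [add_zero] at a1
    refine ge_of_tendsto' a1 fun k => ?_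
    have := h.Phi_cmp (by norm_num) cG (cF k) (mΔ k) m0 (hs.mg k) m0 (c2 k) (c1 k) (hΦF k) hP0'
      (PE2_src_ne_top h (hsrc k)) (fun t _ x v => by simp) t ht x v
    rw [Pi.add_apply, Pi.add_apply, Pi.add_apply, hP0, add_zero, Pi.add_apply, Pi.add_apply,
      Pi.add_apply, ← (hs.ts k).eq t ht x v] at this
    exact this
  have s2 : LeOn 0 D.t₁ G (D.Phi 0 0 G) := by
    intro t ht x v
    have a1 : Tendsto (fun k => D.Phi 0 0 G t x v + D.opT D.Mx₀ 2 (Δ k) t x v +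
        ((ε k * 1 : ℝ≥0) : ℝ≥0∞) * (pw 2 * D.W) t x v) atTop (𝓝 (D.Phi 0 0 G t x v + 0 + 0)) :=
      (tendsto_const_nhds.add (hT0 t ht x v)).add
        (PE2_tendsto_src hε 1 ((PE2_rpW h).fin t x v))
    rw [add_zero, add_zero] at a1
    refine le_of_tendsto_of_tendsto' (hlim t ht x v) a1 fun k => ?_
    have := h.Phi_cmp (by norm_num) (cF k) cG (mΔ k) (hs.mg k) m0 ((hs.mg k).smul (σ k))
      (c1 k) (c2 k) (s1.trans bG) (PE2_src_ne_top h (hsrc k)) hP0'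
      (fun t _ x v => by simp) t ht x v
    rw [← (hs.ts k).eq t ht x v] at this
    refine this.trans ?_
    simp only [Pi.add_apply, mul_one]
    gcongr
    exact hsrc k t ht x v
  exact ⟨G, ⟨⟨rG, fun t ht x v => le_antisymm (s2 t ht x v) (s1 t ht x v), D.Mx₀, bG⟩, bG⟩, hlim⟩

/-- `IsLin.exists_measure` and dominated convergence. -/
theorem Seq.exists_good (h : D.OK) (hs : D.Seq σ g F) {Λ : (R3 × R3 → ℝ≥0∞) → ℝ≥0∞} (hΛ : IsLin Λ)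
    {t₀ : ℝ} (ht₀ : t₀ ∈ Icc 0 D.t₁) (hfin : Λ (unc (D.Ec + D.H + D.W) t₀) ≠ ⊤) {δ : ℝ≥0∞}
    (hδ : ∀ n, Λ (unc (F n) t₀) = δ) : ∃ G, D.Good G ∧ Λ (unc G t₀) = δ := by
  have mF : ∀ n, Meas (F n) := fun n => (hs.ts n).reg.meas
  obtain ⟨φ, hφ, hc⟩ := h.opSS_subseq mF hs.le
  have hs' := hs.comp hφ
  obtain ⟨G, hG, hlim⟩ := hs'.limit h (hs'.cauchy h hc)
  refine ⟨G, hG, ?_⟩
  obtain ⟨μ, hμ⟩ := hΛ.exists_measure
  have mB : Measurable (unc (D.Ec + D.H + D.W) t₀) :=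
    ((h.rEc.add h.rH).add h.rW).meas.time t₀
  have mG : Measurable (unc G t₀) := hG.ts.reg.meas.time t₀
  have mF' : ∀ n, Measurable (unc (F (φ n)) t₀) := fun n => (mF _).time t₀
  have a1 : Tendsto (fun n => ∫⁻ p, unc (F (φ n)) t₀ p ∂μ) atTop (𝓝 (∫⁻ p, unc G t₀ p ∂μ)) :=
    tendsto_lintegral_of_dominated_convergence (unc (D.Ec + D.H + D.W) t₀) mF'
      (fun n => ae_of_all _ fun p => PE2_le_W h (hs.le (φ n)) t₀ ht₀ p.1 p.2)
      (by rw [← hμ _ mB]; exact hfin) (ae_of_all _ fun p => hlim t₀ ht₀ p.1 p.2)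
  simp only [← hμ _ (mF' _), hδ] at a1
  rw [hμ _ mG]
  exact tendsto_nhds_unique a1 tendsto_const_nhds ▸ rfl

end P1

end Crest.Agent.R68
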