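/-
R68/PF: two solutions on the initial layer (abstract form)
Skeleton by helper76 (row 68); keep the statements unchanged, add any helper lemmas you like.
-/
import Crest.Agent.R68.PD
import Crest.Agent.R68.PE2

set_option autoImplicit false
set_option linter.unusedVariables false
set_option linter.unusedSectionVars false

noncomputable section

namespace Crest.Agent.R68

open MeasureTheory Set Filter Topology
open scoped ENNReal NNReal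
open Crest.AnalysisR.VecCalc3 Crest.AnalysisR.PDE.Boltzmann

namespace P1

variable {D : P1}

theorem PF_two_le (h : D.OK) : 2 ≤ D.n₂ := by
  have h1 : ((2 : ℕ) : ℝ≥0) ≤ (D.n₂ : ℝ≥0) := by
    refine le_trans ?_ h.n₂_ge
    push_cast
    exact le_add_self
  exact_mod_cast h1

theorem PF_src_zero (D : P1) : D.Src 0 := by
  refine ⟨measurable_const, fun _ _ _ _ _ => rfl, 0, fun t _ x v => ?_⟩
  have : PI (0 : Fn) 0 t x v = 0 := by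
    simp [PI, pa]
  rw [this]
  exact zero_le

theorem PF_lin_le (h : D.OK) {Λ : (R3 × R3 → ℝ≥0∞) → ℝ≥0∞} (hΛ : IsLin Λ) {t₀ : ℝ}
    (ht₀ : t₀ ∈ Icc 0 D.t₁) {F : Fn} (hF : Meas F) (hle : LeOn 0 D.t₁ F (D.Ec + D.H)) :
    Λ (unc F t₀) ≤ Λ (unc (D.Ec + D.H) t₀) :=
  hΛ.mono (hF.time t₀) ((h.rEc.meas.add h.rH.meas).time t₀) fun p => hle t₀ ht₀ p.1 p.2

/-- The solution that is never ignited (`exists_TS` with `g = 0`, `TS.unlit`). -/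
theorem OK.exists_unlit (h : D.OK) : ∃ F, D.Good F ∧ LeOn 0 D.t₁ F (D.Ec + D.H) := by
  obtain ⟨F, hF⟩ := h.exists_TS (PF_src_zero D) 0
  have hu : LeOn 0 D.t₁ F (D.Ec + D.H) := hF.unlit h (PF_src_zero D).meas
  refine ⟨F, ⟨hF.mono h (PF_two_le h), fun t ht x v => (hu t ht x v).trans ?_⟩, hu⟩
  exact le_self_add

/-- `ivt` for every source `g n`, `Seq.exists_good`, `exists_unlit`. -/
theorem OK.two_solutions (h : D.OK) {Λ : (R3 × R3 → ℝ≥0∞) → ℝ≥0∞} (hΛ : IsLin Λ) {t₀ : ℝ}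
    (ht₀ : t₀ ∈ Icc 0 D.t₁) (hfin : Λ (unc (D.Ec + D.H + D.W) t₀) ≠ ⊤) {δ : ℝ≥0∞}
    (h0 : Λ (unc (D.Ec + D.H) t₀) < δ) {g : ℕ → Fn} (hg : ∀ n, D.Src (g n))
    (h1 : ∀ n, ∃ σ, ∀ F, D.TS D.n₂ σ (g n) F → δ ≤ Λ (unc F t₀))
    {ε : ℕ → ℝ≥0} (hε : Tendsto ε atTop (𝓝 0))
    (h2 : ∀ n σ F, D.TS 2 σ (g n) F → Λ (unc F t₀) = δ → LeOn 0 D.t₁ F (D.env D.Mx₀ 2) ∧
      LeOn 0 D.t₁ (PI ((σ : ℝ≥0∞) • g n) 0) ((ε n : ℝ≥0∞) • (pw 2 * D.W))) :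
    ∃ F G, D.Good F ∧ D.Good G ∧ Λ (unc F t₀) < Λ (unc G t₀) := by
  have key : ∀ n, ∃ σ F, D.TS D.n₂ σ (g n) F ∧ Λ (unc F t₀) = δ := fun n =>
    h.ivt (hg n) hΛ ht₀ hfin
      (fun F hF => (PF_lin_le h hΛ ht₀ hF.reg.meas (hF.unlit h (hg n).meas)).trans h0.le) (h1 n)
  choose σ F hF hδ using key
  have hF2 : ∀ n, D.TS 2 (σ n) (g n) (F n) := fun n => (hF n).mono h (PF_two_le h)
  have hs : D.Seq σ g F :=
    ⟨fun n => (hg n).meas, hF2, fun n => (h2 n _ _ (hF2 n) (hδ n)).1, ε, hε,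
      fun n => (h2 n _ _ (hF2 n) (hδ n)).2⟩
  obtain ⟨G, hG, hGδ⟩ := hs.exists_good h hΛ ht₀ hfin hδ
  obtain ⟨F₀, hF₀, hu⟩ := h.exists_unlit
  refine ⟨F₀, G, hF₀, hG, ?_⟩
  rw [hGδ]
  exact (PF_lin_le h hΛ ht₀ hF₀.ts.reg.meas hu).trans_lt h0

end P1

end Crest.Agent.R68
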