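/-
R68/Fin1: two solutions on the initial layer for the concrete data
Skeleton by helper76 (row 68); keep the statements unchanged, add any helper lemmas you like.
-/
import Crest.Agent.R68.H5
import Crest.Agent.R68.PF

set_option autoImplicit false
set_option linter.unusedVariables false
set_option linter.unusedSectionVars false

noncomputable section

namespace Crest.Agent.R68

open MeasureTheory Set Filter Topology
open scoped ENNReal NNReal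
open Crest.AnalysisR.VecCalc3 Crest.AnalysisR.PDE.Boltzmann

namespace CP

theorem Fin1_lt {C' c t : ℝ} {n m : ℕ} (hc : 0 < c) (ht : 0 < t) (ht1 : t ≤ 1)
    (htc : t ≤ c / (|C'| + 1)) (hnm : n + 153 ≤ m) : C' * t ^ m < c * t ^ n * t ^ 152 := by
  have h1 : t ^ m ≤ t ^ (n + 153) := pow_le_pow_of_le_one ht.le ht1 hnm
  have hp : 0 < |C'| + 1 := by positivity
  have h2 : t * (|C'| + 1) ≤ c := (le_div_iff₀ hp).1 htc
  have h3 : |C'| * t < c := by nlinarith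
  have h4 : 0 < t ^ n * t ^ 152 := by positivity
  calc C' * t ^ m ≤ |C'| * t ^ m := mul_le_mul_of_nonneg_right (le_abs_self _) (by positivity)
    _ ≤ |C'| * t ^ (n + 153) := mul_le_mul_of_nonneg_left h1 (abs_nonneg _)
    _ = (|C'| * t) * (t ^ n * t ^ 152) := by ring
    _ < c * (t ^ n * t ^ 152) := mul_lt_mul_of_pos_right h3 h4
    _ = c * t ^ n * t ^ 152 := by ring

theorem Fin1_env {C M : ℝ≥0} {t : ℝ} (ht : 0 < t) (n : ℕ) :
    (C : ℝ≥0∞) * ((M / (C + 1) * t.toNNReal ^ n : ℝ≥0) : ℝ≥0∞) * ENNReal.ofReal (t⁻¹ ^ n) ≤ M := by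
  rw [← ENNReal.ofReal_coe_nnreal (p := C), ← ENNReal.ofReal_coe_nnreal (p := M / (C + 1) * _),
    ← ENNReal.ofReal_coe_nnreal (p := M), ← ENNReal.ofReal_mul C.coe_nonneg,
    ← ENNReal.ofReal_mul (by positivity)]
  refine ENNReal.ofReal_le_ofReal ?_
  push_cast
  rw [Real.coe_toNNReal t ht.le]
  have hC : (0 : ℝ) ≤ C := C.2
  have hM : (0 : ℝ) ≤ M := M.2
  have h1 : (C : ℝ) * ((M : ℝ) / (C + 1) * t ^ n) * t⁻¹ ^ n = M * (C / (C + 1)) := by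
    rw [inv_pow]
    field_simp
  rw [h1]
  exact mul_le_of_le_one_right hM ((div_le_one (by positivity)).2 (by linarith))

theorem Fin1_tendsto (a b : ℝ≥0) :
    Tendsto (fun n : ℕ => a * (b / (2 * ((n : ℝ≥0) + 1)))) atTop (𝓝 0) := by
  rw [← NNReal.tendsto_coe]
  push_cast
  have h := (tendsto_one_div_add_atTop_nhds_zero_nat (𝕜 := ℝ)).const_mul ((a : ℝ) * (b / 2))
  rw [mul_zero] at h
  refine h.congr fun n => ?_
  have : (0 : ℝ) < (n : ℝ) + 1 := by positivity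
  field_simp

/-- `two_solutions` with `Λ = Nf t₀`, `N = c t₀ ^ n₂` where `C c ≤ Mx₀` (`harnack`),
`δ = N t₀ ^ 152`, sources `src (t₀ / (2 (n + 1)))`; `N_unlit` with `C' t₀ < c`; `src_large`,
`src_small`, `TS.mono`. -/
theorem layer : ∃ V₀ : ℝ, ∀ V, V₀ ≤ V → ∃ α₀ : ℝ, 0 < α₀ ∧ ∀ P : CP, P.Num → P.V = V → P.α ≤ α₀ →
    0 < P.x₀ → P.n₂ + 153 ≤ P.nb → ∀ᶠ r in 𝓝[>] (0 : ℝ), (P.D1 r).OK ∧ 0 < P.t₀ r ∧ P.t₀ r ≤ P.t₁ ∧
      ∃ F G, (P.D1 r).Good F ∧ (P.D1 r).Good G ∧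
        P.Nf (P.t₀ r) (unc F (P.t₀ r)) < P.Nf (P.t₀ r) (unc G (P.t₀ r)) := by
  obtain ⟨V₀, hH⟩ := harnack
  refine ⟨V₀, fun V hV => ?_⟩
  obtain ⟨α₀, hα, hS⟩ := (rng.and grow) V
  refine ⟨α₀, hα, fun P hN hPV hα' hx₀ hnb => ?_⟩
  have h := hN.ok
  obtain ⟨C, hC⟩ := hH V hV P h hPV
  obtain ⟨C', hU⟩ := N_unlit h
  obtain ⟨C'', hsm⟩ := src_small h
  have ht₁ : 0 < P.t₁.toNNReal := Real.toNNReal_pos.2 h.t₁_pos
  set M : ℝ≥0 := P.x₀ / P.t₁.toNNReal ^ 2 with hM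
  have hMpos : 0 < M := by positivity
  have hc : 0 < M / (C + 1) := by positivity
  have hc' : (0 : ℝ) < ((M / (C + 1) : ℝ≥0) : ℝ) / (|C'| + 1) := by
    have : (0 : ℝ) < ((M / (C + 1) : ℝ≥0) : ℝ) := hc
    positivity
  filter_upwards [hS P h hPV hα', D1_OK hN, hC, hU, hsm, N_ne_top h, src_large h,
    h.ev_t₀ h.t₁_pos, h.ev_t₀ hc'] with r hRG hD hC hU hsm hfin hla ht₀ ht₀'
  obtain ⟨hR, hG⟩ := hRG
  obtain ⟨t0, t1⟩ := ht₀
  refine ⟨hD, t0, t1, ?_⟩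
  have t1' : P.t₀ r ≤ 1 := by linarith [h.t₁_le]
  set τ : ℝ≥0 := (P.t₀ r).toNNReal with hτ
  have hτc : (τ : ℝ) = P.t₀ r := Real.coe_toNNReal _ t0.le
  have hτ0 : 0 < τ := Real.toNNReal_pos.2 t0
  set N : ℝ≥0 := M / (C + 1) * τ ^ P.n₂ with hNdef
  let s : ℕ → ℝ≥0 := fun n => τ / (2 * ((n : ℝ≥0) + 1))
  have hs0 : ∀ n, 0 < s n := fun n => by
    simp only [s]; positivity
  have hs2 : ∀ n, 2 * (s n : ℝ) ≤ P.t₀ r := fun n => by
    simp only [s]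
    push_cast
    rw [hτc]
    have h1 : (0 : ℝ) < (n : ℝ) + 1 := by positivity
    have h2 : 2 * (P.t₀ r / (2 * ((n : ℝ) + 1))) = P.t₀ r / ((n : ℝ) + 1) := by field_simp
    rw [h2]
    exact div_le_self t0.le (by linarith [(Nat.cast_nonneg n : (0 : ℝ) ≤ n)])
  have hsol : ∀ n σ F, (P.D1 r).TS 2 σ (src (s n)) F → P.Sol r σ (src (s n)) F :=
    fun n σ F hF => ⟨hD, (reg_src _).meas, src_le_one _, hF⟩
  have hδ : (N : ℝ≥0∞) * ENNReal.ofReal (P.t₀ r ^ 152) ≠ ⊤ :=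
    ENNReal.mul_ne_top ENNReal.coe_ne_top ENNReal.ofReal_ne_top
  refine hD.two_solutions (isLin_Nf P (P.t₀ r)) ⟨t0.le, t1⟩ (hfin hR)
    (δ := (N : ℝ≥0∞) * ENNReal.ofReal (P.t₀ r ^ 152)) ?_ (g := fun n => src (s n))
    (fun n => src_Src h r (hs0 n)) (fun n => ?_) (ε := fun n => C'' * N * s n)
    (Fin1_tendsto _ _) (fun n σ F hF hδ' => ⟨?_, ?_⟩)
  · refine (hU hR).trans_lt ?_
    rw [← ENNReal.ofReal_coe_nnreal (p := N), ← ENNReal.ofReal_mul N.coe_nonneg]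
    have hlt : C' * P.t₀ r ^ P.nb < (N : ℝ) * P.t₀ r ^ 152 := by
      have := Fin1_lt (C' := C') (c := ((M / (C + 1) : ℝ≥0) : ℝ)) hc t0 t1' ht₀'.2 hnb
      rw [hNdef, NNReal.coe_mul, NNReal.coe_pow, hτc]
      exact this
    refine (ENNReal.ofReal_lt_ofReal_iff ?_).2 hlt
    have : (0 : ℝ) < N := by
      have : 0 < N := by rw [hNdef]; positivity
      exact_mod_cast this
    positivity
  · obtain ⟨σ, hσ⟩ := hla hR hG (s n) (hs0 n) (hs2 n) _ hδ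
    exact ⟨σ, fun F hF => hσ F (hsol n σ F (hF.mono hD (P1.PF_two_le hD)))⟩
  · have h1 := hC hR hG (s n) (hs0 n) (hs2 n) σ F (hsol n σ F hF) N hδ'.le
    intro t ht x v
    exact (h1 t ht x v).trans (P1.env_mono hD (Fin1_env t0 P.n₂) le_rfl t ht x v)
  · rw [PI_smul (reg_src _).meas]
    exact hsm hR hG (s n) (hs0 n) (hs2 n) σ F (hsol n σ F hF) N hδ'.le

end CP

end Crest.Agent.R68
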