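/-
R68/Fin2: the choice of the parameters
Skeleton by helper76 (row 68); keep the statements unchanged, add any helper lemmas you like.
-/
import Crest.Agent.R68.C0c

set_option autoImplicit false
set_option linter.unusedVariables false
set_option linter.unusedSectionVars false

noncomputable section

namespace Crest.Agent.R68

open MeasureTheory Set Filter Topology
open scoped ENNReal NNReal
open Crest.AnalysisR.VecCalc3 Crest.AnalysisR.PDE.Boltzmann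

theorem Fin2_ev (a : ℝ) {c : ℝ} (hc : 0 < c) : ∀ᶠ x in 𝓝[>] (0 : ℝ), a * x ≤ c := by
  have h : Tendsto (fun x : ℝ => a * x) (𝓝 0) (𝓝 (a * 0)) := tendsto_id.const_mul a
  rw [mul_zero] at h
  exact (h.eventually (eventually_le_nhds hc)).filter_mono nhdsWithin_le_nhds

theorem Fin2_ex {p : ℝ → Prop} (h : ∀ᶠ x in 𝓝[>] (0 : ℝ), p x) : ∃ x : ℝ, 0 < x ∧ p x :=
  (eventually_mem_nhdsWithin.and h).exists

theorem Fin2_exN {p : ℝ → Prop} (h : ∀ᶠ x in 𝓝[>] (0 : ℝ), p x) : ∃ x : ℝ≥0, 0 < x ∧ p x := by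
  obtain ⟨x, hx, hp⟩ := Fin2_ex h
  exact ⟨⟨x, hx.le⟩, hx, hp⟩

theorem Fin2_R {ε : ℝ} (hε : 0 < ε) (R' : ℝ) :
    ∃ R : ℝ, 3 ≤ R ∧ R' ≤ R ∧ Real.exp (-R ^ 2 / 4) ≤ ε := by
  refine ⟨max (max 4 R') (-Real.log ε), ?_, ?_, ?_⟩
  · exact le_max_of_le_left (le_max_of_le_left (by norm_num))
  · exact le_max_of_le_left (le_max_right _ _)
  · have h1 : 4 ≤ max (max 4 R') (-Real.log ε) := le_max_of_le_left (le_max_left _ _)
    have h2 : -Real.log ε ≤ max (max 4 R') (-Real.log ε) := le_max_right _ _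
    rw [← Real.le_log_iff_exp_le hε]
    nlinarith

namespace CP

/-- Order: `R₀`, `K`, then `x₀`, `e`, `η`, `n₂`, `nb`, `G`, `Λ`, then `t₁` (`lintegral_br_decay`), `r₁`,
`T`. -/
theorem exists_params {V α : ℝ} (hV : 16 ≤ V) (hα : 0 < α) (hα' : α ≤ 1 / 40) {ε₂ : ℝ≥0}
    (hε : 0 < ε₂) (hε' : ε₂ ≤ 1) (R' : ℝ) {ρ : ℝ → ℝ} (hρ : ∀ t, 0 < t → 0 < ρ t) :
    ∃ P : CP, P.Num ∧ P.Num2 ε₂ ∧ P.V = V ∧ P.α = α ∧ R' ≤ P.R₀ ∧ P.r₁ ≤ ρ P.t₁ ∧ 0 < P.x₀ ∧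
      P.n₂ + 153 ≤ P.nb := by
  have hε0 : (0 : ℝ) < ε₂ := hε
  have hν : (0 : ℝ) < nuM := nuM_pos
  obtain ⟨R₀, hR1, hR2, hR3⟩ := Fin2_R hε0 R'
  obtain ⟨K, hK⟩ : ∃ K : ℝ≥0, 4 * Real.exp (3 * R₀ ^ 2) * Kgl ≤ K :=
    ⟨_, Real.le_coe_toNNReal _⟩
  obtain ⟨x₀, hx0, hx1, hx2⟩ := Fin2_exN
    ((Fin2_ev 1 one_pos).and (Fin2_ev (2 * (b1v V + 1)) hε0))
  obtain ⟨e, he0, he1⟩ := Fin2_exN (Fin2_ev (100 * Cwv V * (2 + b1v V) ^ 2) one_pos)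
  obtain ⟨η, hη0, hη1, hη2⟩ := Fin2_exN ((Fin2_ev (100 * (2 + b1v V) ^ 2) one_pos).and
    (Fin2_ev (8 * (4 * Real.exp (3 * R₀ ^ 2))) hε0))
  have hη0' : (0 : ℝ) < η := hη0
  obtain ⟨n₂, hn₂⟩ := exists_nat_ge (20 * b1v V + 2)
  obtain ⟨n₃, hn₃⟩ := exists_nat_ge (b0v V * Cwv V / η)
  obtain ⟨τ, hτ0, hτ⟩ := lintegral_br_decay (η := η / (6 * K * Cwv V + 1)) (by positivity)
  obtain ⟨t₁, ht0, ht1, ht2, ht3, ht4⟩ := Fin2_ex ((Fin2_ev 1 (c := 1 / 100) (by norm_num)).and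
    ((Fin2_ev (1 + 8 * K) (c := e) he0).and ((Fin2_ev 1 hτ0).and
      (Fin2_ev (2 * (1 + 2 * K) * (1 + R₀)) hε0))))
  obtain ⟨r₁, hr0, hr1, hr2⟩ := Fin2_ex ((Fin2_ev 1 (c := 1 / 4) (by norm_num)).and
    (Fin2_ev 1 (hρ t₁ ht0)))
  obtain ⟨T, hT0, hT1, hT2, hT3, hT4⟩ := Fin2_ex ((Fin2_ev (200 * Lv V) one_pos).and
    ((Fin2_ev (b0v V * Cwv V * ((n₂ + 153 + n₃ : ℕ) : ℝ) ^ 2) (c := η * r₁ ^ 2)
      (by positivity)).and
    ((Fin2_ev (b0v V * N0) (c := ε₂ * nuM * t₁ ^ 2) (by positivity)).and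
      (Fin2_ev (b0v V * R₀ ^ 2) (c := ε₂ * r₁) (by positivity)))))
  refine ⟨⟨V, α, T, t₁, R₀, r₁, n₂ + 153 + n₃ + 51, n₂ + 153 + n₃, n₂, 16 + η⁻¹, K, e, η, x₀⟩,
    ⟨⟨hV, hα, hα', hT0, hT1, ht0, by simpa using ht1, hR1, hr0, by simpa using hr1, le_rfl,
      by simp only; omega, le_self_add⟩, hK, ?_, ?_, ?_, hη0, hn₂, ht2, ?_, ?_, ?_, ?_⟩,
    ⟨hε, hε', hR3, ?_, ?_, ht4, hT3, ?_⟩, rfl, rfl, hR2, by simpa using hr2, hx0,
    Nat.le_add_right _ _⟩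
  · exact_mod_cast (one_mul (x₀ : ℝ)).symm.trans_le hx1
  · rw [← NNReal.coe_le_coe]
    simp only [Cw]
    push_cast
    linarith
  · rw [← NNReal.coe_le_coe]
    push_cast
    linarith
  · intro v t ht
    have h1 := hτ v 0 t (by simp only at ht; linarith)
    refine (mul_le_mul_right h1 _).trans ?_
    simp only [Cw]
    have h2 : 6 * K * Cwv V * (η / (6 * K * Cwv V + 1)) ≤ η := by
      rw [← mul_div_assoc, div_le_iff₀ (by positivity), mul_comm]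
      exact mul_le_mul_right le_self_add _
    exact_mod_cast h2
  · simp only
    rw [add_mul, inv_mul_cancel₀ hη0.ne']
    exact le_add_self
  · simp only [b₀, Cw]
    rw [div_le_iff₀ hη0] at hn₃
    refine hn₃.trans ?_
    rw [mul_comm]
    exact mul_le_mul_right (by exact_mod_cast Nat.le_add_left _ _) _
  · simp only [b₀, Cw]
    linarith
  · simp only [K₀]
    linarith
  · rw [← NNReal.coe_le_coe]
    push_cast
    linarith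
  · simp only [b₀]
    linarith

end CP

end Crest.Agent.R68
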