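/-
R68/IIa: the basic inequality for the global part
Skeleton by helper76 (row 68); keep the statements unchanged, add any helper lemmas you like.
-/
import Crest.Agent.R68.PA1
import Crest.Agent.R68.Adm

set_option autoImplicit false
set_option linter.unusedVariables false
set_option linter.unusedSectionVars false

noncomputable section

namespace Crest.Agent.R68

open MeasureTheory Set Filter Topology
open scoped ENNReal NNReal
open Crest.AnalysisR.VecCalc3 Crest.AnalysisR.PDE.Boltzmann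

/-- Linearisation around the Maxwellian.  First part: `gn_add_add`, `gn_Mx`, `ls Mx ≤ ls f + ls g`.
Second part: with `f₁ = min f M`, pointwise `M M⁎ ≤ f₁ f₁⁎ + M g⁎ + g M⁎`. -/
theorem gn_lin {f g : R3 → ℝ≥0∞} (hf : Measurable f) (hg : Measurable g) (h₁ : f ≤ Mx + g)
    (h₂ : Mx ≤ f + g) (v : R3) :
    gn f f v ≤ Mx v * ls f v + (2 * gn Mx g v + gn g g v + Mx v * ls g v) ∧
    Mx v * ls f v ≤ gn f f v + (2 * gn Mx g v + gn g g v + Mx v * ls g v) := by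
  have hM := measurable_Mx
  constructor
  · calc gn f f v ≤ gn (Mx + g) (Mx + g) v := gn_mono h₁ h₁ v
      _ = Mx v * ls Mx v + 2 * gn Mx g v + gn g g v := by rw [gn_add_add hM hg, gn_Mx]
      _ ≤ Mx v * ls (f + g) v + 2 * gn Mx g v + gn g g v := by
          gcongr
          exact ls_mono h₂ v
      _ = _ := by rw [ls_add hf hg]; ring
  · have hf₁ : Measurable (f ⊓ Mx) := hf.inf hM
    have h₃ : Mx ≤ f ⊓ Mx + g := fun u => by
      show Mx u ≤ min (f u) (Mx u) + g u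
      rw [← min_add_add_right]
      exact le_min (h₂ u) le_self_add
    have h₄ : gn Mx Mx v ≤ gn f f v + 2 * gn Mx g v := by
      calc gn Mx Mx v ≤ gn (f ⊓ Mx + g) Mx v := gn_mono h₃ le_rfl v
        _ = gn (f ⊓ Mx) Mx v + gn Mx g v := by rw [gn_add_left hf₁ hg hM, gn_comm hg hM]
        _ ≤ gn (f ⊓ Mx) (f ⊓ Mx + g) v + gn Mx g v := by
            gcongr
            exact gn_mono le_rfl h₃ v
        _ = gn (f ⊓ Mx) (f ⊓ Mx) v + gn (f ⊓ Mx) g v + gn Mx g v := by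
            rw [gn_add_right hf₁ hf₁ hg]
        _ ≤ gn f f v + gn Mx g v + gn Mx g v := by
            gcongr
            · exact gn_mono inf_le_left inf_le_left v
            · exact gn_mono inf_le_right le_rfl v
        _ = _ := by ring
    calc Mx v * ls f v ≤ Mx v * ls (Mx + g) v := by
          gcongr
          exact ls_mono h₁ v
      _ = gn Mx Mx v + Mx v * ls g v := by rw [ls_add hM hg, gn_Mx, mul_add]
      _ ≤ gn f f v + 2 * gn Mx g v + Mx v * ls g v := by gcongr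
      _ ≤ gn f f v + 2 * gn Mx g v + Mx v * ls g v + gn g g v := le_self_add
      _ = _ := by ring

theorem duh_le_add {a q q' ρ : ℝ → ℝ≥0∞} {u u' d : ℝ≥0∞} {r t : ℝ} (ha : Measurable a)
    (hq' : Measurable q') (hu : u ≤ u' + d) (hq : ∀ s ∈ Ioc r t, q s ≤ q' s + ρ s) :
    duh u a q r t ≤ duh u' a q' r t + duh d a ρ r t := by
  have hm : Measurable fun s => ex (∫⁻ s' in Ioc s t, a s') * q' s :=
    (measurable_ex.comp (measurable_lintegral_Ioc_left ha t)).mul hq'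
  have h1 : ∫⁻ s in Ioc r t, ex (∫⁻ s' in Ioc s t, a s') * q s ≤
      (∫⁻ s in Ioc r t, ex (∫⁻ s' in Ioc s t, a s') * q' s) +
        ∫⁻ s in Ioc r t, ex (∫⁻ s' in Ioc s t, a s') * ρ s := by
    rw [← lintegral_add_left hm]
    refine setLIntegral_mono' measurableSet_Ioc fun s hs => ?_
    rw [← mul_add]
    exact mul_le_mul' le_rfl (hq s hs)
  unfold duh
  calc _ ≤ (u' + d) * ex (∫⁻ s in Ioc r t, a s) +
        ((∫⁻ s in Ioc r t, ex (∫⁻ s' in Ioc s t, a s') * q' s) +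
          ∫⁻ s in Ioc r t, ex (∫⁻ s' in Ioc s t, a s') * ρ s) := by gcongr
    _ = _ := by ring

theorem IIa_ga_ne_zero (β : ℝ) (v : R3) : ga β v ≠ 0 :=
  (ENNReal.ofReal_pos.2 (Real.exp_pos _)).ne'

theorem IIa_ga_anti {β β' : ℝ} (h : β' ≤ β) (v : R3) : ga β v ≤ ga β' v :=
  ENNReal.ofReal_le_ofReal (Real.exp_le_exp.2 (by nlinarith [sq_nonneg ‖v‖]))

theorem IIa_meas_K {f : Fn} (hf : Meas f) : Meas fun s y v => ∫⁻ u, kk (v - u) * f s y u := by
  have h1 : Measurable fun q : (ℝ × R3 × R3) × R3 =>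
      kk (q.1.2.2 - q.2) * f q.1.1 q.1.2.1 q.2 :=
    (measurable_kk.comp (by fun_prop)).mul
      (path_meas_comp hf (by fun_prop) (by fun_prop) (by fun_prop))
  exact h1.lintegral_prod_right'

namespace P2

/-- Data with prescribed constants. -/
structure Par (D : P2) (ν N Cw : ℝ≥0) : Prop where
  ok : D.OK
  hν : D.ν = ν
  hN : D.N = N
  hCw : D.Cw = Cw

variable {D : P2} {F G : Fn} {x₂ : ℝ≥0}

theorem IIa_meas_att : Meas D.att := (meas_vl measurable_br).smul _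

theorem IIa_att (t : ℝ) (x v : R3) : D.att t x v = ENNReal.ofReal (D.ν / 2 * (1 + ‖v‖)) := by
  show (D.ν : ℝ≥0∞) / 2 * ENNReal.ofReal (1 + ‖v‖) = _
  rw [ENNReal.ofReal_mul (by positivity), ENNReal.ofReal_div_of_pos (by norm_num)]
  simp

theorem IIa_mw_le (t : ℝ) (x : R3) : D.mw t x ≤ fun u => ga (1 / 8) u * D.om t x u := fun u =>
  mul_le_mul' (IIa_ga_anti (by norm_num) u) le_rfl

theorem OK.rmw (h : D.OK) : Reg D.mw := by
  have h1 : Reg (vl (ga (1 / 4))) :=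
    ⟨meas_vl (measurable_ga _), invF_vl _, fun _ _ _ => ENNReal.ofReal_ne_top⟩
  exact h1.mul h.rom

theorem OK.ga_le_mw (h : D.OK) (t : ℝ) (x v : R3) : ga (1 / 4) v ≤ D.mw t x v := by
  show ga (1 / 4) v ≤ ga (1 / 4) v * D.om t x v
  exact le_mul_of_one_le_right' ((h.adm t x).one_le v)

theorem meas_dv (hF : Meas F) : Meas (dv F) := by
  exact (hF.sub (meas_vl measurable_Mx)).sup ((meas_vl measurable_Mx).sub hF)

theorem le_of_dv {B : ℝ≥0∞} {t : ℝ} {x v : R3} :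
    dv F t x v ≤ B ↔ F t x v ≤ Mx v + B ∧ Mx v ≤ F t x v + B := by
  show (F t x v - Mx v) ⊔ (Mx v - F t x v) ≤ B ↔ _
  rw [sup_le_iff, tsub_le_iff_left, tsub_le_iff_left]

theorem OK.meas_tr (h : D.OK) (hF : Meas F) : Meas (D.tr x₂ F) := by
  exact (hF.inf (((meas_vl measurable_Mx).add h.rSg.meas).add (h.rmw.meas.smul _))).sup
    ((meas_vl measurable_Mx).sub (h.rSg.meas.add (h.rmw.meas.smul _)))

theorem OK.meas_hq (h : D.OK) (hF : Meas F) : Meas (D.hq x₂ F) := by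
  have h1 : Meas (D.hd F ⊓ (x₂ : ℝ≥0∞) • D.mw) :=
    ((meas_dv hF).sub h.rSg.meas).inf (h.rmw.meas.smul _)
  have h2 : Meas (vl (ga (1 / 4))) := meas_vl (measurable_ga _)
  exact Measurable.div h1 h2

theorem OK.inv_hq (h : D.OK) (hF : InvF F) : InvF (D.hq x₂ F) := by
  have h0 : InvF (dv F) := (hF.sub (invF_vl _)).sup ((invF_vl _).sub hF)
  have h1 : InvF (D.hd F) := h0.sub h.rSg.inv
  intro t x v a ha
  simp only [hq, h1 t x v a ha, h.rmw.inv t x v a ha]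

theorem OK.meas_Phi (h : D.OK) (hF : Meas F) : Meas (D.Phi x₂ F) := by
  exact Meas.DU (h.rF.meas.time D.t₁) (h.meas_tr hF).LS ((h.meas_tr hF).GN (h.meas_tr hF)) _

theorem OK.inv_Phi (h : D.OK) (hF : InvF F) : InvF (D.Phi x₂ F) := by
  have h1 : InvF (D.tr x₂ F) :=
    (hF.inf (((invF_vl _).add h.rSg.inv).add (h.rmw.inv.smul _))).sup
      ((invF_vl _).sub (h.rSg.inv.add (h.rmw.inv.smul _)))
  exact InvF.DU (fun x v c hc => h.rF.inv D.t₁ x v c hc) h1.LS (h1.GN h1) _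

theorem meas_opK {f : Fn} (hf : Meas f) : Meas (D.opK f) := by
  exact Meas.AI IIa_meas_att (IIa_meas_K hf) _

theorem OK.hq_le (h : D.OK) (F : Fn) : D.hq x₂ F ≤ (x₂ : ℝ≥0∞) • D.om := by
  intro t x v
  refine ENNReal.div_le_of_le_mul ((min_le_right _ _).trans (le_of_eq ?_))
  show (x₂ : ℝ≥0∞) * (ga (1 / 4) v * D.om t x v) = (x₂ : ℝ≥0∞) * D.om t x v * ga (1 / 4) v
  ring

theorem OK.hq_le_of (h : D.OK) {c : ℝ≥0∞} {t : ℝ} {x v : R3}
    (hF : dv F t x v ≤ D.Sg t x v + c * D.mw t x v) : D.hq x₂ F t x v ≤ c * D.om t x v := by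
  refine ENNReal.div_le_of_le_mul ((min_le_left _ _).trans ?_)
  have h1 : D.hd F t x v ≤ c * D.mw t x v := tsub_le_iff_left.2 hF
  refine h1.trans (le_of_eq ?_)
  show c * (ga (1 / 4) v * D.om t x v) = c * D.om t x v * ga (1 / 4) v
  ring

theorem OK.mul_hq_le (h : D.OK) (t : ℝ) (x v : R3) :
    ga (1 / 4) v * D.hq x₂ F t x v ≤ dv F t x v := by
  exact ENNReal.mul_div_le.trans ((min_le_left _ _).trans tsub_le_self)

theorem OK.dv_tr (h : D.OK) (t : ℝ) (x v : R3) :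
    dv (D.tr x₂ F) t x v ≤ D.Sg t x v + ga (1 / 4) v * D.hq x₂ F t x v := by
  have h1 : ga (1 / 4) v * D.hq x₂ F t x v = min (D.hd F t x v) (x₂ * D.mw t x v) :=
    ENNReal.mul_div_cancel (IIa_ga_ne_zero _ _) ENNReal.ofReal_ne_top
  rw [h1, ← min_add_add_left]
  have htr : D.tr x₂ F t x v = max (min (F t x v) (Mx v + D.Sg t x v + x₂ * D.mw t x v))
      (Mx v - (D.Sg t x v + x₂ * D.mw t x v)) := rfl
  refine le_min (le_trans ?_ (le_add_tsub (a := dv F t x v) (b := D.Sg t x v))) ?_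
  · obtain ⟨h2, h3⟩ := (le_of_dv (F := F) (t := t) (x := x) (v := v)).1 le_rfl
    rw [le_of_dv, htr]
    refine ⟨max_le ((min_le_left _ _).trans h2) (tsub_le_self.trans le_self_add), ?_⟩
    refine le_trans ?_ (add_le_add (le_max_left _ _) le_rfl)
    rw [← min_add_add_right]
    exact le_min h3 (by rw [add_assoc, add_assoc]; exact le_self_add)
  · rw [le_of_dv, htr]
    refine ⟨max_le ((min_le_right _ _).trans (by rw [add_assoc]))
      (tsub_le_self.trans le_self_add), ?_⟩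
    exact le_tsub_add.trans (add_le_add (le_max_right _ _) le_rfl)

theorem OK.tr_eq (h : D.OK) {t : ℝ} {x v : R3}
    (hF : dv F t x v ≤ D.Sg t x v + x₂ * D.mw t x v) : D.tr x₂ F t x v = F t x v := by
  obtain ⟨h2, h3⟩ := le_of_dv.1 hF
  show max (min (F t x v) (Mx v + D.Sg t x v + x₂ * D.mw t x v))
      (Mx v - (D.Sg t x v + x₂ * D.mw t x v)) = _
  rw [min_eq_left (by rwa [add_assoc]), max_eq_left (tsub_le_iff_right.2 h3)]

theorem tr_le_add {Δ : ℝ≥0∞} {t : ℝ} {x v : R3} (h : F t x v ≤ G t x v + Δ) :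
    D.tr x₂ F t x v ≤ D.tr x₂ G t x v + Δ := by
  show max (min (F t x v) (Mx v + D.Sg t x v + x₂ * D.mw t x v))
      (Mx v - (D.Sg t x v + x₂ * D.mw t x v)) ≤
    max (min (G t x v) (Mx v + D.Sg t x v + x₂ * D.mw t x v))
      (Mx v - (D.Sg t x v + x₂ * D.mw t x v)) + Δ
  refine max_le (le_trans ?_ (add_le_add (le_max_left _ _) le_rfl))
    ((le_max_right _ _).trans le_self_add)
  rw [← min_add_add_right]
  exact min_le_min h le_self_add

theorem ex_att (t s : ℝ) (hs : s ≤ t) (x v : R3) : ex (∫⁻ s' in Ioc s t, pa D.att t x v s') =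
    ENNReal.ofReal (Real.exp (-(D.ν / 2 * (1 + ‖v‖) * (t - s)))) := by
  have h1 : ∫⁻ s' in Ioc s t, pa D.att t x v s' =
      ENNReal.ofReal (D.ν / 2 * (1 + ‖v‖) * (t - s)) := by
    have h2 : ∀ s', pa D.att t x v s' = ENNReal.ofReal (D.ν / 2 * (1 + ‖v‖)) := fun s' =>
      IIa_att _ _ _
    simp only [h2]
    rw [setLIntegral_const, Real.volume_Ioc, ← ENNReal.ofReal_mul (by positivity)]
  rw [h1, ex_ofReal (mul_nonneg (by positivity) (sub_nonneg.2 hs))]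

theorem OK.ex_mw (h : D.OK) {t s : ℝ} (hs : D.t₁ ≤ s) (hst : s ≤ t) (x v : R3) :
    ex (∫⁻ s' in Ioc s t, pa D.att t x v s') * pa D.mw t x v s ≤
      D.Cw * ENNReal.ofReal (Real.exp (-(D.ν / 4 * (1 + ‖v‖) * (t - s)))) * D.mw t x v := by
  rw [ex_att t s hst]
  have h1 := h.om_pa t x v s hs hst
  have h2 : pa D.mw t x v s = ga (1 / 4) v * pa D.om t x v s := rfl
  have h3 : D.mw t x v = ga (1 / 4) v * D.om t x v := rfl
  have h4 : ENNReal.ofReal (Real.exp (-(D.ν / 2 * (1 + ‖v‖) * (t - s)))) *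
      ENNReal.ofReal (Real.exp (D.ν / 4 * (t - s))) ≤
      ENNReal.ofReal (Real.exp (-(D.ν / 4 * (1 + ‖v‖) * (t - s)))) := by
    rw [← ENNReal.ofReal_mul (Real.exp_pos _).le, ← Real.exp_add]
    refine ENNReal.ofReal_le_ofReal (Real.exp_le_exp.2 ?_)
    have : 0 ≤ (D.ν : ℝ) * ‖v‖ * (t - s) :=
      mul_nonneg (by positivity) (sub_nonneg.2 hst)
    nlinarith
  rw [h2, h3]
  calc _ ≤ ENNReal.ofReal (Real.exp (-(D.ν / 2 * (1 + ‖v‖) * (t - s)))) * (ga (1 / 4) v *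
        (D.Cw * ENNReal.ofReal (Real.exp (D.ν / 4 * (t - s))) * D.om t x v)) := by gcongr
    _ = D.Cw * (ENNReal.ofReal (Real.exp (-(D.ν / 2 * (1 + ‖v‖) * (t - s)))) *
        ENNReal.ofReal (Real.exp (D.ν / 4 * (t - s)))) * (ga (1 / 4) v * D.om t x v) := by ring
    _ ≤ _ := by gcongr

/-- `ls Mx ≤ ls (tr F) + ls Sg + x₂ ls mw`; `ν_le`, `LSg`, `adm_ls`. -/
theorem att_le (ν N Cw : ℝ≥0) (hν : 0 < ν) : ∃ x' : ℝ≥0, 0 < x' ∧ x' ≤ 1 ∧ ∀ D : P2, D.Par ν N Cw →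
    ∀ x₂ ≤ x', ∀ F, Meas F → ∀ t, D.t₁ ≤ t → ∀ x v, D.att t x v ≤ LS (D.tr x₂ F) t x v := by
  obtain ⟨K, hK⟩ := adm_ls N
  refine ⟨min 1 (ν / 8 * 3 / (K + 1)), lt_min one_pos (by positivity), min_le_left _ _,
    fun D hD x₂ hx F hF t ht x v => ?_⟩
  have h := hD.ok
  have hx' : x₂ * K ≤ ν / 8 * 3 := by
    have h1 := hx.trans (min_le_right _ _)
    rw [le_div_iff₀ (by positivity)] at h1
    exact le_trans (by gcongr; exact le_self_add) h1
  have mtr := (h.meas_tr (x₂ := x₂) hF).slice t x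
  have mS := h.rSg.meas.slice t x
  have mm := h.rmw.meas.slice t x
  have h1 : Mx ≤ D.tr x₂ F t x + (D.Sg t x + fun u => (x₂ : ℝ≥0∞) * D.mw t x u) := fun u =>
    le_tsub_add.trans (add_le_add le_sup_right le_rfl)
  have h2 := (h.ν_le v).trans (ls_mono h1 v)
  rw [ls_add mtr (mS.add (mm.const_mul _)), ls_add mS (mm.const_mul _), ls_mul _ mm] at h2
  have h3 : ls (D.mw t x) v ≤ K * br v :=
    (ls_mono (IIa_mw_le t x) v).trans (hK _ (hD.hN ▸ h.adm t x) v)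
  have h4 : ls (D.Sg t x) v ≤ (D.ν : ℝ≥0∞) / 8 * br v := h.LSg t ht x v
  have h5 : (D.ν : ℝ≥0∞) / 8 = ((ν / 8 : ℝ≥0) : ℝ≥0∞) := by
    rw [hD.hν, ENNReal.coe_div (by norm_num)]
    rfl
  have h6 : (D.ν : ℝ≥0∞) / 2 = ((ν / 2 : ℝ≥0) : ℝ≥0∞) := by
    rw [hD.hν, ENNReal.coe_div (by norm_num)]
    rfl
  show (D.ν : ℝ≥0∞) / 2 * br v ≤ ls (D.tr x₂ F t x) v
  rw [h6]
  have hfin : ((ν / 2 : ℝ≥0) : ℝ≥0∞) * br v ≠ ⊤ :=
    ENNReal.mul_ne_top ENNReal.coe_ne_top ENNReal.ofReal_ne_top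
  refine (ENNReal.add_le_add_iff_right hfin).1 ?_
  calc ((ν / 2 : ℝ≥0) : ℝ≥0∞) * br v + ((ν / 2 : ℝ≥0) : ℝ≥0∞) * br v = D.ν * br v := by
        rw [← add_mul, ← ENNReal.coe_add, add_halves, hD.hν]
    _ ≤ _ := h2
    _ ≤ ls (D.tr x₂ F t x) v + (((ν / 8 : ℝ≥0) : ℝ≥0∞) * br v + x₂ * (K * br v)) := by
        rw [← h5]
        gcongr
    _ ≤ ls (D.tr x₂ F t x) v +
          (((ν / 8 : ℝ≥0) : ℝ≥0∞) * br v + ((ν / 8 * 3 : ℝ≥0) : ℝ≥0∞) * br v) := by
        rw [← mul_assoc, ← ENNReal.coe_mul]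
        gcongr
    _ = _ := by
        rw [← add_mul, ← ENNReal.coe_add]
        congr 3
        ring

theorem OK.LS_tr_le (h : D.OK) (hx : x₂ ≤ 1) : ∃ C : ℝ≥0, ∀ F, ∀ t, D.t₁ ≤ t → ∀ x v,
    LS (D.tr x₂ F) t x v ≤ C * br v := by
  obtain ⟨K, hK⟩ := adm_ls D.N
  refine ⟨K + D.ν / 8 + K, fun F t ht x v => ?_⟩
  have mS := h.rSg.meas.slice t x
  have mm := h.rmw.meas.slice t x
  have h1 : D.tr x₂ F t x ≤ D.mw t x + D.Sg t x + D.mw t x := fun u => by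
    have h2 : Mx u ≤ D.mw t x u :=
      ((Mx_le u).trans (IIa_ga_anti (by norm_num) u)).trans (h.ga_le_mw t x u)
    have h3 : (x₂ : ℝ≥0∞) * D.mw t x u ≤ D.mw t x u :=
      mul_le_of_le_one_left' (by exact_mod_cast hx)
    show max (min (F t x u) (Mx u + D.Sg t x u + x₂ * D.mw t x u))
      (Mx u - (D.Sg t x u + x₂ * D.mw t x u)) ≤ D.mw t x u + D.Sg t x u + D.mw t x u
    refine max_le ((min_le_right _ _).trans (by gcongr)) (tsub_le_self.trans (h2.trans ?_))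
    rw [add_assoc]
    exact le_self_add
  have h3 : ls (D.mw t x) v ≤ K * br v := (ls_mono (IIa_mw_le t x) v).trans (hK _ (h.adm t x) v)
  have h4 : ls (D.Sg t x) v ≤ (D.ν : ℝ≥0∞) / 8 * br v := h.LSg t ht x v
  refine (ls_mono h1 v).trans ?_
  rw [ls_add (mm.add mS) mm, ls_add mm mS, ENNReal.coe_add, ENNReal.coe_add,
    ENNReal.coe_div (by norm_num), add_mul, add_mul]
  exact add_le_add (add_le_add h3 h4) h3

theorem IIa_gg (h : D.OK) {K : ℝ≥0} (hK : ∀ w, AdmW D.N w → ∀ β ∈ Icc (1 / 8 : ℝ) 4, ∀ v,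
    gn (fun u => ga β u * w u) (fun u => ga β u * w u) v ≤ K * br v * ga β v) {g : Fn} {c : ℝ≥0}
    (hg : Meas g) {s : ℝ} (hs : D.t₁ ≤ s) (y : R3) (hle : ∀ u, g s y u ≤ c * D.mw s y u) (v : R3) :
    gn (D.Sg s y + g s y) (D.Sg s y + g s y) v ≤
      D.Ps s y v + (1 + c) * (D.ρ s * D.mw s y v) + c ^ 2 * (K * br v * ga (1 / 4) v) := by
  have mS := h.rSg.meas.slice s y
  have mm := h.rmw.meas.slice s y
  rw [gn_add_add mS (hg.slice s y)]
  have h1 : gn (D.Sg s y) (D.Sg s y) v ≤ D.Ps s y v + D.ρ s * D.mw s y v := h.SS s hs y v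
  have h2 : 2 * gn (D.Sg s y) (D.mw s y) v ≤ D.ρ s * D.mw s y v := h.Sm s hs y v
  have h3 : gn (D.mw s y) (D.mw s y) v ≤ K * br v * ga (1 / 4) v :=
    hK _ (h.adm s y) (1 / 4) ⟨by norm_num, by norm_num⟩ v
  have h4 : gn (D.Sg s y) (g s y) v ≤ c * gn (D.Sg s y) (D.mw s y) v := by
    rw [← gn_mul_right _ mS mm]
    exact gn_mono le_rfl hle v
  have h5 : gn (g s y) (g s y) v ≤ c * (c * gn (D.mw s y) (D.mw s y) v) := by
    rw [← gn_mul_right _ mm mm, ← gn_mul_left _ mm (mm.const_mul _)]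
    exact gn_mono hle hle v
  calc _ ≤ gn (D.Sg s y) (D.Sg s y) v + 2 * (c * gn (D.Sg s y) (D.mw s y) v) +
        c * (c * gn (D.mw s y) (D.mw s y) v) := by gcongr
    _ = gn (D.Sg s y) (D.Sg s y) v + c * (2 * gn (D.Sg s y) (D.mw s y) v) +
        c ^ 2 * gn (D.mw s y) (D.mw s y) v := by ring
    _ ≤ D.Ps s y v + D.ρ s * D.mw s y v + c * (D.ρ s * D.mw s y v) +
        c ^ 2 * (K * br v * ga (1 / 4) v) := by gcongr
    _ = _ := by ring

/-- `PI Ps` is finite because `AI att (16 Ps) ≤ Sg` and the attenuation is bounded below. -/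
theorem OK.PI_GN_ne_top (h : D.OK) (c : ℝ≥0) {t : ℝ} (ht : D.t₁ ≤ t) (x v : R3) :
    PI (GN (D.Sg + (c : ℝ≥0∞) • D.mw) (D.Sg + (c : ℝ≥0∞) • D.mw)) D.t₁ t x v ≠ ⊤ := by
  obtain ⟨K, hK⟩ := adm_gn D.N
  set e₀ := ENNReal.ofReal (Real.exp (-(D.ν / 2 * (1 + ‖v‖) * (t - D.t₁)))) with he₀
  have hPs : PI D.Ps D.t₁ t x v ≠ ⊤ := by
    have h1 := h.Ps_le t ht x v
    rw [DU_eq] at h1
    have h2 : e₀ * PI D.Ps D.t₁ t x v ≤ AI D.att ((16 : ℝ≥0∞) • D.Ps) D.t₁ t x v := by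
      unfold PI AI
      rw [← lintegral_const_mul' _ _ ENNReal.ofReal_ne_top]
      refine setLIntegral_mono' measurableSet_Ioc fun s hs => mul_le_mul' ?_ ?_
      · rw [ex_att t s hs.2]
        refine ENNReal.ofReal_le_ofReal (Real.exp_le_exp.2 (neg_le_neg ?_))
        exact mul_le_mul_of_nonneg_left (by linarith [hs.1]) (by positivity)
      · show pa D.Ps t x v s ≤ 16 * pa D.Ps t x v s
        exact le_mul_of_one_le_left' (by norm_num)
    have h3 : e₀ * PI D.Ps D.t₁ t x v ≠ ⊤ :=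
      ne_top_of_le_ne_top (h.rSg.fin t x v) (h2.trans (le_add_self.trans h1))
    intro h4
    rw [h4, ENNReal.mul_top (ENNReal.ofReal_pos.2 (Real.exp_pos _)).ne'] at h3
    exact h3 rfl
  set B : ℝ≥0∞ := ga (1 / 4) v *
    (D.Cw * ENNReal.ofReal (Real.exp (D.ν / 4 * (t - D.t₁))) * D.om t x v) with hB
  have hBf : B ≠ ⊤ := ENNReal.mul_ne_top ENNReal.ofReal_ne_top
    (ENNReal.mul_ne_top (ENNReal.mul_ne_top ENNReal.coe_ne_top ENNReal.ofReal_ne_top)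
      (h.rom.fin t x v))
  set C : ℝ≥0∞ := (1 + c) * (D.K * B) + c ^ 2 * (K * br v * ga (1 / 4) v) with hC
  have hCf : C ≠ ⊤ := by
    have : br v ≠ ⊤ := ENNReal.ofReal_ne_top
    have : ga (1 / 4) v ≠ ⊤ := ENNReal.ofReal_ne_top
    rw [hC]
    finiteness
  have key : ∀ s ∈ Ioc D.t₁ t,
      pa (GN (D.Sg + (c : ℝ≥0∞) • D.mw) (D.Sg + (c : ℝ≥0∞) • D.mw)) t x v s ≤
        pa D.Ps t x v s + C := by
    intro s hs
    have h1 := IIa_gg h hK (g := (c : ℝ≥0∞) • D.mw) (c := c) (h.rmw.meas.smul _) hs.1.le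
      (x - (t - s) • v) (fun u => le_rfl) v
    refine h1.trans ?_
    have h2 : D.mw s (x - (t - s) • v) v ≤ B := by
      show ga (1 / 4) v * pa D.om t x v s ≤ B
      rw [hB]
      gcongr
      refine (h.om_pa t x v s hs.1.le hs.2).trans ?_
      gcongr
      exact hs.1.le
    have h3 : (D.ρ s : ℝ≥0∞) ≤ D.K := by exact_mod_cast h.ρ_le s
    rw [hC, add_assoc]
    unfold pa
    gcongr
  refine ne_top_of_le_ne_top ?_ (setLIntegral_mono' measurableSet_Ioc key)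
  rw [lintegral_add_right _ measurable_const, setLIntegral_const, Real.volume_Ioc]
  exact ENNReal.add_ne_top.2 ⟨hPs, ENNReal.mul_ne_top hCf ENNReal.ofReal_ne_top⟩

/-- `adm_kk`. -/
theorem opK_le (N : ℝ≥0) : ∃ K : ℝ≥0, ∀ D : P2, D.OK → D.N = N → ∀ (f : Fn) (j : ℝ → ℝ≥0∞) t x v,
    (∀ s ∈ Ioc D.t₁ t, ∀ y u, f s y u ≤ j s * D.om s y u) → D.opK f t x v ≤
      K * ∫⁻ s in Ioc D.t₁ t,
        ENNReal.ofReal (Real.exp (-(D.ν / 2 * (1 + ‖v‖) * (t - s)))) * j s := by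
  obtain ⟨K, hK⟩ := adm_kk N
  refine ⟨K, fun D h hN f j t x v hf => ?_⟩
  rw [← lintegral_const_mul' _ _ ENNReal.coe_ne_top]
  refine setLIntegral_mono' measurableSet_Ioc fun s hs => ?_
  rw [ex_att t s hs.2, mul_left_comm]
  refine mul_le_mul' le_rfl ?_
  have hm : Measurable fun u => kk (v - u) * D.om s (x - (t - s) • v) u :=
    (measurable_kk.comp (measurable_const.sub measurable_id)).mul (h.rom.meas.slice _ _)
  calc ∫⁻ u, kk (v - u) * f s (x - (t - s) • v) u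
      ≤ ∫⁻ u, j s * (kk (v - u) * D.om s (x - (t - s) • v) u) := by
        refine lintegral_mono fun u => ?_
        rw [mul_left_comm]
        exact mul_le_mul' le_rfl (hf s hs _ u)
    _ = j s * ∫⁻ u, kk (v - u) * D.om s (x - (t - s) • v) u := lintegral_const_mul _ hm
    _ ≤ j s * K := mul_le_mul' le_rfl (hK _ (hN ▸ h.adm _ _) v)
    _ = _ := mul_comm _ _

/-- The basic inequality.  `M = duh M a (M a)` for `a = LS (tr F)` (`duh_const`); `duh_le_add` with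
`gn_lin` (`g = Sg + m hq`), `init₁`, `init₂`; replace `a` by `att`.  The source is at most
`Ps + 3 ρ mw + x₂² K br m + K m ∫ kk hq` (`MS`, `SS`, `Sm`, `adm_gn`, `grad_kernel`); `Ps_le`,
`ex_mw`, `ρ_int`. -/
theorem Phi_dv (ν N Cw : ℝ≥0) (hν : 0 < ν) : ∃ x' K : ℝ≥0, 0 < x' ∧ x' ≤ 1 ∧ ∀ D : P2, D.Par ν N Cw →
    ∀ x₂ ≤ x', ∀ F, Meas F → ∀ t, D.t₁ ≤ t → ∀ x v,
      dv (D.Phi x₂ F) t x v ≤ D.Sg t x v + (4 * Cw * D.ε₂ + K * x₂ ^ 2) * D.mw t x v +
        K * ga (1 / 4) v * D.opK (D.hq x₂ F) t x v := by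
  obtain ⟨x', hx0, hx1, hatt⟩ := att_le ν N Cw hν
  obtain ⟨K₁, hK₁⟩ := adm_gn N
  obtain ⟨K₂, hK₂⟩ := grad_kernel
  refine ⟨x', K₁ * (2 / ν) + K₂, hx0, hx1, fun D hD x₂ hx F hF t ht x v => ?_⟩
  have h := hD.ok
  have hx2 : x₂ ≤ 1 := hx.trans hx1
  obtain ⟨C, hC⟩ := h.LS_tr_le hx2
  have mtr := h.meas_tr (x₂ := x₂) hF
  have mhq := h.meas_hq (x₂ := x₂) hF
  set a := pa (LS (D.tr x₂ F)) t x v with ha
  set q := pa (GN (D.tr x₂ F) (D.tr x₂ F)) t x v with hq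
  have ma : Measurable a := mtr.LS.pa t x v
  have mq : Measurable q := (mtr.GN mtr).pa t x v
  have fa : ∫⁻ s in Ioc D.t₁ t, a s ≠ ⊤ := by
    refine ne_top_of_le_ne_top ?_ (setLIntegral_mono' (g := fun _ => (C : ℝ≥0∞) * br v)
      measurableSet_Ioc fun s hs => hC F s hs.1.le _ v)
    rw [setLIntegral_const, Real.volume_Ioc]
    exact ENNReal.mul_ne_top (ENNReal.mul_ne_top ENNReal.coe_ne_top ENNReal.ofReal_ne_top)
      ENNReal.ofReal_ne_top
  have hM := duh_const ma fa ht (Mx v)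
  set hh : Fn := vl (ga (1 / 4)) * D.hq x₂ F with hhh
  have mhh : Meas hh := (meas_vl (measurable_ga _)).mul mhq
  set Kq : Fn := fun s y v => ∫⁻ u, kk (v - u) * D.hq x₂ F s y u with hKq
  have mKq : Meas Kq := IIa_meas_K mhq
  set R : ℝ → ℝ≥0∞ := fun s => pa D.Ps t x v s + 3 * (D.ρ s * pa D.mw t x v s) +
    x₂ ^ 2 * (K₁ * br v * ga (1 / 4) v) + K₂ * ga (1 / 4) v * pa Kq t x v s with hR
  have hlin : ∀ s ∈ Ioc D.t₁ t, q s ≤ Mx v * a s + R s ∧ Mx v * a s ≤ q s + R s := by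
    intro s hs
    set y := x - (t - s) • v with hy
    have mS := h.rSg.meas.slice s y
    have mh := mhh.slice s y
    have h1 := gn_lin (mtr.slice s y) (mS.add mh) (g := D.Sg s y + hh s y)
      (fun u => (le_of_dv.1 (h.dv_tr s y u)).1) (fun u => (le_of_dv.1 (h.dv_tr s y u)).2) v
    have h2 : 2 * gn Mx (D.Sg s y + hh s y) v + gn (D.Sg s y + hh s y) (D.Sg s y + hh s y) v +
        Mx v * ls (D.Sg s y + hh s y) v ≤ R s := by
      have h3 := IIa_gg h (hD.hN ▸ hK₁) (g := hh) (c := x₂) mhh hs.1.le y (fun u => by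
        show ga (1 / 4) u * D.hq x₂ F s y u ≤ x₂ * (ga (1 / 4) u * D.om s y u)
        rw [mul_left_comm]
        exact mul_le_mul' le_rfl (h.hq_le F s y u)) v
      have h4 : 2 * gn Mx (D.Sg s y) v + Mx v * ls (D.Sg s y) v ≤ D.ρ s * D.mw s y v :=
        h.MS s hs.1.le y v
      have h5 : 2 * gn Mx (hh s y) v + Mx v * ls (hh s y) v ≤ K₂ * ga (1 / 4) v * Kq s y v :=
        hK₂ _ (mhq.slice s y) v
      have h6 : (1 + x₂ : ℝ≥0∞) ≤ 2 := by
        rw [← one_add_one_eq_two]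
        gcongr
        exact_mod_cast hx2
      rw [gn_add_right measurable_Mx mS mh, ls_add mS mh]
      calc _ = (2 * gn Mx (D.Sg s y) v + Mx v * ls (D.Sg s y) v) +
            (2 * gn Mx (hh s y) v + Mx v * ls (hh s y) v) +
            gn (D.Sg s y + hh s y) (D.Sg s y + hh s y) v := by ring
        _ ≤ D.ρ s * D.mw s y v + K₂ * ga (1 / 4) v * Kq s y v +
            (D.Ps s y v + 2 * (D.ρ s * D.mw s y v) + x₂ ^ 2 * (K₁ * br v * ga (1 / 4) v)) :=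
            add_le_add (add_le_add h4 h5) (h3.trans (by gcongr))
        _ = R s := by
            simp only [hR, pa]
            ring
    exact ⟨h1.1.trans (add_le_add le_rfl h2), h1.2.trans (add_le_add le_rfl h2)⟩
  set y₀ := x - (t - D.t₁) • v with hy₀
  set d := D.Sg D.t₁ y₀ v + D.ε₂ * D.mw D.t₁ y₀ v with hd
  have hPhi : D.Phi x₂ F t x v = duh (D.F₁ D.t₁ y₀ v) a q D.t₁ t := rfl
  have b1 := duh_le_add (u := D.F₁ D.t₁ y₀ v) (u' := Mx v) (d := d) (q := q) (ρ := R) (r := D.t₁)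
    (t := t) ma (ma.const_mul (Mx v)) (by rw [hd, ← add_assoc]; exact h.init₁ y₀ v)
    fun s hs => (hlin s hs).1
  have b2 := duh_le_add (u := Mx v) (u' := D.F₁ D.t₁ y₀ v) (d := d) (q := fun s => Mx v * a s)
    (ρ := R) (r := D.t₁) (t := t) ma mq (by rw [hd, ← add_assoc]; exact h.init₂ y₀ v)
    fun s hs => (hlin s hs).2
  rw [hM, ← hPhi] at b1 b2
  have b3 : dv (D.Phi x₂ F) t x v ≤ duh d (pa D.att t x v) R D.t₁ t :=
    (le_of_dv.2 ⟨b1, b2⟩).trans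
      (duh_mono le_rfl (fun s hs => hatt D hD x₂ hx F hF s hs.1.le _ v) fun s _ => le_rfl)
  refine b3.trans ?_
  set e : ℝ → ℝ≥0∞ := fun s => ex (∫⁻ s' in Ioc s t, pa D.att t x v s') with he
  have matt : Measurable (pa D.att t x v) := IIa_meas_att.pa t x v
  have me : Measurable e := measurable_ex.comp (measurable_lintegral_Ioc_left matt t)
  have mPs := h.mPs.pa t x v
  have mmw := h.rmw.meas.pa t x v
  have mρ : Measurable fun s => (D.ρ s : ℝ≥0∞) := h.mρ.coe_nnreal_ennreal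
  have hexp : ∀ s, s ≤ t → ENNReal.ofReal (Real.exp (-(D.ν / 4 * (1 + ‖v‖) * (t - s)))) ≤ 1 := by
    intro s hs
    rw [ENNReal.ofReal_le_one, Real.exp_le_one_iff, neg_nonpos]
    exact mul_nonneg (by positivity) (sub_nonneg.2 hs)
  have hemw : ∀ s, D.t₁ ≤ s → s ≤ t → e s * pa D.mw t x v s ≤ Cw * D.mw t x v := by
    intro s h1 h2
    refine (h.ex_mw h1 h2 x v).trans ?_
    rw [hD.hCw]
    gcongr
    exact mul_le_of_le_one_right' (hexp s h2)
  have c1 : D.Sg D.t₁ y₀ v * e D.t₁ + ∫⁻ s in Ioc D.t₁ t, e s * pa D.Ps t x v s ≤ D.Sg t x v := by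
    refine le_trans ?_ (h.Ps_le t ht x v)
    refine add_le_add le_rfl (lintegral_mono fun s => mul_le_mul' le_rfl ?_)
    show pa D.Ps t x v s ≤ 16 * pa D.Ps t x v s
    exact le_mul_of_one_le_left' (by norm_num)
  have c2 : D.mw D.t₁ y₀ v * e D.t₁ ≤ Cw * D.mw t x v := by
    rw [mul_comm]
    exact hemw D.t₁ le_rfl ht
  have c3 : ∫⁻ s in Ioc D.t₁ t, e s * (3 * (D.ρ s * pa D.mw t x v s)) ≤
      3 * (Cw * D.mw t x v) * D.ε₂ := by
    calc _ ≤ ∫⁻ s in Ioc D.t₁ t, 3 * (Cw * D.mw t x v) * D.ρ s := by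
          refine setLIntegral_mono' measurableSet_Ioc fun s hs => ?_
          calc e s * (3 * (D.ρ s * pa D.mw t x v s)) = 3 * (e s * pa D.mw t x v s) * D.ρ s := by
                ring
            _ ≤ _ := mul_le_mul' (mul_le_mul' le_rfl (hemw s hs.1.le hs.2)) le_rfl
      _ = 3 * (Cw * D.mw t x v) * ∫⁻ s in Ioc D.t₁ t, D.ρ s := lintegral_const_mul _ mρ
      _ ≤ _ := mul_le_mul' le_rfl ((lintegral_mono_set Ioc_subset_Ioi_self).trans h.ρ_int)
  have c4 : ∫⁻ s in Ioc D.t₁ t, e s * (x₂ ^ 2 * (K₁ * br v * ga (1 / 4) v)) ≤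
      ((K₁ * (2 / ν) : ℝ≥0) : ℝ≥0∞) * x₂ ^ 2 * D.mw t x v := by
    have h1 : ∀ s, br v = ((2 / ν : ℝ≥0) : ℝ≥0∞) * pa D.att t x v s := by
      intro s
      show br v = ((2 / ν : ℝ≥0) : ℝ≥0∞) * ((D.ν : ℝ≥0∞) / 2 * br v)
      have h6 : (D.ν : ℝ≥0∞) / 2 = ((ν / 2 : ℝ≥0) : ℝ≥0∞) := by
        rw [hD.hν, ENNReal.coe_div (by norm_num)]
        rfl
      have h7 : 2 / ν * (ν / 2) = 1 := by
        have := hν.ne'
        field_simp
      rw [h6, ← mul_assoc, ← ENNReal.coe_mul, h7, ENNReal.coe_one, one_mul]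
    calc _ = ∫⁻ s in Ioc D.t₁ t, ((K₁ * (2 / ν) : ℝ≥0) : ℝ≥0∞) * x₂ ^ 2 * ga (1 / 4) v *
            (e s * pa D.att t x v s) := by
          refine lintegral_congr fun s => ?_
          rw [h1 s, ENNReal.coe_mul]
          ring
      _ = ((K₁ * (2 / ν) : ℝ≥0) : ℝ≥0∞) * x₂ ^ 2 * ga (1 / 4) v *
            ∫⁻ s in Ioc D.t₁ t, e s * pa D.att t x v s := lintegral_const_mul _ (me.mul matt)
      _ ≤ ((K₁ * (2 / ν) : ℝ≥0) : ℝ≥0∞) * x₂ ^ 2 * D.mw t x v * 1 :=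
          mul_le_mul' (mul_le_mul' le_rfl (h.ga_le_mw t x v)) (lintegral_ex_mul_le_one matt _ _)
      _ = _ := mul_one _
  have c5 : ∫⁻ s in Ioc D.t₁ t, e s * (K₂ * ga (1 / 4) v * pa Kq t x v s) =
      K₂ * ga (1 / 4) v * D.opK (D.hq x₂ F) t x v := by
    show _ = K₂ * ga (1 / 4) v * ∫⁻ s in Ioc D.t₁ t, e s * pa Kq t x v s
    rw [← lintegral_const_mul _ (me.fun_mul (mKq.pa t x v))]
    exact lintegral_congr fun s => mul_left_comm _ _ _
  have c6 : ∫⁻ s in Ioc D.t₁ t, e s * R s =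
      (∫⁻ s in Ioc D.t₁ t, e s * pa D.Ps t x v s) +
      (∫⁻ s in Ioc D.t₁ t, e s * (3 * (D.ρ s * pa D.mw t x v s))) +
      (∫⁻ s in Ioc D.t₁ t, e s * (x₂ ^ 2 * (K₁ * br v * ga (1 / 4) v))) +
      ∫⁻ s in Ioc D.t₁ t, e s * (K₂ * ga (1 / 4) v * pa Kq t x v s) := by
    have m1 : Measurable fun s => e s * pa D.Ps t x v s := me.mul mPs
    have m2 : Measurable fun s => e s * (3 * (D.ρ s * pa D.mw t x v s)) :=
      me.mul ((mρ.mul mmw).const_mul _)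
    have m3 : Measurable fun s => e s * (x₂ ^ 2 * (K₁ * br v * ga (1 / 4) v)) :=
      me.mul_const _
    rw [← lintegral_add_left m1, ← lintegral_add_left (m1.fun_add m2),
      ← lintegral_add_left ((m1.fun_add m2).fun_add m3)]
    refine lintegral_congr fun s => ?_
    simp only [hR]
    ring
  show d * e D.t₁ + ∫⁻ s in Ioc D.t₁ t, e s * R s ≤ _
  rw [c6, c5, hd]
  calc _ = (D.Sg D.t₁ y₀ v * e D.t₁ + ∫⁻ s in Ioc D.t₁ t, e s * pa D.Ps t x v s) +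
        (D.ε₂ * (D.mw D.t₁ y₀ v * e D.t₁) +
        (∫⁻ s in Ioc D.t₁ t, e s * (3 * (D.ρ s * pa D.mw t x v s))) +
        ∫⁻ s in Ioc D.t₁ t, e s * (x₂ ^ 2 * (K₁ * br v * ga (1 / 4) v))) +
        K₂ * ga (1 / 4) v * D.opK (D.hq x₂ F) t x v := by ring
    _ ≤ D.Sg t x v + (D.ε₂ * (Cw * D.mw t x v) + 3 * (Cw * D.mw t x v) * D.ε₂ +
        ((K₁ * (2 / ν) + K₂ : ℝ≥0) : ℝ≥0∞) * x₂ ^ 2 * D.mw t x v) +
        ((K₁ * (2 / ν) + K₂ : ℝ≥0) : ℝ≥0∞) * ga (1 / 4) v * D.opK (D.hq x₂ F) t x v := by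
        gcongr
        · refine c4.trans ?_
          gcongr
          exact le_self_add
        · exact le_add_self
    _ = _ := by ring

end P2

end Crest.Agent.R68
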