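/-
R68/IIb: global existence for the truncated problem
Skeleton by helper76 (row 68); keep the statements unchanged, add any helper lemmas you like.
-/
import Crest.Agent.R68.IIa
import Crest.Agent.R68.PB
import Crest.Agent.R68.Soft

set_option autoImplicit false
set_option linter.unusedVariables false
set_option linter.unusedSectionVars false

noncomputable section

namespace Crest.Agent.R68

open MeasureTheory Set Filter Topology
open scoped ENNReal NNReal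
open Crest.AnalysisR.VecCalc3 Crest.AnalysisR.PDE.Boltzmann

namespace P2

variable {D : P2}

/-- the weight of the contraction argument -/
def Z (D : P2) (Λ : ℝ) : Fn := tm (fun t => Real.exp (Λ * t)) * (D.Sg + D.mw)

theorem IIb_const_Ioc (c : ℝ≥0∞) (r t : ℝ) :
    ∫⁻ _ in Ioc r t, c = c * ENNReal.ofReal (t - r) := by
  rw [setLIntegral_const, Real.volume_Ioc]

/-- `∫ κ exp (-κ (t - s)) ds ≤ 1`. -/
theorem IIb_exp_int {κ : ℝ} (hκ : 0 ≤ κ) (r t : ℝ) :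
    ∫⁻ s in Ioc r t, ENNReal.ofReal κ * ENNReal.ofReal (Real.exp (-(κ * (t - s)))) ≤ 1 := by
  refine le_trans (le_of_eq ?_)
    (lintegral_ex_mul_le_one (a := fun _ => ENNReal.ofReal κ) measurable_const r t)
  refine setLIntegral_congr_fun measurableSet_Ioc fun s hs => ?_
  have h1 : 0 ≤ t - s := sub_nonneg.2 hs.2
  show _ = ex (∫⁻ _ in Ioc s t, ENNReal.ofReal κ) * ENNReal.ofReal κ
  rw [IIb_const_Ioc, ← ENNReal.ofReal_mul (q := t - s) hκ, ex_ofReal (mul_nonneg hκ h1), mul_comm]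

theorem IIb_meas_exp (κ t : ℝ) :
    Measurable fun s : ℝ => ENNReal.ofReal κ * ENNReal.ofReal (Real.exp (-(κ * (t - s)))) := by
  fun_prop

theorem IIb_ga_anti {β β' : ℝ} (h : β ≤ β') (v : R3) : ga β' v ≤ ga β v := by
  unfold ga
  refine ENNReal.ofReal_le_ofReal (Real.exp_le_exp.2 ?_)
  have : 0 ≤ ‖v‖ ^ 2 := by positivity
  nlinarith

theorem OK.IIb_Mx_le (h : D.OK) (t : ℝ) (x v : R3) : Mx v ≤ D.mw t x v :=
  (Mx_le v).trans ((IIb_ga_anti (by norm_num) v).trans (h.ga_le_mw t x v))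

theorem IIb_tr_le (D : P2) (x₂ : ℝ≥0) (F : Fn) :
    D.tr x₂ F ≤ vl Mx + D.Sg + (x₂ : ℝ≥0∞) • D.mw :=
  sup_le inf_le_right (tsub_le_self.trans (le_self_add.trans le_self_add))

theorem OK.IIb_mE (h : D.OK) (c : ℝ≥0∞) : Meas (vl Mx + D.Sg + c • D.mw) :=
  ((meas_vl measurable_Mx).add h.rSg.meas).add (h.rmw.meas.smul c)

theorem IIb_meas_att (D : P2) : Meas D.att := (meas_vl measurable_br).smul _

theorem OK.IIb_rZ (h : D.OK) (Λ : ℝ) : Reg (D.Z Λ) :=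
  (reg_tm (by fun_prop)).mul (h.rSg.add h.rmw)

theorem OK.IIb_PI_gain (h : D.OK) (x₂ : ℝ≥0) (F : Fn) {t : ℝ} (ht : D.t₁ ≤ t) (x v : R3) :
    ∫⁻ s in Ioc D.t₁ t, pa (GN (D.tr x₂ F) (D.tr x₂ F)) t x v s ≠ ⊤ := by
  refine ne_top_of_le_ne_top (h.PI_GN_ne_top (x₂ + 1) ht x v) (lintegral_mono fun s => ?_)
  have h1 : ∀ y, D.tr x₂ F s y ≤ (D.Sg + ((x₂ + 1 : ℝ≥0) : ℝ≥0∞) • D.mw) s y := by
    intro y u
    refine (IIb_tr_le D x₂ F s y u).trans ?_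
    show Mx u + D.Sg s y u + x₂ * D.mw s y u ≤ D.Sg s y u + ((x₂ + 1 : ℝ≥0) : ℝ≥0∞) * D.mw s y u
    calc Mx u + D.Sg s y u + x₂ * D.mw s y u ≤ D.mw s y u + D.Sg s y u + x₂ * D.mw s y u := by
          gcongr; exact h.IIb_Mx_le s y u
      _ = _ := by push_cast; ring
  exact gn_mono (h1 _) (h1 _) v

/-- The pointwise bound of the source of the linearised map. -/
theorem IIb_src (ν N : ℝ≥0) : ∃ C₂ : ℝ≥0, ∀ D : P2, D.OK → D.ν = ν → D.N = N → ∃ C₁ C₃ : ℝ≥0,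
    ∀ c : ℝ≥0, c ≤ 1 → ∀ s, D.t₁ ≤ s → ∀ y v,
      2 * GN (vl Mx + D.Sg + (c : ℝ≥0∞) • D.mw) (D.Sg + D.mw) s y v +
        (vl Mx + D.Sg + (c : ℝ≥0∞) • D.mw) s y v * LS (D.Sg + D.mw) s y v ≤
      2 * D.Ps s y v + C₁ * D.mw s y v + c * C₂ * (br v * D.mw s y v) + C₃ * D.Sg s y v := by
  obtain ⟨Ka, hKa⟩ := adm_gn N
  obtain ⟨Kl, hKl⟩ := adm_ls N
  obtain ⟨Kk, hKk⟩ := adm_kk N
  obtain ⟨Kg, hKg⟩ := grad_kernel
  refine ⟨2 * Ka + ν / 8 + Kl, fun D h hν hN =>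
    ⟨5 * D.K + Kg * Kk + (ν / 8 + Kl) * D.K, (ν / 8 + Kl) * 4, fun c hc s hs y v => ?_⟩⟩
  have mM : Meas (vl Mx) := meas_vl measurable_Mx
  have mS := h.rSg.meas
  have mw := h.rmw.meas
  have hadm : AdmW N (D.om s y) := hN ▸ h.adm s y
  have hc' : (c : ℝ≥0∞) ≤ 1 := by exact_mod_cast hc
  have hρ : (D.ρ s : ℝ≥0∞) ≤ D.K := by exact_mod_cast h.ρ_le s
  have hν8 : ((ν / 8 : ℝ≥0) : ℝ≥0∞) = (D.ν : ℝ≥0∞) / 8 := by
    rw [hν, ENNReal.coe_div (by norm_num)]; rfl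
  have e1 : GN (vl Mx + D.Sg + (c : ℝ≥0∞) • D.mw) (D.Sg + D.mw) =
      GN (vl Mx) D.Sg + GN (vl Mx) D.mw + (GN D.Sg D.Sg + GN D.Sg D.mw) +
        (c : ℝ≥0∞) • (GN D.Sg D.mw + GN D.mw D.mw) := by
    rw [GN_add_left (mM.add mS) (mw.smul _) (mS.add mw), GN_add_left mM mS (mS.add mw),
      GN_smul_left mw (mS.add mw), GN_add_right mM mS mw, GN_add_right mS mS mw,
      GN_add_right mw mS mw, GN_comm mw mS]
  have b1 := (h.MS s hs y v).trans (mul_le_mul' hρ le_rfl)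
  have b2 : 2 * GN (vl Mx) D.mw s y v + Mx v * LS D.mw s y v ≤ Kg * Kk * D.mw s y v := by
    refine (hKg (D.om s y) hadm.measurable v).trans ?_
    calc (Kg : ℝ≥0∞) * ga (1 / 4) v * ∫⁻ u, kk (v - u) * D.om s y u
        ≤ Kg * D.mw s y v * Kk := mul_le_mul' (mul_le_mul' le_rfl (h.ga_le_mw s y v)) (hKk _ hadm v)
      _ = _ := by ring
  have b3 : GN D.Sg D.Sg s y v ≤ D.Ps s y v + D.K * D.mw s y v :=
    (h.SS s hs y v).trans (add_le_add le_rfl (mul_le_mul' hρ le_rfl))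
  have b4 := (h.Sm s hs y v).trans (mul_le_mul' hρ le_rfl)
  have b5 : GN D.mw D.mw s y v ≤ Ka * br v * D.mw s y v :=
    (hKa _ hadm (1 / 4) ⟨by norm_num, by norm_num⟩ v).trans (mul_le_mul' le_rfl (h.ga_le_mw s y v))
  have b6 : LS D.Sg s y v ≤ ((ν / 8 : ℝ≥0) : ℝ≥0∞) * br v := hν8 ▸ h.LSg s hs y v
  have b7 : LS D.mw s y v ≤ Kl * br v := by
    refine le_trans (ls_mono (fun u => ?_) v) (hKl _ hadm v)
    exact mul_le_mul' (IIb_ga_anti (by norm_num) u) le_rfl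
  have b8 : br v * D.Sg s y v ≤ 4 * D.Sg s y v + D.K * D.mw s y v :=
    (h.Sg_br s y v).trans (add_le_add le_rfl (mul_le_mul' le_rfl (h.ga_le_mw s y v)))
  rw [e1, LS_add mS mw]
  show 2 * (GN (vl Mx) D.Sg s y v + GN (vl Mx) D.mw s y v + (GN D.Sg D.Sg s y v + GN D.Sg D.mw s y v) +
      c * (GN D.Sg D.mw s y v + GN D.mw D.mw s y v)) +
    (Mx v + D.Sg s y v + c * D.mw s y v) * (LS D.Sg s y v + LS D.mw s y v) ≤ _
  calc _ = (2 * GN (vl Mx) D.Sg s y v + Mx v * LS D.Sg s y v) +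
        (2 * GN (vl Mx) D.mw s y v + Mx v * LS D.mw s y v) + 2 * GN D.Sg D.Sg s y v +
        2 * GN D.Sg D.mw s y v + c * (2 * GN D.Sg D.mw s y v) + c * (2 * GN D.mw D.mw s y v) +
        D.Sg s y v * (LS D.Sg s y v + LS D.mw s y v) +
        c * (D.mw s y v * (LS D.Sg s y v + LS D.mw s y v)) := by ring
    _ ≤ D.K * D.mw s y v + Kg * Kk * D.mw s y v + 2 * (D.Ps s y v + D.K * D.mw s y v) +
        D.K * D.mw s y v + 1 * (D.K * D.mw s y v) + c * (2 * (Ka * br v * D.mw s y v)) +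
        D.Sg s y v * (((ν / 8 : ℝ≥0) : ℝ≥0∞) * br v + Kl * br v) +
        c * (D.mw s y v * (((ν / 8 : ℝ≥0) : ℝ≥0∞) * br v + Kl * br v)) := by gcongr
    _ = 2 * D.Ps s y v + (5 * D.K + Kg * Kk) * D.mw s y v +
        c * (2 * Ka + ((ν / 8 : ℝ≥0) : ℝ≥0∞) + Kl) * (br v * D.mw s y v) +
        (((ν / 8 : ℝ≥0) : ℝ≥0∞) + Kl) * (br v * D.Sg s y v) := by ring
    _ ≤ 2 * D.Ps s y v + (5 * D.K + Kg * Kk) * D.mw s y v +
        c * (2 * Ka + ((ν / 8 : ℝ≥0) : ℝ≥0∞) + Kl) * (br v * D.mw s y v) +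
        (((ν / 8 : ℝ≥0) : ℝ≥0∞) + Kl) * (4 * D.Sg s y v + D.K * D.mw s y v) := by gcongr
    _ = _ := by
        simp only [ENNReal.coe_add, ENNReal.coe_mul, ENNReal.coe_ofNat]
        ring

theorem IIb_quarter {a : ℝ≥0} {b : ℝ} (h : 4 * (a : ℝ) ≤ b) :
    (a : ℝ≥0∞) ≤ 4⁻¹ * ENNReal.ofReal b := by
  have e : (4⁻¹ : ℝ≥0∞) = ENNReal.ofReal 4⁻¹ := by
    rw [ENNReal.ofReal_inv_of_pos (by norm_num)]; simp
  rw [e, ← ENNReal.ofReal_mul (by norm_num), ← ENNReal.ofReal_coe_nnreal]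
  exact ENNReal.ofReal_le_ofReal (by linarith)

/-- `Phi_dv`, `hq_le`, `opK_le`. -/
theorem Phi_bd (ν N Cw : ℝ≥0) (hν : 0 < ν) : ∃ x' C : ℝ≥0, 0 < x' ∧ x' ≤ 1 ∧ ∀ D : P2,
    D.Par ν N Cw → ∀ x₂ ≤ x', D.ε₂ ≤ x₂ → ∀ F, Meas F → ∀ t, D.t₁ ≤ t → ∀ x v,
      dv (D.Phi x₂ F) t x v ≤ D.Sg t x v + C * x₂ * D.mw t x v := by
  obtain ⟨x', K, hx0, hx1, H⟩ := Phi_dv ν N Cw hν
  obtain ⟨K', hK'⟩ := opK_le N
  refine ⟨x', 4 * Cw + K + K * K' * (2 / ν), hx0, hx1, fun D hD x₂ hx₂ hε F hF t ht x v => ?_⟩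
  have h := hD.ok
  have hνr : (0 : ℝ) < ν := hν
  have h1 := hK' D h hD.hN (D.hq x₂ F) (fun _ => (x₂ : ℝ≥0∞)) t x v
    (fun s _ y u => h.hq_le F s y u)
  have h2 : ∫⁻ s in Ioc D.t₁ t, ENNReal.ofReal (Real.exp (-(D.ν / 2 * (1 + ‖v‖) * (t - s)))) *
      (x₂ : ℝ≥0∞) ≤ ((2 / ν : ℝ≥0) : ℝ≥0∞) * x₂ := by
    calc _ ≤ ∫⁻ s in Ioc D.t₁ t, (((2 / ν : ℝ≥0) : ℝ≥0∞) * x₂) *
          (ENNReal.ofReal (ν / 2) * ENNReal.ofReal (Real.exp (-(ν / 2 * (t - s))))) := by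
          refine setLIntegral_mono' measurableSet_Ioc fun s hs => ?_
          have e : ((2 / ν : ℝ≥0) : ℝ≥0∞) * ENNReal.ofReal (ν / 2) = 1 := by
            rw [← ENNReal.ofReal_coe_nnreal, ← ENNReal.ofReal_mul (NNReal.coe_nonneg _)]
            push_cast
            rw [div_mul_div_cancel₀ hνr.ne']
            simp
          have e2 : ENNReal.ofReal (Real.exp (-(D.ν / 2 * (1 + ‖v‖) * (t - s)))) ≤
              ENNReal.ofReal (Real.exp (-(ν / 2 * (t - s)))) := by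
            refine ENNReal.ofReal_le_ofReal (Real.exp_le_exp.2 ?_)
            rw [hD.hν]
            have h3 : 0 ≤ t - s := sub_nonneg.2 hs.2
            have h4 : 0 ≤ (ν : ℝ) / 2 * ‖v‖ * (t - s) := by positivity
            nlinarith
          calc _ ≤ ENNReal.ofReal (Real.exp (-(ν / 2 * (t - s)))) * (x₂ : ℝ≥0∞) := by gcongr
            _ = (((2 / ν : ℝ≥0) : ℝ≥0∞) * ENNReal.ofReal (ν / 2)) *
                (ENNReal.ofReal (Real.exp (-(ν / 2 * (t - s)))) * (x₂ : ℝ≥0∞)) := by rw [e, one_mul]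
            _ = _ := by ring
      _ ≤ _ := by
          rw [lintegral_const_mul _ (IIb_meas_exp _ t)]
          exact mul_le_of_le_one_right' (IIb_exp_int (by positivity) _ t)
  have hx : (x₂ : ℝ≥0∞) ≤ 1 := by exact_mod_cast hx₂.trans hx1
  have hε' : (D.ε₂ : ℝ≥0∞) ≤ x₂ := by exact_mod_cast hε
  refine (H D hD x₂ hx₂ F hF t ht x v).trans ?_
  calc D.Sg t x v + (4 * Cw * D.ε₂ + K * x₂ ^ 2) * D.mw t x v +
        K * ga (1 / 4) v * D.opK (D.hq x₂ F) t x v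
      ≤ D.Sg t x v + (4 * Cw * x₂ + K * (x₂ * 1)) * D.mw t x v +
        K * D.mw t x v * (K' * (((2 / ν : ℝ≥0) : ℝ≥0∞) * x₂)) := by
        gcongr
        · rw [sq]; gcongr
        · exact h.ga_le_mw t x v
        · exact h1.trans (mul_le_mul' le_rfl h2)
    _ = _ := by
        simp only [ENNReal.coe_add, ENNReal.coe_mul, ENNReal.coe_ofNat]
        ring

/-- `duh_cmp` with `b = a₁`, `gn_diff` with `E = M + Sg + x₂ mw`. -/
theorem OK.Phi_cmp (h : D.OK) {x₂ c : ℝ≥0} (hx : x₂ ≤ 1) {F G Δ : Fn} (hF : Meas F) (hG : Meas G)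
    (hΔ : Meas Δ) (hFG : ∀ t, D.t₁ ≤ t → F t ≤ G t + Δ t) (hGF : ∀ t, D.t₁ ≤ t → G t ≤ F t + Δ t)
    (hatt : ∀ t, D.t₁ ≤ t → D.att t ≤ LS (D.tr x₂ F) t)
    (hΦ : ∀ t, D.t₁ ≤ t → D.Phi x₂ G t ≤ (vl Mx + D.Sg + (c : ℝ≥0∞) • D.mw) t) {t : ℝ}
    (ht : D.t₁ ≤ t) (x v : R3) :
    D.Phi x₂ F t x v ≤ D.Phi x₂ G t x v +
      AI D.att ((2 : ℝ≥0∞) • GN (vl Mx + D.Sg + (x₂ : ℝ≥0∞) • D.mw) Δ +
        (vl Mx + D.Sg + (c : ℝ≥0∞) • D.mw) * LS Δ) D.t₁ t x v := by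
  obtain ⟨C, hC⟩ := h.LS_tr_le hx
  have mF := h.meas_tr (x₂ := x₂) hF
  have mG := h.meas_tr (x₂ := x₂) hG
  have mE := h.IIb_mE x₂
  have mE' := h.IIb_mE c
  set ρ : Fn := (2 : ℝ≥0∞) • GN (vl Mx + D.Sg + (x₂ : ℝ≥0∞) • D.mw) Δ +
    (vl Mx + D.Sg + (c : ℝ≥0∞) • D.mw) * LS Δ with hρ
  have mρ : Meas ρ := ((mE.GN hΔ).smul 2).add (mE'.mul hΔ.LS)
  have h0 : ∫⁻ s in Ioc D.t₁ t, (pa (LS (D.tr x₂ F)) t x v s + pa (LS (D.tr x₂ G)) t x v s +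
      pa (LS (D.tr x₂ F)) t x v s) ≠ ⊤ := by
    refine ne_top_of_le_ne_top (b := ∫⁻ _ in Ioc D.t₁ t, (C * br v + C * br v + C * br v)) ?_
      (setLIntegral_mono' measurableSet_Ioc fun s hs =>
        add_le_add (add_le_add (hC F s hs.1.le _ v) (hC G s hs.1.le _ v)) (hC F s hs.1.le _ v))
    rw [IIb_const_Ioc]
    have : (C : ℝ≥0∞) * br v ≠ ⊤ := ENNReal.mul_ne_top ENNReal.coe_ne_top ENNReal.ofReal_ne_top
    exact ENNReal.mul_ne_top (ENNReal.add_ne_top.2 ⟨ENNReal.add_ne_top.2 ⟨this, this⟩, this⟩)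
      ENNReal.ofReal_ne_top
  have hu := h.rF.fin D.t₁ (x - (t - D.t₁) • v) v
  have key := duh2_cmp (u₁ := D.F₁ D.t₁ (x - (t - D.t₁) • v) v)
    (u₂ := D.F₁ D.t₁ (x - (t - D.t₁) • v) v) (d₀ := 0) (k₁ := fun _ => 0) (k₂ := fun _ => 0)
    (mF.LS.pa t x v) (mG.LS.pa t x v) (mF.LS.pa t x v) ((mF.GN mF).pa t x v) ((mG.GN mG).pa t x v)
    measurable_const measurable_const (mρ.pa t x v) ht h0 hu hu
    (by
      simp only [add_zero]
      rw [lintegral_add_left ((mF.GN mF).pa t x v)]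
      exact ENNReal.add_ne_top.2 ⟨h.IIb_PI_gain x₂ F ht x v, h.IIb_PI_gain x₂ G ht x v⟩)
    (by rw [add_zero])
    (by
      intro s hs
      rw [← pa_DU, ← pa_DU]
      set y := x - (t - s) • v with hy
      have t1 : D.tr x₂ F s y ≤ D.tr x₂ G s y + Δ s y := fun u => tr_le_add (hFG s hs.1.le y u)
      have t2 : D.tr x₂ G s y ≤ D.tr x₂ F s y + Δ s y := fun u => tr_le_add (hGF s hs.1.le y u)
      have g1 := gn_diff (mG.slice s y) (mE.slice s y) (hΔ.slice s y) (IIb_tr_le D x₂ F s y)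
        (IIb_tr_le D x₂ G s y) t1 v
      have g2 : ls (D.tr x₂ G s y) v ≤ ls (D.tr x₂ F s y) v + ls (Δ s y) v := by
        rw [← ls_add (mF.slice s y) (hΔ.slice s y)]
        exact ls_mono t2 v
      have g3 := hΦ s hs.1.le y v
      show gn (D.tr x₂ F s y) (D.tr x₂ F s y) v + ls (D.tr x₂ G s y) v * D.Phi x₂ G s y v +
          ls (D.tr x₂ F s y) v * D.Phi x₂ F s y v + 0 ≤
        gn (D.tr x₂ G s y) (D.tr x₂ G s y) v + ls (D.tr x₂ F s y) v * D.Phi x₂ F s y v +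
          ls (D.tr x₂ F s y) v * D.Phi x₂ G s y v + 0 +
          (2 * gn ((vl Mx + D.Sg + (x₂ : ℝ≥0∞) • D.mw) s y) (Δ s y) v +
            (vl Mx + D.Sg + (c : ℝ≥0∞) • D.mw) s y v * ls (Δ s y) v)
      calc _ ≤ (gn (D.tr x₂ G s y) (D.tr x₂ G s y) v +
            2 * gn ((vl Mx + D.Sg + (x₂ : ℝ≥0∞) • D.mw) s y) (Δ s y) v) +
            (ls (D.tr x₂ F s y) v + ls (Δ s y) v) * D.Phi x₂ G s y v +
            ls (D.tr x₂ F s y) v * D.Phi x₂ F s y v + 0 := by gcongr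
        _ = gn (D.tr x₂ G s y) (D.tr x₂ G s y) v + ls (D.tr x₂ F s y) v * D.Phi x₂ F s y v +
          ls (D.tr x₂ F s y) v * D.Phi x₂ G s y v + 0 +
          (2 * gn ((vl Mx + D.Sg + (x₂ : ℝ≥0∞) • D.mw) s y) (Δ s y) v +
            D.Phi x₂ G s y v * ls (Δ s y) v) := by ring
        _ ≤ _ := by gcongr)
  simp only [mul_zero, lintegral_zero, add_zero, zero_mul] at key
  refine key.trans (add_le_add le_rfl ?_)
  exact AI_mono (T := t) (fun s hs y u => hatt s hs.1 y u) (fun _ _ _ _ => le_rfl) t ⟨ht, le_rfl⟩ x v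

/-- With `Δ = e^{Λ s} (Sg + mw)`.  `2 GN Sg Sg ≤ 2 Ps + 2 ρ mw` and `AI att (2 Ps) ≤ Sg / 8`
(`Ps_le`).  Terms `≤ C mw` with any constant `C` (`MS`, `Sm`, `ρ_le`, `grad_kernel` + `adm_kk` for
`2 GN M mw + M LS mw`): `ex_mw` and `Λ` large.  Terms `≤ c K br mw` (`adm_gn`, `adm_ls`, `LSg`):
`ex_mw`, `∫ br exp (-ν br (t-s) / 4) ds ≤ 4 / ν`, `c` small.  Terms `≤ C br Sg`: `Sg_br`, `Sg_pa` and
`Λ` large. -/
theorem norm_T (ν N Cw : ℝ≥0) (hν : 0 < ν) : ∃ c : ℝ≥0, 0 < c ∧ ∀ D : P2, D.Par ν N Cw →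
    ∃ Λ : ℝ, 0 ≤ Λ ∧ ∀ t, D.t₁ ≤ t → ∀ x v,
      AI D.att ((2 : ℝ≥0∞) • GN (vl Mx + D.Sg + (c : ℝ≥0∞) • D.mw) (D.Z Λ) +
        (vl Mx + D.Sg + (c : ℝ≥0∞) • D.mw) * LS (D.Z Λ)) D.t₁ t x v ≤ 2⁻¹ * D.Z Λ t x v := by
  obtain ⟨C₂, hC₂⟩ := IIb_src ν N
  have hνr : (0 : ℝ) < ν := hν
  set c : ℝ≥0 := min 1 (ν / (16 * (C₂ * Cw + 1))) with hc
  have hc1 : c ≤ 1 := min_le_left _ _
  have hc2 : 4 * ((c * C₂ * Cw : ℝ≥0) : ℝ) ≤ ν / 4 := by
    have h1 : c ≤ ν / (16 * (C₂ * Cw + 1)) := min_le_right _ _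
    have h2 : (c : ℝ) ≤ ν / (16 * (C₂ * Cw + 1)) := by exact_mod_cast h1
    rw [le_div_iff₀ (by positivity)] at h2
    have h3 : (0 : ℝ) ≤ c := c.coe_nonneg
    push_cast
    nlinarith
  refine ⟨c, lt_min one_pos (by positivity), fun D hD => ?_⟩
  have h := hD.ok
  obtain ⟨C₁, C₃, hsrc⟩ := hC₂ D h hD.hν hD.hN
  set Λ : ℝ := 4 * (C₁ * Cw + C₃) with hΛ
  have hΛ0 : 0 ≤ Λ := by positivity
  refine ⟨Λ, hΛ0, fun t ht x v => ?_⟩
  have mE := h.IIb_mE c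
  have mSw : Meas (D.Sg + D.mw) := h.rSg.meas.add h.rmw.meas
  set κ : ℝ := ν / 4 * (1 + ‖v‖) with hκ
  have hκ0 : 0 ≤ κ := by positivity
  set eT : ℝ≥0∞ := ENNReal.ofReal (Real.exp (Λ * t)) with heT
  have q1 : ((C₁ * Cw : ℝ≥0) : ℝ≥0∞) ≤ 4⁻¹ * ENNReal.ofReal Λ :=
    IIb_quarter (by rw [hΛ]; push_cast; have := C₃.coe_nonneg; linarith)
  have q3 : (C₃ : ℝ≥0∞) ≤ 4⁻¹ * ENNReal.ofReal Λ :=
    IIb_quarter (by
      rw [hΛ]
      have : (0 : ℝ) ≤ C₁ * Cw := by positivity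
      linarith)
  have q2 : ((c * C₂ * Cw : ℝ≥0) : ℝ≥0∞) * br v ≤ 4⁻¹ * ENNReal.ofReal κ := by
    rw [hκ, ENNReal.ofReal_mul (by positivity), ← mul_assoc]
    exact mul_le_mul' (IIb_quarter hc2) le_rfl
  have hpt : ∀ s ∈ Ioc D.t₁ t, ex (∫⁻ s' in Ioc s t, pa D.att t x v s') *
      pa ((2 : ℝ≥0∞) • GN (vl Mx + D.Sg + (c : ℝ≥0∞) • D.mw) (D.Z Λ) +
        (vl Mx + D.Sg + (c : ℝ≥0∞) • D.mw) * LS (D.Z Λ)) t x v s ≤
      eT * 8⁻¹ * (ex (∫⁻ s' in Ioc s t, pa D.att t x v s') * pa ((16 : ℝ≥0∞) • D.Ps) t x v s) +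
        (eT * 4⁻¹ * (D.Sg t x v + D.mw t x v) *
          (ENNReal.ofReal Λ * ENNReal.ofReal (Real.exp (-(Λ * (t - s))))) +
        eT * 4⁻¹ * D.mw t x v *
          (ENNReal.ofReal κ * ENNReal.ofReal (Real.exp (-(κ * (t - s)))))) := by
    intro s hs
    have hts : 0 ≤ t - s := sub_nonneg.2 hs.2
    set y := x - (t - s) • v with hy
    set E := ex (∫⁻ s' in Ioc s t, pa D.att t x v s') with hE
    set eL := ENNReal.ofReal (Real.exp (-(Λ * (t - s)))) with heL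
    set eK := ENNReal.ofReal (Real.exp (-(κ * (t - s)))) with heK
    have heL1 : eL ≤ 1 := ENNReal.ofReal_le_one.2 (Real.exp_le_one_iff.2 (by
      have := mul_nonneg hΛ0 hts
      linarith))
    have heK1 : eK ≤ 1 := ENNReal.ofReal_le_one.2 (Real.exp_le_one_iff.2 (by
      have := mul_nonneg hκ0 hts
      linarith))
    have es : ENNReal.ofReal (Real.exp (Λ * s)) = eT * eL := by
      rw [heT, heL, ← ENNReal.ofReal_mul (Real.exp_pos _).le, ← Real.exp_add]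
      congr 2
      ring
    have e1 : pa ((2 : ℝ≥0∞) • GN (vl Mx + D.Sg + (c : ℝ≥0∞) • D.mw) (D.Z Λ) +
        (vl Mx + D.Sg + (c : ℝ≥0∞) • D.mw) * LS (D.Z Λ)) t x v s =
        eT * eL * (2 * GN (vl Mx + D.Sg + (c : ℝ≥0∞) • D.mw) (D.Sg + D.mw) s y v +
          (vl Mx + D.Sg + (c : ℝ≥0∞) • D.mw) s y v * LS (D.Sg + D.mw) s y v) := by
      unfold Z
      rw [GN_tm_right mE mSw, LS_tm mSw, ← es]
      show 2 * (ENNReal.ofReal (Real.exp (Λ * s)) *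
          GN (vl Mx + D.Sg + (c : ℝ≥0∞) • D.mw) (D.Sg + D.mw) s y v) +
        (vl Mx + D.Sg + (c : ℝ≥0∞) • D.mw) s y v *
          (ENNReal.ofReal (Real.exp (Λ * s)) * LS (D.Sg + D.mw) s y v) = _
      ring
    have a1 : E * D.mw s y v ≤ Cw * eK * D.mw t x v := by
      have := h.ex_mw hs.1.le hs.2 x v
      rw [hD.hCw, hD.hν] at this
      exact this
    have a2 : E * D.Sg s y v ≤ D.Sg t x v := by
      refine (mul_le_mul' le_rfl (h.Sg_pa t x v s hs.1.le hs.2)).trans ?_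
      rw [← mul_assoc, hE, ex_att t s hs.2, ← ENNReal.ofReal_mul (Real.exp_pos _).le,
        ← Real.exp_add]
      refine mul_le_of_le_one_left' (ENNReal.ofReal_le_one.2 (Real.exp_le_one_iff.2 ?_))
      have h3 : 0 ≤ (D.ν : ℝ) / 2 * ‖v‖ * (t - s) := by positivity
      have h4 : 0 ≤ (D.ν : ℝ) / 4 * (t - s) := by positivity
      nlinarith
    have e16 : (8⁻¹ : ℝ≥0∞) * 16 = 2 := by
      rw [show (16 : ℝ≥0∞) = 8 * 2 by norm_num, ← mul_assoc,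
        ENNReal.inv_mul_cancel (by norm_num) (by norm_num), one_mul]
    rw [e1]
    show _ ≤ eT * 8⁻¹ * (E * (16 * D.Ps s y v)) + _
    calc E * (eT * eL * _) ≤ E * (eT * eL * (2 * D.Ps s y v + C₁ * D.mw s y v +
          c * C₂ * (br v * D.mw s y v) + C₃ * D.Sg s y v)) :=
          mul_le_mul' le_rfl (mul_le_mul' le_rfl (hsrc c hc1 s hs.1.le y v))
      _ = eT * (eL * (2 * (E * D.Ps s y v)) + eL * C₁ * (E * D.mw s y v) +
          eL * (c * C₂ * br v) * (E * D.mw s y v) + eL * C₃ * (E * D.Sg s y v)) := by ring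
      _ ≤ eT * (1 * (2 * (E * D.Ps s y v)) + eL * C₁ * (Cw * 1 * D.mw t x v) +
          1 * (c * C₂ * br v) * (Cw * eK * D.mw t x v) + eL * C₃ * D.Sg t x v) := by
          have a3 : E * D.mw s y v ≤ Cw * 1 * D.mw t x v := a1.trans (by gcongr)
          gcongr
      _ = eT * (2 * (E * D.Ps s y v) + eL * ((C₁ * Cw : ℝ≥0) : ℝ≥0∞) * D.mw t x v +
          (((c * C₂ * Cw : ℝ≥0) : ℝ≥0∞) * br v) * eK * D.mw t x v + eL * C₃ * D.Sg t x v) := by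
          simp only [ENNReal.coe_mul]
          ring
      _ ≤ eT * (2 * (E * D.Ps s y v) + eL * (4⁻¹ * ENNReal.ofReal Λ) * D.mw t x v +
          (4⁻¹ * ENNReal.ofReal κ) * eK * D.mw t x v +
          eL * (4⁻¹ * ENNReal.ofReal Λ) * D.Sg t x v) := by gcongr
      _ = _ := by rw [← e16]; ring
  have mP : Measurable fun s => ex (∫⁻ s' in Ioc s t, pa D.att t x v s') *
      pa ((16 : ℝ≥0∞) • D.Ps) t x v s :=
    (measurable_ex.comp (measurable_lintegral_Ioc_left ((IIb_meas_att D).pa t x v) t)).mul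
      ((h.mPs.smul 16).pa t x v)
  have hP : ∫⁻ s in Ioc D.t₁ t, ex (∫⁻ s' in Ioc s t, pa D.att t x v s') *
      pa ((16 : ℝ≥0∞) • D.Ps) t x v s ≤ D.Sg t x v := le_add_self.trans (h.Ps_le t ht x v)
  refine (setLIntegral_mono' measurableSet_Ioc hpt).trans ?_
  rw [lintegral_add_left (mP.const_mul _), lintegral_add_left ((IIb_meas_exp Λ t).const_mul _),
    lintegral_const_mul _ mP, lintegral_const_mul _ (IIb_meas_exp Λ t),
    lintegral_const_mul _ (IIb_meas_exp κ t)]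
  have e4 : (4⁻¹ : ℝ≥0∞) + 4⁻¹ = 2⁻¹ := by
    rw [← two_mul, show (4 : ℝ≥0∞) = 2 * 2 by norm_num,
      ENNReal.mul_inv (by simp) (by simp), ← mul_assoc,
      ENNReal.mul_inv_cancel (by norm_num) (by norm_num), one_mul]
  have e8 : (8⁻¹ : ℝ≥0∞) ≤ 4⁻¹ := ENNReal.inv_le_inv.2 (by norm_num)
  show _ ≤ 2⁻¹ * (eT * (D.Sg t x v + D.mw t x v))
  calc _ ≤ eT * 4⁻¹ * D.Sg t x v + (eT * 4⁻¹ * (D.Sg t x v + D.mw t x v) * 1 +
        eT * 4⁻¹ * D.mw t x v * 1) := by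
        gcongr
        · exact IIb_exp_int hΛ0 _ _
        · exact IIb_exp_int hκ0 _ _
    _ = _ := by rw [← e4]; ring

/-- `exists_fixed` on the set of measurable invariant `F` with `F t = F₁ t` for `t ≤ t₁` and
`dv F ≤ Sg + mw` for `t > t₁`; the map is `Phi x₂ F` for `t > t₁` (`duh_self` at `t = t₁`). -/
theorem exists_TS (ν N Cw : ℝ≥0) (hν : 0 < ν) : ∃ x' : ℝ≥0, 0 < x' ∧ ∀ D : P2, D.Par ν N Cw →
    ∀ x₂ ≤ x', D.ε₂ ≤ x₂ → ∃ F, D.TS x₂ F := by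
  obtain ⟨x₁, C, hx₁, hx₁1, hbd⟩ := Phi_bd ν N Cw hν
  obtain ⟨x₃, hx₃, -, hatt⟩ := att_le ν N Cw hν
  obtain ⟨c, hc, hT⟩ := norm_T ν N Cw hν
  set c' : ℝ≥0 := min c 1 with hc'
  have hc'0 : 0 < c' := lt_min hc one_pos
  refine ⟨min (min x₁ x₃) (c' / (C + 1)), lt_min (lt_min hx₁ hx₃) (by positivity),
    fun D hD x₂ hx₂ hε => ?_⟩
  have h := hD.ok
  have a1 : x₂ ≤ x₁ := hx₂.trans ((min_le_left _ _).trans (min_le_left _ _))
  have a3 : x₂ ≤ x₃ := hx₂.trans ((min_le_left _ _).trans (min_le_right _ _))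
  have a4 : x₂ * (C + 1) ≤ c' := (le_div_iff₀ (by positivity)).1 (hx₂.trans (min_le_right _ _))
  have a5 : C * x₂ ≤ c' := le_trans (by rw [mul_add, mul_comm]; exact le_self_add) a4
  have a6 : x₂ ≤ c := le_trans (by rw [mul_add, mul_one]; exact le_add_self) (a4.trans (min_le_left _ _))
  have a7 : (C : ℝ≥0∞) * x₂ ≤ c := by exact_mod_cast a5.trans (min_le_left _ _)
  have a8 : (C : ℝ≥0∞) * x₂ ≤ 1 := by exact_mod_cast a5.trans (min_le_right _ _)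
  obtain ⟨Λ, hΛ, hZ⟩ := hT D hD
  have rZ := h.IIb_rZ Λ
  set S : Set Fn := {F | Meas F ∧ InvF F ∧ (∀ t, t ≤ D.t₁ → F t = D.F₁ t) ∧
    ∀ t, D.t₁ < t → ∀ x v, dv F t x v ≤ D.Sg t x v + D.mw t x v} with hS
  set Φ : Fn → Fn := fun F t => if t ≤ D.t₁ then D.F₁ t else D.Phi x₂ F t with hΦ
  have Φ1 : ∀ F t, t ≤ D.t₁ → Φ F t = D.F₁ t := fun F t ht => if_pos ht
  have Φ2 : ∀ F t, D.t₁ < t → Φ F t = D.Phi x₂ F t := fun F t ht => if_neg (not_le.2 ht)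
  have hmaps : ∀ F, Meas F → InvF F → Φ F ∈ S := by
    intro F hF hi
    refine ⟨?_, ?_, Φ1 F, ?_⟩
    · have e : (fun p : ℝ × R3 × R3 => Φ F p.1 p.2.1 p.2.2) = fun p : ℝ × R3 × R3 =>
          if p.1 ≤ D.t₁ then D.F₁ p.1 p.2.1 p.2.2 else D.Phi x₂ F p.1 p.2.1 p.2.2 := by
        funext p
        by_cases hp : p.1 ≤ D.t₁
        · rw [Φ1 F _ hp, if_pos hp]
        · rw [Φ2 F _ (not_le.1 hp), if_neg hp]
      unfold Meas
      rw [e]
      exact Measurable.ite (measurableSet_le measurable_fst measurable_const) h.rF.meas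
        (h.meas_Phi hF)
    · intro t x v d hd
      rcases le_or_gt t D.t₁ with ht | ht
      · rw [Φ1 F t ht]; exact h.rF.inv t x v d hd
      · rw [Φ2 F t ht]; exact h.inv_Phi hi t x v d hd
    · intro t ht x v
      have e : dv (Φ F) t x v = dv (D.Phi x₂ F) t x v := by
        show (Φ F t x v - Mx v) ⊔ (Mx v - Φ F t x v) = _
        rw [Φ2 F t ht]
        rfl
      rw [e]
      exact (hbd D hD x₂ a1 hε F hF t ht.le x v).trans
        (add_le_add le_rfl (mul_le_of_le_one_left' a8))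
  have hfin : ∀ F ∈ S, ∀ t x v, F t x v ≠ ⊤ := by
    rintro F ⟨-, -, h1, h2⟩ t x v
    rcases le_or_gt t D.t₁ with ht | ht
    · rw [h1 t ht]; exact h.rF.fin t x v
    · exact ne_top_of_le_ne_top (ENNReal.add_ne_top.2 ⟨ENNReal.ofReal_ne_top,
        (h.rSg.add h.rmw).fin t x v⟩) (le_of_dv.1 (h2 t ht x v)).1
  have hdist : ∀ F ∈ S, ∀ G ∈ S, F ≤ G + (2 : ℝ≥0∞) • D.Z Λ := by
    rintro F ⟨-, -, h1, h2⟩ G ⟨-, -, h3, h4⟩ t x v
    show F t x v ≤ G t x v + 2 * (ENNReal.ofReal (Real.exp (Λ * t)) * (D.Sg t x v + D.mw t x v))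
    rcases le_or_gt t D.t₁ with ht | ht
    · rw [h1 t ht, h3 t ht]; exact le_self_add
    · have e1 : 1 ≤ ENNReal.ofReal (Real.exp (Λ * t)) := ENNReal.one_le_ofReal.2
        (Real.one_le_exp (mul_nonneg hΛ (h.t₁_pos.trans ht).le))
      calc F t x v ≤ Mx v + (D.Sg t x v + D.mw t x v) := (le_of_dv.1 (h2 t ht x v)).1
        _ ≤ G t x v + (D.Sg t x v + D.mw t x v) + (D.Sg t x v + D.mw t x v) :=
            add_le_add (le_of_dv.1 (h4 t ht x v)).2 le_rfl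
        _ = G t x v + 2 * (1 * (D.Sg t x v + D.mw t x v)) := by ring
        _ ≤ _ := by gcongr
  obtain ⟨F, hF, hfix⟩ := exists_fixed S Φ (D.Z Λ) rZ.fin hfin (fun F hF => hmaps F hF.1 hF.2.1)
    (by
      intro F G hF hlim
      refine ⟨?_, ?_, ?_, ?_⟩
      · exact ENNReal.measurable_of_tendsto (fun n => (hF n).1)
          (tendsto_pi_nhds.2 fun p => hlim p.1 p.2.1 p.2.2)
      · intro t x v d hd
        refine tendsto_nhds_unique (hlim t (x + d) v) ?_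
        simpa only [fun n => (hF n).2.1 t x v d hd] using hlim t x v
      · intro t ht
        funext x v
        refine tendsto_nhds_unique (hlim t x v) ?_
        simpa only [fun n => (hF n).2.2.1 t ht] using tendsto_const_nhds
      · intro t ht x v
        refine le_of_dv.2 ⟨le_of_tendsto' (hlim t x v) fun n =>
          (le_of_dv.1 ((hF n).2.2.2 t ht x v)).1, ?_⟩
        exact ge_of_tendsto' ((hlim t x v).add tendsto_const_nhds) fun n =>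
          (le_of_dv.1 ((hF n).2.2.2 t ht x v)).2)
    (by
      intro F hF G hG Y hY hFG hGF t x v
      show Φ F t x v ≤ Φ G t x v + Y / 2 * D.Z Λ t x v
      rcases le_or_gt t D.t₁ with ht | ht
      · rw [Φ1 F t ht, Φ1 G t ht]; exact le_self_add
      rw [Φ2 F t ht, Φ2 G t ht]
      have mE := h.IIb_mE c
      refine (h.Phi_cmp (c := c) (a1.trans hx₁1) hF.1 hG.1 (rZ.meas.smul Y) (fun s _ => hFG s)
        (fun s _ => hGF s) (fun s hs y u => hatt D hD x₂ a3 F hF.1 s hs y u) ?_ ht.le x v).trans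
        (add_le_add le_rfl ?_)
      · intro s hs y u
        refine (le_of_dv.1 (hbd D hD x₂ a1 hε G hG.1 s hs y u)).1.trans ?_
        show _ ≤ Mx u + D.Sg s y u + c * D.mw s y u
        rw [add_assoc]
        gcongr
      · have b1 : LeOn D.t₁ t ((2 : ℝ≥0∞) • GN (vl Mx + D.Sg + (x₂ : ℝ≥0∞) • D.mw) (Y • D.Z Λ) +
            (vl Mx + D.Sg + (c : ℝ≥0∞) • D.mw) * LS (Y • D.Z Λ))
            (Y • ((2 : ℝ≥0∞) • GN (vl Mx + D.Sg + (c : ℝ≥0∞) • D.mw) (D.Z Λ) +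
              (vl Mx + D.Sg + (c : ℝ≥0∞) • D.mw) * LS (D.Z Λ))) := by
          rw [smul_add, smul_comm Y, ← GN_smul_right mE rZ.meas, ← mul_smul_comm, ← LS_smul rZ.meas]
          refine LeOn.add (LeOn.smul (GN_mono (fun s _ y u => ?_) fun _ _ _ _ => le_rfl) 2)
            fun _ _ _ _ => le_rfl
          show Mx u + D.Sg s y u + x₂ * D.mw s y u ≤ Mx u + D.Sg s y u + c * D.mw s y u
          gcongr
        refine (AI_mono (fun _ _ _ _ => le_rfl) b1 t ⟨ht.le, le_rfl⟩ x v).trans ?_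
        rw [AI_smul (IIb_meas_att D) (((mE.GN rZ.meas).smul 2).add (mE.mul rZ.meas.LS)),
          div_eq_mul_inv, mul_assoc]
        exact mul_le_mul' le_rfl (hZ t ht.le x v))
    (by
      have h0 := hmaps D.F₁ h.rF.meas h.rF.inv
      have h1 := hmaps _ h0.1 h0.2.1
      exact ⟨_, h0, 2, by simp, hdist _ h1 _ h0, hdist _ h0 _ h1⟩)
  refine ⟨F, ⟨hF.1, hF.2.1, hfin F hF⟩, hF.2.2.1, fun t ht x v => ?_⟩
  rcases ht.eq_or_lt with rfl | ht'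
  · rw [hF.2.2.1 _ le_rfl]
    show _ = duh _ _ _ D.t₁ D.t₁
    rw [duh_self]
    simp
  · rw [← Φ2 F t ht', hfix]

end P2

end Crest.Agent.R68
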