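/-
R68/IIc: inactive truncation gives a solution; the short time step
Skeleton by helper76 (row 68); keep the statements unchanged, add any helper lemmas you like.
-/
import Crest.Agent.R68.IIa

set_option autoImplicit false
set_option linter.unusedVariables false
set_option linter.unusedSectionVars false

noncomputable section

namespace Crest.Agent.R68

open MeasureTheory Set Filter Topology
open scoped ENNReal NNReal
open Crest.AnalysisR.VecCalc3 Crest.AnalysisR.PDE.Boltzmann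

namespace P2

variable {D : P2} {F : Fn} {x₂ : ℝ≥0} {T : ℝ}

theorem IIc_Mx_le (v : R3) : Mx v ≤ ga (1 / 4) v := by
  refine (Mx_le v).trans (ENNReal.ofReal_le_ofReal (Real.exp_le_exp.2 ?_))
  nlinarith [sq_nonneg ‖v‖]

theorem IIc_split (f : Fn) {r t : ℝ} (h0 : 0 ≤ r) (hrt : r ≤ t) (x v : R3) :
    PI f 0 t x v = PI f 0 r (x - (t - r) • v) v + PI f r t x v := by
  unfold PI
  rw [pa_pa, Duh1_split _ h0 hrt]

theorem IIc_congr {f g : Fn} {r t : ℝ} (h : ∀ s ∈ Ioc r t, f s = g s) (x v : R3) :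
    PI f r t x v = PI g r t x v :=
  setLIntegral_congr_fun measurableSet_Ioc fun s hs => by
    show f s _ _ = g s _ _
    rw [h s hs]

theorem IIc_exp {c : ℝ} (hc : 0 < c) (r t : ℝ) :
    ∫⁻ s in Ioc r t, ENNReal.ofReal (Real.exp (-(c * (t - s)))) ≤ ENNReal.ofReal (1 / c) := by
  have e : ∀ s, Real.exp (-(c * (t - s))) = Real.exp (-(c * t)) * Real.exp (c * s) := fun s => by
    rw [← Real.exp_add]; congr 1; ring
  simp only [e]
  refine (lintegral_mono_set Ioc_subset_Iic_self).trans (le_of_eq ?_)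
  rw [← ofReal_integral_eq_lintegral_ofReal ((integrableOn_exp_mul_Iic hc t).const_mul _)
    (ae_of_all _ fun s => by positivity), integral_const_mul, integral_exp_mul_Iic hc, ← mul_div_assoc,
    ← Real.exp_add]
  simp

theorem IIc_meas_att : Meas D.att := (meas_vl measurable_br).smul _

theorem IIc_meas_kk {f : Fn} (hf : Meas f) : Meas fun s y v => ∫⁻ u, kk (v - u) * f s y u :=
  Measurable.lintegral_prod_right'
    (f := fun q : (ℝ × R3 × R3) × R3 => kk (q.1.2.2 - q.2) * f q.1.1 q.1.2.1 q.2)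
    ((measurable_kk.comp (measurable_fst.snd.snd.sub measurable_snd)).mul
      (path_meas_comp hf measurable_fst.fst measurable_fst.snd.fst measurable_snd))

theorem IIc_early (h : D.OK) (hF : D.TS x₂ F) {t : ℝ} (ht : t ∈ Icc 0 D.t₁) (x v : R3) :
    F t x v + PI (F * LS F) 0 t x v = F 0 (x - t • v) v + PI (GN F F) 0 t x v := by
  have e1 : PI (F * LS F) 0 t x v = PI (D.F₁ * LS D.F₁) 0 t x v :=
    IIc_congr (fun s hs => by
      funext y u
      show F s y u * ls (F s y) u = D.F₁ s y u * ls (D.F₁ s y) u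
      rw [hF.init s (hs.2.trans ht.2)]) x v
  have e2 : PI (GN F F) 0 t x v = PI (GN D.F₁ D.F₁) 0 t x v :=
    IIc_congr (fun s hs => by
      funext y u
      show gn (F s y) (F s y) u = gn (D.F₁ s y) (D.F₁ s y) u
      rw [hF.init s (hs.2.trans ht.2)]) x v
  rw [e1, e2, hF.init t ht.2, hF.init 0 h.t₁_pos.le]
  exact h.plain t ht x v

theorem IIc_late (h : D.OK) (hx : x₂ ≤ 1) (hF : D.TS x₂ F)
    (hb : LeOn D.t₁ T (dv F) (D.Sg + (x₂ : ℝ≥0∞) • D.mw)) {t : ℝ} (ht : t ∈ Icc D.t₁ T) (x v : R3) :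
    F t x v + PI (F * LS F) D.t₁ t x v =
      F D.t₁ (x - (t - D.t₁) • v) v + PI (GN F F) D.t₁ t x v := by
  have mT : Meas (D.tr x₂ F) := h.meas_tr hF.reg.meas
  obtain ⟨C, hC⟩ := h.LS_tr_le hx
  have hfin : ∀ s, D.t₁ ≤ s → ∫⁻ s' in Ioc s t, pa (LS (D.tr x₂ F)) t x v s' ≠ ⊤ := fun s hs => by
    refine ne_top_of_le_ne_top ?_ (setLIntegral_mono' (g := fun _ => (C : ℝ≥0∞) * br v)
      measurableSet_Ioc fun s' hs' => hC F s' (hs.trans hs'.1.le) _ v)
    rw [setLIntegral_const, Real.volume_Ioc]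
    exact ENNReal.mul_ne_top (ENNReal.mul_ne_top ENNReal.coe_ne_top ENNReal.ofReal_ne_top)
      ENNReal.ofReal_ne_top
  have key := duh_plain (u₀ := D.F₁ D.t₁ (x - (t - D.t₁) • v) v) (mT.LS.pa t x v)
    ((mT.GN mT).pa t x v) ht.1 (fun s hs => hfin s hs.1.le) (Or.inl (hfin _ le_rfl))
  have htr : ∀ s ∈ Ioc D.t₁ t, D.tr x₂ F s = F s := fun s hs => by
    funext y u
    exact h.tr_eq (hb s ⟨hs.1.le, hs.2.trans ht.2⟩ y u)
  have e1 : PI (F * LS F) D.t₁ t x v = ∫⁻ s in Ioc D.t₁ t,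
      duh (D.F₁ D.t₁ (x - (t - D.t₁) • v) v) (pa (LS (D.tr x₂ F)) t x v)
        (pa (GN (D.tr x₂ F) (D.tr x₂ F)) t x v) D.t₁ s * pa (LS (D.tr x₂ F)) t x v s :=
    setLIntegral_congr_fun measurableSet_Ioc fun s hs => by
      show F s _ v * ls (F s _) v = _ * ls (D.tr x₂ F s _) v
      rw [htr s hs, ← pa_DU, hF.eq s hs.1.le]
      rfl
  have e2 : PI (GN F F) D.t₁ t x v = PI (GN (D.tr x₂ F) (D.tr x₂ F)) D.t₁ t x v :=
    IIc_congr (fun s hs => by
      funext y u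
      show gn (F s y) (F s y) u = gn (D.tr x₂ F s y) (D.tr x₂ F s y) u
      rw [htr s hs]) x v
  rw [e1, e2, hF.init _ le_rfl, hF.eq t ht.1]
  exact key

/-- For `t ≤ t₁` this is `OK.plain`.  For `t > t₁`: `duh_plain` on `[t₁, t]` and `OK.plain` at
`(t₁, x - (t - t₁) v, v)`; split the time integrals at `t₁` (`pa_pa`).  `OK.env` with `M ≤ mw`. -/
theorem TS.plain (h : D.OK) (hx : x₂ ≤ 1) (hF : D.TS x₂ F)
    (hb : LeOn D.t₁ T (dv F) (D.Sg + (x₂ : ℝ≥0∞) • D.mw)) : Plain F T := by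
  refine ⟨hF.reg.meas, hF.reg.inv.per, fun t _ x v => hF.reg.fin t x v, fun t ht x v => ?_,
    h.env T F hF.reg.meas (fun t ht => hF.init t ht.2) fun t ht x v => ?_⟩
  · rcases le_total t D.t₁ with h1 | h1
    · exact IIc_early h hF ⟨ht.1, h1⟩ x v
    · have k1 := IIc_early h hF ⟨h.t₁_pos.le, le_rfl⟩ (x - (t - D.t₁) • v) v
      have k2 := IIc_late h hx hF hb ⟨h1, ht.2⟩ x v
      have e : x - (t - D.t₁) • v - D.t₁ • v = x - t • v := by
        rw [sub_smul]; abel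
      rw [e] at k1
      rw [IIc_split _ h.t₁_pos.le h1, IIc_split (GN F F) h.t₁_pos.le h1, ← add_assoc, add_right_comm, k2,
        add_right_comm, k1, add_assoc]
  · have k1 := (le_of_dv.1 (hb t ht x v)).1
    have k2 : Mx v ≤ D.mw t x v := (IIc_Mx_le v).trans (h.ga_le_mw t x v)
    have k3 : (x₂ : ℝ≥0∞) ≤ 1 := by exact_mod_cast hx
    calc F t x v ≤ Mx v + (D.Sg t x v + x₂ * D.mw t x v) := k1
      _ ≤ D.mw t x v + (D.Sg t x v + 1 * D.mw t x v) := by gcongr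
      _ = D.Sg t x v + 2 * D.mw t x v := by ring

/-- `Phi_dv` and `opK_le` with `j = x₁` on `(t₁, T]`, `j = C₁ x₁` on `(T, T + τ]`. -/
theorem step (ν N Cw : ℝ≥0) (hν : 0 < ν) : ∃ x' C₁ : ℝ≥0, ∃ τ : ℝ, 0 < x' ∧ 1 ≤ C₁ ∧ 0 < τ ∧
    ∀ D : P2, D.Par ν N Cw → ∀ x₁ : ℝ≥0, C₁ * x₁ ≤ x' → D.ε₂ ≤ x₁ → ∀ F, D.TS (C₁ * x₁) F → ∀ T,
      LeOn D.t₁ T (dv F) (D.Sg + (x₁ : ℝ≥0∞) • D.mw) →
      LeOn D.t₁ (T + τ) (dv F) (D.Sg + ((C₁ * x₁ : ℝ≥0) : ℝ≥0∞) • D.mw) := by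
  obtain ⟨x', K, hx', -, hP⟩ := Phi_dv ν N Cw hν
  obtain ⟨K', hK⟩ := opK_le N
  obtain ⟨A, hA⟩ : ∃ A : ℝ≥0, A = 4 * Cw + K * K' * (2 / ν) := ⟨_, rfl⟩
  obtain ⟨τ, hτ, hτ'⟩ : ∃ τ : ℝ≥0, 0 < τ ∧ 4 * (K * K' * τ) ≤ 1 := by
    refine ⟨1 / (4 * (K * K') + 1), by positivity, ?_⟩
    rw [← mul_assoc, mul_one_div, div_le_one (by positivity)]
    exact le_self_add
  obtain ⟨y, hy, hy'⟩ : ∃ y : ℝ≥0, 0 < y ∧ 4 * (K * y) ≤ 1 := by
    refine ⟨1 / (4 * K + 1), by positivity, ?_⟩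
    rw [← mul_assoc, mul_one_div, div_le_one (by positivity)]
    exact le_self_add
  refine ⟨min x' y, 2 * A + 1, τ, lt_min hx' hy, le_add_self, hτ,
    fun D hD x₁ hx₁ hε F hF T hb t ht x v => ?_⟩
  have h := hD.ok
  obtain ⟨x₂, hx₂⟩ : ∃ x₂, x₂ = (2 * A + 1) * x₁ := ⟨_, rfl⟩
  rw [← hx₂] at hF hx₁ ⊢
  have k1 := hP D hD x₂ (hx₁.trans (min_le_left _ _)) F hF.reg.meas t ht.1 x v
  have k2 := hK D h hD.hN (D.hq x₂ F) (fun s => if s ≤ T then x₁ else x₂) t x v fun s hs y u => by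
    split_ifs with h1
    · exact h.hq_le_of (hb s ⟨hs.1.le, h1⟩ y u)
    · exact h.hq_le F s y u
  have hν' : (0 : ℝ) < ν / 2 := by positivity
  have k3 : ∫⁻ s in Ioc D.t₁ t, ENNReal.ofReal (Real.exp (-(D.ν / 2 * (1 + ‖v‖) * (t - s)))) *
      (if s ≤ T then (x₁ : ℝ≥0∞) else x₂) ≤ ((2 / ν : ℝ≥0) : ℝ≥0∞) * x₁ + x₂ * τ := by
    have m1 : Measurable fun s : ℝ => ENNReal.ofReal (Real.exp (-((ν : ℝ) / 2 * (t - s)))) := by
      fun_prop
    calc _ ≤ ∫⁻ s in Ioc D.t₁ t, (ENNReal.ofReal (Real.exp (-((ν : ℝ) / 2 * (t - s)))) * x₁ +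
            (Ioc T (T + τ)).indicator (fun _ => (x₂ : ℝ≥0∞)) s) := by
          refine setLIntegral_mono' measurableSet_Ioc fun s hs => ?_
          have h2 : 0 ≤ (ν : ℝ) / 2 * (t - s) := mul_nonneg hν'.le (sub_nonneg.2 hs.2)
          have h3 : Real.exp (-(D.ν / 2 * (1 + ‖v‖) * (t - s))) ≤ Real.exp (-((ν : ℝ) / 2 * (t - s))) := by
            rw [hD.hν]
            exact Real.exp_le_exp.2 (by nlinarith [mul_nonneg h2 (norm_nonneg v)])
          split_ifs with h1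
          · exact (mul_le_mul' (ENNReal.ofReal_le_ofReal h3) le_rfl).trans le_self_add
          · rw [indicator_of_mem (show s ∈ Ioc T (T + τ) from ⟨not_le.1 h1, hs.2.trans ht.2⟩)]
            refine (mul_le_of_le_one_left' (ENNReal.ofReal_le_one.2 (h3.trans ?_))).trans le_add_self
            exact Real.exp_le_one_iff.2 (by linarith)
      _ ≤ ENNReal.ofReal (1 / ((ν : ℝ) / 2)) * x₁ + x₂ * τ := by
          rw [lintegral_add_left (m1.mul_const _), lintegral_mul_const _ m1]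
          refine add_le_add (mul_le_mul' (IIc_exp hν' _ _) le_rfl) ?_
          refine (setLIntegral_le_lintegral _ _).trans (le_of_eq ?_)
          rw [lintegral_indicator measurableSet_Ioc, setLIntegral_const, Real.volume_Ioc]
          simp
      _ = _ := by
          rw [one_div_div, ← ENNReal.ofReal_coe_nnreal (p := 2 / ν)]
          simp
  have k4 : 4 * Cw * x₁ + K * x₂ ^ 2 + K * (K' * (2 / ν * x₁ + x₂ * τ)) ≤ x₂ := by
    have q1 : 4 * (K * x₂) ≤ 1 :=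
      le_trans (by gcongr; exact hx₁.trans (min_le_right _ _)) hy'
    have q2 := mul_le_mul' q1 (le_refl x₂)
    have q3 := mul_le_mul' hτ' (le_refl x₂)
    have q4 : 4 * Cw * x₁ + K * (K' * (2 / ν * x₁)) = A * x₁ := by rw [hA]; ring
    have q5 : 2 * (A * x₁) ≤ x₂ := by
      rw [hx₂, add_mul, ← mul_assoc]
      exact le_self_add
    generalize 2 / ν = b at *
    nlinarith
  have k5 : (D.ε₂ : ℝ≥0∞) ≤ x₁ := by exact_mod_cast hε
  have k6 := h.ga_le_mw t x v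
  have e : dv F t x v = dv (D.Phi x₂ F) t x v := by
    show (F t x v - _) ⊔ (_ - F t x v) = (D.Phi x₂ F t x v - _) ⊔ (_ - D.Phi x₂ F t x v)
    rw [← hF.eq t ht.1]
  rw [e]
  calc _ ≤ _ := k1
    _ ≤ D.Sg t x v + (4 * Cw * x₁ + K * x₂ ^ 2) * D.mw t x v +
        K * D.mw t x v * (K' * (((2 / ν : ℝ≥0) : ℝ≥0∞) * x₁ + x₂ * τ)) := by
        gcongr
        exact k2.trans (mul_le_mul' le_rfl k3)
    _ = D.Sg t x v + ((4 * Cw * x₁ + K * x₂ ^ 2 + K * (K' * (2 / ν * x₁ + x₂ * τ)) : ℝ≥0) : ℝ≥0∞) *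
        D.mw t x v := by
        generalize 2 / ν = b
        push_cast
        ring
    _ ≤ D.Sg t x v + x₂ * D.mw t x v := by gcongr

theorem opK_mono {f g : Fn} (h : LeOn D.t₁ T f g) : LeOn D.t₁ T (D.opK f) (D.opK g) :=
  AI_mono (fun _ _ _ _ => le_rfl) fun s hs y v =>
    lintegral_mono fun u => mul_le_mul' le_rfl (h s hs y u)

theorem opK_add {f g : Fn} (hf : Meas f) (hg : Meas g) : D.opK (f + g) = D.opK f + D.opK g := by
  unfold opK
  rw [← AI_add IIc_meas_att (IIc_meas_kk hf)]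
  congr 1
  funext s y v
  simp only [Pi.add_apply, mul_add]
  exact lintegral_add_left
    ((measurable_kk.comp (measurable_const.sub measurable_id)).mul (hf.slice s y)) _

theorem opK_smul {f : Fn} (hf : Meas f) (c : ℝ≥0∞) : D.opK (c • f) = c • D.opK f := by
  unfold opK
  rw [← AI_smul IIc_meas_att (IIc_meas_kk hf)]
  congr 1
  funext s y v
  simp only [Pi.smul_apply, smul_eq_mul, mul_left_comm _ c]
  exact lintegral_const_mul _
    ((measurable_kk.comp (measurable_const.sub measurable_id)).mul (hf.slice s y))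

end P2

end Crest.Agent.R68
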