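/-
R68/IId: the double Duhamel iteration (Guo's argument)
Skeleton by helper76 (row 68); keep the statements unchanged, add any helper lemmas you like.
-/
import Crest.Agent.R68.IIc

set_option autoImplicit false
set_option linter.unusedVariables false
set_option linter.unusedSectionVars false

noncomputable section

namespace Crest.Agent.R68

open MeasureTheory Set Filter Topology
open scoped ENNReal NNReal
open Crest.AnalysisR.VecCalc3 Crest.AnalysisR.PDE.Boltzmann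

theorem IId_time {a : ℝ} (ha : 0 < a) (r t : ℝ) :
    ∫⁻ s in Ioc r t, ENNReal.ofReal (Real.exp (-(a * (t - s)))) ≤ ENNReal.ofReal (1 / a) := by
  have e : ∀ s : ℝ, Real.exp (-(a * (t - s))) = Real.exp (-(a * t)) * Real.exp (a * s) := fun s => by
    rw [← Real.exp_add]; congr 1; ring
  simp only [e]
  refine (lintegral_mono_set (Ioc_subset_Iic_self (a := r) (b := t))).trans (le_of_eq ?_)
  rw [← ofReal_integral_eq_lintegral_ofReal ((integrableOn_exp_mul_Iic ha t).const_mul _)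
    (ae_of_all _ fun s => by positivity), integral_const_mul, integral_exp_mul_Iic ha,
    ← mul_div_assoc, ← Real.exp_add]
  simp

theorem IId_meas_exp (a t : ℝ) :
    Measurable fun s : ℝ => ENNReal.ofReal (Real.exp (-(a * (t - s)))) := by
  fun_prop

theorem IId_exp_le {a b τ : ℝ} (hab : a ≤ b) (hτ : 0 ≤ τ) :
    ENNReal.ofReal (Real.exp (-(b * τ))) ≤ ENNReal.ofReal (Real.exp (-(a * τ))) :=
  ENNReal.ofReal_le_ofReal (Real.exp_le_exp.2 (neg_le_neg (mul_le_mul_of_nonneg_right hab hτ)))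

theorem IId_adm_one (N : ℝ≥0) : AdmW N (fun _ => 1) :=
  ⟨Empty, ∅, fun _ => 0, fun _ => 0, fun _ => 0, fun _ => le_rfl, by simp, fun v => by simp⟩

theorem IId_inner {w f : R3 → ℝ≥0∞} {K c : ℝ≥0∞} {v : R3} (hw : Measurable w) (S : Set R3)
    (hK : ∫⁻ u in S, kk (v - u) * w u ≤ K) (hf : ∀ u, f u ≤ c * w u) :
    ∫⁻ u in S, kk (v - u) * f u ≤ K * c := by
  calc ∫⁻ u in S, kk (v - u) * f u ≤ ∫⁻ u in S, kk (v - u) * w u * c :=
        lintegral_mono fun u => by
          rw [mul_assoc, mul_comm (w u)]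
          exact mul_le_mul_right (hf u) _
    _ = (∫⁻ u in S, kk (v - u) * w u) * c := lintegral_mul_const _ ((Adm_meas_kk v).mul hw)
    _ ≤ K * c := mul_le_mul_left hK _

/-- splitting of the velocity integral -/
theorem IId_split {w f G : R3 → ℝ≥0∞} {K η a c : ℝ≥0∞} {κ R : ℝ} {v : R3} (hκ : 0 < κ)
    (hw : Measurable w) (hK : ∫⁻ u, kk (v - u) ≤ K)
    (hη : ∫⁻ u in {u | ‖v - u‖ < κ ∨ R < ‖v - u‖}, kk (v - u) * w u ≤ η)
    (hf : ∀ u, f u ≤ c * w u) (hG : ∀ u ∈ Metric.closedBall v R, f u ≤ a + G u) :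
    ∫⁻ u, kk (v - u) * f u ≤
      η * c + (K * a + ENNReal.ofReal (1 + κ⁻¹) * ∫⁻ u in Metric.closedBall v R, G u) := by
  have hS : MeasurableSet {u : R3 | ‖v - u‖ < κ ∨ R < ‖v - u‖} :=
    have hm : Measurable fun u : R3 => ‖v - u‖ := by fun_prop
    MeasurableSet.union (measurableSet_lt hm measurable_const) (measurableSet_lt measurable_const hm)
  rw [← lintegral_add_compl _ hS]
  refine add_le_add (IId_inner hw _ hη hf) ?_
  have hsub : {u : R3 | ‖v - u‖ < κ ∨ R < ‖v - u‖}ᶜ ⊆ Metric.closedBall v R := fun u hu => by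
    simp only [mem_compl_iff, mem_ofPred_eq, not_or, not_lt] at hu
    rw [mem_closedBall_iff_norm']
    exact hu.2
  calc ∫⁻ u in {u : R3 | ‖v - u‖ < κ ∨ R < ‖v - u‖}ᶜ, kk (v - u) * f u
      ≤ ∫⁻ u in {u : R3 | ‖v - u‖ < κ ∨ R < ‖v - u‖}ᶜ,
          (kk (v - u) * a + ENNReal.ofReal (1 + κ⁻¹) * G u) := by
        refine setLIntegral_mono' hS.compl fun u hu => ?_
        refine (mul_le_mul_right (hG u (hsub hu)) _).trans ?_
        rw [mul_add]
        refine add_le_add le_rfl (mul_le_mul_left ((Adm_kk_le _).trans ?_) _)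
        simp only [mem_compl_iff, mem_ofPred_eq, not_or, not_lt] at hu
        rw [ENNReal.ofReal_add zero_le_one (by positivity), ENNReal.ofReal_one,
          ENNReal.ofReal_inv_of_pos hκ, ← ofReal_norm]
        exact add_le_add le_rfl (ENNReal.inv_le_inv.2 (ENNReal.ofReal_le_ofReal hu.1))
    _ = (∫⁻ u in {u : R3 | ‖v - u‖ < κ ∨ R < ‖v - u‖}ᶜ, kk (v - u)) * a +
          ENNReal.ofReal (1 + κ⁻¹) * ∫⁻ u in {u : R3 | ‖v - u‖ < κ ∨ R < ‖v - u‖}ᶜ, G u := by
        rw [lintegral_add_left ((Adm_meas_kk v).mul_const a), lintegral_mul_const _ (Adm_meas_kk v),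
          lintegral_const_mul' _ _ ENNReal.ofReal_ne_top]
    _ ≤ _ := add_le_add (mul_le_mul_left ((setLIntegral_le_lintegral _ _).trans hK) _)
        (mul_le_mul_right (lintegral_mono_set hsub) _)

/-- the shear estimate -/
theorem IId_shear {Φ : R3 → ℝ≥0∞} (hm : Measurable Φ) (hp : IsPeriodic3 Φ) (y v : R3)
    {σ κ₀ R : ℝ} (hκ : 0 < κ₀) (hσ : κ₀ ≤ σ) (hR : 0 ≤ R) :
    ∫⁻ u in Metric.closedBall v R, Φ (y - σ • u) ≤
      ENNReal.ofReal ((2 * R + 2 / κ₀) ^ 3) * ∫⁻ x in cell, Φ x := by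
  have hσ0 : 0 < σ := hκ.trans_le hσ
  rw [lintegral_ball_shear hm y v hσ0]
  refine (mul_le_mul_right (lintegral_ball_le_cell hm hp _ (by positivity)) _).trans ?_
  rw [← mul_assoc, ← ENNReal.ofReal_mul (by positivity), ← mul_pow]
  refine mul_le_mul_left (ENNReal.ofReal_le_ofReal (pow_le_pow_left₀ (by positivity) ?_ 3)) _
  have e : σ⁻¹ * (2 * (σ * R) + 2) = 2 * R + 2 / σ := by field_simp
  rw [e]
  gcongr

namespace P2

theorem IId_opK_eq (D : P2) (g : Fn) (t : ℝ) (x v : R3) :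
    D.opK g t x v = ∫⁻ s in Ioc D.t₁ t,
      ENNReal.ofReal (Real.exp (-(D.ν / 2 * (1 + ‖v‖) * (t - s)))) *
        ∫⁻ u, kk (v - u) * g s (x - (t - s) • v) u := by
  unfold opK AI
  refine setLIntegral_congr_fun measurableSet_Ioc fun s hs => ?_
  beta_reduce
  rw [ex_att t s hs.2]
  rfl

theorem IId_opK_le {D : P2} (hν : 0 < D.ν) {g : Fn} {t : ℝ} (x : R3) {v : R3} {J : ℝ≥0∞}
    (h : ∀ s ∈ Ioc D.t₁ t, ∀ y, ∫⁻ u, kk (v - u) * g s y u ≤ J) :
    D.opK g t x v ≤ ENNReal.ofReal (1 / (D.ν / 2 * (1 + ‖v‖))) * J := by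
  have hν' : (0 : ℝ) < D.ν := hν
  rw [IId_opK_eq]
  refine (setLIntegral_mono' measurableSet_Ioc fun s hs => mul_le_mul_right (h s hs _) _).trans ?_
  rw [lintegral_mul_const _ (IId_meas_exp _ _)]
  exact mul_le_mul_left (IId_time (by positivity) _ _) _

theorem IId_n_le {ν : ℝ≥0} (hν : 0 < ν) (v : R3) :
    ENNReal.ofReal (1 / (ν / 2 * (1 + ‖v‖))) ≤ ((2 / ν : ℝ≥0) : ℝ≥0∞) := by
  have hν' : (0 : ℝ) < ν := hν
  rw [← ENNReal.ofReal_coe_nnreal]
  refine ENNReal.ofReal_le_ofReal ?_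
  push_cast
  rw [div_le_div_iff₀ (by positivity) hν']
  nlinarith [mul_nonneg hν'.le (norm_nonneg v)]

theorem IId_n_le' {ν η : ℝ≥0} (hν : 0 < ν) (hη : 0 < η) {v : R3} (hv : (η : ℝ)⁻¹ ≤ ‖v‖) :
    ENNReal.ofReal (1 / (ν / 2 * (1 + ‖v‖))) ≤ ((2 / ν * η : ℝ≥0) : ℝ≥0∞) := by
  have hν' : (0 : ℝ) < ν := hν
  have hη' : (0 : ℝ) < η := hη
  rw [← ENNReal.ofReal_coe_nnreal]
  refine ENNReal.ofReal_le_ofReal ?_
  push_cast
  have h1 : 1 ≤ (η : ℝ) * ‖v‖ := by
    rw [inv_le_iff_one_le_mul₀' hη'] at hv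
    exact hv
  rw [div_mul_eq_mul_div (2 : ℝ), div_le_div_iff₀ (by positivity) hν']
  nlinarith [mul_le_mul_of_nonneg_left h1 hν'.le, mul_pos hν' hη']

/-- the inner Duhamel integral for bounded velocities -/
theorem IId_inner_time {D : P2} (hν : 0 < D.ν) {f : Fn} {Φ : ℝ → R3 → ℝ≥0∞} {s κ₀ : ℝ}
    (hκ : 0 < κ₀) (y u : R3) {J b A : ℝ≥0∞} (hA : A ≠ ⊤)
    (h1 : ∀ s' ∈ Ioc D.t₁ s, ∀ z, ∫⁻ w, kk (u - w) * f s' z w ≤ J)
    (h2 : ∀ s' ∈ Ioc D.t₁ s, ∀ z, ∫⁻ w, kk (u - w) * f s' z w ≤ b + A * Φ s' z) :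
    D.opK f s y u ≤ (((2 / D.ν : ℝ≥0) : ℝ≥0∞) * b + J * ENNReal.ofReal κ₀) +
      A * ∫⁻ s' in Ioc D.t₁ (s - κ₀),
        ENNReal.ofReal (Real.exp (-(D.ν / 2 * (s - s')))) * Φ s' (y - (s - s') • u) := by
  have hν' : (0 : ℝ) < D.ν := hν
  rw [IId_opK_eq]
  have hsub : Ioc D.t₁ s ⊆ Ioc D.t₁ (s - κ₀) ∪ Ioc (max D.t₁ (s - κ₀)) s := fun s' hs' => by
    rcases le_or_gt s' (s - κ₀) with h | h
    · exact Or.inl ⟨hs'.1, h⟩
    · exact Or.inr ⟨max_lt hs'.1 h, hs'.2⟩
  have hle : ∀ s' ≤ s, ENNReal.ofReal (Real.exp (-(D.ν / 2 * (1 + ‖u‖) * (s - s')))) ≤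
      ENNReal.ofReal (Real.exp (-(D.ν / 2 * (s - s')))) := fun s' hs' =>
    IId_exp_le (le_mul_of_one_le_right (by positivity) (by linarith [norm_nonneg u])) (by linarith)
  refine (lintegral_mono_set hsub).trans ((lintegral_union_le _ _ _).trans ?_)
  rw [add_right_comm]
  refine add_le_add ?_ ?_
  · calc _ ≤ ∫⁻ s' in Ioc D.t₁ (s - κ₀), (ENNReal.ofReal (Real.exp (-(D.ν / 2 * (s - s')))) * b +
          A * (ENNReal.ofReal (Real.exp (-(D.ν / 2 * (s - s')))) * Φ s' (y - (s - s') • u))) := by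
          refine setLIntegral_mono' measurableSet_Ioc fun s' hs' => ?_
          have hs : s' ≤ s := by linarith [hs'.2]
          refine (mul_le_mul' (hle s' hs) (h2 s' ⟨hs'.1, hs⟩ _)).trans (le_of_eq ?_)
          ring
      _ ≤ _ := by
          rw [lintegral_add_left ((IId_meas_exp _ _).mul_const b),
            lintegral_mul_const _ (IId_meas_exp _ _), lintegral_const_mul' _ _ hA]
          refine add_le_add (mul_le_mul_left ?_ _) le_rfl
          refine (lintegral_mono_set (Ioc_subset_Ioc_right (by linarith : s - κ₀ ≤ s))).trans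
            ((IId_time (by positivity) _ _).trans (le_of_eq ?_))
          rw [← ENNReal.ofReal_coe_nnreal]
          congr 1
          push_cast
          field_simp
  · calc _ ≤ ∫⁻ s' in Ioc (max D.t₁ (s - κ₀)) s, J := by
          refine setLIntegral_mono' measurableSet_Ioc fun s' hs' => ?_
          have h3 : ENNReal.ofReal (Real.exp (-(D.ν / 2 * (1 + ‖u‖) * (s - s')))) ≤ 1 := by
            rw [ENNReal.ofReal_le_one, Real.exp_le_one_iff, neg_nonpos]
            exact mul_nonneg (by positivity) (by linarith [hs'.2])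
          refine (mul_le_mul' h3 (h1 s' ⟨(le_max_left _ _).trans_lt hs'.1, hs'.2⟩ _)).trans
            (le_of_eq (one_mul _))
      _ ≤ _ := by
          rw [setLIntegral_const, Real.volume_Ioc]
          refine mul_le_mul_right (ENNReal.ofReal_le_ofReal ?_) _
          linarith [le_max_right D.t₁ (s - κ₀)]

/-- `opK (opK f) t x v` is an integral over `s, u, s', w` of
`e^{-ν br v (t-s)/2} kk (v-u) e^{-ν br u (s-s')/2} kk (u-w) f s' (x_s - (s-s') u) w`.
If `‖v‖ ≥ R'` the `s`-integral gains `2 / (ν R')`.  Small pieces: `s - s' ≤ κ₀`; `‖v-u‖ ∉ [κ, R]`;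
`‖u-w‖ ∉ [κ, R]` (`adm_kk_small`, `adm_kk`; the constant weight `1` is admissible).  On the rest
`kk ≤ 1 + κ⁻¹`, `1 ≤ e^{(R'+2R)²/4} ga (1/4) w`, and `lintegral_ball_shear`,
`lintegral_ball_le_cell` bound the `u, w` integral by `(2 (R'+R) + 2/κ₀)³ h`. -/
theorem opKK_le (ν N Cw : ℝ≥0) (hν : 0 < ν) {θ : ℝ≥0} (hθ : 0 < θ) : ∃ C : ℝ≥0, ∀ D : P2,
    D.Par ν N Cw → ∀ f : Fn, Meas f → InvF f → ∀ (T : ℝ) (c h : ℝ≥0∞),
      LeOn D.t₁ T f (c • D.om) →
      (∀ s ∈ Icc D.t₁ T, ∫⁻ y in cell, ∫⁻ u, ga (1 / 4) u * f s y u ≤ h) →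
      ∀ t ∈ Icc D.t₁ T, ∀ x v, D.opK (D.opK f) t x v ≤ θ * c + C * h := by
  obtain ⟨K, hK⟩ := adm_kk N
  obtain ⟨n, hn⟩ : ∃ n : ℝ≥0, n = 2 / ν := ⟨_, rfl⟩
  obtain ⟨P, hP⟩ : ∃ P : ℝ≥0, P = n * (n * K + K * (n + K) + K * (n * K)) := ⟨_, rfl⟩
  obtain ⟨η, hηdef⟩ : ∃ η : ℝ≥0, η = θ / (P + 1) := ⟨_, rfl⟩
  have hη : 0 < η := by rw [hηdef]; positivity
  have hη' : (0 : ℝ) < η := hη
  have hηP : η * P ≤ θ := by
    rw [hηdef, div_mul_eq_mul_div, div_le_iff₀ (by positivity)]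
    exact mul_le_mul_right (le_self_add) _
  obtain ⟨κ, R, hκ, hR, hs⟩ := adm_kk_small N hη
  obtain ⟨A, hA⟩ : ∃ A : ℝ≥0∞, A = ENNReal.ofReal (1 + κ⁻¹) *
    ENNReal.ofReal (Real.exp (1 / 4 * ((η : ℝ)⁻¹ + R + R) ^ 2)) := ⟨_, rfl⟩
  have hAt : A ≠ ⊤ := by rw [hA]; exact ENNReal.mul_ne_top ENNReal.ofReal_ne_top ENNReal.ofReal_ne_top
  obtain ⟨C, hC⟩ : ∃ C : ℝ≥0∞, C = n * (ENNReal.ofReal (1 + κ⁻¹) * (A * (n *
    ENNReal.ofReal ((2 * R + 2 / η) ^ 3)))) := ⟨_, rfl⟩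
  have hCt : C ≠ ⊤ := by
    rw [hC]
    exact ENNReal.mul_ne_top ENNReal.coe_ne_top (ENNReal.mul_ne_top ENNReal.ofReal_ne_top
      (ENNReal.mul_ne_top hAt (ENNReal.mul_ne_top ENNReal.coe_ne_top ENNReal.ofReal_ne_top)))
  refine ⟨C.toNNReal, fun D hD f hf hi T c h hc hh t ht x v => ?_⟩
  rw [ENNReal.coe_toNNReal hCt]
  obtain ⟨ok, rfl, rfl, rfl⟩ := hD
  have hK1 : ∀ v, ∫⁻ u, kk (v - u) ≤ K := fun v => by
    simpa only [mul_one] using hK _ (IId_adm_one D.N) v
  -- first bounds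
  have b1 : ∀ s ∈ Icc D.t₁ T, ∀ z u, ∫⁻ w, kk (u - w) * f s z w ≤ K * c := fun s hs z u => by
    have := IId_inner (v := u) (f := f s z) (c := c) (K := K) (ok.adm s z).measurable univ
      (by rw [Measure.restrict_univ]; exact hK _ (ok.adm s z) u) (fun w => hc s hs z w)
    rwa [Measure.restrict_univ] at this
  have b2 : ∀ s ∈ Icc D.t₁ T, ∀ y u, D.opK f s y u ≤ (n * (K * c)) * 1 := fun s hs y u => by
    rw [mul_one, hn]
    exact (IId_opK_le hν y fun s' hs' z => b1 s' ⟨hs'.1.le, hs'.2.trans hs.2⟩ z u).trans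
      (mul_le_mul_left (IId_n_le hν u) _)
  have hθ' : ((η * P : ℝ≥0) : ℝ≥0∞) ≤ θ := ENNReal.coe_le_coe.2 hηP
  rw [hP] at hθ'
  push_cast at hθ'
  rcases le_total (η : ℝ)⁻¹ ‖v‖ with hv | hv
  · -- large velocities
    have b3 : ∀ s ∈ Ioc D.t₁ t, ∀ y, ∫⁻ u, kk (v - u) * D.opK f s y u ≤ K * (n * (K * c)) :=
      fun s hs y => by
        have := IId_inner (v := v) (f := D.opK f s y) (c := n * (K * c)) (K := K)
          (w := fun _ => 1) measurable_const univ
          (by rw [Measure.restrict_univ]; exact hK _ (IId_adm_one D.N) v)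
          (fun u => b2 s ⟨hs.1.le, hs.2.trans ht.2⟩ y u)
        rwa [Measure.restrict_univ] at this
    refine (IId_opK_le hν x b3).trans ((mul_le_mul_left (IId_n_le' hν hη hv) _).trans ?_)
    rw [← hn]
    push_cast
    refine le_trans ?_ (le_self_add.trans' (mul_le_mul_left hθ' c))
    calc (n : ℝ≥0∞) * η * (K * (n * (K * c))) = η * (n * (K * (n * K))) * c := by ring
      _ ≤ _ := mul_le_mul_left (mul_le_mul_right (mul_le_mul_right le_add_self _) _) _
  · -- bounded velocities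
    obtain ⟨Φ, hΦ⟩ : ∃ Φ : ℝ → R3 → ℝ≥0∞, Φ = fun s z => ∫⁻ w, ga (1 / 4) w * f s z w := ⟨_, rfl⟩
    have mΦ : Measurable fun p : ℝ × R3 => Φ p.1 p.2 := by
      rw [hΦ]
      refine Measurable.lintegral_prod_right' (f := fun q : (ℝ × R3) × R3 =>
        ga (1 / 4) q.2 * f q.1.1 q.1.2 q.2) ?_
      exact ((measurable_ga _).comp measurable_snd).mul
        (path_meas_comp hf measurable_fst.fst measurable_fst.snd measurable_snd)
    have pΦ : ∀ s, IsPeriodic3 (Φ s) := fun s z i => by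
      rw [hΦ]
      exact lintegral_congr fun w => congrArg _ (hi.per s w z i)
    have b4 : ∀ u ∈ Metric.closedBall v R, ∀ s ∈ Icc D.t₁ T, ∀ z,
        ∫⁻ w, kk (u - w) * f s z w ≤ η * c + A * Φ s z := fun u hu s hs' z => by
      refine (IId_split (w := D.om s z) (a := 0) (G := f s z) (c := c) hκ (ok.adm s z).measurable
        (hK1 u) (hs _ (ok.adm s z) u) (fun w => hc s hs' z w)
        (fun w _ => by rw [zero_add])).trans (add_le_add le_rfl ?_)
      rw [mul_zero, zero_add, hA, mul_assoc, hΦ]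
      refine mul_le_mul_right ?_ _
      beta_reduce
      rw [← lintegral_const_mul' _ _ ENNReal.ofReal_ne_top]
      refine le_trans (setLIntegral_mono' measurableSet_closedBall fun w hw => ?_)
        (setLIntegral_le_lintegral _ _)
      rw [← mul_assoc]
      refine le_mul_of_one_le_left zero_le ?_
      rw [ga, ← ENNReal.ofReal_mul (by positivity), ← Real.exp_add, ENNReal.one_le_ofReal,
        Real.one_le_exp_iff]
      have a1 : ‖w‖ ≤ (η : ℝ)⁻¹ + R + R := by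
        have a2 := norm_le_norm_add_const_of_dist_le (Metric.mem_closedBall.1 hw)
        have a3 := norm_le_norm_add_const_of_dist_le (Metric.mem_closedBall.1 hu)
        linarith
      nlinarith [pow_le_pow_left₀ (norm_nonneg w) a1 2]
    have b5 : ∀ s ∈ Ioc D.t₁ t, ∀ y, ∫⁻ u, kk (v - u) * D.opK f s y u ≤
        η * (n * (K * c)) + (K * (n * (η * c) + K * c * η) + ENNReal.ofReal (1 + κ⁻¹) *
          (A * (n * (ENNReal.ofReal ((2 * R + 2 / η) ^ 3) * h)))) := fun s hs' y => by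
      have hsT : s ≤ T := hs'.2.trans ht.2
      refine (IId_split (w := fun _ => 1) (a := n * (η * c) + K * c * η)
        (G := fun u => A * ∫⁻ s' in Ioc D.t₁ (s - η),
          ENNReal.ofReal (Real.exp (-(D.ν / 2 * (s - s')))) * Φ s' (y - (s - s') • u))
        (c := n * (K * c)) hκ measurable_const (hK1 v) (hs _ (IId_adm_one D.N) v)
        (fun u => b2 s ⟨hs'.1.le, hsT⟩ y u) (fun u hu => ?_)).trans
        (add_le_add le_rfl (add_le_add le_rfl (mul_le_mul_right ?_ _)))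
      · have := IId_inner_time (D := D) hν (f := f) (Φ := Φ) (s := s) hη' y u hAt
          (fun s' hs'' z => b1 s' ⟨hs''.1.le, hs''.2.trans hsT⟩ z u)
          (fun s' hs'' z => b4 u hu s' ⟨hs''.1.le, hs''.2.trans hsT⟩ z)
        rwa [← hn, ENNReal.ofReal_coe_nnreal] at this
      · rw [lintegral_const_mul' _ _ hAt]
        refine mul_le_mul_right ?_ _
        rw [lintegral_lintegral_swap]
        · calc _ ≤ ∫⁻ s' in Ioc D.t₁ (s - η), ENNReal.ofReal (Real.exp (-(D.ν / 2 * (s - s')))) *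
                (ENNReal.ofReal ((2 * R + 2 / η) ^ 3) * h) := by
                refine setLIntegral_mono' measurableSet_Ioc fun s' hs'' => ?_
                rw [lintegral_const_mul' _ _ ENNReal.ofReal_ne_top]
                refine mul_le_mul_right ((IId_shear (mΦ.comp measurable_prodMk_left) (pΦ s') y v hη'
                  (by linarith [hs''.2]) (by linarith)).trans (mul_le_mul_right ?_ _)) _
                have := hh s' ⟨hs''.1.le, by linarith [hs''.2]⟩
                rw [hΦ]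
                exact this
            _ ≤ _ := by
                have hν' : (0 : ℝ) < D.ν := hν
                rw [lintegral_mul_const _ (IId_meas_exp _ _)]
                refine mul_le_mul_left ?_ _
                refine (lintegral_mono_set (Ioc_subset_Ioc_right (by linarith : s - η ≤ s))).trans
                  ((IId_time (by positivity) _ _).trans (le_of_eq ?_))
                rw [hn, ← ENNReal.ofReal_coe_nnreal]
                congr 1
                push_cast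
                field_simp
        · refine Measurable.aemeasurable ?_
          exact ((IId_meas_exp _ _).comp measurable_snd).mul
            (mΦ.comp (measurable_snd.prodMk (measurable_const.sub
              ((measurable_const.sub measurable_snd).smul measurable_fst))))
    refine (IId_opK_le hν x b5).trans ((mul_le_mul_left (IId_n_le hν v) _).trans ?_)
    rw [← hn, hC]
    calc (n : ℝ≥0∞) * (η * (n * (K * c)) + (K * (n * (η * c) + K * c * η) +
          ENNReal.ofReal (1 + κ⁻¹) * (A * (n * (ENNReal.ofReal ((2 * R + 2 / η) ^ 3) * h))))) =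
        η * (n * (n * K + K * (n + K))) * c + n * (ENNReal.ofReal (1 + κ⁻¹) * (A * (n *
          ENNReal.ofReal ((2 * R + 2 / η) ^ 3)))) * h := by ring
      _ ≤ _ := add_le_add (mul_le_mul_left (le_trans (mul_le_mul_right
          (mul_le_mul_right le_self_add _) _) hθ') _) le_rfl

/-- `f = hq x₂ F` satisfies `f ≤ A om + K opK f` by `Phi_dv`; insert this once more. -/
theorem guo (ν N Cw : ℝ≥0) (hν : 0 < ν) : ∃ x' K : ℝ≥0, 0 < x' ∧ ∀ θ : ℝ≥0, 0 < θ → ∃ C : ℝ≥0,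
    ∀ D : P2, D.Par ν N Cw → ∀ x₂ ≤ x', ∀ F, D.TS x₂ F → ∀ (T : ℝ) (h : ℝ≥0∞),
      (∀ s ∈ Icc D.t₁ T, ∫⁻ y in cell, ∫⁻ u, dv F s y u ≤ h) →
      LeOn D.t₁ T (dv F) (D.Sg + (K * (D.ε₂ + x₂ ^ 2) + θ * x₂ + C * h) • D.mw) := by
  obtain ⟨x', K, hx', -, hΦ⟩ := Phi_dv ν N Cw hν
  obtain ⟨K₁, hK₁⟩ := adm_kk N
  obtain ⟨B, hB⟩ : ∃ B : ℝ≥0, B = 2 / ν * K₁ := ⟨_, rfl⟩
  refine ⟨x', (4 * Cw + K) * (1 + K * B), hx', fun θ hθ => ?_⟩
  obtain ⟨θ', hθ'⟩ : ∃ θ' : ℝ≥0, θ' = θ / (K * K + 1) := ⟨_, rfl⟩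
  have hθ0 : 0 < θ' := by rw [hθ']; positivity
  have hθ1 : K * K * θ' ≤ θ := by
    rw [hθ', ← mul_div_assoc, div_le_iff₀ (by positivity), mul_comm θ]
    exact mul_le_mul_left le_self_add _
  obtain ⟨C, hC⟩ := opKK_le ν N Cw hν hθ0
  refine ⟨K * K * C, fun D hD x₂ hx F hF T h hh t ht x v => ?_⟩
  have ok := hD.ok
  obtain ⟨a, ha⟩ : ∃ a : ℝ≥0∞, a = 4 * Cw * D.ε₂ + K * x₂ ^ 2 := ⟨_, rfl⟩
  obtain ⟨f, hf⟩ : ∃ f, f = D.hq x₂ F := ⟨_, rfl⟩
  have mf : Meas f := hf ▸ ok.meas_hq hF.reg.meas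
  have b1 : ∀ t, D.t₁ ≤ t → ∀ x v,
      dv F t x v ≤ D.Sg t x v + a * D.mw t x v + K * ga (1 / 4) v * D.opK f t x v := by
    intro t ht x v
    have := hΦ D hD x₂ hx F hF.reg.meas t ht x v
    rw [← ha, ← hf] at this
    refine le_trans (le_of_eq ?_) this
    simp only [dv, Pi.sup_apply, Pi.sub_apply, hF.eq t ht x v]
  have b2 : LeOn D.t₁ T f (a • D.om + (K : ℝ≥0∞) • D.opK f) := by
    intro t ht x v
    have h1 := b1 t ht.1 x v
    conv_lhs => rw [hf]
    refine ENNReal.div_le_of_le_mul ((min_le_left _ _).trans ?_)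
    simp only [hd, Pi.sub_apply, Pi.add_apply, Pi.smul_apply, smul_eq_mul]
    rw [tsub_le_iff_left]
    refine h1.trans (le_of_eq ?_)
    simp only [mw, vl, Pi.mul_apply]
    ring
  have b3 : D.opK D.om t x v ≤ B := by
    have hν' : 0 < D.ν := ok.ν_pos
    refine (IId_opK_le hν' x (J := K₁) fun s _ y => hK₁ _ (hD.hN ▸ ok.adm s y) v).trans ?_
    rw [hB, ENNReal.coe_mul, ← hD.hν]
    exact mul_le_mul_left (IId_n_le hν' v) _
  have b4 : D.opK (D.opK f) t x v ≤ θ' * x₂ + C * h := by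
    refine hC D hD f mf (hf ▸ ok.inv_hq hF.reg.inv) T x₂ h
      (fun s _ y u => hf ▸ ok.hq_le F s y u) (fun s hs => le_trans ?_ (hh s hs)) t ht x v
    exact lintegral_mono fun y => lintegral_mono fun u => hf ▸ ok.mul_hq_le s y u
  have b5 : D.opK f t x v ≤ a * B + K * (θ' * x₂ + C * h) := by
    have h1 := opK_mono b2 t ht x v
    rw [opK_add (ok.rom.meas.smul a) ((meas_opK mf).smul K), opK_smul ok.rom.meas,
      opK_smul (meas_opK mf)] at h1
    exact h1.trans (add_le_add (mul_le_mul_right b3 _) (mul_le_mul_right b4 _))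
  have b6 : a ≤ (4 * Cw + K) * (D.ε₂ + x₂ ^ 2) := by
    rw [ha, add_mul]
    exact add_le_add (mul_le_mul_right le_self_add _) (mul_le_mul_right le_add_self _)
  have b7 : ((K * K * θ' : ℝ≥0) : ℝ≥0∞) ≤ θ := ENNReal.coe_le_coe.2 hθ1
  push_cast at b7
  refine (b1 t ht.1 x v).trans ?_
  simp only [Pi.add_apply, Pi.smul_apply, smul_eq_mul]
  push_cast
  rw [add_assoc]
  refine add_le_add le_rfl ?_
  calc a * D.mw t x v + K * ga (1 / 4) v * D.opK f t x v
      ≤ a * D.mw t x v + K * D.mw t x v * (a * B + K * (θ' * x₂ + C * h)) :=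
        add_le_add le_rfl (mul_le_mul' (mul_le_mul_right (ok.ga_le_mw t x v) _) b5)
    _ = (a * (1 + K * B) + K * K * θ' * x₂ + K * K * C * h) * D.mw t x v := by ring
    _ ≤ _ := by
        refine mul_le_mul_left (add_le_add (add_le_add ?_ (mul_le_mul_left b7 _)) le_rfl) _
        rw [mul_right_comm]
        exact mul_le_mul_left b6 _

end P2

end Crest.Agent.R68
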