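/-
R68/SolInt: integrability of the collision terms; characteristics on the torus
Skeleton by helper76 (row 68); keep the statements unchanged, add any helper lemmas you like.
-/
import Crest.Agent.R68.Path
import Crest.Agent.R68.Geo2

set_option autoImplicit false
set_option linter.unusedVariables false
set_option linter.unusedSectionVars false

noncomputable section

namespace Crest.Agent.R68

open MeasureTheory Set Filter Topology
open scoped ENNReal NNReal
open Crest.AnalysisR.VecCalc3 Crest.AnalysisR.PDE.Boltzmann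

variable {F : Fn} {T t : ℝ} {x : R3}

theorem solInt_young (X Y : ℝ≥0∞) : X ^ (4 / 5 : ℝ) * Y ^ (1 / 5 : ℝ) ≤ X + Y := by
  have h : ∀ Z : ℝ≥0∞, Z ^ (4 / 5 : ℝ) * Z ^ (1 / 5 : ℝ) = Z := fun Z => by
    rw [← ENNReal.rpow_add_of_nonneg _ _ (by norm_num) (by norm_num)]
    norm_num
  rcases le_total X Y with hXY | hXY
  · calc _ ≤ Y ^ (4 / 5 : ℝ) * Y ^ (1 / 5 : ℝ) :=
          mul_le_mul_left (ENNReal.rpow_le_rpow hXY (by norm_num)) _
      _ = Y := h Y
      _ ≤ _ := le_add_self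
  · calc _ ≤ X ^ (4 / 5 : ℝ) * X ^ (1 / 5 : ℝ) :=
          mul_le_mul_right (ENNReal.rpow_le_rpow hXY (by norm_num)) _
      _ = X := h X
      _ ≤ _ := le_self_add

/-- Two real functions with the same distribution have the same integral. -/
theorem solInt_real {α : Type} [MeasurableSpace α] {μ : Measure α} {f g : α → ℝ} (hf : Measurable f)
    (hg : Measurable g) (h : ∀ φ : ℝ → ℝ≥0∞, Measurable φ → ∫⁻ a, φ (g a) ∂μ = ∫⁻ a, φ (f a) ∂μ)
    (hi : Integrable f μ) : Integrable g μ ∧ ∫ a, g a ∂μ = ∫ a, f a ∂μ := by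
  have h1 : Integrable g μ := by
    refine ⟨hg.aestronglyMeasurable, ?_⟩
    have := hi.2
    unfold HasFiniteIntegral at this ⊢
    rwa [h _ measurable_enorm]
  refine ⟨h1, ?_⟩
  rw [integral_eq_lintegral_pos_part_sub_lintegral_neg_part h1,
    integral_eq_lintegral_pos_part_sub_lintegral_neg_part hi, h _ ENNReal.measurable_ofReal,
    h (fun y => ENNReal.ofReal (-y)) (ENNReal.measurable_ofReal.comp measurable_neg)]

theorem solInt_meas_path {G : Fn} (hG : Meas G) (q : R3 × R3) :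
    Measurable fun s : ℝ => G s (q.1 + s • q.2) q.2 :=
  Measurable.comp (f := fun s : ℝ => (s, q.1 + s • q.2, q.2)) hG (by fun_prop)

theorem solInt_meas_int {G : Fn} (hG : Meas G) (I : Set ℝ) :
    Measurable fun q : R3 × R3 => ∫⁻ t in I, G t (q.1 + t • q.2) q.2 := by
  have ms : Measurable fun p : (R3 × R3) × ℝ => G p.2 (p.1.1 + p.2 • p.1.2) p.1.2 :=
    Measurable.comp (f := fun p : (R3 × R3) × ℝ => (p.2, p.1.1 + p.2 • p.1.2, p.1.2)) hG (by fun_prop)
  exact ms.lintegral_prod_right'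

theorem collGain_re (hfin : ∀ v, F t x v ≠ ⊤) (v : R3) : collGain (re F) t x v = GN F F t x v := by
  unfold collGain GN gn cw re
  refine lintegral_congr fun vs => lintegral_congr fun w => ?_
  rw [ENNReal.ofReal_mul (mul_nonneg (abs_nonneg _) ENNReal.toReal_nonneg),
    ENNReal.ofReal_mul (abs_nonneg _), ENNReal.ofReal_toReal (hfin _), ENNReal.ofReal_toReal (hfin _),
    mul_assoc]

theorem collLoss_re (hfin : ∀ v, F t x v ≠ ⊤) (hm : Measurable (F t x)) (v : R3) :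
    collLoss (re F) t x v = (F * LS F) t x v := by
  show _ = F t x v * ls (F t x) v
  unfold collLoss ls cw re
  rw [← lintegral_const_mul' _ _ (hfin v)]
  refine lintegral_congr fun vs => ?_
  rw [← lintegral_const_mul' _ _ (hfin v)]
  refine lintegral_congr fun w => ?_
  rw [ENNReal.ofReal_mul (mul_nonneg (abs_nonneg _) ENNReal.toReal_nonneg),
    ENNReal.ofReal_mul (abs_nonneg _), ENNReal.ofReal_toReal (hfin _), ENNReal.ofReal_toReal (hfin _)]
  ring

theorem measurable_re (h : Meas F) : Measurable fun p : ℝ × R3 × R3 => re F p.1 p.2.1 p.2.2 := by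
  exact Measurable.ennreal_toReal h

theorem per_GN (h : ∀ t v, IsPeriodic3 fun x => F t x v) (t : ℝ) (v : R3) :
    IsPeriodic3 fun x => GN F F t x v := by
  intro x i
  have e : F t (x + EuclideanSpace.single i 1) = F t x := funext fun v => h t v x i
  simp only [GN, e]

theorem per_loss (h : ∀ t v, IsPeriodic3 fun x => F t x v) (t : ℝ) (v : R3) :
    IsPeriodic3 fun x => (F * LS F) t x v := by
  intro x i
  have e : F t (x + EuclideanSpace.single i 1) = F t x := funext fun v => h t v x i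
  simp only [Pi.mul_apply, LS, e]

/-- `lintegral_gn_br_le`, `lintegral_ls_br_le` and `ρ² B^(1/5) ≤ ρ^(5/2) + B`. -/
theorem Env.coll_int (e : Env F T) (h : Meas F) (k : ℕ) :
    ∫⁻ t in Ioc 0 T, ∫⁻ x in cell, ∫⁻ v,
      (GN F F t x v + (F * LS F) t x v) * br v ^ k * e.B t x ^ (1 / 5 : ℝ) ≠ ⊤ := by
  obtain ⟨C, hC⟩ := e.mom (k + 1)
  obtain ⟨C₂, hC₂⟩ := e.int₂
  have h1 : ∀ t ∈ Icc 0 T, ∀ x, ∫⁻ v, (GN F F t x v + (F * LS F) t x v) * br v ^ k * e.B t x ^ (1 / 5 : ℝ) ≤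
      (48 * C ^ 2 : ℝ≥0) * (e.ρ t x ^ (5 / 2 : ℝ) + e.B t x) := fun t ht x => by
    have m1 : Measurable fun v => GN F F t x v * br v ^ k :=
      ((h.GN h).slice t x).mul (measurable_br.pow_const k)
    have m2 : Measurable fun v => (F * LS F) t x v * br v ^ k :=
      ((h.mul h.LS).slice t x).mul (measurable_br.pow_const k)
    simp only [add_mul (GN F F t x _)]
    rw [lintegral_mul_const _ (m1.fun_add m2), lintegral_add_left m1]
    have a1 : ∫⁻ v, GN F F t x v * br v ^ k ≤ 24 * ((C * e.ρ t x) * (C * e.ρ t x)) :=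
      (lintegral_gn_br_le (h.slice t x) (h.slice t x) k).trans
        (mul_le_mul_right (mul_le_mul' (hC t ht x) (hC t ht x)) _)
    have a2 : ∫⁻ v, (F * LS F) t x v * br v ^ k ≤ 24 * ((C * e.ρ t x) * (C * e.ρ t x)) :=
      (lintegral_ls_br_le (h.slice t x) (h.slice t x) k).trans
        (mul_le_mul_right (mul_le_mul' (hC t ht x) (hC t ht x)) _)
    have a3 := solInt_young (e.ρ t x ^ (5 / 2 : ℝ)) (e.B t x)
    rw [← ENNReal.rpow_mul, show (5 / 2 * (4 / 5) : ℝ) = ((2 : ℕ) : ℝ) by norm_num,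
      ENNReal.rpow_natCast] at a3
    calc _ ≤ (24 * ((C * e.ρ t x) * (C * e.ρ t x)) + 24 * ((C * e.ρ t x) * (C * e.ρ t x))) *
          e.B t x ^ (1 / 5 : ℝ) := mul_le_mul_left (add_le_add a1 a2) _
      _ = (48 * C ^ 2 : ℝ≥0) * (e.ρ t x ^ 2 * e.B t x ^ (1 / 5 : ℝ)) := by
          push_cast
          ring
      _ ≤ _ := mul_le_mul_right a3 _
  have mρ : ∀ t, Measurable fun x => e.ρ t x ^ (5 / 2 : ℝ) := fun t =>
    (e.mρ.comp measurable_prodMk_left).pow_const _
  have h2 : ∀ t ∈ Ioc 0 T, ∫⁻ x in cell, ∫⁻ v,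
      (GN F F t x v + (F * LS F) t x v) * br v ^ k * e.B t x ^ (1 / 5 : ℝ) ≤
      (48 * C ^ 2 : ℝ≥0) * ((∫⁻ x in cell, e.ρ t x ^ (5 / 2 : ℝ)) + C₂) := fun t ht => by
    refine (lintegral_mono fun x => h1 t (Ioc_subset_Icc_self ht) x).trans ?_
    rw [lintegral_const_mul' _ _ ENNReal.coe_ne_top, lintegral_add_left (mρ t)]
    refine mul_le_mul_right (add_le_add le_rfl ?_) _
    exact (lintegral_mono fun x => le_add_self).trans (hC₂ t (Ioc_subset_Icc_self ht))
  refine ne_top_of_le_ne_top ?_ (setLIntegral_mono' measurableSet_Ioc h2)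
  rw [lintegral_const_mul' _ _ ENNReal.coe_ne_top, lintegral_add_right _ measurable_const]
  refine ENNReal.mul_ne_top ENNReal.coe_ne_top (ENNReal.add_ne_top.2 ⟨e.int₁, ?_⟩)
  rw [setLIntegral_const]
  exact ENNReal.mul_ne_top ENNReal.coe_ne_top (by simp)

/-- `ρ B^(1/5) ≤ ρ^(3/2) + B`. -/
theorem Env.mass (e : Env F T) (h : Meas F) (k : ℕ) : ∃ C : ℝ≥0, ∀ t ∈ Icc 0 T,
    ∫⁻ x in cell, ∫⁻ v, br v ^ k * F t x v * e.B t x ^ (1 / 5 : ℝ) ≤ C := by
  obtain ⟨C, hC⟩ := e.mom k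
  obtain ⟨C₂, hC₂⟩ := e.int₂
  refine ⟨C * C₂, fun t ht => ?_⟩
  have h1 : ∀ x, ∫⁻ v, br v ^ k * F t x v * e.B t x ^ (1 / 5 : ℝ) ≤
      C * (e.ρ t x ^ (3 / 2 : ℝ) + e.B t x) := fun x => by
    rw [lintegral_mul_const _ ((measurable_br.pow_const k).fun_mul (h.slice t x))]
    have a3 := solInt_young (e.ρ t x ^ (5 / 4 : ℝ)) (e.B t x)
    rw [← ENNReal.rpow_mul, show (5 / 4 * (4 / 5) : ℝ) = 1 by norm_num, ENNReal.rpow_one] at a3
    have a4 : e.ρ t x ^ (5 / 4 : ℝ) ≤ e.ρ t x ^ (3 / 2 : ℝ) :=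
      ENNReal.rpow_le_rpow_of_exponent_le (e.one_ρ t x) (by norm_num)
    calc _ ≤ (C * e.ρ t x) * e.B t x ^ (1 / 5 : ℝ) := mul_le_mul_left (hC t ht x) _
      _ = C * (e.ρ t x * e.B t x ^ (1 / 5 : ℝ)) := mul_assoc _ _ _
      _ ≤ _ := mul_le_mul_right (a3.trans (add_le_add a4 le_rfl)) _
  refine (lintegral_mono h1).trans ?_
  rw [lintegral_const_mul' _ _ ENNReal.coe_ne_top, ENNReal.coe_mul]
  exact mul_le_mul_right (hC₂ t ht) _

theorem Env.log_le (e : Env F T) (ht : t ∈ Icc 0 T) (x v : R3) :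
    ENNReal.ofReal (Real.log (re F t x v)) ≤ 5 * e.p * e.B t x ^ (1 / 5 : ℝ) := by
  have hs := e.sup t ht x v
  have h1 := e.one_B t x
  unfold re
  generalize F t x v = y at hs
  generalize e.B t x = B at hs h1
  generalize e.p = p at hs
  by_cases hB : B = ⊤
  · rcases Nat.eq_zero_or_pos p with hp | hp
    · rw [hp, pow_zero] at hs
      rw [ENNReal.ofReal_of_nonpos]
      · exact zero_le
      · refine Real.log_nonpos ENNReal.toReal_nonneg ?_
        simpa using ENNReal.toReal_mono ENNReal.one_ne_top hs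
    · rw [hB, ENNReal.top_rpow_of_pos (by norm_num), ENNReal.mul_top]
      · exact le_top
      · simp [hp.ne']
  lift B to ℝ≥0 using hB
  have h2 : (1 : ℝ) ≤ B := by exact_mod_cast h1
  have h3 : y.toReal ≤ (B : ℝ) ^ p := by
    simpa using ENNReal.toReal_mono (ENNReal.pow_ne_top ENNReal.coe_ne_top) hs
  have h4 : Real.log y.toReal ≤ Real.log ((B : ℝ) ^ p) := by
    rcases (ENNReal.toReal_nonneg (a := y)).eq_or_lt with h0 | h0
    · rw [← h0, Real.log_zero]
      exact Real.log_nonneg (one_le_pow₀ h2)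
    · exact Real.log_le_log h0 h3
  have h5 := Real.log_le_rpow_div (x := (B : ℝ)) B.2 (ε := 1 / 5) (by norm_num)
  have h6 : Real.log y.toReal ≤ 5 * p * (B : ℝ) ^ (1 / 5 : ℝ) := by
    rw [Real.log_pow] at h4
    have : (p : ℝ) * Real.log B ≤ p * ((B : ℝ) ^ (1 / 5 : ℝ) / (1 / 5)) :=
      mul_le_mul_of_nonneg_left h5 (Nat.cast_nonneg p)
    linarith
  refine (ENNReal.ofReal_le_ofReal h6).trans (le_of_eq ?_)
  rw [ENNReal.ofReal_mul (by positivity), ENNReal.ofReal_mul (by norm_num), ENNReal.ofReal_natCast,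
    ← ENNReal.ofReal_rpow_of_nonneg B.coe_nonneg (by norm_num)]
  simp

theorem lintegral_cell_prod {G : R3 → R3 → ℝ≥0∞} (hG : Measurable fun q : R3 × R3 => G q.1 q.2) :
    ∫⁻ q in cell ×ˢ (univ : Set R3), G q.1 q.2 = ∫⁻ x in cell, ∫⁻ v, G x v := by
  rw [Measure.volume_eq_prod, ← Measure.prod_restrict, Measure.restrict_univ,
    lintegral_prod _ hG.aemeasurable]

theorem lintegral_time_prod {G : Fn} (hG : Meas G) {I : Set ℝ} (hI : MeasurableSet I) :
    ∫⁻ p in I ×ˢ (cell ×ˢ (univ : Set R3)), G p.1 p.2.1 p.2.2 =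
      ∫⁻ t in I, ∫⁻ x in cell, ∫⁻ v, G t x v := by
  rw [Measure.volume_eq_prod, ← Measure.prod_restrict, lintegral_prod _ (Measurable.aemeasurable hG)]
  exact lintegral_congr fun t => lintegral_cell_prod (hG.time t)

theorem lintegral_shear {G : R3 → R3 → ℝ≥0∞} (hG : Measurable fun q : R3 × R3 => G q.1 q.2)
    (hp : ∀ v, IsPeriodic3 fun x => G x v) (t : ℝ) :
    ∫⁻ q in cell ×ˢ (univ : Set R3), G (q.1 + t • q.2) q.2 =
      ∫⁻ q in cell ×ˢ (univ : Set R3), G q.1 q.2 := by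
  have hG' : Measurable fun q : R3 × R3 => G (q.1 + t • q.2) q.2 :=
    hG.comp (f := fun q : R3 × R3 => (q.1 + t • q.2, q.2)) (by fun_prop)
  rw [Measure.volume_eq_prod, ← Measure.prod_restrict, Measure.restrict_univ,
    lintegral_prod_symm _ hG.aemeasurable, lintegral_prod_symm _ hG'.aemeasurable]
  exact lintegral_congr fun v => lintegral_cell_add (hG.comp measurable_prodMk_right) (hp v) (t • v)

/-- Real version (split into positive and negative parts). -/
theorem integral_shear {G : R3 → R3 → ℝ} (hG : Measurable fun q : R3 × R3 => G q.1 q.2)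
    (hp : ∀ v, IsPeriodic3 fun x => G x v) (t : ℝ)
    (hi : IntegrableOn (fun q : R3 × R3 => G q.1 q.2) (cell ×ˢ univ)) :
    IntegrableOn (fun q : R3 × R3 => G (q.1 + t • q.2) q.2) (cell ×ˢ univ) ∧
      ∫ q in cell ×ˢ (univ : Set R3), G (q.1 + t • q.2) q.2 =
        ∫ q in cell ×ˢ (univ : Set R3), G q.1 q.2 := by
  have hG' : Measurable fun q : R3 × R3 => G (q.1 + t • q.2) q.2 :=
    hG.comp (f := fun q : R3 × R3 => (q.1 + t • q.2, q.2)) (by fun_prop)
  exact solInt_real hG hG' (fun φ hφ => lintegral_shear (G := fun x v => φ (G x v)) (hφ.comp hG)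
    (fun v x i => congrArg φ (hp v x i)) t) hi

theorem lintegral_shear_time {G : Fn} (hG : Meas G) (hp : ∀ t v, IsPeriodic3 fun x => G t x v)
    {I : Set ℝ} (hI : MeasurableSet I) :
    ∫⁻ q in cell ×ˢ (univ : Set R3), ∫⁻ t in I, G t (q.1 + t • q.2) q.2 =
      ∫⁻ p in I ×ˢ (cell ×ˢ (univ : Set R3)), G p.1 p.2.1 p.2.2 := by
  have hG' : Measurable fun p : ℝ × R3 × R3 => G p.1 (p.2.1 + p.1 • p.2.2) p.2.2 :=
    Measurable.comp (f := fun p : ℝ × R3 × R3 => (p.1, p.2.1 + p.1 • p.2.2, p.2.2)) hG (by fun_prop)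
  rw [← lintegral_prod_symm _ hG'.aemeasurable, lintegral_prod _ hG'.aemeasurable,
    Measure.volume_eq_prod ℝ, ← Measure.prod_restrict, lintegral_prod _ (Measurable.aemeasurable hG)]
  exact lintegral_congr fun t => lintegral_shear (hG.time t) (hp t) t

theorem integral_shear_time {G : ℝ → R3 → R3 → ℝ}
    (hG : Measurable fun p : ℝ × R3 × R3 => G p.1 p.2.1 p.2.2)
    (hp : ∀ t v, IsPeriodic3 fun x => G t x v) {I : Set ℝ} (hI : MeasurableSet I)
    (hi : IntegrableOn (fun p : ℝ × R3 × R3 => G p.1 p.2.1 p.2.2) (I ×ˢ (cell ×ˢ univ))) :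
    (∀ᵐ q ∂(volume.restrict (cell ×ˢ (univ : Set R3))),
      IntegrableOn (fun t => G t (q.1 + t • q.2) q.2) I) ∧
    IntegrableOn (fun q : R3 × R3 => ∫ t in I, G t (q.1 + t • q.2) q.2) (cell ×ˢ univ) ∧
    ∫ q in cell ×ˢ (univ : Set R3), ∫ t in I, G t (q.1 + t • q.2) q.2 =
      ∫ p in I ×ˢ (cell ×ˢ (univ : Set R3)), G p.1 p.2.1 p.2.2 := by
  have hG' : Measurable fun p : ℝ × R3 × R3 => G p.1 (p.2.1 + p.1 • p.2.2) p.2.2 :=
    hG.comp (f := fun p : ℝ × R3 × R3 => (p.1, p.2.1 + p.1 • p.2.2, p.2.2)) (by fun_prop)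
  obtain ⟨h1, h2⟩ := solInt_real (μ := volume.restrict (I ×ˢ (cell ×ˢ (univ : Set R3)))) hG hG'
    (fun φ hφ => by
      rw [← lintegral_shear_time (G := fun t x v => φ (G t x v)) (hφ.comp hG)
        (fun t v x i => congrArg φ (hp t v x i)) hI, Measure.volume_eq_prod ℝ, ← Measure.prod_restrict]
      exact lintegral_prod_symm _ (hφ.comp hG').aemeasurable) hi
  rw [← h2]
  rw [Measure.volume_eq_prod ℝ, ← Measure.prod_restrict] at h1 ⊢
  exact ⟨h1.prod_left_ae, h1.integral_prod_right, (integral_prod_symm _ h1).symm⟩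

/-- The real collision term. -/
def Qr (F : Fn) (t : ℝ) (x v : R3) : ℝ := (GN F F t x v).toReal - ((F * LS F) t x v).toReal

theorem measurable_Qr (h : Meas F) : Measurable fun p : ℝ × R3 × R3 => Qr F p.1 p.2.1 p.2.2 := by
  exact (Measurable.ennreal_toReal (h.GN h)).sub (Measurable.ennreal_toReal (h.mul h.LS))

/-- The equation on almost every characteristic, in real form. -/
theorem Plain.path (h : Plain F T) : ∀ᵐ q ∂(volume.restrict (cell ×ˢ (univ : Set R3))),
    IntegrableOn (fun s => Qr F s (q.1 + s • q.2) q.2) (Ioc 0 T) ∧ ∀ t ∈ Icc 0 T,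
      re F t (q.1 + t • q.2) q.2 = re F 0 q.1 q.2 + ∫ s in Ioc 0 t, Qr F s (q.1 + s • q.2) q.2 := by
  obtain ⟨e⟩ := h.env
  have hm := h.meas
  have hG : Meas (GN F F + F * LS F) := (hm.GN hm).add (hm.mul hm.LS)
  have h1 : ∫⁻ t in Ioc 0 T, ∫⁻ x in cell, ∫⁻ v, (GN F F + F * LS F) t x v ≠ ⊤ := by
    refine ne_top_of_le_ne_top (e.coll_int hm 0)
      (lintegral_mono fun t => lintegral_mono fun x => lintegral_mono fun v => ?_)
    rw [pow_zero, mul_one]
    exact le_mul_of_one_le_right zero_le (ENNReal.one_le_rpow (e.one_B t x) (by norm_num))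
  rw [← lintegral_time_prod hG measurableSet_Ioc, ← lintegral_shear_time hG (fun t v x i => by
    have a1 := per_GN h.per t v x i
    have a2 := per_loss h.per t v x i
    simp only [Pi.add_apply] at a1 a2 ⊢
    rw [a1, a2]) measurableSet_Ioc] at h1
  filter_upwards [ae_lt_top (solInt_meas_int hG _) h1] with q hq
  have m1 := solInt_meas_path (hm.GN hm) q
  have m2 := solInt_meas_path (hm.mul hm.LS) q
  have f1 : ∫⁻ s in Ioc 0 T, GN F F s (q.1 + s • q.2) q.2 ≠ ⊤ :=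
    ne_top_of_le_ne_top hq.ne (lintegral_mono fun s => le_self_add)
  have f2 : ∫⁻ s in Ioc 0 T, (F * LS F) s (q.1 + s • q.2) q.2 ≠ ⊤ :=
    ne_top_of_le_ne_top hq.ne (lintegral_mono fun s => le_add_self)
  refine ⟨(integrable_toReal_of_lintegral_ne_top m1.aemeasurable f1).sub
    (integrable_toReal_of_lintegral_ne_top m2.aemeasurable f2), fun t ht => ?_⟩
  have g1 : ∫⁻ s in Ioc 0 t, GN F F s (q.1 + s • q.2) q.2 ≠ ⊤ :=
    ne_top_of_le_ne_top f1 (lintegral_mono_set (Ioc_subset_Ioc_right ht.2))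
  have g2 : ∫⁻ s in Ioc 0 t, (F * LS F) s (q.1 + s • q.2) q.2 ≠ ⊤ :=
    ne_top_of_le_ne_top f2 (lintegral_mono_set (Ioc_subset_Ioc_right ht.2))
  have e1 := h.eq t ht (q.1 + t • q.2) q.2
  have e2 : ∀ s : ℝ, q.1 + t • q.2 - (t - s) • q.2 = q.1 + s • q.2 := fun s => by module
  simp only [PI, pa, e2, add_sub_cancel_right] at e1
  have e3 := congrArg ENNReal.toReal e1
  rw [ENNReal.toReal_add (h.fin t ht _ _) g2,
    ENNReal.toReal_add (h.fin 0 ⟨le_rfl, ht.1.trans ht.2⟩ _ _) g1] at e3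
  unfold Qr re
  rw [integral_sub (integrable_toReal_of_lintegral_ne_top m1.aemeasurable g1)
    (integrable_toReal_of_lintegral_ne_top m2.aemeasurable g2),
    integral_toReal m1.aemeasurable (ae_lt_top m1 g1), integral_toReal m2.aemeasurable (ae_lt_top m2 g2)]
  linarith

theorem Plain.mono (h : Plain F T) {T' : ℝ} (hT : T' ≤ T) : Plain F T' := by
  obtain ⟨e⟩ := h.env
  have hs : Icc 0 T' ⊆ Icc 0 T := Icc_subset_Icc_right hT
  refine ⟨h.meas, h.per, fun t ht => h.fin t (hs ht), fun t ht => h.eq t (hs ht),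
    ⟨⟨e.ρ, e.B, e.p, e.mρ, e.mB, e.one_ρ, e.one_B, fun k => ?_, fun t ht => e.sup t (hs ht),
      ne_top_of_le_ne_top e.int₁ (lintegral_mono_set (Ioc_subset_Ioc_right hT)), ?_⟩⟩⟩
  · obtain ⟨C, hC⟩ := e.mom k
    exact ⟨C, fun t ht => hC t (hs ht)⟩
  · obtain ⟨C, hC⟩ := e.int₂
    exact ⟨C, fun t ht => hC t (hs ht)⟩

end Crest.Agent.R68
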