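/-
R68/SolEnt: the H-theorem
Skeleton by helper76 (row 68); keep the statements unchanged, add any helper lemmas you like.
-/
import Crest.Agent.R68.SolInt
import Crest.Agent.R68.EntPt

set_option autoImplicit false
set_option linter.unusedVariables false
set_option linter.unusedSectionVars false

noncomputable section

namespace Crest.Agent.R68

open MeasureTheory Set Filter Topology
open scoped ENNReal NNReal
open Crest.AnalysisR.VecCalc3 Crest.AnalysisR.PDE.Boltzmann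

variable {F : Fn} {T : ℝ}

/-- The regularised density `(1 - ε) F + ε M`. -/
def reg (F : Fn) (ε t : ℝ) (x v : R3) : ℝ := (1 - ε) * re F t x v + ε * maxwellian v

theorem SolEnt_le_mul {a b c : ℝ≥0∞} (h : a ≤ b) (hc : 1 ≤ c) : a ≤ b * c :=
  h.trans (le_mul_of_one_le_right' hc)

theorem SolEnt_continuous_M : Continuous maxwellian := by
  unfold maxwellian; fun_prop

theorem SolEnt_re_nonneg (F : Fn) (t : ℝ) (x v : R3) : 0 ≤ re F t x v := ENNReal.toReal_nonneg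

theorem SolEnt_reg_pos (F : Fn) {ε : ℝ} (h0 : 0 < ε) (h1 : ε < 1) (t : ℝ) (x v : R3) :
    0 < reg F ε t x v := by
  have h2 := SolEnt_re_nonneg F t x v
  have h3 := Mx_pos v
  have h4 : 0 ≤ 1 - ε := by linarith
  unfold reg; positivity

theorem SolEnt_meas_reg (h : Meas F) (ε : ℝ) :
    Measurable fun p : ℝ × R3 × R3 => reg F ε p.1 p.2.1 p.2.2 :=
  ((measurable_re h).const_mul _).add
    ((SolEnt_continuous_M.measurable.comp (measurable_snd.snd)).const_mul _)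

theorem SolEnt_meas_psi (h : Meas F) (ε : ℝ) :
    Measurable fun p : ℝ × R3 × R3 => Real.log (reg F ε p.1 p.2.1 p.2.2 / maxwellian p.2.2) :=
  ((SolEnt_meas_reg h ε).div (SolEnt_continuous_M.measurable.comp (measurable_snd.snd))).log

theorem SolEnt_meas_time {G : ℝ × R3 × R3 → ℝ} (h : Measurable G) (t : ℝ) :
    Measurable fun q : R3 × R3 => G (t, q) := h.comp measurable_prodMk_left

theorem SolEnt_meas_Hf (h : Meas F) (ε t : ℝ) :
    Measurable fun q : R3 × R3 => Hf (reg F ε t q.1 q.2) (maxwellian q.2) :=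
  measurable_Hf.comp ((SolEnt_meas_time (SolEnt_meas_reg h ε) t).prodMk
    (SolEnt_continuous_M.measurable.comp measurable_snd))

theorem SolEnt_sq_le_br (v : R3) : ENNReal.ofReal (‖v‖ ^ 2 / 2 + 3) ≤ 3 * br v ^ 2 := by
  have h := norm_nonneg v
  rw [br, ← ENNReal.ofReal_pow (by positivity), ← ENNReal.ofReal_ofNat 3,
    ← ENNReal.ofReal_mul (by norm_num)]
  exact ENNReal.ofReal_le_ofReal (by nlinarith)

theorem SolEnt_one_le_br (v : R3) : 1 ≤ br v := by
  rw [br, ← ENNReal.ofReal_one]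
  exact ENNReal.ofReal_le_ofReal (by linarith [norm_nonneg v])

theorem SolEnt_one_le_B (e : Env F T) (t : ℝ) (x : R3) : 1 ≤ e.B t x ^ (1 / 5 : ℝ) :=
  ENNReal.one_le_rpow (e.one_B t x) (by norm_num)

theorem SolEnt_ofReal_max (a : ℝ) : ENNReal.ofReal (max a 0) = ENNReal.ofReal a := by
  rcases le_total a 0 with h | h
  · rw [max_eq_right h, ENNReal.ofReal_zero, ENNReal.ofReal_of_nonpos h]
  · rw [max_eq_left h]

theorem SolEnt_ofReal_re_le (F : Fn) (t : ℝ) (x v : R3) : ENNReal.ofReal (re F t x v) ≤ F t x v :=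
  ENNReal.ofReal_toReal_le

theorem SolEnt_Hf_le (e : Env F T) {t : ℝ} (ht : t ∈ Icc 0 T) (x v : R3) :
    ENNReal.ofReal (Hf (re F t x v) (maxwellian v)) ≤
      (5 * e.p + 3) * (br v ^ 2 * F t x v * e.B t x ^ (1 / 5 : ℝ)) + Mx v := by
  have h0 := SolEnt_re_nonneg F t x v
  have h1 := Hf_maxwellian_le h0 v
  have h2 : 0 ≤ max (Real.log (re F t x v)) 0 := le_max_right _ _
  have h3 := Mx_pos v
  refine (ENNReal.ofReal_le_ofReal h1).trans ?_
  rw [ENNReal.ofReal_add (by positivity) h3.le, ENNReal.ofReal_add (by positivity) (by positivity),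
    ENNReal.ofReal_mul h0, ENNReal.ofReal_mul h0, SolEnt_ofReal_max]
  have h4 := e.log_le ht x v
  have h5 := SolEnt_ofReal_re_le F t x v
  have h6 := SolEnt_sq_le_br v
  have h7 : 1 ≤ br v ^ 2 := one_le_pow₀ (SolEnt_one_le_br v)
  have h8 := SolEnt_one_le_B e t x
  refine add_le_add ?_ le_rfl
  calc _ ≤ F t x v * (5 * e.p * e.B t x ^ (1 / 5 : ℝ)) * br v ^ 2 +
        F t x v * (3 * br v ^ 2) * e.B t x ^ (1 / 5 : ℝ) := by
        refine add_le_add (SolEnt_le_mul (by gcongr) h7)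
          (SolEnt_le_mul (by gcongr) h8)
    _ = _ := by ring

theorem SolEnt_meas_B (e : Env F T) :
    Measurable fun p : ℝ × R3 × R3 => e.B p.1 p.2.1 ^ (1 / 5 : ℝ) :=
  (e.mB.comp (measurable_fst.prodMk measurable_snd.fst)).pow_const _

theorem SolEnt_lint_Hf (h : Plain F T) {t : ℝ} (ht : t ∈ Icc 0 T) :
    ∫⁻ q in cell ×ˢ (univ : Set R3), ENNReal.ofReal (Hf (re F t q.1 q.2) (maxwellian q.2)) ≠ ⊤ := by
  obtain ⟨e⟩ := h.env
  obtain ⟨C, hC⟩ := e.mass h.meas 2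
  have hm : Measurable fun q : R3 × R3 =>
      br q.2 ^ 2 * F t q.1 q.2 * e.B t q.1 ^ (1 / 5 : ℝ) :=
    (((measurable_br.comp measurable_snd).pow_const 2).mul (h.meas.time t)).mul
      ((SolEnt_meas_B e).comp (measurable_prodMk_left (x := t)))
  refine ne_top_of_le_ne_top ?_ (lintegral_mono fun q => SolEnt_Hf_le e ht q.1 q.2)
  rw [lintegral_add_left (hm.const_mul _), lintegral_const_mul _ hm,
    lintegral_cell_prod (G := fun x v => br v ^ 2 * F t x v * e.B t x ^ (1 / 5 : ℝ)) hm,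
    lintegral_cell_prod (G := fun _ v => Mx v) (measurable_Mx.comp measurable_snd)]
  simp only [lintegral_Mx, lintegral_const, Measure.restrict_apply MeasurableSet.univ, univ_inter,
    volume_cell, mul_one]
  refine ENNReal.add_ne_top.2 ⟨ENNReal.mul_ne_top (by finiteness) ?_, ENNReal.one_ne_top⟩
  exact ne_top_of_le_ne_top ENNReal.coe_ne_top (hC t ht)

theorem SolEnt_Hf_reg_le (F : Fn) {ε : ℝ} (h0 : 0 < ε) (h1 : ε < 1) (t : ℝ) (x v : R3) :
    Hf (reg F ε t x v) (maxwellian v) ≤ Hf (re F t x v) (maxwellian v) := by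
  have h2 := Hf_convex (SolEnt_re_nonneg F t x v) (Mx_pos v) h0.le h1.le
  have h3 := Hf_nonneg (SolEnt_re_nonneg F t x v) (Mx_pos v)
  unfold reg
  nlinarith

theorem SolEnt_int_Hf (h : Plain F T) {ε : ℝ} (h0 : 0 < ε) (h1 : ε < 1) {t : ℝ}
    (ht : t ∈ Icc 0 T) :
    IntegrableOn (fun q : R3 × R3 => Hf (reg F ε t q.1 q.2) (maxwellian q.2)) (cell ×ˢ univ) := by
  refine ⟨(SolEnt_meas_Hf h.meas ε t).aestronglyMeasurable, ?_⟩
  refine lt_of_le_of_lt (lintegral_mono fun q => ?_) (SolEnt_lint_Hf h ht).lt_top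
  rw [Real.enorm_eq_ofReal (Hf_nonneg (SolEnt_reg_pos F h0 h1 t q.1 q.2).le (Mx_pos _))]
  exact ENNReal.ofReal_le_ofReal (SolEnt_Hf_reg_le F h0 h1 t q.1 q.2)

theorem SolEnt_psi_le (e : Env F T) {ε : ℝ} (h0 : 0 < ε) (h1 : ε < 1) {t : ℝ} (ht : t ∈ Icc 0 T)
    (x v : R3) : ‖Real.log (reg F ε t x v / maxwellian v)‖ₑ ≤
      (ENNReal.ofReal |Real.log ε| + 5 * e.p + 3) * (br v ^ 2 * e.B t x ^ (1 / 5 : ℝ)) := by
  have h2 := abs_log_reg_le (SolEnt_re_nonneg F t x v) h0 h1 v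
  have h3 : 0 ≤ max (Real.log (re F t x v)) 0 := le_max_right _ _
  rw [Real.enorm_eq_ofReal_abs]
  refine (ENNReal.ofReal_le_ofReal (h2.trans_eq (add_assoc _ _ _))).trans ?_
  rw [ENNReal.ofReal_add (by positivity) (by positivity),
    ENNReal.ofReal_add (by positivity) (by positivity), SolEnt_ofReal_max]
  have h4 := e.log_le ht x v
  have h6 := SolEnt_sq_le_br v
  have h7 : 1 ≤ br v ^ 2 := one_le_pow₀ (SolEnt_one_le_br v)
  have h8 := SolEnt_one_le_B e t x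
  calc _ ≤ ENNReal.ofReal |Real.log ε| * (br v ^ 2 * e.B t x ^ (1 / 5 : ℝ)) +
        (5 * e.p * e.B t x ^ (1 / 5 : ℝ)) * br v ^ 2 + (3 * br v ^ 2) * e.B t x ^ (1 / 5 : ℝ) := by
        refine add_le_add (add_le_add (le_mul_of_one_le_right' (one_le_mul h7 h8))
          (SolEnt_le_mul h4 h7)) (SolEnt_le_mul h6 h8)
    _ = _ := by ring

theorem SolEnt_Qr_le (F : Fn) (t : ℝ) (x v : R3) :
    ‖Qr F t x v‖ₑ ≤ GN F F t x v + (F * LS F) t x v := by
  refine enorm_sub_le.trans (add_le_add ?_ ?_) <;>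
  · rw [Real.enorm_eq_ofReal ENNReal.toReal_nonneg]
    exact ENNReal.ofReal_toReal_le

theorem SolEnt_int_Q (h : Plain F T) {ε : ℝ} (h0 : 0 < ε) (h1 : ε < 1) {t : ℝ}
    (ht : t ∈ Icc 0 T) :
    IntegrableOn (fun p : ℝ × R3 × R3 =>
      Qr F p.1 p.2.1 p.2.2 * Real.log (reg F ε p.1 p.2.1 p.2.2 / maxwellian p.2.2))
      (Ioc 0 t ×ˢ (cell ×ˢ univ)) := by
  obtain ⟨e⟩ := h.env
  refine ⟨((measurable_Qr h.meas).mul (SolEnt_meas_psi h.meas ε)).aestronglyMeasurable, ?_⟩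
  have hm : Meas fun s x v =>
      (GN F F s x v + (F * LS F) s x v) * br v ^ 2 * e.B s x ^ (1 / 5 : ℝ) :=
    Measurable.mul (Measurable.mul ((h.meas.GN h.meas).add (h.meas.mul h.meas.LS))
      ((measurable_br.comp measurable_snd.snd).pow_const 2)) (SolEnt_meas_B e)
  have hS : MeasurableSet (Ioc 0 t ×ˢ (cell ×ˢ (univ : Set R3))) :=
    measurableSet_Ioc.prod (measurableSet_cell.prod MeasurableSet.univ)
  have h2 := e.coll_int h.meas 2
  refine lt_of_le_of_lt (setLIntegral_mono' (g := fun p =>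
    (ENNReal.ofReal |Real.log ε| + 5 * e.p + 3) *
      ((GN F F p.1 p.2.1 p.2.2 + (F * LS F) p.1 p.2.1 p.2.2) * br p.2.2 ^ 2 *
        e.B p.1 p.2.1 ^ (1 / 5 : ℝ))) hS fun p hp => ?_) ?_
  · rw [enorm_mul]
    have hp1 : p.1 ∈ Icc 0 T := ⟨hp.1.1.le, hp.1.2.trans ht.2⟩
    calc _ ≤ (GN F F p.1 p.2.1 p.2.2 + (F * LS F) p.1 p.2.1 p.2.2) *
          ((ENNReal.ofReal |Real.log ε| + 5 * e.p + 3) *
            (br p.2.2 ^ 2 * e.B p.1 p.2.1 ^ (1 / 5 : ℝ))) :=
          mul_le_mul' (SolEnt_Qr_le F _ _ _) (SolEnt_psi_le e h0 h1 hp1 _ _)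
      _ = _ := by ring
  · rw [lintegral_const_mul _ hm, lintegral_time_prod hm measurableSet_Ioc]
    refine ENNReal.mul_lt_top (by finiteness) (lt_of_le_of_lt ?_ h2.lt_top)
    exact lintegral_mono_set (Ioc_subset_Ioc_right ht.2)

theorem SolEnt_per_reg (h : Plain F T) (ε t : ℝ) (v : R3) :
    IsPeriodic3 fun x => reg F ε t x v := by
  intro x i
  have := h.per t v x i
  simp only [reg, re] at this ⊢
  rw [this]

/-- `chain_rule` with `exists_Hf_ext` on almost every characteristic; `abs_log_reg_le`,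
`Env.coll_int`, `Env.log_le` give the integrability; `integral_shear`, `integral_shear_time`. -/
theorem Plain.entropy_id (h : Plain F T) {ε : ℝ} (h0 : 0 < ε) (h1 : ε < 1) {t : ℝ}
    (ht : t ∈ Icc 0 T) :
    IntegrableOn (fun q : R3 × R3 => Hf (reg F ε t q.1 q.2) (maxwellian q.2)) (cell ×ˢ univ) ∧
    IntegrableOn (fun p : ℝ × R3 × R3 =>
      Qr F p.1 p.2.1 p.2.2 * Real.log (reg F ε p.1 p.2.1 p.2.2 / maxwellian p.2.2))
      (Ioc 0 t ×ˢ (cell ×ˢ univ)) ∧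
    ∫ q in cell ×ˢ (univ : Set R3), Hf (reg F ε t q.1 q.2) (maxwellian q.2) =
      (∫ q in cell ×ˢ (univ : Set R3), Hf (reg F ε 0 q.1 q.2) (maxwellian q.2)) +
      (1 - ε) * ∫ p in Ioc 0 t ×ˢ (cell ×ˢ (univ : Set R3)),
        Qr F p.1 p.2.1 p.2.2 * Real.log (reg F ε p.1 p.2.1 p.2.2 / maxwellian p.2.2) := by
  have hT : (0 : ℝ) ∈ Icc 0 T := ⟨le_rfl, ht.1.trans ht.2⟩
  have i1 := SolEnt_int_Hf h h0 h1 ht
  have i0 := SolEnt_int_Hf h h0 h1 hT
  have i2 := SolEnt_int_Q h h0 h1 ht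
  refine ⟨i1, i2, ?_⟩
  have p1 : ∀ v, IsPeriodic3 fun x => Hf (reg F ε t x v) (maxwellian v) := by
    intro v x i
    have := SolEnt_per_reg h ε t v x i
    simp only at this ⊢
    rw [this]
  have p2 : ∀ s v, IsPeriodic3 fun x => Qr F s x v * Real.log (reg F ε s x v / maxwellian v) := by
    intro s v x i
    have a1 := SolEnt_per_reg h ε s v x i
    have a2 := per_GN h.per s v x i
    have a3 := per_loss h.per s v x i
    simp only [Qr] at a1 a2 a3 ⊢
    rw [a1, a2, a3]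
  obtain ⟨-, e1⟩ := integral_shear (G := fun x v => Hf (reg F ε t x v) (maxwellian v))
    (SolEnt_meas_Hf h.meas ε t) p1 t i1
  obtain ⟨-, i3, e2⟩ := integral_shear_time
    (G := fun s x v => Qr F s x v * Real.log (reg F ε s x v / maxwellian v))
    ((measurable_Qr h.meas).mul (SolEnt_meas_psi h.meas ε)) p2 measurableSet_Ioc i2
  rw [← e1, ← e2, ← integral_const_mul, ← integral_add i0 (i3.const_mul _)]
  refine integral_congr_ae ?_
  filter_upwards [h.path] with q hq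
  obtain ⟨Φ, Φ', d1, d2, d3⟩ := exists_Hf_ext (Mx_pos q.2) h0 h1
  obtain ⟨-, c2⟩ := chain_rule (g := fun s => re F s (q.1 + s • q.2) q.2)
    (g' := fun s => Qr F s (q.1 + s • q.2) q.2) (r := 0) (T := T) d1 d2 hq.1
    (fun s hs => by simpa using hq.2 s hs)
  have c3 := c2 t ht
  simp only [zero_smul, add_zero] at c3
  rw [(d3 _ (SolEnt_re_nonneg F _ _ _)).1, (d3 _ (SolEnt_re_nonneg F _ _ _)).1] at c3
  rw [← integral_const_mul]
  refine c3.trans ?_
  congr 1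
  refine integral_congr_ae (Eventually.of_forall fun s => ?_)
  simp only
  rw [(d3 _ (SolEnt_re_nonneg F _ _ _)).2]
  unfold reg
  ring

/-- The regularised dissipation at `(t, x)`. -/
def Dreg (F : Fn) (ε t : ℝ) (x : R3) : ℝ≥0∞ :=
  ∫⁻ v, ∫⁻ vs, ∫⁻ w, cw v vs w * ENNReal.ofReal
    ((reg F ε t x (postVel v vs w) * reg F ε t x (postVelStar v vs w) -
        reg F ε t x v * reg F ε t x vs) *
      Real.log (reg F ε t x (postVel v vs w) * reg F ε t x (postVelStar v vs w) /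
        (reg F ε t x v * reg F ε t x vs))) ∂sphereMeasure

theorem SolEnt_sum_log {r₁ r₂ r₃ r₄ m₁ m₂ m₃ m₄ : ℝ} (h₁ : 0 < r₁) (h₂ : 0 < r₂) (h₃ : 0 < r₃)
    (h₄ : 0 < r₄) (k₁ : 0 < m₁) (k₂ : 0 < m₂) (k₃ : 0 < m₃) (k₄ : 0 < m₄) (hm : m₁ * m₂ = m₃ * m₄) :
    Real.log (r₁ / m₁) + Real.log (r₂ / m₂) - Real.log (r₃ / m₃) - Real.log (r₄ / m₄) =
      Real.log (r₁ * r₂ / (r₃ * r₄)) := by
  have h := congrArg Real.log hm
  rw [Real.log_mul k₁.ne' k₂.ne', Real.log_mul k₃.ne' k₄.ne'] at h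
  rw [Real.log_div h₁.ne' k₁.ne', Real.log_div h₂.ne' k₂.ne', Real.log_div h₃.ne' k₃.ne',
    Real.log_div h₄.ne' k₄.ne', Real.log_div (mul_pos h₁ h₂).ne' (mul_pos h₃ h₄).ne',
    Real.log_mul h₁.ne' h₂.ne', Real.log_mul h₃.ne' h₄.ne']
  linarith

theorem SolEnt_cw_ne_top (v vs w : R3) : cw v vs w ≠ ⊤ := ENNReal.ofReal_ne_top

theorem SolEnt_pair {a b c : ℝ} {f g : ℝ≥0∞} {u u' : R3} (ha : 0 ≤ a) (hb : 0 ≤ b) (hc : 0 ≤ c)
    (hf : ENNReal.ofReal a ≤ f) (hg : ENNReal.ofReal b ≤ g) :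
    ENNReal.ofReal (a * b * (c + ‖u‖ ^ 2 + ‖u'‖ ^ 2)) ≤
      ENNReal.ofReal (c + 1) * (br u ^ 2 * f * (br u' ^ 2 * g)) := by
  have h1 := norm_nonneg u
  have h2 := norm_nonneg u'
  have h3 : c + ‖u‖ ^ 2 + ‖u'‖ ^ 2 ≤ (c + 1) * ((1 + ‖u‖) ^ 2 * (1 + ‖u'‖) ^ 2) := by
    have h4 : 1 + ‖u‖ ^ 2 + ‖u'‖ ^ 2 ≤ (1 + ‖u‖) ^ 2 * (1 + ‖u'‖) ^ 2 := by
      calc 1 + ‖u‖ ^ 2 + ‖u'‖ ^ 2 ≤ (1 + ‖u‖ ^ 2) * (1 + ‖u'‖ ^ 2) := by
            nlinarith [mul_nonneg (sq_nonneg ‖u‖) (sq_nonneg ‖u'‖)]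
        _ ≤ _ := by gcongr <;> nlinarith
    nlinarith [mul_nonneg hc (add_nonneg (sq_nonneg ‖u‖) (sq_nonneg ‖u'‖))]
  rw [ENNReal.ofReal_mul (mul_nonneg ha hb), ENNReal.ofReal_mul ha]
  have h5 := ENNReal.ofReal_le_ofReal h3
  rw [ENNReal.ofReal_mul (by positivity), ENNReal.ofReal_mul (by positivity),
    ENNReal.ofReal_pow (by positivity), ENNReal.ofReal_pow (by positivity)] at h5
  calc _ ≤ f * g * (ENNReal.ofReal (c + 1) * (br u ^ 2 * br u' ^ 2)) := by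
        unfold br; gcongr
    _ = _ := by ring

theorem SolEnt_four {f g : R3 → ℝ≥0∞} (hf : Measurable f) (hg : Measurable g) :
    ∫⁻ p, cw p.1 p.2.1 p.2.2 *
      (f (postVel p.1 p.2.1 p.2.2) * g (postVelStar p.1 p.2.1 p.2.2) +
        g (postVel p.1 p.2.1 p.2.2) * f (postVelStar p.1 p.2.1 p.2.2) + f p.1 * g p.2.1 +
        g p.1 * f p.2.1) ∂colM ≤ 96 * ((∫⁻ v, br v * f v) * ∫⁻ v, br v * g v) := by
  have m1 := continuous_postVel.measurable
  have m2 := continuous_postVelStar.measurable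
  have a1 : ∀ {f g : R3 → ℝ≥0∞}, Measurable f → Measurable g → Measurable fun p : R3 × R3 × R3 =>
      cw p.1 p.2.1 p.2.2 * (f (postVel p.1 p.2.1 p.2.2) * g (postVelStar p.1 p.2.1 p.2.2)) :=
    fun hf hg => measurable_cw.mul ((hf.comp m1).mul (hg.comp m2))
  have a2 : ∀ {f g : R3 → ℝ≥0∞}, Measurable f → Measurable g → Measurable fun p : R3 × R3 × R3 =>
      cw p.1 p.2.1 p.2.2 * (f p.1 * g p.2.1) :=
    fun hf hg => measurable_cw.mul ((hf.comp measurable_fst).mul (hg.comp measurable_snd.fst))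
  have b1 : ∀ {f g : R3 → ℝ≥0∞}, Measurable f → Measurable g → ∫⁻ p,
      cw p.1 p.2.1 p.2.2 * (f (postVel p.1 p.2.1 p.2.2) * g (postVelStar p.1 p.2.1 p.2.2)) ∂colM ≤
        24 * ((∫⁻ v, br v * f v) * ∫⁻ v, br v * g v) := by
    intro f g hf hg
    rw [lintegral_colM (a1 hf hg)]
    simpa [gn] using lintegral_gn_br_le hf hg 0
  have b2 : ∀ {f g : R3 → ℝ≥0∞}, Measurable f → Measurable g → ∫⁻ p,
      cw p.1 p.2.1 p.2.2 * (f p.1 * g p.2.1) ∂colM ≤
        24 * ((∫⁻ v, br v * f v) * ∫⁻ v, br v * g v) := by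
    intro f g hf hg
    rw [lintegral_colM (a2 hf hg)]
    have h1 := lintegral_ls_br_le hf hg 0
    rw [lintegral_mul_ls hf hg (measurable_br.pow_const 0)] at h1
    simpa using h1
  simp only [mul_add]
  rw [lintegral_add_right _ (a2 hg hf), lintegral_add_right _ (a2 hf hg),
    lintegral_add_right _ (a1 hg hf)]
  calc _ ≤ 24 * ((∫⁻ v, br v * f v) * ∫⁻ v, br v * g v) + 24 * ((∫⁻ v, br v * g v) * ∫⁻ v, br v * f v) +
        24 * ((∫⁻ v, br v * f v) * ∫⁻ v, br v * g v) + 24 * ((∫⁻ v, br v * g v) * ∫⁻ v, br v * f v) :=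
        add_le_add (add_le_add (add_le_add (b1 hf hg) (b1 hg hf)) (b2 hf hg)) (b2 hg hf)
    _ = _ := by ring

theorem SolEnt_cM : ∫⁻ v, br v ^ 3 * Mx v ≠ ⊤ :=
  ne_top_of_le_ne_top (lintegral_br_ga (β := 1 / 2) (by norm_num) 3)
    (lintegral_mono fun v => by gcongr; exact Mx_le v)

/-- One point `(t, x)`.  `integral_coll_sym` with `ψ = log (reg / M)`; with `A = F' F⁎'`, `B = F F⁎`
and their regularisations, `Aε - Bε = (1-ε)² (A - B) + ε (1-ε) (F' M⁎' + M' F⁎' - F M⁎ - M F⁎)` and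
`ψ' + ψ⁎' - ψ - ψ⁎ = log (Aε / Bε)`, each `|ψ| ≤ |log ε| + Λ + ‖v‖² + ‖v⁎‖² + 3`. -/
theorem Dreg_le : ∃ K : ℝ, 0 ≤ K ∧ ∀ (F : Fn) (ε t : ℝ) (x : R3) (Λ m : ℝ), 0 < ε → ε < 1 →
    Measurable (F t x) → (∀ v, F t x v ≠ ⊤) → 0 ≤ Λ → (∀ v, Real.log (re F t x v) ≤ Λ) → 0 ≤ m →
    ∫⁻ v, br v ^ 3 * F t x v ≤ ENNReal.ofReal m →
    4⁻¹ * Dreg F ε t x ≤ ENNReal.ofReal
      (-((1 - ε) ^ 2 * ∫ v, Qr F t x v * Real.log (reg F ε t x v / maxwellian v)) +
        K * ε * (|Real.log ε| + 1 + Λ) * m) ∧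
    0 ≤ -((1 - ε) ^ 2 * ∫ v, Qr F t x v * Real.log (reg F ε t x v / maxwellian v)) +
        K * ε * (|Real.log ε| + 1 + Λ) * m := by
  refine ⟨24 * 13 * (∫⁻ v, br v ^ 3 * Mx v).toReal, by positivity, ?_⟩
  intro F ε t x Λ m h0 h1 hf hfin hΛ hlog hm hmom
  set cM := (∫⁻ v, br v ^ 3 * Mx v).toReal with hcM
  have hcM0 : 0 ≤ cM := ENNReal.toReal_nonneg
  set ψ : R3 → ℝ := fun v => Real.log (reg F ε t x v / maxwellian v) with hψ
  set r : R3 → ℝ := fun v => (F t x v).toReal with hr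
  have hr0 : ∀ v, 0 ≤ r v := fun v => ENNReal.toReal_nonneg
  have mr : Measurable r := hf.ennreal_toReal
  have mM := SolEnt_continuous_M.measurable
  have mreg : Measurable (reg F ε t x) := (mr.const_mul _).add (mM.const_mul _)
  have mψ : Measurable ψ := (mreg.div mM).log
  set L := |Real.log ε| + Λ + 3 with hL
  have hL0 : 0 ≤ L := by positivity
  have hψ1 : ∀ v, |ψ v| ≤ L + ‖v‖ ^ 2 / 2 := by
    intro v
    have h2 := abs_log_reg_le (SolEnt_re_nonneg F t x v) h0 h1 v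
    have h3 : max (Real.log (re F t x v)) 0 ≤ Λ := max_le (hlog v) hΛ
    exact h2.trans (by linarith)
  have hψ2 : ∀ v, |ψ v| ≤ (L + 1) * (1 + ‖v‖) ^ 2 := by
    intro v
    have h2 := norm_nonneg v
    refine (hψ1 v).trans ?_
    nlinarith [mul_nonneg hL0 h2, mul_nonneg hL0 (sq_nonneg ‖v‖)]
  obtain ⟨-, -, iX, eX⟩ := integral_coll_sym hf hfin (k := 2)
    (ne_top_of_le_ne_top ENNReal.ofReal_ne_top hmom) mψ hψ2
  set X : R3 × R3 × R3 → ℝ := fun p => (cw p.1 p.2.1 p.2.2).toReal *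
      (((F t x (postVel p.1 p.2.1 p.2.2)).toReal * (F t x (postVelStar p.1 p.2.1 p.2.2)).toReal -
          (F t x p.1).toReal * (F t x p.2.1).toReal) *
        (ψ (postVel p.1 p.2.1 p.2.2) + ψ (postVelStar p.1 p.2.1 p.2.2) - ψ p.1 - ψ p.2.1)) with hX
  set Y : R3 × R3 × R3 → ℝ := fun p => (cw p.1 p.2.1 p.2.2).toReal *
      ((r (postVel p.1 p.2.1 p.2.2) * maxwellian (postVelStar p.1 p.2.1 p.2.2) +
          maxwellian (postVel p.1 p.2.1 p.2.2) * r (postVelStar p.1 p.2.1 p.2.2) -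
          r p.1 * maxwellian p.2.1 - maxwellian p.1 * r p.2.1) *
        (ψ (postVel p.1 p.2.1 p.2.2) + ψ (postVelStar p.1 p.2.1 p.2.2) - ψ p.1 - ψ p.2.1)) with hY
  have m1 := continuous_postVel.measurable
  have m2 := continuous_postVelStar.measurable
  have m3 : Measurable fun p : R3 × R3 × R3 => p.1 := measurable_fst
  have m4 : Measurable fun p : R3 × R3 × R3 => p.2.1 := measurable_snd.fst
  have mY : Measurable Y := measurable_cw.ennreal_toReal.mul
    ((((((mr.comp m1).mul (mM.comp m2)).add ((mM.comp m1).mul (mr.comp m2))).sub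
      ((mr.comp m3).mul (mM.comp m4))).sub ((mM.comp m3).mul (mr.comp m4))).mul
      ((((mψ.comp m1).add (mψ.comp m2)).sub (mψ.comp m3)).sub (mψ.comp m4)))
  have hYle : ∫⁻ p, ‖Y p‖ₑ ∂colM ≤ ENNReal.ofReal (96 * (4 * L + 1) * m * cM) := by
    have mf : Measurable fun v => br v ^ 2 * F t x v := (measurable_br.pow_const 2).mul hf
    have mg : Measurable fun v => br v ^ 2 * Mx v := (measurable_br.pow_const 2).mul measurable_Mx
    have h4 := SolEnt_four mf mg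
    calc ∫⁻ p, ‖Y p‖ₑ ∂colM ≤ ∫⁻ p, ENNReal.ofReal (4 * L + 1) * (cw p.1 p.2.1 p.2.2 *
          (br (postVel p.1 p.2.1 p.2.2) ^ 2 * F t x (postVel p.1 p.2.1 p.2.2) *
              (br (postVelStar p.1 p.2.1 p.2.2) ^ 2 * Mx (postVelStar p.1 p.2.1 p.2.2)) +
            br (postVel p.1 p.2.1 p.2.2) ^ 2 * Mx (postVel p.1 p.2.1 p.2.2) *
              (br (postVelStar p.1 p.2.1 p.2.2) ^ 2 * F t x (postVelStar p.1 p.2.1 p.2.2)) +
            br p.1 ^ 2 * F t x p.1 * (br p.2.1 ^ 2 * Mx p.2.1) +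
            br p.1 ^ 2 * Mx p.1 * (br p.2.1 ^ 2 * F t x p.2.1))) ∂colM := by
          refine lintegral_mono_ae ?_
          filter_upwards [ae_colM] with p hp
          obtain ⟨v, vs, w⟩ := p
          simp only [hY] at hp ⊢
          set v' := postVel v vs w
          set vs' := postVelStar v vs w
          have en : ‖v'‖ ^ 2 + ‖vs'‖ ^ 2 = ‖v‖ ^ 2 + ‖vs‖ ^ 2 := post_energy' hp v vs
          have hΔ : |ψ v' + ψ vs' - ψ v - ψ vs| ≤ 4 * L + ‖v‖ ^ 2 + ‖vs‖ ^ 2 := by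
            have a1 := abs_le.1 (hψ1 v')
            have a2 := abs_le.1 (hψ1 vs')
            have a3 := abs_le.1 (hψ1 v)
            have a4 := abs_le.1 (hψ1 vs)
            rw [abs_le]
            constructor <;> linarith [a1.1, a1.2, a2.1, a2.2, a3.1, a3.2, a4.1, a4.2]
          have n1 := mul_nonneg (hr0 v') (Mx_pos vs').le
          have n2 := mul_nonneg (Mx_pos v').le (hr0 vs')
          have n3 := mul_nonneg (hr0 v) (Mx_pos vs).le
          have n4 := mul_nonneg (Mx_pos v).le (hr0 vs)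
          have hR : |r v' * maxwellian vs' + maxwellian v' * r vs' - r v * maxwellian vs -
              maxwellian v * r vs| ≤ r v' * maxwellian vs' + maxwellian v' * r vs' +
              r v * maxwellian vs + maxwellian v * r vs := by
            rw [abs_le]; constructor <;> linarith
          have hE : 0 ≤ 4 * L + ‖v‖ ^ 2 + ‖vs‖ ^ 2 := by positivity
          have hE' : 0 ≤ 4 * L + ‖v'‖ ^ 2 + ‖vs'‖ ^ 2 := by positivity
          have hP : |(r v' * maxwellian vs' + maxwellian v' * r vs' - r v * maxwellian vs -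
              maxwellian v * r vs) * (ψ v' + ψ vs' - ψ v - ψ vs)| ≤
              r v' * maxwellian vs' * (4 * L + ‖v'‖ ^ 2 + ‖vs'‖ ^ 2) +
              maxwellian v' * r vs' * (4 * L + ‖v'‖ ^ 2 + ‖vs'‖ ^ 2) +
              r v * maxwellian vs * (4 * L + ‖v‖ ^ 2 + ‖vs‖ ^ 2) +
              maxwellian v * r vs * (4 * L + ‖v‖ ^ 2 + ‖vs‖ ^ 2) := by
            rw [abs_mul, add_assoc (4 * L) (‖v'‖ ^ 2), en, ← add_assoc (4 * L)]
            calc _ ≤ (r v' * maxwellian vs' + maxwellian v' * r vs' +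
                r v * maxwellian vs + maxwellian v * r vs) * (4 * L + ‖v‖ ^ 2 + ‖vs‖ ^ 2) := by
                  gcongr
              _ = _ := by ring
          have hF : ∀ u, ENNReal.ofReal (r u) ≤ F t x u := fun u => ENNReal.ofReal_toReal_le
          have hM : ∀ u, ENNReal.ofReal (maxwellian u) ≤ Mx u := fun u => le_rfl
          have hL4 : 0 ≤ 4 * L := by positivity
          rw [enorm_mul, Real.enorm_eq_ofReal ENNReal.toReal_nonneg,
            ENNReal.ofReal_toReal (SolEnt_cw_ne_top _ _ _), Real.enorm_eq_ofReal_abs,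
            mul_left_comm]
          gcongr
          refine (ENNReal.ofReal_le_ofReal hP).trans ?_
          rw [ENNReal.ofReal_add (by positivity) (by positivity),
            ENNReal.ofReal_add (by positivity) (by positivity),
            ENNReal.ofReal_add (by positivity) (by positivity),
            mul_add (ENNReal.ofReal (4 * L + 1)), mul_add (ENNReal.ofReal (4 * L + 1)),
            mul_add (ENNReal.ofReal (4 * L + 1))]
          exact add_le_add (add_le_add (add_le_add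
            (SolEnt_pair (hr0 _) (Mx_pos _).le hL4 (hF _) (hM _))
            (SolEnt_pair (Mx_pos _).le (hr0 _) hL4 (hM _) (hF _)))
            (SolEnt_pair (hr0 _) (Mx_pos _).le hL4 (hF _) (hM _)))
            (SolEnt_pair (Mx_pos _).le (hr0 _) hL4 (hM _) (hF _))
      _ ≤ ENNReal.ofReal (4 * L + 1) * (96 * ((∫⁻ v, br v * (br v ^ 2 * F t x v)) *
          ∫⁻ v, br v * (br v ^ 2 * Mx v))) := by
          rw [lintegral_const_mul' _ _ ENNReal.ofReal_ne_top]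
          gcongr
      _ ≤ ENNReal.ofReal (4 * L + 1) * (96 * (ENNReal.ofReal m * ENNReal.ofReal cM)) := by
          have e1 : ∀ g : R3 → ℝ≥0∞, ∫⁻ v, br v * (br v ^ 2 * g v) = ∫⁻ v, br v ^ 3 * g v :=
            fun g => lintegral_congr fun v => by ring
          rw [e1, e1, hcM, ENNReal.ofReal_toReal SolEnt_cM]
          gcongr
      _ = _ := by
          rw [ENNReal.ofReal_mul (by positivity), ENNReal.ofReal_mul (by positivity),
            ENNReal.ofReal_mul (by positivity), ENNReal.ofReal_ofNat]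
          ring
  have iY : Integrable Y colM :=
    ⟨mY.aestronglyMeasurable, hYle.trans_lt ENNReal.ofReal_lt_top⟩
  have hYint : ∫ p, Y p ∂colM ≤ 96 * (4 * L + 1) * m * cM := by
    refine (le_abs_self _).trans ?_
    rw [← Real.norm_eq_abs, ← ENNReal.ofReal_le_ofReal_iff (by positivity), ofReal_norm]
    exact (enorm_integral_le_lintegral_enorm _).trans hYle
  set D : R3 × R3 × R3 → ℝ := fun p =>
    (reg F ε t x (postVel p.1 p.2.1 p.2.2) * reg F ε t x (postVelStar p.1 p.2.1 p.2.2) -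
        reg F ε t x p.1 * reg F ε t x p.2.1) *
      Real.log (reg F ε t x (postVel p.1 p.2.1 p.2.2) * reg F ε t x (postVelStar p.1 p.2.1 p.2.2) /
        (reg F ε t x p.1 * reg F ε t x p.2.1)) with hD
  have rp := SolEnt_reg_pos F h0 h1 t x
  have hD0 : ∀ p, 0 ≤ D p := fun p => mul_log_div_nonneg (mul_pos (rp _) (rp _)) (mul_pos (rp _) (rp _))
  have mD : Measurable D :=
    (((mreg.comp m1).mul (mreg.comp m2)).sub ((mreg.comp m3).mul (mreg.comp m4))).mul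
      (((mreg.comp m1).mul (mreg.comp m2)).div ((mreg.comp m3).mul (mreg.comp m4))).log
  have hae : ∀ᵐ p ∂colM, (1 - ε) ^ 2 * X p + ε * (1 - ε) * Y p =
      (cw p.1 p.2.1 p.2.2).toReal * D p := by
    filter_upwards [ae_colM] with p hp
    have k := maxwellian_post hp p.1 p.2.1
    have k2 := SolEnt_sum_log (rp (postVel p.1 p.2.1 p.2.2)) (rp (postVelStar p.1 p.2.1 p.2.2))
      (rp p.1) (rp p.2.1) (Mx_pos _) (Mx_pos _) (Mx_pos _) (Mx_pos _) k
    simp only [hX, hY, hD, hψ]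
    rw [k2]
    generalize Real.log (reg F ε t x (postVel p.1 p.2.1 p.2.2) *
      reg F ε t x (postVelStar p.1 p.2.1 p.2.2) / (reg F ε t x p.1 * reg F ε t x p.2.1)) = l
    simp only [reg, re, hr]
    linear_combination (-(cw p.1 p.2.1 p.2.2).toReal * l * ε ^ 2) * k
  have iZ : Integrable (fun p => (1 - ε) ^ 2 * X p + ε * (1 - ε) * Y p) colM :=
    (iX.const_mul _).add (iY.const_mul _)
  have hZ0 : 0 ≤ᵐ[colM] fun p => (1 - ε) ^ 2 * X p + ε * (1 - ε) * Y p := by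
    filter_upwards [hae] with p hp
    rw [hp]
    exact mul_nonneg ENNReal.toReal_nonneg (hD0 p)
  have eD : Dreg F ε t x = ENNReal.ofReal (∫ p, ((1 - ε) ^ 2 * X p + ε * (1 - ε) * Y p) ∂colM) := by
    rw [ofReal_integral_eq_lintegral_ofReal iZ hZ0, Dreg,
      ← lintegral_colM (Φ := fun p => cw p.1 p.2.1 p.2.2 * ENNReal.ofReal (D p))
        (measurable_cw.mul mD.ennreal_ofReal)]
    refine lintegral_congr_ae ?_
    filter_upwards [hae] with p hp
    rw [hp, ENNReal.ofReal_mul ENNReal.toReal_nonneg, ENNReal.ofReal_toReal (SolEnt_cw_ne_top _ _ _)]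
  have hZ1 := integral_nonneg_of_ae hZ0
  have eQ : ∫ v, Qr F t x v * Real.log (reg F ε t x v / maxwellian v) =
      -(1 / 4) * ∫ p, X p ∂colM := eX
  have key : 4⁻¹ * ∫ p, ((1 - ε) ^ 2 * X p + ε * (1 - ε) * Y p) ∂colM ≤
      -((1 - ε) ^ 2 * ∫ v, Qr F t x v * Real.log (reg F ε t x v / maxwellian v)) +
        24 * 13 * cM * ε * (|Real.log ε| + 1 + Λ) * m := by
    rw [integral_add (iX.const_mul _) (iY.const_mul _), integral_const_mul, integral_const_mul, eQ]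
    have b1 : ε * (1 - ε) * ∫ p, Y p ∂colM ≤ ε * (96 * (4 * L + 1) * m * cM) := by
      have b0 : 0 ≤ 96 * (4 * L + 1) * m * cM := by positivity
      calc _ ≤ ε * (1 - ε) * (96 * (4 * L + 1) * m * cM) :=
            mul_le_mul_of_nonneg_left hYint (mul_nonneg h0.le (by linarith))
        _ ≤ _ := by nlinarith [mul_nonneg (mul_nonneg h0.le h0.le) b0]
    have b2 : 4 * L + 1 ≤ 13 * (|Real.log ε| + 1 + Λ) := by
      have := abs_nonneg (Real.log ε)
      rw [hL]; linarith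
    have b3 : ε * (96 * (4 * L + 1) * m * cM) ≤
        ε * (96 * (13 * (|Real.log ε| + 1 + Λ)) * m * cM) := by gcongr
    nlinarith
  refine ⟨?_, le_trans (by positivity) key⟩
  refine le_trans (le_of_eq ?_) (ENNReal.ofReal_le_ofReal key)
  rw [eD, ENNReal.ofReal_mul (by norm_num), ENNReal.ofReal_inv_of_pos (by norm_num),
    ENNReal.ofReal_ofNat]

theorem SolEnt_eps_pos (n : ℕ) : (0 : ℝ) < 1 / (n + 2) := by positivity

theorem SolEnt_eps_lt (n : ℕ) : (1 : ℝ) / (n + 2) < 1 := by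
  rw [div_lt_one (by positivity)]
  linarith [Nat.cast_nonneg (α := ℝ) n]

theorem SolEnt_eps_tendsto : Tendsto (fun n : ℕ => (1 : ℝ) / (n + 2)) atTop (𝓝 0) :=
  tendsto_const_nhds.div_atTop (tendsto_atTop_add_const_right _ _ tendsto_natCast_atTop_atTop)

theorem SolEnt_reg_tendsto (F : Fn) (t : ℝ) (x v : R3) :
    Tendsto (fun n : ℕ => reg F (1 / (n + 2)) t x v) atTop (𝓝 (re F t x v)) := by
  have h := ((SolEnt_eps_tendsto.const_sub 1).mul_const (re F t x v)).add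
    (SolEnt_eps_tendsto.mul_const (maxwellian v))
  simpa [reg] using h

theorem SolEnt_lint5 {Φ : (ℝ × R3) × R3 × R3 × R3 → ℝ≥0∞} (h : Measurable Φ) (I : Set ℝ) :
    ∫⁻ p, Φ p ∂(((volume.restrict I).prod (volume.restrict cell)).prod colM) =
      ∫⁻ s in I, ∫⁻ x in cell, ∫⁻ v, ∫⁻ vs, ∫⁻ w, Φ ((s, x), v, vs, w) ∂sphereMeasure := by
  rw [lintegral_prod _ h.aemeasurable,
    lintegral_prod _ (Measurable.lintegral_prod_right' h).aemeasurable]
  refine lintegral_congr fun s => lintegral_congr fun x => ?_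
  exact lintegral_colM (h.comp measurable_prodMk_left)

theorem SolEnt_meas4 {G : ℝ → R3 → R3 → ℝ}
    (h : Measurable fun p : ℝ × R3 × R3 => G p.1 p.2.1 p.2.2) :
    (Measurable fun p : (ℝ × R3) × R3 × R3 × R3 =>
      G p.1.1 p.1.2 (postVel p.2.1 p.2.2.1 p.2.2.2) *
        G p.1.1 p.1.2 (postVelStar p.2.1 p.2.2.1 p.2.2.2)) ∧
    Measurable fun p : (ℝ × R3) × R3 × R3 × R3 => G p.1.1 p.1.2 p.2.1 * G p.1.1 p.1.2 p.2.2.1 := by
  have a : ∀ {u : (ℝ × R3) × R3 × R3 × R3 → R3}, Measurable u →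
      Measurable fun p : (ℝ × R3) × R3 × R3 × R3 => G p.1.1 p.1.2 (u p) := fun hu =>
    h.comp (measurable_fst.fst.prodMk (measurable_fst.snd.prodMk hu))
  exact ⟨(a (continuous_postVel.measurable.comp measurable_snd)).mul
    (a (continuous_postVelStar.measurable.comp measurable_snd)),
    (a measurable_snd.fst).mul (a measurable_snd.snd.fst)⟩

/-- Fatou along `ε = 1 / (n + 2)`. -/
theorem dissipation_le_liminf (h : Plain F T) {t : ℝ} (ht : t ∈ Icc 0 T) :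
    ∫⁻ s in Icc 0 t, dissipation (re F s) ≤
      liminf (fun n : ℕ => ∫⁻ s in Ioc 0 t, ∫⁻ x in cell, 4⁻¹ * Dreg F (1 / (n + 2)) s x) atTop := by
  have h4 : (4⁻¹ : ℝ≥0∞) ≠ ⊤ := by norm_num
  have mc : Measurable fun p : (ℝ × R3) × R3 × R3 × R3 => cw p.2.1 p.2.2.1 p.2.2.2 :=
    measurable_cw.comp measurable_snd
  set Φ : (ℝ × R3) × R3 × R3 × R3 → ℝ≥0∞ := fun p => cw p.2.1 p.2.2.1 p.2.2.2 *
    pairDissipation (re F p.1.1 p.1.2 (postVel p.2.1 p.2.2.1 p.2.2.2) *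
        re F p.1.1 p.1.2 (postVelStar p.2.1 p.2.2.1 p.2.2.2))
      (re F p.1.1 p.1.2 p.2.1 * re F p.1.1 p.1.2 p.2.2.1) with hΦ
  set Ψ : ℕ → (ℝ × R3) × R3 × R3 × R3 → ℝ≥0∞ := fun n p => cw p.2.1 p.2.2.1 p.2.2.2 *
    ENNReal.ofReal ((reg F (1 / (n + 2)) p.1.1 p.1.2 (postVel p.2.1 p.2.2.1 p.2.2.2) *
        reg F (1 / (n + 2)) p.1.1 p.1.2 (postVelStar p.2.1 p.2.2.1 p.2.2.2) -
        reg F (1 / (n + 2)) p.1.1 p.1.2 p.2.1 * reg F (1 / (n + 2)) p.1.1 p.1.2 p.2.2.1) *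
      Real.log (reg F (1 / (n + 2)) p.1.1 p.1.2 (postVel p.2.1 p.2.2.1 p.2.2.2) *
        reg F (1 / (n + 2)) p.1.1 p.1.2 (postVelStar p.2.1 p.2.2.1 p.2.2.2) /
        (reg F (1 / (n + 2)) p.1.1 p.1.2 p.2.1 * reg F (1 / (n + 2)) p.1.1 p.1.2 p.2.2.1))) with hΨ
  have mΦ : Measurable Φ := by
    obtain ⟨a, b⟩ := SolEnt_meas4 (measurable_re h.meas)
    exact mc.mul (measurable_pairDissipation.comp (a.prodMk b))
  have mΨ : ∀ n, Measurable (Ψ n) := by
    intro n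
    obtain ⟨a, b⟩ := SolEnt_meas4 (SolEnt_meas_reg h.meas (1 / (n + 2)))
    exact mc.mul ((a.sub b).mul (a.div b).log).ennreal_ofReal
  set μ := ((volume.restrict (Ioc 0 t)).prod (volume.restrict cell)).prod colM with hμ
  have e1 : ∫⁻ s in Icc 0 t, dissipation (re F s) = 4⁻¹ * ∫⁻ p, Φ p ∂μ := by
    rw [← setLIntegral_congr Ioc_ae_eq_Icc, SolEnt_lint5 mΦ, ← lintegral_const_mul' _ _ h4]
    refine lintegral_congr fun s => ?_
    rw [dissipation]
    congr 1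
    refine lintegral_cell_prod (G := fun x v => ∫⁻ vs, ∫⁻ w, Φ ((s, x), v, vs, w) ∂sphereMeasure) ?_
    refine Measurable.lintegral_prod_right' (f := fun q : (R3 × R3) × R3 =>
      ∫⁻ w, Φ ((s, q.1.1), q.1.2, q.2, w) ∂sphereMeasure) ?_
    refine Measurable.lintegral_prod_right' (f := fun q : ((R3 × R3) × R3) × R3 =>
      Φ ((s, q.1.1.1), q.1.1.2, q.1.2, q.2)) ?_
    exact mΦ.comp (by fun_prop)
  have e2 : ∀ n : ℕ, ∫⁻ s in Ioc 0 t, ∫⁻ x in cell, 4⁻¹ * Dreg F (1 / (n + 2)) s x =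
      4⁻¹ * ∫⁻ p, Ψ n p ∂μ := by
    intro n
    rw [SolEnt_lint5 (mΨ n), ← lintegral_const_mul' _ _ h4]
    refine lintegral_congr fun s => ?_
    rw [← lintegral_const_mul' _ _ h4]
    rfl
  simp only [e1, e2]
  rw [ENNReal.liminf_const_mul_of_ne_top h4]
  gcongr
  refine le_trans (lintegral_mono fun p => ?_) (lintegral_liminf_le mΨ)
  simp only [hΦ, hΨ]
  rw [ENNReal.liminf_const_mul_of_ne_top (SolEnt_cw_ne_top _ _ _)]
  gcongr
  have rp := fun n : ℕ => SolEnt_reg_pos F (SolEnt_eps_pos n) (SolEnt_eps_lt n) p.1.1 p.1.2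
  exact pairDissipation_le_liminf
    (mul_nonneg (SolEnt_re_nonneg _ _ _ _) (SolEnt_re_nonneg _ _ _ _))
    (mul_nonneg (SolEnt_re_nonneg _ _ _ _) (SolEnt_re_nonneg _ _ _ _))
    (fun n => mul_pos (rp n _) (rp n _)) (fun n => mul_pos (rp n _) (rp n _))
    ((SolEnt_reg_tendsto F _ _ _).mul (SolEnt_reg_tendsto F _ _ _))
    ((SolEnt_reg_tendsto F _ _ _).mul (SolEnt_reg_tendsto F _ _ _))

theorem SolEnt_young {ρ B : ℝ≥0∞} (hB : 1 ≤ B) :
    ρ * B ^ (1 / 5 : ℝ) ≤ ρ ^ (3 / 2 : ℝ) + B := by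
  rcases le_total (B ^ (1 / 5 : ℝ)) (ρ ^ (1 / 2 : ℝ)) with h | h
  · refine le_trans ?_ le_self_add
    calc ρ * B ^ (1 / 5 : ℝ) ≤ ρ ^ (1 : ℝ) * ρ ^ (1 / 2 : ℝ) := by rw [ENNReal.rpow_one]; gcongr
      _ = _ := by rw [← ENNReal.rpow_add_of_nonneg _ _ (by norm_num) (by norm_num)]; norm_num
  · refine le_trans ?_ le_add_self
    have h1 : ρ ≤ B ^ (2 / 5 : ℝ) := by
      have := ENNReal.rpow_le_rpow h (show (0 : ℝ) ≤ 2 by norm_num)
      rw [← ENNReal.rpow_mul, ← ENNReal.rpow_mul] at this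
      norm_num at this
      exact this
    calc ρ * B ^ (1 / 5 : ℝ) ≤ B ^ (2 / 5 : ℝ) * B ^ (1 / 5 : ℝ) := by gcongr
      _ = B ^ (3 / 5 : ℝ) := by
          rw [← ENNReal.rpow_add_of_nonneg _ _ (by norm_num) (by norm_num)]; norm_num
      _ ≤ B ^ (1 : ℝ) := ENNReal.rpow_le_rpow_of_exponent_le hB (by norm_num)
      _ = B := ENNReal.rpow_one B

theorem SolEnt_restrict (I : Set ℝ) :
    (volume : Measure (ℝ × R3 × R3)).restrict (I ×ˢ (cell ×ˢ (univ : Set R3))) =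
      (volume.restrict I).prod ((volume.restrict cell).prod volume) := by
  rw [Measure.volume_eq_prod, ← Measure.prod_restrict, Measure.volume_eq_prod,
    ← Measure.prod_restrict, Measure.restrict_univ]

/-- The integrated form of `Dreg_le`. -/
theorem SolEnt_step (h : Plain F T) {t : ℝ} (ht : t ∈ Icc 0 T) : ∃ K : ℝ, 0 ≤ K ∧
    ∀ ε : ℝ, 0 < ε → ε < 1 → ∃ d : ℝ, d ≤ K * (ε * (|Real.log ε| + 1)) ∧
      0 ≤ -((1 - ε) ^ 2 * ∫ p in Ioc 0 t ×ˢ (cell ×ˢ (univ : Set R3)),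
        Qr F p.1 p.2.1 p.2.2 * Real.log (reg F ε p.1 p.2.1 p.2.2 / maxwellian p.2.2)) + d ∧
      ∫⁻ s in Ioc 0 t, ∫⁻ x in cell, 4⁻¹ * Dreg F ε s x ≤ ENNReal.ofReal
        (-((1 - ε) ^ 2 * ∫ p in Ioc 0 t ×ˢ (cell ×ˢ (univ : Set R3)),
        Qr F p.1 p.2.1 p.2.2 * Real.log (reg F ε p.1 p.2.1 p.2.2 / maxwellian p.2.2)) + d) := by
  obtain ⟨e⟩ := h.env
  obtain ⟨K, hK, hD⟩ := Dreg_le
  obtain ⟨C, hC⟩ := e.mom 3
  obtain ⟨C₂, hC₂⟩ := e.int₂
  set ν : Measure (ℝ × R3) := (volume.restrict (Ioc 0 t)).prod (volume.restrict cell) with hν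
  set W : ℝ × R3 → ℝ≥0∞ := fun q => e.ρ q.1 q.2 * e.B q.1 q.2 ^ (1 / 5 : ℝ) with hW
  have mW : Measurable W := e.mρ.mul (e.mB.pow_const _)
  have hWint : ∫⁻ q, W q ∂ν ≤ ENNReal.ofReal (C₂ * t) := by
    rw [lintegral_prod _ mW.aemeasurable]
    calc _ ≤ ∫⁻ s in Ioc 0 t, (C₂ : ℝ≥0∞) := by
          refine setLIntegral_mono' measurableSet_Ioc fun s hs => ?_
          exact le_trans (lintegral_mono fun x => SolEnt_young (e.one_B s x))
            (hC₂ s ⟨hs.1.le, hs.2.trans ht.2⟩)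
      _ = _ := by
          rw [ENNReal.ofReal_mul (by positivity)]
          simp
  have hWfin : ∀ᵐ q ∂ν, W q < ⊤ := ae_lt_top mW (ne_top_of_le_ne_top ENNReal.ofReal_ne_top hWint)
  have hmem : ∀ᵐ q ∂ν, q.1 ∈ Icc 0 T := by
    rw [hν, Measure.prod_restrict]
    filter_upwards [ae_restrict_mem (measurableSet_Ioc.prod measurableSet_cell)] with q hq
    exact ⟨hq.1.1.le, hq.1.2.trans ht.2⟩
  have iW : Integrable (fun q => (W q).toReal) ν :=
    integrable_toReal_of_lintegral_ne_top mW.aemeasurable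
      (ne_top_of_le_ne_top ENNReal.ofReal_ne_top hWint)
  have hWr : ∫ q, (W q).toReal ∂ν ≤ C₂ * t := by
    rw [integral_toReal mW.aemeasurable hWfin]
    exact ENNReal.toReal_le_of_le_ofReal (by have := ht.1; positivity) hWint
  refine ⟨K * (1 + 5 * e.p) * C * (C₂ * t), by have := ht.1; positivity, fun ε h0 h1 => ?_⟩
  set c : ℝ := K * ε * ((|Real.log ε| + 1) * (1 + 5 * e.p)) * C with hc
  have hc0 : 0 ≤ c := by positivity
  have i2 := SolEnt_int_Q h h0 h1 ht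
  rw [IntegrableOn, SolEnt_restrict] at i2
  have mp := measurePreserving_prodAssoc (volume.restrict (Ioc (0 : ℝ) t))
    ((volume : Measure R3).restrict cell) (volume : Measure R3)
  have i3 := (mp.integrable_comp_emb MeasurableEquiv.prodAssoc.measurableEmbedding).2 i2
  have i4 := i3.integral_prod_left
  have e4 := integral_prod _ i3
  have e5 := mp.integral_comp MeasurableEquiv.prodAssoc.measurableEmbedding
    (fun p : ℝ × R3 × R3 =>
      Qr F p.1 p.2.1 p.2.2 * Real.log (reg F ε p.1 p.2.1 p.2.2 / maxwellian p.2.2))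
  set a : ℝ × R3 → ℝ := fun q =>
    ∫ v, Qr F q.1 q.2 v * Real.log (reg F ε q.1 q.2 v / maxwellian v) with ha
  have ia : Integrable a ν := i4
  have ea : ∫ q, a q ∂ν = ∫ p in Ioc 0 t ×ˢ (cell ×ˢ (univ : Set R3)),
      Qr F p.1 p.2.1 p.2.2 * Real.log (reg F ε p.1 p.2.1 p.2.2 / maxwellian p.2.2) := by
    rw [SolEnt_restrict, ← e5]
    exact e4.symm
  set u : ℝ × R3 → ℝ := fun q => -((1 - ε) ^ 2 * a q) + c * (W q).toReal with hu
  have iu : Integrable u ν := (ia.const_mul _).neg.add (iW.const_mul _)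
  have hae : ∀ᵐ q ∂ν, 4⁻¹ * Dreg F ε q.1 q.2 ≤ ENNReal.ofReal (u q) ∧ 0 ≤ u q := by
    filter_upwards [hWfin, hmem] with q q1 q2
    have r1 := e.one_ρ q.1 q.2
    have r2 := SolEnt_one_le_B e q.1 q.2
    have f1 : e.ρ q.1 q.2 ≠ ⊤ := ne_top_of_le_ne_top q1.ne (le_mul_of_one_le_right' r2)
    have f2 : e.B q.1 q.2 ^ (1 / 5 : ℝ) ≠ ⊤ := ne_top_of_le_ne_top q1.ne (le_mul_of_one_le_left' r1)
    set β := (e.B q.1 q.2 ^ (1 / 5 : ℝ)).toReal with hβ
    have hβ1 : 1 ≤ β := by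
      have := ENNReal.toReal_mono f2 r2
      rwa [ENNReal.toReal_one] at this
    set ρ := (e.ρ q.1 q.2).toReal with hρ
    have hρ0 : 0 ≤ ρ := ENNReal.toReal_nonneg
    obtain ⟨k1, k2⟩ := hD F ε q.1 q.2 (5 * e.p * β) (C * ρ) h0 h1 (h.meas.slice _ _)
      (h.fin _ q2 _) (by positivity) (fun v => by
        have := e.log_le q2 q.2 v
        rw [← ENNReal.ofReal_toReal f2, ← hβ, ← ENNReal.ofReal_natCast, ← ENNReal.ofReal_ofNat 5,
          ← ENNReal.ofReal_mul (by norm_num), ← ENNReal.ofReal_mul (by positivity),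
          ENNReal.ofReal_le_ofReal_iff (by positivity)] at this
        exact this) (by positivity) (by
        rw [ENNReal.ofReal_mul (by positivity), hρ, ENNReal.ofReal_toReal f1,
          ENNReal.ofReal_coe_nnreal]
        exact hC _ q2 _)
    have k3 : K * ε * (|Real.log ε| + 1 + 5 * e.p * β) * (C * ρ) ≤ c * (W q).toReal := by
      have l1 : |Real.log ε| + 1 + 5 * e.p * β ≤ (|Real.log ε| + 1) * (1 + 5 * e.p) * β := by
        have l0 := abs_nonneg (Real.log ε)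
        have l2 : (0 : ℝ) ≤ e.p := Nat.cast_nonneg _
        nlinarith [mul_nonneg (mul_nonneg l0 l2) (show 0 ≤ β by linarith),
          mul_nonneg l0 (show 0 ≤ β - 1 by linarith)]
      calc _ ≤ K * ε * ((|Real.log ε| + 1) * (1 + 5 * e.p) * β) * (C * ρ) := by gcongr
        _ = _ := by simp only [hW, ENNReal.toReal_mul, hc, ← hβ, ← hρ]; ring
    exact ⟨k1.trans (ENNReal.ofReal_le_ofReal (by simp only [hu, ha]; linarith)),
      k2.trans (by simp only [hu, ha]; linarith)⟩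
  have eu : ∫ q, u q ∂ν = -((1 - ε) ^ 2 * ∫ q, a q ∂ν) + c * ∫ q, (W q).toReal ∂ν := by
    have i5 : Integrable (fun q => -((1 - ε) ^ 2 * a q)) ν := (ia.const_mul _).neg
    simp only [hu]
    rw [integral_add i5 (iW.const_mul _), integral_neg, integral_const_mul, integral_const_mul]
  have hu0 : 0 ≤ᵐ[ν] u := hae.mono fun q hq => hq.2
  refine ⟨c * ∫ q, (W q).toReal ∂ν, ?_, ?_, ?_⟩
  · calc _ ≤ c * (C₂ * t) := by gcongr
      _ = _ := by rw [hc]; ring
  · rw [← ea, ← eu]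
    exact integral_nonneg_of_ae hu0
  · rw [← ea, ← eu, ofReal_integral_eq_lintegral_ofReal iu hu0,
      lintegral_prod _ iu.aestronglyMeasurable.aemeasurable.ennreal_ofReal]
    refine lintegral_mono_ae ?_
    filter_upwards [Measure.ae_ae_of_ae_prod hae] with s hs
    refine lintegral_mono_ae ?_
    filter_upwards [hs] with x hx using hx.1

theorem SolEnt_liminf_add (A B : ℕ → ℝ≥0∞) :
    liminf A atTop + liminf B atTop ≤ liminf (A + B) atTop := by
  rw [liminf_eq_iSup_iInf_of_nat, liminf_eq_iSup_iInf_of_nat, liminf_eq_iSup_iInf_of_nat]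
  have m : ∀ u : ℕ → ℝ≥0∞, Monotone fun n => ⨅ i ≥ n, u i := fun u a b hab =>
    le_iInf₂ fun i hi => iInf₂_le i (hab.trans hi)
  rw [ENNReal.iSup_add_iSup_of_monotone (m A) (m B)]
  exact iSup_mono fun n => le_iInf₂ fun i hi => add_le_add (iInf₂_le i hi) (iInf₂_le i hi)

theorem SolEnt_delta_tendsto :
    Tendsto (fun n : ℕ => (1 : ℝ) / (n + 2) * (|Real.log (1 / (n + 2))| + 1)) atTop (𝓝 0) := by
  have h1 := ((Real.continuous_mul_log.tendsto 0).comp SolEnt_eps_tendsto).abs.add SolEnt_eps_tendsto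
  simp only [zero_mul, abs_zero, add_zero] at h1
  refine h1.congr fun n => ?_
  simp only [Function.comp]
  rw [abs_mul, abs_of_pos (SolEnt_eps_pos n)]
  ring

/-- Multiply `entropy_id` by `1 - ε`, use `Dreg_le`, `Hf_convex` at time `0`, Fatou at time `t`. -/
theorem Plain.entropy (h : Plain F T) {t : ℝ} (ht : t ∈ Icc 0 T) :
    relEntropy (re F t) + ∫⁻ s in Icc 0 t, dissipation (re F s) ≤ relEntropy (re F 0) := by
  have hT : (0 : ℝ) ∈ Icc 0 T := ⟨le_rfl, ht.1.trans ht.2⟩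
  obtain ⟨K, hK, hstep⟩ := SolEnt_step h ht
  have hpos : ∀ (ε : ℝ) (h0 : 0 < ε) (h1 : ε < 1) (s : ℝ) (q : R3 × R3),
      0 ≤ Hf (reg F ε s q.1 q.2) (maxwellian q.2) := fun ε h0 h1 s q =>
    Hf_nonneg (SolEnt_reg_pos F h0 h1 s q.1 q.2).le (Mx_pos _)
  set A : ℕ → ℝ≥0∞ := fun n => ∫⁻ q in cell ×ˢ (univ : Set R3),
    ENNReal.ofReal ((1 - 1 / (n + 2)) * Hf (reg F (1 / (n + 2)) t q.1 q.2) (maxwellian q.2)) with hA
  set B : ℕ → ℝ≥0∞ := fun n => ∫⁻ s in Ioc 0 t, ∫⁻ x in cell, 4⁻¹ * Dreg F (1 / (n + 2)) s x with hB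
  have h1 : relEntropy (re F t) ≤ liminf A atTop := by
    refine le_trans (lintegral_mono fun q => ?_) (lintegral_liminf_le fun n =>
      ((SolEnt_meas_Hf h.meas _ t).const_mul _).ennreal_ofReal)
    have k1 : Tendsto (fun n : ℕ => Hf (reg F (1 / (n + 2)) t q.1 q.2) (maxwellian q.2)) atTop
        (𝓝 (Hf (re F t q.1 q.2) (maxwellian q.2))) :=
      ((continuousOn_Hf (Mx_pos q.2)) _ (SolEnt_re_nonneg F t q.1 q.2)).tendsto.comp
        (tendsto_nhdsWithin_iff.2 ⟨SolEnt_reg_tendsto F t q.1 q.2, Eventually.of_forall fun n =>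
          (SolEnt_reg_pos F (SolEnt_eps_pos n) (SolEnt_eps_lt n) t q.1 q.2).le⟩)
    have k2 := ENNReal.tendsto_ofReal ((SolEnt_eps_tendsto.const_sub 1).mul k1)
    rw [sub_zero, one_mul] at k2
    exact k2.liminf_eq.ge
  have h2 := dissipation_le_liminf h ht
  have h3 : ∀ n, A n + B n ≤ relEntropy (re F 0) +
      ENNReal.ofReal (K * (1 / (n + 2) * (|Real.log (1 / (n + 2))| + 1))) := by
    intro n
    have h0 := SolEnt_eps_pos n
    have h1 := SolEnt_eps_lt n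
    simp only [hA, hB]
    generalize (1 : ℝ) / (n + 2) = ε at h0 h1 ⊢
    have h1' : 0 ≤ 1 - ε := by linarith
    obtain ⟨d, d1, d2, d3⟩ := hstep ε h0 h1
    obtain ⟨i1, -, e1⟩ := h.entropy_id h0 h1 ht
    have i0 := SolEnt_int_Hf h h0 h1 hT
    rw [← ofReal_integral_eq_lintegral_ofReal (i1.const_mul _)
      (Eventually.of_forall fun q => mul_nonneg h1' (hpos ε h0 h1 t q)), integral_const_mul]
    have p1 : 0 ≤ ∫ q in cell ×ˢ (univ : Set R3), Hf (reg F ε t q.1 q.2) (maxwellian q.2) :=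
      integral_nonneg fun q => hpos ε h0 h1 t q
    have p0 : 0 ≤ ∫ q in cell ×ˢ (univ : Set R3), Hf (reg F ε 0 q.1 q.2) (maxwellian q.2) :=
      integral_nonneg fun q => hpos ε h0 h1 0 q
    refine (add_le_add le_rfl d3).trans ?_
    rw [← ENNReal.ofReal_add (mul_nonneg h1' p1) d2]
    have p2 : ENNReal.ofReal (∫ q in cell ×ˢ (univ : Set R3),
        Hf (reg F ε 0 q.1 q.2) (maxwellian q.2)) ≤ relEntropy (re F 0) := by
      rw [ofReal_integral_eq_lintegral_ofReal i0 (Eventually.of_forall fun q => hpos ε h0 h1 0 q)]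
      exact lintegral_mono fun q => ENNReal.ofReal_le_ofReal (SolEnt_Hf_reg_le F h0 h1 0 q.1 q.2)
    refine le_trans ?_ (add_le_add p2 le_rfl)
    rw [← ENNReal.ofReal_add p0 (by positivity)]
    refine ENNReal.ofReal_le_ofReal ?_
    rw [e1]
    nlinarith [mul_nonneg h0.le p0]
  have h4 : Tendsto (fun n : ℕ => relEntropy (re F 0) +
      ENNReal.ofReal (K * (1 / (n + 2) * (|Real.log (1 / (n + 2))| + 1)))) atTop
      (𝓝 (relEntropy (re F 0))) := by
    have := (ENNReal.tendsto_ofReal (SolEnt_delta_tendsto.const_mul K)).const_add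
      (relEntropy (re F 0))
    simpa using this
  calc _ ≤ liminf A atTop + liminf B atTop := add_le_add h1 h2
    _ ≤ liminf (A + B) atTop := SolEnt_liminf_add A B
    _ ≤ _ := (liminf_le_liminf (Eventually.of_forall h3)).trans h4.liminf_eq.le

end Crest.Agent.R68
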