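/-
R68/IIe: global continuation
Skeleton by helper76 (row 68); keep the statements unchanged, add any helper lemmas you like.
-/
import Crest.Agent.R68.IIb
import Crest.Agent.R68.IId
import Crest.Agent.R68.SolEnt
import Crest.Agent.R68.EntPt

set_option autoImplicit false
set_option linter.unusedVariables false
set_option linter.unusedSectionVars false

noncomputable section

namespace Crest.Agent.R68

open MeasureTheory Set Filter Topology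
open scoped ENNReal NNReal
open Crest.AnalysisR.VecCalc3 Crest.AnalysisR.PDE.Boltzmann

namespace P2

theorem IIe_small (a b : ℝ≥0) (hb : 0 < b) : ∃ e : ℝ≥0, 0 < e ∧ e ≤ b ∧ a * e ≤ b := by
  have h : (0 : ℝ≥0) < a + 1 := by positivity
  have e : (a + 1) * (b / (a + 1)) = b := mul_div_cancel₀ _ h.ne'
  rw [add_mul, one_mul] at e
  refine ⟨b / (a + 1), div_pos hb h, ?_, ?_⟩
  · exact le_of_le_of_eq le_add_self e
  · exact le_of_le_of_eq le_self_add e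

theorem IIe_mono (D : P2) {a b : ℝ≥0∞} (hab : a ≤ b) {F : Fn} {r T : ℝ}
    (h : LeOn r T F (D.Sg + a • D.mw)) : LeOn r T F (D.Sg + b • D.mw) := by
  intro t ht x v
  refine (h t ht x v).trans ?_
  simp only [Pi.add_apply, Pi.smul_apply, smul_eq_mul]
  gcongr

theorem IIe_dv_le (F : Fn) (t : ℝ) (x v : R3) :
    dv F t x v ≤ (F t x v - Mx v) + (Mx v - F t x v) :=
  sup_le (a := F t x v - Mx v) (b := Mx v - F t x v) le_self_add le_add_self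

/-- Choose `θ = 1 / (4 C₁)`, then `x₁` with `K (C₁ x₁)² ≤ x₁ / 4`, then `ε₂`, `η`, `H₀` with
`K ε₂ ≤ x₁ / 4` and `C (η + C' H₀) ≤ x₁ / 4` (`l1_le_relEntropy`).  Induction on `n`:
`dv F ≤ Sg + x₁ mw` on `[t₁, t₁ + n τ]` (`init₁`, `init₂` for `n = 0`; `step`, `TS.plain`,
`Plain.entropy` with `Plain.mono`, `guo`). -/
theorem global (ν N Cw : ℝ≥0) (hν : 0 < ν) : ∃ ε₂ H₀ : ℝ≥0, 0 < ε₂ ∧ 0 < H₀ ∧ ∀ D : P2,
    D.Par ν N Cw → D.ε₂ ≤ ε₂ → relEntropy (re D.F₁ 0) ≤ H₀ →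
    ∃ F, (∀ T, Plain F T) ∧ ∀ t, t ≤ D.t₁ → F t = D.F₁ t := by
  obtain ⟨xa, hxa, hex⟩ := exists_TS ν N Cw hν
  obtain ⟨xb, C₁, τ, hxb, hC₁, hτ, hstep⟩ := step ν N Cw hν
  obtain ⟨xc, K, hxc, hguo⟩ := guo ν N Cw hν
  obtain ⟨θ, hθ, -, hθ'⟩ := IIe_small C₁ (1 / 4) (by norm_num)
  obtain ⟨C, hC⟩ := hguo θ hθ
  obtain ⟨e₁, he₁, -, he₁'⟩ := IIe_small C₁ (min (min xa xb) (min xc 1))
    (lt_min (lt_min hxa hxb) (lt_min hxc one_pos))
  obtain ⟨e₂, he₂, -, he₂'⟩ := IIe_small (K * C₁ ^ 2) (1 / 4) (by norm_num)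
  obtain ⟨x₁, hx₁, hm, hK⟩ : ∃ x₁ : ℝ≥0, 0 < x₁ ∧ C₁ * x₁ ≤ min (min xa xb) (min xc 1) ∧
      K * C₁ ^ 2 * x₁ ≤ 1 / 4 :=
    ⟨min e₁ e₂, lt_min he₁ he₂, le_trans (by gcongr; exact min_le_left _ _) he₁',
      le_trans (by gcongr; exact min_le_right _ _) he₂'⟩
  have ha : C₁ * x₁ ≤ xa := hm.trans ((min_le_left _ _).trans (min_le_left _ _))
  have hb : C₁ * x₁ ≤ xb := hm.trans ((min_le_left _ _).trans (min_le_right _ _))
  have hc : C₁ * x₁ ≤ xc := hm.trans ((min_le_right _ _).trans (min_le_left _ _))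
  have h1 : C₁ * x₁ ≤ 1 := hm.trans ((min_le_right _ _).trans (min_le_right _ _))
  have h12 : x₁ ≤ C₁ * x₁ := le_mul_of_one_le_left' hC₁
  obtain ⟨ε₂, hε, hε₁, hε₂⟩ := IIe_small K (x₁ / 4) (by positivity)
  obtain ⟨η, hη, -, hη'⟩ := IIe_small C (x₁ / 8) (by positivity)
  obtain ⟨C', hC'⟩ := l1_le_relEntropy hη
  obtain ⟨H₀, hH, -, hH'⟩ := IIe_small (C * C') (x₁ / 8) (by positivity)
  refine ⟨ε₂, H₀, hε, hH, fun D hD hDε hDH => ?_⟩
  have hε₃ : D.ε₂ ≤ x₁ := hDε.trans (hε₁.trans (div_le_self zero_le (by norm_num)))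
  obtain ⟨F, hF⟩ := hex D hD (C₁ * x₁) ha (hε₃.trans h12)
  have hnum : K * (D.ε₂ + (C₁ * x₁) ^ 2) + θ * (C₁ * x₁) + C * (η + C' * H₀) ≤ x₁ := by
    have a1 : K * D.ε₂ ≤ x₁ / 4 := le_trans (by gcongr) hε₂
    have a2 : K * C₁ ^ 2 * x₁ * x₁ ≤ 1 / 4 * x₁ := by gcongr
    have a3 : C₁ * θ * x₁ ≤ 1 / 4 * x₁ := by gcongr
    calc K * (D.ε₂ + (C₁ * x₁) ^ 2) + θ * (C₁ * x₁) + C * (η + C' * H₀)
        = K * D.ε₂ + K * C₁ ^ 2 * x₁ * x₁ + C₁ * θ * x₁ + (C * η + C * C' * H₀) := by ring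
      _ ≤ x₁ / 4 + 1 / 4 * x₁ + 1 / 4 * x₁ + (x₁ / 8 + x₁ / 8) := by gcongr
      _ = x₁ := by ring
  have hnum' : (K : ℝ≥0∞) * (D.ε₂ + ((C₁ * x₁ : ℝ≥0) : ℝ≥0∞) ^ 2) + θ * ((C₁ * x₁ : ℝ≥0) : ℝ≥0∞) +
      C * ((η : ℝ≥0∞) + C' * H₀) ≤ x₁ := by exact_mod_cast hnum
  have h0 : F 0 = D.F₁ 0 := hF.init 0 hD.ok.t₁_pos.le
  have key : ∀ n : ℕ, LeOn D.t₁ (D.t₁ + n * τ) (dv F) (D.Sg + (x₁ : ℝ≥0∞) • D.mw) := by
    intro n
    induction n with
    | zero =>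
      intro t ht x v
      have e : t = D.t₁ := le_antisymm (by simpa using ht.2) ht.1
      subst e
      have hε₄ : (D.ε₂ : ℝ≥0∞) ≤ x₁ := by exact_mod_cast hε₃
      refine le_of_dv.2 ⟨?_, ?_⟩
      · rw [hF.init _ le_rfl]
        refine (hD.ok.init₁ x v).trans ?_
        simp only [Pi.add_apply, Pi.smul_apply, smul_eq_mul, add_assoc]
        gcongr
      · rw [hF.init _ le_rfl]
        refine (hD.ok.init₂ x v).trans ?_
        simp only [Pi.add_apply, Pi.smul_apply, smul_eq_mul, add_assoc]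
        gcongr
    | succ n ih =>
      have e : D.t₁ + ((n + 1 : ℕ) : ℝ) * τ = D.t₁ + n * τ + τ := by
        push_cast
        ring
      rw [e]
      have g1 := hstep D hD x₁ hb hε₃ F hF _ ih
      have g2 : Plain F (D.t₁ + n * τ + τ) := TS.plain hD.ok h1 hF g1
      refine IIe_mono D hnum' (hC D hD _ hc F hF _ _ fun s hs => ?_)
      have g3 := g2.entropy (t := s) ⟨hD.ok.t₁_pos.le.trans hs.1, hs.2⟩
      have g4 : relEntropy (re F s) ≤ H₀ := by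
        refine le_trans (le_trans le_self_add g3) (le_trans (le_of_eq ?_) hDH)
        unfold re
        rw [h0]
      refine le_trans (lintegral_mono fun y => lintegral_mono fun u => IIe_dv_le F s y u) ?_
      refine (hC' (F s) (hF.reg.meas.time s) (hF.reg.fin s)).trans ?_
      have g5 : (relEntropy fun x v => (F s x v).toReal) ≤ H₀ := g4
      gcongr
  refine ⟨F, fun T => ?_, hF.init⟩
  obtain ⟨n, hn⟩ := exists_nat_ge ((T - D.t₁) / τ)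
  rw [div_le_iff₀ hτ] at hn
  have h13 : (x₁ : ℝ≥0∞) ≤ ((C₁ * x₁ : ℝ≥0) : ℝ≥0∞) := by exact_mod_cast h12
  exact (TS.plain hD.ok h1 hF (IIe_mono D h13 (key n))).mono (by linarith)

end P2

end Crest.Agent.R68
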