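/-
R68/SolTest: testing the equation; weak solutions
Skeleton by helper76 (row 68); keep the statements unchanged, add any helper lemmas you like.
-/
import Crest.Agent.R68.SolInt

set_option autoImplicit false
set_option linter.unusedVariables false
set_option linter.unusedSectionVars false

noncomputable section

namespace Crest.Agent.R68

open MeasureTheory Set Filter Topology
open scoped ENNReal NNReal
open Crest.AnalysisR.VecCalc3 Crest.AnalysisR.PDE.Boltzmann

variable {F : Fn} {T : ℝ}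

theorem SolTest_int_time {G : Fn} (hG : Meas G) {g : ℝ → R3 → R3 → ℝ}
    (mg : Measurable fun p : ℝ × R3 × R3 => g p.1 p.2.1 p.2.2)
    (hle : ∀ t ∈ Ioc 0 T, ∀ x v, ‖g t x v‖ₑ ≤ G t x v)
    (hfin : ∫⁻ t in Ioc 0 T, ∫⁻ x in cell, ∫⁻ v, G t x v ≠ ⊤) :
    IntegrableOn (fun p : ℝ × R3 × R3 => g p.1 p.2.1 p.2.2) (Ioc 0 T ×ˢ (cell ×ˢ univ)) := by
  refine ⟨mg.aestronglyMeasurable, ?_⟩
  rw [← lintegral_time_prod hG measurableSet_Ioc] at hfin
  refine lt_of_le_of_lt ?_ hfin.lt_top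
  refine setLIntegral_mono' (measurableSet_Ioc.prod (measurableSet_cell.prod MeasurableSet.univ)) ?_
  intro p hp
  exact hle _ hp.1 _ _

theorem SolTest_int_cell {G : R3 → R3 → ℝ≥0∞} (hG : Measurable fun q : R3 × R3 => G q.1 q.2)
    {g : R3 → R3 → ℝ} (mg : Measurable fun q : R3 × R3 => g q.1 q.2)
    (hle : ∀ x v, ‖g x v‖ₑ ≤ G x v) (hfin : ∫⁻ x in cell, ∫⁻ v, G x v ≠ ⊤) :
    IntegrableOn (fun q : R3 × R3 => g q.1 q.2) (cell ×ˢ univ) := by
  refine ⟨mg.aestronglyMeasurable, ?_⟩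
  rw [← lintegral_cell_prod hG] at hfin
  refine lt_of_le_of_lt ?_ hfin.lt_top
  exact lintegral_mono fun q => hle _ _

theorem SolTest_enorm_le {a C : ℝ} {v : R3} {k : ℕ} (h : |a| ≤ C * (1 + ‖v‖) ^ k) :
    ‖a‖ₑ ≤ ENNReal.ofReal C * br v ^ k := by
  have h1 : (0 : ℝ) ≤ 1 + ‖v‖ := by positivity
  rw [← ofReal_norm, Real.norm_eq_abs, br, ← ENNReal.ofReal_pow h1,
    ← ENNReal.ofReal_mul' (pow_nonneg h1 k)]
  exact ENNReal.ofReal_le_ofReal h

theorem SolTest_enorm_toReal (a : ℝ≥0∞) : ‖a.toReal‖ₑ ≤ a := by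
  rw [← ofReal_norm, Real.norm_eq_abs, abs_of_nonneg ENNReal.toReal_nonneg]
  exact ENNReal.ofReal_toReal_le

theorem SolTest_enorm_Qr (F : Fn) (t : ℝ) (x v : R3) :
    ‖Qr F t x v‖ₑ ≤ GN F F t x v + (F * LS F) t x v :=
  (enorm_sub_le).trans (add_le_add (SolTest_enorm_toReal _) (SolTest_enorm_toReal _))

theorem SolTest_meas_br : Measurable br := by
  unfold br
  fun_prop

theorem SolTest_one_le (E : Env F T) (t : ℝ) (x : R3) : 1 ≤ E.B t x ^ (1 / 5 : ℝ) :=
  ENNReal.one_le_rpow (E.one_B t x) (by norm_num)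

theorem SolTest_meas_B (E : Env F T) :
    Measurable fun p : ℝ × R3 × R3 => E.B p.1 p.2.1 ^ (1 / 5 : ℝ) :=
  (E.mB.comp (measurable_fst.prodMk (measurable_fst.comp measurable_snd))).pow_const _

theorem SolTest_cmul3 (c : ℝ≥0∞) (hc : c ≠ ⊤) (G : R3 → R3 → ℝ≥0∞) :
    ∫⁻ x in cell, ∫⁻ v, c * G x v = c * ∫⁻ x in cell, ∫⁻ v, G x v := by
  rw [← lintegral_const_mul' _ _ hc]
  refine lintegral_congr fun x => ?_
  rw [lintegral_const_mul' _ _ hc]

theorem SolTest_per_re (h : ∀ t v, IsPeriodic3 fun x => F t x v) (t : ℝ) (v : R3) :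
    IsPeriodic3 fun x => re F t x v := fun x i => congrArg ENNReal.toReal (h t v x i)

theorem SolTest_per_Qr (h : ∀ t v, IsPeriodic3 fun x => F t x v) (t : ℝ) (v : R3) :
    IsPeriodic3 fun x => Qr F t x v := fun x i => by
  have h1 := per_GN h t v x i
  have h2 := per_loss h t v x i
  simp only at h1 h2
  simp only [Qr, h1, h2]

theorem SolTest_int_re (h : Plain F T) {e : ℝ → R3 → R3 → ℝ}
    (me : Measurable fun p : ℝ × R3 × R3 => e p.1 p.2.1 p.2.2) {C : ℝ} {k : ℕ}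
    (hb : ∀ t ∈ Icc 0 T, ∀ x v, |e t x v| ≤ C * (1 + ‖v‖) ^ k) :
    IntegrableOn (fun p : ℝ × R3 × R3 => re F p.1 p.2.1 p.2.2 * e p.1 p.2.1 p.2.2)
      (Ioc 0 T ×ˢ (cell ×ˢ univ)) ∧
    ∀ t ∈ Icc 0 T,
      IntegrableOn (fun q : R3 × R3 => re F t q.1 q.2 * e t q.1 q.2) (cell ×ˢ univ) := by
  obtain ⟨E⟩ := h.env
  obtain ⟨M, hM⟩ := E.mass h.meas k
  set G : Fn := fun t x v => ENNReal.ofReal C * (br v ^ k * F t x v * E.B t x ^ (1 / 5 : ℝ))
    with hGdef
  have hG : Meas G := by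
    have h1 : Measurable fun p : ℝ × R3 × R3 => br p.2.2 ^ k :=
      (SolTest_meas_br.comp (measurable_snd.comp measurable_snd)).pow_const _
    exact ((h1.mul h.meas).mul (SolTest_meas_B E)).const_mul _
  have hle : ∀ t ∈ Icc 0 T, ∀ x v, ‖re F t x v * e t x v‖ₑ ≤ G t x v := by
    intro t ht x v
    rw [enorm_mul]
    calc ‖re F t x v‖ₑ * ‖e t x v‖ₑ ≤ F t x v * (ENNReal.ofReal C * br v ^ k) :=
          mul_le_mul' (SolTest_enorm_toReal _) (SolTest_enorm_le (hb t ht x v))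
      _ = ENNReal.ofReal C * (br v ^ k * F t x v * 1) := by ring
      _ ≤ G t x v := by
          simp only [hGdef]
          gcongr
          exact SolTest_one_le E t x
  have hfin : ∀ t ∈ Icc 0 T, ∫⁻ x in cell, ∫⁻ v, G t x v ≤ ENNReal.ofReal C * M := by
    intro t ht
    simp only [hGdef]
    rw [SolTest_cmul3 _ ENNReal.ofReal_ne_top]
    gcongr
    exact hM t ht
  have hCM : ENNReal.ofReal C * M ≠ ⊤ := ENNReal.mul_ne_top ENNReal.ofReal_ne_top ENNReal.coe_ne_top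
  have hm : Measurable fun p : ℝ × R3 × R3 => re F p.1 p.2.1 p.2.2 * e p.1 p.2.1 p.2.2 :=
    (measurable_re h.meas).mul me
  refine ⟨?_, fun t ht => ?_⟩
  · refine SolTest_int_time (g := fun t x v => re F t x v * e t x v) hG hm
      (fun t ht => hle t (Ioc_subset_Icc_self ht)) ?_
    refine ne_top_of_le_ne_top ?_
      (setLIntegral_mono' measurableSet_Ioc fun t ht => hfin t (Ioc_subset_Icc_self ht))
    rw [setLIntegral_const]
    exact ENNReal.mul_ne_top hCM (by simp)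
  · exact SolTest_int_cell (g := fun x v => re F t x v * e t x v) (hG.time t)
      (hm.comp (measurable_const.prodMk measurable_id)) (hle t ht)
      (ne_top_of_le_ne_top hCM (hfin t ht))

theorem SolTest_int_Qr (h : Plain F T) {e : ℝ → R3 → R3 → ℝ}
    (me : Measurable fun p : ℝ × R3 × R3 => e p.1 p.2.1 p.2.2) {C : ℝ} {k : ℕ}
    (hb : ∀ t ∈ Icc 0 T, ∀ x v, |e t x v| ≤ C * (1 + ‖v‖) ^ k) :
    IntegrableOn (fun p : ℝ × R3 × R3 => Qr F p.1 p.2.1 p.2.2 * e p.1 p.2.1 p.2.2)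
      (Ioc 0 T ×ˢ (cell ×ˢ univ)) := by
  obtain ⟨E⟩ := h.env
  have hM := E.coll_int h.meas k
  set G : Fn := fun t x v => ENNReal.ofReal C *
    ((GN F F t x v + (F * LS F) t x v) * br v ^ k * E.B t x ^ (1 / 5 : ℝ)) with hGdef
  have hG : Meas G := by
    have h1 : Measurable fun p : ℝ × R3 × R3 => br p.2.2 ^ k :=
      (SolTest_meas_br.comp (measurable_snd.comp measurable_snd)).pow_const _
    have h2 : Meas (GN F F) := h.meas.GN h.meas
    have h3 : Meas (F * LS F) := h.meas.mul h.meas.LS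
    exact (((Measurable.add h2 h3).mul h1).mul (SolTest_meas_B E)).const_mul _
  refine SolTest_int_time (g := fun t x v => Qr F t x v * e t x v) hG
    ((measurable_Qr h.meas).mul me) ?_ ?_
  · intro t ht x v
    rw [enorm_mul]
    calc ‖Qr F t x v‖ₑ * ‖e t x v‖ₑ
        ≤ (GN F F t x v + (F * LS F) t x v) * (ENNReal.ofReal C * br v ^ k) :=
          mul_le_mul' (SolTest_enorm_Qr _ _ _ _)
            (SolTest_enorm_le (hb t (Ioc_subset_Icc_self ht) x v))
      _ = ENNReal.ofReal C * ((GN F F t x v + (F * LS F) t x v) * br v ^ k * 1) := by ring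
      _ ≤ G t x v := by
          simp only [hGdef]
          gcongr
          exact SolTest_one_le E t x
  · simp only [hGdef]
    simp only [SolTest_cmul3 _ ENNReal.ofReal_ne_top]
    rw [lintegral_const_mul' _ _ ENNReal.ofReal_ne_top]
    exact ENNReal.mul_ne_top ENNReal.ofReal_ne_top hM

/-- `prod_rule` on almost every characteristic, then `integral_shear`, `integral_shear_time`. -/
theorem Plain.test (h : Plain F T) {e e' : ℝ → R3 → R3 → ℝ}
    (me : Measurable fun p : ℝ × R3 × R3 => e p.1 p.2.1 p.2.2)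
    (me' : Measurable fun p : ℝ × R3 × R3 => e' p.1 p.2.1 p.2.2)
    (pe : ∀ t v, IsPeriodic3 fun x => e t x v) (pe' : ∀ t v, IsPeriodic3 fun x => e' t x v)
    {C : ℝ} {k : ℕ}
    (hb : ∀ t ∈ Icc 0 T, ∀ x v, |e t x v| ≤ C * (1 + ‖v‖) ^ k ∧ |e' t x v| ≤ C * (1 + ‖v‖) ^ k)
    (hpath : ∀ x v, ∀ t ∈ Icc 0 T,
      e t (x + t • v) v = e 0 x v + ∫ s in Ioc 0 t, e' s (x + s • v) v) :
    IntegrableOn (fun p : ℝ × R3 × R3 => re F p.1 p.2.1 p.2.2 * e' p.1 p.2.1 p.2.2)
      (Ioc 0 T ×ˢ (cell ×ˢ univ)) ∧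
    IntegrableOn (fun p : ℝ × R3 × R3 => Qr F p.1 p.2.1 p.2.2 * e p.1 p.2.1 p.2.2)
      (Ioc 0 T ×ˢ (cell ×ˢ univ)) ∧
    ∀ t ∈ Icc 0 T, IntegrableOn (fun q : R3 × R3 => re F t q.1 q.2 * e t q.1 q.2) (cell ×ˢ univ) ∧
      ∫ q in cell ×ˢ (univ : Set R3), re F t q.1 q.2 * e t q.1 q.2 =
        (∫ q in cell ×ˢ (univ : Set R3), re F 0 q.1 q.2 * e 0 q.1 q.2) +
        ∫ p in Ioc 0 t ×ˢ (cell ×ˢ (univ : Set R3)),
          (re F p.1 p.2.1 p.2.2 * e' p.1 p.2.1 p.2.2 + Qr F p.1 p.2.1 p.2.2 * e p.1 p.2.1 p.2.2) := by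
  have hb1 : ∀ t ∈ Icc 0 T, ∀ x v, |e t x v| ≤ C * (1 + ‖v‖) ^ k := fun t ht x v => (hb t ht x v).1
  have hb2 : ∀ t ∈ Icc 0 T, ∀ x v, |e' t x v| ≤ C * (1 + ‖v‖) ^ k := fun t ht x v => (hb t ht x v).2
  have i1 := (SolTest_int_re h me' hb2).1
  have i2 := SolTest_int_Qr h me hb1
  have i3 := (SolTest_int_re h me hb1).2
  refine ⟨i1, i2, fun t ht => ⟨i3 t ht, ?_⟩⟩
  have mre := measurable_re h.meas
  have mQ := measurable_Qr h.meas
  have pre := SolTest_per_re h.per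
  have pQ := SolTest_per_Qr h.per
  have hT0 : (0 : ℝ) ∈ Icc 0 T := ⟨le_rfl, ht.1.trans ht.2⟩
  have hsub : Ioc 0 t ×ˢ (cell ×ˢ (univ : Set R3)) ⊆ Ioc 0 T ×ˢ (cell ×ˢ (univ : Set R3)) :=
    prod_mono (Ioc_subset_Ioc_right ht.2) Subset.rfl
  have s1 := integral_shear (G := fun x v => re F t x v * e t x v)
    ((mre.mul me).comp (measurable_const.prodMk measurable_id))
    (fun v x i => by
      have h1 := pre t v x i
      have h2 := pe t v x i
      simp only at h1 h2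
      simp only [h1, h2]) t (i3 t ht)
  have s2 := integral_shear_time
    (G := fun t x v => re F t x v * e' t x v + Qr F t x v * e t x v)
    ((mre.mul me').add (mQ.mul me))
    (fun t v x i => by
      have h1 := pre t v x i
      have h2 := pe t v x i
      have h3 := pe' t v x i
      have h4 := pQ t v x i
      simp only at h1 h2 h3 h4
      simp only [h1, h2, h3, h4]) (I := Ioc 0 t) measurableSet_Ioc ((i1.add i2).mono_set hsub)
  rw [← s1.2, ← s2.2.2, ← integral_add (i3 0 hT0) s2.2.1]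
  refine integral_congr_ae ?_
  filter_upwards [h.path] with q hq
  have he' : IntegrableOn (fun s => e' s (q.1 + s • q.2) q.2) (Ioc 0 T) := by
    have m1 : Measurable fun s : ℝ => e' s (q.1 + s • q.2) q.2 :=
      me'.comp (measurable_id.prodMk ((measurable_const.add (measurable_id.smul_const _)).prodMk
        measurable_const))
    refine Measure.integrableOn_of_bounded (M := C * (1 + ‖q.2‖) ^ k) (by simp)
      m1.aestronglyMeasurable ?_
    refine (ae_restrict_iff' measurableSet_Ioc).2 (Eventually.of_forall fun s hs => ?_)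
    exact hb2 s (Ioc_subset_Icc_self hs) _ _
  have := (prod_rule (g := fun s => re F s (q.1 + s • q.2) q.2)
    (e := fun s => e s (q.1 + s • q.2) q.2) hq.1 he'
    (fun s hs => by simpa using hq.2 s hs) (fun s hs => by simpa using hpath q.1 q.2 s hs)).2 t ht
  simp only [zero_smul, add_zero] at this
  rw [this]
  congr 1
  refine integral_congr_ae (Eventually.of_forall fun s => ?_)
  simp only
  ring

theorem SolTest_transportD_eq {φ : ℝ → R3 → R3 → ℝ}
    (h : ContDiff ℝ 1 fun p : ℝ × R3 × R3 => φ p.1 p.2.1 p.2.2) (t : ℝ) (x v : R3) :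
    transportD φ t x v =
      fderiv ℝ (fun p : ℝ × R3 × R3 => φ p.1 p.2.1 p.2.2) (t, x, v) ((1 : ℝ), v, (0 : R3)) := by
  set Φ : ℝ × R3 × R3 → ℝ := fun p => φ p.1 p.2.1 p.2.2 with hΦ
  have hd : HasFDerivAt Φ (fderiv ℝ Φ (t, x, v)) (t, x, v) :=
    (h.differentiable (by norm_num) _).hasFDerivAt
  set L := fderiv ℝ Φ (t, x, v) with hL
  have h1 : HasDerivAt (fun s => φ s x v) (L ((1 : ℝ), (0 : R3), (0 : R3))) t := by
    have h2 : HasDerivAt (fun s : ℝ => (s, x, v)) ((1 : ℝ), (0 : R3), (0 : R3)) t :=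
      (hasDerivAt_id t).prodMk ((hasDerivAt_const t x).prodMk (hasDerivAt_const t v))
    exact HasFDerivAt.comp_hasDerivAt (l := Φ) (f := fun s : ℝ => (s, x, v)) t hd h2
  have h3 : HasFDerivAt (fun y => φ t y v)
      (L.comp ((0 : R3 →L[ℝ] ℝ).prod ((ContinuousLinearMap.id ℝ R3).prod 0))) x := by
    have h4 : HasFDerivAt (fun y : R3 => (t, y, v))
        ((0 : R3 →L[ℝ] ℝ).prod ((ContinuousLinearMap.id ℝ R3).prod (0 : R3 →L[ℝ] R3))) x :=
      (hasFDerivAt_const t x).prodMk ((hasFDerivAt_id x).prodMk (hasFDerivAt_const v x))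
    exact HasFDerivAt.comp (g := Φ) (f := fun y : R3 => (t, y, v)) x hd h4
  unfold transportD pderiv
  rw [h1.deriv, h3.fderiv]
  have h5 : ∀ i : Fin 3, v i * (L.comp ((0 : R3 →L[ℝ] ℝ).prod
      ((ContinuousLinearMap.id ℝ R3).prod (0 : R3 →L[ℝ] R3)))) (EuclideanSpace.single i 1) =
      L ((0 : ℝ), v i • EuclideanSpace.single i (1 : ℝ), (0 : R3)) := by
    intro i
    have h7 : ((0 : ℝ), v i • EuclideanSpace.single i (1 : ℝ), (0 : R3)) =
        v i • ((0 : ℝ), EuclideanSpace.single i (1 : ℝ), (0 : R3)) := by simp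
    rw [h7, map_smul]
    simp
  simp only [h5]
  rw [← map_sum, ← map_add]
  congr 1
  have h6 : ∑ i : Fin 3, v i • EuclideanSpace.single i (1 : ℝ) = v := by
    ext j
    simp [Pi.single_apply]
  simp only [Fin.sum_univ_three] at h6 ⊢
  simp only [Prod.mk_add_mk, add_zero, zero_add, h6]

theorem hasDerivAt_transportD {φ : ℝ → R3 → R3 → ℝ}
    (h : ContDiff ℝ 1 fun p : ℝ × R3 × R3 => φ p.1 p.2.1 p.2.2) (x v : R3) (t : ℝ) :
    HasDerivAt (fun s => φ s (x + s • v) v) (transportD φ t (x + t • v) v) t := by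
  rw [SolTest_transportD_eq h]
  have hd := (h.differentiable (by norm_num) (t, x + t • v, v)).hasFDerivAt
  have h2 : HasDerivAt (fun s : ℝ => (s, x + s • v, v)) ((1 : ℝ), v, (0 : R3)) t := by
    refine (hasDerivAt_id t).prodMk (HasDerivAt.prodMk ?_ (hasDerivAt_const t v))
    simpa using ((hasDerivAt_id t).smul_const v).const_add x
  exact HasFDerivAt.comp_hasDerivAt (l := fun p : ℝ × R3 × R3 => φ p.1 p.2.1 p.2.2)
    (f := fun s : ℝ => (s, x + s • v, v)) t hd h2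

theorem continuous_transportD {φ : ℝ → R3 → R3 → ℝ}
    (h : ContDiff ℝ 1 fun p : ℝ × R3 × R3 => φ p.1 p.2.1 p.2.2) :
    Continuous fun p : ℝ × R3 × R3 => transportD φ p.1 p.2.1 p.2.2 := by
  simp only [SolTest_transportD_eq h]
  have h1 := h.continuous_fderiv (by norm_num)
  exact h1.clm_apply (by fun_prop)

theorem per_transportD {φ : ℝ → R3 → R3 → ℝ} (h : ∀ t v, IsPeriodic3 fun x => φ t x v) (t : ℝ)
    (v : R3) : IsPeriodic3 fun x => transportD φ t x v := by
  intro x i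
  have h1 : (fun s => φ s (x + EuclideanSpace.single i 1) v) = fun s => φ s x v :=
    funext fun s => h s v x i
  have h2 : ∀ j, pderiv (fun y => φ t y v) j (x + EuclideanSpace.single i 1) =
      pderiv (fun y => φ t y v) j x := by
    intro j
    unfold pderiv
    rw [← fderiv_comp_add_right]
    congr 2
    exact funext fun y => h t v y i
  simp only [transportD, h1, h2]

theorem SolTest_per_int {α : Type} {f : R3 → α} (hf : IsPeriodic3 f) (i : Fin 3) (n : ℤ) (x : R3) :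
    f (x + (n : ℝ) • EuclideanSpace.single i (1 : ℝ)) = f x := by
  have hp : Function.Periodic f (EuclideanSpace.single i (1 : ℝ)) := fun y => hf y i
  have := (hp.zsmul n) x
  rwa [← Int.cast_smul_eq_zsmul ℝ] at this

/-- A periodic function takes all its values on the closed unit cube. -/
theorem exists_cell_rep (x : R3) : ∃ y ∈ cell, ∀ {α : Type} (f : R3 → α), IsPeriodic3 f → f x = f y := by
  refine ⟨WithLp.toLp 2 fun i => Int.fract (x i), fun i => ⟨Int.fract_nonneg _, Int.fract_lt_one _⟩,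
    fun f hf => ?_⟩
  have hx : x = (WithLp.toLp 2 fun i => Int.fract (x i)) +
      ((⌊x 0⌋ : ℤ) : ℝ) • EuclideanSpace.single 0 (1 : ℝ) +
      ((⌊x 1⌋ : ℤ) : ℝ) • EuclideanSpace.single 1 (1 : ℝ) +
      ((⌊x 2⌋ : ℤ) : ℝ) • EuclideanSpace.single 2 (1 : ℝ) := by
    ext j
    fin_cases j <;> simp
  conv_lhs => rw [hx]
  rw [SolTest_per_int hf, SolTest_per_int hf, SolTest_per_int hf]

theorem SolTest_cell_norm {y : R3} (hy : y ∈ cell) : ‖y‖ ≤ 2 := by
  rw [EuclideanSpace.norm_eq, Real.sqrt_le_iff]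
  refine ⟨by norm_num, ?_⟩
  have h0 := hy 0
  have h1 := hy 1
  have h2 := hy 2
  simp only [Fin.sum_univ_three, Real.norm_eq_abs, sq_abs]
  nlinarith [h0.1, h0.2, h1.1, h1.2, h2.1, h2.2]

theorem SolTest_bdd {e : ℝ → R3 → R3 → ℝ}
    (hc : Continuous fun p : ℝ × R3 × R3 => e p.1 p.2.1 p.2.2)
    (pe : ∀ t v, IsPeriodic3 fun x => e t x v) {R : ℝ} (h0 : ∀ t x v, R ≤ ‖v‖ → e t x v = 0)
    (T : ℝ) : ∃ C : ℝ, ∀ t ∈ Icc 0 T, ∀ x v, |e t x v| ≤ C := by
  have hK : IsCompact (Icc (0 : ℝ) T ×ˢ (Metric.closedBall (0 : R3) 2 ×ˢ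
      Metric.closedBall (0 : R3) R)) :=
    isCompact_Icc.prod ((isCompact_closedBall _ _).prod (isCompact_closedBall _ _))
  obtain ⟨C, hC⟩ := hK.exists_bound_of_continuousOn hc.continuousOn
  refine ⟨max C 0, fun t ht x v => ?_⟩
  by_cases hv : R ≤ ‖v‖
  · rw [h0 t x v hv, abs_zero]
    exact le_max_right _ _
  · obtain ⟨y, hy, hxy⟩ := exists_cell_rep x
    have h1 : e t x v = e t y v := hxy _ (pe t v)
    rw [h1]
    refine le_trans (hC (t, y, v) ⟨ht, ?_, ?_⟩) (le_max_left _ _)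
    · exact mem_closedBall_zero_iff.2 (SolTest_cell_norm hy)
    · exact mem_closedBall_zero_iff.2 (not_le.1 hv).le

/-- Take a horizon `T' > T` of the test function; `φ` and `transportD φ` vanish for `t > T` and for
`‖v‖ > R`, and are bounded (periodicity, compactness). -/
theorem isWeakSolution (h : ∀ T, Plain F T) : IsWeakSolution (re F) (re F 0) := by
  rintro φ ⟨hs, hp, T₀, R, h0⟩
  have h1 : ContDiff ℝ 1 fun p : ℝ × R3 × R3 => φ p.1 p.2.1 p.2.2 := hs.of_le (by exact_mod_cast le_top)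
  have hD := continuous_transportD h1
  set T : ℝ := max T₀ 0 with hT
  have hT0 : 0 ≤ T := le_max_right _ _
  have hT1 : T₀ ≤ T := le_max_left _ _
  have hDv : ∀ t x v, R ≤ ‖v‖ → transportD φ t x v = 0 := by
    intro t x v hv
    have h2 : ∀ s y, φ s y v = 0 := fun s y => h0 s y v (Or.inr hv)
    simp [transportD, pderiv, h2]
  have hDt : ∀ t x v, T < t → transportD φ t x v = 0 := by
    intro t x v ht
    have h2 : ∀ y, φ t y v = 0 := fun y => h0 t y v (Or.inl (hT1.trans ht.le))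
    have h3 : (fun s => φ s x v) =ᶠ[𝓝 t] fun _ => 0 := by
      filter_upwards [Ioi_mem_nhds ht] with s hs
      exact h0 s x v (Or.inl (hT1.trans (le_of_lt hs)))
    simp [transportD, pderiv, h2, h3.deriv_eq]
  obtain ⟨C₁, hC₁⟩ := SolTest_bdd h1.continuous hp (fun t x v hv => h0 t x v (Or.inr hv)) T
  obtain ⟨C₂, hC₂⟩ := SolTest_bdd hD (per_transportD hp) hDv T
  obtain ⟨i1, i2, i3⟩ := (h T).test (e := φ) (e' := transportD φ) (C := max C₁ C₂) (k := 0)
    h1.continuous.measurable hD.measurable hp (per_transportD hp)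
    (fun t ht x v => by
      simp only [pow_zero, mul_one]
      exact ⟨(hC₁ t ht x v).trans (le_max_left _ _), (hC₂ t ht x v).trans (le_max_right _ _)⟩)
    (fun x v t ht => by
      have hc : Continuous fun s : ℝ => transportD φ s (x + s • v) v :=
        hD.comp (f := fun s : ℝ => (s, x + s • v, v)) (by fun_prop)
      have := intervalIntegral.integral_eq_sub_of_hasDerivAt (a := 0) (b := t)
        (fun s _ => hasDerivAt_transportD h1 x v s) (hc.intervalIntegrable _ _)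
      rw [intervalIntegral.integral_of_le ht.1] at this
      rw [this]
      simp)
  have hreg : MeasurableSet region :=
    measurableSet_Ioi.prod (measurableSet_cell.prod MeasurableSet.univ)
  have hsub : Ioc 0 T ×ˢ (cell ×ˢ (univ : Set R3)) ⊆ region :=
    prod_mono Ioc_subset_Ioi_self Subset.rfl
  have hdiff : ∀ p ∈ region \ Ioc 0 T ×ˢ (cell ×ˢ (univ : Set R3)), T < p.1 := by
    rintro p ⟨hp1, hp2⟩
    by_contra hc
    exact hp2 ⟨⟨hp1.1, not_lt.1 hc⟩, hp1.2⟩
  have hQ : ∀ p ∈ region, (collGain (re F) p.1 p.2.1 p.2.2).toReal -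
      (collLoss (re F) p.1 p.2.1 p.2.2).toReal = Qr F p.1 p.2.1 p.2.2 := by
    intro p hp
    have hfin := (h p.1).fin p.1 ⟨le_of_lt hp.1, le_rfl⟩ p.2.1
    rw [collGain_re hfin, collLoss_re hfin ((h p.1).meas.slice _ _), Qr]
  have hz1 : ∀ p ∈ region \ Ioc 0 T ×ˢ (cell ×ˢ (univ : Set R3)),
      re F p.1 p.2.1 p.2.2 * transportD φ p.1 p.2.1 p.2.2 = 0 := fun p hp => by
    rw [hDt _ _ _ (hdiff p hp), mul_zero]
  have hz2 : ∀ p ∈ region \ Ioc 0 T ×ˢ (cell ×ˢ (univ : Set R3)),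
      Qr F p.1 p.2.1 p.2.2 * φ p.1 p.2.1 p.2.2 = 0 := fun p hp => by
    rw [h0 _ _ _ (Or.inl (hT1.trans (hdiff p hp).le)), mul_zero]
  refine ⟨i1.of_forall_sdiff_eq_zero hreg hz1, ?_, (i3 0 ⟨le_rfl, hT0⟩).1, ?_⟩
  · refine (i2.of_forall_sdiff_eq_zero hreg hz2).congr_fun (fun p hp => ?_) hreg
    simp only [hQ p hp]
  · have h4 := (i3 T ⟨hT0, le_rfl⟩).2
    have h5 : ∀ x v, φ T x v = 0 := fun x v => h0 T x v (Or.inl hT1)
    simp only [h5, mul_zero, integral_zero] at h4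
    rw [setIntegral_congr_fun hreg (g := fun p => re F p.1 p.2.1 p.2.2 *
      transportD φ p.1 p.2.1 p.2.2 + Qr F p.1 p.2.1 p.2.2 * φ p.1 p.2.1 p.2.2)
      (fun p hp => by simp only [hQ p hp]),
      setIntegral_eq_of_subset_of_forall_sdiff_eq_zero hreg hsub
        (fun p hp => by rw [hz1 p hp, hz2 p hp, add_zero])]
    linarith

end Crest.Agent.R68
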