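/-
R68/SolCons: conservation laws and continuity in time
Skeleton by helper76 (row 68); keep the statements unchanged, add any helper lemmas you like.
-/
import Crest.Agent.R68.SolTest

set_option autoImplicit false
set_option linter.unusedVariables false
set_option linter.unusedSectionVars false

noncomputable section

namespace Crest.Agent.R68

open MeasureTheory Set Filter Topology
open scoped ENNReal NNReal
open Crest.AnalysisR.VecCalc3 Crest.AnalysisR.PDE.Boltzmann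

variable {F : Fn} {T : ℝ}

theorem SolCons_psi {ψ : R3 → ℝ}
    (hψ : ψ = (fun _ => 1) ∨ (∃ i : Fin 3, ψ = fun v => v i) ∨ ψ = fun v => ‖v‖ ^ 2 / 2) :
    Measurable ψ ∧ ∀ v, |ψ v| ≤ (1 + ‖v‖) ^ 2 := by
  rcases hψ with rfl | ⟨i, rfl⟩ | rfl
  · refine ⟨measurable_const, fun v => ?_⟩
    rw [abs_one]
    exact one_le_pow₀ (by linarith [norm_nonneg v])
  · refine ⟨by fun_prop, fun v => ?_⟩
    have h1 : |v i| ≤ ‖v‖ := PiLp.norm_apply_le v i
    nlinarith [norm_nonneg v]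
  · refine ⟨by fun_prop, fun v => ?_⟩
    rw [abs_of_nonneg (by positivity)]
    nlinarith [norm_nonneg v]

theorem SolCons_cell_norm {x : R3} (hx : x ∈ cell) : ‖x‖ ≤ 2 := by
  refine (sq_le_sq₀ (norm_nonneg _) two_pos.le).1 ?_
  rw [EuclideanSpace.real_norm_sq_eq, Fin.sum_univ_three]
  have h : ∀ i, x i ^ 2 ≤ 1 := fun i => by nlinarith [(hx i).1, (hx i).2]
  linarith [h 0, h 1, h 2]

theorem SolCons_bound {g : ℝ → R3 → R3 → ℝ}
    (hg : Continuous fun p : ℝ × R3 × R3 => g p.1 p.2.1 p.2.2)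
    (hp : ∀ t v, IsPeriodic3 fun x => g t x v) (T : ℝ) :
    ∃ K, 0 ≤ K ∧ ∀ t ∈ Icc 0 T, ∀ x v, ‖v‖ ≤ 1 → |g t x v| ≤ K := by
  obtain ⟨K, hK⟩ := ((isCompact_Icc (a := (0 : ℝ)) (b := T)).prod
    ((isCompact_closedBall (0 : R3) 2).prod
      (isCompact_closedBall (0 : R3) 1))).exists_bound_of_continuousOn hg.continuousOn
  refine ⟨max K 0, le_max_right _ _, fun t ht x v hv => le_trans ?_ (le_max_left _ _)⟩
  obtain ⟨y, hy, hxy⟩ := exists_cell_rep x
  rw [hxy _ (hp t v)]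
  exact hK (t, y, v) ⟨ht, mem_closedBall_zero_iff.2 (SolCons_cell_norm hy),
    mem_closedBall_zero_iff.2 hv⟩

theorem SolCons_per_re (h : Plain F T) (t : ℝ) (v : R3) : IsPeriodic3 fun x => re F t x v :=
  fun x i => congrArg ENNReal.toReal (h.per t v x i)

theorem SolCons_per_Qr (h : Plain F T) (t : ℝ) (v : R3) : IsPeriodic3 fun x => Qr F t x v :=
  fun x i => congrArg₂ (fun a b : ℝ≥0∞ => a.toReal - b.toReal) (per_GN h.per t v x i)
    (per_loss h.per t v x i)

/-- testing with a function of the velocity -/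
theorem SolCons_test (h : Plain F T) {ψ : R3 → ℝ} (hm : Measurable ψ)
    (hb : ∀ v, |ψ v| ≤ (1 + ‖v‖) ^ 2) :
    IntegrableOn (fun p : ℝ × R3 × R3 => Qr F p.1 p.2.1 p.2.2 * ψ p.2.2)
      (Ioc 0 T ×ˢ (cell ×ˢ univ)) ∧
    ∀ t ∈ Icc 0 T, IntegrableOn (fun q : R3 × R3 => re F t q.1 q.2 * ψ q.2) (cell ×ˢ univ) ∧
      ∫ q in cell ×ˢ (univ : Set R3), re F t q.1 q.2 * ψ q.2 =
        (∫ q in cell ×ˢ (univ : Set R3), re F 0 q.1 q.2 * ψ q.2) +
        ∫ p in Ioc 0 t ×ˢ (cell ×ˢ (univ : Set R3)), Qr F p.1 p.2.1 p.2.2 * ψ p.2.2 := by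
  have := (h.test (e := fun _ _ v => ψ v) (e' := fun _ _ _ => 0) (hm.comp (by fun_prop))
    measurable_const (fun _ _ _ _ => rfl) (fun _ _ _ _ => rfl) (C := 1) (k := 2)
    (fun _ _ _ v => ⟨by simpa using hb v, by simp [sq_nonneg]⟩) (fun _ _ _ _ => by simp)).2
  simpa only [mul_zero, zero_add] using this

/-- `integral_coll_inv` for almost every `(t, x)` and Fubini. -/
theorem Plain.integral_Qr_inv (h : Plain F T) {ψ : R3 → ℝ}
    (hψ : ψ = (fun _ => 1) ∨ (∃ i : Fin 3, ψ = fun v => v i) ∨ ψ = fun v => ‖v‖ ^ 2 / 2)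
    {ϕ : ℝ → R3 → ℝ} (hϕ : Measurable fun p : ℝ × R3 => ϕ p.1 p.2) {C : ℝ}
    (hC : ∀ t ∈ Icc 0 T, ∀ x, |ϕ t x| ≤ C) {t : ℝ} (ht : t ∈ Icc 0 T) :
    ∫ p in Ioc 0 t ×ˢ (cell ×ˢ (univ : Set R3)),
      Qr F p.1 p.2.1 p.2.2 * (ψ p.2.2 * ϕ p.1 p.2.1) = 0 := by
  obtain ⟨e⟩ := h.env
  by_cases hi : IntegrableOn (fun p : ℝ × R3 × R3 =>
      Qr F p.1 p.2.1 p.2.2 * (ψ p.2.2 * ϕ p.1 p.2.1)) (Ioc 0 t ×ˢ (cell ×ˢ (univ : Set R3)))
      ((volume : Measure ℝ).prod (volume : Measure (R3 × R3)))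
  swap
  · exact integral_undef hi
  refine (setIntegral_prod _ hi).trans
    (setIntegral_eq_zero_of_forall_eq_zero fun s hs => ?_)
  have hs' : s ∈ Icc 0 T := ⟨hs.1.le, hs.2.trans ht.2⟩
  by_cases hi2 : IntegrableOn (fun q : R3 × R3 => Qr F s q.1 q.2 * (ψ q.2 * ϕ s q.1))
      (cell ×ˢ (univ : Set R3)) ((volume : Measure R3).prod (volume : Measure R3))
  swap
  · exact integral_undef hi2
  refine (setIntegral_prod _ hi2).trans (integral_eq_zero_of_ae ?_)
  obtain ⟨C₂, hC₂⟩ := e.int₂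
  obtain ⟨C₃, hC₃⟩ := e.mom 3
  have hm : Measurable fun x => e.ρ s x ^ (3 / 2 : ℝ) + e.B s x :=
    ((e.mρ.comp measurable_prodMk_left).pow_const _).add (e.mB.comp measurable_prodMk_left)
  filter_upwards [ae_lt_top hm ((hC₂ s hs').trans_lt ENNReal.coe_lt_top).ne] with x hx
  have hρ : e.ρ s x ≠ ⊤ := by
    intro h0
    rw [h0, ENNReal.top_rpow_of_pos (by norm_num), top_add] at hx
    exact lt_irrefl _ hx
  have h0 := integral_coll_inv (h.meas.slice s x) (h.fin s hs' x)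
    (ne_top_of_le_ne_top (ENNReal.mul_ne_top ENNReal.coe_ne_top hρ) (hC₃ s hs' x)) hψ
  rw [Measure.restrict_univ]
  simp only [← mul_assoc, Pi.zero_apply]
  rw [integral_mul_const]
  exact mul_eq_zero_of_left h0 _

theorem hasLocalConservation (h : ∀ T, Plain F T) : HasLocalConservation (re F) (re F 0) := by
  intro ψ hψ ϕ hϕ hp ⟨T₀, hT₀⟩
  obtain ⟨mψ, bψ⟩ := SolCons_psi hψ
  obtain ⟨T, hT⟩ : ∃ T, T = max T₀ 0 := ⟨_, rfl⟩
  have hT0 : 0 ≤ T := by rw [hT]; exact le_max_right _ _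
  have hT1 : T₀ ≤ T := by rw [hT]; exact le_max_left _ _
  have hφ : ContDiff ℝ 1 fun p : ℝ × R3 × R3 => (fun t x (_ : R3) => ϕ t x) p.1 p.2.1 p.2.2 :=
    (hϕ.of_le (by exact_mod_cast le_top)).comp (f := fun p : ℝ × R3 × R3 => (p.1, p.2.1))
      (by fun_prop)
  obtain ⟨D, hD⟩ : ∃ D, D = transportD fun t x (_ : R3) => ϕ t x := ⟨_, rfl⟩
  have cD : Continuous fun p : ℝ × R3 × R3 => D p.1 p.2.1 p.2.2 := by
    rw [hD]; exact continuous_transportD hφ
  have pD : ∀ t v, IsPeriodic3 fun x => D t x v := by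
    rw [hD]; exact per_transportD fun t _ => hp t
  have dD : ∀ x v t, HasDerivAt (fun s => ϕ s (x + s • v)) (D t (x + t • v) v) t := by
    rw [hD]; exact fun x v t => hasDerivAt_transportD (φ := fun t x _ => ϕ t x) hφ x v t
  have lin : ∀ t x v (c : ℝ), D t x (c • v) = D t x 0 + c * (D t x v - D t x 0) := by
    intro t x v c
    simp [hD, transportD, Finset.mul_sum, mul_assoc]
  have zD : ∀ t x v, T < t → D t x v = 0 := by
    intro t x v ht
    have h1 : (fun s => ϕ s x) =ᶠ[𝓝 t] fun _ => 0 := by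
      filter_upwards [Ioi_mem_nhds ht] with s hs using hT₀ s x (hT1.trans (le_of_lt hs))
    have h2 : (fun y => ϕ t y) = fun _ => 0 := funext fun y => hT₀ t y (hT1.trans ht.le)
    simp [hD, transportD, h1.deriv_eq, h2, pderiv]
  rw [← hD]
  obtain ⟨K₁, hK₁, b₁⟩ := SolCons_bound (g := fun t x _ => ϕ t x) hφ.continuous
    (fun t _ => hp t) T
  obtain ⟨K₂, hK₂, b₂⟩ := SolCons_bound cD pD T
  have b₃ : ∀ t ∈ Icc 0 T, ∀ x v, |D t x v| ≤ 3 * K₂ * (1 + ‖v‖) := by
    intro t ht x v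
    have hv : 0 < 1 + ‖v‖ := by positivity
    have h1 := lin t x ((1 + ‖v‖)⁻¹ • v) (1 + ‖v‖)
    rw [smul_inv_smul₀ hv.ne'] at h1
    have h2 := b₂ t ht x 0 (by simp)
    have h3 := b₂ t ht x ((1 + ‖v‖)⁻¹ • v) (by
      rw [norm_smul, norm_inv, Real.norm_of_nonneg hv.le, inv_mul_le_iff₀ hv]
      linarith)
    have h4 := abs_sub (D t x ((1 + ‖v‖)⁻¹ • v)) (D t x 0)
    rw [h1]
    refine (abs_add_le _ _).trans ?_
    rw [abs_mul, abs_of_pos hv]
    have h5 := mul_le_mul_of_nonneg_left (show |D t x ((1 + ‖v‖)⁻¹ • v) - D t x 0| ≤ 2 * K₂ by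
      linarith) hv.le
    nlinarith [mul_nonneg hK₂ (norm_nonneg v)]
  obtain ⟨i1, i2, i3⟩ := (h T).test (e := fun t x v => ψ v * ϕ t x)
    (e' := fun t x v => ψ v * D t x v)
    ((mψ.comp (by fun_prop)).mul hφ.continuous.measurable)
    ((mψ.comp (by fun_prop)).mul cD.measurable)
    (fun t v x i => congrArg (ψ v * ·) (hp t x i)) (fun t v x i => congrArg (ψ v * ·) (pD t v x i))
    (C := K₁ + 3 * K₂) (k := 3)
    (fun t ht x v => by
      have hv : 1 ≤ 1 + ‖v‖ := by linarith [norm_nonneg v]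
      have h1 := mul_le_mul (bψ v) (b₁ t ht x 0 (by simp)) (abs_nonneg _) (by positivity)
      have h2 := mul_le_mul (bψ v) (b₃ t ht x v) (abs_nonneg _) (by positivity)
      have h3 : (1 + ‖v‖) ^ 2 ≤ (1 + ‖v‖) ^ 3 := pow_le_pow_right₀ hv (by norm_num)
      have h4 := mul_le_mul_of_nonneg_left h3 hK₁
      have h5 : 0 ≤ K₂ * (1 + ‖v‖) ^ 3 := by positivity
      have h6 : 0 ≤ K₁ * (1 + ‖v‖) ^ 3 := by positivity
      rw [abs_mul, abs_mul]
      constructor <;> linarith)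
    (fun x v t ht => by
      have hc : Continuous fun s : ℝ => D s (x + s • v) v :=
        cD.comp (f := fun s : ℝ => (s, x + s • v, v)) (by fun_prop)
      have h1 := intervalIntegral.integral_eq_sub_of_hasDerivAt (a := 0) (b := t)
        (fun s _ => dD x v s) (hc.intervalIntegrable _ _)
      rw [intervalIntegral.integral_of_le ht.1, zero_smul, add_zero] at h1
      rw [integral_const_mul, h1]
      ring)
  have hTm : T ∈ Icc 0 T := ⟨hT0, le_rfl⟩
  have h1 := (i3 T hTm).2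
  have h2 := (h T).integral_Qr_inv hψ (ϕ := ϕ) hϕ.continuous.measurable (C := K₁)
    (fun t ht x => b₁ t ht x 0 (by simp)) hTm
  rw [integral_add i1 i2, h2, add_zero] at h1
  simp only [hT₀ T _ hT1, mul_zero, integral_zero] at h1
  have mr : MeasurableSet region :=
    measurableSet_Ioi.prod (measurableSet_cell.prod MeasurableSet.univ)
  have hz : ∀ p ∈ region \ Ioc 0 T ×ˢ (cell ×ˢ (univ : Set R3)),
      re F p.1 p.2.1 p.2.2 * (ψ p.2.2 * D p.1 p.2.1 p.2.2) = 0 := by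
    rintro p ⟨h1, h2⟩
    rw [zD _ _ _ (not_le.1 fun h3 => h2 ⟨⟨h1.1, h3⟩, h1.2⟩), mul_zero, mul_zero]
  simp only [mul_assoc]
  refine ⟨i1.of_forall_sdiff_eq_zero mr hz, (i3 0 ⟨le_rfl, hT0⟩).1, ?_⟩
  rw [setIntegral_eq_of_subset_of_forall_sdiff_eq_zero mr (fun p hp => ⟨hp.1.1, hp.2⟩) hz]
  linarith

theorem Plain.conserved (h : Plain F T) {ψ : R3 → ℝ}
    (hψ : ψ = (fun _ => 1) ∨ (∃ i : Fin 3, ψ = fun v => v i) ∨ ψ = fun v => ‖v‖ ^ 2 / 2)
    {t : ℝ} (ht : t ∈ Icc 0 T) :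
    IntegrableOn (fun q : R3 × R3 => re F t q.1 q.2 * ψ q.2) (cell ×ˢ univ) ∧
      ∫ q in cell ×ˢ (univ : Set R3), re F t q.1 q.2 * ψ q.2 =
        ∫ q in cell ×ˢ (univ : Set R3), re F 0 q.1 q.2 * ψ q.2 := by
  obtain ⟨mψ, bψ⟩ := SolCons_psi hψ
  obtain ⟨h1, h2⟩ := (SolCons_test h mψ bψ).2 t ht
  have h3 := h.integral_Qr_inv hψ (ϕ := fun _ _ => 1) measurable_const (C := 1)
    (fun _ _ _ => by simp) ht
  simp only [mul_one] at h3
  exact ⟨h1, by rw [h2, h3, add_zero]⟩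

theorem Plain.energy_le (h : Plain F T) {t : ℝ} (ht : t ∈ Icc 0 T) :
    ∫⁻ q in cell ×ˢ (univ : Set R3), ENNReal.ofReal (‖q.2‖ ^ 2 * re F t q.1 q.2) ≤
      ∫⁻ q in cell ×ˢ (univ : Set R3), ENNReal.ofReal (‖q.2‖ ^ 2 * re F 0 q.1 q.2) := by
  have key : ∀ s ∈ Icc 0 T,
      ∫⁻ q in cell ×ˢ (univ : Set R3), ENNReal.ofReal (‖q.2‖ ^ 2 * re F s q.1 q.2) =
        ENNReal.ofReal (2 * ∫ q in cell ×ˢ (univ : Set R3), re F 0 q.1 q.2 * (‖q.2‖ ^ 2 / 2)) := by
    intro s hs
    obtain ⟨h1, h2⟩ := h.conserved (ψ := fun v => ‖v‖ ^ 2 / 2) (Or.inr (Or.inr rfl)) hs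
    rw [← h2, ← integral_const_mul, ofReal_integral_eq_lintegral_ofReal (h1.const_mul 2)
      (Eventually.of_forall fun q => by
        have : 0 ≤ re F s q.1 q.2 := ENNReal.toReal_nonneg
        positivity)]
    refine lintegral_congr fun q => ?_
    congr 1
    ring
  rw [key t ht, key 0 ⟨le_rfl, ht.1.trans ht.2⟩]

theorem SolCons_transl {g : R3 → ℝ} (hg : Integrable g) :
    Tendsto (fun c : R3 => ∫⁻ x, ‖g (x + c) - g x‖ₑ) (𝓝 0) (𝓝 0) := by
  have hg' : MemLp g 1 volume := memLp_one_iff_integrable.2 hg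
  let S : C(R3, C(R3, R3)) := ContinuousMap.curry ⟨fun p : R3 × R3 => p.2 + p.1, by fun_prop⟩
  have hS : ∀ c, MeasurePreserving (S c) volume volume := fun c =>
    measurePreserving_add_right volume c
  have h1 := (Continuous.compMeasurePreservingLp (f := fun _ : R3 => hg'.toLp g) continuous_const
    S.continuous hS ENNReal.one_ne_top).tendsto 0
  rw [tendsto_iff_edist_tendsto_0] at h1
  refine h1.congr fun c => ?_
  rw [Lp.toLp_compMeasurePreserving, Lp.toLp_compMeasurePreserving, Lp.edist_toLp_toLp,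
    eLpNorm_one_eq_lintegral_enorm]
  refine lintegral_congr fun x => ?_
  change ‖g (x + c) - g (x + 0)‖ₑ = _
  rw [add_zero]

theorem SolCons_transl_cell {g : R3 → ℝ} (hg : Measurable g) (hp : IsPeriodic3 g)
    (hi : ∫⁻ x in cell, ‖g x‖ₑ ≠ ⊤) :
    Tendsto (fun c : R3 => ∫⁻ x in cell, ‖g (x + c) - g x‖ₑ) (𝓝 0) (𝓝 0) := by
  have h1 : Integrable ((Metric.closedBall (0 : R3) 3).indicator g) := by
    refine (integrable_indicator_iff measurableSet_closedBall).2 ⟨hg.aestronglyMeasurable, ?_⟩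
    exact (lintegral_ball_le_cell hg.enorm (fun x i => congrArg enorm (hp x i)) 0
      (by norm_num)).trans_lt (ENNReal.mul_lt_top ENNReal.ofReal_lt_top hi.lt_top)
  refine tendsto_of_tendsto_of_tendsto_of_le_of_le' tendsto_const_nhds (SolCons_transl h1)
    (Eventually.of_forall fun _ => zero_le) ?_
  filter_upwards [Metric.closedBall_mem_nhds (0 : R3) one_pos] with c hc
  refine le_trans (le_of_eq (setLIntegral_congr_fun measurableSet_cell fun x hx => ?_))
    (setLIntegral_le_lintegral cell _)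
  have h2 := SolCons_cell_norm hx
  have h3 := mem_closedBall_zero_iff.1 hc
  have h4 := norm_add_le x c
  rw [indicator_of_mem (mem_closedBall_zero_iff.2 (by linarith)),
    indicator_of_mem (mem_closedBall_zero_iff.2 (by linarith))]

/-- For almost every `v` use the continuity of translations in `L¹(R3)` for `G(·, v)` cut off to a
large cube, then dominated convergence in `v` (bound `2 ∫_cell |G(·, v)|`). -/
theorem tendsto_shear {G : R3 → R3 → ℝ} (hG : Measurable fun q : R3 × R3 => G q.1 q.2)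
    (hp : ∀ v, IsPeriodic3 fun x => G x v)
    (hi : IntegrableOn (fun q : R3 × R3 => G q.1 q.2) (cell ×ˢ univ)) :
    Tendsto (fun τ : ℝ => ∫⁻ q in cell ×ˢ (univ : Set R3), ‖G (q.1 + τ • q.2) q.2 - G q.1 q.2‖ₑ)
      (𝓝 0) (𝓝 0) := by
  have hsw : ∀ Φ : R3 × R3 → ℝ≥0∞, Measurable Φ →
      ∫⁻ q in cell ×ˢ (univ : Set R3), Φ q = ∫⁻ v, ∫⁻ x in cell, Φ (x, v) := by
    intro Φ hΦ
    have := setLIntegral_prod_symm (μ := (volume : Measure R3)) (ν := (volume : Measure R3))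
      (s := cell) (t := univ) Φ hΦ.aemeasurable
    rwa [Measure.restrict_univ] at this
  have hm : ∀ τ : ℝ, Measurable fun q : R3 × R3 => ‖G (q.1 + τ • q.2) q.2 - G q.1 q.2‖ₑ :=
    fun τ => ((hG.comp (f := fun q : R3 × R3 => (q.1 + τ • q.2, q.2)) (by fun_prop)).sub hG).enorm
  have hfin : ∫⁻ v, ∫⁻ x in cell, ‖G x v‖ₑ ≠ ⊤ := by
    rw [← hsw (fun q => ‖G q.1 q.2‖ₑ) hG.enorm]
    exact hi.2.ne
  have mb : Measurable fun v => ∫⁻ x in cell, ‖G x v‖ₑ := hG.enorm.lintegral_prod_left'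
  simp only [hsw _ (hm _)]
  have := tendsto_lintegral_filter_of_dominated_convergence (μ := (volume : Measure R3))
    (l := 𝓝 (0 : ℝ)) (F := fun τ v => ∫⁻ x in cell, ‖G (x + τ • v) v - G x v‖ₑ) (f := fun _ => 0)
    (fun v => 2 * ∫⁻ x in cell, ‖G x v‖ₑ)
    (Eventually.of_forall fun τ => (hm τ).lintegral_prod_left')
    (Eventually.of_forall fun τ => Eventually.of_forall fun v => by
      have mv : Measurable fun x => ‖G x v‖ₑ := (hG.comp measurable_prodMk_right).enorm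
      refine (lintegral_mono fun x => enorm_sub_le).trans ?_
      rw [lintegral_add_right _ mv,
        lintegral_cell_add mv (fun x i => congrArg enorm (hp v x i)) (τ • v), two_mul])
    (by
      rw [lintegral_const_mul _ mb]
      exact ENNReal.mul_ne_top (by simp) hfin)
    (by
      filter_upwards [ae_lt_top mb hfin] with v hv
      refine (SolCons_transl_cell (hG.comp measurable_prodMk_right) (hp v) hv.ne).comp
        (f := fun τ : ℝ => τ • v) ?_
      exact Continuous.tendsto' (by fun_prop) _ _ (zero_smul ℝ v))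
  simpa only [lintegral_zero] using this

/-- `‖F s - F t‖ ≤ ‖F^#(s) - F^#(t)‖ + ‖F t (· + (t - s) v) - F t‖`, and the first term is at most
the integral of `|Qr|` over the times between `s` and `t`. -/
theorem l1_continuous (h : ∀ T, Plain F T) {t : ℝ} (ht : 0 ≤ t) :
    Tendsto (fun s => ∫⁻ q in cell ×ˢ (univ : Set R3), ‖re F s q.1 q.2 - re F t q.1 q.2‖ₑ)
      (𝓝[Ici 0] t) (𝓝 0) := by
  have hT := h (t + 1)
  have htm : t ∈ Icc 0 (t + 1) := ⟨ht, by linarith⟩
  have hev : Icc 0 (t + 1) ∈ 𝓝[Ici 0] t := by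
    rw [← Ici_inter_Iic]
    exact inter_mem_nhdsWithin _ (Iic_mem_nhds (lt_add_one t))
  have mre := measurable_re hT.meas
  have mt : ∀ s r : ℝ, Measurable fun q : R3 × R3 => re F s (q.1 + r • q.2) q.2 := fun s r =>
    mre.comp (f := fun q : R3 × R3 => (s, q.1 + r • q.2, q.2)) (by fun_prop)
  have m0 : ∀ s : ℝ, Measurable fun q : R3 × R3 => re F s q.1 q.2 := fun s =>
    mre.comp (f := fun q : R3 × R3 => (s, q.1, q.2)) (by fun_prop)
  obtain ⟨iQ, iF⟩ := SolCons_test hT (ψ := fun _ => 1) measurable_const fun v => by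
    rw [abs_one]
    exact one_le_pow₀ (by linarith [norm_nonneg v])
  simp only [mul_one] at iQ iF
  -- the transported part
  have h2 : Tendsto (fun s : ℝ => ∫⁻ q in cell ×ˢ (univ : Set R3),
      ‖re F t (q.1 + s • q.2) q.2 - re F t (q.1 + t • q.2) q.2‖ₑ) (𝓝[Ici 0] t) (𝓝 0) := by
    have k1 := tendsto_shear (G := fun x v => re F t (x + t • v) v) (mt t t)
      (fun v x i => by
        have := SolCons_per_re hT t v (x + t • v) i
        simpa only [add_right_comm x (t • v)] using this)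
      (integral_shear (m0 t) (SolCons_per_re hT t) t (iF t htm).1).1
    have k2 : Tendsto (fun s : ℝ => s - t) (𝓝[Ici 0] t) (𝓝 0) :=
      (Continuous.tendsto' (f := fun s : ℝ => s - t) (by fun_prop) _ _ (sub_self t)).mono_left nhdsWithin_le_nhds
    refine (k1.comp k2).congr fun s => lintegral_congr fun q => ?_
    rw [add_assoc, ← add_smul, sub_add_cancel]
  -- the collisional part
  have mQ : Meas fun s x v => ‖Qr F s x v‖ₑ := (measurable_Qr hT.meas).enorm
  have h1 : Tendsto (fun s : ℝ => ∫⁻ q in cell ×ˢ (univ : Set R3),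
      ‖re F s (q.1 + s • q.2) q.2 - re F t (q.1 + t • q.2) q.2‖ₑ) (𝓝[Ici 0] t) (𝓝 0) := by
    have mb : Measurable fun q : R3 × R3 =>
        ∫⁻ s in Ioc 0 (t + 1), ‖Qr F s (q.1 + s • q.2) q.2‖ₑ :=
      Measurable.lintegral_prod_left' (f := fun p : ℝ × R3 × R3 =>
        ‖Qr F p.1 (p.2.1 + p.1 • p.2.2) p.2.2‖ₑ)
        (Measurable.comp (f := fun p : ℝ × R3 × R3 => (p.1, p.2.1 + p.1 • p.2.2, p.2.2)) mQ
          (by fun_prop))
    have := tendsto_lintegral_filter_of_dominated_convergence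
      (μ := volume.restrict (cell ×ˢ (univ : Set R3))) (l := 𝓝[Ici 0] t)
      (F := fun s q => ‖re F s (q.1 + s • q.2) q.2 - re F t (q.1 + t • q.2) q.2‖ₑ)
      (f := fun _ => 0) (fun q => 2 * ∫⁻ s in Ioc 0 (t + 1), ‖Qr F s (q.1 + s • q.2) q.2‖ₑ)
      (Eventually.of_forall fun s => ((mt s s).sub (mt t t)).enorm)
      (by
        filter_upwards [hev] with s hs
        filter_upwards [hT.path] with q hq
        rw [hq.2 s hs, hq.2 t htm, add_sub_add_left_eq_sub, two_mul]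
        exact enorm_sub_le.trans (add_le_add
          ((enorm_integral_le_lintegral_enorm _).trans
            (lintegral_mono_set (Ioc_subset_Ioc_right hs.2)))
          ((enorm_integral_le_lintegral_enorm _).trans
            (lintegral_mono_set (Ioc_subset_Ioc_right htm.2)))))
      (by
        rw [lintegral_const_mul _ mb, lintegral_shear_time mQ
          (fun s v x i => congrArg enorm (SolCons_per_Qr hT s v x i)) measurableSet_Ioc]
        exact ENNReal.mul_ne_top (by simp) iQ.2.ne)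
      (by
        filter_upwards [hT.path] with q hq
        have k1 := (intervalIntegral.continuousOn_primitive
          ((integrableOn_Icc_iff_integrableOn_Ioc).2 hq.1) t htm).mono_of_mem_nhdsWithin hev
        have k2 := (k1.tendsto.sub_const
          (∫ s in Ioc 0 t, Qr F s (q.1 + s • q.2) q.2)).enorm
        rw [sub_self, enorm_zero] at k2
        refine k2.congr' ?_
        filter_upwards [hev] with s hs
        rw [hq.2 s hs, hq.2 t htm, add_sub_add_left_eq_sub])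
    simpa only [lintegral_zero] using this
  have h3 := h1.add h2
  rw [add_zero] at h3
  refine tendsto_of_tendsto_of_tendsto_of_le_of_le tendsto_const_nhds h3 (fun _ => zero_le)
    fun s => ?_
  dsimp only
  rw [← lintegral_shear (G := fun x v => ‖re F s x v - re F t x v‖ₑ) ((m0 s).sub (m0 t)).enorm
    (fun v x i => congrArg₂ (fun a b : ℝ => ‖a - b‖ₑ) (SolCons_per_re hT s v x i)
      (SolCons_per_re hT t v x i)) s]
  refine le_trans (lintegral_mono fun q => ?_)
    (lintegral_add_left ((mt s s).sub (mt t t)).enorm _).le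
  rw [← sub_sub_sub_cancel_right _ _ (re F t (q.1 + t • q.2) q.2)]
  exact enorm_sub_le

end Crest.Agent.R68
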