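/-
R68/SolFin: solutions along characteristics are global solutions
Skeleton by helper76 (row 68); keep the statements unchanged, add any helper lemmas you like.
-/
import Crest.Agent.R68.SolCons
import Crest.Agent.R68.SolEnt

set_option autoImplicit false
set_option linter.unusedVariables false
set_option linter.unusedSectionVars false

noncomputable section

namespace Crest.Agent.R68

open MeasureTheory Set Filter Topology
open scoped ENNReal NNReal
open Crest.AnalysisR.VecCalc3 Crest.AnalysisR.PDE.Boltzmann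

variable {F : Fn} {T : ℝ}

theorem mee_pt (e : Env F T) {t : ℝ} (ht : t ∈ Icc 0 T) (x v : R3) (hfin : F t x v ≠ ⊤) :
    ENNReal.ofReal (re F t x v * (1 + ‖v‖ ^ 2 + |Real.log (re F t x v)|)) ≤
      (2 + 5 * e.p) * (br v ^ 2 * F t x v * e.B t x ^ (1 / 5 : ℝ)) + br v ^ 0 * ga (1 / 2) v := by
  have ha : 0 ≤ re F t x v := ENNReal.toReal_nonneg
  have hF : ENNReal.ofReal (re F t x v) = F t x v := ENNReal.ofReal_toReal hfin
  have hl := e.log_le ht x v
  have h1 : (1 : ℝ≥0∞) ≤ e.B t x ^ (1 / 5 : ℝ) := ENNReal.one_le_rpow (e.one_B _ _) (by norm_num)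
  have hn := norm_nonneg v
  have hbr : (1 : ℝ≥0∞) ≤ br v ^ 2 := by
    refine one_le_pow₀ ?_
    rw [br, ← ENNReal.ofReal_one]
    exact ENNReal.ofReal_le_ofReal (by linarith)
  set a := re F t x v with ha'
  have key : a * (1 + ‖v‖ ^ 2 + |Real.log a|) ≤
      2 * ((1 + ‖v‖) ^ 2 * a) + a * max (Real.log a) 0 + Real.exp (-(1 / 2) * ‖v‖ ^ 2) := by
    have h2 := mul_abs_log_le ha v
    rw [show -‖v‖ ^ 2 / 2 = -(1 / 2) * ‖v‖ ^ 2 by ring] at h2
    nlinarith [mul_nonneg ha hn]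
  refine (ENNReal.ofReal_le_ofReal key).trans ?_
  refine ENNReal.ofReal_add_le.trans ?_
  rw [pow_zero, one_mul, ga]
  gcongr
  refine ENNReal.ofReal_add_le.trans ?_
  rw [add_mul]
  gcongr
  · rw [ENNReal.ofReal_mul (by norm_num), ENNReal.ofReal_mul (by positivity),
      ENNReal.ofReal_pow (by positivity), hF, ENNReal.ofReal_ofNat]
    exact mul_le_mul_right (le_mul_of_one_le_right' h1) _
  · rw [ENNReal.ofReal_mul ha, hF, ENNReal.ofReal_max, ENNReal.ofReal_zero, max_eq_left zero_le]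
    calc F t x v * ENNReal.ofReal (Real.log a) ≤
          F t x v * (5 * e.p * e.B t x ^ (1 / 5 : ℝ)) := by gcongr
      _ = 5 * e.p * (1 * F t x v * e.B t x ^ (1 / 5 : ℝ)) := by ring
      _ ≤ _ := by gcongr

theorem wt_le_br (v : R3) (k : ℕ) :
    ENNReal.ofReal ((1 + ‖v‖ ^ 2) ^ (k / 2 : ℝ)) ≤ br v ^ k := by
  have hn := norm_nonneg v
  rw [br, ← ENNReal.ofReal_pow (by positivity)]
  refine ENNReal.ofReal_le_ofReal ?_
  calc (1 + ‖v‖ ^ 2) ^ (k / 2 : ℝ) ≤ ((1 + ‖v‖) ^ (2 : ℝ)) ^ (k / 2 : ℝ) := by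
        refine Real.rpow_le_rpow (by positivity) ?_ (by positivity)
        rw [Real.rpow_two]
        nlinarith
    _ = (1 + ‖v‖) ^ k := by
        rw [← Real.rpow_mul (by positivity), ← Real.rpow_natCast]
        congr 1
        ring

theorem Plain.mee (h : Plain F T) : ∃ C : ℝ≥0∞, C < ⊤ ∧ ∀ t ∈ Icc 0 T,
    ∫⁻ q in cell ×ˢ (univ : Set R3), ENNReal.ofReal
      (re F t q.1 q.2 * (1 + ‖q.2‖ ^ 2 + |Real.log (re F t q.1 q.2)|)) ≤ C := by
  obtain ⟨e⟩ := h.env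
  obtain ⟨C, hC⟩ := e.mass h.meas 2
  have hg := lintegral_br_ga (β := 1 / 2) (by norm_num) 0
  refine ⟨(2 + 5 * e.p) * C + ∫⁻ u, br u ^ 0 * ga (1 / 2) u, ?_, fun t ht => ?_⟩
  · refine ENNReal.add_lt_top.2 ⟨ENNReal.mul_lt_top ?_ ENNReal.coe_lt_top, hg.lt_top⟩
    refine ENNReal.add_lt_top.2 ⟨by simp, ENNReal.mul_lt_top (by simp) (by simp)⟩
  have mB : Measurable fun x : R3 => e.B t x := e.mB.comp (measurable_const.prodMk measurable_id)
  have m1 : Measurable fun q : R3 × R3 =>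
      br q.2 ^ 2 * F t q.1 q.2 * e.B t q.1 ^ (1 / 5 : ℝ) :=
    (((measurable_br.comp measurable_snd).pow_const 2).mul (h.meas.time t)).mul
      ((mB.comp measurable_fst).pow_const _)
  have m2 : Measurable fun q : R3 × R3 => br q.2 ^ 0 * ga (1 / 2) q.2 :=
    ((measurable_br.comp measurable_snd).pow_const 0).mul ((measurable_ga _).comp measurable_snd)
  calc _ ≤ ∫⁻ q in cell ×ˢ (univ : Set R3),
        ((2 + 5 * e.p) * (br q.2 ^ 2 * F t q.1 q.2 * e.B t q.1 ^ (1 / 5 : ℝ)) +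
          br q.2 ^ 0 * ga (1 / 2) q.2) :=
        lintegral_mono fun q => mee_pt e ht q.1 q.2 (h.fin t ht q.1 q.2)
    _ = (2 + 5 * e.p) * (∫⁻ x in cell, ∫⁻ v, br v ^ 2 * F t x v * e.B t x ^ (1 / 5 : ℝ)) +
          ∫⁻ u, br u ^ 0 * ga (1 / 2) u := by
        rw [lintegral_add_right _ m2, lintegral_const_mul _ m1,
          lintegral_cell_prod (G := fun x v => br v ^ 2 * F t x v * e.B t x ^ (1 / 5 : ℝ)) m1,
          lintegral_cell_prod (G := fun _ v => br v ^ 0 * ga (1 / 2) v) m2, setLIntegral_const,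
          volume_cell, mul_one]
    _ ≤ _ := by gcongr; exact hC t ht

theorem Plain.coll_weighted (h : Plain F T) (k : ℕ) :
    ∫⁻ p in Ioo 0 T ×ˢ (cell ×ˢ (univ : Set R3)),
      ENNReal.ofReal ((1 + ‖p.2.2‖ ^ 2) ^ (k / 2 : ℝ)) *
        (collGain (re F) p.1 p.2.1 p.2.2 + collLoss (re F) p.1 p.2.1 p.2.2) < ⊤ := by
  obtain ⟨e⟩ := h.env
  have hI := e.coll_int h.meas k
  have mG : Meas fun t x v =>
      (GN F F t x v + (F * LS F) t x v) * br v ^ k * e.B t x ^ (1 / 5 : ℝ) := by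
    have m1 : Meas (GN F F + F * LS F) := (h.meas.GN h.meas).add (h.meas.mul h.meas.LS)
    have mB : Measurable fun p : ℝ × R3 × R3 => e.B p.1 p.2.1 :=
      e.mB.comp (measurable_fst.prodMk measurable_snd.fst)
    exact (Measurable.mul m1 ((measurable_br.comp measurable_snd.snd).pow_const k)).mul
      (mB.pow_const _)
  rw [← lintegral_time_prod mG measurableSet_Ioc] at hI
  refine lt_of_le_of_lt ?_ hI.lt_top
  refine le_trans (lintegral_mono_set (prod_mono Ioo_subset_Ioc_self Subset.rfl)) ?_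
  refine setLIntegral_mono' (measurableSet_Ioc.prod (measurableSet_cell.prod MeasurableSet.univ))
    fun p hp => ?_
  have ht : p.1 ∈ Icc 0 T := Ioc_subset_Icc_self hp.1
  rw [collGain_re (h.fin _ ht _), collLoss_re (h.fin _ ht _) (h.meas.slice _ _), mul_comm]
  have h1 : (1 : ℝ≥0∞) ≤ e.B p.1 p.2.1 ^ (1 / 5 : ℝ) :=
    ENNReal.one_le_rpow (e.one_B _ _) (by norm_num)
  exact le_trans (mul_le_mul_right (wt_le_br _ k) _) (le_mul_of_one_le_right' h1)

theorem isGlobalSolution (h : ∀ T, Plain F T) : IsGlobalSolution (re F) (re F 0) := by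
  refine ⟨measurable_re (h 0).meas, fun t x v _ => ENNReal.toReal_nonneg, fun t v x i => ?_,
    fun _ _ => rfl, isWeakSolution h, hasLocalConservation h, fun T => (h T).mee,
    fun t ht => l1_continuous h ht, fun T k => (h T).coll_weighted k, fun t ht i => ?_,
    fun t ht => (h t).energy_le ⟨ht, le_rfl⟩, fun t ht => (h t).entropy ⟨ht, le_rfl⟩⟩
  · have := (h 0).per t v x i
    simp only [re] at this ⊢
    rw [this]
  · have := (h t).conserved (ψ := fun v => v i) (Or.inr (Or.inl ⟨i, rfl⟩)) ⟨ht, le_rfl⟩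
    simp only [mul_comm (re F _ _ _)] at this
    exact this

theorem isAdmissibleDatum (h : Plain F 0) {R : ℝ} (hR : ∀ x v, R ≤ ‖v‖ → F 0 x v = 0) :
    IsAdmissibleDatum (re F 0) R := by
  obtain ⟨C, hC, hC'⟩ := h.mee
  refine ⟨(h.meas.time 0).ennreal_toReal, fun x v => ENNReal.toReal_nonneg, fun v x i => ?_,
    fun x v hv => ?_, (hC' 0 ⟨le_rfl, le_rfl⟩).trans_lt hC⟩
  · have := h.per 0 v x i
    simp only [re] at this ⊢
    rw [this]
  · simp [re, hR x v hv]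

/-- If the set is null then `F₁ s = F₂ s` a.e. for almost every `s > 0`, hence for every `s > 0` by
the continuity in `L¹`. -/
theorem measure_ne_pos {F₁ F₂ : ℝ → R3 → R3 → ℝ} {F₀ : R3 → R3 → ℝ} (h₁ : IsGlobalSolution F₁ F₀)
    (h₂ : IsGlobalSolution F₂ F₀) {t : ℝ} (ht : 0 < t)
    (hne : ∫⁻ q in cell ×ˢ (univ : Set R3), ‖F₁ t q.1 q.2 - F₂ t q.1 q.2‖ₑ ≠ 0) :
    0 < volume {p : ℝ × R3 × R3 | p ∈ region ∧ F₁ p.1 p.2.1 p.2.2 ≠ F₂ p.1 p.2.1 p.2.2} := by
  rw [pos_iff_ne_zero]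
  intro h0
  have mD : Meas fun s x v => ‖F₁ s x v - F₂ s x v‖ₑ := (h₁.1.sub h₂.1).enorm
  have m₁ : ∀ s, Measurable fun q : R3 × R3 => F₁ s q.1 q.2 := fun s =>
    h₁.1.comp (measurable_const.prodMk measurable_id)
  have m₂ : ∀ s, Measurable fun q : R3 × R3 => F₂ s q.1 q.2 := fun s =>
    h₂.1.comp (measurable_const.prodMk measurable_id)
  set g : ℝ → ℝ≥0∞ := fun s => ∫⁻ q in cell ×ˢ (univ : Set R3), ‖F₁ s q.1 q.2 - F₂ s q.1 q.2‖ₑ
    with hg
  have hreg : MeasurableSet region :=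
    measurableSet_Ioi.prod (measurableSet_cell.prod MeasurableSet.univ)
  have hz : ∫⁻ p in region, ‖F₁ p.1 p.2.1 p.2.2 - F₂ p.1 p.2.1 p.2.2‖ₑ = 0 := by
    refine (setLIntegral_congr_fun_ae (g := fun _ => 0) hreg ?_).trans (by simp)
    rw [ae_iff]
    refine measure_mono_null (fun p hp => ?_) h0
    simp only [mem_ofPred_eq, Classical.not_imp] at hp
    refine ⟨hp.1, fun hh => hp.2 ?_⟩
    simp [hh]
  have hz' : ∫⁻ s in Ioi (0 : ℝ), g s = 0 := by
    have := lintegral_time_prod mD (I := Ioi 0) measurableSet_Ioi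
    rw [← hz, region, this]
    refine lintegral_congr fun s => ?_
    exact lintegral_cell_prod (G := fun x v => ‖F₁ s x v - F₂ s x v‖ₑ) (mD.time s)
  have mg : Measurable g :=
    Measurable.lintegral_prod_right' (f := fun p : ℝ × R3 × R3 =>
      ‖F₁ p.1 p.2.1 p.2.2 - F₂ p.1 p.2.1 p.2.2‖ₑ) mD
  have hae : ∀ᵐ s, s ∈ Ioi (0 : ℝ) → g s = 0 := by
    rw [lintegral_eq_zero_iff mg] at hz'
    exact (ae_restrict_iff' measurableSet_Ioi).1 hz'
  have hn : 𝓝[Ici (0 : ℝ)] t = 𝓝 t := nhdsWithin_eq_nhds.2 (Ici_mem_nhds ht)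
  have hfr : ∃ᶠ s in 𝓝 t, g s = 0 := by
    intro hev
    have hU : {s | ¬ (s ∈ Ioi (0 : ℝ) → g s = 0)} ∈ 𝓝 t := by
      filter_upwards [hev, Ioi_mem_nhds ht] with s hs hs' hh using hs (hh hs')
    exact (Measure.measure_pos_of_mem_nhds volume hU).ne' (ae_iff.1 hae)
  have c₁ := h₁.2.2.2.2.2.2.2.1 t ht.le
  have c₂ := h₂.2.2.2.2.2.2.2.1 t ht.le
  rw [hn] at c₁ c₂
  have c := c₁.add c₂
  rw [add_zero] at c
  refine hne (le_antisymm ?_ zero_le)
  refine ge_of_tendsto_of_frequently c (hfr.mono fun s hs => ?_)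
  calc g t ≤ ∫⁻ q in cell ×ˢ (univ : Set R3), (‖F₁ s q.1 q.2 - F₁ t q.1 q.2‖ₑ +
        ‖F₂ s q.1 q.2 - F₂ t q.1 q.2‖ₑ + ‖F₁ s q.1 q.2 - F₂ s q.1 q.2‖ₑ) := by
        refine lintegral_mono fun q => ?_
        have : F₁ t q.1 q.2 - F₂ t q.1 q.2 = -(F₁ s q.1 q.2 - F₁ t q.1 q.2) +
            (F₂ s q.1 q.2 - F₂ t q.1 q.2) + (F₁ s q.1 q.2 - F₂ s q.1 q.2) := by ring
        simp only
        rw [this]
        refine (enorm_add_le _ _).trans ?_
        gcongr
        refine (enorm_add_le _ _).trans ?_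
        rw [enorm_neg]
    _ = _ := by
        have n1 : Measurable fun q : R3 × R3 => ‖F₁ s q.1 q.2 - F₂ s q.1 q.2‖ₑ :=
          ((m₁ s).sub (m₂ s)).enorm
        have n2 : Measurable fun q : R3 × R3 => ‖F₂ s q.1 q.2 - F₂ t q.1 q.2‖ₑ :=
          ((m₂ s).sub (m₂ t)).enorm
        rw [lintegral_add_right _ n1, lintegral_add_right _ n2]
        have hs' : ∫⁻ q in cell ×ˢ (univ : Set R3), ‖F₁ s q.1 q.2 - F₂ s q.1 q.2‖ₑ = 0 := hs
        rw [hs', add_zero]

/-- Periodic functions that agree a.e. on the cell agree a.e. (countably many translates). -/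
theorem ae_eq_of_cell {f g : R3 → R3 → ℝ≥0∞} (hf : Measurable fun q : R3 × R3 => f q.1 q.2)
    (hg : Measurable fun q : R3 × R3 => g q.1 q.2) (pf : ∀ v, IsPeriodic3 fun x => f x v)
    (pg : ∀ v, IsPeriodic3 fun x => g x v) (ff : ∀ x v, f x v ≠ ⊤) (fg : ∀ x v, g x v ≠ ⊤)
    (h : ∫⁻ q in cell ×ˢ (univ : Set R3), ‖(f q.1 q.2).toReal - (g q.1 q.2).toReal‖ₑ = 0) :
    ∀ᵐ q : R3 × R3, f q.1 q.2 = g q.1 q.2 := by
  have mD : Measurable fun q : R3 × R3 => ‖(f q.1 q.2).toReal - (g q.1 q.2).toReal‖ₑ :=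
    (hf.ennreal_toReal.sub hg.ennreal_toReal).enorm
  set Φ : R3 → ℝ≥0∞ := fun x => ∫⁻ v, ‖(f x v).toReal - (g x v).toReal‖ₑ with hΦ
  have mΦ : Measurable Φ := mD.lintegral_prod_right'
  have pΦ : IsPeriodic3 Φ := fun x i => by
    refine lintegral_congr fun v => ?_
    have h1 := pf v x i
    have h2 := pg v x i
    simp only at h1 h2
    rw [h1, h2]
  rw [lintegral_cell_prod (G := fun x v => ‖(f x v).toReal - (g x v).toReal‖ₑ) mD] at h
  have hb : ∀ n : ℕ, ∫⁻ x in Metric.closedBall (0 : R3) n, Φ x = 0 := fun n => by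
    have := lintegral_ball_le_cell mΦ pΦ 0 (R := n) (Nat.cast_nonneg n)
    rw [show ∫⁻ x in cell, Φ x = 0 from h, mul_zero] at this
    exact le_antisymm this zero_le
  have hall : ∫⁻ x, Φ x = 0 := by
    have := lintegral_iUnion_le (μ := volume) (fun n : ℕ => Metric.closedBall (0 : R3) n) Φ
    rw [Metric.iUnion_closedBall_nat, Measure.restrict_univ] at this
    simp only [hb, tsum_zero] at this
    exact le_antisymm this zero_le
  have hq : ∫⁻ q : R3 × R3, ‖(f q.1 q.2).toReal - (g q.1 q.2).toReal‖ₑ = 0 := by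
    rw [Measure.volume_eq_prod, lintegral_prod _ mD.aemeasurable]
    exact hall
  rw [lintegral_eq_zero_iff mD] at hq
  filter_upwards [hq] with q hq
  simp only [Pi.zero_apply, enorm_eq_zero, sub_eq_zero] at hq
  exact (ENNReal.toReal_eq_toReal_iff' (ff _ _) (fg _ _)).1 hq

/-- The final reduction. -/
theorem result_of {F G : Fn} (hF : ∀ T, Plain F T) (hG : ∀ T, Plain G T) (h0 : F 0 = G 0) {R : ℝ}
    (hR : ∀ x v, R ≤ ‖v‖ → F 0 x v = 0) {t : ℝ} (ht : 0 < t)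
    (hne : ¬ ∀ᵐ q : R3 × R3, F t q.1 q.2 = G t q.1 q.2) :
    ∃ R : ℝ, ∃ F₀ : R3 → R3 → ℝ, IsAdmissibleDatum F₀ R ∧
      ∃ F₁ F₂ : ℝ → R3 → R3 → ℝ, IsGlobalSolution F₁ F₀ ∧ IsGlobalSolution F₂ F₀ ∧
        0 < volume {p : ℝ × R3 × R3 | p ∈ region ∧ F₁ p.1 p.2.1 p.2.2 ≠ F₂ p.1 p.2.1 p.2.2} := by
  have h₁ := isGlobalSolution hF
  have h₂ := isGlobalSolution hG
  have he : re G 0 = re F 0 := by
    funext x v
    simp only [re, h0]
  rw [he] at h₂
  refine ⟨R, re F 0, isAdmissibleDatum (hF 0) hR, re F, re G, h₁, h₂,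
    measure_ne_pos h₁ h₂ ht fun hz => hne ?_⟩
  exact ae_eq_of_cell ((hF t).meas.time t) ((hG t).meas.time t) ((hF t).per t) ((hG t).per t)
    ((hF t).fin t ⟨ht.le, le_rfl⟩) ((hG t).fin t ⟨ht.le, le_rfl⟩) hz

end Crest.Agent.R68
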