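/-
R68/W3: the concrete data satisfy the hypotheses of the global part
Skeleton by helper76 (row 68); keep the statements unchanged, add any helper lemmas you like.
-/
import Crest.Agent.R68.W2
import Crest.Agent.R68.C6
import Crest.Agent.R68.C7
import Crest.Agent.R68.PA2

set_option autoImplicit false
set_option linter.unusedVariables false
set_option linter.unusedSectionVars false

noncomputable section

namespace Crest.Agent.R68

open MeasureTheory Set Filter Topology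
open scoped ENNReal NNReal
open Crest.AnalysisR.VecCalc3 Crest.AnalysisR.PDE.Boltzmann

namespace CP

variable {P : CP} {ε₂ : ℝ≥0}

theorem D2_mw (P : CP) (r : ℝ) (F : Fn) (ε₂ : ℝ≥0) : (P.D2 r F ε₂).mw = P.mw := rfl

theorem W3_Sg (P : CP) (r t : ℝ) (x v : R3) : P.Sg r t x v =
    ENNReal.ofReal (P.del t) * (P.E0 r t x v + P.E1 r t x v + Mx v * P.hole t x v) := rfl

theorem W3_pa_Sg (P : CP) (r t : ℝ) (x v : R3) (s : ℝ) : pa (P.Sg r) t x v s =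
    ENNReal.ofReal (P.del s) * (P.E0 r t x v + pa (P.E1 r) t x v s + Mx v * P.hole t x v) := by
  rw [← E0_pa P r t x v s, ← hole_pa P t x v s]
  rfl

theorem W3_mw (P : CP) (t : ℝ) (x v : R3) : P.mw t x v = ga (1 / 4) v * P.om t x v := rfl

theorem W3_del_le (P : CP) (t : ℝ) : ENNReal.ofReal (P.del t) ≤ 1 :=
  ENNReal.ofReal_le_one.2 (P.del_le_one t)

theorem W3_hole_le (P : CP) (t : ℝ) (x v : R3) : P.hole t x v ≤ 1 := by
  unfold hole
  split_ifs <;> simp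

theorem W3_Mxh_le (P : CP) (t : ℝ) (x v : R3) : Mx v * P.hole t x v ≤ Mx v :=
  mul_le_of_le_one_right' (P.W3_hole_le t x v)

theorem W3_ga_le_mw (P : CP) (t : ℝ) (x v : R3) : ga (1 / 4) v ≤ P.mw t x v :=
  le_mul_of_one_le_right' (P.one_le_om t x v)

theorem W3_br_Mx (v : R3) : br v * Mx v ≤ 2 * ga (1 / 4) v := by
  refine (mul_le_mul_right (Mx_le v) _).trans ?_
  unfold br ga
  rw [← ENNReal.ofReal_mul (by positivity), C3_two]
  refine ENNReal.ofReal_le_ofReal ?_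
  have e : Real.exp (-(1 / 4) * ‖v‖ ^ 2) =
      Real.exp (‖v‖ ^ 2 / 4) * Real.exp (-(1 / 2) * ‖v‖ ^ 2) := by
    rw [← Real.exp_add]
    congr 1
    ring
  rw [e, ← mul_assoc]
  refine mul_le_mul_of_nonneg_right ?_ (Real.exp_pos _).le
  have := Real.add_one_le_exp (‖v‖ ^ 2 / 4)
  nlinarith [sq_nonneg (‖v‖ - 1)]

theorem W3_E0_zero (P : CP) (r t : ℝ) (x v : R3) : P.E0 r 0 (x - t • v) v = P.E0 r t x v := by
  rw [← E0_pa P r t x v 0]
  simp only [pa, sub_zero]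

theorem Sg_pa (P : CP) (r : ℝ) {t s : ℝ} (x v : R3) (hst : s ≤ t) :
    pa (P.Sg r) t x v s ≤ ENNReal.ofReal (Real.exp (nuM / 4 * (t - s))) * P.Sg r t x v := by
  rw [W3_pa_Sg, W3_Sg, ← mul_assoc, ← ENNReal.ofReal_mul (Real.exp_pos _).le]
  exact mul_le_mul' (ENNReal.ofReal_le_ofReal (P.del_le_mul hst))
    (add_le_add (add_le_add le_rfl (P.E1_pa r t x v hst)) le_rfl)

theorem Sg_le (h : P.OK) : ∀ᶠ r in 𝓝[>] (0 : ℝ), P.Sg r ≤ P.Ecal r + P.mw := by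
  filter_upwards [Ec_le h] with r hr t x v
  rw [W3_Sg]
  refine (mul_le_of_le_one_left' (P.W3_del_le t)).trans ?_
  exact add_le_add (hr t x v) ((P.W3_Mxh_le t x v).trans (P.Mx_le_mw t x v))

theorem W3_cold_supp (h : P.OK) : ∀ᶠ r in 𝓝[>] (0 : ℝ), ∀ t x v,
    P.E0 r t x v + P.E1 r t x v ≠ 0 → ‖v‖ ≤ 2 := by
  filter_upwards [Ec_le h, Ecal_supp h one_pos] with r hr hs t x v hne
  rcases le_total 0 t with ht | ht
  · refine (hs t x v ht fun h0 => hne ?_).1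
    exact le_antisymm (h0 ▸ hr t x v) zero_le
  · have h1 : P.E1 r t x v = 0 := by
      change (P.Λ : ℝ≥0∞) * (∫⁻ s in Ioc 0 t, pa (tm P.del * P.Psi r) t x v s) = 0
      rw [Ioc_eq_empty (not_lt.2 ht), Measure.restrict_empty, lintegral_zero_measure, mul_zero]
    rw [h1, add_zero, ← W3_E0_zero] at hne
    refine (hs 0 (x - t • v) v le_rfl fun h0 => hne ?_).1
    exact le_antisymm (h0 ▸ P.E0_le_Ecal r 0 (x - t • v) v) zero_le

theorem Sg_br (h : P.OK) : ∀ᶠ r in 𝓝[>] (0 : ℝ), ∀ t x v,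
    br v * P.Sg r t x v ≤ 4 * P.Sg r t x v + 2 * ga (1 / 4) v := by
  filter_upwards [W3_cold_supp h] with r hr t x v
  have h1 : br v * (P.E0 r t x v + P.E1 r t x v) ≤ 4 * (P.E0 r t x v + P.E1 r t x v) := by
    by_cases h0 : P.E0 r t x v + P.E1 r t x v = 0
    · rw [h0, mul_zero, mul_zero]
    · refine mul_le_mul_left ?_ _
      have := hr t x v h0
      unfold br
      rw [← ENNReal.ofReal_ofNat 4]
      exact ENNReal.ofReal_le_ofReal (by linarith)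
  have h2 : ENNReal.ofReal (P.del t) * (br v * (Mx v * P.hole t x v)) ≤ 2 * ga (1 / 4) v :=
    (mul_le_of_le_one_left' (P.W3_del_le t)).trans
      ((mul_le_mul_right (P.W3_Mxh_le t x v) _).trans (W3_br_Mx v))
  rw [W3_Sg]
  calc br v * (ENNReal.ofReal (P.del t) * (P.E0 r t x v + P.E1 r t x v + Mx v * P.hole t x v))
      = ENNReal.ofReal (P.del t) * (br v * (P.E0 r t x v + P.E1 r t x v)) +
        ENNReal.ofReal (P.del t) * (br v * (Mx v * P.hole t x v)) := by ring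
    _ ≤ ENNReal.ofReal (P.del t) * (4 * (P.E0 r t x v + P.E1 r t x v + Mx v * P.hole t x v)) +
        2 * ga (1 / 4) v :=
      add_le_add (mul_le_mul_right (h1.trans (mul_le_mul_right le_self_add _)) _) h2
    _ = _ := by ring

theorem W3_ex (P : CP) (r : ℝ) (F : Fn) (ε₂ : ℝ≥0) {s t : ℝ} (hs : P.t₁ ≤ s) (hst : s ≤ t)
    (x v : R3) :
    ex (∫⁻ s' in Ioc s t, pa (P.D2 r F ε₂).att t x v s') * ENNReal.ofReal (P.del s) ≤
      ENNReal.ofReal (P.del t) := by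
  have h0 : 0 ≤ nu * (t - s) := mul_nonneg nu_pos.le (sub_nonneg.2 hst)
  have h1 : ENNReal.ofReal (nu * (t - s)) ≤ ∫⁻ s' in Ioc s t, pa (P.D2 r F ε₂).att t x v s' := by
    change _ ≤ ∫⁻ s' in Ioc s t, (nuM : ℝ≥0∞) / 2 * br v
    rw [P1.PA2_const_Ioc, ENNReal.ofReal_mul nu_pos.le]
    refine mul_le_mul_left (le_trans ?_ (le_mul_of_one_le_right' (PA1_one_le_br v))) _
    have e : (nuM : ℝ≥0∞) / 2 = ENNReal.ofReal (nuM / 2) := by
      rw [ENNReal.ofReal_div_of_pos two_pos, ENNReal.ofReal_coe_nnreal, ENNReal.ofReal_ofNat]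
    rw [e]
    refine ENNReal.ofReal_le_ofReal ?_
    unfold nu
    linarith [nuM.coe_nonneg]
  refine (mul_le_mul_left (ex_anti h1) _).trans (le_of_eq ?_)
  rw [ex_ofReal h0, ← ENNReal.ofReal_mul (Real.exp_pos _).le, del_eq_exp hs,
    del_eq_exp (hs.trans hst), ← Real.exp_add]
  congr 2
  ring

/-- `ex (∫_s^t att) * del s ≤ del t` for `t₁ ≤ s ≤ t`; `E0_pa`, `hole_pa`, and
`E1 t = pa E1 t₁ + Λ ∫_(t₁, t] del Psi`, `16 ≤ Λ`. -/
theorem Ps_le (h : P.OK) (r : ℝ) (F : Fn) (ε₂ : ℝ≥0) : ∀ t, P.t₁ ≤ t → ∀ x v,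
    DU (P.Sg r P.t₁) (P.D2 r F ε₂).att ((16 : ℝ≥0∞) • P.Ps r) P.t₁ t x v ≤ P.Sg r t x v := by
  intro t ht x v
  have hΛ : (16 : ℝ≥0∞) ≤ P.Λ := by exact_mod_cast h.Λ_ge
  have hE : P.E1 r t x v = pa (P.E1 r) t x v P.t₁ +
      P.Λ * ∫⁻ s in Ioc P.t₁ t, pa (tm P.del * P.Psi r) t x v s := by
    change (P.Λ : ℝ≥0∞) * (∫⁻ s in Ioc 0 t, pa (tm P.del * P.Psi r) t x v s) =
      P.Λ * pa (PI (tm P.del * P.Psi r) 0) t x v P.t₁ + _
    rw [pa_PI, Duh1_split _ h.t₁_pos.le ht, mul_add]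
  have h1 : P.Sg r P.t₁ (x - (t - P.t₁) • v) v * ex (PI (P.D2 r F ε₂).att P.t₁ t x v) ≤
      ENNReal.ofReal (P.del t) *
        (P.E0 r t x v + pa (P.E1 r) t x v P.t₁ + Mx v * P.hole t x v) := by
    change pa (P.Sg r) t x v P.t₁ * _ ≤ _
    rw [W3_pa_Sg, mul_right_comm, mul_comm (ENNReal.ofReal _)]
    exact mul_le_mul_left (P.W3_ex r F ε₂ le_rfl ht x v) _
  have h2 : AI (P.D2 r F ε₂).att ((16 : ℝ≥0∞) • P.Ps r) P.t₁ t x v ≤
      ENNReal.ofReal (P.del t) *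
        (P.Λ * ∫⁻ s in Ioc P.t₁ t, pa (tm P.del * P.Psi r) t x v s) := by
    rw [← mul_assoc, ← lintegral_const_mul' _ _
      (ENNReal.mul_ne_top ENNReal.ofReal_ne_top ENNReal.coe_ne_top)]
    refine setLIntegral_mono' measurableSet_Ioc fun s hs => ?_
    change _ * (16 * (ENNReal.ofReal (P.del s ^ 2) * pa (P.Psi r) t x v s)) ≤
      _ * (ENNReal.ofReal (P.del s) * pa (P.Psi r) t x v s)
    rw [sq, ENNReal.ofReal_mul (P.del_pos s).le]
    calc _ = (ex (∫⁻ s' in Ioc s t, pa (P.D2 r F ε₂).att t x v s') * ENNReal.ofReal (P.del s)) *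
          16 * (ENNReal.ofReal (P.del s) * pa (P.Psi r) t x v s) := by ring
      _ ≤ _ := mul_le_mul_left (mul_le_mul' (P.W3_ex r F ε₂ hs.1.le hs.2 x v) hΛ) _
  rw [DU_eq, W3_Sg P r t, hE]
  refine (add_le_add h1 h2).trans (le_of_eq ?_)
  ring

theorem W3_Sg_t₁ (P : CP) (r : ℝ) (x v : R3) : P.Sg r P.t₁ x v =
    P.E0 r P.t₁ x v + P.E1 r P.t₁ x v + Mx v * P.hole P.t₁ x v := by
  rw [W3_Sg, del_eq_one le_rfl, ENNReal.ofReal_one, one_mul]

theorem W3_Fa_le (P : CP) (x v : R3) : P.Fa x v ≤ Mx v := by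
  unfold Fa
  split_ifs <;> simp

theorem W3_t₁ (h : P.OK) {t : ℝ} (ht : t ∈ Icc 0 P.t₁) : t ∈ Icc (0 : ℝ) 1 :=
  ⟨ht.1, ht.2.trans (h.t₁_le.trans (by norm_num))⟩

/-- `Good.upper`, `H_le_mw`, `W_le_mw`. -/
theorem init₁ (h : P.OK) (h₂ : P.Num2 ε₂) {r : ℝ} (hD : (P.D1 r).OK) {F : Fn} (hF : (P.D1 r).Good F)
    (x v : R3) : F P.t₁ x v ≤ Mx v + P.Sg r P.t₁ x v + ε₂ * P.mw P.t₁ x v := by
  have ht : P.t₁ ∈ Icc 0 P.t₁ := ⟨h.t₁_pos.le, le_rfl⟩
  have hc : (4 * P.η * ENNReal.ofReal P.K₀ + P.x₀ * (b1v P.V + 1) : ℝ≥0∞) ≤ ε₂ := by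
    have e : (4 * P.η * ENNReal.ofReal P.K₀ + P.x₀ * (b1v P.V + 1) : ℝ≥0∞) =
        ((4 * P.η * P.K₀.toNNReal + P.x₀ * (b1v P.V + 1) : ℝ≥0) : ℝ≥0∞) := by
      push_cast
      rfl
    rw [e, ENNReal.coe_le_coe, ← NNReal.coe_le_coe]
    have h1 := h₂.η_le
    have h2 : (2 * P.x₀ * (b1v P.V + 1) : ℝ) ≤ ε₂ := by exact_mod_cast h₂.x₀_le
    push_cast
    rw [Real.coe_toNNReal _ (W1_K₀ h)]
    linarith
  refine (hF.upper hD P.t₁ ht x v).trans ?_
  change P.E0 r 0 (x - P.t₁ • v) v + P.Fa (x - P.t₁ • v) v + P.E1 r P.t₁ x v +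
    4 * P.η * P.H P.t₁ x v + P.x₀ * (b1v P.V + 1) * P.W P.t₁ x v ≤ _
  rw [W3_E0_zero, W3_Sg_t₁]
  calc _ ≤ P.E0 r P.t₁ x v + Mx v + P.E1 r P.t₁ x v +
        4 * P.η * (ENNReal.ofReal P.K₀ * P.mw P.t₁ x v) +
          P.x₀ * (b1v P.V + 1) * P.mw P.t₁ x v :=
        add_le_add (add_le_add (add_le_add (add_le_add le_rfl (P.W3_Fa_le _ v)) le_rfl)
          (mul_le_mul_right (H_le_mw h (W3_t₁ h ht) x v) _))
          (mul_le_mul_right (W_le_mw (W3_t₁ h ht) x v) _)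
    _ = Mx v + (P.E0 r P.t₁ x v + P.E1 r P.t₁ x v) +
        (4 * P.η * ENNReal.ofReal P.K₀ + P.x₀ * (b1v P.V + 1)) * P.mw P.t₁ x v := by ring
    _ ≤ _ := add_le_add (add_le_add le_rfl le_self_add) (mul_le_mul_left hc _)

/-- Three cases: `‖v‖ ≥ R₀`; in the hole; otherwise `Good.lower`, `depth`, `one_le_ex_add`. -/
theorem init₂ (h : P.OK) (h₂ : P.Num2 ε₂) : ∀ᶠ r in 𝓝[>] (0 : ℝ), (P.D1 r).OK → ∀ F, (P.D1 r).Good F →
    ∀ x v, Mx v ≤ F P.t₁ x v + P.Sg r P.t₁ x v + ε₂ * P.mw P.t₁ x v := by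
  have hε : (0 : ℝ) < ε₂ := h₂.pos
  filter_upwards [depth h (e' := ε₂ / 4) (by positivity)] with r hr hD F hF x v
  have ht : P.t₁ ∈ Icc 0 P.t₁ := ⟨h.t₁_pos.le, le_rfl⟩
  by_cases hv : ‖v‖ < P.R₀
  swap
  · refine le_add_left ((Mx_le v).trans ?_)
    refine le_trans ?_ (mul_le_mul_right (P.W3_ga_le_mw P.t₁ x v) _)
    unfold ga
    rw [← ENNReal.ofReal_coe_nnreal, ← ENNReal.ofReal_mul hε.le]
    refine ENNReal.ofReal_le_ofReal ?_
    refine le_trans ?_ (mul_le_mul_of_nonneg_right h₂.R₀_ge (Real.exp_pos _).le)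
    rw [← Real.exp_add]
    refine Real.exp_le_exp.2 ?_
    have h1 : P.R₀ ^ 2 ≤ ‖v‖ ^ 2 :=
      pow_le_pow_left₀ (by linarith [h.R₀_ge]) (not_lt.1 hv) 2
    linarith
  by_cases hx : dd (x - P.t₁ • v) < P.r₁
  · refine le_add_right (le_add_left ?_)
    rw [W3_Sg_t₁]
    refine le_add_left ?_
    unfold hole
    rw [if_pos hx, mul_one]
  have hFa : P.Fa (x - P.t₁ • v) v = Mx v := if_pos ⟨hv, not_lt.1 hx⟩
  have hne : P.Fa (x - P.t₁ • v) v ≠ 0 := by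
    rw [hFa]
    exact (ENNReal.ofReal_pos.2 (Mx_pos v)).ne'
  have hlo := hF.lower hD P.t₁ ht x v
  set A := PI (LS (P.D1 r).E0) 0 P.t₁ x v +
    ENNReal.ofReal ((1 + 2 * (P.D1 r).K) * (1 + ‖v‖) * P.t₁) with hA
  have hAle : A ≤ ε₂ := by
    have hCL : 0 ≤ P.C * P.L := mul_nonneg (by linarith [h.one_le_C]) (by linarith [h.one_le_L])
    have h1 : 10 ^ 5 * (P.C * P.L * P.T * P.R₀ ^ 2 / P.r₁) ≤ ε₂ / 4 := by
      have h2 := h₂.T_le'
      rw [h.coe_b₀] at h2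
      have h3 : 0 ≤ P.C * P.L * P.T * P.R₀ ^ 2 := by have := h.T_pos; positivity
      have h4 : (4 * 10 ^ 5 : ℝ) ≤ 3 ^ 70 * (Kpl + 1) := by
        have := Kpl.coe_nonneg
        nlinarith
      rw [← mul_div_assoc, div_le_iff₀ h.r₁_pos]
      nlinarith [mul_le_mul_of_nonneg_right h4 h3]
    have h5 : (1 + 2 * (P.K : ℝ)) * (1 + ‖v‖) * P.t₁ ≤ ε₂ / 2 := by
      have h6 : (2 * (1 + 2 * P.K) * (1 + P.R₀) * P.t₁ : ℝ) ≤ ε₂ := h₂.t₁_le
      have h7 : (1 + 2 * (P.K : ℝ)) * (1 + ‖v‖) * P.t₁ ≤ (1 + 2 * (P.K : ℝ)) * (1 + P.R₀) * P.t₁ := by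
        have := h.t₁_pos
        gcongr
      linarith
    calc A ≤ ENNReal.ofReal (ε₂ / 2) + ENNReal.ofReal (ε₂ / 2) :=
          add_le_add ((hr P.t₁ ht x v hne).trans (ENNReal.ofReal_le_ofReal (by linarith)))
            (ENNReal.ofReal_le_ofReal h5)
      _ = ε₂ := by
          rw [← ENNReal.ofReal_add (by positivity) (by positivity), add_halves,
            ENNReal.ofReal_coe_nnreal]
  have hM : Mx v ≤ (P.D1 r).F0 (x - P.t₁ • v) v := hFa ▸ le_add_self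
  calc Mx v = Mx v * 1 := (mul_one _).symm
    _ ≤ Mx v * (ex A + A) := mul_le_mul_right (one_le_ex_add A) _
    _ = Mx v * ex A + A * Mx v := by ring
    _ ≤ _ := add_le_add (le_add_right ((mul_le_mul_left hM _).trans hlo))
        (mul_le_mul' hAle (P.Mx_le_mw _ x v))

theorem W3_c0 (ε₂ : ℝ≥0) : ((ε₂ * nuM / 128 : ℝ≥0) : ℝ≥0∞) = ε₂ * nuM / 128 := by
  rw [ENNReal.coe_div (by norm_num), ENNReal.coe_mul]
  rfl

/-- The cold part of the singular envelope: `Cm_long`, `GN_mw_Cm`, `ls_le_of_Cm`, `T_le`. -/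
theorem cold_rates (h : P.OK) (h₂ : P.Num2 ε₂) : ∀ᶠ r in 𝓝[>] (0 : ℝ), ∀ t, P.t₁ ≤ t → ∀ x v,
    ENNReal.ofReal (P.del t) * GN (P.Ecal r) P.mw t x v ≤
      ε₂ * nuM / 128 * ENNReal.ofReal √(P.del t) * P.mw t x v ∧
    ENNReal.ofReal (P.del t) * LS (P.Ecal r) t x v ≤
      ε₂ * nuM / 128 * ENNReal.ofReal √(P.del t) * br v := by
  obtain ⟨δ, hδ⟩ : ∃ δ : ℝ≥0, δ = ε₂ * nuM / (3 ^ 70 * (Kpl + 1)) := ⟨_, rfl⟩
  have hε : (0 : ℝ) < ε₂ := h₂.pos
  have hν : (0 : ℝ) < nuM := nuM_pos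
  have hK : (0 : ℝ) ≤ Kpl := Kpl.coe_nonneg
  have hδ' : (δ : ℝ) * (3 ^ 70 * (Kpl + 1)) = ε₂ * nuM := by
    rw [hδ]
    push_cast
    exact div_mul_cancel₀ _ (by positivity)
  have hδ0 : (0 : ℝ) < δ := by
    by_contra h0
    have : (δ : ℝ) = 0 := le_antisymm (not_lt.1 h0) δ.coe_nonneg
    rw [this, zero_mul] at hδ'
    exact (mul_pos hε hν).ne hδ'
  have hc1 : (2 * 3 ^ 5 * Kpl * (17 * δ : ℝ≥0) : ℝ≥0∞) ≤ ε₂ * nuM / 128 := by
    rw [← W3_c0]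
    have : (2 * 3 ^ 5 * Kpl * (17 * δ) : ℝ≥0) ≤ ε₂ * nuM / 128 := by
      rw [← NNReal.coe_le_coe]
      push_cast
      rw [← hδ']
      nlinarith [mul_nonneg hδ0.le hK]
    exact_mod_cast this
  have hc2 : (72 * (17 * δ : ℝ≥0) : ℝ≥0∞) ≤ ε₂ * nuM / 128 := by
    rw [← W3_c0]
    have : (72 * (17 * δ) : ℝ≥0) ≤ ε₂ * nuM / 128 := by
      rw [← NNReal.coe_le_coe]
      push_cast
      rw [← hδ']
      nlinarith [mul_nonneg hδ0.le hK]
    exact_mod_cast this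
  filter_upwards [Cm_long h hδ0, Ecal_supp h one_pos] with r hr hs t ht x v
  have ht0 : 0 < t := h.t₁_pos.trans_le ht
  have hj : 16 * N0 * (P.C * P.L * P.T / t ^ 2) + δ ≤ (17 * δ : ℝ≥0) := by
    have h1 := h₂.T_le
    rw [h.coe_b₀, ← hδ'] at h1
    have h2 : P.t₁ ^ 2 ≤ t ^ 2 := pow_le_pow_left₀ h.t₁_pos.le ht 2
    have h3 : N0 * (P.C * P.L * P.T) ≤ δ * t ^ 2 := by
      refine le_trans ?_ (mul_le_mul_of_nonneg_left h2 hδ0.le)
      refine le_of_mul_le_mul_left (a := (3 ^ 70 * (Kpl + 1) : ℝ)) ?_ (by positivity)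
      linarith
    have h4 : N0 * (P.C * P.L * P.T / t ^ 2) ≤ δ := by
      rw [← mul_div_assoc, div_le_iff₀ (by positivity)]
      exact h3
    push_cast
    linarith
  have hCm : ∀ v, ENNReal.ofReal (P.del t) * Cm (P.Ecal r) t x v ≤
      (ENNReal.ofReal √(P.del t) * (17 * δ : ℝ≥0)) * P.om t x v := fun v => by
    refine (hr t ht0 x v).trans (mul_le_mul_left ?_ _)
    rw [ENNReal.ofReal_mul (Real.sqrt_nonneg _), ← ENNReal.ofReal_coe_nnreal]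
    exact mul_le_mul_right (ENNReal.ofReal_le_ofReal hj) _
  constructor
  · have h1 := GN_mw_Cm h t x v (P.meas_Ecal r).1
      fun u hu => (hs t x u ht0.le hu).1.trans (by norm_num)
    calc _ ≤ ENNReal.ofReal (P.del t) * (2 * 3 ^ 5 * Kpl * ga (1 / 4) v * Cm (P.Ecal r) t x v) :=
          mul_le_mul_right h1 _
      _ = 2 * 3 ^ 5 * Kpl * ga (1 / 4) v * (ENNReal.ofReal (P.del t) * Cm (P.Ecal r) t x v) := by
          ring
      _ ≤ 2 * 3 ^ 5 * Kpl * ga (1 / 4) v *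
          ((ENNReal.ofReal √(P.del t) * (17 * δ : ℝ≥0)) * P.om t x v) := mul_le_mul_right (hCm v) _
      _ = (2 * 3 ^ 5 * Kpl * (17 * δ : ℝ≥0)) * ENNReal.ofReal √(P.del t) *
          (ga (1 / 4) v * P.om t x v) := by ring
      _ ≤ _ := mul_le_mul_left (mul_le_mul_left hc1 _) _
  · have h1 := ls_le_of_Cm h (P.meas_Ecal r).1 (fun u hu => (hs t x u ht0.le hu).1) hCm v
    refine h1.trans (mul_le_mul_left ?_ _)
    calc _ = (72 * (17 * δ : ℝ≥0)) * ENNReal.ofReal √(P.del t) := by ring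
      _ ≤ _ := mul_le_mul_left hc2 _

/-- The hole: `hole_small`, `adm_gn_Mx`, `ls_le_br`. -/
theorem hole_rates (hε : 0 < ε₂) {t₁ : ℝ} (ht₁ : 0 < t₁) : ∃ r' : ℝ, 0 < r' ∧ ∀ P : CP, P.OK →
    P.r₁ ≤ r' → ∀ t, t₁ ≤ t → ∀ x v,
      GN (vl Mx * P.hole) P.mw t x v ≤ ε₂ * nuM / 128 * P.mw t x v ∧
      LS (vl Mx * P.hole) t x v ≤ ε₂ * nuM / 128 * br v := by
  obtain ⟨K, hK⟩ := adm_gn_Mx N0
  obtain ⟨η, hη⟩ : ∃ η : ℝ≥0, η = ε₂ * nuM / 128 / (K + 24) := ⟨_, rfl⟩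
  have hη0 : 0 < η := by
    have := nuM_pos
    rw [hη]
    positivity
  have hc : ((K : ℝ≥0∞) + 24) * η = ε₂ * nuM / 128 := by
    rw [← W3_c0]
    have : (K + 24) * η = ε₂ * nuM / 128 := by
      rw [hη]
      exact mul_div_cancel₀ _ (by positivity)
    exact_mod_cast this
  obtain ⟨r', hr', H⟩ := hole_small hη0 ht₁
  refine ⟨r', hr', fun P h hP t ht x v => ⟨?_, ?_⟩⟩
  · have h1 := hK _ (adm_om h t x) _ (P.reg_hole.meas.slice t x) v
    calc _ ≤ _ := h1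
      _ ≤ K * P.mw t x v * η :=
          mul_le_mul' (mul_le_mul_right (P.W3_ga_le_mw t x v) _) (H P hP t ht x v).1
      _ = K * η * P.mw t x v := by ring
      _ ≤ _ := mul_le_mul_left (hc ▸ mul_le_mul_left le_self_add _) _
  · have h1 := ls_le_br (((meas_vl measurable_Mx).mul P.reg_hole.meas).slice t x) v
    calc _ ≤ _ := h1
      _ ≤ 24 * br v * η := mul_le_mul_right (H P hP t ht x v).2 _
      _ = 24 * η * br v := by ring
      _ ≤ _ := mul_le_mul_left (hc ▸ mul_le_mul_left le_add_self _) _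

theorem W3_reg_Mx : Reg (vl Mx) :=
  ⟨meas_vl measurable_Mx, invF_vl _, fun _ _ _ => ENNReal.ofReal_ne_top⟩

theorem W3_del_le_sqrt (P : CP) (t : ℝ) :
    ENNReal.ofReal (P.del t) ≤ ENNReal.ofReal √(P.del t) := by
  refine ENNReal.ofReal_le_ofReal (Real.le_sqrt_of_sq_le ?_)
  nlinarith [P.del_pos t, P.del_le_one t]

theorem W3_sqrt_le (P : CP) (t : ℝ) : √(P.del t) ≤ 1 := Real.sqrt_le_one.2 (P.del_le_one t)

theorem W3_rho (P : CP) (r : ℝ) (F : Fn) (ε₂ : ℝ≥0) (t : ℝ) : ((P.D2 r F ε₂).ρ t : ℝ≥0∞) =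
    16 * (ε₂ * nuM / 128 * ENNReal.ofReal √(P.del t)) := by
  have e : (P.D2 r F ε₂).ρ t = 16 * (ε₂ * nuM / 128 * (√(P.del t)).toNNReal) := by
    change ε₂ * nuM / 8 * (√(P.del t)).toNNReal = _
    ring
  rw [e, ← W3_c0, ENNReal.coe_mul, ENNReal.coe_mul]
  rfl

/-- The three rates of the singular envelope. -/
theorem W3_rates (h : P.OK) (h₂ : P.Num2 ε₂)
    (hh : ∀ t, P.t₁ ≤ t → ∀ x v, GN (vl Mx * P.hole) P.mw t x v ≤ ε₂ * nuM / 128 * P.mw t x v ∧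
      LS (vl Mx * P.hole) t x v ≤ ε₂ * nuM / 128 * br v) :
    ∀ᶠ r in 𝓝[>] (0 : ℝ), ∀ t, P.t₁ ≤ t → ∀ x v,
      GN (P.Sg r) P.mw t x v ≤ 2 * (ε₂ * nuM / 128 * ENNReal.ofReal √(P.del t)) * P.mw t x v ∧
      LS (P.Sg r) t x v ≤ 2 * (ε₂ * nuM / 128 * ENNReal.ofReal √(P.del t)) * br v ∧
      GN (P.Sg r) (P.Sg r) t x v ≤ P.Ps r t x v +
        4 * (ε₂ * nuM / 128 * ENNReal.ofReal √(P.del t)) * P.mw t x v := by
  have hε : (0 : ℝ) < ε₂ := h₂.pos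
  have hν : (0 : ℝ) < nuM := nuM_pos
  filter_upwards [cold_rates h h₂, Ec_le h,
    Dump_long h (η := (ε₂ * nuM / 128 / 27 : ℝ≥0)) (by push_cast; positivity)] with r hc hE hD t ht x v
  set c : ℝ≥0∞ := ε₂ * nuM / 128 * ENNReal.ofReal √(P.del t) with hcdef
  have mE : Meas (P.Ecal r) := (P.meas_Ecal r).1
  have mH : Meas (vl Mx * P.hole) := (meas_vl measurable_Mx).mul P.reg_hole.meas
  have md : Meas (tm P.del) := meas_tm P.continuous_del.measurable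
  have mw : Meas P.mw := (reg_mw h).meas
  have hS : P.Sg r t x ≤ (tm P.del * P.Ecal r) t x + (tm P.del * (vl Mx * P.hole)) t x := by
    intro u
    change _ ≤ ENNReal.ofReal (P.del t) * P.Ecal r t x u +
      ENNReal.ofReal (P.del t) * (Mx u * P.hole t x u)
    rw [W3_Sg, ← mul_add]
    exact mul_le_mul_right (add_le_add (hE t x u) le_rfl) _
  have hB : (tm P.del * (vl Mx * P.hole)) t x ≤ P.mw t x := fun u =>
    (mul_le_of_le_one_left' (P.W3_del_le t)).trans ((P.W3_Mxh_le t x u).trans (P.Mx_le_mw t x u))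
  have hA1 : gn ((tm P.del * P.Ecal r) t x) (P.mw t x) v ≤ c * P.mw t x v := by
    change GN _ _ t x v ≤ _
    rw [GN_tm_left mE mw]
    exact (hc t ht x v).1
  have hB1 : gn ((tm P.del * (vl Mx * P.hole)) t x) (P.mw t x) v ≤ c * P.mw t x v := by
    change GN _ _ t x v ≤ _
    rw [GN_tm_left mH mw]
    calc _ ≤ ENNReal.ofReal √(P.del t) * (ε₂ * nuM / 128 * P.mw t x v) :=
          mul_le_mul' (P.W3_del_le_sqrt t) (hh t ht x v).1
      _ = _ := by rw [hcdef]; ring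
  have hA2 : ls ((tm P.del * P.Ecal r) t x) v ≤ c * br v := by
    change LS _ t x v ≤ _
    rw [LS_tm mE]
    exact (hc t ht x v).2
  have hB2 : ls ((tm P.del * (vl Mx * P.hole)) t x) v ≤ c * br v := by
    change LS _ t x v ≤ _
    rw [LS_tm mH]
    calc _ ≤ ENNReal.ofReal √(P.del t) * (ε₂ * nuM / 128 * br v) :=
          mul_le_mul' (P.W3_del_le_sqrt t) (hh t ht x v).2
      _ = _ := by rw [hcdef]; ring
  have hDump : ENNReal.ofReal (P.del t ^ 2) * P.Dump r t x v ≤ c * P.mw t x v := by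
    refine (hD t ht x v).trans ?_
    split_ifs with hv
    · have h1 : (1 : ℝ≥0∞) ≤ 27 * ga (1 / 4) v := by
        have h2 : ‖v‖ ^ 2 ≤ 3 ^ 2 := pow_le_pow_left₀ (norm_nonneg v) hv 2
        have := W1e_le_mul (a := 0) (b := -(1 / 4) * ‖v‖ ^ 2) 3 (by push_cast; linarith)
        rw [← W1_ga] at this
        refine le_trans ?_ (this.trans (le_of_eq ?_))
        · simp [W1e]
        · norm_num
      have h3 : (((ε₂ * nuM / 128 / 27 : ℝ≥0) : ℝ≥0∞)) * 27 = ε₂ * nuM / 128 := by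
        rw [← W3_c0]
        have : (ε₂ * nuM / 128 / 27 : ℝ≥0) * 27 = ε₂ * nuM / 128 :=
          div_mul_cancel₀ _ (by norm_num)
        exact_mod_cast this
      rw [ENNReal.ofReal_mul (NNReal.coe_nonneg _), ENNReal.ofReal_coe_nnreal]
      calc _ ≤ ((ε₂ * nuM / 128 / 27 : ℝ≥0) : ℝ≥0∞) * ENNReal.ofReal √(P.del t) *
            (27 * ga (1 / 4) v * P.om t x v) :=
            mul_le_mul_right (le_mul_of_one_le_left' h1) _
        _ = ((ε₂ * nuM / 128 / 27 : ℝ≥0) : ℝ≥0∞) * 27 * ENNReal.ofReal √(P.del t) *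
            (ga (1 / 4) v * P.om t x v) := by ring
        _ = _ := by rw [h3]; rfl
    · exact zero_le
  have hAA : gn ((tm P.del * P.Ecal r) t x) ((tm P.del * P.Ecal r) t x) v ≤
      P.Ps r t x v + c * P.mw t x v := by
    change GN _ _ t x v ≤ _
    rw [GN_tm_left mE (md.mul mE), GN_tm_right mE mE]
    change ENNReal.ofReal (P.del t) * (ENNReal.ofReal (P.del t) * GN _ _ t x v) ≤
      ENNReal.ofReal (P.del t ^ 2) * P.Psi r t x v + _
    rw [← mul_assoc, ← ENNReal.ofReal_mul (P.del_pos t).le, ← sq]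
    refine (mul_le_mul_right (P.GN_Ecal_le_Psi r t x v) _).trans ?_
    change _ * (P.Psi r t x v + P.Dump r t x v) ≤ _
    rw [mul_add]
    exact add_le_add le_rfl hDump
  have sA := (md.mul mE).slice t x
  have sB := (md.mul mH).slice t x
  refine ⟨?_, ?_, ?_⟩
  · refine (gn_mono hS le_rfl v).trans ?_
    rw [gn_add_left sA sB (mw.slice t x), mul_assoc, two_mul]
    exact add_le_add hA1 hB1
  · refine (ls_mono hS v).trans ?_
    rw [ls_add sA sB, mul_assoc, two_mul]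
    exact add_le_add hA2 hB2
  · refine (gn_mono hS hS v).trans ?_
    rw [gn_add_add sA sB]
    calc _ ≤ P.Ps r t x v + c * P.mw t x v + 2 * (c * P.mw t x v) + c * P.mw t x v :=
          add_le_add (add_le_add hAA (mul_le_mul_right ((gn_mono le_rfl hB v).trans hA1) _))
            ((gn_mono le_rfl hB v).trans hB1)
      _ = _ := by ring

/-- `Sg ≤ del (Ecal + M hole)`, `M ≤ mw`, `br M ≤ 2 mw`; `GN_Ecal_le_Psi`, `Dump_long`;
`exists_env` with `Good.le'`. -/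
theorem D2_OK (hε : 0 < ε₂) {t₁ : ℝ} (ht₁ : 0 < t₁) : ∃ r' : ℝ, 0 < r' ∧ ∀ P : CP, P.OK →
    P.Num2 ε₂ → P.t₁ = t₁ → P.r₁ ≤ r' → ∀ᶠ r in 𝓝[>] (0 : ℝ), (P.D1 r).OK → ∀ F, (P.D1 r).Good F →
      (P.D2 r F ε₂).OK := by
  obtain ⟨r', hr', H⟩ := hole_rates hε ht₁
  refine ⟨r', hr', fun P h h₂ hPt hP => ?_⟩
  subst hPt
  filter_upwards [W3_rates h h₂ (H P h hP), reg_E1 h, Sg_le h, Sg_br h, init₂ h h₂, Ec_le h,
    exists_env h] with r hR rE1 hSl hSb hi₂ hEc henv hD F hF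
  have rSg : Reg (P.Sg r) := (reg_tm P.continuous_del.measurable).mul
    (((reg_E0 h r).add rE1).add (W3_reg_Mx.mul P.reg_hole))
  have hν : (0 : ℝ) < nuM := nuM_pos
  have hν1 : (nuM : ℝ) ≤ 1 := nuM_le
  have hε1 : (ε₂ : ℝ) ≤ 1 := h₂.le
  refine
    { rSg := rSg
      rom := reg_om h
      mPs := (meas_tm (P.continuous_del.pow 2).measurable).mul (P.meas_Psi r).1
      rF := hF.ts.reg
      mρ := (measurable_real_toNNReal.comp P.continuous_del.sqrt.measurable).const_mul _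
      t₁_pos := h.t₁_pos
      ν_pos := nuM_pos
      ν_le := nuM_br
      one_Cw := h.one_le_Cw
      adm := adm_om h
      om_pa := fun t x v s hs hst => om_pa h (h.t₁_pos.trans_le hs) hst x v
      Sg_pa := fun t x v s hs hst => P.Sg_pa r x v hst
      Sg_br := fun t x v => (hSb t x v).trans (add_le_add le_rfl (mul_le_mul_left ?_ _))
      init₁ := init₁ h h₂ hD hF
      init₂ := hi₂ hD F hF
      LSg := fun t ht x v => (hR t ht x v).2.1.trans (mul_le_mul_left ?_ _)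
      MS := fun t ht x v => ?_
      SS := fun t ht x v => (hR t ht x v).2.2.trans (add_le_add le_rfl (mul_le_mul_left ?_ _))
      Sm := fun t ht x v => ?_
      Ps_le := Ps_le h r F ε₂
      ρ_le := fun t => ?_
      ρ_int := ?_
      plain := hF.plain hD
      env := fun T G hG hGF hGT => henv T (P.K₀.toNNReal + 3) G fun t ht x v => ?_ }
  · change (2 : ℝ≥0∞) ≤ ((2 + ε₂ : ℝ≥0) : ℝ≥0∞)
    exact_mod_cast (le_self_add : (2 : ℝ≥0) ≤ 2 + ε₂)
  · have e : (nuM : ℝ≥0∞) / 8 = ((nuM / 8 : ℝ≥0) : ℝ≥0∞) := by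
      rw [ENNReal.coe_div (by norm_num)]
      rfl
    change _ ≤ (nuM : ℝ≥0∞) / 8
    rw [e, ← W3_c0]
    refine (mul_le_mul_right
      (mul_le_of_le_one_right' (ENNReal.ofReal_le_one.2 (P.W3_sqrt_le t))) _).trans ?_
    have : (2 * (ε₂ * nuM / 128) : ℝ≥0) ≤ nuM / 8 := by
      rw [← NNReal.coe_le_coe]
      push_cast
      nlinarith
    exact_mod_cast this
  · rw [W3_rho, D2_mw]
    set c : ℝ≥0∞ := ε₂ * nuM / 128 * ENNReal.ofReal √(P.del t) with hcdef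
    have h1 : GN (vl Mx) (P.Sg r) t x v ≤ 2 * c * P.mw t x v := by
      rw [GN_comm W3_reg_Mx.meas rSg.meas]
      exact (gn_mono le_rfl (fun u => P.Mx_le_mw t x u) v).trans (hR t ht x v).1
    have h2 : br v * Mx v ≤ 2 * P.mw t x v :=
      (W3_br_Mx v).trans (mul_le_mul_right (P.W3_ga_le_mw t x v) _)
    calc _ ≤ 2 * (2 * c * P.mw t x v) + Mx v * (2 * c * br v) :=
          add_le_add (mul_le_mul_right h1 _) (mul_le_mul_right (hR t ht x v).2.1 _)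
      _ = 4 * c * P.mw t x v + 2 * c * (br v * Mx v) := by ring
      _ ≤ 4 * c * P.mw t x v + 2 * c * (2 * P.mw t x v) := add_le_add le_rfl (mul_le_mul_right h2 _)
      _ = 8 * c * P.mw t x v := by ring
      _ ≤ _ := mul_le_mul_left (mul_le_mul_left (by norm_num) _) _
  · rw [W3_rho]
    exact mul_le_mul_left (by norm_num) _
  · rw [W3_rho, D2_mw]
    refine (mul_le_mul_right (hR t ht x v).1 _).trans ?_
    rw [← mul_assoc, ← mul_assoc]
    exact mul_le_mul_left (mul_le_mul_left (by norm_num) _) _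
  · change ε₂ * nuM / 8 * (√(P.del t)).toNNReal ≤ 2 + ε₂
    rw [← NNReal.coe_le_coe]
    push_cast
    rw [Real.coe_toNNReal _ (Real.sqrt_nonneg _)]
    have h1 := P.W3_sqrt_le t
    have h2 : (ε₂ : ℝ) * nuM ≤ 1 := mul_le_one₀ hε1 hν.le hν1
    have h3 : (ε₂ : ℝ) * nuM / 8 * √(P.del t) ≤ 1 :=
      mul_le_one₀ (by linarith) (Real.sqrt_nonneg _) h1
    linarith [ε₂.coe_nonneg]
  · change ∫⁻ t in Ioi P.t₁, ((ε₂ * nuM / 8 * (√(P.del t)).toNNReal : ℝ≥0) : ℝ≥0∞) ≤ ε₂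
    simp_rw [ENNReal.coe_mul]
    rw [lintegral_const_mul' _ _ ENNReal.coe_ne_top]
    refine (mul_le_mul_right P.lintegral_sqrt_del _).trans (le_of_eq ?_)
    rw [← ENNReal.ofReal_coe_nnreal, ← ENNReal.ofReal_mul (NNReal.coe_nonneg _),
      ← ENNReal.ofReal_coe_nnreal]
    congr 1
    push_cast
    field_simp
  · change G t x v ≤ P.Ecal r t x v + ((P.K₀.toNNReal + 3 : ℝ≥0) : ℝ≥0∞) * P.mw t x v
    have e : ((P.K₀.toNNReal + 3 : ℝ≥0) : ℝ≥0∞) = ENNReal.ofReal P.K₀ + 3 := by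
      push_cast
      rfl
    rw [e]
    rcases le_total t P.t₁ with h1 | h1
    · have ht' : t ∈ Icc 0 P.t₁ := ⟨ht.1, h1⟩
      rw [hGF t ht']
      calc _ ≤ (P.E0 r + P.E1 r) t x v + P.H t x v + P.W t x v := hF.le' hD t ht' x v
        _ ≤ P.Ecal r t x v + ENNReal.ofReal P.K₀ * P.mw t x v + P.mw t x v :=
          add_le_add (add_le_add (hEc t x v) (H_le_mw h (W3_t₁ h ht') x v))
            (W_le_mw (W3_t₁ h ht') x v)
        _ = P.Ecal r t x v + (ENNReal.ofReal P.K₀ + 1) * P.mw t x v := by ring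
        _ ≤ _ := add_le_add le_rfl (mul_le_mul_left (add_le_add le_rfl (by norm_num)) _)
    · calc _ ≤ P.Sg r t x v + 2 * P.mw t x v := hGT t ⟨h1, ht.2⟩ x v
        _ ≤ P.Ecal r t x v + P.mw t x v + 2 * P.mw t x v := add_le_add (hSl t x v) le_rfl
        _ = P.Ecal r t x v + 3 * P.mw t x v := by ring
        _ ≤ _ := add_le_add le_rfl (mul_le_mul_left le_add_self _)

end CP

end Crest.Agent.R68
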