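/-
R68/Fin3: the final assembly
Skeleton by helper76 (row 68); keep the statements unchanged, add any helper lemmas you like.
-/
import Crest.Agent.R68.Fin1
import Crest.Agent.R68.Fin2
import Crest.Agent.R68.W3
import Crest.Agent.R68.IIe
import Crest.Agent.R68.SolFin

set_option autoImplicit false
set_option linter.unusedVariables false
set_option linter.unusedSectionVars false

noncomputable section

namespace Crest.Agent.R68

open MeasureTheory Set Filter Topology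
open scoped ENNReal NNReal
open Crest.AnalysisR.VecCalc3 Crest.AnalysisR.PDE.Boltzmann

theorem final :
    ∃ R : ℝ, ∃ F₀ : R3 → R3 → ℝ, IsAdmissibleDatum F₀ R ∧
      ∃ F₁ F₂ : ℝ → R3 → R3 → ℝ, IsGlobalSolution F₁ F₀ ∧ IsGlobalSolution F₂ F₀ ∧
        0 < volume {p : ℝ × R3 × R3 | p ∈ region ∧ F₁ p.1 p.2.1 p.2.2 ≠ F₂ p.1 p.2.1 p.2.2} := by
  obtain ⟨V₀, hV₀⟩ := CP.layer
  set V : ℝ := max V₀ 16 with hVdef
  obtain ⟨α₀, hα₀, hlayer⟩ := hV₀ V (le_max_left _ _)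
  obtain ⟨ε₂, H₀, hε₂, hH₀, hglob⟩ := P2.global nuM N0 (Cwv V) nuM_pos
  obtain ⟨R', r', hr', hent⟩ := CP.ent_F0 hH₀
  have hε : (0 : ℝ≥0) < min ε₂ 1 := lt_min hε₂ one_pos
  have hD2 := fun (t : ℝ) (ht : 0 < t) => CP.D2_OK hε ht
  choose! ρ hρ hD2 using hD2
  obtain ⟨P, hN, hN2, hPV, hPα, hPR, hPr, hx, hnb⟩ :=
    CP.exists_params (V := V) (α := min α₀ (1 / 40)) (le_max_right _ _)
      (lt_min hα₀ (by norm_num)) (min_le_right _ _) hε (min_le_right _ _) R'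
      (ρ := fun t => min r' (ρ t)) (fun t ht => lt_min hr' (hρ t ht))
  have h1 := hlayer P hN hPV (hPα ▸ min_le_left _ _) hx hnb
  have h2 := hD2 P.t₁ hN.ok.t₁_pos P hN.ok hN2 rfl (hPr.trans (min_le_right _ _))
  have h3 := hent P hN.ok hPR (hPr.trans (min_le_left _ _))
  have h4 := CP.F0_supp hN.ok
  obtain ⟨r, ⟨hD, ht₀, ht₁, F, G, hF, hG, hlt⟩, h2, h3, h4⟩ := (h1.and (h2.and (h3.and h4))).exists
  have key : ∀ F, (P.D1 r).Good F → ∃ F', (∀ T, Plain F' T) ∧ ∀ t, t ≤ P.t₁ → F' t = F t := by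
    intro F hF
    have h0 : F 0 = P.F0 r := hF.zero hD
    refine hglob (P.D2 r F (min ε₂ 1)) ⟨h2 hD F hF, rfl, rfl, ?_⟩ (min_le_left _ _) ?_
    · show Cwv P.V = Cwv V
      rw [hPV]
    · show relEntropy (fun x v => (F 0 x v).toReal) ≤ H₀
      rw [h0]
      exact h3
  obtain ⟨F', hF', eF⟩ := key F hF
  obtain ⟨G', hG', eG⟩ := key G hG
  have t₁0 : (0 : ℝ) ≤ P.t₁ := hN.ok.t₁_pos.le
  have f0 : F' 0 = P.F0 r := (eF 0 t₁0).trans (hF.zero hD)
  have g0 : G' 0 = P.F0 r := (eG 0 t₁0).trans (hG.zero hD)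
  refine result_of hF' hG' (f0.trans g0.symm) (R := P.R₀) (fun x v hv => ?_) ht₀ (fun hae => ?_)
  · rw [f0]
    exact h4 x v hv
  · rw [eF _ ht₁, eG _ ht₁] at hae
    exact hlt.ne (P.Nf_congr_ae _ hae)

end Crest.Agent.R68
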